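import Vale.Agent.P190.Lat2

/-! First Chern class, degrees and slopes. -/

open Module
open scoped TensorProduct Pointwise

noncomputable section

namespace Vale.Agent.P190

variable {U K : Type} [Field K] {O : Fam U K}
variable {V V' V'' : Type} [AddCommGroup V] [Module K V] [AddCommGroup V'] [Module K V']
  [AddCommGroup V''] [Module K V'']

lemma C1.det_mem {R : Subring K} {ι : Type} [Fintype ι] [DecidableEq ι] (e : Basis ι K V)
    {v : ι → V} (h : ∀ i, v i ∈ latt R e) : e.det v ∈ R := by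
  rw [Basis.det_apply, Matrix.det_apply']
  exact sum_mem fun σ _ => mul_mem (intCast_mem _ _) (prod_mem fun i _ => h i _)

lemma C1.det_ne_zero {ι : Type} [Fintype ι] [DecidableEq ι] (e e' : Basis ι K V) :
    e.det e' ≠ 0 := (e.isUnit_det e').ne_zero

lemma C1.det_inv {ι : Type} [Fintype ι] [DecidableEq ι] (e e' : Basis ι K V) :
    (e.det e')⁻¹ = e'.det e :=
  inv_eq_of_mul_eq_one_right (by rw [Basis.det_mul_det, Basis.det_self])

lemma C1.det_mem_of_le {R : Subring K} {ι : Type} [Fintype ι] [DecidableEq ι]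
    {e e' : Basis ι K V} (h : latt R e ≤ latt R e') : e'.det e ∈ R :=
  C1.det_mem e' fun i => h (Lat1.basis_mem e i)

lemma C1.cl_eq {L : Sys U V} {ι : Type} [Fintype ι] [DecidableEq ι] (e₀ e₁ : Basis ι K V)
    {c c' : Div O} (h : ∀ u, ∃ e : Basis ι K V, L u = latt (O u) e ∧ dv c u = e₀.det e)
    (h' : ∀ u, ∃ e : Basis ι K V, L u = latt (O u) e ∧ dv c' u = e₁.det e) : cl c = cl c' := by
  rw [← sub_eq_zero, sub_eq_add_neg, ← cl_inv, ← cl_mul, cl_eq_zero_iff]
  refine ⟨Units.mk0 _ (C1.det_ne_zero e₀ e₁), fun u => ?_⟩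
  obtain ⟨e, he, hc⟩ := h u
  obtain ⟨e', he', hc'⟩ := h' u
  have h1 : dv c u * (dv c' u)⁻¹ * (e₀.det e₁)⁻¹ = e'.det e := by
    rw [hc, hc', ← Basis.det_mul_det e₀ e₁ e, ← Basis.det_mul_det e₁ e' e]
    have := C1.det_ne_zero e₀ e₁
    have := C1.det_ne_zero e₁ e'
    field_simp
  have h2 : (((c * c'⁻¹).1 u * (Units.mk0 _ (C1.det_ne_zero e₀ e₁))⁻¹ : Kˣ) : K) = e'.det e := by
    rw [← h1]
    simp [dv]
  constructor
  · rw [h2]
    exact C1.det_mem_of_le (he.symm.trans he').le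
  · rw [Units.val_inv_eq_inv_val, h2, C1.det_inv]
    exact C1.det_mem_of_le (he'.symm.trans he).le

/-- flexible form: any finite index type, any reference basis -/
lemma c1_eq (hO : IsFam O) {L : Sys U V} {ι : Type} [Fintype ι] [DecidableEq ι]
    (e₀ : Basis ι K V) (c : Div O)
    (h : ∀ u, ∃ e : Basis ι K V, L u = latt (O u) e ∧ dv c u = e₀.det e) : c1 O L = cl c := by
  have h1 : ∀ {n : ℕ} (σ : ι ≃ Fin n) (u : U), ∃ e : Basis (Fin n) K V,
      L u = latt (O u) e ∧ dv c u = (e₀.reindex σ).det e := by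
    intro n σ u
    obtain ⟨e, he, he'⟩ := h u
    refine ⟨e.reindex σ, by rw [Lat1.latt_reindex, he], ?_⟩
    rw [he', Basis.coe_reindex, Basis.det_reindex]
    congr 1
    funext i
    simp
  have h2 : ∃ c : Div O, IsDet O L c := ⟨c, _, e₀.reindex (Fintype.equivFin ι), h1 _⟩
  rw [c1, dif_pos h2]
  obtain ⟨n, e₁, h3⟩ := h2.choose_spec
  exact C1.cl_eq e₁ _ h3 (h1 (e₀.indexEquiv e₁))

/-- given local bases, their determinants form a divisor -/
lemma IsBun.exists_det_of_bases (hO : IsFam O) {L : Sys U V} (hL : IsBun O L) {ι : Type}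
    [Fintype ι] [DecidableEq ι] (e₀ : Basis ι K V) (e : U → Basis ι K V)
    (he : ∀ u, L u = latt (O u) (e u)) :
    ∃ c : Div O, (∀ u, dv c u = e₀.det (e u)) ∧ c1 O L = cl c := by
  let c : Div O := ⟨fun u => Units.mk0 _ (C1.det_ne_zero e₀ (e u)),
    (hL.std' hO e₀).subset fun u hu hc => hu
      ⟨C1.det_mem_of_le ((he u).symm.trans hc).le, by
        rw [Units.val_inv_eq_inv_val, Units.val_mk0, C1.det_inv]
        exact C1.det_mem_of_le (hc.symm.trans (he u)).le⟩⟩
  exact ⟨c, fun u => rfl, c1_eq hO e₀ c fun u => ⟨e u, he u, rfl⟩⟩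

lemma IsBun.exists_det (hO : IsFam O) {L : Sys U V} (hL : IsBun O L) {ι : Type} [Fintype ι]
    [DecidableEq ι] (e₀ : Basis ι K V) :
    ∃ c : Div O, ∀ u, ∃ e : Basis ι K V, L u = latt (O u) e ∧ dv c u = e₀.det e := by
  choose e he using fun u => (hL.lat u).exists_basis e₀
  obtain ⟨c, hc, -⟩ := hL.exists_det_of_bases hO e₀ e he
  exact ⟨c, fun u => ⟨e u, he u, hc u⟩⟩

lemma c1_push_equiv (hO : IsFam O) {L : Sys U V} (hL : IsBun O L) (e : V ≃ₗ[K] V') :
    c1 O (push e.toLinearMap L) = c1 O L := by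
  obtain ⟨n, e₀, -⟩ := hL.std
  obtain ⟨c, hc⟩ := hL.exists_det hO e₀
  rw [c1_eq hO e₀ c hc]
  refine c1_eq hO (e₀.map e) c fun u => ?_
  obtain ⟨b, hb, hb'⟩ := hc u
  refine ⟨b.map e, ?_, ?_⟩
  · rw [← Lat1.latt_map b (b.map e) e.toLinearMap (fun j => Lat1.basis_mem (b.map e) j)
      fun j => ⟨j, rfl⟩, ← hb]
    rfl
  · rw [hb', Basis.det_map]
    congr 1
    funext j
    simp

lemma Exact3.c1_add (hO : IsFam O) {L' : Sys U V'} {L : Sys U V} {L'' : Sys U V''}
    {i : V' →ₗ[K] V} {p : V →ₗ[K] V''} (h : Exact3 L' L L'' i p) (hL : IsBun O L) :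
    c1 O L = c1 O L' + c1 O L'' := by
  have := hL.finiteDimensional
  obtain ⟨n, n', e₀, hW⟩ := Lat1.exists_adapted_basis (LinearMap.range i)
  obtain ⟨e₀', he₀'⟩ := Lat1.aux_pull e₀ i h.inj hW
  obtain ⟨e₀'', he₀'', -⟩ := Lat1.aux_push e₀ p h.surj (h.exact ▸ hW)
  have h0 : ∀ u, ∃ (e' : Basis (Fin n) K V') (e : Basis (Fin n ⊕ Fin n') K V)
      (e'' : Basis (Fin n') K V''), L' u = latt (O u) e' ∧ L u = latt (O u) e ∧
      L'' u = latt (O u) e'' ∧ (∀ a, e (Sum.inl a) = i (e' a)) ∧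
      ∀ b, p (e (Sum.inr b)) = e'' b := by
    intro u
    obtain ⟨m, m', e', e, e'', h1⟩ := h.exists_bases hO hL u
    obtain rfl : m = n := Fin.equiv_iff_eq.1 ⟨e'.indexEquiv e₀'⟩
    obtain rfl : m' = n' := Fin.equiv_iff_eq.1 ⟨e''.indexEquiv e₀''⟩
    exact ⟨e', e, e'', h1⟩
  choose e' e e'' h1 h2 h3 h4 h5 using h0
  obtain ⟨c', hc', hc1'⟩ := (h.isBun_left hO hL).exists_det_of_bases hO e₀' e' h1
  obtain ⟨c'', hc'', hc1''⟩ := (h.isBun_right hO hL).exists_det_of_bases hO e₀'' e'' h3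
  rw [hc1', hc1'', ← cl_mul]
  refine c1_eq hO e₀ _ fun u => ⟨e u, h2 u, ?_⟩
  have hpi : ∀ x, p (i x) = 0 := fun x => by
    have : i x ∈ LinearMap.ker p := h.exact ▸ LinearMap.mem_range_self i x
    exact this
  have k1 : ∀ a x, e₀.repr (i x) (Sum.inl a) = e₀'.repr x a := by
    intro a x
    have : (e₀.coord (Sum.inl a)).comp i = e₀'.coord a := by
      refine e₀'.ext fun b => ?_
      simp [← he₀', Finsupp.single_apply]
    exact LinearMap.congr_fun this x
  have k2 : ∀ a y, e₀.repr y (Sum.inr a) = e₀''.repr (p y) a := by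
    intro a y
    have : e₀.coord (Sum.inr a) = (e₀''.coord a).comp p := by
      refine e₀.ext ?_
      rintro (b | b)
      · rw [LinearMap.comp_apply, show p (e₀ (Sum.inl b)) = 0 by rw [he₀', hpi]]
        simp
      · simp [he₀'', Finsupp.single_apply]
    exact LinearMap.congr_fun this y
  have k3 : e₀.toMatrix (e u) = Matrix.fromBlocks (e₀'.toMatrix (e' u))
      (Matrix.of fun a b => e₀.repr (e u (Sum.inr b)) (Sum.inl a)) 0 (e₀''.toMatrix (e'' u)) := by
    ext (a | a) (b | b)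
    · simp [Basis.toMatrix_apply, h4, k1]
    · simp [Basis.toMatrix_apply]
    · simp [Basis.toMatrix_apply, h4, k2, hpi]
    · simp [Basis.toMatrix_apply, k2, h5]
  rw [dv_mul, hc', hc'', Basis.det_apply, Basis.det_apply, Basis.det_apply, k3,
    Matrix.det_fromBlocks_zero₂₁]

lemma c1_twist (hO : IsFam O) {L : Sys U V} (hL : IsBun O L) (c : Div O) :
    c1 O (twist c L) = c1 O L + finrank K V • cl c := by
  obtain ⟨n, e₀, -⟩ := hL.std
  obtain ⟨a, ha⟩ := hL.exists_det hO e₀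
  rw [c1_eq hO e₀ a ha, ← cl_pow, ← cl_mul, finrank_eq_card_basis e₀]
  refine c1_eq hO e₀ _ fun u => ?_
  obtain ⟨e, he, he'⟩ := ha u
  refine ⟨e.unitsSMul fun _ => c.1 u, ?_, ?_⟩
  · ext x
    rw [mem_twist, he, mem_latt, mem_latt]
    refine forall_congr' fun i => ?_
    rw [Basis.repr_unitsSMul, map_smul, Finsupp.smul_apply, Units.smul_def,
      Units.val_inv_eq_inv_val]
    rfl
  · have h1 : ⇑(e.unitsSMul fun _ => c.1 u) = fun i => dv c u • e i := by
      funext i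
      rw [Basis.unitsSMul_apply]
      rfl
    rw [h1, AlternatingMap.map_smul_univ, dv_mul, dv_pow, he', Finset.prod_const, smul_eq_mul,
      mul_comm, Finset.card_univ]

lemma c1_latt (hO : IsFam O) {ι : Type} [Finite ι] (e : Basis ι K V) :
    c1 O (fun u => latt (O u) e) = 0 := by
  classical
  have := Fintype.ofFinite ι
  exact c1_eq hO e 1 fun u => ⟨e, rfl, e.det_self.symm⟩

lemma c1_triv (hO : IsFam O) : c1 O (triv O) = 0 := by
  have : triv O = fun u => latt (O u) (Basis.singleton Unit K) := by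
    funext u
    ext x
    simp [mem_latt, triv]
  rw [this]
  exact c1_latt hO _

lemma c1_line (hO : IsFam O) (c : Div O) : c1 O (line c) = cl c := by
  rw [line, c1_twist hO isBun_triv, c1_triv hO, zero_add, finrank_self, one_smul]

lemma c1_dual (hO : IsFam O) {L : Sys U V} (hL : IsBun O L) : c1 O (dual O L) = - c1 O L := by
  obtain ⟨n, e₀, -⟩ := hL.std
  obtain ⟨a, ha⟩ := hL.exists_det hO e₀
  rw [c1_eq hO e₀ a ha, ← cl_inv]
  refine c1_eq hO e₀.dualBasis _ fun u => ?_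
  obtain ⟨e, he, he'⟩ := ha u
  refine ⟨e.dualBasis, dual_latt e he, ?_⟩
  rw [dv_inv, he', C1.det_inv, Basis.det_apply, Basis.det_apply, ← Matrix.det_transpose]
  congr 1
  ext i j
  simp [Basis.toMatrix_apply]

lemma c1_tens (hO : IsFam O) {L : Sys U V} {L' : Sys U V'} (hL : IsBun O L) (hL' : IsBun O L') :
    c1 O (tens K L L') = finrank K V' • c1 O L + finrank K V • c1 O L' := by
  obtain ⟨n, e₀, -⟩ := hL.std
  obtain ⟨n', e₀', -⟩ := hL'.std
  obtain ⟨a, ha⟩ := hL.exists_det hO e₀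
  obtain ⟨a', ha'⟩ := hL'.exists_det hO e₀'
  rw [c1_eq hO e₀ a ha, c1_eq hO e₀' a' ha', ← cl_pow, ← cl_pow, ← cl_mul,
    finrank_eq_card_basis e₀, finrank_eq_card_basis e₀']
  refine c1_eq hO (e₀.tensorProduct e₀') _ fun u => ?_
  obtain ⟨e, he, h1⟩ := ha u
  obtain ⟨e', he', h2⟩ := ha' u
  refine ⟨e.tensorProduct e', tens_latt e e' he he', ?_⟩
  rw [dv_mul, dv_pow, dv_pow, h1, h2, Basis.det_apply, Basis.det_apply, Basis.det_apply,
    ← Matrix.det_kronecker]
  congr 1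
  ext ⟨i, i'⟩ ⟨j, j'⟩
  simp [Basis.toMatrix_apply, mul_comm]

lemma c1_prodS (hO : IsFam O) {L : Sys U V} {L' : Sys U V'} (hL : IsBun O L)
    (hL' : IsBun O L') : c1 O (prodS L L') = c1 O L + c1 O L' := by
  have h : Exact3 L (prodS L L') L' (LinearMap.inl K V V') (LinearMap.snd K V V') := by
    refine ⟨LinearMap.inl_injective, LinearMap.snd_surjective, LinearMap.range_inl K V V', ?_, ?_⟩
    · funext u
      ext x
      exact ⟨fun hx => ⟨hx, zero_mem _⟩, fun hx => hx.1⟩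
    · funext u
      ext x
      exact ⟨fun hx => ⟨(0, x), ⟨zero_mem _, hx⟩, rfl⟩, by rintro ⟨y, hy, rfl⟩; exact hy.2⟩
  exact h.c1_add hO (hL.prodS hL')

lemma c1_of_subsingleton (hO : IsFam O) [Subsingleton V] {L : Sys U V} (hL : IsBun O L) :
    c1 O L = 0 := by
  have : L = fun u => latt (O u) (Basis.empty V : Basis Empty K V) :=
    funext fun u => Subsingleton.elim _ _
  rw [this]
  exact c1_latt hO _

lemma c1_le (hO : IsFam O) {L L' : Sys U V} (hL : IsBun O L) (hL' : IsBun O L') (h : L ≤ L') :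
    ∃ c : Div O, Integral c ∧ c1 O L = c1 O L' + cl c := by
  obtain ⟨n, e₀, -⟩ := hL.std
  obtain ⟨a, ha⟩ := hL.exists_det hO e₀
  obtain ⟨a', ha'⟩ := hL'.exists_det hO e₀
  refine ⟨a * a'⁻¹, fun u => ?_, ?_⟩
  · obtain ⟨e, he, h1⟩ := ha u
    obtain ⟨e', he', h2⟩ := ha' u
    rw [dv_mul, dv_inv, h1, h2, C1.det_inv, mul_comm, Basis.det_mul_det]
    exact C1.det_mem_of_le (he ▸ he' ▸ h u)
  · rw [c1_eq hO e₀ a ha, c1_eq hO e₀ a' ha', cl_mul, cl_inv]
    abel

lemma c1_inf_add_sup (hO : IsFam O) {L L' : Sys U V} (hL : IsBun O L) (hL' : IsBun O L') :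
    c1 O (L ⊓ L') + c1 O (L ⊔ L') = c1 O L + c1 O L' := by
  have h : Exact3 (L ⊓ L') (prodS L L') (L ⊔ L')
      (LinearMap.prod (LinearMap.id : V →ₗ[K] V) (-LinearMap.id))
      (LinearMap.coprod (LinearMap.id : V →ₗ[K] V) LinearMap.id) := by
    refine ⟨fun x y hxy => congrArg Prod.fst hxy, fun x => ⟨(x, 0), by simp⟩, ?_, ?_, ?_⟩
    · ext ⟨x, y⟩
      constructor
      · rintro ⟨z, hz⟩
        rw [← hz]
        simp
      · intro hxy
        have h1 : x + y = 0 := hxy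
        exact ⟨x, by simp [eq_neg_of_add_eq_zero_right h1]⟩
    · funext u
      ext x
      exact ⟨fun hx => ⟨hx.1, (L' u).neg_mem hx.2⟩, fun hx => ⟨hx.1, (L' u).neg_mem_iff.1 hx.2⟩⟩
    · funext u
      ext x
      rw [Pi.sup_apply, AddSubgroup.mem_sup]
      constructor
      · rintro ⟨y, hy, z, hz, rfl⟩
        exact ⟨(y, z), ⟨hy, hz⟩, rfl⟩
      · rintro ⟨⟨y, z⟩, ⟨hy, hz⟩, rfl⟩
        exact ⟨y, hy, z, hz, rfl⟩
  rw [← h.c1_add hO (hL.prodS hL'), c1_prodS hO hL hL']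

variable {d : Pic O →+ ℝ}

lemma IsWt.add {d' : Pic O →+ ℝ} (hd : IsWt d) (hd' : IsWt d') : IsWt (d + d') := by
  exact fun c hc => add_nonpos (hd c hc) (hd' c hc)

lemma IsWt.c1_mono (hO : IsFam O) (hd : IsWt d) {L L' : Sys U V} (hL : IsBun O L)
    (hL' : IsBun O L') (h : L ≤ L') : d (c1 O L) ≤ d (c1 O L') := by
  obtain ⟨c, hc, h1⟩ := c1_le hO hL hL' h
  have := hd c hc
  rw [h1, map_add]
  linarith

lemma sdeg_add (d' : Pic O →+ ℝ) (L : Sys U V) (W : Submodule K V) :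
    sdeg O (d + d') L W = sdeg O d L W + sdeg O d' L W := rfl

lemma C1.c1_pull_equiv (hO : IsFam O) {L : Sys U V} (hL : IsBun O L) (e : V' ≃ₗ[K] V) :
    c1 O (pull e.toLinearMap L) = c1 O L := by
  rw [← c1_push_equiv hO hL e.symm, push_equiv_eq_pull]
  rfl

lemma sdeg_top (hO : IsFam O) {L : Sys U V} (hL : IsBun O L) :
    sdeg O d L ⊤ = d (c1 O L) := by
  exact congrArg d (C1.c1_pull_equiv hO hL Submodule.topEquiv)

lemma sdeg_bot (hO : IsFam O) {L : Sys U V} (hL : IsBun O L) : sdeg O d L ⊥ = 0 := by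
  rw [sdeg, c1_of_subsingleton hO (hL.sub hO ⊥), map_zero]

lemma sdeg_twist (hO : IsFam O) {L : Sys U V} (hL : IsBun O L) (c : Div O)
    (W : Submodule K V) : sdeg O d (twist c L) W = sdeg O d L W + finrank K W * d (cl c) := by
  rw [sdeg, sub_twist, c1_twist hO (hL.sub hO W), map_add, map_nsmul, nsmul_eq_mul, sdeg]

lemma sdeg_mono (hO : IsFam O) (hd : IsWt d) {L L' : Sys U V} (hL : IsBun O L)
    (hL' : IsBun O L') (h : L ≤ L') (W : Submodule K V) : sdeg O d L W ≤ sdeg O d L' W := by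
  exact hd.c1_mono hO (hL.sub hO W) (hL'.sub hO W) fun u x hx => h u hx

lemma sdeg_pull (hO : IsFam O) {L : Sys U V} (hL : IsBun O L) (f : V' →ₗ[K] V)
    (hf : Function.Injective f) (W : Submodule K V') :
    sdeg O d (pull f L) W = sdeg O d L (W.map f) := by
  exact congrArg d (C1.c1_pull_equiv hO (hL.sub hO (W.map f)) (W.equivMapOfInjective f hf))

lemma C1.exact3_comap (L : Sys U V) (f : V →ₗ[K] V') (hf : Function.Surjective f)
    (W : Submodule K V') :
    Exact3 (sub L (LinearMap.ker f)) (sub L (W.comap f)) (sub (push f L) W)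
      (Submodule.inclusion (LinearMap.ker_le_comap f))
      (f.restrict (p := W.comap f) (q := W) fun _ hx => hx) := by
  refine ⟨Submodule.inclusion_injective _, ?_, ?_, rfl, ?_⟩
  · rintro ⟨y, hy⟩
    obtain ⟨x, rfl⟩ := hf y
    exact ⟨⟨x, hy⟩, rfl⟩
  · ext ⟨x, hx⟩
    constructor
    · rintro ⟨y, hy⟩
      rw [← hy]
      exact Subtype.ext y.2
    · intro h
      exact ⟨⟨x, congrArg Subtype.val h⟩, rfl⟩
  · funext u
    ext ⟨y, hy⟩
    constructor
    · rintro ⟨x, hx, h⟩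
      obtain rfl : f x = y := h
      exact ⟨⟨x, hy⟩, hx, rfl⟩
    · rintro ⟨x, hx, h⟩
      exact ⟨x.1, hx, congrArg Subtype.val h⟩

lemma C1.finrank_comap [FiniteDimensional K V] (f : V →ₗ[K] V') (hf : Function.Surjective f)
    (W : Submodule K V') :
    finrank K (W.comap f) = finrank K (LinearMap.ker f) + finrank K W :=
  (C1.exact3_comap (U := Unit) (fun _ => ⊤) f hf W).finrank_add

lemma sdeg_push (hO : IsFam O) {L : Sys U V} (hL : IsBun O L) (f : V →ₗ[K] V')
    (hf : Function.Surjective f) (W : Submodule K V') :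
    sdeg O d (push f L) W = sdeg O d L (W.comap f) - sdeg O d L (LinearMap.ker f) := by
  have := (C1.exact3_comap L f hf W).c1_add hO (hL.sub hO _)
  rw [sdeg, sdeg, sdeg, this, map_add]
  ring

lemma sdeg_push_equiv (hO : IsFam O) {L : Sys U V} (hL : IsBun O L) (e : V ≃ₗ[K] V')
    (W : Submodule K V) :
    sdeg O d (push e.toLinearMap L) (W.map e.toLinearMap) = sdeg O d L W := by
  rw [push_equiv_eq_pull, sdeg_pull hO hL _ e.symm.injective, ← Submodule.map_comp]
  simp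

lemma c1_quot (hO : IsFam O) {L : Sys U V} (hL : IsBun O L) (W : Submodule K V) :
    d (c1 O (quot L W)) = d (c1 O L) - sdeg O d L W := by
  rw [(exact3_sub_quot L W).c1_add hO hL, map_add, sdeg]
  ring

lemma sdeg_supermodular (hO : IsFam O) (hd : IsWt d) {L : Sys U V} (hL : IsBun O L)
    (W W' : Submodule K V) :
    sdeg O d L W + sdeg O d L W' ≤ sdeg O d L (W ⊔ W') + sdeg O d L (W ⊓ W') := by
  let p : W × W' →ₗ[K] (W ⊔ W' : Submodule K V) :=
    LinearMap.coprod (Submodule.inclusion le_sup_left) (Submodule.inclusion le_sup_right)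
  let i : (W ⊓ W' : Submodule K V) →ₗ[K] W × W' :=
    LinearMap.prod (Submodule.inclusion inf_le_left) (-Submodule.inclusion inf_le_right)
  have hM := (hL.sub hO W).prodS (hL.sub hO W')
  have h : Exact3 (sub L (W ⊓ W')) (prodS (sub L W) (sub L W'))
      (push p (prodS (sub L W) (sub L W'))) i p := by
    refine ⟨fun x y hxy => Submodule.inclusion_injective _ (congrArg Prod.fst hxy), ?_, ?_, ?_,
      rfl⟩
    · rintro ⟨x, hx⟩
      obtain ⟨y, hy, z, hz, rfl⟩ := Submodule.mem_sup.1 hx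
      exact ⟨(⟨y, hy⟩, ⟨z, hz⟩), rfl⟩
    · ext ⟨x, y⟩
      constructor
      · rintro ⟨z, hz⟩
        rw [← hz]
        exact Subtype.ext (add_neg_cancel z.1)
      · intro hxy
        have h1 : x.1 + y.1 = 0 := congrArg Subtype.val hxy
        have h2 : x.1 = -y.1 := eq_neg_of_add_eq_zero_left h1
        refine ⟨⟨x.1, x.2, h2 ▸ neg_mem y.2⟩, Prod.ext rfl (Subtype.ext ?_)⟩
        change -x.1 = y.1
        rw [h2, neg_neg]
    · funext u
      ext x
      exact ⟨fun hx => ⟨hx, (L u).neg_mem hx⟩, fun hx => hx.1⟩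
  have h1 := h.c1_add hO hM
  rw [c1_prodS hO (hL.sub hO W) (hL.sub hO W')] at h1
  have h2 := hd.c1_mono hO (h.isBun_right hO hM) (hL.sub hO (W ⊔ W')) (by
    rintro u _ ⟨x, hx, rfl⟩
    exact (L u).add_mem hx.1 hx.2)
  have h3 := congrArg d h1
  rw [map_add, map_add] at h3
  simp only [sdeg]
  linarith

/-- the loss of degree under a modification grows with the subspace -/
lemma sdeg_sub_mono (hO : IsFam O) (hd : IsWt d) {L L' : Sys U V} (hL : IsBun O L)
    (hL' : IsBun O L') (h : L' ≤ L) {W W' : Submodule K V} (hW : W ≤ W') :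
    sdeg O d L W - sdeg O d L' W ≤ sdeg O d L W' - sdeg O d L' W' := by
  have h1 : ∀ {M : Sys U V}, IsBun O M → d (c1 O (quot (sub M W') (W.comap W'.subtype))) =
      sdeg O d M W' - sdeg O d M W := by
    intro M hM
    rw [c1_quot hO (hM.sub hO W'), sub, sdeg_pull hO hM _ W'.injective_subtype,
      Submodule.map_comap_subtype, inf_eq_right.2 hW]
    rfl
  have h2 := hd.c1_mono hO ((hL'.sub hO W').quot hO (W.comap W'.subtype))
    ((hL.sub hO W').quot hO (W.comap W'.subtype)) (by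
      rintro u _ ⟨x, hx, rfl⟩
      exact ⟨x, h u hx, rfl⟩)
  rw [h1 hL, h1 hL'] at h2
  linarith

/-- losses are subadditive under intersection -/
lemma sdeg_inf_ge (hO : IsFam O) (hd : IsWt d) {L L₁ L₂ : Sys U V} (hL : IsBun O L)
    (h₁ : IsBun O L₁) (h₂ : IsBun O L₂) (hle₁ : L₁ ≤ L) (hle₂ : L₂ ≤ L) (W : Submodule K V) :
    sdeg O d L₁ W + sdeg O d L₂ W ≤ sdeg O d L W + sdeg O d (L₁ ⊓ L₂) W := by
  have h1 := congrArg d (c1_inf_add_sup hO (h₁.sub hO W) (h₂.sub hO W))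
  have h2 := hd.c1_mono hO ((h₁.sub hO W).sup hO (h₂.sub hO W)) (hL.sub hO W)
    (sup_le (fun u x hx => hle₁ u hx) fun u x hx => hle₂ u hx)
  have h3 : sub L₁ W ⊓ sub L₂ W = sub (L₁ ⊓ L₂) W := rfl
  rw [map_add, map_add, h3] at h1
  simp only [sdeg]
  linarith

/-- losses at coprime divisors are additive -/
lemma sdeg_inf_eq (hO : IsFam O) {L L₁ L₂ : Sys U V} (hL : IsBun O L)
    (h₁ : IsBun O L₁) (h₂ : IsBun O L₂) (hle₁ : L₁ ≤ L) (hle₂ : L₂ ≤ L) {c₁ c₂ : Div O}
    (hc : Coprime c₁ c₂) (hc₁ : twist c₁ L ≤ L₁) (hc₂ : twist c₂ L ≤ L₂) (W : Submodule K V) :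
    sdeg O d L₁ W + sdeg O d L₂ W = sdeg O d L W + sdeg O d (L₁ ⊓ L₂) W := by
  have h1 := congrArg d (c1_inf_add_sup hO (h₁.sub hO W) (h₂.sub hO W))
  have h2 : sub L₁ W ⊔ sub L₂ W = sub L W := by
    refine le_antisymm (sup_le (fun u x hx => hle₁ u hx) fun u x hx => hle₂ u hx) fun u x hx => ?_
    obtain ⟨a, ha, b, hb, hab⟩ := hc u
    have h1 : x = (a * dv c₁ u) • x + (b * dv c₂ u) • x := by rw [← add_smul, hab, one_smul]
    have h2 : ∀ (c : Div O) (a : K), a ∈ O u → (a * dv c u) • x.1 ∈ twist c L u := by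
      intro c a ha
      rw [mem_twist, smul_smul, mul_comm a, ← mul_assoc, inv_mul_cancel₀ (dv_ne_zero c u),
        one_mul]
      exact hL.smul_mem ha hx
    rw [h1]
    exact AddSubgroup.add_mem_sup (hc₁ u (h2 c₁ a ha)) (hc₂ u (h2 c₂ b hb))
  have h3 : sub L₁ W ⊓ sub L₂ W = sub (L₁ ⊓ L₂) W := rfl
  rw [map_add, map_add, h3, h2] at h1
  simp only [sdeg]
  linarith

lemma sdeg_nonneg_of_sections (hO : IsFam O) (hd : IsWt d) {L : Sys U V} (hL : IsBun O L)
    {S : Set V} (hS : ∀ x ∈ S, ∀ u, x ∈ L u) : 0 ≤ sdeg O d L (Submodule.span K S) := by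
  have := hL.finiteDimensional
  obtain ⟨b, hbS, hb, hli⟩ := exists_linearIndependent K S
  have : Finite b := hli.finite
  rw [← hb, ← Subtype.range_val (s := b)]
  have h1 := hd.c1_mono hO (isBun_latt (Basis.span hli)) (hL.sub hO _) (fun u =>
    Lat1.latt_le _ (fun i => by
      change ((Basis.span hli i : _) : V) ∈ L u
      rw [Basis.span_apply]
      exact hS _ (hbS i.2) u) fun c hc x hx => (hL.sub hO _).smul_mem hc hx)
  rwa [c1_latt hO, map_zero] at h1

lemma Ub.eq_zero (hO : IsFam O) (hd : IsWt d) {L : Sys U V} (hL : IsBun O L) {μ : ℝ}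
    (h : Ub O d L μ) (hμ : μ < 0) {x : V} (hx : ∀ u, x ∈ L u) : x = 0 := by
  by_contra hx0
  have h1 := sdeg_nonneg_of_sections hO hd hL (S := {x}) (by rintro _ rfl; exact hx)
  have h2 := h (Submodule.span K {x})
  rw [finrank_span_singleton hx0] at h2
  push_cast at h2
  linarith

lemma Ub.mono {L : Sys U V} {μ μ' : ℝ} (h : Ub O d L μ) (hμ : μ ≤ μ') : Ub O d L μ' := by
  exact fun W => (h W).trans (mul_le_mul_of_nonneg_right hμ (Nat.cast_nonneg _))

lemma Lb.mono [FiniteDimensional K V] {L : Sys U V} {μ μ' : ℝ} (h : Lb O d L μ) (hμ : μ' ≤ μ) :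
    Lb O d L μ' := by
  refine fun W => le_trans (mul_le_mul_of_nonneg_right hμ ?_) (h W)
  rw [sub_nonneg]
  exact_mod_cast W.finrank_le

lemma Ub.c1_le (hO : IsFam O) {L : Sys U V} (hL : IsBun O L) {μ : ℝ} (h : Ub O d L μ) :
    d (c1 O L) ≤ μ * finrank K V := by
  have := h ⊤
  rwa [sdeg_top hO hL, finrank_top] at this

lemma Lb.le_c1 (hO : IsFam O) {L : Sys U V} (hL : IsBun O L) {μ : ℝ} (h : Lb O d L μ) :
    μ * finrank K V ≤ d (c1 O L) := by
  have := h ⊥
  rwa [sdeg_bot hO hL, finrank_bot, Nat.cast_zero, sub_zero, sub_zero] at this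

lemma Ub.twist (hO : IsFam O) {L : Sys U V} (hL : IsBun O L) {μ : ℝ} (h : Ub O d L μ)
    (c : Div O) : Ub O d (twist c L) (μ + d (cl c)) := by
  intro W
  have := h W
  rw [sdeg_twist hO hL]
  linarith

lemma Lb.twist (hO : IsFam O) {L : Sys U V} (hL : IsBun O L) {μ : ℝ} (h : Lb O d L μ)
    (c : Div O) : Lb O d (twist c L) (μ + d (cl c)) := by
  intro W
  have := h W
  rw [sdeg_twist hO hL, c1_twist hO hL, map_add, map_nsmul, nsmul_eq_mul]
  linarith

lemma Ub.pull (hO : IsFam O) {L : Sys U V} (hL : IsBun O L) {μ : ℝ} (h : Ub O d L μ)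
    (f : V' →ₗ[K] V) (hf : Function.Injective f) : Ub O d (pull f L) μ := by
  intro W
  rw [sdeg_pull hO hL f hf, (W.equivMapOfInjective f hf).finrank_eq]
  exact h _

lemma Lb.push (hO : IsFam O) {L : Sys U V} (hL : IsBun O L) {μ : ℝ} (h : Lb O d L μ)
    (f : V →ₗ[K] V') (hf : Function.Surjective f) : Lb O d (push f L) μ := by
  intro W
  have := hL.finiteDimensional
  have h1 := h (W.comap f)
  have h2 := C1.finrank_comap f hf ⊤
  rw [Submodule.comap_top, finrank_top, finrank_top] at h2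
  rw [C1.finrank_comap f hf, h2] at h1
  rw [← sdeg_top hO (hL.push hO f hf), sdeg_push hO hL f hf, sdeg_push hO hL f hf,
    Submodule.comap_top, sdeg_top hO hL]
  push_cast at h1
  linarith

lemma Ub.push_equiv (hO : IsFam O) {L : Sys U V} (hL : IsBun O L) {μ : ℝ} (h : Ub O d L μ)
    (e : V ≃ₗ[K] V') : Ub O d (push e.toLinearMap L) μ := by
  rw [push_equiv_eq_pull]
  exact h.pull hO hL _ e.symm.injective

lemma Exact3.Ub (hO : IsFam O) (hd : IsWt d) {L' : Sys U V'} {L : Sys U V} {L'' : Sys U V''}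
    {i : V' →ₗ[K] V} {p : V →ₗ[K] V''} (h : Exact3 L' L L'' i p) (hL : IsBun O L) {μ : ℝ}
    (h' : Ub O d L' μ) (h'' : Ub O d L'' μ) : Ub O d L μ := by
  intro W
  have := hL.finiteDimensional
  have h1 := sdeg_supermodular hO hd hL W (LinearMap.ker p)
  have h2 := h' (W.comap i)
  have h3 := h'' (W.map p)
  rw [h.eq_pull, sdeg_pull hO hL i h.inj, ((W.comap i).equivMapOfInjective i h.inj).finrank_eq,
    Submodule.map_comap_eq, h.exact, inf_comm] at h2
  rw [h.eq_push, sdeg_push hO hL p h.surj, Submodule.comap_map_eq] at h3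
  have h4 := C1.finrank_comap p h.surj (W.map p)
  rw [Submodule.comap_map_eq] at h4
  have h5 := Submodule.finrank_sup_add_finrank_inf_eq W (LinearMap.ker p)
  have h6 : (finrank K W : ℝ) = finrank K (W.map p) +
      finrank K (W ⊓ LinearMap.ker p : Submodule K V) := by
    have : finrank K W = finrank K (W.map p) +
      finrank K (W ⊓ LinearMap.ker p : Submodule K V) := by omega
    exact_mod_cast this
  rw [h6]
  linarith

lemma sdeg_dual (hO : IsFam O) {L : Sys U V} (hL : IsBun O L) (W : Submodule K V) :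
    sdeg O d (dual O L) W.dualAnnihilator = sdeg O d L W - d (c1 O L) := by
  have h := (exact3_sub_quot L W).dual hO hL
  have h1 := sdeg_pull (d := d) hO hL.dual _ h.inj ⊤
  rw [← h.eq_pull, sdeg_top hO (hL.quot hO W).dual, c1_dual hO (hL.quot hO W), map_neg,
    c1_quot hO hL, Submodule.map_top, LinearMap.range_dualMap_eq_dualAnnihilator_ker,
    Submodule.ker_mkQ] at h1
  linarith

lemma Lb.dual (hO : IsFam O) {L : Sys U V} (hL : IsBun O L) {μ : ℝ} (h : Lb O d L μ) :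
    Ub O d (dual O L) (-μ) := by
  intro W'
  have := hL.finiteDimensional
  obtain ⟨W, rfl⟩ : ∃ W : Submodule K V, W' = W.dualAnnihilator :=
    ⟨_, Subspace.dualCoannihilator_dualAnnihilator_eq.symm⟩
  have h1 := h W
  rw [← Subspace.finrank_add_finrank_dualAnnihilator_eq W] at h1
  rw [sdeg_dual hO hL]
  push_cast at h1
  linarith

lemma Ub.dual (hO : IsFam O) {L : Sys U V} (hL : IsBun O L) {μ : ℝ} (h : Ub O d L μ) :
    Lb O d (dual O L) (-μ) := by
  intro W'
  have := hL.finiteDimensional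
  obtain ⟨W, rfl⟩ : ∃ W : Submodule K V, W' = W.dualAnnihilator :=
    ⟨_, Subspace.dualCoannihilator_dualAnnihilator_eq.symm⟩
  have h1 := h W
  rw [sdeg_dual hO hL, c1_dual hO hL, map_neg, Subspace.dual_finrank_eq,
    ← Subspace.finrank_add_finrank_dualAnnihilator_eq W]
  push_cast
  linarith

lemma Ub_of_finrank_one (hO : IsFam O) {L : Sys U V} (hL : IsBun O L) (h : finrank K V = 1) :
    Ub O d L (d (c1 O L)) ∧ Lb O d L (d (c1 O L)) := by
  have := hL.finiteDimensional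
  have h1 : ∀ W : Submodule K V, W = ⊥ ∨ W = ⊤ := by
    intro W
    have h2 := W.finrank_le
    rcases Nat.eq_zero_or_pos (finrank K W) with h3 | h3
    · exact Or.inl (Submodule.finrank_eq_zero.1 h3)
    · exact Or.inr (Submodule.eq_top_of_finrank_eq (by omega))
  constructor
  · intro W
    rcases h1 W with rfl | rfl
    · simp [sdeg_bot hO hL]
    · simp [sdeg_top hO hL, h]
  · intro W
    rcases h1 W with rfl | rfl
    · simp [sdeg_bot hO hL, h]
    · simp [sdeg_top hO hL]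

lemma C1.exists_Ub (hO : IsFam O) (hd : IsWt d) (n : ℕ) :
    ∀ (V : Type) [AddCommGroup V] [Module K V], finrank K V = n → ∀ L : Sys U V, IsBun O L →
      ∃ μ : ℝ, Ub O d L μ := by
  induction n with
  | zero =>
    intro V _ _ hn L hL
    have := hL.finiteDimensional
    have : Subsingleton V := finrank_zero_iff.1 hn
    refine ⟨0, fun W => ?_⟩
    rw [Subsingleton.elim W ⊥, sdeg_bot hO hL, zero_mul]
  | succ n ih =>
    intro V _ _ hn L hL
    have := hL.finiteDimensional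
    have : Nontrivial V := nontrivial_of_finrank_eq_succ hn
    obtain ⟨x, hx⟩ := exists_ne (0 : V)
    have h := exact3_sub_quot L (K ∙ x)
    have h1 := finrank_span_singleton (K := K) hx
    have h2 := h.finrank_add
    obtain ⟨μ, hμ⟩ := ih (V ⧸ (K ∙ x)) (by omega) _ (hL.quot hO _)
    exact ⟨_, h.Ub hO hd hL ((Ub_of_finrank_one hO (hL.sub hO _) h1).1.mono (le_max_left _ μ))
      (hμ.mono (le_max_right _ _))⟩

lemma exists_Ub (hO : IsFam O) (hd : IsWt d) {L : Sys U V} (hL : IsBun O L) :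
    ∃ μ : ℝ, Ub O d L μ := by
  exact C1.exists_Ub hO hd _ V rfl L hL

end Vale.Agent.P190
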