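import Vale.Agent.P190.Koszul

/-! Abstract commutative algebra for the semilocal trivialisation. -/

open Module

noncomputable section

namespace Vale.Agent.P190

variable {K : Type} [Field K] {V : Type} [AddCommGroup V] [Module K V]

lemma ChartA.mem_loc (B : Subring K) (𝔫 : Ideal B) [𝔫.IsPrime]
    (r : (LocalSubring.ofPrime B 𝔫).toSubring) : ∃ s c : B, s ∉ 𝔫 ∧ (s : K) * r = c := by
  obtain ⟨⟨c, s⟩, h⟩ := IsLocalization.surj 𝔫.primeCompl r
  refine ⟨s, c, s.2, ?_⟩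
  have := congrArg Subtype.val h
  rw [mul_comm]
  exact this

lemma ChartA.inv_mem (B : Subring K) (𝔫 : Ideal B) [𝔫.IsPrime] {s : B} (hs : s ∉ 𝔫) :
    (s : K) ≠ 0 ∧ (s : K)⁻¹ ∈ (LocalSubring.ofPrime B 𝔫).toSubring := by
  have hu := IsLocalization.map_units (LocalSubring.ofPrime B 𝔫).toSubring
    (⟨s, hs⟩ : 𝔫.primeCompl)
  obtain ⟨c, hc⟩ := hu.exists_right_inv
  have hc' : (s : K) * c = 1 := congrArg Subtype.val hc
  refine ⟨left_ne_zero_of_mul_eq_one hc', ?_⟩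
  rw [← eq_inv_of_mul_eq_one_right hc']
  exact c.2

lemma ChartA.mem_span_loc (B : Subring K) (𝔫 : Ideal B) [h𝔫 : 𝔫.IsPrime] (N : Submodule B V)
    (x : V) : x ∈ Submodule.span (LocalSubring.ofPrime B 𝔫).toSubring (N : Set V) ↔
      ∃ s : B, s ∉ 𝔫 ∧ (s : K) • x ∈ N := by
  constructor
  · intro hx
    induction hx using Submodule.span_induction with
    | mem x hx => exact ⟨1, (Ideal.ne_top_iff_one _).1 h𝔫.ne_top, by simpa using hx⟩
    | zero => exact ⟨1, (Ideal.ne_top_iff_one _).1 h𝔫.ne_top, by simp⟩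
    | add x y _ _ hx hy =>
      obtain ⟨s, hs, hx⟩ := hx
      obtain ⟨t, ht, hy⟩ := hy
      refine ⟨s * t, fun h => (h𝔫.mem_or_mem h).elim hs ht, ?_⟩
      rw [smul_add]
      refine add_mem ?_ ?_
      · rw [Subring.coe_mul, mul_comm, mul_smul]; exact N.smul_mem t hx
      · rw [Subring.coe_mul, mul_smul]; exact N.smul_mem s hy
    | smul r x _ hx =>
      obtain ⟨s, hs, hx⟩ := hx
      obtain ⟨t, c, ht, e⟩ := ChartA.mem_loc B 𝔫 r
      refine ⟨s * t, fun h => (h𝔫.mem_or_mem h).elim hs ht, ?_⟩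
      have : ((s * t : B) : K) • r • x = (c : K) • (s : K) • x := by
        change _ • (r : K) • x = _
        rw [smul_smul, smul_smul, ← e, Subring.coe_mul]
        congr 1
        ring
      rw [this]
      exact N.smul_mem c hx
  · rintro ⟨s, hs, hx⟩
    obtain ⟨h1, h2⟩ := ChartA.inv_mem B 𝔫 hs
    have := Submodule.smul_mem (Submodule.span (LocalSubring.ofPrime B 𝔫).toSubring (N : Set V))
      ⟨_, h2⟩ (Submodule.subset_span hx)
    change (s : K)⁻¹ • (s : K) • x ∈ _ at this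
    rwa [inv_smul_smul₀ h1] at this

theorem ChartA.local_gen [FiniteDimensional K V] (B : Subring K) [IsNoetherianRing B]
    (hfrac : ∀ x : K, ∃ b ∈ B, b ≠ 0 ∧ b * x ∈ B) (N : Submodule B V) (hN : N.FG)
    (hspan : Submodule.span K (N : Set V) = ⊤) (𝔫 : Ideal B) [h𝔫 : 𝔫.IsMaximal] {w₁ w₂ a b : B}
    (hw₁ : w₁ ∈ 𝔫) (hw₂ : w₂ ∈ 𝔫) (hw : ∀ c ∈ 𝔫, ∃ s, s ∉ 𝔫 ∧ s * c ∈ Ideal.span {w₁, w₂})
    (ha : a ∈ 𝔫) (hb : b ∈ 𝔫) (ha0 : a ≠ 0)
    (hab : ∀ n ∈ N, ∀ n' ∈ N, (b : K) • n = (a : K) • n' → (a : K)⁻¹ • n ∈ N) :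
    ∃ β : Fin (finrank K V) → V, (∀ i, β i ∈ N) ∧
      N ≤ Submodule.span B (Set.range β) ⊔ 𝔫 • N := by
  set R := (LocalSubring.ofPrime B 𝔫).toSubring with hR
  have : IsNoetherianRing R := IsLocalization.isNoetherianRing 𝔫.primeCompl R inferInstance
  have hfr : IsFractionRing R K := by
    refine IsFractionRing.of_field R K fun z => ?_
    obtain ⟨c, hc, hc0, hcz⟩ := hfrac z
    refine ⟨⟨_, LocalSubring.le_ofPrime B 𝔫 hcz⟩, ⟨_, LocalSubring.le_ofPrime B 𝔫 hc⟩, ?_⟩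
    change z = c * z / c
    field_simp
  set M : Submodule R V := Submodule.span R (N : Set V) with hM
  have hmem := ChartA.mem_span_loc B 𝔫 N
  have hMfg : M.FG := by
    have : IsScalarTower B R V := IsScalarTower.of_algebraMap_smul fun _ _ => rfl
    obtain ⟨S, hS⟩ := hN
    refine ⟨S, ?_⟩
    rw [hM, ← hS, Submodule.span_span_of_tower]
  have : Module.Finite R M := Module.Finite.iff_fg.2 hMfg
  have hmax : IsLocalRing.maximalIdeal R = Ideal.span {algebraMap B R w₁, algebraMap B R w₂} := by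
    rw [← IsLocalization.AtPrime.map_eq_maximalIdeal 𝔫 R]
    apply le_antisymm
    · rw [Ideal.map_le_iff_le_comap]
      intro c hc
      obtain ⟨s, hs, hsc⟩ := hw c hc
      have h1 := Ideal.mem_map_of_mem (algebraMap B R) hsc
      rw [Ideal.map_span, Set.image_pair, map_mul] at h1
      exact (Ideal.unit_mul_mem_iff_mem _
        (IsLocalization.map_units R (⟨s, hs⟩ : 𝔫.primeCompl))).1 h1
    · rw [Ideal.span_le]
      rintro _ (rfl | rfl)
      exacts [Ideal.mem_map_of_mem _ hw₁, Ideal.mem_map_of_mem _ hw₂]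
  have hrad : ∀ c ∈ 𝔫, algebraMap B R c ∈
      (Ideal.span {algebraMap B R w₁, algebraMap B R w₂}).radical := by
    intro c hc
    rw [← hmax, ← IsLocalization.AtPrime.map_eq_maximalIdeal 𝔫 R]
    exact Ideal.le_radical (Ideal.mem_map_of_mem _ hc)
  have ha0' : (a : K) ≠ 0 := fun h => ha0 (Subtype.ext h)
  have hk := koszul2 (N := M) (algebraMap B R a) (algebraMap B R b) (algebraMap B R w₁)
    (algebraMap B R w₂) (fun n hn => by
      have : (a : K) • (n : V) = 0 := congrArg Subtype.val hn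
      exact Subtype.ext ((smul_eq_zero.1 this).resolve_left ha0'))
    (fun n n' hn => by
      have e : (b : K) • (n : V) = (a : K) • (n' : V) := congrArg Subtype.val hn
      obtain ⟨s, hs, h1⟩ := (hmem _).1 n.2
      obtain ⟨t, ht, h2⟩ := (hmem _).1 n'.2
      have h3 := hab _ (N.smul_mem t h1) _ (N.smul_mem s h2) (by
        change (b : K) • (t : K) • (s : K) • (n : V) = (a : K) • (s : K) • (t : K) • (n' : V)
        rw [smul_comm (b : K), smul_comm (b : K), e, smul_comm (a : K), smul_comm (a : K),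
          smul_comm (t : K)])
      refine ⟨⟨(a : K)⁻¹ • (n : V), (hmem _).2 ⟨t * s,
        fun h => (h𝔫.isPrime.mem_or_mem h).elim ht hs, ?_⟩⟩, Subtype.ext ?_⟩
      · rw [smul_comm, Subring.coe_mul, mul_smul]; exact h3
      · change (n : V) = (a : K) • (a : K)⁻¹ • (n : V)
        rw [smul_inv_smul₀ ha0'])
    (hrad a ha) (hrad b hb)
  have hfree : Module.Free R M := by
    refine Koszul.free_aux _ _ hmax (fun n hn => ?_) (fun n n' hn => ?_)
    · by_cases hw0 : (w₁ : K) = 0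
      · have : (⊤ : Submodule R M) = ⊥ := by
          refine Submodule.eq_bot_of_le_smul_of_le_jacobson_bot (IsLocalRing.maximalIdeal R) ⊤
            Module.Finite.fg_top (fun m _ => ?_) (IsLocalRing.maximalIdeal_le_jacobson _)
          obtain ⟨m', -, h2⟩ := hk 0 m (by
            rw [smul_zero]
            apply Subtype.ext
            change (w₁ : K) • (m : V) = 0
            rw [hw0, zero_smul])
          rw [h2]
          refine Submodule.smul_mem_smul ?_ trivial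
          rw [hmax]
          exact Ideal.subset_span (by simp)
        exact (Submodule.mem_bot R).1 (this ▸ Submodule.mem_top)
      · have : (w₁ : K) • (n : V) = 0 := congrArg Subtype.val hn
        exact Subtype.ext ((smul_eq_zero.1 this).resolve_left hw0)
    · obtain ⟨m, h1, -⟩ := hk n n' hn.symm
      exact ⟨m, h1⟩
  let e := Module.Free.chooseBasis R M
  have hli : LinearIndependent K (fun i => (e i : V)) :=
    (LinearIndependent.iff_fractionRing R K).1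
      (e.linearIndependent.map' M.subtype (Submodule.ker_subtype M))
  have hsp : ∀ x ∈ N, x ∈ Submodule.span R (Set.range fun i => (e i : V)) := by
    intro x hx
    have h1 : (⟨x, Submodule.subset_span hx⟩ : M) ∈ Submodule.span R (Set.range e) := by
      rw [e.span_eq]; trivial
    have h2 := Submodule.mem_map_of_mem (f := M.subtype) h1
    rwa [Submodule.map_span, ← Set.range_comp] at h2
  have hcard : Fintype.card (Module.Free.ChooseBasisIndex R M) = finrank K V := by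
    have h1 : Submodule.span K (Set.range fun i => (e i : V)) = ⊤ := by
      refine top_le_iff.1 ?_
      rw [← hspan, Submodule.span_le]
      exact fun x hx => Submodule.span_le_restrictScalars R K _ (hsp x hx)
    rw [← finrank_span_eq_card hli, h1, finrank_top]
  let σ := Fintype.equivFinOfCardEq hcard
  choose s hs hse using fun i => (hmem _).1 (e i).2
  refine ⟨fun i => (s (σ.symm i) : K) • (e (σ.symm i) : V), fun i => hse _, fun x hx => ?_⟩
  set N' := Submodule.span B (Set.range fun i => (s (σ.symm i) : K) • (e (σ.symm i) : V))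
  have h1 : x ∈ Submodule.span R (N' : Set V) := by
    refine Submodule.span_le.2 ?_ (hsp x hx)
    rintro _ ⟨i, rfl⟩
    refine (ChartA.mem_span_loc B 𝔫 N' _).2 ⟨s i, hs i, Submodule.subset_span ⟨σ i, ?_⟩⟩
    simp
  obtain ⟨t, ht, h2⟩ := (ChartA.mem_span_loc B 𝔫 N' _).1 h1
  obtain ⟨y, c, hc, h3⟩ := h𝔫.exists_inv ht
  have : x = y • (t : K) • x + c • x := by
    change x = y • t • x + c • x
    rw [smul_smul, ← add_smul, h3, one_smul]
  rw [this]
  exact add_mem (Submodule.mem_sup_left (N'.smul_mem y h2))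
    (Submodule.mem_sup_right (Submodule.smul_mem_smul hc hx))

theorem ChartA.exists_idem {B : Type} [CommRing B] (𝒩 : Finset (Ideal B))
    (hmax : ∀ 𝔫 ∈ 𝒩, 𝔫.IsMaximal) (𝔫 : Ideal B) (h𝔫 : 𝔫.IsMaximal) :
    ∃ e : B, e - 1 ∈ 𝔫 ∧ ∀ 𝔪 ∈ 𝒩, 𝔪 ≠ 𝔫 → e ∈ 𝔪 := by
  classical
  induction 𝒩 using Finset.induction_on with
  | empty => exact ⟨1, by simp, by simp⟩
  | insert 𝔪 𝒩 _ ih =>
    obtain ⟨e, h1, h2⟩ := ih fun 𝔪 h => hmax 𝔪 (Finset.mem_insert_of_mem h)
    by_cases h : 𝔪 = 𝔫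
    · refine ⟨e, h1, fun 𝔪' h' hne => h2 𝔪' ?_ hne⟩
      exact (Finset.mem_insert.1 h').resolve_left (h ▸ hne)
    · have h3 := Ideal.IsMaximal.coprime_of_ne (hmax 𝔪 (Finset.mem_insert_self _ _)) h𝔫 h
      obtain ⟨x, hx, y, hy, hxy⟩ := Submodule.mem_sup.1 ((Ideal.eq_top_iff_one _).1 h3)
      refine ⟨e * x, ?_, fun 𝔪' h' hne => ?_⟩
      · have : e * x - 1 = (e - 1) * x - y := by linear_combination hxy
        rw [this]
        exact sub_mem (Ideal.mul_mem_right _ _ h1) hy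
      · rcases Finset.mem_insert.1 h' with rfl | h'
        · exact Ideal.mul_mem_left _ _ hx
        · exact Ideal.mul_mem_right _ _ (h2 𝔪' h' hne)

theorem ChartA.semilocal [FiniteDimensional K V] (B : Subring K) (N : Submodule B V) (hN : N.FG)
    (hspan : Submodule.span K (N : Set V) = ⊤) (𝒩 : Finset (Ideal B)) (hne : 𝒩.Nonempty)
    (hmax : ∀ 𝔫 ∈ 𝒩, 𝔫.IsMaximal)
    (hloc : ∀ 𝔫 ∈ 𝒩, ∃ β : Fin (finrank K V) → V, (∀ i, β i ∈ N) ∧
      N ≤ Submodule.span B (Set.range β) ⊔ 𝔫 • N) :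
    ∃ (b : Basis (Fin (finrank K V)) K V) (s : B), (∀ 𝔫 ∈ 𝒩, s ∉ 𝔫) ∧ (∀ i, b i ∈ N) ∧
      ∀ x ∈ N, s • x ∈ Submodule.span B (Set.range b) := by
  classical
  choose! β hβ hβ' using hloc
  choose! e he he' using fun 𝔫 (h : 𝔫 ∈ 𝒩) => ChartA.exists_idem 𝒩 hmax 𝔫 (hmax 𝔫 h)
  let b : Fin (finrank K V) → V := fun i => ∑ 𝔫 ∈ 𝒩, e 𝔫 • β 𝔫 i
  have hbN : ∀ i, b i ∈ N := fun i => Submodule.sum_mem _ fun 𝔫 h => N.smul_mem _ (hβ 𝔫 h i)
  have h1 : ∀ 𝔫 ∈ 𝒩, ∃ r : B, r - 1 ∈ 𝔫 ∧ ∀ x ∈ N, r • x ∈ Submodule.span B (Set.range b) := by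
    intro 𝔫 h
    obtain ⟨r, hr, hr'⟩ := Submodule.exists_sub_one_mem_and_smul_le_of_fg_of_le_sup
      (I := 𝔫) (N := Submodule.span B (Set.range b)) hN le_rfl (by
        refine (hβ' 𝔫 h).trans (sup_le (Submodule.span_le.2 ?_) le_sup_right)
        rintro _ ⟨i, rfl⟩
        have e1 : β 𝔫 i = b i - ((e 𝔫 - 1) • β 𝔫 i + ∑ 𝔪 ∈ 𝒩.erase 𝔫, e 𝔪 • β 𝔪 i) := by
          simp only [b]
          rw [← Finset.add_sum_erase _ _ h, sub_smul, one_smul]
          abel
        rw [e1]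
        refine sub_mem (Submodule.mem_sup_left (Submodule.subset_span ⟨i, rfl⟩))
          (Submodule.mem_sup_right (add_mem (Submodule.smul_mem_smul (he 𝔫 h) (hβ 𝔫 h i))
            (Submodule.sum_mem _ fun 𝔪 h𝔪 => ?_)))
        obtain ⟨h2, h3⟩ := Finset.mem_erase.1 h𝔪
        exact Submodule.smul_mem_smul (he' 𝔪 h3 𝔫 h h2.symm) (hβ 𝔪 h3 i))
    exact ⟨r, hr, fun x hx => hr' (Submodule.smul_mem_pointwise_smul x r N hx)⟩
  choose! r hr hr' using h1
  have hs : ∀ 𝔫 ∈ 𝒩, ∑ 𝔪 ∈ 𝒩, e 𝔪 * r 𝔪 ∉ 𝔫 := by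
    intro 𝔫 h hmem
    rw [← Finset.add_sum_erase _ _ h] at hmem
    have h2 : e 𝔫 * r 𝔫 ∈ 𝔫 := (Submodule.add_mem_iff_left _ (Submodule.sum_mem _ fun 𝔪 h𝔪 =>
      Ideal.mul_mem_right _ _ (he' 𝔪 (Finset.mem_erase.1 h𝔪).2 𝔫 h
        (Finset.mem_erase.1 h𝔪).1.symm))).1 hmem
    refine (hmax 𝔫 h).ne_top ((Ideal.eq_top_iff_one _).2 ?_)
    rcases (hmax 𝔫 h).isPrime.mem_or_mem h2 with h3 | h3
    · simpa using sub_mem h3 (he 𝔫 h)
    · simpa using sub_mem h3 (hr 𝔫 h)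
  have hs' : ∀ x ∈ N, (∑ 𝔪 ∈ 𝒩, e 𝔪 * r 𝔪) • x ∈ Submodule.span B (Set.range b) := by
    intro x hx
    rw [Finset.sum_smul]
    exact Submodule.sum_mem _ fun 𝔪 h => by rw [mul_smul]; exact Submodule.smul_mem _ _ (hr' 𝔪 h x hx)
  have htop : ⊤ ≤ Submodule.span K (Set.range b) := by
    obtain ⟨𝔫, h⟩ := hne
    have h0 : ((∑ 𝔪 ∈ 𝒩, e 𝔪 * r 𝔪 : B) : K) ≠ 0 := fun h0 =>
      hs 𝔫 h (by rw [show (∑ 𝔪 ∈ 𝒩, e 𝔪 * r 𝔪 : B) = 0 from Subtype.ext h0]; exact zero_mem _)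
    rw [← hspan, Submodule.span_le]
    intro x hx
    exact (Submodule.smul_mem_iff _ h0).1 (Submodule.span_le_restrictScalars B K _ (hs' x hx))
  refine ⟨basisOfTopLeSpanOfCardEqFinrank b htop (by simp), _, hs, ?_, ?_⟩
  · simpa using hbN
  · simpa using hs'

end Vale.Agent.P190
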