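import Vale.Agent.P190.Defs

/-! Auxiliary lemmas on graded families: Hilbert basis theorem, dimension counts. -/

open Module MvPolynomial

noncomputable section

namespace Vale.Agent.P190

variable {k K : Type} [Field k] [Field K] [Algebra k K]
variable {V V' : Type} [AddCommGroup V] [Module K V] [Module k V] [IsScalarTower k K V]
  [AddCommGroup V'] [Module K V'] [Module k V'] [IsScalarTower k K V']

theorem GoodA.mem_smulK {c : K} {W : Submodule k V} {x : V} :
    x ∈ smulK c W ↔ ∃ y ∈ W, c • y = x := Submodule.mem_map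

theorem GoodA.smul_mem_smulK (c : K) {W : Submodule k V} {x : V} (hx : x ∈ W) :
    c • x ∈ smulK c W := GoodA.mem_smulK.2 ⟨x, hx, rfl⟩

theorem GoodA.smulK_le {c : K} {W W' : Submodule k V} :
    smulK c W ≤ W' ↔ ∀ x ∈ W, c • x ∈ W' := by
  constructor
  · exact fun h x hx => h (GoodA.smul_mem_smulK c hx)
  · intro h x hx
    obtain ⟨y, hy, rfl⟩ := GoodA.mem_smulK.1 hx
    exact h y hy

theorem GoodA.mem_smulK_inv {c : K} (hc : c ≠ 0) {W : Submodule k V} {x : V} :
    x ∈ smulK c⁻¹ W ↔ c • x ∈ W := by
  rw [GoodA.mem_smulK]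
  constructor
  · rintro ⟨y, hy, rfl⟩
    rwa [smul_inv_smul₀ hc]
  · exact fun h => ⟨_, h, inv_smul_smul₀ hc x⟩

theorem GoodA.smulK_mono (c : K) {W W' : Submodule k V} (h : W ≤ W') : smulK c W ≤ smulK c W' :=
  Submodule.map_mono h

theorem GoodA.smulK_smulK (c c' : K) (W : Submodule k V) :
    smulK c (smulK c' W) = smulK (c * c') W := by
  ext x
  simp only [GoodA.mem_smulK, mul_smul]
  constructor
  · rintro ⟨_, ⟨y, hy, rfl⟩, rfl⟩; exact ⟨y, hy, rfl⟩
  · rintro ⟨y, hy, rfl⟩; exact ⟨_, ⟨y, hy, rfl⟩, rfl⟩

theorem GoodA.finrank_smulK {c : K} (hc : c ≠ 0) (W : Submodule k V) :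
    finrank k (smulK c W) = finrank k W :=
  (Submodule.equivMapOfInjective _ (fun _ _ h => smul_right_injective V hc h) W).finrank_eq.symm

instance GoodA.finite_smulK (c : K) (W : Submodule k V) [Module.Finite k W] :
    Module.Finite k (smulK c W) := Module.Finite.map _ _

theorem GoodA.mem_of_monomial {p : Fin 3 → K} {φ : MvPolynomial (Fin 3) k} {e : ℕ}
    (hφ : φ.IsHomogeneous e) {W : Submodule k V} {x : V}
    (h : ∀ a b c : ℕ, a + b + c = e → (p 0 ^ a * p 1 ^ b * p 2 ^ c) • x ∈ W) :
    aeval p φ • x ∈ W := by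
  rw [φ.as_sum, map_sum, Finset.sum_smul]
  refine Submodule.sum_mem _ fun m hm => ?_
  rw [aeval_monomial, mul_smul, algebraMap_smul, Finsupp.prod_fintype _ _ (by simp),
    Fin.prod_univ_three]
  refine W.smul_mem _ (h _ _ _ ?_)
  by_contra h0
  refine mem_support_iff.1 hm (hφ.coeff_eq_zero ?_)
  rwa [Finsupp.degree_eq_sum, Fin.sum_univ_three]

/-- sequences with prescribed coefficients form a module over the Rees type algebra -/
def GoodA.seqMod (p : Fin 3 → K) (T : ℕ → Submodule k V)
    (hT : ∀ i n, ∀ x ∈ T n, p i • x ∈ T (n + 1)) :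
    Submodule (Algebra.adjoin k (Set.range fun i => Polynomial.monomial 1 (p i)))
      (PolynomialModule K V) where
  carrier := {f | ∀ n, f.coeff n ∈ T n}
  zero_mem' := by intro n; simp
  add_mem' := by
    intro a b ha hb n
    simpa using (T n).add_mem (ha n) (hb n)
  smul_mem' := by
    rintro ⟨c, hc⟩ f hf
    show ∀ n, (c • f).coeff n ∈ T n
    induction hc using Algebra.adjoin_induction generalizing f with
    | mem c hc =>
      obtain ⟨i, rfl⟩ := hc
      intro n
      rw [PolynomialModule.monomial_smul_apply]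
      split_ifs with h
      · have := hT i _ _ (hf (n - 1))
        rwa [Nat.sub_add_cancel h] at this
      · exact zero_mem _
    | algebraMap r =>
      intro n
      rw [algebraMap_smul]
      exact (T n).smul_mem r (hf n)
    | add a b _ _ ha hb =>
      intro n
      rw [add_smul]
      simpa using (T n).add_mem (ha hf n) (hb hf n)
    | mul a b _ _ ha hb => rw [mul_smul]; exact ha (hb hf)

theorem GoodA.hilbert (p : Fin 3 → K) (T T' : ℕ → Submodule k V) [Module.Finite k (T 0)]
    (hT : ∀ i n, ∀ x ∈ T n, p i • x ∈ T (n + 1)) (hT' : ∀ i n, ∀ x ∈ T' n, p i • x ∈ T' (n + 1))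
    (hle : ∀ n, T' n ≤ T n) (hgen : ∀ n, T (n + 1) ≤ ⨆ i, smulK (p i) (T n)) :
    ∃ D : ℕ, ∀ n ≥ D, T' (n + 1) ≤ ⨆ i, smulK (p i) (T' n) := by
  classical
  set B := Algebra.adjoin k (Set.range fun i => Polynomial.monomial 1 (p i)) with hB
  have hN : IsNoetherianRing B := isNoetherianRing_of_fg
    ⟨(Set.finite_range _).toFinset, by rw [Set.Finite.coe_toFinset]⟩
  obtain ⟨s, hs⟩ : (T 0).FG := Module.Finite.iff_fg.1 inferInstance
  have hfg : (GoodA.seqMod p T hT).FG := by
    refine ⟨s.image (PolynomialModule.single K 0), le_antisymm ?_ ?_⟩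
    · rw [Submodule.span_le]
      intro f hf
      obtain ⟨x, hx, rfl⟩ := Finset.mem_image.1 hf
      intro n
      rw [PolynomialModule.coeff_single, Finsupp.single_apply]
      split_ifs with h
      · subst h; rw [← hs]; exact Submodule.subset_span hx
      · exact zero_mem _
    · set S := Submodule.span B ((s.image (PolynomialModule.single K 0) : Finset _) :
        Set (PolynomialModule K V))
      have key : ∀ n, ∀ x ∈ T n, PolynomialModule.single K n x ∈ S := by
        intro n
        induction n with
        | zero =>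
          intro x hx
          rw [← hs] at hx
          induction hx using Submodule.span_induction with
          | mem x hx => exact Submodule.subset_span (Finset.mem_image_of_mem _ hx)
          | zero => simp
          | add x y _ _ hx hy => rw [PolynomialModule.single_add]; exact add_mem hx hy
          | smul c x _ hx =>
            have := S.smul_mem (algebraMap k B c) hx
            rw [algebraMap_smul] at this
            rw [← algebraMap_smul K c x, PolynomialModule.single_smul, algebraMap_smul]
            exact this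
        | succ n ih =>
          intro x hx
          refine Submodule.iSup_induction _ (motive := fun x => PolynomialModule.single K (n + 1) x ∈ S)
            (hgen n hx) (fun i x hx => ?_) (by simp) (fun x y hx hy => ?_)
          · obtain ⟨y, hy, rfl⟩ := GoodA.mem_smulK.1 hx
            have := S.smul_mem ⟨_, Algebra.subset_adjoin ⟨i, rfl⟩⟩ (ih y hy)
            rw [add_comm, ← PolynomialModule.monomial_smul_single]
            exact this
          · rw [PolynomialModule.single_add]; exact add_mem hx hy
      intro f hf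
      have e : f = ∑ n ∈ f.coeff.support, PolynomialModule.single K n (f.coeff n) := by
        apply PolynomialModule.coeff_injective
        rw [PolynomialModule.coeff_sum]
        exact (Finsupp.sum_single f.coeff).symm
      rw [e]
      exact Submodule.sum_mem _ fun n _ => key n _ (hf n)
  have := isNoetherian_of_fg_of_noetherian _ hfg
  obtain ⟨t, ht⟩ : (GoodA.seqMod p T' hT').FG :=
    isNoetherian_submodule.1 this _ fun f hf n => hle n (hf n)
  set D := t.sup fun f => f.coeff.support.sup id
  let T'' : ℕ → Submodule k V := fun n =>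
    T' n ⊓ if D < n then ⨆ i, smulK (p i) (T' (n - 1)) else ⊤
  have hT'' : ∀ i n, ∀ x ∈ T'' n, p i • x ∈ T'' (n + 1) := by
    intro i n x hx
    refine ⟨hT' i n x hx.1, ?_⟩
    split_ifs
    · exact Submodule.mem_iSup_of_mem i (GoodA.smul_mem_smulK _ hx.1)
    · trivial
  have hle2 : GoodA.seqMod p T' hT' ≤ GoodA.seqMod p T'' hT'' := by
    rw [← ht, Submodule.span_le]
    intro f hf n
    have h1 : f ∈ GoodA.seqMod p T' hT' := ht ▸ Submodule.subset_span hf
    refine ⟨h1 n, ?_⟩
    split_ifs with h
    · have : f.coeff n = 0 := by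
        by_contra h0
        have h2 : n ≤ f.coeff.support.sup id := Finset.le_sup (f := id) (Finsupp.mem_support_iff.2 h0)
        have h3 : f.coeff.support.sup id ≤ D :=
          Finset.le_sup (f := fun f : PolynomialModule K V => f.coeff.support.sup id) hf
        omega
      rw [this]; exact zero_mem _
    · trivial
  refine ⟨D, fun n hn x hx => ?_⟩
  have h1 : PolynomialModule.single K (n + 1) x ∈ GoodA.seqMod p T' hT' := by
    intro m
    rw [PolynomialModule.coeff_single, Finsupp.single_apply]
    split_ifs with h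
    · exact h ▸ hx
    · exact zero_mem _
  have h2 := (hle2 h1 (n + 1)).2
  rw [if_pos (by omega)] at h2
  simpa using h2

theorem GoodA.rdim_of_le {A A' : Submodule k V} [Module.Finite k A] (h : A' ≤ A) {z : ℕ}
    (hz : finrank k A = finrank k A' + z) : rdim A A' = z := by
  rw [rdim, Module.length_eq_finrank]
  have h1 := Submodule.finrank_quotient_add_finrank (A'.comap A.subtype)
  rw [(Submodule.comapSubtypeEquivOfLe h).finrank_eq] at h1
  exact congrArg _ (by omega)

theorem GoodA.rdim_sup (A T : Submodule k V) : rdim (A ⊔ T) T = rdim A (A ⊓ T) := by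
  rw [rdim, rdim, ← (LinearMap.quotientInfEquivSupQuotient A T).length_eq, Submodule.comap_inf]

/-- the homogeneous component of a multiple of a form -/
theorem GoodA.comp_mul {f : MvPolynomial (Fin 3) k} {a : ℕ} (hf : f.IsHomogeneous a) (e : ℕ)
    (α : MvPolynomial (Fin 3) k) : ∃ α' : MvPolynomial (Fin 3) k, α'.IsHomogeneous (e - a) ∧
      homogeneousComponent e (α * f) = α' * f := by
  induction α using MvPolynomial.induction_on' with
  | monomial m c =>
    have h := (isHomogeneous_monomial (d := m) c rfl).mul hf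
    rw [homogeneousComponent_of_mem h]
    split_ifs with h1
    · exact ⟨_, isHomogeneous_monomial c (by omega), rfl⟩
    · exact ⟨0, isHomogeneous_zero _ _ _, by simp⟩
  | add p q hp hq =>
    obtain ⟨α, h1, h2⟩ := hp
    obtain ⟨β, h3, h4⟩ := hq
    exact ⟨α + β, h1.add h3, by rw [add_mul, map_add, h2, h4, add_mul]⟩

/-- a non-increasing sequence of naturals is eventually constant -/
theorem GoodA.eventually_const (q : ℤ → ℕ) (j₁ : ℤ) (h : ∀ j ≥ j₁, q (j + 1) ≤ q j) :
    ∃ z : ℕ, ∃ j₂ : ℤ, ∀ j ≥ j₂, q j = z := by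
  have hne : (q '' {j | j₁ ≤ j}).Nonempty := ⟨_, j₁, le_refl j₁, rfl⟩
  obtain ⟨j₂, h1, h2⟩ := Nat.sInf_mem hne
  refine ⟨q j₂, j₂, fun j hj => le_antisymm ?_ ?_⟩
  · induction j, hj using Int.leInduction with
    | base => exact le_rfl
    | succ j hj ih => exact (h j (le_trans h1 hj)).trans ih
  · rw [h2]
    exact Nat.sInf_le ⟨j, le_trans h1 hj, rfl⟩

end Vale.Agent.P190
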