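import Vale.Agent.P190.Defs

/-! The completed graded ring. -/

open Module

noncomputable section

namespace Vale.Agent.P190

variable {k : Type} [Field k] {K : Type} [Field K] [Algebra k K]

lemma mem_smulK {V : Type} [AddCommGroup V] [Module K V] [Module k V] [IsScalarTower k K V]
    {c : K} {W : Submodule k V} {x : V} : x ∈ smulK c W ↔ ∃ y ∈ W, c • y = x := Iff.rfl

lemma Rg_mul {S : Set K} {i j : ℕ} {a b : K} (ha : a ∈ Rg k S i) (hb : b ∈ Rg k S j) :
    a * b ∈ Rg k S (i + j) := by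
  rw [Rg, pow_add]
  exact Submodule.mul_mem_mul ha hb

lemma Rg_finite {S : Set K} (hS : S.Finite) (j : ℕ) : Module.Finite k (Rg k S j) :=
  Module.Finite.iff_fg.2 ((Submodule.fg_span hS).pow j)

lemma mem_mId {S : Set K} (f : Rhat k S) :
    f ∈ mId k S ↔ PowerSeries.coeff 0 (f : PowerSeries K) = 0 := by
  rw [PowerSeries.coeff_zero_eq_constantCoeff_apply]
  rfl

namespace RingA
open PowerSeries

lemma isUnit_of {S : Set K} (f : Rhat k S) (h : coeff 0 (f : K⟦X⟧) ≠ 0) : IsUnit f := by
  have h' : constantCoeff (f : K⟦X⟧) ≠ 0 := by rwa [← coeff_zero_eq_constantCoeff_apply]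
  obtain ⟨c, hc⟩ : ∃ c : k, algebraMap k K c = constantCoeff (f : K⟦X⟧) := by
    have := f.2 0
    rwa [Rg, pow_zero, Submodule.mem_one, coeff_zero_eq_constantCoeff_apply] at this
  have hm : ∀ j, coeff j (f : K⟦X⟧)⁻¹ ∈ Rg k S j := by
    intro j
    induction j using Nat.strong_induction_on with
    | _ j ih =>
    rw [coeff_inv, ← hc, ← map_inv₀]
    split_ifs with h0
    · subst h0
      rw [Rg, pow_zero, Submodule.mem_one]
      exact ⟨_, rfl⟩
    · rw [← map_neg, ← Algebra.smul_def]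
      refine Submodule.smul_mem _ _ (Submodule.sum_mem _ fun ij hij => ?_)
      split_ifs with h1
      · rw [← Finset.HasAntidiagonal.mem_antidiagonal.1 hij]
        exact Rg_mul (f.2 _) (ih _ h1)
      · exact Submodule.zero_mem _
  exact IsUnit.of_mul_eq_one ⟨_, hm⟩ (Subtype.ext (PowerSeries.mul_inv_cancel _ h'))

/-- a homogeneous element as a series -/
def mon {S : Set K} (d : ℕ) (a : K) (h : a ∈ Rg k S d) : Rhat k S :=
  ⟨monomial d a, fun j => by
    rw [coeff_monomial]
    split_ifs with h'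
    · subst h'; exact h
    · exact Submodule.zero_mem _⟩

lemma exists_sum {σ : Type} [Fintype σ] (p : σ → K) (W : Submodule k K) {a : K}
    (ha : a ∈ ⨆ i, smulK (p i) W) : ∃ c : σ → K, (∀ i, c i ∈ W) ∧ a = ∑ i, p i * c i := by
  classical
  induction ha using Submodule.iSup_induction' with
  | mem i a ha =>
    obtain ⟨y, hy, rfl⟩ := mem_smulK.1 ha
    refine ⟨Pi.single i y, fun j => ?_, ?_⟩
    · rw [Pi.single_apply]
      split_ifs
      exacts [hy, W.zero_mem]
    · simp [Pi.single_apply]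
  | zero => exact ⟨0, fun _ => W.zero_mem, by simp⟩
  | add a b _ _ ha hb =>
    obtain ⟨c, h1, rfl⟩ := ha
    obtain ⟨c', h2, rfl⟩ := hb
    exact ⟨c + c', fun i => W.add_mem (h1 i) (h2 i), by simp [mul_add, Finset.sum_add_distrib]⟩

lemma decomp {S : Set K} {σ : Type} [Fintype σ] (p : σ → K) {d n : ℕ} (hp : ∀ i, p i ∈ Rg k S d)
    (hg : ∀ j ≥ n, Rg k S (j + d) ≤ ⨆ i, smulK (p i) (Rg k S j)) (f : Rhat k S)
    (hf : ∀ j < n + d, coeff j (f : K⟦X⟧) = 0) :
    ∃ g : σ → Rhat k S, (∀ i, ∀ j < n, coeff j (g i : K⟦X⟧) = 0) ∧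
      f = ∑ i, mon d (p i) (hp i) * g i := by
  have : ∀ j, ∃ c : σ → K, (∀ i, c i ∈ Rg k S j) ∧ coeff (j + d) (f : K⟦X⟧) = ∑ i, p i * c i ∧
      (j < n → c = 0) := by
    intro j
    by_cases hj : j < n
    · exact ⟨0, fun _ => Submodule.zero_mem _, by simp [hf _ (Nat.add_lt_add_right hj d)],
        fun _ => rfl⟩
    · obtain ⟨c, h1, h2⟩ := exists_sum p _ (hg j (not_lt.1 hj) (f.2 _))
      exact ⟨c, h1, h2, fun h => absurd h hj⟩
  choose c h1 h2 h3 using this
  refine ⟨fun i => ⟨mk fun j => c j i, fun j => by rw [coeff_mk]; exact h1 j i⟩,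
    fun i j hj => by simp [h3 j hj], Subtype.ext (PowerSeries.ext fun j => ?_)⟩
  simp only [mon, AddSubmonoidClass.coe_finsetSum, MulMemClass.coe_mul, map_sum]
  simp only [monomial_eq_C_mul_X_pow, mul_assoc, coeff_C_mul, coeff_X_pow_mul', coeff_mk]
  split_ifs with h
  · rw [← h2, Nat.sub_add_cancel h]
  · simp [hf j (by omega)]

lemma gen_one {S : Set K} (j : ℕ) : Rg k S (j + 1) ≤ ⨆ i : S, smulK (i : K) (Rg k S j) := by
  rw [Rg, pow_succ', Submodule.mul_le]
  intro a ha b hb
  induction ha using Submodule.span_induction with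
  | mem s hs => exact Submodule.mem_iSup_of_mem (⟨s, hs⟩ : S) ⟨b, hb, rfl⟩
  | zero => simp
  | add a a' _ _ h1 h2 => rw [add_mul]; exact Submodule.add_mem _ h1 h2
  | smul c a _ h => rw [smul_mul_assoc]; exact Submodule.smul_mem _ _ h

lemma mem_one {S : Set K} (i : S) : (i : K) ∈ Rg k S 1 := by
  rw [Rg, pow_one]; exact Submodule.subset_span i.2

lemma coeff_of_mem_pow {S : Set K} (n : ℕ) (f : Rhat k S) (h : f ∈ mId k S ^ n) :
    ∀ j < n, coeff j (f : K⟦X⟧) = 0 := by
  rw [← X_pow_dvd_iff, ← Ideal.mem_span_singleton, ← Ideal.span_singleton_pow]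
  refine Ideal.le_comap_pow (Rhat k S).val.toRingHom n (Ideal.pow_right_mono (fun g hg => ?_) n h)
  exact Ideal.mem_span_singleton.2 (X_dvd_iff.2 hg)

section Sub
variable {σ : Type} [Fintype σ] (p : σ → K) {d : ℕ} (hd : 0 < d)

include hd in
lemma hasSubst : MvPowerSeries.HasSubst (fun i => (monomial d (p i) : K⟦X⟧)) :=
  MvPowerSeries.hasSubst_of_constantCoeff_zero fun i => by
    have : coeff 0 (monomial d (p i) : K⟦X⟧) = 0 := by rw [coeff_monomial, if_neg hd.ne]
    rwa [coeff_zero_eq_constantCoeff_apply] at this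

lemma coeff_sub (F : MvPowerSeries σ k) (n : ℕ) :
    coeff n (MvPowerSeries.substAlgHom (hasSubst p hd) F : K⟦X⟧) =
      ∑ᶠ e, MvPowerSeries.coeff e F • (if n = d * ∑ i, e i then ∏ i, p i ^ e i else 0) := by
  rw [MvPowerSeries.substAlgHom_apply]
  refine (MvPowerSeries.coeff_subst (hasSubst p hd) F (Finsupp.single () n)).trans ?_
  refine finsum_congr fun e => ?_
  congr 1
  rw [← coeff_monomial, Finsupp.prod_fintype _ _ (fun _ => pow_zero _)]
  change coeff n (∏ i, (monomial d (p i) : K⟦X⟧) ^ e i) = _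
  simp only [monomial_eq_C_mul_X_pow, mul_pow, Finset.prod_mul_distrib, ← pow_mul,
    Finset.prod_pow_eq_pow_sum, map_prod, map_pow, Finset.mul_sum]

lemma prod_mem {S : Set K} (hp : ∀ i, p i ∈ Rg k S d) (e : σ → ℕ) :
    ∏ i, p i ^ e i ∈ Rg k S (d * ∑ i, e i) := by
  classical
  rw [Rg, pow_mul, ← Finset.prod_pow_eq_pow_sum]
  refine Finset.induction_on' (Finset.univ : Finset σ) ?_ fun {i s} _ _ hi ih => ?_
  · exact Submodule.mem_one.2 ⟨1, map_one _⟩
  · rw [Finset.prod_insert hi, Finset.prod_insert hi]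
    exact Submodule.mul_mem_mul (Submodule.pow_mem_pow _ (hp i) _) ih

/-- substitution of homogeneous elements into power series -/
def Psi {S : Set K} (hp : ∀ i, p i ∈ Rg k S d) : MvPowerSeries σ k →+* Rhat k S :=
  ((MvPowerSeries.substAlgHom (hasSubst p hd)).codRestrict (Rhat k S) fun F n => by
    rw [coeff_sub p hd]
    refine finsum_induction (· ∈ Rg k S n) (Submodule.zero_mem _)
      (fun _ _ => Submodule.add_mem _) fun e => Submodule.smul_mem _ _ ?_
    split_ifs with h
    · rw [h]; exact prod_mem p hp e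
    · exact Submodule.zero_mem _).toRingHom

lemma coeff_Psi {S : Set K} (hp : ∀ i, p i ∈ Rg k S d) (F : MvPowerSeries σ k) (n : ℕ) :
    coeff n (Psi p hd hp F : K⟦X⟧) =
      ∑ᶠ e, MvPowerSeries.coeff e F • (if n = d * ∑ i, e i then ∏ i, p i ^ e i else 0) :=
  coeff_sub p hd F n

lemma Psi_X {S : Set K} (hp : ∀ i, p i ∈ Rg k S d) (i : σ) :
    Psi p hd hp (MvPowerSeries.X i) = mon d (p i) (hp i) :=
  Subtype.ext (MvPowerSeries.substAlgHom_X (hasSubst p hd) i)

lemma Psi_C {S : Set K} (hp : ∀ i, p i ∈ Rg k S d) (c : k) :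
    Psi p hd hp (algebraMap k _ c) = algebraMap k _ c :=
  Subtype.ext ((MvPowerSeries.substAlgHom (hasSubst p hd)).commutes c)

lemma Psi_finite {S : Set K} (hS : S.Finite) (hp : ∀ i, p i ∈ Rg k S d) {n : ℕ}
    (hg : ∀ j ≥ n, Rg k S (j + d) ≤ ⨆ i, smulK (p i) (Rg k S j)) : (Psi p hd hp).Finite := by
  classical
  let _i : Algebra (MvPowerSeries σ k) (Rhat k S) := (Psi p hd hp).toAlgebra
  have hsm : ∀ (F : MvPowerSeries σ k) (f : Rhat k S), F • f = Psi p hd hp F * f := fun _ _ => rfl
  have hfg : ∀ j, ∃ t : Finset K, Submodule.span k (t : Set K) = Rg k S j :=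
    fun j => Module.Finite.iff_fg.1 (Rg_finite hS j)
  choose t ht using hfg
  let g : (Σ j : Fin (n + d), t j) → Rhat k S :=
    fun b => mon b.1 b.2 (ht b.1 ▸ Submodule.subset_span b.2.2)
  let N := Submodule.span (MvPowerSeries σ k) (Set.range g)
  have h1 : ∀ j a (ha : a ∈ Rg k S j), mon j a ha ∈ N := by
    intro j
    induction j using Nat.strong_induction_on with
    | _ j ih =>
    intro a ha
    by_cases hj : j < n + d
    · have hb := ha
      rw [← ht j] at hb
      induction hb using Submodule.span_induction with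
      | mem s hs => exact Submodule.subset_span ⟨⟨⟨j, hj⟩, ⟨s, hs⟩⟩, rfl⟩
      | zero =>
        have : mon j (0 : K) ha = 0 := Subtype.ext (map_zero _)
        rw [this]; exact N.zero_mem
      | add a a' h1 h2 h3 h4 =>
        rw [ht] at h1 h2
        have : mon j (a + a') ha = mon j a h1 + mon j a' h2 := Subtype.ext (map_add _ _ _)
        rw [this]; exact N.add_mem (h3 h1) (h4 h2)
      | smul c a h1 h2 =>
        rw [ht] at h1
        have : mon j (c • a) ha = algebraMap k (MvPowerSeries σ k) c • mon j a h1 := by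
          rw [hsm, Psi_C, ← Algebra.smul_def]
          exact Subtype.ext ((monomial j).map_smul_of_tower c a)
        rw [this]; exact N.smul_mem _ (h2 h1)
    · obtain ⟨j, rfl⟩ : ∃ i, j = i + d := ⟨j - d, by omega⟩
      obtain ⟨c, h1, rfl⟩ := exists_sum p _ (hg j (by omega) ha)
      have : mon (j + d) _ ha = ∑ i, (MvPowerSeries.X i : MvPowerSeries σ k) • mon j (c i) (h1 i) := by
        apply Subtype.ext
        simp only [hsm, Psi_X, mon, AddSubmonoidClass.coe_finsetSum, MulMemClass.coe_mul, map_sum,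
          monomial_mul_monomial, add_comm]
      rw [this]
      exact N.sum_mem fun i _ => N.smul_mem _ (ih j (by omega) _ _)
  refine ⟨⟨(Set.finite_range g).toFinset, ?_⟩⟩
  rw [Set.Finite.coe_toFinset, eq_top_iff]
  intro f _
  choose F hF using fun j => (Submodule.mem_span_range_iff_exists_fun _).1 (h1 j _ (f.2 j))
  obtain ⟨G, hG⟩ : ∃ G : _ → MvPowerSeries σ k, ∀ b e,
      MvPowerSeries.coeff e (G b) = MvPowerSeries.coeff e (F (d * ∑ i, e i + b.1) b) :=
    ⟨fun b e => MvPowerSeries.coeff e (F (d * ∑ i, e i + b.1) b), fun _ _ => rfl⟩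
  refine (Submodule.mem_span_range_iff_exists_fun _).2 ⟨G, ?_⟩
  refine Subtype.ext (PowerSeries.ext fun j => ?_)
  have h2 := congrArg (fun z : Rhat k S => coeff j (z : K⟦X⟧)) (hF j)
  simp only [mon, coeff_monomial_same] at h2
  rw [← h2]
  simp only [hsm, AddSubmonoidClass.coe_finsetSum, MulMemClass.coe_mul, map_sum]
  refine Finset.sum_congr rfl fun b _ => ?_
  simp only [g, mon, monomial_eq_C_mul_X_pow, ← mul_assoc, coeff_mul_X_pow', coeff_mul_C]
  split_ifs with h
  · congr 1
    rw [coeff_Psi, coeff_Psi]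
    refine finsum_congr fun e => ?_
    split_ifs with h'
    · rw [hG, show d * ∑ i, e i + b.1 = j by omega]
    · simp
  · rfl

lemma Psi_inj {S : Set K} (hp : ∀ i, p i ∈ Rg k S d)
    (hi : ∀ (m : ℕ) (φ : MvPolynomial σ k), φ.IsHomogeneous m → MvPolynomial.aeval p φ = 0 → φ = 0) :
    Function.Injective (Psi p hd hp) := by
  classical
  refine (injective_iff_map_eq_zero _).2 fun F hF => MvPowerSeries.ext fun e => ?_
  let T := Finset.finsuppAntidiag (Finset.univ : Finset σ) (∑ i, e i)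
  have hT : ∀ u, u ∈ T ↔ ∑ i, u i = ∑ i, e i := fun u => by simp [T]
  have h0 := hi (∑ i, e i) (∑ u ∈ T, MvPolynomial.monomial u (MvPowerSeries.coeff u F))
    (MvPolynomial.IsHomogeneous.sum _ _ _ fun u hu => MvPolynomial.isHomogeneous_monomial _ (by
      rw [Finsupp.degree_eq_sum]; exact (hT u).1 hu)) (by
      have h1 := coeff_Psi p hd hp F (d * ∑ i, e i)
      rw [hF, finsum_eq_sum_of_support_subset (s := T) _ (fun u hu => by
        by_contra hn
        have : d * ∑ i, e i ≠ d * ∑ i, u i := fun h =>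
          hn ((hT u).2 (Nat.eq_of_mul_eq_mul_left hd h).symm)
        exact hu (by simp only [if_neg this, smul_zero]))] at h1
      rw [map_sum]
      refine Eq.trans (Finset.sum_congr rfl fun u hu => ?_) (h1.symm.trans (by simp))
      rw [if_pos (by rw [(hT u).1 hu]), MvPolynomial.aeval_monomial, ← Algebra.smul_def,
        Finsupp.prod_fintype _ _ (fun _ => pow_zero _)])
  have h2 := congrArg (MvPolynomial.coeff e) h0
  simpa [MvPolynomial.coeff_sum, MvPolynomial.coeff_monomial, (hT e).2 rfl] using h2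

end Sub

lemma dim_mv (n : ℕ) : (n : WithBot ℕ∞) ≤ ringKrullDim (MvPowerSeries (Fin n) k) := by
  induction n with
  | zero => exact ringKrullDim_nonneg_of_nontrivial
  | succ n ih =>
    rw [ringKrullDim_eq_of_ringEquiv (MvPowerSeries.finSuccEquiv k n).toRingEquiv]
    refine le_trans ?_ ringKrullDim_succ_le_ringKrullDim_powerseries
    push_cast
    exact add_le_add_left ih _

lemma dim_le {A B : Type} [CommRing A] [CommRing B] (f : A →+* B) (hf : f.Finite)
    (hi : Function.Injective f) (n : ℕ) (h : (n : WithBot ℕ∞) ≤ ringKrullDim A) :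
    (n : WithBot ℕ∞) ≤ ringKrullDim B := by
  let _i := f.toAlgebra
  have _i : Module.Finite A B := hf
  obtain ⟨l, rfl⟩ := Order.le_krullDim_iff.1 h
  obtain ⟨Q, -, h1, h2⟩ := Ideal.exists_ideal_over_prime_of_isIntegral (S := B) l.head.asIdeal ⊥
    (by rw [← RingHom.ker_eq_comap_bot, (RingHom.injective_iff_ker_eq_bot (algebraMap A B)).1 hi]
        exact bot_le)
  have _i : Q.LiesOver l.head.asIdeal := ⟨h2.symm⟩
  obtain ⟨L, h3, -⟩ := Ideal.exists_ltSeries_of_hasGoingUp l Q
  exact Order.le_krullDim_iff.2 ⟨L, h3⟩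

end RingA
open RingA

instance Rhat.isLocalRing (S : Set K) : IsLocalRing (Rhat k S) := by
  refine IsLocalRing.of_isUnit_or_isUnit_one_sub_self fun f => ?_
  by_cases h : PowerSeries.coeff 0 (f : PowerSeries K) = 0
  · exact Or.inr (isUnit_of _ (by
      rw [AddSubgroupClass.coe_sub, map_sub, h]; simp))
  · exact Or.inl (isUnit_of _ h)

theorem Rhat.maximalIdeal_eq (S : Set K) : IsLocalRing.maximalIdeal (Rhat k S) = mId k S := by
  refine (IsLocalRing.maximalIdeal.isMaximal _).eq_of_le (RingHom.ker_ne_top _) fun f hf => ?_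
  by_contra h
  exact hf (isUnit_of f fun h' => h ((mem_mId f).2 h'))

theorem Rhat.mem_mId_pow {S : Set K} (hS : S.Finite) (n : ℕ) (f : Rhat k S) :
    f ∈ mId k S ^ n ↔ ∀ j < n, PowerSeries.coeff j (f : PowerSeries K) = 0 := by
  refine ⟨coeff_of_mem_pow n f, ?_⟩
  have _i := hS.fintype
  induction n generalizing f with
  | zero => simp
  | succ n ih =>
    intro h
    obtain ⟨g, h1, rfl⟩ := decomp (fun i : S => (i : K)) mem_one (fun j _ => gen_one j) f h
    rw [pow_succ']
    exact Ideal.sum_mem _ fun i _ => Ideal.mul_mem_mul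
      ((mem_mId _).2 (by simp [mon, PowerSeries.coeff_monomial])) (ih _ (h1 i))

theorem Rhat.isNoetherianRing {S : Set K} (hS : S.Finite) : IsNoetherianRing (Rhat k S) := by
  have _i := hS.fintype
  have h := Psi_finite (fun i : S => (i : K)) one_pos hS (mem_one (k := k)) (n := 0)
    (fun j _ => gen_one j)
  let _i := (Psi (fun i : S => (i : K)) one_pos (mem_one (k := k))).toAlgebra
  have _i : Module.Finite (MvPowerSeries S k) (Rhat k S) := h
  exact IsNoetherianRing.of_finite (MvPowerSeries S k) _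

theorem Rhat.isAdicComplete {S : Set K} (hS : S.Finite) :
    IsAdicComplete (IsLocalRing.maximalIdeal (Rhat k S)) (Rhat k S) := by
  rw [Rhat.maximalIdeal_eq]
  have key : ∀ (n : ℕ) (f g : Rhat k S),
      f ≡ g [SMOD (mId k S ^ n • ⊤ : Submodule (Rhat k S) (Rhat k S))] ↔
      ∀ j < n, PowerSeries.coeff j (f : PowerSeries K) = PowerSeries.coeff j (g : PowerSeries K) := by
    intro n f g
    rw [SModEq.sub_mem, smul_eq_mul, Ideal.mul_top, Rhat.mem_mId_pow hS]
    simp [sub_eq_zero]
  refine { haus' := fun f hf => ?_, prec' := fun f hf => ?_ }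
  · exact Subtype.ext (PowerSeries.ext fun j => (key _ _ _).1 (hf (j + 1)) j (by omega))
  · refine ⟨⟨PowerSeries.mk fun j => PowerSeries.coeff j (f (j + 1) : PowerSeries K), fun j => ?_⟩,
      fun n => (key _ _ _).2 fun j hj => ?_⟩
    · rw [PowerSeries.coeff_mk]; exact (f _).2 j
    · rw [PowerSeries.coeff_mk]
      exact ((key _ _ _).1 (hf (show j + 1 ≤ n by omega)) j (by omega)).symm

variable {F : Type} [Field F] [Algebra k F] [Algebra F K] [IsScalarTower k F K] {P : P2 k F}
  {S : Set K} {d : ℕ} {x : K}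

omit [IsScalarTower k F K] in
theorem NormData.mId_le_radical' (hN : NormData P S d x) {J : ℕ} :
    mId k S ≤ (Ideal.span (Set.range fun i => pR hN i ^ J)).radical := by
  obtain ⟨n, hn⟩ := hN.gen
  intro f hf
  refine Ideal.mem_radical_of_pow_mem (m := n + d) ?_
  obtain ⟨g, -, h⟩ := decomp _ hN.mem hn (f ^ (n + d))
    (coeff_of_mem_pow _ _ (Ideal.pow_mem_pow hf _))
  rw [h]
  exact Ideal.sum_mem _ fun i _ => Ideal.mul_mem_right _ _ ⟨J, Ideal.subset_span ⟨i, rfl⟩⟩

theorem NormData.mId_le_radical (hN : NormData P S d x) {J : ℕ} (hJ : 0 < J) :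
    mId k S ≤ (Ideal.span (Set.range fun i => pR hN i ^ J)).radical :=
  hN.mId_le_radical'

theorem NormData.ringKrullDim_eq (hN : NormData P S d x) : ringKrullDim (Rhat k S) = 3 := by
  have _i := Rhat.isNoetherianRing (k := k) hN.finS
  apply le_antisymm
  · have h1 : IsLocalRing.maximalIdeal (Rhat k S) ∈
        (Ideal.span (Set.range fun i => pR hN i ^ 1)).minimalPrimes := by
      refine ⟨⟨inferInstance, ?_⟩, fun q hq _ => ?_⟩
      · rw [Ideal.span_le, Rhat.maximalIdeal_eq]
        rintro _ ⟨i, rfl⟩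
        exact (mem_mId _).2 (by simp [pR, PowerSeries.coeff_monomial, hN.d_pos.ne])
      · rw [Rhat.maximalIdeal_eq]
        exact hN.mId_le_radical'.trans (hq.1.radical_le_iff.2 hq.2)
    have h2 := Ideal.height_le_card_of_mem_minimalPrimes_span (Set.finite_range _) h1
    rw [← IsLocalRing.maximalIdeal_height_eq_ringKrullDim]
    have h3 : (Set.range fun i => pR hN i ^ 1).ncard ≤ 3 := by
      rw [← Set.image_univ]
      exact (Set.ncard_image_le Set.finite_univ).trans (by simp [Set.ncard_univ])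
    have h4 : (IsLocalRing.maximalIdeal (Rhat k S)).height ≤ (3 : ℕ) :=
      h2.trans (by exact_mod_cast h3)
    exact WithBot.coe_le_coe.2 h4
  · obtain ⟨n, hn⟩ := hN.gen
    refine dim_le _ (Psi_finite _ hN.d_pos hN.finS hN.mem hn)
      (Psi_inj _ hN.d_pos hN.mem fun m φ h1 h2 => P.inj m φ h1 ?_) 3 (dim_mv 3)
    have h3 : MvPolynomial.aeval (fun i => x * P.s K i) φ =
        x ^ m * algebraMap F K (MvPolynomial.aeval P.σ φ) := by
      rw [← MvPolynomial.aeval_algebraMap_apply, MvPolynomial.aeval_def, MvPolynomial.aeval_def,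
        MvPolynomial.eval₂_eq', MvPolynomial.eval₂_eq', Finset.mul_sum]
      refine Finset.sum_congr rfl fun u hu => ?_
      have := h1.degree_eq_sum_deg_support hu
      simp only [mul_pow, Finset.prod_mul_distrib, Finset.prod_pow_eq_pow_sum, P2.s,
        Function.comp]
      rw [this, ← Finsupp.degree_eq_sum, Finsupp.degree_apply]
      ring
    rw [h3, mul_eq_zero, map_eq_zero] at h2
    exact h2.resolve_left (pow_ne_zero _ hN.x_ne)

end Vale.Agent.P190
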