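import Vale.Agent.P190.Elim
import Vale.Agent.P190.Ring
import Vale.Agent.P190.GoodA

/-! Finitely generated graded modules and quotients of finite length. -/

open Module MvPolynomial

noncomputable section

namespace Vale.Agent.P190

variable {k K : Type} [Field k] [Field K] [Algebra k K]
variable {V V' : Type} [AddCommGroup V] [Module K V] [Module k V] [IsScalarTower k K V]
  [AddCommGroup V'] [Module K V'] [Module k V'] [IsScalarTower k K V']

/-- Hilbert basis theorem -/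
theorem Good.of_le {p : Fin 3 → K} {d : ℕ} (hd : 0 < d) {G G' : ℤ → Submodule k V}
    (hG : Good p d G) (hle : ∀ j, G' j ≤ G j)
    (hmul : ∀ i j, smulK (p i) (G' j) ≤ G' (j + d)) : Good p d G' := by
  refine ⟨fun j => have := hG.fin j; Submodule.finiteDimensional_of_le (hle j), hmul, ?_⟩
  obtain ⟨j₀, hj₀⟩ := hG.gen
  have key : ∀ r : ℕ, ∃ D : ℕ, ∀ n ≥ D, G' (j₀ + r + d * ((n + 1 : ℕ) : ℤ)) ≤
      ⨆ i, smulK (p i) (G' (j₀ + r + d * (n : ℤ))) := by
    intro r
    have e : ∀ n : ℕ, j₀ + r + d * ((n + 1 : ℕ) : ℤ) = j₀ + r + d * (n : ℤ) + d := fun n => by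
      push_cast; ring
    have := hG.fin (j₀ + r + d * ((0 : ℕ) : ℤ))
    refine GoodA.hilbert p (fun n => G (j₀ + r + d * (n : ℤ))) (fun n => G' (j₀ + r + d * (n : ℤ)))
      (fun i n x hx => ?_) (fun i n x hx => ?_) (fun n => hle _) (fun n => ?_)
    · rw [e]; exact hG.mul i _ (GoodA.smul_mem_smulK _ hx)
    · rw [e]; exact hmul i _ (GoodA.smul_mem_smulK _ hx)
    · rw [e]
      refine hj₀ _ ?_
      have : (0 : ℤ) ≤ d * (n : ℤ) := by positivity
      omega
  choose D hD using key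
  refine ⟨j₀ + d * (((Finset.range d).sup D : ℕ) : ℤ), fun j hj => ?_⟩
  obtain ⟨m, rfl⟩ : ∃ m : ℕ, j = j₀ + m := by
    have : (0 : ℤ) ≤ d * (((Finset.range d).sup D : ℕ) : ℤ) := by positivity
    exact ⟨(j - j₀).toNat, by omega⟩
  have h1 : d * (Finset.range d).sup D ≤ m := by
    have : (d : ℤ) * (((Finset.range d).sup D : ℕ) : ℤ) ≤ m := by omega
    exact_mod_cast this
  have h2 : D (m % d) ≤ m / d :=
    le_trans (Finset.le_sup (f := D) (Finset.mem_range.2 (Nat.mod_lt m hd)))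
      ((Nat.le_div_iff_mul_le hd).2 (by rwa [mul_comm]))
  have h3 : (m : ℤ) = (m % d : ℕ) + d * ((m / d : ℕ) : ℤ) := by
    exact_mod_cast (Nat.mod_add_div m d).symm
  have := hD (m % d) (m / d) h2
  have e1 : j₀ + (m % d : ℕ) + d * ((m / d + 1 : ℕ) : ℤ) = j₀ + m + d := by
    rw [Nat.cast_add, mul_add]; omega
  have e2 : j₀ + (m % d : ℕ) + d * ((m / d : ℕ) : ℤ) = j₀ + m := by omega
  rwa [e1, e2] at this

theorem Good.map {p : Fin 3 → K} {d : ℕ} {G : ℤ → Submodule k V} (hG : Good p d G)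
    (f : V →ₗ[K] V') : Good p d (fun j => (G j).map (f.restrictScalars k)) := by
  have e : ∀ (c : K) (W : Submodule k V), smulK c (W.map (f.restrictScalars k)) =
      (smulK c W).map (f.restrictScalars k) := by
    intro c W
    simp only [smulK, ← Submodule.map_comp]
    congr 1
    ext x
    simp
  refine ⟨fun j => have := hG.fin j; Module.Finite.map _ _, fun i j => ?_, ?_⟩
  · rw [e]; exact Submodule.map_mono (hG.mul i j)
  · obtain ⟨j₀, h⟩ := hG.gen
    refine ⟨j₀, fun j hj => ?_⟩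
    simp only [e, ← Submodule.map_iSup]
    exact Submodule.map_mono (h j hj)

theorem Good.sup {p : Fin 3 → K} {d : ℕ} {G G' : ℤ → Submodule k V} (hG : Good p d G)
    (hG' : Good p d G') : Good p d (fun j => G j ⊔ G' j) := by
  refine ⟨fun j => have := hG.fin j; have := hG'.fin j; inferInstance, fun i j => ?_, ?_⟩
  · rw [smulK, Submodule.map_sup]
    exact sup_le_sup (hG.mul i j) (hG'.mul i j)
  · obtain ⟨j₀, h⟩ := hG.gen
    obtain ⟨j₁, h'⟩ := hG'.gen
    refine ⟨max j₀ j₁, fun j hj => sup_le ?_ ?_⟩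
    · exact (h j (by omega)).trans (iSup_mono fun i => GoodA.smulK_mono _ le_sup_left)
    · exact (h' j (by omega)).trans (iSup_mono fun i => GoodA.smulK_mono _ le_sup_right)

theorem Good.shift {p : Fin 3 → K} {d : ℕ} {G : ℤ → Submodule k V} (hG : Good p d G) (e : ℤ) :
    Good p d (fun j => G (j + e)) := by
  refine ⟨fun j => hG.fin _, fun i j => ?_, ?_⟩
  · rw [add_right_comm]; exact hG.mul i _
  · obtain ⟨j₀, h⟩ := hG.gen
    exact ⟨j₀ - e, fun j hj => by rw [add_right_comm]; exact h _ (by omega)⟩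

/-- one residue class of degrees, normalised -/
theorem Good.veronese {s : Fin 3 → K} {x : K} (hx : x ≠ 0) {d : ℕ} (hd : 0 < d)
    {G : ℤ → Submodule k V} (hG : Good (fun i => x * s i) d G) (i : ℤ) :
    Good s 1 (fun j => smulK (x ^ (-j)) (G (i + d * j))) := by
  have e : ∀ (l : Fin 3) (j : ℤ) (W : Submodule k V), smulK (s l) (smulK (x ^ (-j)) W) =
      smulK (x ^ (-(j + (1 : ℕ)))) (smulK (x * s l) W) := by
    intro l j W
    rw [GoodA.smulK_smulK, GoodA.smulK_smulK]
    congr 1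
    rw [neg_add, zpow_add₀ hx]
    simp only [Nat.cast_one, zpow_neg, zpow_one]
    field_simp
  have e2 : ∀ j : ℤ, i + d * (j + (1 : ℕ)) = i + d * j + d := fun j => by push_cast; ring
  refine ⟨fun j => have := hG.fin (i + d * j); inferInstance, fun l j => ?_, ?_⟩
  · rw [e, e2]; exact GoodA.smulK_mono _ (hG.mul l _)
  · obtain ⟨j₀, h⟩ := hG.gen
    refine ⟨max 0 (j₀ - i), fun j hj => ?_⟩
    simp only [e, e2]
    have h1 : j ≤ d * j := le_mul_of_one_le_left (by omega) (by exact_mod_cast hd)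
    refine (GoodA.smulK_mono _ (h _ (by omega))).trans ?_
    rw [smulK, Submodule.map_iSup]
    exact le_rfl

theorem Good.pow_smul_mem {p : Fin 3 → K} {d : ℕ} {G : ℤ → Submodule k V} (hG : Good p d G)
    (i : Fin 3) (n : ℕ) {j : ℤ} {x : V} (hx : x ∈ G j) : p i ^ n • x ∈ G (j + d * n) := by
  induction n with
  | zero => simpa using hx
  | succ n ih =>
    have := hG.mul i _ (GoodA.smul_mem_smulK _ ih)
    rw [pow_succ', mul_smul]
    convert this using 2
    push_cast; ring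

theorem Good.aeval_smul_mem {p : Fin 3 → K} {d : ℕ} {G : ℤ → Submodule k V} (hG : Good p d G)
    {φ : MvPolynomial (Fin 3) k} {e : ℕ} (hφ : φ.IsHomogeneous e) {j : ℤ} {x : V}
    (hx : x ∈ G j) : aeval p φ • x ∈ G (j + d * e) := by
  refine GoodA.mem_of_monomial hφ fun a b c h => ?_
  have := hG.pow_smul_mem 0 a (hG.pow_smul_mem 1 b (hG.pow_smul_mem 2 c hx))
  rw [← h, mul_smul, mul_smul]
  convert this using 2
  push_cast; ring

/-- high degrees are generated from one degree -/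
theorem Good.exists_span {p : Fin 3 → K} {d : ℕ} {G : ℤ → Submodule k V} (hG : Good p d G) :
    ∃ j₀ : ℤ, ∀ j ≥ j₀, ∀ e : ℕ, G (j + d * e) ≤ Submodule.span k
      {y | ∃ φ : MvPolynomial (Fin 3) k, φ.IsHomogeneous e ∧ ∃ x ∈ G j, y = aeval p φ • x} := by
  obtain ⟨j₀, h⟩ := hG.gen
  refine ⟨j₀, fun j hj e => ?_⟩
  induction e with
  | zero =>
    intro x hx
    exact Submodule.subset_span ⟨1, isHomogeneous_one _ _, x, by simpa using hx, by simp⟩
  | succ e ih =>
    have e1 : j + d * ((e + 1 : ℕ) : ℤ) = j + d * e + d := by push_cast; ring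
    have h1 : (0 : ℤ) ≤ d * (e : ℤ) := by positivity
    rw [e1]
    refine (h _ (by omega)).trans (iSup_le fun i => (GoodA.smulK_mono _ ih).trans ?_)
    rw [smulK, Submodule.map_span_le]
    rintro _ ⟨φ, hφ, x, hx, rfl⟩
    refine Submodule.subset_span ⟨φ * X i, hφ.mul (isHomogeneous_X _ _), x, hx, ?_⟩
    simp [mul_smul]

/-- high degrees lie in the ideal generated by the `J`-th powers -/
theorem Good.exists_le_pow {p : Fin 3 → K} {d : ℕ} {G : ℤ → Submodule k V} (hG : Good p d G) :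
    ∃ j₀ : ℤ, ∀ J : ℕ, ∀ j ≥ j₀, G (j + d * (3 * J)) ≤
      ⨆ i, smulK (p i ^ J) (G (j + d * (2 * J))) := by
  obtain ⟨j₀, h⟩ := hG.exists_span
  refine ⟨j₀, fun J j hj => ?_⟩
  have := h j hj (3 * J)
  push_cast at this
  refine this.trans (Submodule.span_le.2 ?_)
  rintro _ ⟨φ, hφ, x, hx, rfl⟩
  refine GoodA.mem_of_monomial hφ fun a b c habc => ?_
  have key : ∀ a b c : ℕ, a + b + c = 2 * J →
      (p 0 ^ a * p 1 ^ b * p 2 ^ c) • x ∈ G (j + d * (2 * J)) := by
    intro a b c h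
    have := hG.aeval_smul_mem (((isHomogeneous_X_pow 0 a).mul (isHomogeneous_X_pow 1 b)).mul
      (isHomogeneous_X_pow 2 c)) hx
    rw [h] at this
    simpa using this
  by_cases ha : J ≤ a
  · obtain ⟨a, rfl⟩ := Nat.exists_eq_add_of_le ha
    refine Submodule.mem_iSup_of_mem 0 (GoodA.mem_smulK.2 ⟨_, key a b c (by omega), ?_⟩)
    rw [← mul_smul]; congr 1; ring
  by_cases hb : J ≤ b
  · obtain ⟨b, rfl⟩ := Nat.exists_eq_add_of_le hb
    refine Submodule.mem_iSup_of_mem 1 (GoodA.mem_smulK.2 ⟨_, key a b c (by omega), ?_⟩)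
    rw [← mul_smul]; congr 1; ring
  · obtain ⟨c, rfl⟩ := Nat.exists_eq_add_of_le (show J ≤ c by omega)
    refine Submodule.mem_iSup_of_mem 2 (GoodA.mem_smulK.2 ⟨_, key a b c (by omega), ?_⟩)
    rw [← mul_smul]; congr 1; ring

variable {F : Type} [Field F] [Algebra k F] [Algebra F K] [IsScalarTower k F K] (P : P2 k F)

theorem Good.finset_sup {ι : Type} {p : Fin 3 → K} {d : ℕ} (s : Finset ι)
    {G : ι → ℤ → Submodule k V} (hG : ∀ a, Good p d (G a)) :
    Good p d (fun j => s.sup fun a => G a j) := by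
  classical
  induction s using Finset.induction_on with
  | empty => exact ⟨fun j => Module.Finite.bot k V, by simp [smulK], 0, by simp⟩
  | insert a s ha ih => simpa only [Finset.sup_insert] using (hG a).sup ih

/-- values of forms -/
def P2.forms (j : ℤ) : Submodule k F :=
  if 0 ≤ j then (homogeneousSubmodule (Fin 3) k j.toNat).map (aeval (P.s F)).toLinearMap else ⊥

theorem P2.mem_forms (j : ℕ) (x : F) : x ∈ P.forms j ↔
    ∃ φ : MvPolynomial (Fin 3) k, φ.IsHomogeneous j ∧ aeval (P.s F) φ = x := by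
  simp [P2.forms]

theorem P2.good_forms : Good (P.s F) 1 P.forms := by
  refine ⟨fun j => ?_, fun i j => GoodA.smulK_le.2 fun x hx => ?_, 0, fun j hj x hx => ?_⟩
  · rw [Module.Finite.iff_fg, P2.forms]
    split_ifs
    · exact (homogeneousSubmodule_fg (Fin 3) k j.toNat).map _
    · exact Submodule.fg_bot
  · by_cases hj : 0 ≤ j
    · lift j to ℕ using hj
      obtain ⟨φ, hφ, rfl⟩ := (P.mem_forms j x).1 hx
      rw [← Nat.cast_add, P.mem_forms]
      exact ⟨φ * X i, hφ.mul (isHomogeneous_X _ _), by simp [mul_comm]⟩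
    · rw [P2.forms, if_neg hj, Submodule.mem_bot] at hx
      simp [hx]
  · lift j to ℕ using hj
    rw [← Nat.cast_add, P.mem_forms] at hx
    obtain ⟨φ, hφ, rfl⟩ := hx
    have key : ∀ a b c : ℕ, a + b + c = j → P.s F 0 ^ a * P.s F 1 ^ b * P.s F 2 ^ c ∈ P.forms j :=
      fun a b c h => (P.mem_forms j _).2 ⟨_, h ▸ ((isHomogeneous_X_pow 0 a).mul
        (isHomogeneous_X_pow 1 b)).mul (isHomogeneous_X_pow 2 c), by simp⟩
    rw [← mul_one (aeval _ φ), ← smul_eq_mul]
    refine GoodA.mem_of_monomial hφ fun a b c habc => ?_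
    rcases a with _ | a
    · rcases b with _ | b
      · obtain ⟨c, rfl⟩ : ∃ c', c = c' + 1 := ⟨c - 1, by omega⟩
        refine Submodule.mem_iSup_of_mem 2 (GoodA.mem_smulK.2 ⟨_, key 0 0 c (by omega), ?_⟩)
        simp only [smul_eq_mul]; ring
      · refine Submodule.mem_iSup_of_mem 1 (GoodA.mem_smulK.2 ⟨_, key 0 b c (by omega), ?_⟩)
        simp only [smul_eq_mul]; ring
    · refine Submodule.mem_iSup_of_mem 0 (GoodA.mem_smulK.2 ⟨_, key a b c (by omega), ?_⟩)
      simp only [smul_eq_mul]; ring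

omit [Module k V] [IsScalarTower k K V] in
theorem P2.H0_mul [CharZero k] [FiniteDimensional F K] {L : Sys (PU k) V}
    (hL : IsBun (P.OK K) L) {φ : MvPolynomial (Fin 3) k} {e : ℕ} (hφ : φ.IsHomogeneous e) {j : ℤ}
    {x : V} {u : PU k} (hx : x ∈ twist (P.pol K ^ j) L u) :
    P.ev K φ • x ∈ twist (P.pol K ^ (j + e)) L u := by
  have := hL.smul_mem_twist (P.ev_mem K hφ u) hx
  rwa [← zpow_natCast, ← zpow_add, add_comm] at this

theorem P2.good_H0_self [CharZero k] {V : Type} [AddCommGroup V] [Module F V] [Module k V]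
    [IsScalarTower k F V] {L : Sys (PU k) V} (hL : IsBun (P.OK F) L) :
    Good (P.s F) 1 (fun j => H0 k (twist (P.pol F ^ j) L)) := by
  obtain ⟨n, e, -⟩ := hL.std
  obtain ⟨i, ψ, hψ, h0, h⟩ := P.exists_le_twist hL (isBun_latt (O := P.OK F) e)
  have hne := P.ev_ne_zero F hψ h0
  refine ((Good.finset_sup Finset.univ fun a =>
    P.good_forms.map (LinearMap.toSpanSingleton F V ((P.ev F ψ)⁻¹ • e a))).shift i).of_le one_pos
    (fun j => Submodule.span_le.2 fun x hx => ?_) (fun l j => GoodA.smulK_le.2 fun x hx => ?_)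
  · have h1 : ∀ a u, e.repr (P.ev F ψ • x) a ∈ line (P.pol F ^ (j + i)) u := by
      intro a u
      have h2 := h u _ ((mem_twist _ _ _ _).1 (hx u))
      rw [mem_twist, smul_comm (P.ev F ψ), ← mul_smul, mem_latt] at h2
      have h3 := h2 a
      rw [map_smul, Finsupp.smul_apply, smul_eq_mul] at h3
      rw [mem_line, zpow_add, dv_mul, mul_inv, mul_comm (dv _ u)⁻¹]
      exact h3
    have h2 : ∀ a, e.repr (P.ev F ψ • x) a ∈ P.forms (j + i) := by
      intro a
      by_cases hj : 0 ≤ j + i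
      · obtain ⟨m, hm⟩ := Int.eq_ofNat_of_zero_le hj
        have h3 := h1 a
        rw [hm] at h3 ⊢
        obtain ⟨φ, hφ, h4⟩ := (P.H0_pol m _).1 h3
        exact (P.mem_forms m _).2 ⟨φ, hφ, by rw [h4, P.ev_eq_aeval]⟩
      · rw [P.H0_pol_neg (not_le.1 hj) (h1 a)]
        exact zero_mem _
    have h3 : x = ∑ a, e.repr (P.ev F ψ • x) a • ((P.ev F ψ)⁻¹ • e a) := by
      simp only [smul_comm _ (P.ev F ψ)⁻¹]
      rw [← Finset.smul_sum, e.sum_repr, inv_smul_smul₀ hne]
    rw [h3]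
    refine Submodule.sum_mem _ fun a _ => ?_
    refine (Finset.le_sup (f := fun a => (P.forms (j + i)).map
      ((LinearMap.toSpanSingleton F V ((P.ev F ψ)⁻¹ • e a)).restrictScalars k))
      (Finset.mem_univ a) :) ⟨_, h2 a, rfl⟩
  · rw [(hL.twist _).mem_H0 (P.hasK_OK F)] at hx ⊢
    intro u
    have := P.H0_mul hL (isHomogeneous_X k l) (hx u)
    rwa [P.ev_eq_aeval, aeval_X] at this

omit [Algebra k K] [Module k V] [IsScalarTower k K V] [IsScalarTower k F K] in
theorem P2.isBun_res [CharZero k] [FiniteDimensional F K] [Module F V] [IsScalarTower F K V]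
    {L : Sys (PU k) V} (hL : IsBun (P.OK K) L) : IsBun (P.OK F) L :=
  hL.res (P.finOver_OK F K) (P.isSL_OK F).isFam

omit [Algebra k K] [Module k V] [IsScalarTower k K V] [IsScalarTower k F K] in
theorem P2.twist_pol_res [CharZero k] [FiniteDimensional F K] [Module F V] [IsScalarTower F K V]
    {L : Sys (PU k) V} (hL : IsBun (P.OK K) L) (j : ℤ) :
    twist (P.pol K ^ j) L = twist (P.pol F ^ j) L := by
  rw [← hL.twist_congr ((P.pol_map F K).zpow j), ← Div.map_zpow, twist_map]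

theorem P2.good_H0 [CharZero k] [FiniteDimensional F K] {L : Sys (PU k) V}
    (hL : IsBun (P.OK K) L) : Good (P.s K) 1 (fun j => H0 k (twist (P.pol K ^ j) L)) := by
  let : Module F V := Module.compHom V (algebraMap F K)
  have : IsScalarTower F K V := IsScalarTower.of_algebraMap_smul fun _ _ => rfl
  have : IsScalarTower k F V := IsScalarTower.of_algebraMap_smul fun c x => by
    show algebraMap F K (algebraMap k F c) • x = c • x
    rw [← IsScalarTower.algebraMap_apply, algebraMap_smul]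
  have h := P.good_H0_self (P.isBun_res hL)
  simp only [P.twist_pol_res hL]
  have e : ∀ i (W : Submodule k V), smulK (P.s K i) W = smulK (P.s F i) W := fun i W => rfl
  exact ⟨h.fin, h.mul, h.gen⟩

theorem P2.isHull_H0 [CharZero k] [FiniteDimensional F K] {L : Sys (PU k) V}
    (hL : IsBun (P.OK K) L) : IsHull (K := K) P (fun j => H0 k (twist (P.pol K ^ j) L)) L := by
  intro u x
  constructor
  · intro hx
    obtain ⟨i, ψ, h1, h2, h3⟩ := P.exists_clear hL hx
    exact ⟨i, ψ, h1, h2, Submodule.subset_span h3⟩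
  · rintro ⟨j, ψ, h1, h2, h3⟩
    have h4 := ((hL.twist _).mem_H0 (P.hasK_OK K) _).1 h3 u
    have h0 : ψ ≠ 0 := fun h => h2 (by rw [h]; exact zero_mem _)
    have h5 := hL.smul_mem (P.ev_unit K h1 h2) ((mem_twist _ _ _ _).1 h4)
    rw [zpow_natCast, dv_pow, ← mul_smul, ← mul_smul] at h5
    have h6 := P.ev_ne_zero K h1 h0
    have h7 := dv_ne_zero (P.pol K) u
    rwa [show dv (P.pol K) u ^ j / P.ev K ψ * (dv (P.pol K) u ^ j)⁻¹ * P.ev K ψ = 1 by field_simp,
      one_smul] at h5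

theorem P2.locG_H0 [CharZero k] [FiniteDimensional F K] {L : Sys (PU k) V}
    (hL : IsBun (P.OK K) L) {h : MvPolynomial (Fin 3) k} (hh : h.IsHomogeneous 1) (h0 : h ≠ 0)
    (x : V) : x ∈ locG (P.ev K h) (fun j => H0 k (twist (P.pol K ^ j) L)) ↔
      x ∈ secChart h L := by
  have hne := P.ev_ne_zero K hh h0
  have hev : ∀ j : ℕ, P.ev K (h ^ j) = P.ev K h ^ j := fun j => by simp [P2.ev]
  have hhj : ∀ j : ℕ, (h ^ j).IsHomogeneous j := fun j => by simpa using hh.pow j
  constructor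
  · intro hx
    refine Submodule.iSup_induction _ (motive := fun x => x ∈ secChart h L) hx
      (fun j x hx => ?_) (zero_mem _) (fun x y hx hy => add_mem hx hy)
    rw [GoodA.mem_smulK_inv (pow_ne_zero j hne), ← hev] at hx
    rw [secChart, AddSubgroup.mem_iInf]
    exact fun u => (P.isHull_H0 hL u.1 x).2 ⟨j, _, hhj j, fun hu => u.2 (u.1.2.1.mem_of_pow_mem j hu),
      hx⟩
  · intro hx
    rw [secChart, AddSubgroup.mem_iInf] at hx
    let : Module F V := Module.compHom V (algebraMap F K)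
    have : IsScalarTower F K V := IsScalarTower.of_algebraMap_smul fun _ _ => rfl
    have hF := P.isBun_res hL
    have key : ∀ u : PU k, h ∈ u.1 → ∀ᶠ j : ℕ in Filter.atTop,
        P.ev K (h ^ j) • x ∈ twist (P.pol K ^ (j : ℤ)) L u := by
      intro u hu
      have hD : IsDiscreteValuationRing (P.OK F u) := by rw [P.OK_self]; exact P.isDVR u
      obtain ⟨b, hb, hb0, hbx⟩ := (hF.lat u).exists_smul_mem ((P.isSL_OK F).isFam.frac u) x
      have ha : (dv (P.pol F) u)⁻¹ * P.ev F h ∈ P.OK F u := by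
        have := P.ev_mem F hh u
        rwa [pow_one, mem_line] at this
      have hnu : ¬ IsUnit (⟨_, ha⟩ : P.OK F u) := by
        intro hu'
        obtain ⟨c, hc⟩ := hu'.exists_right_inv
        have hc' : (dv (P.pol F) u)⁻¹ * P.ev F h * c = 1 := congrArg Subtype.val hc
        refine P.notMem_of_unit F hh h0 ?_ hu
        rw [pow_one, show dv (P.pol F) u / P.ev F h = c by
          rw [eq_inv_of_mul_eq_one_right hc', mul_inv, inv_inv, div_eq_mul_inv]]
        exact c.2
      obtain ⟨π, hπ⟩ := IsDiscreteValuationRing.exists_irreducible (P.OK F u)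
      obtain ⟨n, hn⟩ := IsDiscreteValuationRing.associated_pow_irreducible
        (x := (⟨b, hb⟩ : P.OK F u)) (fun h => hb0 (congrArg Subtype.val h)) hπ
      have h1 : π ∣ ⟨_, ha⟩ := by
        rw [← Ideal.mem_span_singleton, ← hπ.maximalIdeal_eq]
        exact hnu
      refine Filter.eventually_atTop.2 ⟨n, fun j hj => ?_⟩
      obtain ⟨c, hc⟩ : (⟨b, hb⟩ : P.OK F u) ∣ ⟨_, ha⟩ ^ j :=
        hn.dvd.trans ((pow_dvd_pow_of_dvd h1 n).trans (pow_dvd_pow _ hj))
      have hc' : ((dv (P.pol F) u)⁻¹ * P.ev F h) ^ j = b * c := congrArg Subtype.val hc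
      rw [P.twist_pol_res hL, mem_twist, zpow_natCast, dv_pow]
      have e : P.ev K (h ^ j) • x = (P.ev F h ^ j) • x := by
        show _ = algebraMap F K (P.ev F h ^ j) • x
        rw [hev, map_pow]; rfl
      rw [e, ← mul_smul, ← inv_pow, ← mul_pow, hc', mul_comm, mul_smul]
      exact hF.smul_mem c.2 hbx
    obtain ⟨j, hj⟩ := ((Filter.eventually_all_finite (PU.finite_mem h0)).2 key).exists
    refine Submodule.mem_iSup_of_mem j ((GoodA.mem_smulK_inv (pow_ne_zero j hne)).2 ?_)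
    rw [← hev]
    refine Submodule.subset_span fun u => ?_
    by_cases hu : h ∈ u.1
    · exact hj u hu
    · have := P.H0_mul hL (hhj j) (j := 0) (x := x) (u := u) (by simpa [twist_one] using hx ⟨u, hu⟩)
      rwa [zero_add] at this

/-- a quotient supported in finitely many points has constant Hilbert function, equal to the
dimension of its sections on a general affine chart -/
theorem P2.finite_colength [IsAlgClosed k] {G G' : ℤ → Submodule k V}
    (hG : Good (P.s K) 1 G) (hG' : Good (P.s K) 1 G') (hle : ∀ j, G' j ≤ G j)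
    (hloc : ∀ (u : PU k) (j : ℤ), ∀ x ∈ G j, ∃ (i : ℕ) (ψ : MvPolynomial (Fin 3) k),
      ψ.IsHomogeneous i ∧ ψ ∉ u.1 ∧ P.ev K ψ • x ∈ G' (j + i)) :
    ∃ (z : ℕ) (T : Set k), T.Finite ∧
      (∃ j₀ : ℤ, ∀ j ≥ j₀, finrank k (G j) = finrank k (G' j) + z) ∧
      ∀ c ∉ T, rdim (locG (P.ev K (hlin c)) G) (locG (P.ev K (hlin c)) G') = z := by
  classical
  obtain ⟨j₀, hj₀⟩ := hG.exists_span
  simp only [Nat.cast_one, one_mul] at hj₀
  simp only [P.ev_eq_aeval] at hloc ⊢
  have mG : ∀ {φ : MvPolynomial (Fin 3) k} {e : ℕ}, φ.IsHomogeneous e → ∀ {j : ℤ} {x : V},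
      x ∈ G j → aeval (P.s K) φ • x ∈ G (j + e) := fun hφ _ _ hx => by
    simpa using hG.aeval_smul_mem hφ hx
  have mG' : ∀ {φ : MvPolynomial (Fin 3) k} {e : ℕ}, φ.IsHomogeneous e → ∀ {j : ℤ} {x : V},
      x ∈ G' j → aeval (P.s K) φ • x ∈ G' (j + e) := fun hφ _ _ hx => by
    simpa using hG'.aeval_smul_mem hφ hx
  let Kill : MvPolynomial (Fin 3) k → ℕ → Prop := fun ψ i =>
    ψ.IsHomogeneous i ∧ ∀ x ∈ G j₀, aeval (P.s K) ψ • x ∈ G' (j₀ + i)
  have Kmul : ∀ {ψ φ : MvPolynomial (Fin 3) k} {i e : ℕ}, Kill ψ i → φ.IsHomogeneous e →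
      Kill (φ * ψ) (e + i) := by
    intro ψ φ i e h hφ
    refine ⟨hφ.mul h.1, fun x hx => ?_⟩
    rw [map_mul, mul_smul]
    convert mG' hφ (h.2 x hx) using 2
    push_cast; ring
  have K1 : ∀ u : PU k, ∃ ψ i, 0 < i ∧ Kill ψ i ∧ ψ ∉ u.1 := by
    intro u
    obtain ⟨t, ht⟩ : (G j₀).FG := Module.Finite.iff_fg.1 (hG.fin j₀)
    obtain ⟨l, hl⟩ := u.exists_X_notMem
    have : ∀ t' : Finset V, (∀ x ∈ t', x ∈ G j₀) → ∃ (ψ : MvPolynomial (Fin 3) k) (i : ℕ), 0 < i ∧
        ψ.IsHomogeneous i ∧ ψ ∉ u.1 ∧ ∀ x ∈ t', aeval (P.s K) ψ • x ∈ G' (j₀ + i) := by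
      intro t'
      induction t' using Finset.induction_on with
      | empty => exact fun _ => ⟨X l, 1, one_pos, isHomogeneous_X _ _, hl, by simp⟩
      | insert a t' _ ih =>
        intro h
        obtain ⟨ψ, i, h0, h1, h2, h3⟩ := ih fun x hx => h x (by simp [hx])
        obtain ⟨e, φ, h4, h5, h6⟩ := hloc u j₀ a (h a (by simp))
        refine ⟨ψ * φ, i + e, by omega, h1.mul h4, fun hm => (u.2.1.mem_or_mem hm).elim h2 h5,
          fun x hx => ?_⟩
        rcases Finset.mem_insert.1 hx with rfl | hx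
        · rw [map_mul, mul_smul]
          convert mG' h1 h6 using 2
          push_cast; ring
        · rw [mul_comm, map_mul, mul_smul]
          convert mG' h4 (h3 x hx) using 2
          push_cast; ring
    obtain ⟨ψ, i, h0, h1, h2, h3⟩ := this t fun x hx => ht ▸ Submodule.subset_span hx
    refine ⟨ψ, i, h0, ⟨h1, fun x hx => ?_⟩, h2⟩
    have : Submodule.span k (t : Set V) ≤ (G' (j₀ + i)).comap
        ((LinearMap.lsmul K V (aeval (P.s K) ψ)).restrictScalars k) :=
      Submodule.span_le.2 fun x hx => h3 x hx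
    exact this (ht ▸ hx)
  have K2 : ∀ S : Finset (PU k), ∃ g a, 0 < a ∧ Kill g a ∧ ∀ u ∈ S, g ∉ u.1 := by
    intro S
    induction S using Finset.induction_on with
    | empty => exact ⟨0, 1, one_pos, ⟨isHomogeneous_zero _ _ _, by simp⟩, by simp⟩
    | insert u S hu ih =>
      obtain ⟨g, a, ha, hg, hS⟩ := ih
      by_cases hgu : g ∈ u.1
      · obtain ⟨ψ, i, hi, hψ, hψu⟩ := K1 u
        choose φ e _ h2 _ h4 h5 using fun u' : PU k => u'.exists_gen
        have k1 := Kmul hψ (IsHomogeneous.prod S φ e fun u' _ => h2 u')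
        set b := ∑ u' ∈ S, e u' + i with hb
        obtain ⟨a', rfl⟩ : ∃ a', a = a' + 1 := ⟨a - 1, by omega⟩
        obtain ⟨b', hb'⟩ : ∃ b', b = b' + 1 := ⟨b - 1, by omega⟩
        set h := (∏ u' ∈ S, φ u') * ψ with hh
        have k2 := Kmul hg (hg.1.pow b')
        have k3 := Kmul k1 (k1.1.pow a')
        rw [show b * a' + b = (a' + 1) * b' + (a' + 1) by rw [hb']; ring] at k3
        refine ⟨g ^ b' * g + h ^ a' * h, _, by omega, ⟨k2.1.add k3.1, fun x hx => ?_⟩,
          fun u' hu' hm => ?_⟩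
        · rw [map_add, add_smul]
          exact add_mem (k2.2 x hx) (k3.2 x hx)
        · rcases Finset.mem_insert.1 hu' with rfl | hu'
          · have h6 := (Ideal.add_mem_iff_right _ (Ideal.mul_mem_left _ (g ^ b') hgu)).1 hm
            rw [← pow_succ] at h6
            rcases u'.2.1.mem_or_mem (u'.2.1.mem_of_pow_mem _ h6) with h7 | h7
            · have := u'.2.1
              obtain ⟨v, hv, h8⟩ := (Ideal.IsPrime.prod_mem_iff.1 h7)
              exact hu (h5 v u' h8 ▸ hv)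
            · exact hψu h7
          · have h6 : h ∈ u'.1 := Ideal.mul_mem_right _ _
              (Ideal.prod_mem _ hu' (by rw [h4]; exact Ideal.mem_span_singleton_self _))
            have h7 := (Ideal.add_mem_iff_left _ (Ideal.mul_mem_left _ (h ^ a') h6)).1 hm
            rw [← pow_succ] at h7
            exact hS u' hu' (u'.2.1.mem_of_pow_mem _ h7)
      · exact ⟨g, a, ha, hg, fun u' hu' => by
          rcases Finset.mem_insert.1 hu' with rfl | hu'
          exacts [hgu, hS u' hu']⟩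
  obtain ⟨u₀, -⟩ := PU.exists_mem (isHomogeneous_X k (0 : Fin 3)) one_pos
  obtain ⟨f, a, -, hf, hfu⟩ := K1 u₀
  have hf0 : f ≠ 0 := fun h => hfu (by rw [h]; exact zero_mem _)
  obtain ⟨g, b, -, hg, hgu⟩ := K2 (PU.finite_mem hf0).toFinset
  obtain ⟨T, hT, hTc⟩ := exists_pow_le_span_hlin hf.1 hg.1 hf0
    fun u hu => hgu u ((Set.Finite.mem_toFinset _).2 hu)
  have ht0 : ∀ c : k, aeval (P.s K) (hlin c) ≠ 0 := fun c => by
    rw [← P.ev_eq_aeval]; exact P.ev_ne_zero K (hlin_isHomogeneous c) (hlin_ne_zero c)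
  have surj : ∀ c ∉ T, ∃ j₁ : ℤ, ∀ j ≥ j₁,
      G (j + 1) = G' (j + 1) ⊔ smulK (aeval (P.s K) (hlin c)) (G j) := by
    intro c hc
    obtain ⟨N, hN⟩ := hTc c hc
    refine ⟨j₀ + (3 * N + a + b : ℕ), fun j hj => le_antisymm ?_ (sup_le (hle _)
      (GoodA.smulK_le.2 fun x hx => mG (hlin_isHomogeneous c) hx))⟩
    obtain ⟨e, rfl⟩ : ∃ e : ℕ, j = j₀ + e := ⟨(j - j₀).toNat, by omega⟩
    have he : 3 * N + a + b ≤ e := by omega
    have h1 := hj₀ j₀ le_rfl (e + 1)
    rw [Nat.cast_add, ← add_assoc, Nat.cast_one] at h1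
    refine h1.trans (Submodule.span_le.2 ?_)
    rintro _ ⟨φ, hφ, x, hx, rfl⟩
    refine GoodA.mem_of_monomial hφ fun m₀ m₁ m₂ hm => ?_
    have h2 : (X 0 ^ m₀ * X 1 ^ m₁ * X 2 ^ m₂ : MvPolynomial (Fin 3) k) ∈
        Ideal.span {f, g, hlin c} := by
      by_cases h3 : N ≤ m₀
      · exact Ideal.mul_mem_right _ _ (Ideal.mul_mem_right _ _ (Ideal.pow_mem_of_pow_mem _ (hN 0) h3))
      by_cases h4 : N ≤ m₁
      · exact Ideal.mul_mem_right _ _ (Ideal.mul_mem_left _ _ (Ideal.pow_mem_of_pow_mem _ (hN 1) h4))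
      · exact Ideal.mul_mem_left _ _ (Ideal.pow_mem_of_pow_mem _ (hN 2) (by omega))
    obtain ⟨α, β, γ, h3⟩ := Submodule.mem_span_triple.1 h2
    simp only [smul_eq_mul] at h3
    have h4 := congrArg (homogeneousComponent (e + 1)) h3
    obtain ⟨α', a1, a2⟩ := GoodA.comp_mul hf.1 (e + 1) α
    obtain ⟨β', b1, b2⟩ := GoodA.comp_mul hg.1 (e + 1) β
    obtain ⟨γ', c1, c2⟩ := GoodA.comp_mul (hlin_isHomogeneous c) (e + 1) γ
    rw [map_add, map_add, a2, b2, c2, homogeneousComponent_eq_self (hm ▸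
      ((isHomogeneous_X_pow 0 m₀).mul (isHomogeneous_X_pow 1 m₁)).mul
        (isHomogeneous_X_pow 2 m₂))] at h4
    have h5 : P.s K 0 ^ m₀ * P.s K 1 ^ m₁ * P.s K 2 ^ m₂ =
        aeval (P.s K) (α' * f + β' * g + γ' * hlin c) := by rw [h4]; simp
    rw [h5, map_add, map_add, add_smul, add_smul]
    refine add_mem (Submodule.mem_sup_left (add_mem ?_ ?_)) (Submodule.mem_sup_right ?_)
    · convert (Kmul hf a1).2 x hx using 2
      omega
    · convert (Kmul hg b1).2 x hx using 2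
      omega
    · rw [mul_comm, map_mul, mul_smul]
      exact GoodA.smul_mem_smulK _ (mG c1 hx)
  have dim : ∀ (c : k) (j : ℤ), G (j + 1) = G' (j + 1) ⊔ smulK (aeval (P.s K) (hlin c)) (G j) →
      finrank k (G (j + 1)) + finrank k ↥(G' (j + 1) ⊓ smulK (aeval (P.s K) (hlin c)) (G j)) =
        finrank k (G' (j + 1)) + finrank k (G j) := by
    intro c j h
    have := hG.fin j
    have := hG'.fin (j + 1)
    rw [h, Submodule.finrank_sup_add_finrank_inf_eq, GoodA.finrank_smulK (ht0 c)]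
  have incl : ∀ (c : k) (j : ℤ), smulK (aeval (P.s K) (hlin c)) (G' j) ≤
      G' (j + 1) ⊓ smulK (aeval (P.s K) (hlin c)) (G j) := fun c j =>
    le_inf (GoodA.smulK_le.2 fun x hx => mG' (hlin_isHomogeneous c) hx)
      (GoodA.smulK_mono _ (hle j))
  have hfr : ∀ j, finrank k (G' j) ≤ finrank k (G j) := fun j =>
    have := hG.fin j; Submodule.finrank_mono (hle j)
  obtain ⟨c₀, hc₀⟩ := hT.exists_notMem
  obtain ⟨j₁, hj₁⟩ := surj c₀ hc₀
  obtain ⟨z, j₂, hz⟩ := GoodA.eventually_const (fun j => finrank k (G j) - finrank k (G' j)) j₁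
    fun j hj => by
      have h1 := dim c₀ j (hj₁ j hj)
      have := hG'.fin (j + 1)
      have h2 := Submodule.finrank_mono (incl c₀ j)
      rw [GoodA.finrank_smulK (ht0 c₀)] at h2
      have := hfr j
      have := hfr (j + 1)
      omega
  have hz' : ∀ j ≥ j₂, finrank k (G j) = finrank k (G' j) + z := fun j hj => by
    have := hz j hj
    have := hfr j
    omega
  refine ⟨z, T, hT, ⟨j₂, hz'⟩, fun c hc => ?_⟩
  obtain ⟨j₃, hj₃⟩ := surj c hc
  set t := aeval (P.s K) (hlin c) with ht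
  have t0 : t ≠ 0 := ht0 c
  obtain ⟨J, hJ⟩ : ∃ J : ℕ, j₂ ≤ J ∧ j₃ ≤ J := ⟨(max j₂ j₃).toNat, by omega, by omega⟩
  have inj : ∀ j : ℕ, J ≤ j → ∀ x ∈ G j, t • x ∈ G' (j + 1) → x ∈ G' j := by
    intro j hj x hx hx'
    have h1 := dim c j (hj₃ j (by omega))
    have := hG'.fin (j + 1)
    have h2 := Submodule.eq_of_le_of_finrank_eq (incl c j) (by
      rw [GoodA.finrank_smulK t0]
      have := hz' j (by omega)
      have := hz' (j + 1) (by omega)
      omega)
    have h3 : t • x ∈ smulK t (G' j) := h2 ▸ ⟨hx', GoodA.smul_mem_smulK _ hx⟩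
    obtain ⟨y, hy, h4⟩ := GoodA.mem_smulK.1 h3
    rwa [← smul_right_injective V t0 h4]
  have up : ∀ {H : ℤ → Submodule k V}, (∀ {j : ℤ} {x : V}, x ∈ H j → t • x ∈ H (j + (1 : ℕ))) →
      Monotone fun j : ℕ => smulK (t ^ j)⁻¹ (H j) := by
    intro H hH
    refine monotone_nat_of_le_succ fun j x hx => ?_
    rw [GoodA.mem_smulK_inv (pow_ne_zero _ t0)] at hx ⊢
    rw [pow_succ', mul_smul, Nat.cast_add]
    exact hH hx
  have upG := up (H := G) (fun hx => mG (hlin_isHomogeneous c) hx)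
  have upG' := up (H := G') (fun hx => mG' (hlin_isHomogeneous c) hx)
  have e1 : locG t G = smulK (t ^ J)⁻¹ (G J) ⊔ locG t G' := by
    refine le_antisymm (iSup_le fun j => (upG (Nat.le_add_left j J)).trans ?_)
      (sup_le (le_iSup (fun j : ℕ => smulK (t ^ j)⁻¹ (G j)) J)
        (iSup_mono fun j => GoodA.smulK_mono _ (hle j)))
    induction j with
    | zero => exact le_sup_left
    | succ j ih =>
      intro x hx
      rw [GoodA.mem_smulK_inv (pow_ne_zero _ t0), ← add_assoc, Nat.cast_add _ 1, Nat.cast_one,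
        hj₃ _ (by push_cast; omega)] at hx
      obtain ⟨y, hy, w', hw', h1⟩ := Submodule.mem_sup.1 hx
      obtain ⟨w, hw, rfl⟩ := GoodA.mem_smulK.1 hw'
      have h2 : x = (t ^ (J + j))⁻¹ • w + (t ^ (J + j + 1))⁻¹ • y := by
        rw [← inv_smul_smul₀ (pow_ne_zero (J + j + 1) t0) x, ← h1, smul_add, add_comm, ← mul_smul]
        congr 2
        rw [pow_succ, mul_inv, mul_assoc, inv_mul_cancel₀ t0, mul_one]
      rw [h2]
      exact add_mem (ih (GoodA.smul_mem_smulK _ hw)) (Submodule.mem_sup_right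
        (Submodule.mem_iSup_of_mem (J + j + 1) (GoodA.smul_mem_smulK _ hy)))
  have e2 : smulK (t ^ J)⁻¹ (G J) ⊓ locG t G' = smulK (t ^ J)⁻¹ (G' J) := by
    refine le_antisymm (fun x hx => ?_) (le_inf (GoodA.smulK_mono _ (hle J))
      (le_iSup (fun j : ℕ => smulK (t ^ j)⁻¹ (G' j)) J))
    obtain ⟨j, hj⟩ := (Submodule.mem_iSup_of_directed _ upG'.directed_le).1 hx.2
    have h1 := upG' (Nat.le_add_left j J) hj
    clear hj
    induction j with
    | zero => exact h1
    | succ j ih =>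
      apply ih
      have h2 := upG (Nat.le_add_right J j) hx.1
      simp only [GoodA.mem_smulK_inv (pow_ne_zero _ t0)] at h1 h2 ⊢
      rw [← add_assoc, pow_succ', mul_smul, Nat.cast_add _ 1] at h1
      exact inj _ (by omega) _ h2 h1
  have := hG.fin J
  rw [e1, GoodA.rdim_sup, e2]
  refine GoodA.rdim_of_le (GoodA.smulK_mono _ (hle J)) ?_
  rw [GoodA.finrank_smulK (inv_ne_zero (pow_ne_zero _ t0)),
    GoodA.finrank_smulK (inv_ne_zero (pow_ne_zero _ t0)), hz' J hJ.1]

end Vale.Agent.P190
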