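import Vale.Agent.P190.Defs

/-! Depth sensitivity of the Koszul complex in two and three variables. -/

open Module RingTheory.Sequence

noncomputable section

namespace Vale.Agent.P190

lemma Koszul.pow_induction {R N : Type*} [CommRing R] [AddCommGroup N] [Module R N] (a : R)
    (C B : N → Prop) (hC : ∀ x, C x → C (a • x)) (hB : ∀ x, C x → B (a • x) → B x)
    (e : ℕ) : ∀ x, C x → B (a ^ e • x) → B x := by
  induction e with
  | zero => intro x _ h; simpa using h
  | succ e ih =>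
    intro x hx h
    rw [pow_succ, mul_smul] at h
    exact hB x hx (ih _ (hC x hx) h)

theorem koszul2 {R N : Type*} [CommRing R] [AddCommGroup N] [Module R N] (a b w₁ w₂ : R)
    (ha : ∀ n : N, a • n = 0 → n = 0)
    (hb : ∀ n n' : N, b • n = a • n' → ∃ n'', n = a • n'')
    (hra : a ∈ (Ideal.span {w₁, w₂}).radical) (hrb : b ∈ (Ideal.span {w₁, w₂}).radical)
    (ξ₁ ξ₂ : N) (h : w₁ • ξ₂ = w₂ • ξ₁) : ∃ n, ξ₁ = w₁ • n ∧ ξ₂ = w₂ • n := by
  obtain ⟨e, he⟩ := hra
  obtain ⟨f, hf⟩ := hrb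
  obtain ⟨c₁, c₂, hc⟩ := Ideal.mem_span_pair.1 he
  obtain ⟨d₁, d₂, hd⟩ := Ideal.mem_span_pair.1 hf
  have H0 : ∀ n x₁ x₂ : N, a • x₁ = w₁ • n → a • x₂ = w₂ • n → ∃ n', n = a • n' := by
    intro n x₁ x₂ h1 h2
    refine Koszul.pow_induction b (fun _ => True) (fun y => ∃ n', y = a • n') (fun _ _ => trivial)
      (fun x _ ⟨y, hy⟩ => hb x y hy) f n trivial ⟨d₁ • x₁ + d₂ • x₂, ?_⟩
    rw [← hd, add_smul, mul_smul, mul_smul, ← h1, ← h2, smul_add, smul_comm a d₁, smul_comm a d₂]
  refine Koszul.pow_induction (N := N × N) a (fun x => w₁ • x.2 = w₂ • x.1)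
    (fun x => ∃ n, x.1 = w₁ • n ∧ x.2 = w₂ • n) ?_ ?_ e (ξ₁, ξ₂) h ⟨c₁ • ξ₁ + c₂ • ξ₂, ?_, ?_⟩
  · intro x hx
    simp only [Prod.smul_snd, Prod.smul_fst]
    rw [smul_comm w₁, hx, smul_comm]
  · rintro x - ⟨n, h1, h2⟩
    simp only [Prod.smul_snd, Prod.smul_fst] at h1 h2
    obtain ⟨n', rfl⟩ := H0 n _ _ h1 h2
    refine ⟨n', sub_eq_zero.1 (ha _ ?_), sub_eq_zero.1 (ha _ ?_)⟩
    · rw [smul_sub, h1, smul_comm, sub_self]
    · rw [smul_sub, h2, smul_comm, sub_self]
  · simp only [Prod.smul_fst]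
    rw [← hc, add_smul, smul_add, smul_comm w₁ c₂, h, smul_comm w₁ c₁, mul_smul, mul_smul]
  · simp only [Prod.smul_snd]
    rw [← hc, add_smul, smul_add, smul_comm w₂ c₁, ← h, smul_comm w₂ c₂, mul_smul, mul_smul]

lemma Koszul.rad {R : Type*} [CommRing R] {p : Fin 3 → R} {a : R}
    (h : a ∈ (Ideal.span (Set.range p)).radical) :
    ∃ (e : ℕ) (c : Fin 3 → R), a ^ e = c 0 * p 0 + c 1 * p 1 + c 2 * p 2 := by
  obtain ⟨e, he⟩ := h
  obtain ⟨c, hc⟩ := Ideal.mem_span_range_iff_exists_fun.1 he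
  exact ⟨e, c, by rw [← hc, Fin.sum_univ_three]⟩

lemma Koszul.h0 {R N : Type*} [CommRing R] [AddCommGroup N] [Module R N] {a : R}
    (ha : IsSMulRegular N a) {p : Fin 3 → R} (hp : a ∈ (Ideal.span (Set.range p)).radical)
    (n : N) (hn : ∀ i, p i • n = 0) : n = 0 := by
  obtain ⟨e, c, hc⟩ := Koszul.rad hp
  refine (ha.pow e).right_eq_zero_of_smul ?_
  simp [hc, add_smul, mul_smul, hn]

lemma Koszul.quot_zero {R N : Type*} [CommRing R] [AddCommGroup N] [Module R N] {a : R} {n : N}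
    (h : (Submodule.Quotient.mk n : QuotSMulTop a N) = 0) : ∃ n', a • n' = n := by
  rw [Submodule.Quotient.mk_eq_zero, Submodule.mem_smul_pointwise_iff_exists] at h
  obtain ⟨n', -, h⟩ := h
  exact ⟨n', h⟩

lemma Koszul.quot_smul {R N : Type*} [CommRing R] [AddCommGroup N] [Module R N] (a : R) (n : N) :
    (Submodule.Quotient.mk (a • n) : QuotSMulTop a N) = 0 := by
  rw [Submodule.Quotient.mk_eq_zero]
  exact Submodule.smul_mem_pointwise_smul _ _ _ trivial

lemma Koszul.h1 {R N : Type*} [CommRing R] [AddCommGroup N] [Module R N] {a b : R}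
    (ha : IsSMulRegular N a) (hb : IsSMulRegular (QuotSMulTop a N) b) {p : Fin 3 → R}
    (hpa : a ∈ (Ideal.span (Set.range p)).radical) (hpb : b ∈ (Ideal.span (Set.range p)).radical)
    (ξ : Fin 3 → N) (hξ : ∀ i j, p i • ξ j = p j • ξ i) : ∃ n, ∀ i, ξ i = p i • n := by
  obtain ⟨e, c, hc⟩ := Koszul.rad hpa
  refine Koszul.pow_induction (N := Fin 3 → N) a (fun ξ => ∀ i j, p i • ξ j = p j • ξ i)
    (fun ξ => ∃ n, ∀ i, ξ i = p i • n) ?_ ?_ e ξ hξ ⟨c 0 • ξ 0 + c 1 • ξ 1 + c 2 • ξ 2, ?_⟩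
  · intro x hx i j
    simp only [Pi.smul_apply]
    rw [smul_comm (p i), hx, smul_comm]
  · rintro x - ⟨n, hn⟩
    simp only [Pi.smul_apply] at hn
    have : (Submodule.Quotient.mk n : QuotSMulTop a N) = 0 := by
      refine Koszul.h0 hb hpb _ fun i => ?_
      rw [← Submodule.Quotient.mk_smul, ← hn, Koszul.quot_smul]
    obtain ⟨n', rfl⟩ := Koszul.quot_zero this
    refine ⟨n', fun i => ha ?_⟩
    simp only
    rw [hn, smul_comm]
  · intro i
    simp only [Pi.smul_apply, hc, add_smul, mul_smul, smul_add]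
    rw [hξ 0 i, hξ 1 i, hξ 2 i, smul_comm (c 0), smul_comm (c 1), smul_comm (c 2)]

lemma Koszul.h2 {R N : Type*} [CommRing R] [AddCommGroup N] [Module R N] {a b c : R}
    (ha : IsSMulRegular N a) (hb : IsSMulRegular (QuotSMulTop a N) b)
    (hc : IsSMulRegular (QuotSMulTop b (QuotSMulTop a N)) c) {p : Fin 3 → R}
    (hpa : a ∈ (Ideal.span (Set.range p)).radical) (hpb : b ∈ (Ideal.span (Set.range p)).radical)
    (hpc : c ∈ (Ideal.span (Set.range p)).radical)
    (η : Fin 3 → N) (hη : ∑ i, p i • η i = 0) : ∃ ζ, η = cross p ζ := by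
  obtain ⟨e, d, hd⟩ := Koszul.rad hpa
  refine Koszul.pow_induction (N := Fin 3 → N) a (fun _ => True)
    (fun η => ∃ ζ, η = cross p ζ) (fun _ _ => trivial) ?_ e η trivial ⟨-cross d η, ?_⟩
  · rintro x - ⟨ζ, hζ⟩
    have e0 := congrFun hζ 0
    have e1 := congrFun hζ 1
    have e2 := congrFun hζ 2
    simp only [Pi.smul_apply, cross, Matrix.cons_val_zero, Matrix.cons_val_one,
      Matrix.cons_val] at e0 e1 e2
    have key : ∀ i j (y : N), a • y = p i • ζ j - p j • ζ i →
        p i • (Submodule.Quotient.mk (ζ j) : QuotSMulTop a N)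
          = p j • Submodule.Quotient.mk (ζ i) := by
      intro i j y hy
      rw [← sub_eq_zero, ← Submodule.Quotient.mk_smul, ← Submodule.Quotient.mk_smul,
        ← Submodule.Quotient.mk_sub, ← hy, Koszul.quot_smul]
    obtain ⟨n, hn⟩ := Koszul.h1 hb hc hpb hpc
      (fun i => (Submodule.Quotient.mk (ζ i) : QuotSMulTop a N)) (by
        have k0 := key _ _ _ e0
        have k1 := key _ _ _ e1
        have k2 := key _ _ _ e2
        intro i j
        fin_cases i <;> fin_cases j <;> first | rfl | assumption | exact Eq.symm ‹_›)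
    obtain ⟨n, rfl⟩ := Submodule.Quotient.mk_surjective _ n
    have : ∀ i, ∃ y, a • y = ζ i - p i • n := fun i => Koszul.quot_zero (by
      rw [Submodule.Quotient.mk_sub, Submodule.Quotient.mk_smul, hn, sub_self])
    choose y hy using this
    have hz : ∀ i, ζ i = a • y i + p i • n := fun i => by rw [hy, sub_add_cancel]
    refine ⟨y, funext fun i => ha ?_⟩
    rw [hz, hz] at e0 e1 e2
    fin_cases i
    · simp only [cross, Fin.zero_eta, Matrix.cons_val_zero]
      rw [e0]; module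
    · simp only [cross, Fin.mk_one, Matrix.cons_val_one, Matrix.cons_val_zero]
      rw [e1]; module
    · simp only [cross, Fin.reduceFinMk, Matrix.cons_val]
      rw [e2]; module
  · rw [Fin.sum_univ_three] at hη
    funext i
    fin_cases i
    · simp only [cross, hd, Fin.zero_eta, Matrix.cons_val_zero, Pi.smul_apply, Pi.neg_apply,
        Matrix.cons_val_one, Matrix.cons_val]
      linear_combination (norm := module) (d 0) • hη
    · simp only [cross, hd, Fin.mk_one, Matrix.cons_val_zero, Pi.smul_apply, Pi.neg_apply,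
        Matrix.cons_val_one, Matrix.cons_val]
      linear_combination (norm := module) (d 1) • hη
    · simp only [cross, hd, Fin.reduceFinMk, Matrix.cons_val_zero, Pi.smul_apply, Pi.neg_apply,
        Matrix.cons_val_one, Matrix.cons_val]
      linear_combination (norm := module) (d 2) • hη

theorem koszul3 {R N : Type*} [CommRing R] [AddCommGroup N] [Module R N] (rs : List R)
    (hlen : 3 ≤ rs.length) (hreg : IsWeaklyRegular N rs) (p : Fin 3 → R)
    (hp : ∀ r ∈ rs, r ∈ (Ideal.span (Set.range p)).radical)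
    (η : Fin 3 → N) (hη : ∑ i, p i • η i = 0) : ∃ ζ, η = cross p ζ := by
  match rs, hlen with
  | a :: b :: c :: rs, _ =>
    rw [isWeaklyRegular_cons_iff, isWeaklyRegular_cons_iff, isWeaklyRegular_cons_iff] at hreg
    exact Koszul.h2 hreg.1 hreg.2.1 hreg.2.2.1 (hp a (by simp)) (hp b (by simp)) (hp c (by simp))
      η hη

lemma Koszul.ass_step {R N : Type*} [CommRing R] [IsNoetherianRing R] [IsLocalRing R]
    [AddCommGroup N] [Module R N] [Module.Finite R N] {x : R}
    (hx : x ∈ IsLocalRing.maximalIdeal R) (hreg : IsSMulRegular N x) {P : Ideal R}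
    (hP : IsAssociatedPrime P N) :
    ∃ Q : Ideal R, IsAssociatedPrime Q (QuotSMulTop x N) ∧ P < Q := by
  obtain ⟨hPp, y, hy⟩ := isAssociatedPrime_iff.1 hP
  have hmem : ∀ r, r ∈ P ↔ r • y = 0 := fun r => by
    rw [hy, Submodule.mem_colon_singleton, Submodule.mem_bot]
  have hy0 : y ≠ 0 := by
    rintro rfl
    exact hPp.ne_top ((Ideal.eq_top_iff_one _).2 ((hmem 1).2 (smul_zero _)))
  have hxP : x ∉ P := fun h => hy0 (hreg.right_eq_zero_of_smul ((hmem x).1 h))
  let T : Submodule R N := Submodule.torsionBySet R N P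
  have hT : ∃ t ∈ T, (Submodule.Quotient.mk t : QuotSMulTop x N) ≠ 0 := by
    by_contra! hc
    have : T = ⊥ := by
      refine Submodule.eq_bot_of_le_smul_of_le_jacobson_bot (IsLocalRing.maximalIdeal R) T
        (IsNoetherian.noetherian T) (fun t ht => ?_) (IsLocalRing.maximalIdeal_le_jacobson _)
      obtain ⟨n, rfl⟩ := Koszul.quot_zero (hc t ht)
      refine Submodule.smul_mem_smul hx ?_
      rw [Submodule.mem_torsionBySet_iff] at ht ⊢
      intro r
      refine hreg.right_eq_zero_of_smul ?_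
      rw [smul_comm]
      exact ht r
    have hyT : y ∈ T := (Submodule.mem_torsionBySet_iff _ _).2 fun r => (hmem r).1 r.2
    rw [this] at hyT
    exact hy0 hyT
  obtain ⟨t, ht, ht0⟩ := hT
  obtain ⟨Q, hQ, hle⟩ := exists_le_isAssociatedPrime_of_isNoetherianRing R _ ht0
  refine ⟨Q, hQ, lt_of_le_of_ne (fun r hr => hle ?_) fun h => hxP (h ▸ hle ?_)⟩
  · rw [Submodule.mem_colon_singleton, Submodule.mem_bot, ← Submodule.Quotient.mk_smul,
      (Submodule.mem_torsionBySet_iff _ _).1 ht ⟨r, hr⟩, Submodule.Quotient.mk_zero]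
  · rw [Submodule.mem_colon_singleton, Submodule.mem_bot, ← Submodule.Quotient.mk_smul,
      Koszul.quot_smul]

theorem torsionFree_of_regular {R N : Type*} [CommRing R] [IsNoetherianRing R] [IsLocalRing R]
    [IsDomain R] [AddCommGroup N] [Module R N] [Module.Finite R N]
    (hdim : ringKrullDim R = 3) (rs : List R) (hlen : 3 ≤ rs.length)
    (hmem : ∀ r ∈ rs, r ∈ IsLocalRing.maximalIdeal R) (hreg : IsWeaklyRegular N rs)
    (r : R) (hr : r ≠ 0) (n : N) (hn : r • n = 0) : n = 0 := by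
  match rs, hlen with
  | a :: b :: c :: rs, _ =>
    rw [isWeaklyRegular_cons_iff, isWeaklyRegular_cons_iff, isWeaklyRegular_cons_iff] at hreg
    by_contra h0
    obtain ⟨P, hP, hle⟩ := exists_le_isAssociatedPrime_of_isNoetherianRing R _ h0
    have hP0 : ⊥ < P := by
      refine bot_lt_iff_ne_bot.2 fun h => hr ?_
      rw [h] at hle
      exact hle (by rwa [Submodule.mem_colon_singleton, Submodule.mem_bot])
    obtain ⟨Q₁, h1, l1⟩ := Koszul.ass_step (hmem a (by simp)) hreg.1 hP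
    obtain ⟨Q₂, h2, l2⟩ := Koszul.ass_step (hmem b (by simp)) hreg.2.1 h1
    obtain ⟨Q₃, h3, l3⟩ := Koszul.ass_step (hmem c (by simp)) hreg.2.2.1 h2
    have := hP.isPrime
    have := h1.isPrime
    have := h2.isPrime
    have := h3.isPrime
    have a0 := Ideal.height_add_one_le_of_lt_of_isPrime hP0
    have a1 := Ideal.height_add_one_le_of_lt_of_isPrime l1
    have a2 := Ideal.height_add_one_le_of_lt_of_isPrime l2
    have a3 := Ideal.height_add_one_le_of_lt_of_isPrime l3
    have a4 := Ideal.height_le_ringKrullDim_of_isPrime (I := Q₃)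
    rw [hdim] at a4
    have b0 : (1 : ℕ∞) ≤ P.height := le_trans le_add_self a0
    have b1 : (1 : ℕ∞) + 1 ≤ Q₁.height := le_trans (add_le_add_left b0 1) a1
    have b2 : (1 : ℕ∞) + 1 + 1 ≤ Q₂.height := le_trans (add_le_add_left b1 1) a2
    have b3 : (1 : ℕ∞) + 1 + 1 + 1 ≤ Q₃.height := le_trans (add_le_add_left b2 1) a3
    have b4 : Q₃.height ≤ 3 := WithBot.coe_le_coe.1 a4
    exact absurd (b3.trans b4) (by decide)

lemma Koszul.free_aux {R N : Type*} [CommRing R] [IsNoetherianRing R]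
    [IsLocalRing R] [AddCommGroup N] [Module R N] [Module.Finite R N] (w₁ w₂ : R)
    (hm : IsLocalRing.maximalIdeal R = Ideal.span {w₁, w₂})
    (h₁ : ∀ n : N, w₁ • n = 0 → n = 0)
    (h₂ : ∀ n n' : N, w₂ • n = w₁ • n' → ∃ n'', n = w₁ • n'') : Module.Free R N := by
  have := Module.finitePresentation_of_finite R N
  refine Module.free_of_maximalIdeal_rTensor_injective ?_
  have m1 : w₁ ∈ IsLocalRing.maximalIdeal R := hm ▸ Ideal.subset_span (by simp)
  have m2 : w₂ ∈ IsLocalRing.maximalIdeal R := hm ▸ Ideal.subset_span (by simp)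
  have hform : ∀ z : TensorProduct R (IsLocalRing.maximalIdeal R) N, ∃ x y : N,
      z = (⟨w₁, m1⟩ : IsLocalRing.maximalIdeal R) ⊗ₜ x
        + (⟨w₂, m2⟩ : IsLocalRing.maximalIdeal R) ⊗ₜ y := by
    intro z
    induction z with
    | zero => exact ⟨0, 0, by simp⟩
    | tmul c n =>
      obtain ⟨c₁, c₂, hc⟩ := Ideal.mem_span_pair.1 (hm.le c.2)
      refine ⟨c₁ • n, c₂ • n, ?_⟩
      rw [← TensorProduct.smul_tmul, ← TensorProduct.smul_tmul, ← TensorProduct.add_tmul]
      congr 1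
      exact Subtype.ext hc.symm
    | add z z' hz hz' =>
      obtain ⟨x, y, rfl⟩ := hz
      obtain ⟨x', y', rfl⟩ := hz'
      exact ⟨x + x', y + y', by simp only [TensorProduct.tmul_add]; abel⟩
  rw [← LinearMap.ker_eq_bot, eq_bot_iff]
  intro z hz
  obtain ⟨x, y, rfl⟩ := hform z
  have h0 : w₁ • x + w₂ • y = 0 := by
    have := congrArg (TensorProduct.lid R N) (LinearMap.mem_ker.1 hz)
    simpa using this
  obtain ⟨v, rfl⟩ := h₂ y (-x) (by rw [smul_neg]; exact eq_neg_of_add_eq_zero_right h0)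
  have hx : x = -(w₂ • v) := by
    refine eq_neg_of_add_eq_zero_left (h₁ _ ?_)
    rw [smul_add, smul_comm w₁ w₂, h0]
  rw [Submodule.mem_bot, hx, TensorProduct.tmul_neg, ← TensorProduct.smul_tmul,
    ← TensorProduct.smul_tmul, neg_add_eq_zero]
  congr 1
  exact Subtype.ext (mul_comm _ _)

/-- a two-dimensional local domain whose maximal ideal has two generators is factorial -/
theorem ufd_of_two_generators {R : Type*} [CommRing R] [IsDomain R] [IsNoetherianRing R]
    [IsLocalRing R] (w₁ w₂ : R) (hm : IsLocalRing.maximalIdeal R = Ideal.span {w₁, w₂})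
    (hdim : ∃ Q : Ideal R, Q.IsPrime ∧ Q ≠ ⊥ ∧ Q ≠ IsLocalRing.maximalIdeal R) :
    UniqueFactorizationMonoid R := by
  obtain ⟨Q, hQ, hQ0, hQm⟩ := hdim
  have hQlt : Q < IsLocalRing.maximalIdeal R :=
    lt_of_le_of_ne (IsLocalRing.le_maximalIdeal hQ.ne_top) hQm
  have m1 : w₁ ∈ IsLocalRing.maximalIdeal R := hm ▸ Ideal.subset_span (by simp)
  have m2 : w₂ ∈ IsLocalRing.maximalIdeal R := hm ▸ Ideal.subset_span (by simp)
  have hrad : ∀ w ∈ IsLocalRing.maximalIdeal R,
      ¬ IsLocalRing.maximalIdeal R ≤ (Ideal.span {w}).radical := by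
    intro w hw hle
    have hmin : IsLocalRing.maximalIdeal R ∈ (Ideal.span {w}).minimalPrimes :=
      ⟨⟨inferInstance, (Ideal.span_singleton_le_iff_mem _).2 hw⟩,
        fun q hq _ => hle.trans (hq.1.radical_le_iff.2 hq.2)⟩
    have a0 := Ideal.height_add_one_le_of_lt_of_isPrime (bot_lt_iff_ne_bot.2 hQ0)
    have a1 := Ideal.height_add_one_le_of_lt_of_isPrime hQlt
    have a2 := Ideal.height_le_one_of_isPrincipal_of_mem_minimalPrimes _ _ hmin
    have b0 : (1 : ℕ∞) ≤ Q.height := le_trans le_add_self a0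
    have b1 := (le_trans (add_le_add_left b0 1) a1).trans a2
    exact absurd b1 (by decide)
  have hw₁ : w₁ ≠ 0 := by
    rintro rfl
    refine hrad w₂ m2 ?_
    rw [hm, Ideal.span_insert_zero]
    exact Ideal.le_radical
  have hnil : ∀ k : ℕ, w₂ ^ k ∉ Ideal.span {w₁} := by
    intro k hk
    refine hrad w₁ m1 ?_
    rw [hm, Ideal.span_le]
    rintro _ (rfl | rfl)
    · exact Ideal.le_radical (Ideal.mem_span_singleton_self _)
    · exact ⟨k, hk⟩
  let T : Ideal R :=
    { carrier := {n | ∃ k : ℕ, w₂ ^ k * n ∈ Ideal.span {w₁}}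
      zero_mem' := ⟨0, by simp⟩
      add_mem' := by
        rintro a b ⟨k, hk⟩ ⟨l, hl⟩
        refine ⟨k + l, ?_⟩
        have : w₂ ^ (k + l) * (a + b) = w₂ ^ l * (w₂ ^ k * a) + w₂ ^ k * (w₂ ^ l * b) := by ring
        rw [this]
        exact Ideal.add_mem _ (Ideal.mul_mem_left _ _ hk) (Ideal.mul_mem_left _ _ hl)
      smul_mem' := by
        rintro c a ⟨k, hk⟩
        refine ⟨k, ?_⟩
        rw [smul_eq_mul, mul_left_comm]
        exact Ideal.mul_mem_left _ _ hk }
  have hT : T ≤ Ideal.span {w₁} := by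
    refine Submodule.le_of_le_smul_of_le_jacobson_bot (IsNoetherian.noetherian T)
      (IsLocalRing.maximalIdeal_le_jacobson _) ?_
    rintro n ⟨k, hk⟩
    have hn : n ∈ IsLocalRing.maximalIdeal R := by
      by_contra hu
      exact hnil k ((Ideal.mul_unit_mem_iff_mem _ (IsLocalRing.notMem_maximalIdeal.1 hu)).1 hk)
    obtain ⟨c₁, c₂, rfl⟩ := Ideal.mem_span_pair.1 (hm ▸ hn)
    refine Submodule.add_mem_sup (Ideal.mul_mem_left _ _ (Ideal.mem_span_singleton_self _)) ?_
    rw [mul_comm c₂]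
    refine Submodule.smul_mem_smul m2 ⟨k + 1, ?_⟩
    have : w₂ ^ (k + 1) * c₂ = w₂ ^ k * (c₁ * w₁ + c₂ * w₂) - (w₂ ^ k * c₁) * w₁ := by ring
    rw [this]
    exact Ideal.sub_mem _ hk (Ideal.mul_mem_left _ _ (Ideal.mem_span_singleton_self _))
  have hprin : ∀ P : Ideal R, P.IsPrime → P ≠ ⊥ → P ≠ IsLocalRing.maximalIdeal R →
      ∃ x ∈ P, Prime x := by
    intro P hP hP0 hPm
    have : Module.Free R P := by
      refine Koszul.free_aux w₁ w₂ hm (fun n hn => ?_) (fun n n' hn => ?_)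
      · exact Subtype.ext ((mul_eq_zero.1 (congrArg Subtype.val hn)).resolve_left hw₁)
      · have hn' : w₂ * (n : R) = w₁ * n' := congrArg Subtype.val hn
        obtain ⟨z, hz⟩ := Ideal.mem_span_singleton'.1 (hT (x := n) ⟨1, by
          rw [pow_one, hn']
          exact Ideal.mul_mem_right _ _ (Ideal.mem_span_singleton_self _)⟩)
        have hz' : (n' : R) = w₂ * z := by
          refine mul_left_cancel₀ hw₁ ?_
          rw [← hn', ← hz]; ring
        have hzP : z ∈ P := by
          by_contra hzP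
          refine hPm (le_antisymm (IsLocalRing.le_maximalIdeal hP.ne_top) ?_)
          rw [hm, Ideal.span_le]
          rintro _ (rfl | rfl)
          · exact (hP.mem_or_mem (hz ▸ n.2)).resolve_left hzP
          · exact (hP.mem_or_mem (hz' ▸ n'.2)).resolve_right hzP
        exact ⟨⟨z, hzP⟩, Subtype.ext (by rw [← hz, mul_comm]; rfl)⟩
    have : P.IsPrincipal := by
      rw [← Submodule.rank_le_one_iff_isPrincipal]
      exact (Submodule.rank_le P).trans (Module.rank_self R).le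
    exact ⟨_, Submodule.IsPrincipal.generator_mem P,
      Submodule.IsPrincipal.prime_generator_of_isPrime P hP0⟩
  refine UniqueFactorizationMonoid.iff_exists_prime_mem_of_isPrime.2 fun I hI0 hI => ?_
  by_cases h : I = IsLocalRing.maximalIdeal R
  · obtain ⟨x, hx, hp⟩ := hprin Q hQ hQ0 hQm
    exact ⟨x, h ▸ hQlt.le hx, hp⟩
  · exact hprin I hI hI0 h

/-- freeness criterion over such a ring -/
theorem free_of_two_generators {R N : Type*} [CommRing R] [IsDomain R] [IsNoetherianRing R]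
    [IsLocalRing R] [AddCommGroup N] [Module R N] [Module.Finite R N] (w₁ w₂ : R)
    (hm : IsLocalRing.maximalIdeal R = Ideal.span {w₁, w₂})
    (hR : ∀ x y : R, w₂ * x = w₁ * y → ∃ z, x = w₁ * z) (hw₁ : w₁ ≠ 0)
    (h₁ : ∀ n : N, w₁ • n = 0 → n = 0)
    (h₂ : ∀ n n' : N, w₂ • n = w₁ • n' → ∃ n'', n = w₁ • n'') : Module.Free R N :=
  Koszul.free_aux w₁ w₂ hm h₁ h₂

end Vale.Agent.P190
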