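import Vale.Agent.P190.Elim
import Vale.Agent.P190.Koszul
import Vale.Agent.P190.Good
import Vale.Agent.P190.ChartA

/-! Affine charts; reflexive sheaves on a smooth surface are locally free. -/

open Module MvPolynomial

noncomputable section

namespace Vale.Agent.P190

lemma Chart.aeval_div {k K : Type} [Field k] [Field K] [Algebra k K] {φ : MvPolynomial (Fin 3) k}
    {j : ℕ} (hφ : φ.IsHomogeneous j) (s : Fin 3 → K) (c : K) :
    aeval (fun i => s i / c) φ = aeval s φ / c ^ j := by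
  conv_lhs => rw [φ.as_sum]
  conv_rhs => rw [φ.as_sum]
  rw [map_sum, map_sum, Finset.sum_div]
  refine Finset.sum_congr rfl fun d hd => ?_
  have h1 : ∑ i, d i = j := by
    rw [← hφ (mem_support_iff.1 hd), ← Finsupp.degree_eq_sum, Finsupp.degree_eq_weight_one]
    rfl
  rw [aeval_monomial, aeval_monomial, Finsupp.prod_fintype _ _ (by simp),
    Finsupp.prod_fintype _ _ (by simp), mul_div_assoc, ← h1, ← Finset.prod_pow_eq_pow_sum,
    ← Finset.prod_div_distrib]
  simp only [div_pow]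

lemma Chart.exists_deh {k : Type} [Field k] {h : MvPolynomial (Fin 3) k} (hh : h.IsHomogeneous 1)
    (h0 : h ≠ 0) : ∃ (deh : MvPolynomial (Fin 3) k →ₐ[k] MvPolynomial (Fin 2) k)
      (ι : Fin 2 → Fin 3), deh h = 1 ∧ (∀ j, deh (X (ι j)) = X j) ∧
      ∀ (A : Type) [CommRing A] [Algebra k A] (t : Fin 3 → A), aeval t h = 1 →
        (aeval (t ∘ ι)).comp deh = aeval t := by
  have h1 : h ∈ Submodule.span k (Set.range (X : Fin 3 → MvPolynomial (Fin 3) k)) := by
    rw [← homogeneousSubmodule_one_eq_span_X]; exact hh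
  obtain ⟨c, rfl⟩ := (Submodule.mem_span_range_iff_exists_fun k).1 h1
  obtain ⟨i, hi⟩ : ∃ i, c i ≠ 0 := by
    by_contra hc
    push Not at hc
    simp [hc] at h0
  refine ⟨aeval (i.insertNth ((c i)⁻¹ • (1 - ∑ j : Fin 2, c (i.succAbove j) • X j)) X),
    i.succAbove, ?_, fun j => by simp, fun A _ _ t ht => ?_⟩
  · rw [Fin.sum_univ_succAbove _ i]
    simp [smul_smul, hi]
  · rw [Fin.sum_univ_succAbove _ i] at ht
    simp only [map_add, map_smul, aeval_X, map_sum] at ht
    ext l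
    refine Fin.succAboveCases i ?_ (fun j => by simp) l
    simp only [AlgHom.comp_apply, aeval_X, Fin.insertNth_apply_same, map_smul, map_sub, map_one,
      map_sum, Function.comp_apply]
    rw [← ht, add_sub_cancel_right, inv_smul_smul₀ hi]

lemma Chart.exists_hom {k : Type} [Field k] {h : MvPolynomial (Fin 3) k} (hh : h.IsHomogeneous 1)
    {deh : MvPolynomial (Fin 3) k →ₐ[k] MvPolynomial (Fin 2) k} {ι : Fin 2 → Fin 3}
    (h1 : deh h = 1) (h2 : ∀ j, deh (X (ι j)) = X j) (g : MvPolynomial (Fin 2) k) :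
    ∃ (d : ℕ) (φ : MvPolynomial (Fin 3) k), φ.IsHomogeneous d ∧ deh φ = g := by
  induction g using MvPolynomial.induction_on with
  | C a => exact ⟨0, C a, isHomogeneous_C _ _, by simp⟩
  | add p q hp hq =>
    obtain ⟨d, φ, hφ, rfl⟩ := hp
    obtain ⟨e, ψ, hψ, rfl⟩ := hq
    refine ⟨d + e, φ * h ^ e + h ^ d * ψ, (hφ.mul (by simpa using hh.pow e)).add
      (IsHomogeneous.mul (by simpa using hh.pow d) hψ), by simp [h1]⟩
  | mul_X p i hp =>
    obtain ⟨d, φ, hφ, rfl⟩ := hp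
    exact ⟨d + 1, φ * X (ι i), hφ.mul (isHomogeneous_X _ _), by simp [h2]⟩

lemma Chart.vanishing {k : Type} [Field k] (x : Fin 2 → k) :
    vanishingIdeal k {x} = Ideal.span {(X 0 - C (x 0) : MvPolynomial (Fin 2) k), X 1 - C (x 1)} := by
  apply le_antisymm
  · have key : ∀ p : MvPolynomial (Fin 2) k, p - C (aeval x p) ∈
        Ideal.span {(X 0 - C (x 0) : MvPolynomial (Fin 2) k), X 1 - C (x 1)} := by
      intro p
      induction p using MvPolynomial.induction_on with
      | C a => simp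
      | add p q hp hq =>
        have := add_mem hp hq
        rwa [sub_add_sub_comm, ← map_add, ← map_add] at this
      | mul_X p i hp =>
        have h1 : (X i - C (x i) : MvPolynomial (Fin 2) k) ∈
            Ideal.span {(X 0 - C (x 0) : MvPolynomial (Fin 2) k), X 1 - C (x 1)} := by
          apply Ideal.subset_span
          fin_cases i <;> simp
        have := add_mem (Ideal.mul_mem_right (X i) _ hp) (Ideal.mul_mem_left _ (C (aeval x p)) h1)
        convert this using 1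
        simp only [map_mul, aeval_X]
        ring
    intro p hp
    have := key p
    rwa [(mem_vanishingIdeal_singleton_iff x p).1 hp, map_zero, sub_zero] at this
  · rw [Ideal.span_le]
    rintro _ (rfl | rfl) <;> simp

lemma Chart.prime_X_sub {k : Type} [Field k] (c : k) :
    Prime (X 0 - C c : MvPolynomial (Fin 2) k) := by
  let e : MvPolynomial (Fin 2) k ≃ₐ[k] MvPolynomial (Fin 2) k :=
    AlgEquiv.ofAlgHom (aeval fun i => X i - C c) (aeval fun i => X i + C c)
      (by ext i : 1; simp) (by ext i : 1; simp)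
  have : e (X 0) = X 0 - C c := by simp [e]
  rw [← this]
  exact (MulEquiv.prime_iff e).2 X_prime

variable {k K : Type} [Field k] [Field K] [Algebra k K]
variable {V : Type} [AddCommGroup V] [Module K V]
variable {F : Type} [Field F] [Algebra k F] [Algebra F K] [IsScalarTower k F K] (P : P2 k F)
  [IsAlgClosed k] [CharZero k] [FiniteDimensional F K]
variable {h : MvPolynomial (Fin 3) k}

lemma P2.mem_chart (x : K) : x ∈ P.chart K h ↔ ∀ u : PU k, h ∉ u.1 → x ∈ P.OK K u := by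
  simp [P2.chart, Subring.mem_iInf]

lemma mem_secChart (L : Sys (PU k) V) (x : V) :
    x ∈ secChart h L ↔ ∀ u : PU k, h ∉ u.1 → x ∈ L u := by
  simp [secChart, AddSubgroup.mem_iInf]

/-- the coordinate ring of the chart of the plane, inside `K` -/
def P2.chart0 (K : Type) [Field K] [Algebra k K] [Algebra F K] (h : MvPolynomial (Fin 3) k) :
    Subalgebra k K :=
  Algebra.adjoin k (Set.range fun i => P.s K i / P.ev K h)

lemma Chart.exists_equiv (hh : h.IsHomogeneous 1) (h0 : h ≠ 0) :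
    ∃ (e : MvPolynomial (Fin 2) k ≃ₐ[k] P.chart0 K h) (ι : Fin 2 → Fin 3),
      (∀ j, (e (X j) : K) = P.s K (ι j) / P.ev K h) ∧
      ∀ x : P.chart0 K h, ∃ (j : ℕ) (φ : MvPolynomial (Fin 3) k), φ.IsHomogeneous j ∧
        (x : K) = P.ev K φ / P.ev K h ^ j := by
  obtain ⟨deh, ι, h1, h2, h3⟩ := Chart.exists_deh hh h0
  have hne := P.ev_ne_zero K hh h0
  have h4 := h3 K (fun i => P.s K i / P.ev K h) (by
    rw [Chart.aeval_div hh, ← P.ev_eq_aeval, pow_one, div_self hne])
  set ψ := aeval (R := k) ((fun i => P.s K i / P.ev K h) ∘ ι)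
  have h5 : ∀ {φ : MvPolynomial (Fin 3) k} {j : ℕ}, φ.IsHomogeneous j →
      ψ (deh φ) = P.ev K φ / P.ev K h ^ j := fun hφ => by
    rw [← AlgHom.comp_apply, h4, Chart.aeval_div hφ, ← P.ev_eq_aeval]
  have hinj : Function.Injective ψ := by
    rw [injective_iff_map_eq_zero]
    intro g hg
    obtain ⟨d, φ, hφ, rfl⟩ := Chart.exists_hom hh h1 h2 g
    rw [h5 hφ, div_eq_zero_iff] at hg
    by_cases hφ0 : φ = 0
    · simp [hφ0]
    · exact (hg.elim (P.ev_ne_zero K hφ hφ0) (pow_ne_zero _ hne)).elim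
  have hr : ψ.range = P.chart0 K h := by
    rw [P2.chart0, Algebra.adjoin_range_eq_range_aeval, ← h4]
    apply le_antisymm
    · rintro _ ⟨g, rfl⟩
      obtain ⟨d, φ, -, rfl⟩ := Chart.exists_hom hh h1 h2 g
      exact ⟨φ, rfl⟩
    · rintro _ ⟨φ, rfl⟩
      exact ⟨deh φ, rfl⟩
  refine ⟨(AlgEquiv.ofInjective ψ hinj).trans (Subalgebra.equivOfEq _ _ hr), ι, fun j => ?_,
    fun x => ?_⟩
  · change ψ (X j) = _
    simp [ψ]
  · obtain ⟨g, hg⟩ : (x : K) ∈ ψ.range := by rw [hr]; exact x.2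
    obtain ⟨d, φ, hφ, rfl⟩ := Chart.exists_hom hh h1 h2 g
    exact ⟨d, φ, hφ, by rw [← h5 hφ]; exact hg.symm⟩

lemma P2.mem_chart0 (hh : h.IsHomogeneous 1) (h0 : h ≠ 0) (x : K) : x ∈ P.chart0 K h ↔
    ∃ (j : ℕ) (φ : MvPolynomial (Fin 3) k), φ.IsHomogeneous j ∧ x = P.ev K φ / P.ev K h ^ j := by
  constructor
  · intro hx
    obtain ⟨-, -, -, h1⟩ := Chart.exists_equiv (K := K) P hh h0
    exact h1 ⟨x, hx⟩
  · rintro ⟨j, φ, hφ, rfl⟩
    rw [P.ev_eq_aeval K φ, ← Chart.aeval_div hφ, P2.chart0, Algebra.adjoin_range_eq_range_aeval]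
    exact ⟨φ, rfl⟩

lemma Chart.div_mem {u : PU k} {a b : MvPolynomial (Fin 3) k} {j : ℕ} (ha : a.IsHomogeneous j)
    (hb : b.IsHomogeneous j) (hbu : b ∉ u.1) : P.ev K a / P.ev K b ∈ P.OK K u := by
  have := Plane.map_mem P K (Plane.div_mem P ha hb hbu)
  rwa [map_div₀] at this

lemma Chart.ev_pow (j : ℕ) : P.ev K (h ^ j) = P.ev K h ^ j := by simp [P2.ev]

lemma Chart.chart0_le (hh : h.IsHomogeneous 1) (h0 : h ≠ 0) {u : PU k} (hu : h ∉ u.1) :
    (P.chart0 K h).toSubring ≤ P.OK K u := by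
  intro x hx
  obtain ⟨j, φ, hφ, rfl⟩ := (P.mem_chart0 hh h0 x).1 hx
  rw [← Chart.ev_pow]
  exact Chart.div_mem P hφ (by simpa using hh.pow j) fun h => hu (u.2.1.mem_of_pow_mem j h)

lemma Chart.chart0_le_chart (hh : h.IsHomogeneous 1) (h0 : h ≠ 0) :
    (P.chart0 K h).toSubring ≤ P.chart K h :=
  fun x hx => (P.mem_chart x).2 fun _ hu => Chart.chart0_le P hh h0 hu hx

theorem P2.secChart_local (hh : h.IsHomogeneous 1) (h0 : h ≠ 0) {L : Sys (PU k) V}
    (hL : IsBun (P.OK K) L) {u : PU k} (hu : h ∉ u.1) {x : V} (hx : x ∈ L u) :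
    ∃ t ∈ P.chart0 K h, t ≠ 0 ∧ t⁻¹ ∈ P.OK K u ∧ t • x ∈ secChart h L := by
  obtain ⟨i, ψ, hψ, hψu, h1⟩ := P.exists_clear hL hx
  have hhi : (h ^ i).IsHomogeneous i := by simpa using hh.pow i
  refine ⟨P.ev K ψ / P.ev K h ^ i, (P.mem_chart0 hh h0 _).2 ⟨i, ψ, hψ, rfl⟩,
    div_ne_zero (P.ev_ne_zero K hψ (Plane.ne_zero_of_notMem hψu))
      (pow_ne_zero _ (P.ev_ne_zero K hh h0)), ?_, (mem_secChart _ _).2 fun u' hu' => ?_⟩
  · rw [inv_div, ← Chart.ev_pow]
    exact Chart.div_mem P hhi hψ hψu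
  · have h2 := (Plane.mem_twist_iff P).1 (h1 u')
    have h3 := P.ev_unit K hhi (u := u') fun h => hu' (u'.2.1.mem_of_pow_mem i h)
    have h4 := hL.smul_mem h3 h2
    rwa [smul_smul, Chart.ev_pow, mul_comm, div_mul_div_cancel₀ (pow_ne_zero _ (dv_ne_zero _ _))]
      at h4

lemma Chart.linear_dvd {α β : MvPolynomial (Fin 3) k} (hα : α.IsHomogeneous 1)
    (hβ : β.IsHomogeneous 1) (hα0 : α ≠ 0) {u : PU k} (h1 : α ∈ u.1) (h2 : β ∈ u.1) :
    ∃ c : k, β = C c * α := by
  by_cases hβ0 : β = 0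
  · exact ⟨0, by simp [hβ0]⟩
  obtain ⟨φ, e, he, hφ, -, hu, -⟩ := PU.exists_gen u
  rw [hu, Ideal.mem_span_singleton] at h1 h2
  obtain ⟨q, d, rfl, hq0, hq, hd⟩ := Plane.exists_quot hα hα0 hφ h1
  obtain ⟨q', d', rfl, -, hq', hd'⟩ := Plane.exists_quot hβ hβ0 hφ h2
  obtain rfl : d = 0 := by omega
  obtain rfl : d' = 0 := by omega
  rw [Plane.eq_C_of_isHomogeneous_zero hq] at hq0 ⊢
  rw [Plane.eq_C_of_isHomogeneous_zero hq']
  have : coeff 0 q ≠ 0 := fun h => hq0 (by rw [h, map_zero])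
  refine ⟨coeff 0 q' / coeff 0 q, ?_⟩
  rw [mul_left_comm, ← map_mul, div_mul_cancel₀ _ this]

lemma Chart.exists_notMem (hh : h.IsHomogeneous 1) (h0 : h ≠ 0) : ∃ u : PU k, h ∉ u.1 := by
  by_contra hc
  push Not at hc
  obtain ⟨c, h1⟩ := Chart.linear_dvd hh (isHomogeneous_X k 0) h0
    (hc (Plane.mkU X_prime (isHomogeneous_X k 0))) (Ideal.mem_span_singleton_self _)
  have := PU.X_mem_unique (Plane.mkU X_prime (isHomogeneous_X k 1)) (i := 0) (j := 1)
    (by rw [h1]; exact Ideal.mul_mem_left _ _ (hc _)) (Ideal.mem_span_singleton_self _)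
  simp at this

theorem P2.secChart_fg (hh : h.IsHomogeneous 1) (h0 : h ≠ 0) {L : Sys (PU k) V}
    (hL : IsBun (P.OK K) L) : ∃ S : Set V, S.Finite ∧ Submodule.span K S = ⊤ ∧
      secChart h L = spanO (P.chart0 K h).toSubring S := by
  let : Module k V := Module.compHom V (algebraMap k K)
  have : IsScalarTower k K V := ⟨fun a b c => by rw [Algebra.smul_def, mul_smul]; rfl⟩
  have hG := P.good_H0 hL
  have hne := P.ev_ne_zero K hh h0
  obtain ⟨j₀, hj₀⟩ := hG.exists_span
  obtain ⟨T, hT⟩ := Module.Finite.iff_fg.1 (hG.fin (j₀.toNat : ℕ))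
  have key : secChart h L = spanO (P.chart0 K h).toSubring
      ((fun y => (P.ev K h ^ j₀.toNat)⁻¹ • y) '' (T : Set V)) := by
    apply le_antisymm
    · intro x hx
      rw [← P.locG_H0 hL hh h0] at hx
      refine Submodule.iSup_induction _ (motive := fun x => x ∈ spanO (P.chart0 K h).toSubring
        ((fun y => (P.ev K h ^ j₀.toNat)⁻¹ • y) '' (T : Set V))) hx
        (fun j x hx => ?_) (zero_mem _) (fun x y hx hy => add_mem hx hy)
      rw [GoodA.mem_smulK_inv (pow_ne_zero j hne)] at hx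
      have h1 := hG.aeval_smul_mem (φ := h ^ j₀.toNat) (e := j₀.toNat)
        (by simpa using hh.pow j₀.toNat) hx
      rw [← P.ev_eq_aeval, Chart.ev_pow, show (j : ℤ) + (1 : ℕ) * (j₀.toNat : ℕ)
        = (j₀.toNat : ℕ) + (1 : ℕ) * (j : ℕ) by push_cast; ring] at h1
      have h2 := hj₀ (j₀.toNat : ℕ) (Int.self_le_toNat j₀) j h1
      suffices H : ∀ z ∈ Submodule.span k {y | ∃ φ : MvPolynomial (Fin 3) k, φ.IsHomogeneous j ∧
          ∃ x ∈ H0 k (twist (P.pol K ^ ((j₀.toNat : ℕ) : ℤ)) L), y = aeval (P.s K) φ • x},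
          (P.ev K h ^ j)⁻¹ • (P.ev K h ^ j₀.toNat)⁻¹ • z ∈ spanO (P.chart0 K h).toSubring
            ((fun y => (P.ev K h ^ j₀.toNat)⁻¹ • y) '' (T : Set V)) by
        have := H _ h2
        rwa [inv_smul_smul₀ (pow_ne_zero _ hne), inv_smul_smul₀ (pow_ne_zero _ hne)] at this
      have hk : ∀ (c : k) (a : K) (z : V), a • c • z = algebraMap k K c • a • z := fun c a z => by
        rw [smul_comm]; rfl
      intro z hz
      induction hz using Submodule.span_induction with
      | mem z hz =>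
        obtain ⟨φ, hφ, y, hy, rfl⟩ := hz
        rw [smul_comm _ (aeval _ φ), smul_smul, ← P.ev_eq_aeval, mul_comm, ← div_eq_mul_inv]
        refine spanO_smul_mem ((P.mem_chart0 hh h0 _).2 ⟨j, φ, hφ, rfl⟩) ?_
        rw [← hT] at hy
        induction hy using Submodule.span_induction with
        | mem y hy => exact subset_spanO ⟨y, hy, rfl⟩
        | zero => simp
        | add y y' _ _ hy hy' => rw [smul_add]; exact add_mem hy hy'
        | smul c y _ hy =>
          rw [hk]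
          exact spanO_smul_mem ((P.chart0 K h).algebraMap_mem c) hy
      | zero => simp
      | add y y' _ _ hy hy' => rw [smul_add, smul_add]; exact add_mem hy hy'
      | smul c y _ hy =>
        rw [hk, smul_comm]
        exact spanO_smul_mem ((P.chart0 K h).algebraMap_mem c) hy
    · refine spanO_le ?_ fun c hc x hx => (mem_secChart _ _).2 fun u hu =>
        hL.smul_mem (Chart.chart0_le P hh h0 hu hc) ((mem_secChart _ _).1 hx u hu)
      rintro _ ⟨y, hy, rfl⟩
      refine (P.locG_H0 hL hh h0 _).1 (Submodule.mem_iSup_of_mem j₀.toNat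
        (GoodA.smul_mem_smulK _ (hT.le (Submodule.subset_span hy))))
  refine ⟨_, T.finite_toSet.image _, ?_, key⟩
  refine top_le_iff.1 fun x _ => ?_
  obtain ⟨u, hu⟩ := Chart.exists_notMem hh h0
  obtain ⟨b, -, hb0, hb⟩ := (hL.lat u).exists_smul_mem ((P.isSL_OK K).isFam.frac u) x
  obtain ⟨t, -, ht0, -, ht⟩ := P.secChart_local hh h0 hL hu hb
  rw [key, mem_spanO_iff] at ht
  exact (Submodule.smul_mem_iff _ hb0).1 ((Submodule.smul_mem_iff _ ht0).1
    (Submodule.span_le_restrictScalars (P.chart0 K h).toSubring K _ ht))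

lemma Chart.mem_chart_iff (x : K) : x ∈ P.chart K h ↔ x ∈ secChart h (triv (P.OK K)) := by
  rw [P.mem_chart, mem_secChart]; rfl

theorem P2.mem_chart_iff_isIntegral (hh : h.IsHomogeneous 1) (h0 : h ≠ 0) (x : K) :
    x ∈ P.chart K h ↔ IsIntegral (P.chart0 K h) x := by
  constructor
  · intro hx
    obtain ⟨S, hS, -, e⟩ := P.secChart_fg hh h0 (isBun_triv (O := P.OK K))
    have hm : ∀ y, y ∈ Submodule.span (P.chart0 K h).toSubring S ↔ y ∈ P.chart K h := fun y => by
      rw [← mem_spanO_iff, ← e, Chart.mem_chart_iff]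
    refine isIntegral_of_smul_mem_submodule (R := (P.chart0 K h).toSubring)
      (Submodule.span (P.chart0 K h).toSubring S) (fun h1 => ?_) (Submodule.fg_span hS) x
      fun n hn => (hm _).2 (mul_mem hx ((hm _).1 hn))
    have := (hm 1).2 (one_mem _)
    rw [h1] at this
    simp at this
  · intro hx
    refine (P.mem_chart x).2 fun u hu => (P.isSL_OK K).isFam.mem_of_isIntegral u ?_
    exact hx.map_of_comp_eq (Subring.inclusion (Chart.chart0_le P hh h0 hu)) (RingHom.id K) rfl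

theorem P2.chart0_isIntegrallyClosed (hh : h.IsHomogeneous 1) (h0 : h ≠ 0) :
    IsIntegrallyClosed (P.chart0 K h) := by
  obtain ⟨e, -⟩ := Chart.exists_equiv (K := K) P hh h0
  exact IsIntegrallyClosed.of_equiv e.toRingEquiv

/-- maximal ideals of the chart of the plane have height two, with coprime generators -/
theorem P2.chart0_maximal (hh : h.IsHomogeneous 1) (h0 : h ≠ 0) (𝔫 : Ideal (P.chart0 K h))
    (h𝔫 : 𝔫.IsMaximal) : ∃ a b : P.chart0 K h, 𝔫 = Ideal.span {a, b} ∧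
      (Ideal.span {a}).IsPrime ∧ a ≠ 0 ∧ b ∉ Ideal.span {a} ∧
      ∀ u : PU k, h ∉ u.1 → ((a : K)⁻¹ ∈ P.OK K u ∧ a ≠ 0) ∨ ((b : K)⁻¹ ∈ P.OK K u ∧ b ≠ 0) := by
  obtain ⟨e, ι, he, -⟩ := Chart.exists_equiv (K := K) P hh h0
  have hne := P.ev_ne_zero K hh h0
  have h1 : (𝔫.comap e).IsMaximal := Ideal.comap_isMaximal_of_equiv e
  obtain ⟨x, hx⟩ := isMaximal_iff_eq_vanishingIdeal_singleton.1 h1
  rw [Chart.vanishing] at hx
  have hp : Prime (e (X 0 - C (x 0))) := (MulEquiv.prime_iff e).2 (Chart.prime_X_sub (x 0))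
  have hb : e (X 1 - C (x 1)) ∉ Ideal.span {e (X 0 - C (x 0))} := by
    rw [Ideal.mem_span_singleton, map_dvd_iff e]
    intro hd
    have := map_dvd (aeval (R := k) ![x 0, x 1 + 1]) hd
    simp at this
  have hlin : ∀ j, (X (ι j) - C (x j) * h).IsHomogeneous 1 := fun j =>
    (isHomogeneous_X _ _).sub (hh.C_mul _)
  have hval : ∀ j, (e (X j - C (x j)) : K) = P.ev K (X (ι j) - C (x j) * h) / P.ev K h := by
    intro j
    rw [map_sub, Subalgebra.coe_sub, he, P.ev_eq_aeval K (_ - _), map_sub, map_mul, aeval_X,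
      aeval_C, ← P.ev_eq_aeval, sub_div, mul_div_assoc, div_self hne, mul_one]
    congr 1
    exact congrArg Subtype.val (e.commutes (x j))
  refine ⟨e (X 0 - C (x 0)), e (X 1 - C (x 1)), ?_,
    (Ideal.span_singleton_prime hp.ne_zero).2 hp, hp.ne_zero, hb, fun u hu => ?_⟩
  · rw [← Ideal.map_comap_of_surjective e e.surjective 𝔫, hx, Ideal.map_span, Set.image_pair]
  · by_cases h2 : X (ι 0) - C (x 0) * h ∈ u.1
    · by_cases h3 : X (ι 1) - C (x 1) * h ∈ u.1
      · exfalso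
        obtain ⟨c, hc⟩ := Chart.linear_dvd (hlin 0) (hlin 1) (fun h4 => hp.ne_zero (Subtype.ext (by
          rw [hval, h4]; simp [P2.ev]))) h2 h3
        refine hb (Ideal.mem_span_singleton'.2 ⟨algebraMap k _ c, Subtype.ext ?_⟩)
        rw [Subalgebra.coe_mul, hval, hval, hc, P.ev_eq_aeval K (C c * _), map_mul, aeval_C,
          ← P.ev_eq_aeval, mul_div_assoc]
        rfl
      · refine Or.inr ⟨?_, fun h4 => hb (by rw [h4]; exact zero_mem _)⟩
        rw [hval, inv_div]
        exact Chart.div_mem P hh (hlin 1) h3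
    · refine Or.inl ⟨?_, hp.ne_zero⟩
      rw [hval, inv_div]
      exact Chart.div_mem P hh (hlin 0) h2

theorem P2.chart_noetherian (hh : h.IsHomogeneous 1) (h0 : h ≠ 0) :
    IsNoetherianRing (P.chart K h) := by
  obtain ⟨e, -⟩ := Chart.exists_equiv (K := K) P hh h0
  have : IsNoetherianRing (P.chart0 K h).toSubring :=
    isNoetherianRing_of_ringEquiv (MvPolynomial (Fin 2) k) e.toRingEquiv
  obtain ⟨S, hS, -, e⟩ := P.secChart_fg hh h0 (isBun_triv (O := P.OK K))
  have hm : ∀ y, y ∈ Submodule.span (P.chart0 K h).toSubring S ↔ y ∈ P.chart K h := fun y => by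
    rw [← mem_spanO_iff, ← e, Chart.mem_chart_iff]
  let : Algebra (P.chart0 K h).toSubring (P.chart K h) :=
    (Subring.inclusion (Chart.chart0_le_chart P hh h0)).toAlgebra
  have : Module.Finite (P.chart0 K h).toSubring (Submodule.span (P.chart0 K h).toSubring S) :=
    Module.Finite.iff_fg.2 (Submodule.fg_span hS)
  have : Module.Finite (P.chart0 K h).toSubring (P.chart K h) :=
    Module.Finite.of_surjective
      ({ toFun := fun y => ⟨y.1, (hm _).1 y.2⟩
         map_add' := fun _ _ => rfl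
         map_smul' := fun _ _ => rfl } :
        Submodule.span (P.chart0 K h).toSubring S →ₗ[(P.chart0 K h).toSubring] P.chart K h)
      fun y => ⟨⟨y.1, (hm _).2 y.2⟩, rfl⟩
  exact IsNoetherianRing.of_finite (P.chart0 K h).toSubring _

/-- simultaneous trivialisation at finitely many closed points -/
theorem P2.exists_semilocal_basis (hreg : P.Reg K) (hh : h.IsHomogeneous 1) (h0 : h ≠ 0)
    {L : Sys (PU k) V} (hL : IsBun (P.OK K) L) {𝒩 : Set (Ideal (P.chart K h))} (hfin : 𝒩.Finite)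
    (hmax : ∀ 𝔫 ∈ 𝒩, 𝔫.IsMaximal) :
    ∃ (b : Basis (Fin (finrank K V)) K V) (s : P.chart K h), (∀ 𝔫 ∈ 𝒩, s ∉ 𝔫) ∧
      ∀ u : PU k, h ∉ u.1 → latt (P.OK K u) b ≤ L u ∧
        ∀ x ∈ L u, (s : K) • x ∈ latt (P.OK K u) b := by
  classical
  have := hL.finiteDimensional
  have := P.chart_noetherian (K := K) hh h0
  have hle := Chart.chart0_le_chart (K := K) P hh h0
  let N : Submodule (P.chart K h) V :=
    { carrier := secChart h L
      zero_mem' := zero_mem _
      add_mem' := fun hx hy => add_mem hx hy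
      smul_mem' := fun c x hx => (mem_secChart _ _).2 fun u hu =>
        hL.smul_mem ((P.mem_chart _).1 c.2 u hu) ((mem_secChart _ _).1 hx u hu) }
  have hmemN : ∀ x, x ∈ N ↔ ∀ u : PU k, h ∉ u.1 → x ∈ L u := fun x => mem_secChart L x
  obtain ⟨S, hS, hsp, e⟩ := P.secChart_fg hh h0 hL
  have hSN : S ⊆ N := fun x hx => by
    change x ∈ secChart h L
    rw [e]; exact subset_spanO hx
  have hN : N.FG := by
    refine Submodule.fg_def.2 ⟨S, hS, le_antisymm (Submodule.span_le.2 hSN) fun x hx => ?_⟩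
    change x ∈ secChart h L at hx
    rw [e] at hx
    exact spanO_le (N := (Submodule.span (P.chart K h) S).toAddSubgroup) Submodule.subset_span
      (fun c hc y hy => Submodule.smul_mem _ (⟨c, hle hc⟩ : P.chart K h) hy) hx
  have hspan : Submodule.span K (N : Set V) = ⊤ :=
    top_le_iff.1 (hsp ▸ Submodule.span_mono hSN)
  have hfrac : ∀ x : K, ∃ b ∈ P.chart K h, b ≠ 0 ∧ b * x ∈ P.chart K h := by
    intro x
    obtain ⟨u, hu⟩ := Chart.exists_notMem hh h0
    obtain ⟨b, hb, hb0, hbx⟩ := (P.isSL_OK K).isFam.frac u x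
    obtain ⟨t, ht, ht0, -, h1⟩ := P.secChart_local hh h0 (isBun_triv (O := P.OK K)) hu hb
    obtain ⟨t', ht', ht0', -, h2⟩ := P.secChart_local hh h0 (isBun_triv (O := P.OK K)) hu hbx
    rw [← Chart.mem_chart_iff, smul_eq_mul] at h1 h2
    refine ⟨t' * (t * b), mul_mem (hle ht') h1, mul_ne_zero ht0' (mul_ne_zero ht0 hb0), ?_⟩
    have := mul_mem (hle ht) h2
    convert this using 1
    ring
  obtain ⟨𝔪, h𝔪⟩ := Ideal.exists_maximal (P.chart K h)
  have hmax' : ∀ 𝔫 ∈ insert 𝔪 hfin.toFinset, 𝔫.IsMaximal := by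
    intro 𝔫 h𝔫
    rcases Finset.mem_insert.1 h𝔫 with rfl | h𝔫
    exacts [h𝔪, hmax 𝔫 (hfin.mem_toFinset.1 h𝔫)]
  obtain ⟨b, s, hs, hb, hsb⟩ := ChartA.semilocal (P.chart K h) N hN hspan
    (insert 𝔪 hfin.toFinset) (Finset.insert_nonempty _ _) hmax' (by
      intro 𝔫 h𝔫
      have h𝔫' := hmax' 𝔫 h𝔫
      obtain ⟨w₁, hw₁, w₂, hw₂, hw⟩ := hreg h hh h0 𝔫 h𝔫'
      let f : P.chart0 K h →+* P.chart K h := Subring.inclusion hle
      have hf : f.IsIntegral := by
        intro x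
        obtain ⟨p, hp, hpx⟩ := (P.mem_chart_iff_isIntegral hh h0 (x : K)).1 x.2
        refine ⟨p, hp, Subtype.ext ?_⟩
        rw [← Subring.coe_subtype, Polynomial.hom_eval₂]
        exact hpx
      obtain ⟨a, b, hab, -, ha0, -, hu⟩ := P.chart0_maximal hh h0 (𝔫.comap f)
        (Ideal.isMaximal_comap_of_isIntegral_of_isMaximal' f hf 𝔫)
      have ha : a ∈ 𝔫.comap f := by rw [hab]; exact Ideal.subset_span (by simp)
      have hb : b ∈ 𝔫.comap f := by rw [hab]; exact Ideal.subset_span (by simp)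
      have ha0' : (a : K) ≠ 0 := fun h => ha0 (Subtype.ext h)
      refine ChartA.local_gen (P.chart K h) hfrac N hN hspan 𝔫 hw₁ hw₂ hw ha hb
        (fun h => ha0' (congrArg Subtype.val h)) fun n hn n' hn' hnn => (hmemN _).2 fun u hu' => ?_
      change (b : K) • n = (a : K) • n' at hnn
      change (a : K)⁻¹ • n ∈ L u
      rcases hu u hu' with ⟨h1, -⟩ | ⟨h1, h2⟩
      · exact hL.smul_mem h1 ((hmemN _).1 hn u hu')
      · have hb0 : (b : K) ≠ 0 := fun h => h2 (Subtype.ext h)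
        have : (a : K)⁻¹ • n = (b : K)⁻¹ • n' := by
          rw [inv_smul_eq_iff₀ ha0', smul_comm, eq_inv_smul_iff₀ hb0, hnn]
        rw [this]
        exact hL.smul_mem h1 ((hmemN _).1 hn' u hu'))
  refine ⟨b, s, fun 𝔫 h𝔫 => hs 𝔫 (Finset.mem_insert_of_mem (hfin.mem_toFinset.2 h𝔫)),
    fun u hu => ⟨Lat1.latt_le b (fun i => (hmemN _).1 (hb i) u hu)
      fun c hc x hx => hL.smul_mem hc hx, fun x hx => ?_⟩⟩
  obtain ⟨t, -, ht0, ht, h1⟩ := P.secChart_local hh h0 hL hu hx
  have h2 : (s : K) • t • x ∈ latt (P.OK K u) b := by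
    have h3 := mem_spanO_iff.2 (hsb _ h1)
    rw [latt_eq_spanO]
    exact spanO_le subset_spanO
      (fun c hc y hy => spanO_smul_mem ((P.mem_chart _).1 hc u hu) hy) h3
  have h4 := Lat1.latt_smul_mem b ht h2
  rwa [smul_comm, inv_smul_smul₀ ht0] at h4

end Vale.Agent.P190
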