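import Vale.Agent.P190.Good

/-! Existence and additivity of the Euler characteristic. -/

open Module MvPolynomial

noncomputable section

namespace Vale.Agent.P190

variable {k K : Type} [Field k] [Field K] [Algebra k K]
variable {V V' V'' : Type} [AddCommGroup V] [Module K V] [Module k V] [IsScalarTower k K V]
  [AddCommGroup V'] [Module K V'] [Module k V'] [IsScalarTower k K V']
  [AddCommGroup V''] [Module K V''] [Module k V''] [IsScalarTower k K V'']

theorem Chi.finrank_H0 {U : Type} {O : Fam U K} (hO : IsFam O) (hk : HasK k O) {L' : Sys U V'}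
    {L : Sys U V} {L'' : Sys U V''} {i : V' →ₗ[K] V} {p : V →ₗ[K] V''} (hL : IsBun O L)
    (h : Exact3 L' L L'' i p) (hfin : Module.Finite k (H0 k L)) :
    h0 k L = h0 k L' + finrank k ((H0 k L).map (p.restrictScalars k)) := by
  have h1 := LinearMap.finrank_range_add_finrank_ker ((p.restrictScalars k).domRestrict (H0 k L))
  rw [LinearMap.range_domRestrict, LinearMap.ker_domRestrict] at h1
  have h2 : ((LinearMap.ker (p.restrictScalars k)).comap (H0 k L).subtype).map (H0 k L).subtype =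
      (H0 k L').map (i.restrictScalars k) := by
    rw [Submodule.map_comap_subtype]
    ext x
    simp only [Submodule.mem_inf, LinearMap.mem_ker, LinearMap.restrictScalars_apply,
      Submodule.mem_map, hL.mem_H0 hk, (h.isBun_left hO hL).mem_H0 hk]
    constructor
    · rintro ⟨hx, hp⟩
      obtain ⟨y, rfl⟩ : x ∈ LinearMap.range i := by rw [h.exact]; exact hp
      exact ⟨y, fun u => by rw [h.eq_pull]; exact hx u, rfl⟩
    · rintro ⟨y, hy, rfl⟩
      refine ⟨fun u => ?_, ?_⟩
      · have := hy u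
        rw [h.eq_pull] at this
        exact this
      · have : i y ∈ LinearMap.ker p := by rw [← h.exact]; exact ⟨y, rfl⟩
        exact this
  have h3 := congrArg (fun W : Submodule k V => finrank k W) h2
  simp only [Submodule.finrank_map_subtype_eq] at h3
  rw [← LinearEquiv.finrank_eq (Submodule.equivMapOfInjective (i.restrictScalars k) h.inj _)]
    at h3
  rw [h0, h0, ← h1, h3, add_comm]

theorem Chi.locG_map (t : K) (G : ℤ → Submodule k V) (p : V →ₗ[K] V'') :
    locG t (fun j => (G j).map (p.restrictScalars k)) = (locG t G).map (p.restrictScalars k) := by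
  simp only [locG, Submodule.map_iSup, smulK, ← Submodule.map_comp]
  congr 1
  funext j
  congr 1
  ext x
  simp

theorem Chi.isHilb_of_add {f f' f'' : ℤ → ℕ} {z : ℕ} {χ' χ'' : ℤ} (h' : IsHilb f' χ')
    (h'' : IsHilb f'' χ'') (h : ∃ j₀ : ℤ, ∀ j ≥ j₀, f j + z = f' j + f'' j) :
    IsHilb f (χ' + χ'' - z) := by
  obtain ⟨b', c', j', h'⟩ := h'
  obtain ⟨b'', c'', j'', h''⟩ := h''
  obtain ⟨j₀, h⟩ := h
  refine ⟨b' + b'', c' + c'', max j₀ (max j' j''), fun j hj => ?_⟩
  have h1 : (f j : ℚ) + z = f' j + f'' j := by exact_mod_cast h j (le_of_max_le_left hj)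
  have h2 := h' j (le_of_max_le_left (le_of_max_le_right hj))
  have h3 := h'' j (le_of_max_le_right (le_of_max_le_right hj))
  push_cast
  linarith

theorem Chi.zpow_mem {R : Subring K} {a b : K} (h : a / b ∈ R) (h' : b / a ∈ R) (j : ℤ) :
    (a / b) ^ j ∈ R := by
  rcases Int.eq_nat_or_neg j with ⟨n, rfl | rfl⟩
  · rw [zpow_natCast]
    exact R.pow_mem h n
  · rw [zpow_neg, zpow_natCast, ← inv_pow, inv_div]
    exact R.pow_mem h' n

variable {F : Type} [Field F] [Algebra k F] [Algebra F K] [IsScalarTower k F K] (P : P2 k F)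
  [IsAlgClosed k] [CharZero k] [FiniteDimensional F K]

theorem P2.fin_H0 {L : Sys (PU k) V} (hL : IsBun (P.OK K) L) : Module.Finite k (H0 k L) := by
  have := (P.good_H0 hL).fin 0
  rwa [zpow_zero, twist_one] at this

/-- Hilbert functions in an exact triple -/
theorem P2.h0_exact {L' : Sys (PU k) V'} {L : Sys (PU k) V} {L'' : Sys (PU k) V''}
    {i : V' →ₗ[K] V} {p : V →ₗ[K] V''} (hL : IsBun (P.OK K) L) (h : Exact3 L' L L'' i p) :
    ∃ (z : ℕ) (T : Set k), T.Finite ∧
      (∃ j₀ : ℤ, ∀ j ≥ j₀, h0 k (twist (P.pol K ^ j) L) + z =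
        h0 k (twist (P.pol K ^ j) L') + h0 k (twist (P.pol K ^ j) L'')) ∧
      ∀ c ∉ T, rdim (Submodule.span k (secChart (hlin c) L'' : Set V''))
        (Submodule.span k (p '' (secChart (hlin c) L : Set V))) = z := by
  have hO := (P.isSL_OK K).isFam
  have hk := P.hasK_OK K
  have hL'' := h.isBun_right hO hL
  obtain ⟨z, T, hT, ⟨j₀, hj⟩, hc⟩ := P.finite_colength (P.good_H0 hL'') ((P.good_H0 hL).map p)
    (fun j => by
      rintro _ ⟨x, hx, rfl⟩
      refine ((hL''.twist _).mem_H0 hk _).2 fun u => ?_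
      rw [(h.twist _).eq_push]
      exact ⟨x, ((hL.twist _).mem_H0 hk _).1 hx u, rfl⟩)
    (fun u j y hy => by
      have h1 := ((hL''.twist _).mem_H0 hk _).1 hy u
      rw [(h.twist _).eq_push] at h1
      obtain ⟨x, hx, rfl⟩ := h1
      obtain ⟨n, ψ, hψ, hu, hm⟩ := P.exists_clear (hL.twist _) hx
      refine ⟨n, ψ, hψ, hu, P.ev K ψ • x, ((hL.twist _).mem_H0 hk _).2 fun u' => ?_, by simp⟩
      rw [add_comm, zpow_add, twist_mul]
      exact hm u')
  refine ⟨z, T, hT, ⟨j₀, fun j hj' => ?_⟩, fun c hcT => ?_⟩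
  · rw [Chi.finrank_H0 hO hk (hL.twist _) (h.twist _) (P.fin_H0 (hL.twist _)), add_assoc,
      ← hj j hj']
    rfl
  · have e : ∀ {W : Type} [AddCommGroup W] [Module K W] [Module k W] [IsScalarTower k K W]
        {M : Sys (PU k) W}, IsBun (P.OK K) M → Submodule.span k (secChart (hlin c) M : Set W) =
        locG (P.ev K (hlin c)) fun j => H0 k (twist (P.pol K ^ j) M) := by
      intro W _ _ _ _ M hM
      rw [← Submodule.span_eq (locG _ _)]
      congr 1
      ext x
      exact (P.locG_H0 hM (hlin_isHomogeneous c) (hlin_ne_zero c) x).symm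
    have e' : Submodule.span k (p '' (secChart (hlin c) L : Set V)) =
        (Submodule.span k (secChart (hlin c) L : Set V)).map (p.restrictScalars k) := by
      rw [Submodule.map_span]
      rfl
    rw [e', e hL, e hL'', ← Chi.locG_map]
    exact hc c hcT

theorem Chi.hilb_one {V : Type} [AddCommGroup V] [Module F V] [Module k V] [IsScalarTower k F V]
    {L : Sys (PU k) V} (hL : IsBun (P.OK F) L) (hr : finrank F V = 1) :
    ∃ χ, IsHilb (fun j => h0 k (twist (P.pol F ^ j) L)) χ := by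
  have hO := (P.isSL_OK F).isFam
  obtain ⟨c, e, rfl⟩ := hL.exists_line hO hr
  obtain ⟨n, hn⟩ := P.pic_cyclic c
  obtain ⟨χ, hχ⟩ := Int.even_mul_succ_self (n + 1)
  refine ⟨χ, n + 3 / 2, 1 / 2, -n, fun j hj => ?_⟩
  obtain ⟨m, hm⟩ := Int.eq_ofNat_of_zero_le (show 0 ≤ j + n by omega)
  have e1 : h0 k (twist (P.pol F ^ j) (push e.toLinearMap (line c))) =
      h0 k (line (P.pol F ^ (m : ℤ))) := by
    rw [← push_twist, h0_push_equiv, twist_line]
    refine isBun_triv.h0_twist_congr hO ?_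
    rw [cl_mul, hn, cl_zpow, cl_zpow, ← add_zsmul, hm]
  have hχ' : (χ : ℚ) + χ = (n + 1) * (n + 1 + 1) := by exact_mod_cast hχ.symm
  have hm' : (j : ℚ) + n = m := by exact_mod_cast hm
  simp only
  rw [e1, P.h0_pol, Nat.cast_choose_two]
  push_cast
  rw [← hm']
  linarith

theorem Chi.hilb_F (n : ℕ) : ∀ (V : Type) [AddCommGroup V] [Module F V] [Module k V]
    [IsScalarTower k F V] (L : Sys (PU k) V), IsBun (P.OK F) L → finrank F V = n →
    ∃ χ, IsHilb (fun j => h0 k (twist (P.pol F ^ j) L)) χ := by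
  have hO := (P.isSL_OK F).isFam
  induction n with
  | zero =>
    intro V _ _ _ _ L hL hr
    have := hL.finiteDimensional
    have : Subsingleton V := finrank_zero_iff.1 hr
    refine ⟨0, 0, 0, 0, fun j _ => ?_⟩
    simp [h0, finrank_zero_of_subsingleton]
  | succ n ih =>
    intro V _ _ _ _ L hL hr
    have := hL.finiteDimensional
    have : Nontrivial V := Module.nontrivial_of_finrank_eq_succ hr
    obtain ⟨x, hx⟩ := exists_ne (0 : V)
    have h1 := finrank_span_singleton (K := F) hx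
    have h2 := (F ∙ x).finrank_quotient_add_finrank
    obtain ⟨χ', h'⟩ := Chi.hilb_one P (hL.sub hO (F ∙ x)) h1
    obtain ⟨χ'', h''⟩ := ih _ _ (hL.quot hO (F ∙ x)) (by omega)
    obtain ⟨z, -, -, h, -⟩ := P.h0_exact hL (exact3_sub_quot L (F ∙ x))
    exact ⟨_, Chi.isHilb_of_add h' h'' h⟩

theorem P2.hilb {L : Sys (PU k) V} (hL : IsBun (P.OK K) L) :
    IsHilb (fun j => h0 k (twist (P.pol K ^ j) L)) (chi k (P.pol K) L) := by
  have hO := (P.isSL_OK K).isFam
  letI : Module F V := Module.compHom V (algebraMap F K)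
  have : IsScalarTower F K V := ⟨fun a b x => by
    rw [Algebra.smul_def, mul_smul]; rfl⟩
  have : IsScalarTower k F V := ⟨fun a b x => by
    change algebraMap F K (a • b) • x = a • algebraMap F K b • x
    rw [← smul_assoc, Algebra.smul_def, Algebra.smul_def, map_mul,
      ← IsScalarTower.algebraMap_apply]⟩
  have hF : IsBun (P.OK F) L := hL.res (P.finOver_OK F K) (P.isSL_OK F).isFam
  obtain ⟨χ, hχ⟩ := Chi.hilb_F P _ V L hF rfl
  have e : ∀ j : ℤ, twist (P.pol F ^ j) L = twist (P.pol K ^ j) L := fun j => by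
    rw [← hL.twist_congr ((P.pol_map F K).zpow j), ← Div.map_zpow, twist_map]
  simp only [e] at hχ
  rw [chi_eq hχ]
  exact hχ

theorem P2.chi_exact_eq {L' : Sys (PU k) V'} {L : Sys (PU k) V} {L'' : Sys (PU k) V''}
    {i : V' →ₗ[K] V} {p : V →ₗ[K] V''} (hL : IsBun (P.OK K) L) (h : Exact3 L' L L'' i p) :
    ∃ (z : ℕ) (T : Set k), T.Finite ∧
      chi k (P.pol K) L + z = chi k (P.pol K) L' + chi k (P.pol K) L'' ∧
      ∀ c ∉ T, rdim (Submodule.span k (secChart (hlin c) L'' : Set V''))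
        (Submodule.span k (p '' (secChart (hlin c) L : Set V))) = z := by
  have hO := (P.isSL_OK K).isFam
  obtain ⟨z, T, hT, hj, hc⟩ := P.h0_exact hL h
  refine ⟨z, T, hT, ?_, hc⟩
  rw [chi_eq (Chi.isHilb_of_add (P.hilb (h.isBun_left hO hL)) (P.hilb (h.isBun_right hO hL)) hj)]
  ring

theorem Chi.mem_twist_pol {E : Sys (PU k) V} (hE : IsBun (P.OK K) E) {u : PU k} {i : Fin 3}
    (hi : X i ∉ u.1) (j : ℤ) (x : V) :
    x ∈ twist (P.pol K ^ j) E u ↔ (P.s K i ^ j)⁻¹ • x ∈ E u := by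
  obtain ⟨h1, h2⟩ := Plane.pol_div P K hi
  have hs := P.s_ne_zero K i
  have ha := dv_ne_zero (P.pol K) u
  rw [mem_twist, dv_zpow]
  constructor
  · intro h
    have := hE.smul_mem (Chi.zpow_mem h1 h2 j) h
    rwa [smul_smul, div_zpow, div_eq_mul_inv, mul_right_comm,
      mul_inv_cancel₀ (zpow_ne_zero j ha), one_mul] at this
  · intro h
    have := hE.smul_mem (Chi.zpow_mem h2 h1 j) h
    rwa [smul_smul, div_zpow, div_eq_mul_inv, mul_right_comm,
      mul_inv_cancel₀ (zpow_ne_zero j hs), one_mul] at this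

omit [IsAlgClosed k] [CharZero k] [FiniteDimensional F K] in
theorem Chi.ev_X_pow (i : Fin 3) (n : ℕ) : P.ev K (X i ^ n) = P.s K i ^ n := by
  simp [P2.ev, P2.s]

omit [IsAlgClosed k] [CharZero k] [FiniteDimensional F K] in
theorem Chi.pow_smul_mem {G : ℤ → Submodule k V} (hG : Good (P.s K) 1 G) (i : Fin 3) (n : ℕ)
    {j : ℤ} {x : V} (hx : x ∈ G j) : P.s K i ^ n • x ∈ G (j + n) := by
  have := hG.aeval_smul_mem (isHomogeneous_X_pow i n) hx
  simpa using this

theorem IsHull.mem_of_mem {G : ℤ → Submodule k V} {E : Sys (PU k) V} (hG : Good (P.s K) 1 G)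
    (hE : IsBun (P.OK K) E) (h : IsHull (K := K) P G E) {j : ℤ} {x : V} (hx : x ∈ G j) (u : PU k) :
    x ∈ twist (P.pol K ^ j) E u := by
  obtain ⟨i, hi⟩ := u.exists_X_notMem
  have hs := P.s_ne_zero K i
  rw [Chi.mem_twist_pol P hE hi, h u]
  refine ⟨j.toNat, X i ^ j.toNat, isHomogeneous_X_pow i _, fun hm => hi (u.2.1.mem_of_pow_mem _ hm),
    ?_⟩
  have h1 := Chi.pow_smul_mem P hG i (-j).toNat hx
  rw [show j + ((-j).toNat : ℤ) = j.toNat by omega] at h1
  rw [Chi.ev_X_pow, smul_smul, ← zpow_natCast, ← zpow_neg, ← zpow_add₀ hs,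
    show (j.toNat : ℤ) + -j = (-j).toNat by omega, zpow_natCast]
  exact h1

/-- the Hilbert polynomial of a torsion-free module is at most that of its hull -/
theorem P2.hilb_of_hull {G : ℤ → Submodule k V} {E : Sys (PU k) V} (hG : Good (P.s K) 1 G)
    (hE : IsBun (P.OK K) E) (h : IsHull (K := K) P G E) :
    ∃ χ : ℤ, χ ≤ chi k (P.pol K) E ∧ IsHilb (fun j => finrank k (G j)) χ := by
  have hk := P.hasK_OK K
  obtain ⟨z, -, -, ⟨j₀, hj⟩, -⟩ := P.finite_colength (P.good_H0 hE) hG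
    (fun j x hx => ((hE.twist _).mem_H0 hk _).2 (h.mem_of_mem P hG hE hx))
    (fun u j x hx => by
      obtain ⟨i, hi⟩ := u.exists_X_notMem
      have hs := P.s_ne_zero K i
      have h1 := ((hE.twist _).mem_H0 hk _).1 hx u
      rw [Chi.mem_twist_pol P hE hi, h u] at h1
      obtain ⟨m, ψ, hψ, hu, hm⟩ := h1
      refine ⟨m + (-j).toNat, ψ * X i ^ (-j).toNat, hψ.mul (isHomogeneous_X_pow i _),
        fun hm => (u.2.1.mem_or_mem hm).elim hu fun hm => hi (u.2.1.mem_of_pow_mem _ hm), ?_⟩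
      have h2 := Chi.pow_smul_mem P hG i j.toNat hm
      have e : P.ev K (ψ * X i ^ (-j).toNat) =
          P.s K i ^ j.toNat * (P.ev K ψ * (P.s K i ^ j)⁻¹) := by
        rw [mul_left_comm, ← zpow_natCast, ← zpow_neg, ← zpow_add₀ hs,
          show (j.toNat : ℤ) + -j = (-j).toNat by omega, zpow_natCast, ← Chi.ev_X_pow P]
        simp only [P2.ev, map_mul]
      rw [e, mul_smul, mul_smul,
        show j + ((m + (-j).toNat : ℕ) : ℤ) = m + j.toNat by push_cast; omega]
      exact h2)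
  refine ⟨chi k (P.pol K) E - z, by omega, ?_⟩
  have h0' : IsHilb (fun _ => 0) 0 := ⟨0, 0, 0, fun j _ => by simp⟩
  have := Chi.isHilb_of_add (f := fun j => finrank k (G j)) (z := z) (P.hilb hE) h0'
    ⟨j₀, fun j hj' => (hj j hj').symm⟩
  rwa [add_zero] at this

/-- first Koszul cocycles are sections of the hull -/
theorem IsHull.mem_of_pow {G : ℤ → Submodule k V} {E : Sys (PU k) V}
    (h : IsHull (K := K) P G E) (J : ℕ) {g : V} (hg : ∀ i, P.s K i ^ J • g ∈ G J) (u : PU k) :
    g ∈ E u := by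
  obtain ⟨i, hi⟩ := u.exists_X_notMem
  refine (h u g).2 ⟨J, X i ^ J, isHomogeneous_X_pow i _, fun hm => hi (u.2.1.mem_of_pow_mem _ hm),
    ?_⟩
  rw [Chi.ev_X_pow]
  exact hg i

/-- the value of a Hilbert polynomial at zero through third differences -/
theorem IsHilb.third_diff {f : ℤ → ℕ} {χ : ℤ} (h : IsHilb f χ) : ∃ J₀ : ℕ, ∀ J : ℕ, J₀ ≤ J →
    χ = 3 * (f J : ℤ) - 3 * f (2 * J) + f (3 * J) := by
  obtain ⟨b, c, j₀, h⟩ := h
  refine ⟨j₀.toNat, fun J hJ => ?_⟩
  have h1 := h J (by omega)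
  have h2 := h (2 * J) (by omega)
  have h3 := h (3 * J) (by omega)
  have : (χ : ℚ) = 3 * (f J : ℚ) - 3 * f (2 * J) + f (3 * J) := by
    rw [h1, h2, h3]
    push_cast
    ring
  exact_mod_cast this

end Vale.Agent.P190
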