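import Vale.Agent.P190.Defs

/-! Counting Laurent polynomials with vanishing conditions. -/

open Module

noncomputable section

namespace Vale.Agent.P190

variable {k : Type} [Field k] {A : Subgroup kˣ} [Fintype A] {K : Type} [Field K] [Algebra k K]

section Aux

open MvPolynomial

/-- exponent vector -/
def HexCount.ex (q : ℕ × ℕ) : Fin 2 →₀ ℕ := Finsupp.single 0 q.1 + Finsupp.single 1 q.2

lemma HexCount.ex_zero (q : ℕ × ℕ) : HexCount.ex q 0 = q.1 := by simp [HexCount.ex]

lemma HexCount.ex_one (q : ℕ × ℕ) : HexCount.ex q 1 = q.2 := by simp [HexCount.ex]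

lemma HexCount.ex_inj : Function.Injective HexCount.ex := by
  intro p q h
  refine Prod.ext ?_ ?_
  · rw [← HexCount.ex_zero p, h, HexCount.ex_zero]
  · rw [← HexCount.ex_one p, h, HexCount.ex_one]

lemma HexCount.ex_surj (n : Fin 2 →₀ ℕ) : HexCount.ex (n 0, n 1) = n := by
  ext i
  fin_cases i
  · exact HexCount.ex_zero _
  · exact HexCount.ex_one _

lemma HexCount.ex_degree (q : ℕ × ℕ) : (HexCount.ex q).degree = q.1 + q.2 := by
  simp [HexCount.ex]

lemma HexCount.monomial_ex (q : ℕ × ℕ) :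
    (monomial (HexCount.ex q) (1 : k) : MvPolynomial (Fin 2) k) = X 0 ^ q.1 * X 1 ^ q.2 := by
  rw [X_pow_eq_monomial, X_pow_eq_monomial, monomial_mul, mul_one, HexCount.ex]

/-- the triangle -/
def HexCount.triS (c : ℕ) : Finset (ℕ × ℕ) :=
  (Finset.range c ×ˢ Finset.range c).filter fun q => q.1 + q.2 < c

lemma HexCount.mem_triS {c : ℕ} {q : ℕ × ℕ} : q ∈ HexCount.triS c ↔ q.1 + q.2 < c := by
  simp only [HexCount.triS, Finset.mem_filter, Finset.mem_product, Finset.mem_range]
  omega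

lemma HexCount.card_triS (c : ℕ) : 2 * (HexCount.triS c).card = c * (c + 1) := by
  induction c with
  | zero => simp [HexCount.triS]
  | succ c ih =>
    have : HexCount.triS (c + 1) = HexCount.triS c ∪ Finset.HasAntidiagonal.antidiagonal c := by
      ext q
      simp only [Finset.mem_union, HexCount.mem_triS, Finset.HasAntidiagonal.mem_antidiagonal]
      omega
    rw [this, Finset.card_union_of_disjoint, Finset.Nat.card_antidiagonal, mul_add, ih]
    · ring
    · rw [Finset.disjoint_left]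
      intro q h1 h2
      rw [HexCount.mem_triS] at h1
      rw [Finset.HasAntidiagonal.mem_antidiagonal] at h2
      omega

/-- the hexagon in natural coordinates -/
def HexCount.hexS (a b c : ℕ) : Finset (ℕ × ℕ) :=
  (Finset.range (a + c + 1) ×ˢ Finset.range (b + c + 1)).filter
    fun q => q.1 ≤ q.2 + a ∧ q.2 ≤ q.1 + b

lemma HexCount.mem_hexS {a b c : ℕ} {q : ℕ × ℕ} : q ∈ HexCount.hexS a b c ↔
    q.1 ≤ a + c ∧ q.2 ≤ b + c ∧ q.1 ≤ q.2 + a ∧ q.2 ≤ q.1 + b := by
  simp only [HexCount.hexS, Finset.mem_filter, Finset.mem_product, Finset.mem_range]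
  omega

lemma HexCount.card_hexS (a b c : ℕ) :
    (HexCount.hexS a b c).card = a * b + a * c + b * c + a + b + c + 1 := by
  induction c with
  | zero =>
    have : HexCount.hexS a b 0 = Finset.range (a + 1) ×ˢ Finset.range (b + 1) := by
      ext q
      simp only [HexCount.mem_hexS, Finset.mem_product, Finset.mem_range]
      omega
    rw [this, Finset.card_product, Finset.card_range, Finset.card_range]
    ring
  | succ c ih =>
    have : HexCount.hexS a b (c + 1) = HexCount.hexS a b c ∪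
        (({a + c + 1} ×ˢ Finset.Ico (c + 1) (c + 1 + (b + 1))) ∪
          (Finset.Ico (c + 1) (c + 1 + a) ×ˢ {b + c + 1})) := by
      ext q
      simp only [Finset.mem_union, HexCount.mem_hexS, Finset.mem_product, Finset.mem_singleton,
        Finset.mem_Ico]
      omega
    rw [this, Finset.card_union_of_disjoint, Finset.card_union_of_disjoint, ih,
      Finset.card_product, Finset.card_product, Nat.card_Ico, Nat.card_Ico, Finset.card_singleton,
      Finset.card_singleton, Nat.add_sub_cancel_left, Nat.add_sub_cancel_left]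
    · ring
    · rw [Finset.disjoint_left]
      intro q h1 h2
      simp only [Finset.mem_product, Finset.mem_singleton, Finset.mem_Ico] at h1 h2
      omega
    · rw [Finset.disjoint_left]
      intro q h1 h2
      simp only [Finset.mem_union, HexCount.mem_hexS, Finset.mem_product, Finset.mem_singleton,
        Finset.mem_Ico] at h1 h2
      omega

/-- polynomials supported in the hexagon -/
def HexCount.W (k : Type) [Field k] (a b c : ℕ) : Submodule k (MvPolynomial (Fin 2) k) :=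
  Submodule.span k (Set.range fun q : HexCount.hexS a b c => monomial (HexCount.ex q.1) (1 : k))

lemma HexCount.finrank_W (a b c : ℕ) :
    finrank k (HexCount.W k a b c) = (HexCount.hexS a b c).card := by
  rw [HexCount.W, finrank_span_eq_card, Fintype.card_coe]
  exact (basisMonomials (Fin 2) k).linearIndependent.comp
    (fun q : HexCount.hexS a b c => HexCount.ex q.1)
    (HexCount.ex_inj.comp Subtype.val_injective)

instance HexCount.finite_W (a b c : ℕ) : Module.Finite k (HexCount.W k a b c) :=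
  Module.Finite.span_of_finite _ (Set.finite_range _)

/-- evaluation, divided by a power of `s t` -/
def HexCount.Psi (s t : K) (c : ℕ) : MvPolynomial (Fin 2) k →ₗ[k] K :=
  (LinearMap.mulRight k ((s * t) ^ c)⁻¹) ∘ₗ (aeval ![s, t]).toLinearMap

lemma HexCount.Psi_apply (s t : K) (c : ℕ) (f : MvPolynomial (Fin 2) k) :
    HexCount.Psi s t c f = aeval ![s, t] f * ((s * t) ^ c)⁻¹ := rfl

lemma HexCount.ne_zero {s t : K} (h : AlgebraicIndependent k ![s, t]) : s ≠ 0 ∧ t ≠ 0 :=
  ⟨by simpa using h.linearIndependent.ne_zero 0, by simpa using h.linearIndependent.ne_zero 1⟩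

lemma HexCount.Psi_inj {s t : K} (h : AlgebraicIndependent k ![s, t]) (c : ℕ) :
    Function.Injective (HexCount.Psi (k := k) s t c) := by
  obtain ⟨hs, ht⟩ := HexCount.ne_zero h
  intro f g hfg
  rw [HexCount.Psi_apply, HexCount.Psi_apply] at hfg
  exact h (mul_right_cancel₀ (inv_ne_zero (pow_ne_zero _ (mul_ne_zero hs ht))) hfg)

lemma HexCount.Hex_eq {s t : K} (h : AlgebraicIndependent k ![s, t]) {d : Fin 3 → ℤ}
    {a b c : ℕ} (ha : d 0 = a) (hb : d 1 = b) (hc : d 2 = c) :
    Hex k s t d = (HexCount.W k a b c).map (HexCount.Psi s t c) := by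
  obtain ⟨hs, ht⟩ := HexCount.ne_zero h
  have key : ∀ q : ℕ × ℕ, HexCount.Psi s t c (monomial (HexCount.ex q) (1 : k))
      = s ^ ((q.1 : ℤ) - c) * t ^ ((q.2 : ℤ) - c) := by
    intro q
    rw [HexCount.Psi_apply, HexCount.monomial_ex, zpow_sub₀ hs, zpow_sub₀ ht]
    simp only [map_mul, map_pow, aeval_X, Matrix.cons_val_zero, Matrix.cons_val_one,
      zpow_natCast, mul_pow]
    field_simp
  rw [HexCount.W, Submodule.map_span, Hex]
  congr 1
  ext z
  constructor
  · rintro ⟨e, he, rfl⟩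
    simp only [InHex, ha, hb, hc] at he
    refine ⟨_, ⟨⟨((e.1 + c).toNat, (e.2 + c).toNat), ?_⟩, rfl⟩, ?_⟩
    · rw [HexCount.mem_hexS]
      omega
    · rw [key]
      congr 2 <;> simp only <;> omega
  · rintro ⟨_, ⟨⟨q, hq⟩, rfl⟩, rfl⟩
    rw [HexCount.mem_hexS] at hq
    refine ⟨((q.1 : ℤ) - c, (q.2 : ℤ) - c), ?_, key q⟩
    simp only [InHex, ha, hb, hc]
    omega

/-- the maximal ideal of a point -/
abbrev HexCount.mI (α β : k) : Ideal (MvPolynomial (Fin 2) k) :=
  Ideal.span {X 0 - C α, X 1 - C β}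

lemma HexCount.X_sub_mem (α β : k) (i : Fin 2) : X i - C (![α, β] i) ∈ HexCount.mI α β := by
  fin_cases i
  · exact Ideal.subset_span (by simp)
  · exact Ideal.subset_span (by simp)

lemma HexCount.sub_eval_mem (α β : k) (f : MvPolynomial (Fin 2) k) :
    f - C (eval ![α, β] f) ∈ HexCount.mI α β := by
  induction f using MvPolynomial.induction_on with
  | C a => simp
  | add p q hp hq =>
    have : p + q - C (eval ![α, β] (p + q))
        = (p - C (eval ![α, β] p)) + (q - C (eval ![α, β] q)) := by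
      rw [map_add, map_add]; ring
    rw [this]
    exact Ideal.add_mem _ hp hq
  | mul_X p i hp =>
    have : p * X i - C (eval ![α, β] (p * X i))
        = (p - C (eval ![α, β] p)) * X i + C (eval ![α, β] p) * (X i - C (![α, β] i)) := by
      rw [map_mul, map_mul, eval_X]; ring
    rw [this]
    exact Ideal.add_mem _ (Ideal.mul_mem_right _ _ hp)
      (Ideal.mul_mem_left _ _ (HexCount.X_sub_mem α β i))

lemma HexCount.coprime_of {I J : Ideal (MvPolynomial (Fin 2) k)} {x y : MvPolynomial (Fin 2) k}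
    (hx : x ∈ I) (hy : y ∈ J) {r : k} (hr : r ≠ 0) (h : x - y = C r) : IsCoprime I J := by
  refine Ideal.isCoprime_iff_exists.2 ⟨C r⁻¹ * x, Ideal.mul_mem_left _ _ hx, -(C r⁻¹ * y),
    J.neg_mem (Ideal.mul_mem_left _ _ hy), ?_⟩
  rw [← sub_eq_add_neg, ← mul_sub, h, ← map_mul, inv_mul_cancel₀ hr, map_one]

lemma HexCount.exists_inv {α β : k} {e : MvPolynomial (Fin 2) k} (he : eval ![α, β] e ≠ 0)
    (c : ℕ) : ∃ v, 1 - v * e ∈ HexCount.mI α β ^ c := by
  have h1 : IsCoprime (Ideal.span {e}) (HexCount.mI α β) :=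
    HexCount.coprime_of (Ideal.mem_span_singleton_self e) (HexCount.sub_eval_mem α β e) he
      (by ring)
  obtain ⟨x, hx, y, hy, hxy⟩ := Ideal.isCoprime_iff_exists.1 (h1.pow_right (n := c))
  obtain ⟨v, rfl⟩ := Ideal.mem_span_singleton'.1 hx
  exact ⟨v, by rw [← hxy]; simpa using hy⟩

lemma HexCount.mem_Van {s t : K} (h : AlgebraicIndependent k ![s, t]) {α β : k} (hα : α ≠ 0)
    (hβ : β ≠ 0) (D c : ℕ) (f : MvPolynomial (Fin 2) k) :
    HexCount.Psi s t D f ∈ Van k s t α β c ↔ f ∈ HexCount.mI α β ^ c := by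
  obtain ⟨hs, ht⟩ := HexCount.ne_zero h
  have hu : (s * t) ^ D ≠ 0 := pow_ne_zero _ (mul_ne_zero hs ht)
  have hU : aeval ![s, t] ((X 0 * X 1) ^ D : MvPolynomial (Fin 2) k) = (s * t) ^ D := by simp
  constructor
  · rintro ⟨e, r, he, hr, hh⟩
    have h1 : f * e = r * (X 0 * X 1) ^ D := by
      refine h ?_
      rw [map_mul, map_mul, hU, ← hh, HexCount.Psi_apply]
      field_simp
    obtain ⟨v, hv⟩ := HexCount.exists_inv he c
    have : f = f * (1 - v * e) + v * (f * e) := by ring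
    rw [this, h1]
    exact Ideal.add_mem _ (Ideal.mul_mem_left _ _ hv)
      (Ideal.mul_mem_left _ _ (Ideal.mul_mem_right _ _ hr))
  · intro hf
    refine ⟨(X 0 * X 1) ^ D, f, by simp [hα, hβ], hf, ?_⟩
    rw [hU, HexCount.Psi_apply, inv_mul_cancel_right₀ hu]

lemma HexCount.map_mem_pow {I J : Ideal (MvPolynomial (Fin 2) k)}
    (g : MvPolynomial (Fin 2) k →ₐ[k] MvPolynomial (Fin 2) k) (h : I.map g ≤ J) {c : ℕ}
    {f : MvPolynomial (Fin 2) k} (hf : f ∈ I ^ c) : g f ∈ J ^ c := by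
  have := Ideal.mem_map_of_mem g hf
  rw [Ideal.map_pow] at this
  exact Ideal.pow_right_mono h c this

/-- Taylor coefficients -/
def HexCount.tay (α β : k) (c : ℕ) : MvPolynomial (Fin 2) k →ₗ[k] (HexCount.triS c → k) :=
  (LinearMap.pi fun q => lcoeff k (HexCount.ex q.1)) ∘ₗ
    (aeval fun i => X i + C (![α, β] i) :
      MvPolynomial (Fin 2) k →ₐ[k] MvPolynomial (Fin 2) k).toLinearMap

lemma HexCount.shift_shift (a : Fin 2 → k) (f : MvPolynomial (Fin 2) k) :
    (aeval fun i => X i - C (a i) : MvPolynomial (Fin 2) k →ₐ[k] MvPolynomial (Fin 2) k)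
      ((aeval fun i => X i + C (a i) : MvPolynomial (Fin 2) k →ₐ[k] MvPolynomial (Fin 2) k) f)
      = f := by
  rw [← AlgHom.comp_apply]
  conv_rhs => rw [← AlgHom.id_apply (R := k) f]
  congr 1
  ext i : 1
  simp

lemma HexCount.shift_shift' (a : Fin 2 → k) (f : MvPolynomial (Fin 2) k) :
    (aeval fun i => X i + C (a i) : MvPolynomial (Fin 2) k →ₐ[k] MvPolynomial (Fin 2) k)
      ((aeval fun i => X i - C (a i) : MvPolynomial (Fin 2) k →ₐ[k] MvPolynomial (Fin 2) k) f)
      = f := by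
  rw [← AlgHom.comp_apply]
  conv_rhs => rw [← AlgHom.id_apply (R := k) f]
  congr 1
  ext i : 1
  simp

lemma HexCount.tay_eq_zero (α β : k) (c : ℕ) (f : MvPolynomial (Fin 2) k) :
    HexCount.tay α β c f = 0 ↔ f ∈ HexCount.mI α β ^ c := by
  have h1 : HexCount.tay α β c f = 0 ↔
      (aeval fun i => X i + C (![α, β] i) : MvPolynomial (Fin 2) k →ₐ[k] MvPolynomial (Fin 2) k) f
        ∈ idealOfVars (Fin 2) k ^ c := by
    rw [mem_pow_idealOfVars_iff']
    constructor
    · intro h x hx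
      rw [← HexCount.ex_surj x, HexCount.ex_degree] at hx
      have := congrFun h ⟨(x 0, x 1), HexCount.mem_triS.2 hx⟩
      rw [← HexCount.ex_surj x]
      exact this
    · intro h
      funext q
      exact h _ (by rw [HexCount.ex_degree]; exact HexCount.mem_triS.1 q.2)
  rw [h1]
  constructor
  · intro h
    rw [← HexCount.shift_shift ![α, β] f]
    refine HexCount.map_mem_pow _ ?_ h
    rw [Ideal.map_span, Ideal.span_le]
    rintro _ ⟨_, ⟨i, rfl⟩, rfl⟩
    rw [aeval_X]
    exact HexCount.X_sub_mem α β i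
  · intro h
    refine HexCount.map_mem_pow _ ?_ h
    rw [Ideal.map_span, Ideal.span_le]
    rintro _ ⟨_, (rfl | rfl), rfl⟩
    · exact Ideal.subset_span ⟨0, by simp⟩
    · exact Ideal.subset_span ⟨1, by simp⟩

lemma HexCount.tay_surj (α β : k) (c : ℕ) : Function.Surjective (HexCount.tay α β c) := by
  classical
  intro x
  refine ⟨(aeval fun i => X i - C (![α, β] i) :
      MvPolynomial (Fin 2) k →ₐ[k] MvPolynomial (Fin 2) k)
      (∑ q : HexCount.triS c, monomial (HexCount.ex q.1) (x q)), funext fun q => ?_⟩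
  change coeff (HexCount.ex q.1) ((aeval fun i => X i + C (![α, β] i) :
      MvPolynomial (Fin 2) k →ₐ[k] MvPolynomial (Fin 2) k) _) = _
  rw [HexCount.shift_shift', coeff_sum, Finset.sum_eq_single q]
  · simp
  · intro q' _ hq
    rw [coeff_monomial, if_neg]
    exact fun h => hq (Subtype.ext (HexCount.ex_inj h))
  · simp

lemma HexCount.reduce (A : Subgroup kˣ) [Fintype A] (C₀ N : ℕ) (hN : Fintype.card A * C₀ ≤ N)
    (i : Fin 2) (l : ℕ) : ∃ (r : ℕ → k), ∀ (a : A) (I : Ideal (MvPolynomial (Fin 2) k)),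
      X i - C ((a : kˣ) : k) ∈ I → ∀ c ≤ C₀,
        X i ^ l - ∑ j ∈ Finset.range (N + 1), r j • X i ^ j ∈ I ^ c := by
  classical
  let q : Polynomial k := ∏ a : A, (Polynomial.X - Polynomial.C ((a : kˣ) : k)) ^ C₀
  have hq : q.Monic :=
    Polynomial.monic_prod_of_monic _ _ fun a _ => (Polynomial.monic_X_sub_C _).pow _
  have hdeg : q.natDegree = Fintype.card A * C₀ := by
    rw [Polynomial.natDegree_prod_of_monic _ _ fun a _ => (Polynomial.monic_X_sub_C _).pow _]
    simp
  refine ⟨(Polynomial.X ^ l %ₘ q).coeff, fun a I hI c hc => ?_⟩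
  have h1 : (Polynomial.X ^ l %ₘ q).natDegree < N + 1 :=
    Nat.lt_succ_of_le ((Polynomial.natDegree_modByMonic_le _ hq).trans (hdeg.le.trans hN))
  rw [← Polynomial.aeval_eq_sum_range' h1]
  have h2 := congrArg (Polynomial.aeval (X i : MvPolynomial (Fin 2) k))
    (Polynomial.modByMonic_add_div (Polynomial.X ^ l) q)
  rw [map_add, map_mul, map_pow, Polynomial.aeval_X] at h2
  rw [← h2, add_sub_cancel_left]
  refine Ideal.mul_mem_right _ _ (Ideal.pow_le_pow_right hc ?_)
  simp only [q, map_prod]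
  refine Ideal.prod_mem _ (Finset.mem_univ a) ?_
  rw [map_pow]
  refine Ideal.pow_mem_pow ?_ _
  simpa using hI

lemma HexCount.exists_W (A : Subgroup kˣ) [Fintype A] (C₀ a b D : ℕ)
    (ha : Fintype.card A * C₀ ≤ a) (hb : Fintype.card A * C₀ ≤ b) (f : MvPolynomial (Fin 2) k) :
    ∃ w ∈ HexCount.W k a b D, ∀ (p : A × A), ∀ c ≤ C₀,
      (X 0 * X 1) ^ D * f - w ∈ HexCount.mI ((p.1 : kˣ) : k) ((p.2 : kˣ) : k) ^ c := by
  induction f using MvPolynomial.induction_on' with
  | monomial n r =>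
    obtain ⟨r₀, h₀⟩ := HexCount.reduce A C₀ a ha 0 (n 0)
    obtain ⟨r₁, h₁⟩ := HexCount.reduce A C₀ b hb 1 (n 1)
    refine ⟨r • ((X 0 * X 1) ^ D * ((∑ j ∈ Finset.range (a + 1), r₀ j • X 0 ^ j)
      * ∑ j ∈ Finset.range (b + 1), r₁ j • X 1 ^ j)), Submodule.smul_mem _ _ ?_, fun p c hc => ?_⟩
    · rw [Finset.sum_mul_sum, Finset.mul_sum]
      refine Submodule.sum_mem _ fun i hi => ?_
      rw [Finset.mul_sum]
      refine Submodule.sum_mem _ fun j hj => ?_
      rw [smul_mul_smul_comm, mul_smul_comm]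
      refine Submodule.smul_mem _ _ (Submodule.subset_span ⟨⟨(i + D, j + D), ?_⟩, ?_⟩)
      · rw [HexCount.mem_hexS]
        rw [Finset.mem_range] at hi hj
        omega
      · simp only [HexCount.monomial_ex]
        ring
    · have e0 := h₀ p.1 _ (HexCount.X_sub_mem ((p.1 : kˣ) : k) ((p.2 : kˣ) : k) 0) c hc
      have e1 := h₁ p.2 _ (HexCount.X_sub_mem ((p.1 : kˣ) : k) ((p.2 : kˣ) : k) 1) c hc
      have e2 : monomial n r = C r * (X 0 ^ n 0 * X 1 ^ n 1) := by
        have := HexCount.monomial_ex (k := k) (n 0, n 1)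
        rw [HexCount.ex_surj] at this
        rw [← this, C_mul_monomial, mul_one]
      rw [e2, smul_eq_C_mul]
      generalize (∑ j ∈ Finset.range (a + 1), r₀ j • (X 0 : MvPolynomial (Fin 2) k) ^ j) = u at *
      generalize (∑ j ∈ Finset.range (b + 1), r₁ j • (X 1 : MvPolynomial (Fin 2) k) ^ j) = v at *
      have : (X 0 * X 1) ^ D * (C r * (X 0 ^ n 0 * X 1 ^ n 1)) - C r * ((X 0 * X 1) ^ D * (u * v))
          = (C r * (X 0 * X 1) ^ D * X 1 ^ n 1) * (X 0 ^ n 0 - u)
            + (C r * (X 0 * X 1) ^ D * u) * (X 1 ^ n 1 - v) := by ring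
      rw [this]
      exact Ideal.add_mem _ (Ideal.mul_mem_left _ _ e0) (Ideal.mul_mem_left _ _ e1)
  | add f g hf hg =>
    obtain ⟨w, hw, h⟩ := hf
    obtain ⟨w', hw', h'⟩ := hg
    refine ⟨w + w', Submodule.add_mem _ hw hw', fun p c hc => ?_⟩
    have : (X 0 * X 1) ^ D * (f + g) - (w + w')
        = ((X 0 * X 1) ^ D * f - w) + ((X 0 * X 1) ^ D * g - w') := by ring
    rw [this]
    exact Ideal.add_mem _ (h p c hc) (h' p c hc)

omit [Fintype A] in
lemma HexCount.mI_coprime {p q : A × A} (h : p ≠ q) :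
    IsCoprime (HexCount.mI ((p.1 : kˣ) : k) ((p.2 : kˣ) : k))
      (HexCount.mI ((q.1 : kˣ) : k) ((q.2 : kˣ) : k)) := by
  by_cases h1 : p.1 = q.1
  · have h2 : p.2 ≠ q.2 := fun h2 => h (Prod.ext h1 h2)
    refine HexCount.coprime_of (HexCount.X_sub_mem _ _ 1) (HexCount.X_sub_mem _ _ 1)
      (r := ((q.2 : kˣ) : k) - ((p.2 : kˣ) : k)) ?_ (by simp)
    exact sub_ne_zero.2 fun e => h2 (Subtype.ext (Units.ext e.symm))
  · refine HexCount.coprime_of (HexCount.X_sub_mem _ _ 0) (HexCount.X_sub_mem _ _ 0)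
      (r := ((q.1 : kˣ) : k) - ((p.1 : kˣ) : k)) ?_ (by simp)
    exact sub_ne_zero.2 fun e => h1 (Subtype.ext (Units.ext e.symm))

lemma HexCount.finrank_inf (C₀ a b D : ℕ) (ha : Fintype.card A * C₀ ≤ a)
    (hb : Fintype.card A * C₀ ≤ b) (c : A × A → ℕ) (hc : ∀ p, c p ≤ C₀) :
    ∑ p, (HexCount.triS (c p)).card + finrank k (HexCount.W k a b D ⊓ LinearMap.ker
      (LinearMap.pi fun p : A × A => HexCount.tay ((p.1 : kˣ) : k) ((p.2 : kˣ) : k) (c p)) :
        Submodule k (MvPolynomial (Fin 2) k)) = (HexCount.hexS a b D).card := by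
  set Θ := LinearMap.pi fun p : A × A => HexCount.tay ((p.1 : kˣ) : k) ((p.2 : kˣ) : k) (c p)
    with hΘ
  have hsurj : LinearMap.range (Θ.domRestrict (HexCount.W k a b D)) = ⊤ := by
    rw [LinearMap.range_eq_top]
    intro x
    choose g hg using fun p : A × A =>
      HexCount.tay_surj ((p.1 : kˣ) : k) ((p.2 : kˣ) : k) (c p) (x p)
    choose v hv using fun p : A × A => HexCount.exists_inv
      (α := ((p.1 : kˣ) : k)) (β := ((p.2 : kˣ) : k)) (e := (X 0 * X 1) ^ D) (by simp) (c p)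
    obtain ⟨f, hf⟩ := Ideal.exists_forall_sub_mem_ideal
      (I := fun p : A × A => HexCount.mI ((p.1 : kˣ) : k) ((p.2 : kˣ) : k) ^ c p)
      (fun p q hpq => (HexCount.mI_coprime hpq).pow) (fun p => v p * g p)
    obtain ⟨w, hw, h⟩ := HexCount.exists_W A C₀ a b D ha hb f
    refine ⟨⟨w, hw⟩, funext fun p => ?_⟩
    change HexCount.tay _ _ _ w = x p
    rw [← hg, ← sub_eq_zero, ← map_sub, HexCount.tay_eq_zero]
    have : w - g p = (X 0 * X 1) ^ D * (f - v p * g p) - ((X 0 * X 1) ^ D * f - w)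
        - g p * (1 - v p * (X 0 * X 1) ^ D) := by ring
    rw [this]
    exact Ideal.sub_mem _ (Ideal.sub_mem _ (Ideal.mul_mem_left _ _ (hf p)) (h p _ (hc p)))
      (Ideal.mul_mem_left _ _ (hv p))
  have h1 := LinearMap.finrank_range_add_finrank_ker (Θ.domRestrict (HexCount.W k a b D))
  rw [hsurj, finrank_top, HexCount.finrank_W, Module.finrank_pi_fintype,
    LinearMap.ker_domRestrict, ← Submodule.finrank_map_subtype_eq,
    Submodule.map_comap_subtype] at h1
  rw [← h1]
  simp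

end Aux

theorem finrank_Hex {s t : K} (h : AlgebraicIndependent k ![s, t]) {d : Fin 3 → ℤ}
    (hd : ∀ j, 0 ≤ d j) : (finrank k (Hex k s t d) : ℤ) = hexpoly d := by
  obtain ⟨a, ha⟩ := Int.eq_ofNat_of_zero_le (hd 0)
  obtain ⟨b, hb⟩ := Int.eq_ofNat_of_zero_le (hd 1)
  obtain ⟨c, hc⟩ := Int.eq_ofNat_of_zero_le (hd 2)
  rw [HexCount.Hex_eq h ha hb hc,
    ← (Submodule.equivMapOfInjective _ (HexCount.Psi_inj h c) _).finrank_eq,
    HexCount.finrank_W, HexCount.card_hexS, hexpoly, ha, hb, hc]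
  push_cast
  ring

theorem finite_Hex (s t : K) (d : Fin 3 → ℤ) : Module.Finite k (Hex k s t d) := by
  refine Module.Finite.span_of_finite _ (Set.Finite.subset
    (((Set.finite_Icc (-d 2) (d 0)).prod (Set.finite_Icc (-d 2) (d 1))).image
      fun e : ℤ × ℤ => s ^ e.1 * t ^ e.2) ?_)
  rintro _ ⟨e, he, rfl⟩
  exact ⟨e, ⟨⟨he.1, he.2.1⟩, ⟨he.2.2.1, he.2.2.2.1⟩⟩, rfl⟩

theorem Hex_neg_one (s t : K) : Hex k s t (fun _ => -1) = ⊥ := by
  rw [Hex, Submodule.span_eq_bot]
  rintro _ ⟨e, he, rfl⟩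
  simp only [InHex] at he
  omega

theorem finrank_HexV {s t : K} (h : AlgebraicIndependent k ![s, t]) {d : Fin 3 → ℤ}
    {c : A × A → ℤ} {C : ℤ} (hc : ∀ p, 0 ≤ c p ∧ c p ≤ C)
    (h0 : Fintype.card A * C ≤ d 0) (h1 : Fintype.card A * C ≤ d 1) (h2 : 0 ≤ d 2) :
    (finrank k (HexV A s t d c) : ℤ) = hexpoly d - ∑ p, tri (c p) := by
  obtain ⟨C₀, rfl⟩ := Int.eq_ofNat_of_zero_le ((hc 1).1.trans (hc 1).2)
  obtain ⟨a, ha⟩ := Int.eq_ofNat_of_zero_le (le_trans (by positivity) h0)
  obtain ⟨b, hb⟩ := Int.eq_ofNat_of_zero_le (le_trans (by positivity) h1)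
  obtain ⟨D, hD⟩ := Int.eq_ofNat_of_zero_le h2
  rw [ha] at h0
  rw [hb] at h1
  have key := HexCount.finrank_inf (A := A) C₀ a b D (by exact_mod_cast h0) (by exact_mod_cast h1)
    (fun p => (c p).toNat) (fun p => by have := hc p; omega)
  have e : HexV A s t d c = (HexCount.W k a b D ⊓ LinearMap.ker
      (LinearMap.pi fun p : A × A =>
        HexCount.tay ((p.1 : kˣ) : k) ((p.2 : kˣ) : k) (c p).toNat)).map (HexCount.Psi s t D) := by
    rw [HexV, HexCount.Hex_eq h ha hb hD]
    ext z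
    constructor
    · rintro ⟨⟨f, hf, rfl⟩, hz⟩
      refine ⟨f, ⟨hf, funext fun p => ?_⟩, rfl⟩
      exact (HexCount.tay_eq_zero _ _ _ _).2 ((HexCount.mem_Van h (Units.ne_zero _)
        (Units.ne_zero _) D _ f).1 ((Submodule.mem_iInf _).1 hz p))
    · rintro ⟨f, ⟨hf, hz⟩, rfl⟩
      refine ⟨⟨f, hf, rfl⟩, (Submodule.mem_iInf _).2 fun p => ?_⟩
      exact (HexCount.mem_Van h (Units.ne_zero _) (Units.ne_zero _) D _ f).2
        ((HexCount.tay_eq_zero _ _ _ _).1 (congrFun hz p))
  rw [e, ← (Submodule.equivMapOfInjective _ (HexCount.Psi_inj h D) _).finrank_eq]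
  rw [HexCount.card_hexS] at key
  have htri : ∀ p, tri (c p) = ((HexCount.triS (c p).toNat).card : ℤ) := by
    intro p
    have h3 := congrArg (Nat.cast : ℕ → ℤ) (HexCount.card_triS (c p).toNat)
    push_cast at h3
    rw [Int.toNat_of_nonneg (hc p).1] at h3
    rw [tri, ← h3]
    omega
  simp only [htri]
  rw [hexpoly, ha, hb, hD, eq_sub_iff_add_eq, add_comm]
  exact_mod_cast key

end Vale.Agent.P190
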