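import Vale.Agent.P190.Vals

/-! Extracting `m`-th roots in the spaces of Laurent polynomials. -/

open Module

noncomputable section

namespace Vale.Agent.P190

variable {k : Type} [Field k] {A : Subgroup kˣ} [Fintype A] {K : Type} [Field K] [Algebra k K]

lemma HexVal.s3_ne {s t : K} (h : Coord k ![s, t]) (j : Fin 3) (c : k) :
    s3 s t j - algebraMap k K c ≠ 0 := by
  have key : ∀ p : MvPolynomial (Fin 2) k, MvPolynomial.aeval ![s, t] p = 0 →
      ∀ x : Fin 2 → k, MvPolynomial.eval x p = 0 := fun p hp x => by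
    rw [h.indep.eq_zero_of_aeval_eq_zero p hp, map_zero]
  intro h0
  fin_cases j
  · have := key (MvPolynomial.X 0 - MvPolynomial.C c) (by simpa [s3] using h0) ![c + 1, 0]
    simp at this
  · have := key (MvPolynomial.X 1 - MvPolynomial.C c) (by simpa [s3] using h0) ![0, c + 1]
    simp at this
  · have h1 : (s * t)⁻¹ = algebraMap k K c := by simpa [s3, sub_eq_zero] using h0
    by_cases h2 : s * t = 0
    · have := key (MvPolynomial.X 0 * MvPolynomial.X 1) (by simpa using h2) ![1, 1]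
      simp at this
    · have := key (1 - MvPolynomial.C c * (MvPolynomial.X 0 * MvPolynomial.X 1))
        (by
          simp only [map_sub, map_one, map_mul, MvPolynomial.aeval_C, MvPolynomial.aeval_X, ← h1,
            Matrix.cons_val_zero, Matrix.cons_val_one, inv_mul_cancel₀ h2, sub_self]) ![0, 0]
      simp at this

theorem pow_mem_HexV_iff {s t : K} (h : Coord k ![s, t]) {m : ℕ} (hm : 0 < m) {a : Fin 3 → ℤ}
    (b : ℤ) {α : Fin 3 × A → Fin m} (hα : α ∈ adm A m a) (z : K) :
    z ^ m * ∏ ja : Fin 3 × A,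
        (s3 s t ja.1 - algebraMap k K ((ja.2 : kˣ) : k)) ^ (α ja : ℕ) ∈ HexV A s t a (fun _ => b) ↔
      z ∈ HexV A s t (dOf a α) (cOf b α) := by
  classical
  have hm' : (0 : ℤ) < m := by exact_mod_cast hm
  by_cases hz : z = 0
  · subst hz
    simp [hm.ne']
  obtain ⟨𝒲, hN, -, hW⟩ := exists_vals A h
  have hne : ∀ ja : Fin 3 × A, s3 s t ja.1 - algebraMap k K ((ja.2 : kˣ) : k) ≠ 0 :=
    fun ja => HexVal.s3_ne h _ _
  have hp : ∏ ja : Fin 3 × A,
      (s3 s t ja.1 - algebraMap k K ((ja.2 : kˣ) : k)) ^ (α ja : ℕ) ≠ 0 :=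
    Finset.prod_ne_zero_iff.2 fun ja _ => pow_ne_zero _ (hne ja)
  rw [hW _ _ _ (mul_ne_zero (pow_ne_zero _ hz) hp), hW _ _ _ hz]
  refine forall₂_congr fun w hw => ?_
  rw [w.mul _ _ (pow_ne_zero _ hz) hp, w.v_pow hz, w.v_prod _ fun ja _ => pow_ne_zero _ (hne ja)]
  simp only [w.v_pow (hne _)]
  rw [Fintype.sum_prod_type]
  simp only [ZVal.bound]
  have he : ∀ p : A × A, w.e s t p = max 0 (min (w.v (s3 s t 0 - algebraMap k K ((p.1 : kˣ) : k)))
      (w.v (s3 s t 1 - algebraMap k K ((p.2 : kˣ) : k)))) := fun p => rfl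
  rcases (hN w hw).cases with ⟨p, h1, h2, -⟩ | ⟨-, h1 | ⟨j₀, a₀, h1, h2⟩⟩
  · have h3 : ∀ q : A × A, w.e s t q = if q = p then 1 else 0 := fun q => by
      rw [he, h2, h2]
      simp only [tp, Matrix.cons_val_zero, Matrix.cons_val_one, Prod.ext_iff]
      by_cases e1 : q.1 = p.1 <;> by_cases e2 : q.2 = p.2 <;> simp [e1, e2]
    simp only [h1, h2, h3, min_self, mul_zero, Finset.sum_const_zero, zero_add, mul_ite, mul_one,
      Finset.sum_ite_eq', Finset.mem_univ, if_true, cOf]
    rw [neg_le, Int.le_ediv_iff_mul_le hm']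
    constructor <;> intro h <;> linarith
  · have h3 : ∀ q : A × A, w.e s t q = 0 := fun q => by
      rw [he, h1, h1]
      exact max_eq_left ((min_le_left _ _).trans (min_le_left _ _))
    have h4 : ∀ j, a j = m * dOf a α j + ∑ x, ((α (j, x) : ℕ) : ℤ) := fun j => by
      have h5 : (m : ℤ) ∣ a j - bdeg α j := by
        have := (Finset.mem_filter.1 hα).2
        exact this j
      rw [dOf, Int.mul_ediv_cancel' h5, bdeg]; ring
    simp only [h1, h3, mul_zero, Finset.sum_const_zero, add_zero, ← Finset.sum_mul]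
    have h5 : ∑ j, a j * min 0 (w.v (s3 s t j)) = m * ∑ j, dOf a α j * min 0 (w.v (s3 s t j))
        + ∑ j, (∑ x, ((α (j, x) : ℕ) : ℤ)) * min 0 (w.v (s3 s t j)) := by
      rw [Finset.mul_sum, ← Finset.sum_add_distrib]
      exact Finset.sum_congr rfl fun j _ => by rw [h4 j]; ring
    rw [h5, add_le_add_iff_right, mul_le_mul_iff_right₀ hm']
  · have h3 : ∀ q : A × A, w.e s t q = 0 := fun q => by
      rw [he, h2, h2]
      by_cases e : (0 : Fin 3) = j₀
      · subst e; simp
      · simp [e]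
    have h4 : ∑ j, ∑ x, ((α (j, x) : ℕ) : ℤ) * (if j = j₀ ∧ x = a₀ then 1 else 0)
        = (α (j₀, a₀) : ℕ) := by
      simp [ite_and]
    simp only [h1, h2, h3, h4, min_self, mul_zero, Finset.sum_const_zero, add_zero]
    have h5 : ((α (j₀, a₀) : ℕ) : ℤ) < m := by exact_mod_cast (α (j₀, a₀)).2
    have h6 : (0 : ℤ) ≤ (α (j₀, a₀) : ℕ) := Int.natCast_nonneg _
    constructor <;> intro h
    · by_contra h7
      nlinarith
    · positivity

end Vale.Agent.P190
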