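import Vale.Agent.P190.Vals

/-! The monomial basis of the Kummer extension. -/

open Module

noncomputable section

namespace Vale.Agent.P190

section Aux

variable {k : Type} [Field k] [IsAlgClosed k] {KX K Ω : Type} [Field KX] [Field K] [Field Ω]
  [Algebra k KX] [Algebra KX K] [Algebra KX Ω] [Algebra K Ω] [IsScalarTower KX K Ω]

lemma Kummer.root_mem {m : ℕ} (hm : 0 < m) {x : Ω} (hx : x ^ m = 1) :
    ∃ ζ : k, algebraMap KX Ω (algebraMap k KX ζ) = x := by
  let _ : Algebra k Ω := ((algebraMap KX Ω).comp (algebraMap k KX)).toAlgebra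
  have hi : IsIntegral k x := IsIntegral.of_pow hm (by rw [hx]; exact isIntegral_one)
  have hd : (minpoly k x).degree = 1 :=
    IsAlgClosed.degree_eq_one_of_irreducible k (minpoly.irreducible hi)
  obtain ⟨ζ, hζ⟩ := minpoly.mem_range_of_degree_eq_one k x hd
  exact ⟨ζ, hζ⟩

lemma Kummer.embedding_eq (k : Type) [Field k] [IsAlgClosed k] [Algebra k KX] {m : ℕ}
    (hm : 0 < m) {z : K} (hz : z ≠ 0) {c : KX}
    (hc : z ^ m = algebraMap KX K c) (σ : K →ₐ[KX] Ω) :
    ∃ ζ : k, ζ ≠ 0 ∧ σ z = algebraMap KX Ω (algebraMap k KX ζ) * algebraMap K Ω z := by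
  have h0 : algebraMap K Ω z ≠ 0 := (map_ne_zero _).2 hz
  have h1 : (σ z / algebraMap K Ω z) ^ m = 1 := by
    rw [div_pow, ← map_pow, ← map_pow, hc, AlgHom.commutes, ← IsScalarTower.algebraMap_apply,
      div_self]
    rw [IsScalarTower.algebraMap_apply KX K Ω, ← hc]
    exact (map_ne_zero _).2 (pow_ne_zero _ hz)
  obtain ⟨ζ, hζ⟩ := Kummer.root_mem (k := k) (KX := KX) hm h1
  refine ⟨ζ, ?_, by rw [hζ]; field_simp⟩
  rintro rfl
  rw [← hζ] at h1
  simp [hm.ne'] at h1

end Aux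

lemma Kummer.trace_eq_zero (k : Type) [Field k] [IsAlgClosed k] [CharZero k] {KX K : Type}
    [Field KX] [Field K] [Algebra k KX] [Algebra KX K] [FiniteDimensional KX K] {m : ℕ}
    (hm : 0 < m) {z : K} (hz : z ≠ 0) {c : KX} (hc : z ^ m = algebraMap KX K c)
    (hn : ∀ w : KX, algebraMap KX K w ≠ z) : Algebra.trace KX K z = 0 := by
  have : CharZero KX := charZero_of_injective_algebraMap (algebraMap k KX).injective
  have h1 := trace_eq_sum_embeddings (K := KX) (L := K) (AlgebraicClosure K) (x := z)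
  choose ζ _ hζ using fun σ : K →ₐ[KX] AlgebraicClosure K => Kummer.embedding_eq k hm hz hc σ
  simp only [hζ] at h1
  rw [← Finset.sum_mul, ← map_sum, ← map_sum] at h1
  by_contra ht
  set t := algebraMap k KX (∑ σ, ζ σ) with htdef
  have h2 : algebraMap KX K (Algebra.trace KX K z) = algebraMap KX K t * z := by
    apply (algebraMap K (AlgebraicClosure K)).injective
    rw [map_mul, ← IsScalarTower.algebraMap_apply, ← IsScalarTower.algebraMap_apply, h1]
  have ht0 : t ≠ 0 := by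
    intro h
    rw [h, map_zero, zero_mul, map_eq_zero] at h2
    exact ht h2
  apply hn (Algebra.trace KX K z / t)
  rw [map_div₀, h2]
  have : algebraMap KX K t ≠ 0 := (map_ne_zero _).2 ht0
  field_simp

variable {k : Type} [Field k] [IsAlgClosed k] [CharZero k] {A : Subgroup kˣ} [Fintype A] {m : ℕ}
  {KX K : Type} [Field KX] [Field K] [Algebra k KX] [Algebra k K] [Algebra KX K]
  [IsScalarTower k KX K] {gX : Geo k KX A 1} {g : Geo k K A m}

omit [IsAlgClosed k] [CharZero k] in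
lemma Kummer.mon_pow (h : Tow gX g) (α : Fin 3 × A → Fin m) :
    g.mon α ^ m = algebraMap KX K (∏ ja : Fin 3 × A, gX.y ja.1 ja.2 ^ (α ja : ℕ)) := by
  rw [Geo.mon, map_prod, ← Finset.prod_pow]
  refine Finset.prod_congr rfl fun ja _ => ?_
  rw [map_pow, h.y_eq, ← pow_mul, ← pow_mul, mul_comm]

omit [IsAlgClosed k] [CharZero k] in
lemma Kummer.mem_adm {a : Fin 3 → ℤ} {α : Fin 3 × A → Fin m} :
    α ∈ adm A m a ↔ ∀ j, (m : ℤ) ∣ a j - bdeg α j := by
  classical
  simp [adm]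

omit [IsAlgClosed k] [CharZero k] in
lemma Kummer.exists_ne_one {a : Fin 3 → ℤ} {α β : Fin 3 × A → Fin m}
    (hα : α ∈ adm A m a) (hβ : β ∈ adm A m a) (hne : α ≠ β) :
    ∃ (j : Fin 3) (b : A), b ≠ 1 ∧ α (j, b) ≠ β (j, b) := by
  classical
  by_contra hcon
  push Not at hcon
  apply hne
  funext ⟨j, b⟩
  by_cases hb : b = 1
  swap
  · exact hcon j b hb
  subst hb
  have h1 := Kummer.mem_adm.1 hα j
  have h2 := Kummer.mem_adm.1 hβ j
  have h3 : (m : ℤ) ∣ bdeg β j - bdeg α j := by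
    have h0 := dvd_sub h1 h2
    have e0 : a j - bdeg α j - (a j - bdeg β j) = bdeg β j - bdeg α j := by ring
    rwa [e0] at h0
  have h4 : bdeg β j - bdeg α j = ((β (j, 1) : ℕ) : ℤ) - ((α (j, 1) : ℕ) : ℤ) := by
    unfold bdeg
    rw [← Finset.sum_sub_distrib, Finset.sum_eq_single (1 : A)]
    · intro b _ hb
      rw [hcon j b hb, sub_self]
    · intro hh
      exact absurd (Finset.mem_univ _) hh
  rw [h4] at h3
  have h5 := (α (j, 1)).2
  have h6 := (β (j, 1)).2
  have h7 := Int.eq_zero_of_abs_lt_dvd h3 (by rw [abs_lt]; constructor <;> omega)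
  apply Fin.ext
  omega

theorem Tow.trace_mon_div (h : Tow gX g) {a : Fin 3 → ℤ} {α β : Fin 3 × A → Fin m}
    (hα : α ∈ adm A m a) (hβ : β ∈ adm A m a) (hne : α ≠ β) :
    Algebra.trace KX K (g.mon α / g.mon β) = 0 := by
  classical
  have := h.finiteDimensional
  have hm := h.m_pos
  have hz : g.mon α / g.mon β ≠ 0 := div_ne_zero (g.mon_ne_zero hm α) (g.mon_ne_zero hm β)
  have hc : (g.mon α / g.mon β) ^ m = algebraMap KX K
      ((∏ ja : Fin 3 × A, gX.y ja.1 ja.2 ^ (α ja : ℕ)) /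
        (∏ ja : Fin 3 × A, gX.y ja.1 ja.2 ^ (β ja : ℕ))) := by
    rw [div_pow, Kummer.mon_pow h, Kummer.mon_pow h, map_div₀]
  refine Kummer.trace_eq_zero k hm hz hc fun w hw => ?_
  obtain ⟨j₀, a₀, ha₀, hab⟩ := Kummer.exists_ne_one hα hβ hne
  obtain ⟨𝒲, -, hW, -⟩ := exists_vals A gX.coord_s
  obtain ⟨v, -, hv⟩ := hW j₀ a₀
  have hw0 : w ≠ 0 := by
    rintro rfl
    rw [map_zero] at hw
    exact hz hw.symm
  have hy0 : ∀ j b, gX.y j b ≠ 0 := gX.y_ne_zero one_pos
  have hvy : ∀ (j : Fin 3) (b : A), v.v (gX.y j b) = if (j, b) = (j₀, a₀) then 1 else 0 := by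
    intro j b
    have e1 := gX.y_pow_eq j b
    rw [pow_one] at e1
    have n1 : gX.s j - algebraMap k KX ((b : kˣ) : k) ≠ 0 := sub_ne_zero.2 (gX.s_ne j _)
    have n2 : gX.s j - 1 ≠ 0 := by
      have := sub_ne_zero.2 (gX.s_ne j 1)
      rwa [map_one] at this
    have e2 := hv j b
    have e3 := hv j 1
    rw [← gX.s_eq_s3] at e2 e3
    rw [if_neg (fun hh => ha₀ hh.2.symm)] at e3
    simp only [OneMemClass.coe_one, Units.val_one, map_one] at e3
    rw [e1, v.mul _ _ n1 (gX.σ_ne_zero j), Geo.σ, v.v_inv n2, e2, e3]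
    simp [Prod.ext_iff]
  have hvp : ∀ γ : Fin 3 × A → Fin m,
      v.v (∏ ja : Fin 3 × A, gX.y ja.1 ja.2 ^ (γ ja : ℕ)) = ((γ (j₀, a₀) : ℕ) : ℤ) := by
    intro γ
    rw [v.v_prod _ (fun ja _ => pow_ne_zero _ (hy0 _ _)), Finset.sum_eq_single (j₀, a₀)]
    · rw [v.v_pow (hy0 _ _), hvy, if_pos rfl, mul_one]
    · intro ja _ hja
      rw [v.v_pow (hy0 _ _), hvy, if_neg hja, mul_zero]
    · intro hh
      exact absurd (Finset.mem_univ _) hh
  have hp0 : ∀ γ : Fin 3 × A → Fin m,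
      (∏ ja : Fin 3 × A, gX.y ja.1 ja.2 ^ (γ ja : ℕ)) ≠ 0 := fun γ =>
    Finset.prod_ne_zero_iff.2 fun ja _ => pow_ne_zero _ (hy0 _ _)
  have hwm : w ^ m * (∏ ja : Fin 3 × A, gX.y ja.1 ja.2 ^ (β ja : ℕ)) =
      ∏ ja : Fin 3 × A, gX.y ja.1 ja.2 ^ (α ja : ℕ) := by
    rw [← hw, ← map_pow] at hc
    rw [(algebraMap KX K).injective hc, div_mul_cancel₀ _ (hp0 β)]
  have hval := congrArg v.v hwm
  rw [v.mul _ _ (pow_ne_zero _ hw0) (hp0 β), v.v_pow hw0, hvp, hvp] at hval
  have h3 : (m : ℤ) ∣ ((α (j₀, a₀) : ℕ) : ℤ) - ((β (j₀, a₀) : ℕ) : ℤ) := ⟨v.v w, by linarith⟩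
  have h5 := (α (j₀, a₀)).2
  have h6 := (β (j₀, a₀)).2
  have h7 := Int.eq_zero_of_abs_lt_dvd h3 (by rw [abs_lt]; constructor <;> omega)
  apply hab
  apply Fin.ext
  omega

lemma Kummer.trace_sum (h : Tow gX g) {a : Fin 3 → ℤ} (c : adm A m a → KX) (β : adm A m a) :
    Algebra.trace KX K ((∑ α, c α • g.mon α.1) / g.mon β.1) = finrank KX K * c β := by
  classical
  have := h.finiteDimensional
  rw [Finset.sum_div, map_sum, Finset.sum_eq_single β]
  · rw [smul_div_assoc, div_self (g.mon_ne_zero h.m_pos _), map_smul, ← map_one (algebraMap KX K),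
      Algebra.trace_algebraMap]
    simp [mul_comm]
  · intro α _ hα
    rw [smul_div_assoc, map_smul, h.trace_mon_div α.2 β.2 (fun hh => hα (Subtype.ext hh)),
      smul_zero]
  · intro hh
    exact absurd (Finset.mem_univ _) hh

omit [IsAlgClosed k] [CharZero k] in
lemma Kummer.monomial_mem (h : Tow gX g) (a : Fin 3 → ℤ) (e : Fin 3 × A → ℕ) :
    (∏ ja : Fin 3 × A, g.y ja.1 ja.2 ^ e ja) ∈
      Submodule.span KX (Set.range fun α : adm A m a => g.mon α.1) := by
  classical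
  have hm := h.m_pos
  have hmz : (0 : ℤ) < m := by exact_mod_cast hm
  let r : Fin 3 → ℤ := fun j => a j - ∑ b ∈ Finset.univ.erase (1 : A), ((e (j, b) % m : ℕ) : ℤ)
  let α : Fin 3 × A → Fin m := fun ja =>
    if ja.2 = 1 then ⟨(r ja.1 % m).toNat, by
      have h1 := Int.emod_nonneg (r ja.1) hmz.ne'
      have h2 := Int.emod_lt_of_pos (r ja.1) hmz
      omega⟩
    else ⟨e ja % m, Nat.mod_lt _ hm⟩
  have hα : α ∈ adm A m a := by
    rw [Kummer.mem_adm]
    intro j
    unfold bdeg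
    rw [← Finset.add_sum_erase _ _ (Finset.mem_univ (1 : A))]
    have h1 : ((α (j, 1) : ℕ) : ℤ) = r j % m := by
      simp only [α, if_true]
      exact Int.toNat_of_nonneg (Int.emod_nonneg _ hmz.ne')
    have h2 : ∑ b ∈ Finset.univ.erase (1 : A), ((α (j, b) : ℕ) : ℤ)
        = ∑ b ∈ Finset.univ.erase (1 : A), ((e (j, b) % m : ℕ) : ℤ) := by
      refine Finset.sum_congr rfl fun b hb => ?_
      simp only [α, if_neg (Finset.ne_of_mem_erase hb)]
    rw [h1, h2]
    have h3 : a j - (r j % m + ∑ b ∈ Finset.univ.erase (1 : A), ((e (j, b) % m : ℕ) : ℤ))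
        = r j - r j % m := by simp only [r]; ring
    rw [h3]
    exact Int.dvd_self_sub_emod
  have key : (∏ ja : Fin 3 × A, g.y ja.1 ja.2 ^ e ja)
      = (∏ ja : Fin 3 × A, gX.y ja.1 ja.2 ^ (e ja / m)) • g.mon α := by
    rw [Algebra.smul_def, map_prod, Geo.mon, ← Finset.prod_mul_distrib]
    refine Finset.prod_congr rfl fun ja _ => ?_
    by_cases h1 : ja.2 = 1
    · rw [h1, g.y_one, gX.y_one]
      simp
    · rw [map_pow, h.y_eq, ← pow_mul, ← pow_add]
      simp only [α, if_neg h1]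
      rw [Nat.div_add_mod]
  rw [key]
  exact Submodule.smul_mem _ _ (Submodule.subset_span ⟨⟨α, hα⟩, rfl⟩)

theorem Tow.exists_basis (h : Tow gX g) (a : Fin 3 → ℤ) :
    ∃ e : Basis (adm A m a) KX K, ∀ α, e α = g.mon α.1 := by
  classical
  have := h.finiteDimensional
  have : CharZero KX := charZero_of_injective_algebraMap (algebraMap k KX).injective
  have hli : LinearIndependent KX (fun α : adm A m a => g.mon α.1) := by
    rw [Fintype.linearIndependent_iff]
    intro c hc β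
    have h1 := Kummer.trace_sum h c β
    rw [hc, zero_div, map_zero] at h1
    have h2 : (finrank KX K : KX) ≠ 0 := Nat.cast_ne_zero.2 finrank_pos.ne'
    exact (mul_eq_zero.1 h1.symm).resolve_left h2
  have hsp : ⊤ ≤ Submodule.span KX (Set.range fun α : adm A m a => g.mon α.1) := by
    have h1 := Algebra.adjoin_eq_span (R := KX)
      (s := Set.range fun ja : Fin 3 × A => g.y ja.1 ja.2)
    rw [h.adjoin_eq_top, Algebra.top_toSubmodule] at h1
    rw [h1, Submodule.span_le]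
    intro x hx
    have h2 : ∃ e : Fin 3 × A → ℕ, x = ∏ ja : Fin 3 × A, g.y ja.1 ja.2 ^ e ja := by
      induction hx using Submonoid.closure_induction with
      | mem x hx =>
        obtain ⟨jb, rfl⟩ := hx
        refine ⟨Pi.single jb 1, ?_⟩
        rw [Finset.prod_eq_single jb]
        · simp
        · intro ja _ hja
          simp [Pi.single_eq_of_ne hja]
        · intro hh
          exact absurd (Finset.mem_univ _) hh
      | one => exact ⟨0, by simp⟩
      | mul x y _ _ hx hy =>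
        obtain ⟨e, rfl⟩ := hx
        obtain ⟨e', rfl⟩ := hy
        exact ⟨e + e', by simp [pow_add, Finset.prod_mul_distrib]⟩
    obtain ⟨e, rfl⟩ := h2
    exact Kummer.monomial_mem h a e
  exact ⟨Basis.mk hli hsp, fun α => by simp⟩

theorem Tow.card_adm (h : Tow gX g) (a : Fin 3 → ℤ) : (adm A m a).card = finrank KX K := by
  obtain ⟨e, -⟩ := h.exists_basis a
  rw [finrank_eq_card_basis e, Fintype.card_coe]

lemma Tow.mon_pow (h : Tow gX g) (α : Fin 3 × A → Fin m) :
    g.mon α ^ m = algebraMap KX K (∏ ja : Fin 3 × A, gX.y ja.1 ja.2 ^ (α ja : ℕ)) :=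
  Kummer.mon_pow h α

lemma Kummer.integral_aux (k : Type) [Field k] [IsAlgClosed k] [CharZero k] {KX K : Type}
    (Ω : Type) [Field KX] [Field K] [Field Ω] [Algebra k KX] [Algebra KX K] [Algebra KX Ω]
    [Algebra K Ω] [IsScalarTower KX K Ω] [IsAlgClosed Ω] [FiniteDimensional KX K] {m : ℕ}
    (hm : 0 < m) {μ : K} (hμ : μ ≠ 0) {c : KX} (hc : μ ^ m = algebraMap KX K c)
    (R : Subring KX) (hk : ∀ c : k, algebraMap k KX c ∈ R)
    {γ : KX} (hγ : γ ≠ 0) {z : K} (hz : IsIntegral R (z ^ m / algebraMap KX K γ)) {t : KX}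
    (ht : Algebra.trace KX K (z / μ) = finrank KX K * t) :
    IsIntegral R ((t • μ) ^ m / algebraMap KX K γ) := by
  have : CharZero KX := charZero_of_injective_algebraMap (algebraMap k KX).injective
  obtain ⟨ρ, hρ⟩ := IsAlgClosed.exists_pow_nat_eq (algebraMap KX Ω γ) hm
  have hγ' : algebraMap KX Ω γ ≠ 0 := (map_ne_zero _).2 hγ
  have hρ0 : ρ ≠ 0 := by
    rintro rfl
    rw [zero_pow hm.ne'] at hρ
    exact hγ' hρ.symm
  have hconst : ∀ ζ : k, IsIntegral R (algebraMap KX Ω (algebraMap k KX ζ)) := fun ζ =>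
    isIntegral_algebraMap (R := R) (A := Ω) (x := ⟨algebraMap k KX ζ, hk ζ⟩)
  have hσ : ∀ σ : K →ₐ[KX] Ω, IsIntegral R (σ z / ρ) := by
    intro σ
    refine IsIntegral.of_pow hm ?_
    have h1 := hz.map σ
    rw [map_div₀, map_pow, AlgHom.commutes] at h1
    rwa [div_pow, hρ]
  have h1 := trace_eq_sum_embeddings (K := KX) (L := K) Ω (x := z / μ)
  choose ζ hζ0 hζ using fun σ : K →ₐ[KX] Ω => Kummer.embedding_eq k hm hμ hc σ
  have hμ' : algebraMap K Ω μ ≠ 0 := (map_ne_zero _).2 hμ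
  have hN : (finrank KX K : k) ≠ 0 := Nat.cast_ne_zero.2 finrank_pos.ne'
  have hN' : (finrank KX K : Ω) ≠ 0 := by
    rw [← map_natCast (algebraMap KX Ω), ← map_natCast (algebraMap k KX)]
    exact (map_ne_zero _).2 ((map_ne_zero _).2 hN)
  have h2 : algebraMap K Ω (t • μ) / ρ = ∑ σ : K →ₐ[KX] Ω,
      algebraMap KX Ω (algebraMap k KX ((finrank KX K : k) * ζ σ)⁻¹) * (σ z / ρ) := by
    rw [ht, map_mul, map_natCast] at h1
    have h3 : algebraMap KX Ω t = (∑ σ : K →ₐ[KX] Ω, σ (z / μ)) / (finrank KX K : Ω) := by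
      rw [← h1]; field_simp
    rw [Algebra.smul_def, map_mul, ← IsScalarTower.algebraMap_apply, h3, Finset.sum_div,
      Finset.sum_mul, Finset.sum_div]
    refine Finset.sum_congr rfl fun σ _ => ?_
    have h4 : algebraMap KX Ω (algebraMap k KX (ζ σ)) ≠ 0 :=
      (map_ne_zero _).2 ((map_ne_zero _).2 (hζ0 σ))
    rw [map_div₀, hζ σ, map_inv₀, map_inv₀, map_mul, map_mul, map_natCast, map_natCast]
    field_simp
  have h5 : IsIntegral R (algebraMap K Ω (t • μ) / ρ) := by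
    rw [h2]
    exact IsIntegral.sum _ fun σ _ => (hconst _).mul (hσ σ)
  have h6 := h5.pow m
  rw [div_pow, hρ, ← map_pow, IsScalarTower.algebraMap_apply KX K Ω, ← map_div₀] at h6
  exact (isIntegral_algHom_iff ((IsScalarTower.toAlgHom KX K Ω).restrictScalars R)
    (algebraMap K Ω).injective).1 h6

/-- the components of an element satisfy the same integrality conditions -/
theorem Tow.isIntegral_component (h : Tow gX g) {a : Fin 3 → ℤ} (e : Basis (adm A m a) KX K)
    (he : ∀ α, e α = g.mon α.1) (R : Subring KX) (hk : ∀ c : k, algebraMap k KX c ∈ R)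
    {γ : KX} (hγ : γ ≠ 0) {z : K} (hz : IsIntegral R (z ^ m / algebraMap KX K γ))
    (α : adm A m a) : IsIntegral R ((e.repr z α • g.mon α.1) ^ m / algebraMap KX K γ) := by
  have := h.finiteDimensional
  refine Kummer.integral_aux k (AlgebraicClosure K) h.m_pos (g.mon_ne_zero h.m_pos α.1)
    (Kummer.mon_pow h α.1) R hk hγ hz ?_
  have h1 := Kummer.trace_sum h (fun β => e.repr z β) α
  have h2 : (∑ β, e.repr z β • g.mon β.1) = z := by
    conv_rhs => rw [← e.sum_repr z]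
    simp only [he]
  rwa [h2] at h1

end Vale.Agent.P190
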