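import Vale.Agent.P190.Defs

/-! Pure combinatorics of the Euler characteristic formula. -/

noncomputable section

namespace Vale.Agent.P190

variable {k : Type} [Field k] (A : Subgroup kˣ) [Fintype A]

/-- the Euler characteristic of `mu a b` on the Kummer cover of exponent `m` -/
def chiF (m : ℕ) (a : Fin 3 → ℤ) (b : ℤ) : ℤ :=
  ∑ α ∈ adm A m a, (hexpoly (dOf a α) - ∑ p, tri (cOf b α p))

/-- the intersection form on the rational surface -/
def form (n : ℕ) (a : Fin 3 → ℤ) (b : ℤ) (a' : Fin 3 → ℤ) (b' : ℤ) : ℤ :=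
  a 0 * a' 1 + a 0 * a' 2 + a 1 * a' 0 + a 1 * a' 2 + a 2 * a' 0 + a 2 * a' 1 - n ^ 2 * (b * b')

variable {A}

lemma mem_adm {m : ℕ} {a : Fin 3 → ℤ} {α : Fin 3 × A → Fin m} :
    α ∈ adm A m a ↔ ∀ j, (m : ℤ) ∣ a j - bdeg α j := by
  simp [adm]

lemma adm_add {m : ℕ} (a e : Fin 3 → ℤ) : adm A m (fun j => a j + m * e j) = adm A m a := by
  ext α
  simp only [mem_adm]
  refine forall_congr' fun j => ?_
  rw [show a j + m * e j - bdeg α j = a j - bdeg α j + m * e j by ring]
  exact dvd_add_left (dvd_mul_right _ _)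

lemma dOf_add {m : ℕ} (hm : 0 < m) (a e : Fin 3 → ℤ) (α : Fin 3 × A → Fin m) :
    dOf (fun j => a j + m * e j) α = fun j => dOf a α j + e j := by
  ext j
  simp only [dOf]
  rw [show a j + m * e j - bdeg α j = a j - bdeg α j + m * e j by ring,
    Int.add_mul_ediv_left _ _ (by exact_mod_cast hm.ne')]

lemma cOf_add {m : ℕ} (hm : 0 < m) (b e : ℤ) (α : Fin 3 × A → Fin m) :
    cOf (b + m * e) α = fun p => cOf b α p + e := by
  ext p
  simp only [cOf]
  rw [show ∑ j, ((α (j, tp p j) : ℕ) : ℤ) - (b + m * e)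
    = ∑ j, ((α (j, tp p j) : ℕ) : ℤ) - b + m * (-e) by ring,
    Int.add_mul_ediv_left _ _ (by exact_mod_cast hm.ne')]
  ring

lemma two_mul_tri (c : ℤ) : 2 * tri c = c * (c + 1) := by
  exact Int.mul_ediv_cancel' (Int.even_mul_succ_self c).two_dvd

lemma chiF_one (a : Fin 3 → ℤ) (b : ℤ) :
    chiF A 1 a b = hexpoly a - (Fintype.card A : ℤ) ^ 2 * tri b := by
  classical
  have h0 : ∀ (α : Fin 3 × A → Fin 1) x, ((α x : ℕ) : ℤ) = 0 := fun α x => by simp
  have h1 : adm A 1 a = Finset.univ := Finset.eq_univ_of_forall fun α => mem_adm.2 fun j => by simp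
  have h2 : ∀ α : Fin 3 × A → Fin 1, hexpoly (dOf a α) - ∑ p, tri (cOf b α p)
      = hexpoly a - (Fintype.card A : ℤ) ^ 2 * tri b := by
    intro α
    have h3 : dOf a α = a := by ext j; simp [dOf, bdeg]
    have h4 : ∀ p, cOf b α p = b := fun p => by simp [cOf]
    simp [h3, h4, sq]
  rw [chiF, h1, Finset.sum_congr rfl fun α _ => h2 α]
  simp

lemma chiF_one_add (a a' : Fin 3 → ℤ) (b b' : ℤ) :
    chiF A 1 (a + a') (b + b') - chiF A 1 a b - chiF A 1 a' b' + chiF A 1 0 0 =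
      form (Fintype.card A) a b a' b' := by
  simp only [chiF_one, hexpoly, form, Pi.add_apply, Pi.zero_apply]
  have h1 := two_mul_tri (b + b')
  have h2 := two_mul_tri b
  have h3 := two_mul_tri b'
  have h4 := two_mul_tri 0
  have h5 : tri (b + b') - tri b - tri b' + tri 0 = b * b' := by linarith
  linear_combination (-(Fintype.card A : ℤ) ^ 2) * h5

lemma Numerics.cast_rev {m : ℕ} (i : Fin m) : ((i.rev : ℕ) : ℤ) = m - 1 - (i : ℕ) := by
  have := i.2
  rw [Fin.val_rev]
  omega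

lemma Numerics.tri_neg (c : ℤ) : tri (-1 - c) = tri c := by
  unfold tri; congr 1; ring

lemma Numerics.ediv_neg {m x : ℤ} (hm : 0 < m) (h : m ∣ x) : (-m - x) / m = -1 - x / m := by
  obtain ⟨q, rfl⟩ := h
  rw [show -m - m * q = m * (-1 - q) by ring, Int.mul_ediv_cancel_left _ hm.ne',
    Int.mul_ediv_cancel_left _ hm.ne']

lemma Numerics.ediv_refl {m : ℤ} (hm : 0 < m) (x : ℤ) : (2 * m - 1 - x) / m = 1 - x / m := by
  have h1 := Int.emod_nonneg x hm.ne'
  have h2 := Int.emod_lt_of_pos x hm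
  have h3 := Int.emod_add_mul_ediv x m
  rw [show 2 * m - 1 - x = (m - 1 - x % m) + m * (1 - x / m) by linarith,
    Int.add_mul_ediv_left _ _ hm.ne', Int.ediv_eq_zero_of_lt (by linarith) (by linarith), zero_add]

lemma Numerics.sum_rev {m : ℕ} (f : A → Fin m) :
    ∑ a, (((f a).rev : ℕ) : ℤ) = Fintype.card A * ((m : ℤ) - 1) - ∑ a, ((f a : ℕ) : ℤ) := by
  simp only [Numerics.cast_rev, Finset.sum_sub_distrib, Finset.sum_const, Finset.card_univ,
    nsmul_eq_mul]
  ring

/-- the symmetry which is Serre duality -/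
theorem chiF_symm {m : ℕ} (hm : 0 < m) {a a' : Fin 3 → ℤ} {b b' : ℤ}
    (ha : ∀ j, a j + a' j = Fintype.card A * ((m : ℤ) - 1) - m) (hb : b + b' = m - 2) :
    chiF A m a b = chiF A m a' b' := by
  have hm' : (0 : ℤ) < m := by exact_mod_cast hm
  have key : ∀ (α : Fin 3 × A → Fin m) j,
      a' j - bdeg (fun x => (α x).rev) j = -m - (a j - bdeg α j) := fun α j => by
    have := Numerics.sum_rev fun x => α (j, x)
    have := ha j
    unfold bdeg
    linarith
  have hmem : ∀ α : Fin 3 × A → Fin m, α ∈ adm A m a ↔ (fun x => (α x).rev) ∈ adm A m a' := by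
    intro α
    simp only [mem_adm, key]
    refine forall_congr' fun j => ?_
    rw [dvd_sub_right (dvd_neg.2 dvd_rfl)]
  refine Finset.sum_nbij' (fun α x => (α x).rev) (fun α x => (α x).rev)
    (fun α h => (hmem α).1 h) (fun α h => (hmem _).2 (by simpa using h))
    (fun α _ => by simp) (fun α _ => by simp) fun α h => ?_
  have h1 : ∀ j, dOf a' (fun x => (α x).rev) j = -1 - dOf a α j := fun j => by
    rw [dOf, key, Numerics.ediv_neg hm' (mem_adm.1 h j), dOf]
  have h2 : ∀ p, cOf b' (fun x => (α x).rev) p = -1 - cOf b α p := fun p => by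
    have := Numerics.ediv_refl hm' (∑ j, ((α (j, tp p j) : ℕ) : ℤ) - b)
    have e : ∑ j, (((α (j, tp p j)).rev : ℕ) : ℤ) - b'
        = 2 * m - 1 - (∑ j, ((α (j, tp p j) : ℕ) : ℤ) - b) := by
      simp only [Numerics.cast_rev, Fin.sum_univ_three]; linarith
    simp only [cOf]
    rw [e, this]; ring
  simp only [h2, Numerics.tri_neg, hexpoly, h1]
  ring

/-- the extreme monomial -/
lemma top_mem_adm {m : ℕ} (hm : 0 < m) :
    let α : Fin 3 × A → Fin m := fun _ => ⟨m - 1, by omega⟩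
    let a : Fin 3 → ℤ := fun _ => Fintype.card A * ((m : ℤ) - 1) - m
    α ∈ adm A m a ∧ dOf a α = (fun _ => -1) ∧ cOf ((m : ℤ) - 2) α = fun _ => -1 := by
  intro α a
  have hm' : (0 : ℤ) < m := by exact_mod_cast hm
  have h0 : ∀ x, ((α x : ℕ) : ℤ) = m - 1 := fun x => by simp only [α]; omega
  have h1 : ∀ j, a j - bdeg α j = m * (-1) := fun j => by
    simp only [bdeg, h0, a, Finset.sum_const, Finset.card_univ, nsmul_eq_mul]; ring
  refine ⟨mem_adm.2 fun j => by rw [h1]; exact dvd_mul_right _ _, ?_, ?_⟩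
  · ext j
    rw [dOf, h1, Int.mul_ediv_cancel_left _ hm'.ne']
  · ext p
    simp only [cOf, h0, Fin.sum_univ_three]
    rw [show (m : ℤ) - 1 + (m - 1) + (m - 1) - (m - 2) = 2 * m - 1 - 0 by ring,
      Numerics.ediv_refl hm']
    simp

lemma Numerics.sum_odd {θ : ℤ} (hθ : 2 * θ = 5 * Fintype.card A - 6) {i j : Fin 3} (hij : i ≠ j) :
    ∑ α ∈ adm A 6 (fun _ => θ),
      (2 * dOf (fun _ => θ) α i + 1) * (2 * dOf (fun _ => θ) α j + 1) = 0 := by
  let ρ : (Fin 3 × A → Fin 6) → Fin 3 × A → Fin 6 := fun α x =>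
    if x.1 = j then (α x).rev else α x
  have hρ : ∀ α, ρ (ρ α) = α := fun α => by
    ext1 x
    simp only [ρ]
    split_ifs <;> simp
  have h1 : ∀ α l, l ≠ j → bdeg (ρ α) l = bdeg α l := fun α l hl => by simp [bdeg, ρ, hl]
  have h2 : ∀ α, θ - bdeg (ρ α) j = -((6 : ℕ) : ℤ) - (θ - bdeg α j) := fun α => by
    have := Numerics.sum_rev fun x => α (j, x)
    simp only [bdeg, ρ, if_true]
    push_cast at this ⊢
    linarith
  have hmem : ∀ α, α ∈ adm A 6 (fun _ => θ) → ρ α ∈ adm A 6 (fun _ => θ) := by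
    intro α h
    rw [mem_adm] at h ⊢
    intro l
    by_cases hl : l = j
    · subst hl
      rw [h2]
      exact dvd_sub (dvd_neg.2 dvd_rfl) (h l)
    · rw [h1 α l hl]; exact h l
  have h3 : ∑ α ∈ adm A 6 (fun _ => θ),
      -((2 * dOf (fun _ => θ) α i + 1) * (2 * dOf (fun _ => θ) α j + 1))
      = ∑ α ∈ adm A 6 (fun _ => θ),
      (2 * dOf (fun _ => θ) α i + 1) * (2 * dOf (fun _ => θ) α j + 1) := by
    refine Finset.sum_nbij' ρ ρ hmem hmem (fun α _ => hρ α) (fun α _ => hρ α) fun α h => ?_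
    simp only [dOf]
    rw [h1 α i hij, h2, Numerics.ediv_neg (by norm_num) (mem_adm.1 h j)]
    ring
  rw [Finset.sum_neg_distrib] at h3
  linarith

def Numerics.zz (i : Fin 6) : ZMod 6 := ((i : ℕ) : ZMod 6)

lemma Numerics.mem_adm6 {a : Fin 3 → ℤ} {α : Fin 3 × A → Fin 6} :
    α ∈ adm A 6 a ↔ ∀ j, ∑ x, Numerics.zz (α (j, x)) = (a j : ZMod 6) := by
  rw [mem_adm]
  refine forall_congr' fun j => ?_
  rw [← ZMod.intCast_eq_intCast_iff_dvd_sub]
  simp [bdeg, Numerics.zz]

lemma Numerics.equi (a : Fin 3 → ℤ) (q : Fin 3 → A) (hq : ∀ j, q j ≠ 1)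
    (φ : (Fin 3 → Fin 6) → ℤ) :
    216 * ∑ α ∈ adm A 6 a, φ (fun j => α (j, q j)) = (adm A 6 a).card * ∑ x, φ x := by
  classical
  have hadd : ∀ i j : Fin 6, Numerics.zz (i + j) = Numerics.zz i + Numerics.zz j := by decide
  have hneg : ∀ i : Fin 6, Numerics.zz (-i) = -Numerics.zz i := by decide
  have hzero : Numerics.zz 0 = 0 := by decide
  let δ : (Fin 3 → Fin 6) → Fin 3 × A → Fin 6 := fun x y =>
    (if y.2 = q y.1 then x y.1 else 0) + if y.2 = 1 then -x y.1 else 0
  have hδ : ∀ x j, ∑ y, Numerics.zz (δ x (j, y)) = 0 := fun x j => by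
    simp only [δ, hadd, apply_ite Numerics.zz, hzero, hneg, Finset.sum_add_distrib,
      Finset.sum_ite_eq', Finset.mem_univ, if_true, add_neg_cancel]
  have h1 : ∀ x, ∑ α ∈ adm A 6 a, φ (fun j => α (j, q j))
      = ∑ α ∈ adm A 6 a, φ ((fun j => α (j, q j)) + x) := by
    intro x
    symm
    refine Finset.sum_nbij' (fun α => α + δ x) (fun α => α + -δ x) (fun α h => ?_) (fun α h => ?_)
      (fun α _ => by simp) (fun α _ => by simp) fun α _ => ?_
    · rw [Numerics.mem_adm6] at h ⊢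
      intro j
      simp only [Pi.add_apply, hadd, Finset.sum_add_distrib, hδ, add_zero, h j]
    · rw [Numerics.mem_adm6] at h ⊢
      intro j
      simp only [Pi.add_apply, Pi.neg_apply, hadd, hneg, Finset.sum_add_distrib,
        Finset.sum_neg_distrib, hδ, neg_zero, add_zero, h j]
    · congr 1
      ext1 j
      simp [δ, hq j]
  calc 216 * ∑ α ∈ adm A 6 a, φ (fun j => α (j, q j))
      = ∑ x : Fin 3 → Fin 6, ∑ α ∈ adm A 6 a, φ ((fun j => α (j, q j)) + x) := by
        rw [← Finset.sum_congr rfl fun x _ => h1 x]; simp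
    _ = ∑ α ∈ adm A 6 a, ∑ x, φ x := by
        rw [Finset.sum_comm]
        exact Finset.sum_congr rfl fun α _ => Equiv.sum_comp (Equiv.addLeft _) φ
    _ = _ := by simp

lemma Numerics.tri_nonneg (c : ℤ) : 0 ≤ tri c :=
  Int.ediv_nonneg (by rcases le_or_gt 0 c with h | h <;> nlinarith) (by norm_num)

lemma Numerics.eight : ∑ x : Fin 3 → Fin 6, tri (-((∑ j, ((x j : ℕ) : ℤ) - 2) / ((6 : ℕ) : ℤ))) = 8 := by
  decide +kernel

open Classical in
lemma Numerics.card_good (hA : 2 ≤ Fintype.card A) :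
    ((Fintype.card A : ℤ) - 1) * ((Fintype.card A : ℤ) - 2)
      ≤ (Finset.univ.filter fun p : A × A => ∀ j, tp p j ≠ 1).card := by
  have h1 : (Finset.univ.filter fun p : A × A => ∀ j, tp p j ≠ 1).card
      = ∑ x ∈ Finset.univ.erase (1 : A), ((Finset.univ.erase (1 : A)).erase x⁻¹).card := by
    rw [← Finset.card_sigma]
    refine Finset.card_nbij' (fun p => ⟨p.1, p.2⟩) (fun p => (p.1, p.2)) (fun p hp => ?_)
      (fun p hp => ?_) (fun _ _ => rfl) (fun _ _ => rfl)
    · simp only [Finset.coe_filter, Finset.mem_univ, true_and, Set.mem_ofPred_eq,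
        Fin.forall_fin_succ, tp] at hp
      simp only [Finset.coe_sigma, Set.mem_sigma_iff, Finset.mem_coe, Finset.mem_erase,
        Finset.mem_univ, and_true]
      refine ⟨hp.1, fun h => hp.2.2.1 ?_, hp.2.1⟩
      simp [h]
    · simp only [Finset.coe_sigma, Set.mem_sigma_iff, Finset.mem_coe, Finset.mem_erase,
        Finset.mem_univ, and_true] at hp
      simp only [Finset.coe_filter, Finset.mem_univ, true_and, Set.mem_ofPred_eq,
        Fin.forall_fin_succ, tp]
      refine ⟨hp.1, hp.2.2, fun h => hp.2.1 ?_, by simp⟩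
      have : p.1 * p.2 = 1 := inv_eq_one.1 h
      exact eq_inv_of_mul_eq_one_right this
  have h2 : ∀ x ∈ Finset.univ.erase (1 : A),
      ((Finset.univ.erase (1 : A)).erase x⁻¹).card = Fintype.card A - 2 := by
    intro x hx
    rw [Finset.card_erase_of_mem (by simpa using hx), Finset.card_erase_of_mem (Finset.mem_univ _),
      Finset.card_univ]
    omega
  rw [h1, Finset.sum_congr rfl h2, Finset.sum_const, Finset.card_erase_of_mem (Finset.mem_univ _),
    Finset.card_univ, smul_eq_mul]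
  obtain ⟨n, hn⟩ := Nat.exists_eq_add_of_le hA
  rw [hn, show 2 + n - 1 = n + 1 by omega, show 2 + n - 2 = n by omega]
  push_cast
  apply le_of_eq; ring

/-- half the canonical class has very negative Euler characteristic -/
theorem chiF_theta (hA : 2 ≤ Fintype.card A) {θ : ℤ} (hθ : 2 * θ = 5 * Fintype.card A - 6) :
    108 * chiF A 6 (fun _ => θ) 2 ≤ (adm A 6 (fun _ => θ)).card *
      (27 - 4 * ((Fintype.card A : ℤ) - 1) * ((Fintype.card A : ℤ) - 2)) := by
  classical
  have h1 : 4 * ∑ α ∈ adm A 6 (fun _ => θ), hexpoly (dOf (fun _ => θ) α)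
      = (adm A 6 (fun _ => θ)).card := by
    have e1 := Numerics.sum_odd hθ (show (0 : Fin 3) ≠ 1 by decide)
    have e2 := Numerics.sum_odd hθ (show (0 : Fin 3) ≠ 2 by decide)
    have e3 := Numerics.sum_odd hθ (show (1 : Fin 3) ≠ 2 by decide)
    rw [Finset.card_eq_sum_ones, Finset.mul_sum]
    push_cast
    rw [← zero_add (∑ _ ∈ adm A 6 (fun _ => θ), (1 : ℤ)), ← show (0 : ℤ) + 0 + 0 = 0 by norm_num]
    nth_rewrite 1 [← e3]
    nth_rewrite 1 [← e2]
    nth_rewrite 1 [← e1]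
    simp only [← Finset.sum_add_distrib]
    exact Finset.sum_congr rfl fun α _ => by unfold hexpoly; ring
  have h2 : ∀ p ∈ Finset.univ.filter fun p : A × A => ∀ j, tp p j ≠ 1,
      ((adm A 6 (fun _ => θ)).card : ℤ) ≤ 27 * ∑ α ∈ adm A 6 (fun _ => θ), tri (cOf 2 α p) := by
    intro p hp
    have := Numerics.equi (fun _ => θ) (tp p) (Finset.mem_filter.1 hp).2
      fun x => tri (-((∑ j, ((x j : ℕ) : ℤ) - 2) / ((6 : ℕ) : ℤ)))
    rw [Numerics.eight] at this
    simp only [cOf]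
    linarith
  have h3 := Finset.card_nsmul_le_sum _ _ _ h2
  have h4 : ∑ p ∈ Finset.univ.filter fun p : A × A => ∀ j, tp p j ≠ 1,
      27 * ∑ α ∈ adm A 6 (fun _ => θ), tri (cOf 2 α p)
      ≤ ∑ p, 27 * ∑ α ∈ adm A 6 (fun _ => θ), tri (cOf 2 α p) :=
    Finset.sum_le_sum_of_subset_of_nonneg (Finset.filter_subset _ _) fun p _ _ =>
      mul_nonneg (by norm_num) (Finset.sum_nonneg fun α _ => Numerics.tri_nonneg _)
  have h5 := mul_le_mul_of_nonneg_right (Numerics.card_good hA)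
    (Int.natCast_nonneg (adm A 6 (fun _ => θ)).card)
  rw [nsmul_eq_mul] at h3
  have h6 := h5.trans (h3.trans h4)
  rw [← Finset.mul_sum, Finset.sum_comm] at h6
  rw [chiF, Finset.sum_sub_distrib]
  linarith

end Vale.Agent.P190
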