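import Vale.Agent.P190.XSec
import Vale.Agent.P190.HexVal
import Vale.Agent.P190.HexCount
import Vale.Agent.P190.Kummer
import Vale.Agent.P190.Numerics

/-! The Euler characteristic of the explicit line bundles. -/

open Module

noncomputable section

namespace Vale.Agent.P190

lemma ChiExpl.isHilb_sum {ι : Type} (T : Finset ι) {f : ι → ℤ → ℕ} {χ : ι → ℤ}
    (h : ∀ i ∈ T, IsHilb (f i) (χ i)) : IsHilb (fun j => ∑ i ∈ T, f i j) (∑ i ∈ T, χ i) := by
  classical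
  induction T using Finset.induction_on with
  | empty => exact ⟨0, 0, 0, fun j _ => by simp⟩
  | insert i T hi ih =>
    obtain ⟨b, c, j₀, h1⟩ := h i (Finset.mem_insert_self _ _)
    obtain ⟨b', c', j₁, h2⟩ := ih fun i hi => h i (Finset.mem_insert_of_mem hi)
    refine ⟨b + b', c + c', max j₀ j₁, fun j hj => ?_⟩
    have h3 := h1 j (le_of_max_le_left hj)
    have h4 := h2 j (le_of_max_le_right hj)
    simp only [Finset.sum_insert hi, Nat.cast_add, Int.cast_add] at h4 ⊢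
    rw [h3, h4]
    ring

lemma ChiExpl.h0_eq_sum {k U K V ι : Type} [Field k] [Field K] [Algebra k K] [AddCommGroup V]
    [Module K V] [Module k V] [IsScalarTower k K V] [Fintype ι] {O : Fam U K} (hO : IsFam O)
    (hk : HasK k O) (e : Basis ι K V) {v : ι → V} (hv : ∀ i, e i = v i) {M : Sys U V}
    (hM : IsBun O M) (hc : ∀ u, ∀ x ∈ M u, ∀ i, e.repr x i • v i ∈ M u)
    (hf : ∀ i, Module.Finite k (H0 k (sub M (K ∙ v i)))) :
    h0 k M = ∑ i, h0 k (sub M (K ∙ v i)) := by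
  obtain rfl : ⇑e = v := funext hv
  let Φ : (∀ i, H0 k (sub M (K ∙ e i))) →ₗ[k] V :=
    ∑ i, (K ∙ e i).subtype.restrictScalars k ∘ₗ (H0 k (sub M (K ∙ e i))).subtype ∘ₗ
      LinearMap.proj i
  have hΦ : ∀ w, Φ w = ∑ i, (((w i : H0 k (sub M (K ∙ e i))) : K ∙ e i) : V) := fun w => by
    simp [Φ]
  have hinj : Function.Injective Φ := by
    refine (injective_iff_map_eq_zero Φ).2 fun w hw => funext fun i => ?_
    choose c hc using fun i => Submodule.mem_span_singleton.1 (w i).1.2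
    rw [hΦ] at hw
    simp only [← hc] at hw
    have := Fintype.linearIndependent_iff.1 e.linearIndependent c hw i
    ext
    rw [← hc, this, zero_smul]
    rfl
  have hr : LinearMap.range Φ = H0 k M := by
    refine le_antisymm ?_ fun x hx => ?_
    · rintro _ ⟨w, rfl⟩
      rw [hΦ]
      exact Submodule.subset_span fun u => sum_mem fun i _ =>
        ((hM.sub hO _).mem_H0 hk _).1 (w i).2 u
    · refine ⟨fun i => ⟨⟨e.repr x i • e i, Submodule.smul_mem _ _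
        (Submodule.mem_span_singleton_self _)⟩, Submodule.subset_span fun u =>
          hc u x ((hM.mem_H0 hk x).1 hx u) i⟩, ?_⟩
      rw [hΦ]
      exact e.sum_repr x
  rw [h0, ← hr, LinearMap.finrank_range_of_inj hinj, Module.finrank_pi_fintype]
  rfl

variable {k : Type} [Field k] [IsAlgClosed k] [CharZero k] {A : Subgroup kˣ} [Fintype A] {m : ℕ}
  {F KX K : Type} [Field F] [Field KX] [Field K] [Algebra k F] [Algebra k KX] [Algebra k K]
  [Algebra F KX] [Algebra F K] [Algebra KX K] [IsScalarTower k F KX] [IsScalarTower k F K]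
  [IsScalarTower k KX K] [IsScalarTower F KX K] [FiniteDimensional F KX] [FiniteDimensional F K]
  {P : P2 k F} {gX : Geo k KX A 1} {g : Geo k K A m} {x : KX}

theorem Tow.cl_pol (h : Tow gX g) (hN : NormData P gX.S 1 x) :
    cl (P.pol K) = cl (g.mu (P.OK K) (fun _ => m * (Fintype.card A + 1)) m) := by
  have h1 := (h.normData hN).sameDiv_pol.cl_eq
  rw [cl_mul, cl_ofSet_singleton (P.isSL_OK K).isFam (h.normData hN).x_ne, zero_add] at h1
  rw [← h1, ← zpow_natCast, ← Geo.Ld, g.Ld_eq, g.mu_zpow, mul_one]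

/-- the components of a local section are local sections -/
theorem Tow.component_mem (h : Tow gX g) {a : Fin 3 → ℤ} (e : Basis (adm A m a) KX K)
    (he : ∀ α, e α = g.mon α.1) {a' : Fin 3 → ℤ} {b : ℤ} {u : PU k} {z : K}
    (hz : z ∈ line (g.mu (P.OK K) a' b) u) (α : adm A m a) :
    e.repr z α • g.mon α.1 ∈ line (g.mu (P.OK K) a' b) u := by
  rw [h.mem_line_mu_iff (P.isSL_OK KX).isFam (P.isSL_OK K).isFam (P.over_OK KX K),
    ← P.ext_OK KX K, mem_ext] at hz ⊢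
  exact h.isIntegral_component e he _ (P.hasK_OK KX u) (dv_ne_zero _ u) hz α

lemma ChiExpl.comp_iff (h : Tow gX g) {a : Fin 3 → ℤ} (b : ℤ) {α : Fin 3 × A → Fin m}
    (hα : α ∈ adm A m a) (z : KX) (u : PU k) :
    (z * ∏ j, gX.σ j ^ dOf a α j) • g.mon α ∈ line (g.mu (P.OK K) a b) u ↔
      (z ^ m * ∏ ja : Fin 3 × A, (s3 (gX.s 0) (gX.s 1) ja.1
        - algebraMap k KX ((ja.2 : kˣ) : k)) ^ (α ja : ℕ)) * ∏ j, gX.σ j ^ a j ∈
        line (gX.mu (P.OK KX) a b) u := by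
  have := h.finiteDimensional
  have h1 : ∀ ja : Fin 3 × A, gX.y ja.1 ja.2 =
      (s3 (gX.s 0) (gX.s 1) ja.1 - algebraMap k KX ((ja.2 : kˣ) : k)) * gX.σ ja.1 := fun ja => by
    rw [← gX.s_eq_s3, ← gX.y_pow_eq, pow_one]
  have h2 : ∀ j, (gX.σ j ^ dOf a α j) ^ m * ∏ c : A, gX.σ j ^ (α (j, c) : ℕ) = gX.σ j ^ a j :=
    fun j => by
      rw [Finset.prod_pow_eq_pow_sum, ← zpow_natCast, ← zpow_natCast, ← zpow_mul,
        ← zpow_add₀ (gX.σ_ne_zero j), dOf, Int.ediv_mul_cancel (mem_adm.1 hα j), Nat.cast_sum,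
        bdeg, sub_add_cancel]
  have h3 : ((z * ∏ j, gX.σ j ^ dOf a α j) • g.mon α) ^ m = algebraMap KX K
      ((z ^ m * ∏ ja : Fin 3 × A, (s3 (gX.s 0) (gX.s 1) ja.1
        - algebraMap k KX ((ja.2 : kˣ) : k)) ^ (α ja : ℕ)) * ∏ j, gX.σ j ^ a j) := by
    rw [Algebra.smul_def, mul_pow, h.mon_pow, ← map_pow, ← map_mul]
    congr 1
    simp only [h1, mul_pow, Finset.prod_mul_distrib, ← h2, ← Finset.prod_pow]
    rw [Fintype.prod_prod_type (fun ja : Fin 3 × A => gX.σ ja.1 ^ (α ja : ℕ))]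
    ring
  rw [h.mem_line_mu_iff (P.isSL_OK KX).isFam (P.isSL_OK K).isFam (P.over_OK KX K), h3,
    ← map_div₀, mem_line, ← div_eq_inv_mul]
  exact ⟨(P.finOver_OK KX K).mem_of_algebraMap_mem (P.isSL_OK KX).isFam u,
    P.over_OK KX K u _⟩

theorem Tow.mem_HexV_of_section (h : Tow gX g) (hN : NormData P gX.S 1 x) {a : Fin 3 → ℤ}
    {b : ℤ} {α : Fin 3 × A → Fin m} (hα : α ∈ adm A m a) {z : KX}
    (hz : ∀ u, (z * ∏ j, gX.σ j ^ dOf a α j) • g.mon α ∈ line (g.mu (P.OK K) a b) u) :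
    z ∈ HexV A (gX.s 0) (gX.s 1) (dOf a α) (cOf b α) :=
  (pow_mem_HexV_iff gX.coord_s h.m_pos b hα z).1
    (gX.mem_HexV_of_mem_line h.two_le hN fun u => (ChiExpl.comp_iff h b hα z u).1 (hz u))

theorem Tow.section_of_mem_HexV (h : Tow gX g) {a : Fin 3 → ℤ} (ha : ∀ j, 0 ≤ a j)
    {b : ℤ} {α : Fin 3 × A → Fin m} (hα : α ∈ adm A m a) {z : KX}
    (hz : z ∈ HexV A (gX.s 0) (gX.s 1) (dOf a α) (cOf b α)) (u : PU k) :
    (z * ∏ j, gX.σ j ^ dOf a α j) • g.mon α ∈ line (g.mu (P.OK K) a b) u :=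
  (ChiExpl.comp_iff h b hα z u).2 (gX.mem_line_of_mem_HexV h.two_le (P.isSL_OK KX).isFam
    (P.hasK_OK KX) ha ((pow_mem_HexV_iff gX.coord_s h.m_pos b hα z).2 hz) u)

lemma ChiExpl.isBun (h : Tow gX g) (c : Div (P.OK K)) : IsBun (P.OK KX) (line c) := by
  have := h.finiteDimensional
  exact (isBun_line c).res (P.finOver_OK KX K) (P.isSL_OK KX).isFam

lemma ChiExpl.exists_map (h : Tow gX g) (hN : NormData P gX.S 1 x) {a : Fin 3 → ℤ} (b : ℤ)
    {α : Fin 3 × A → Fin m} (hα : α ∈ adm A m a) :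
    ∃ f : KX →ₗ[k] (KX ∙ g.mon α), Function.Injective f ∧
      H0 k (sub (line (g.mu (P.OK K) a b)) (KX ∙ g.mon α)) ≤
        (HexV A (gX.s 0) (gX.s 1) (dOf a α) (cOf b α)).map f ∧
      ((∀ j, 0 ≤ a j) → (HexV A (gX.s 0) (gX.s 1) (dOf a α) (cOf b α)).map f ≤
        H0 k (sub (line (g.mu (P.OK K) a b)) (KX ∙ g.mon α))) := by
  have hτ : ∏ j, gX.σ j ^ dOf a α j ≠ 0 :=
    Finset.prod_ne_zero_iff.2 fun j _ => zpow_ne_zero _ (gX.σ_ne_zero j)
  let e := LinearEquiv.toSpanNonzeroSingleton KX K (g.mon α) (g.mon_ne_zero h.m_pos α)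
  refine ⟨e.toLinearMap.restrictScalars k ∘ₗ LinearMap.mulRight k (∏ j, gX.σ j ^ dOf a α j),
    e.injective.comp (mul_left_injective₀ hτ), fun w hw => ?_, fun ha => ?_⟩
  · obtain ⟨c, rfl⟩ := e.surjective w
    have h1 := (((ChiExpl.isBun h _).sub (P.isSL_OK KX).isFam _).mem_H0 (P.hasK_OK KX) _).1 hw
    refine ⟨c / ∏ j, gX.σ j ^ dOf a α j, h.mem_HexV_of_section hN hα fun u => ?_, ?_⟩
    · rw [div_mul_cancel₀ _ hτ]
      exact h1 u
    · exact congrArg e (div_mul_cancel₀ _ hτ)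
  · rintro _ ⟨z, hz, rfl⟩
    exact Submodule.subset_span fun u => h.section_of_mem_HexV ha hα hz u

lemma ChiExpl.twist_mu (h : Tow gX g) (a e : Fin 3 → ℤ) (b j : ℤ) :
    twist (gX.mu (P.OK KX) e j) (line (g.mu (P.OK K) a b)) =
      line (g.mu (P.OK K) (fun i => a i + m * e i) (b + m * j)) := by
  rw [← twist_map (P.over_OK KX K), ← (isBun_line _).twist_congr
    (h.mu_pow (P.isSL_OK KX).isFam (P.isSL_OK K).isFam (P.over_OK KX K) e j), twist_line,
    ← zpow_natCast, g.mu_zpow, mul_comm, ← g.mu_add]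
  rfl

lemma ChiExpl.cl_pol_zpow (h : Tow gX g) (hN : NormData P gX.S 1 x) (j : ℤ) :
    cl (P.pol KX ^ j) = cl (gX.mu (P.OK KX) (fun _ => (Fintype.card A + 1) * j) j) := by
  rw [cl_zpow, h.self.cl_pol hN, ← cl_zpow, gX.mu_zpow]
  simp only [Nat.cast_one, one_mul, mul_one, mul_comm j]

lemma ChiExpl.h0_twist (h : Tow gX g) (hN : NormData P gX.S 1 x) (a : Fin 3 → ℤ) (b j : ℤ)
    (W : Submodule KX K) :
    h0 k (twist (P.pol KX ^ j) (sub (line (g.mu (P.OK K) a b)) W)) = h0 k (sub (line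
      (g.mu (P.OK K) (fun i => a i + m * ((Fintype.card A + 1) * j)) (b + m * j))) W) := by
  rw [((ChiExpl.isBun h _).sub (P.isSL_OK KX).isFam W).h0_twist_congr (P.isSL_OK KX).isFam
    (ChiExpl.cl_pol_zpow h hN j), ← sub_twist, ChiExpl.twist_mu h]

lemma ChiExpl.hilb (h : Tow gX g) (hN : NormData P gX.S 1 x) {a : Fin 3 → ℤ} (b : ℤ)
    {α : Fin 3 × A → Fin m} (hα : α ∈ adm A m a) :
    IsHilb (fun j => h0 k (twist (P.pol KX ^ j) (sub (line (g.mu (P.OK K) a b)) (KX ∙ g.mon α))))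
      (hexpoly (dOf a α) - ∑ p, tri (cOf b α p)) := by
  set n : ℤ := ((Fintype.card A : ℕ) : ℤ) with hn
  have hn0 : 0 ≤ n := Int.natCast_nonneg _
  set B : ℤ := ∑ p, |cOf b α p| with hB
  have hB0 : 0 ≤ B := Finset.sum_nonneg fun _ _ => abs_nonneg _
  have hBp : ∀ p, |cOf b α p| ≤ B := fun p =>
    Finset.single_le_sum (f := fun p => |cOf b α p|) (fun _ _ => abs_nonneg _) (Finset.mem_univ p)
  set D : ℤ := ∑ i, (|dOf a α i| + |a i|) with hD
  have hDi : ∀ i, |dOf a α i| + |a i| ≤ D := fun i =>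
    Finset.single_le_sum (f := fun i => |dOf a α i| + |a i|) (fun _ _ => by positivity)
      (Finset.mem_univ i)
  refine ⟨2 * (n + 1) * ((dOf a α 0 : ℚ) + dOf a α 1 + dOf a α 2) + 3 * (n + 1)
    - ∑ p, ((cOf b α p : ℚ) + 1 / 2), 3 * (n + 1) ^ 2 - ∑ _p : A × A, (1 / 2 : ℚ),
    (n + 1) * B + D, fun j hj => ?_⟩
  have hnB : 0 ≤ n * B := mul_nonneg hn0 hB0
  have hD0 : 0 ≤ D := le_trans (by positivity) (hDi 0)
  have hj0 : 0 ≤ j := by linarith
  have hnj : 0 ≤ n * j := mul_nonneg hn0 hj0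
  have hα' : α ∈ adm A m (fun i => a i + m * ((n + 1) * j)) := by
    rw [adm_add a fun _ => (n + 1) * j]; exact hα
  obtain ⟨f, hf, h1, h2⟩ := ChiExpl.exists_map h hN (b + m * j) hα'
  have h3 := le_antisymm h1 (h2 fun i => by
    have hm : (1 : ℤ) ≤ m := by exact_mod_cast h.m_pos
    have h4 := le_mul_of_one_le_left (by linarith : 0 ≤ (n + 1) * j) hm
    linarith [hDi i, neg_abs_le (a i), abs_nonneg (dOf a α i)])
  have hd : ∀ i, n * (B + j) ≤ dOf a α i + (n + 1) * j := fun i => by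
    linarith [hDi i, neg_abs_le (dOf a α i), abs_nonneg (a i)]
  have h4 := finrank_HexV (A := A) gX.indep (d := fun i => dOf a α i + (n + 1) * j)
    (c := fun p => cOf b α p + j) (C := B + j)
    (fun p => ⟨by linarith [hBp p, neg_abs_le (cOf b α p)], by
      linarith [hBp p, le_abs_self (cOf b α p)]⟩) (hd 0) (hd 1)
    (le_trans (mul_nonneg hn0 (by linarith)) (hd 2))
  have h5 : ∀ c : ℤ, (tri c : ℚ) = c * (c + 1) / 2 := fun c => by
    have : ((2 * tri c : ℤ) : ℚ) = ((c * (c + 1) : ℤ) : ℚ) := by rw [two_mul_tri]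
    push_cast at this
    linarith
  simp only []
  rw [ChiExpl.h0_twist h hN, h0, h3, dOf_add h.m_pos a fun _ => (n + 1) * j, cOf_add h.m_pos,
    ← (Submodule.equivMapOfInjective f hf _).finrank_eq, ← Int.cast_natCast, h4]
  have h6 : ∑ p, (tri (cOf b α p + j) : ℚ) = ∑ p, (tri (cOf b α p) : ℚ)
      + (∑ p, ((cOf b α p : ℚ) + 1 / 2)) * j + (∑ _p : A × A, (1 / 2 : ℚ)) * j ^ 2 := by
    rw [Finset.sum_mul, Finset.sum_mul, ← Finset.sum_add_distrib, ← Finset.sum_add_distrib]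
    refine Finset.sum_congr rfl fun p _ => ?_
    rw [h5, h5]
    push_cast
    ring
  simp only [hexpoly, Int.cast_sub, Int.cast_sum, Int.cast_add, Int.cast_mul, Int.cast_one, h6]
  ring

theorem Tow.chi_component (h : Tow gX g) (hN : NormData P gX.S 1 x) {a : Fin 3 → ℤ} (b : ℤ)
    {α : Fin 3 × A → Fin m} (hα : α ∈ adm A m a) :
    chi k (P.pol KX) (sub (line (g.mu (P.OK K) a b)) (KX ∙ g.mon α)) =
      hexpoly (dOf a α) - ∑ p, tri (cOf b α p) :=
  chi_eq (ChiExpl.hilb h hN b hα)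

theorem Tow.h0_component_eq_zero (h : Tow gX g) (hN : NormData P gX.S 1 x) {a : Fin 3 → ℤ}
    (b : ℤ) {α : Fin 3 × A → Fin m} (hα : α ∈ adm A m a) (hd : dOf a α = fun _ => -1) :
    h0 k (sub (line (g.mu (P.OK K) a b)) (KX ∙ g.mon α)) = 0 := by
  obtain ⟨f, -, h1, -⟩ := ChiExpl.exists_map h hN b hα
  rw [hd, HexV, Hex_neg_one, bot_inf_eq, Submodule.map_bot, le_bot_iff] at h1
  rw [h0, h1, finrank_bot]

theorem Tow.chi_mu (h : Tow gX g) (hN : NormData P gX.S 1 x) (a : Fin 3 → ℤ) (b : ℤ) :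
    chi k (P.pol K) (line (g.mu (P.OK K) a b)) = chiF A m a b := by
  obtain ⟨e, he⟩ := h.exists_basis a
  have hX := (P.isSL_OK KX).isFam
  rw [chi_res (P.over_OK KX K) (P.isSL_OK K).isFam (P.pol_map KX K) (isBun_line _), chiF,
    ← Finset.sum_coe_sort]
  refine chi_eq ?_
  have h1 := ChiExpl.isHilb_sum Finset.univ fun (α : adm A m a) _ => ChiExpl.hilb h hN b α.2
  convert h1 using 2 with j
  simp only [ChiExpl.h0_twist h hN]
  rw [(ChiExpl.isBun h _).h0_twist_congr hX (ChiExpl.cl_pol_zpow h hN j), ChiExpl.twist_mu h]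
  refine ChiExpl.h0_eq_sum hX (P.hasK_OK KX) e he (ChiExpl.isBun h _)
    (fun u z hz α => h.component_mem e he hz α) fun α => ?_
  obtain ⟨f, -, h2, -⟩ := ChiExpl.exists_map h hN (b + m * j)
    (a := fun i => a i + m * ((Fintype.card A + 1) * j)) (α := α.1)
    (by rw [adm_add a fun _ => (Fintype.card A + 1) * j]; exact α.2)
  have := finite_Hex (k := k) (gX.s 0) (gX.s 1)
    (dOf (fun i => a i + m * ((Fintype.card A + 1) * j)) α.1)
  exact Submodule.finiteDimensional_of_le (h2.trans (Submodule.map_mono inf_le_left))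

end Vale.Agent.P190
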