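import Mathlib

/-!
Definitions for the disproof of the small Cohen-Macaulay module conjecture (P190).
See notes/P190.md for the mathematics.
-/

open Module
open scoped TensorProduct Pointwise

noncomputable section

namespace Vale.Agent.P190

/-! ## Families of subrings, divisors, lattice systems -/

/-- A family of subrings of a field (think: semilocal rings of the prime divisors). -/
abbrev Fam (U K : Type) [Field K] : Type := U → Subring K

/-- A family of additive subgroups of `V` (think: a reflexive sheaf with generic fibre `V`). -/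
abbrev Sys (U V : Type) [AddCommGroup V] : Type := U → AddSubgroup V

section Basic

variable {U K : Type} [Field K]

structure IsFam (O : Fam U K) : Prop where
  bezout : ∀ u, IsBezout (O u)
  frac : ∀ u (x : K), ∃ b ∈ O u, b ≠ 0 ∧ b * x ∈ O u
  fin : ∀ x : K, {u | x ∉ O u}.Finite

/-- every ring of the family is a semilocal principal ideal domain -/
structure IsSL (O : Fam U K) : Prop where
  isFam : IsFam O
  pid : ∀ u, IsPrincipalIdealRing (O u)
  semiloc : ∀ u, {I : Ideal (O u) | I.IsMaximal}.Finite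

def HasK (k : Type) [Field k] [Algebra k K] (O : Fam U K) : Prop :=
  ∀ u (c : k), algebraMap k K c ∈ O u

/-- `c` is a unit of the subring `R` -/
def IsU (R : Subring K) (c : Kˣ) : Prop := (c : K) ∈ R ∧ ((c⁻¹ : Kˣ) : K) ∈ R

lemma IsU.one (R : Subring K) : IsU R 1 := ⟨by simp, by simp⟩

lemma IsU.mul {R : Subring K} {a b : Kˣ} (ha : IsU R a) (hb : IsU R b) : IsU R (a * b) :=
  ⟨by simpa using R.mul_mem ha.1 hb.1, by
    rw [mul_inv, Units.val_mul]; exact R.mul_mem ha.2 hb.2⟩

lemma IsU.inv {R : Subring K} {a : Kˣ} (ha : IsU R a) : IsU R a⁻¹ :=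
  ⟨ha.2, by simpa using ha.1⟩

/-- Divisors: `c` stands for the family of fractional ideals `c u • O u`. -/
def Div (O : Fam U K) : Subgroup (U → Kˣ) where
  carrier := {c | {u | ¬ IsU (O u) (c u)}.Finite}
  one_mem' := by
    simp only [Set.mem_ofPred_eq, Pi.one_apply, IsU.one, not_true_eq_false]
    simp
  mul_mem' := by
    intro a b ha hb
    refine (Set.Finite.union ha hb).subset ?_
    intro u hu
    by_contra h
    simp only [Set.mem_union, Set.mem_ofPred_eq, not_or, not_not] at h
    exact hu (h.1.mul h.2)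
  inv_mem' := by
    intro a ha
    refine Set.Finite.subset ha ?_
    intro u hu h
    exact hu h.inv

/-- The value of a divisor at `u`, as an element of `K`. -/
def dv {O : Fam U K} (c : Div O) (u : U) : K := ((c.1 u : Kˣ) : K)

/-- principal divisors, up to local units -/
def DivTriv (O : Fam U K) : Subgroup (Div O) where
  carrier := {c | ∃ γ : Kˣ, ∀ u, IsU (O u) (c.1 u * γ⁻¹)}
  one_mem' := ⟨1, fun u => by simpa using IsU.one (O u)⟩
  mul_mem' := by
    rintro a b ⟨γ, hγ⟩ ⟨δ, hδ⟩
    refine ⟨γ * δ, fun u => ?_⟩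
    have := (hγ u).mul (hδ u)
    convert this using 1
    simp only [Subgroup.coe_mul, Pi.mul_apply, mul_inv]
    ac_rfl
  inv_mem' := by
    rintro a ⟨γ, hγ⟩
    refine ⟨γ⁻¹, fun u => ?_⟩
    have := (hγ u).inv
    convert this using 1
    simp [mul_comm]

/-- The class group, written additively. -/
def Pic (O : Fam U K) : Type := Additive (Div O ⧸ DivTriv O)

instance (O : Fam U K) : AddCommGroup (Pic O) :=
  inferInstanceAs (AddCommGroup (Additive (Div O ⧸ DivTriv O)))

/-- The class of the rank one system `c u • O u`. -/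
def cl {O : Fam U K} (c : Div O) : Pic O := Additive.ofMul (QuotientGroup.mk c)

lemma cl_mul {O : Fam U K} (c c' : Div O) : cl (c * c') = cl c + cl c' := rfl
lemma cl_one {O : Fam U K} : cl (1 : Div O) = 0 := rfl
lemma cl_inv {O : Fam U K} (c : Div O) : cl c⁻¹ = - cl c := rfl
lemma cl_zpow {O : Fam U K} (c : Div O) (n : ℤ) : cl (c ^ n) = n • cl c := rfl
lemma cl_pow {O : Fam U K} (c : Div O) (n : ℕ) : cl (c ^ n) = n • cl c := rfl
lemma cl_surj {O : Fam U K} (p : Pic O) : ∃ c : Div O, cl c = p :=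
  QuotientGroup.mk_surjective (Additive.toMul p)

lemma cl_eq_zero_iff {O : Fam U K} (c : Div O) :
    cl c = 0 ↔ ∃ γ : Kˣ, ∀ u, IsU (O u) (c.1 u * γ⁻¹) :=
  QuotientGroup.eq_one_iff c

/-- `c u • O u ⊆ O u` for all `u`: `c` is the ideal of an effective divisor -/
def Integral {O : Fam U K} (c : Div O) : Prop := ∀ u, dv c u ∈ O u

/-- the two divisors define the same fractional ideals -/
def SameDiv {O : Fam U K} (c c' : Div O) : Prop := ∀ u, IsU (O u) (c.1 u * (c'.1 u)⁻¹)

def Coprime {O : Fam U K} (c c' : Div O) : Prop :=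
  ∀ u, ∃ a ∈ O u, ∃ b ∈ O u, a * dv c u + b * dv c' u = 1

variable {V V' V'' : Type} [AddCommGroup V] [Module K V] [AddCommGroup V'] [Module K V']
  [AddCommGroup V''] [Module K V'']

/-- the lattice spanned by a basis -/
def latt (R : Subring K) {ι : Type} (e : Basis ι K V) : AddSubgroup V where
  carrier := {x | ∀ i, e.repr x i ∈ R}
  zero_mem' := by intro i; simp
  add_mem' := by
    intro a b ha hb i
    simpa using R.add_mem (ha i) (hb i)
  neg_mem' := by
    intro a ha i
    simpa using R.neg_mem (ha i)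

/-- the `R`-span of a set -/
def spanO (R : Subring K) (S : Set V) : AddSubgroup V :=
  AddSubgroup.closure {y | ∃ r ∈ R, ∃ s ∈ S, y = r • s}

def IsLat (R : Subring K) (N : AddSubgroup V) : Prop :=
  ∃ (n : ℕ) (e : Basis (Fin n) K V), N = latt R e

/-- a bundle: a lattice at every `u`, the standard one at almost every `u` -/
structure IsBun (O : Fam U K) (L : Sys U V) : Prop where
  lat : ∀ u, IsLat (O u) (L u)
  std : ∃ (n : ℕ) (e : Basis (Fin n) K V), {u | L u ≠ latt (O u) e}.Finite

/-- the trivial rank one system -/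
def triv (O : Fam U K) : Sys U K := fun u => (O u).toAddSubgroup

/-- `twist c L u = c u • L u` -/
def twist {O : Fam U K} (c : Div O) (L : Sys U V) : Sys U V :=
  fun u => (L u).comap (DistribSMul.toAddMonoidHom V (dv c u)⁻¹)

lemma mem_twist {O : Fam U K} (c : Div O) (L : Sys U V) (u : U) (x : V) :
    x ∈ twist c L u ↔ (dv c u)⁻¹ • x ∈ L u := Iff.rfl

def line {O : Fam U K} (c : Div O) : Sys U K := twist c (triv O)

def pull (f : V' →ₗ[K] V) (L : Sys U V) : Sys U V' := fun u => (L u).comap f.toAddMonoidHom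

def push (f : V →ₗ[K] V') (L : Sys U V) : Sys U V' := fun u => (L u).map f.toAddMonoidHom

def sub (L : Sys U V) (W : Submodule K V) : Sys U W := pull W.subtype L

def quot (L : Sys U V) (W : Submodule K V) : Sys U (V ⧸ W) := push W.mkQ L

def dual (O : Fam U K) (L : Sys U V) : Sys U (Module.Dual K V) := fun u =>
  { carrier := {φ | ∀ x ∈ L u, φ x ∈ O u}
    zero_mem' := by intro x _; simp
    add_mem' := by
      intro a b ha hb x hx
      simpa using (O u).add_mem (ha x hx) (hb x hx)
    neg_mem' := by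
      intro a ha x hx
      simpa using (O u).neg_mem (ha x hx) }

def tens (K : Type) [Field K] [Module K V] [Module K V'] (L : Sys U V) (L' : Sys U V') :
    Sys U (V ⊗[K] V') :=
  fun u => AddSubgroup.closure {z | ∃ x ∈ L u, ∃ y ∈ L' u, z = x ⊗ₜ[K] y}

def prodS (L : Sys U V) (L' : Sys U V') : Sys U (V × V') := fun u => (L u).prod (L' u)

/-- a short exact sequence of systems (exact at every `u`) -/
structure Exact3 (L' : Sys U V') (L : Sys U V) (L'' : Sys U V'')
    (i : V' →ₗ[K] V) (p : V →ₗ[K] V'') : Prop where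
  inj : Function.Injective i
  surj : Function.Surjective p
  exact : LinearMap.range i = LinearMap.ker p
  eq_pull : L' = pull i L
  eq_push : L'' = push p L

open Classical in
/-- the divisor generated by a (finite) set of functions -/
def ofSet (O : Fam U K) (S : Set K) : Div O :=
  if h : ∃ c : Div O, ∀ u, line c u = spanO (O u) S then h.choose else 1

def IsDet (O : Fam U K) (L : Sys U V) (c : Div O) : Prop :=
  ∃ (n : ℕ) (e₀ : Basis (Fin n) K V), ∀ u, ∃ e : Basis (Fin n) K V,
    L u = latt (O u) e ∧ dv c u = e₀.det e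

open Classical in
/-- first Chern class -/
def c1 (O : Fam U K) (L : Sys U V) : Pic O :=
  if h : ∃ c : Div O, IsDet O L c then cl h.choose else 0

/-- a degree function: additive and non-positive on ideals -/
def IsWt {O : Fam U K} (d : Pic O →+ ℝ) : Prop := ∀ c : Div O, Integral c → d (cl c) ≤ 0

/-- degree of the saturated subsheaf with generic fibre `W` -/
def sdeg (O : Fam U K) (d : Pic O →+ ℝ) (L : Sys U V) (W : Submodule K V) : ℝ :=
  d (c1 O (sub L W))

/-- all subsheaves have slope at most `μ` -/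
def Ub (O : Fam U K) (d : Pic O →+ ℝ) (L : Sys U V) (μ : ℝ) : Prop :=
  ∀ W : Submodule K V, sdeg O d L W ≤ μ * finrank K W

/-- all quotients have slope at least `μ` -/
def Lb (O : Fam U K) (d : Pic O →+ ℝ) (L : Sys U V) (μ : ℝ) : Prop :=
  ∀ W : Submodule K V, μ * ((finrank K V : ℝ) - finrank K W) ≤ d (c1 O L) - sdeg O d L W

/-- Riemann inequality: every bundle has a line of degree at least slope minus a constant -/
def RI (O : Fam U K) (d : Pic O →+ ℝ) : Prop :=
  ∃ g : ℝ, ∀ (V : Type) [AddCommGroup V] [Module K V] [Nontrivial V] (L : Sys U V),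
    IsBun O L → ∃ x : V, x ≠ 0 ∧ d (c1 O L) / finrank K V - g ≤ sdeg O d L (K ∙ x)

/-- real degree function given by pairing with a fixed class -/
def wtOf {O : Fam U K} (ip : Pic O →+ Pic O →+ ℤ) (φ : Pic O) : Pic O →+ ℝ :=
  (Int.castAddHom ℝ).comp (ip.flip φ)

lemma wtOf_apply {O : Fam U K} (ip : Pic O →+ Pic O →+ ℤ) (φ p : Pic O) :
    wtOf ip φ p = (ip p φ : ℝ) := rfl

end Basic

/-! ## Extensions of the field -/

section Ext

variable {U K₀ K : Type} [Field K₀] [Field K] [Algebra K₀ K]

/-- integral closures in an extension field -/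
def ext (O₀ : Fam U K₀) (K : Type) [Field K] [Algebra K₀ K] : Fam U K :=
  fun u => (integralClosure (O₀ u) K).toSubring

def Over (O₀ : Fam U K₀) (O : Fam U K) : Prop := ∀ u, ∀ x ∈ O₀ u, algebraMap K₀ K x ∈ O u

/-- `O` is finite over `O₀` -/
structure FinOver (O₀ : Fam U K₀) (O : Fam U K) : Prop where
  le : Over O₀ O
  bun : IsBun O₀ (triv O)

lemma IsU.map {R₀ : Subring K₀} {R : Subring K} (h : ∀ x ∈ R₀, algebraMap K₀ K x ∈ R)
    {c : K₀ˣ} (hc : IsU R₀ c) : IsU R (Units.map (algebraMap K₀ K : K₀ →* K) c) :=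
  ⟨h _ hc.1, by rw [← map_inv]; exact h _ hc.2⟩

/-- pull-back of divisors -/
def Div.map {O₀ : Fam U K₀} {O : Fam U K} (h : Over O₀ O) (c : Div O₀) : Div O :=
  ⟨fun u => Units.map (algebraMap K₀ K : K₀ →* K) (c.1 u),
    Set.Finite.subset c.2 fun u hu hc => hu (hc.map (h u))⟩

end Ext

/-! ## Sections and Euler characteristic -/

section Chi

variable (k : Type) [Field k] {U K : Type} [Field K] [Algebra k K]
variable {V : Type} [AddCommGroup V] [Module k V]

/-- global sections -/
def H0 (L : Sys U V) : Submodule k V := Submodule.span k {x | ∀ u, x ∈ L u}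

def h0 (L : Sys U V) : ℕ := finrank k (H0 k L)

/-- `f` agrees for large arguments with a quadratic polynomial with constant term `χ` -/
def IsHilb (f : ℤ → ℕ) (χ : ℤ) : Prop :=
  ∃ b c : ℚ, ∃ j₀ : ℤ, ∀ j ≥ j₀, (f j : ℚ) = χ + b * j + c * j ^ 2

open Classical in
/-- Euler characteristic with respect to the polarisation `a` -/
def chi {O : Fam U K} (a : Div O) [Module K V] (L : Sys U V) : ℤ :=
  if h : ∃ χ : ℤ, IsHilb (fun j => h0 k (twist (a ^ j) L)) χ then h.choose else 0

/-- The numerical Riemann-Roch package of a smooth projective surface with function field `K`,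
polarisation `a`, canonical divisor `ω` and intersection pairing `ip`. -/
structure RR (O : Fam U K) (a ω : Div O) (ip : Pic O →+ Pic O →+ ℤ) : Prop where
  isSL : IsSL O
  hasK : HasK k O
  ip_comm : ∀ p q, ip p q = ip q p
  fin_H0 : ∀ {V : Type} [AddCommGroup V] [Module K V] [Module k V] [IsScalarTower k K V]
    {L : Sys U V}, IsBun O L → Module.Finite k (H0 k L)
  hilb : ∀ {V : Type} [AddCommGroup V] [Module K V] [Module k V] [IsScalarTower k K V]
    {L : Sys U V}, IsBun O L → IsHilb (fun j => h0 k (twist (a ^ j) L)) (chi k a L)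
  chi_exact : ∀ {V' V V'' : Type} [AddCommGroup V'] [Module K V'] [Module k V']
    [IsScalarTower k K V'] [AddCommGroup V] [Module K V] [Module k V] [IsScalarTower k K V]
    [AddCommGroup V''] [Module K V''] [Module k V''] [IsScalarTower k K V'']
    {L' : Sys U V'} {L : Sys U V} {L'' : Sys U V''} {i : V' →ₗ[K] V} {p : V →ₗ[K] V''},
    IsBun O L → Exact3 L' L L'' i p → chi k a L ≤ chi k a L' + chi k a L''
  chi_twist : ∀ {V : Type} [AddCommGroup V] [Module K V] [Module k V] [IsScalarTower k K V]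
    {L : Sys U V}, IsBun O L → ∀ c : Div O, chi k a (twist c L) =
      chi k a L + ip (c1 O L) (cl c) + finrank K V * (chi k a (line c) - chi k a (triv O))
  chi_tens : ∀ {V V' : Type} [AddCommGroup V] [Module K V] [Module k V] [IsScalarTower k K V]
    [AddCommGroup V'] [Module K V'] [Module k V'] [IsScalarTower k K V']
    {L : Sys U V} {L' : Sys U V'}, IsBun O L → IsBun O L' →
    chi k a (tens K L L') = finrank K V' * chi k a L + finrank K V * chi k a L'
      - finrank K V * finrank K V' * chi k a (triv O) + ip (c1 O L) (c1 O L')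
  chi_le : ∀ {V : Type} [AddCommGroup V] [Module K V] [Module k V] [IsScalarTower k K V]
    {L : Sys U V}, IsBun O L → chi k a L ≤ h0 k L + h0 k (twist ω (dual O L))
  chi_dual : ∀ {V : Type} [AddCommGroup V] [Module K V] [Module k V] [IsScalarTower k K V]
    {L : Sys U V}, IsBun O L → chi k a (twist ω (dual O L)) = chi k a L
  ip_coprime : ∀ c c' : Div O, Integral c → Integral c' → Coprime c c' → 0 ≤ ip (cl c) (cl c')
  ip_ample : ∀ c : Div O, Integral c → ip (cl c) (cl a) = 0 → ∀ u, IsU (O u) (c.1 u)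

end Chi

/-! ## Pencils -/

section Pencil

variable (k : Type) [Field k] {U K : Type} [Field K] [Algebra k K]
variable {V : Type} [AddCommGroup V] [Module K V]

/-- pole divisor of `σ` -/
def Phi (O : Fam U K) (σ : K) : Div O := ofSet O {1, σ}

/-- ideal of the zero divisor of `σ - c` -/
def Zer (O : Fam U K) (σ : K) (c : k) : Div O := ofSet O {σ - algebraMap k K c} * (Phi O σ)⁻¹

/-- sections on the generic fibre of the pencil `σ` -/
def Hp (O : Fam U K) (σ : K) (L : Sys U V) : Submodule (Algebra.adjoin k {σ}) V :=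
  Submodule.span (Algebra.adjoin k {σ}) {x | ∃ N : ℕ, ∀ u, x ∈ twist (Phi O σ ^ N) L u}

def psi (O : Fam U K) (σ : K) (L : Sys U V) : Cardinal :=
  Module.rank (Algebra.adjoin k {σ}) (Hp k O σ L)

/-- `K` is the field of rational functions in `s 0`, `s 1` -/
structure Coord (s : Fin 2 → K) : Prop where
  indep : AlgebraicIndependent k s
  gen : ∀ x : K, ∃ a b : MvPolynomial (Fin 2) k, b ≠ 0 ∧
    x * MvPolynomial.aeval s b = MvPolynomial.aeval s a

end Pencil

/-! ## The projective plane -/

section Plane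

open MvPolynomial

/-- affine coordinates `σ 0 = 1, σ 1, σ 2` of the function field `F` of the plane -/
structure P2 (k F : Type) [Field k] [Field F] [Algebra k F] where
  σ : Fin 3 → F
  σ0 : σ 0 = 1
  inj : ∀ (j : ℕ) (a : MvPolynomial (Fin 3) k), a.IsHomogeneous j → aeval σ a = 0 → a = 0
  gen : ∀ x : F, ∃ (j : ℕ) (a b : MvPolynomial (Fin 3) k), a.IsHomogeneous j ∧
    b.IsHomogeneous j ∧ b ≠ 0 ∧ x * aeval σ b = aeval σ a

/-- prime divisors of the plane -/
def PU (k : Type) [Field k] : Type :=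
  {P : Ideal (MvPolynomial (Fin 3) k) // P.IsPrime ∧
    ∃ (φ : MvPolynomial (Fin 3) k) (j : ℕ), φ ≠ 0 ∧ φ.IsHomogeneous j ∧ P = Ideal.span {φ}}

variable {k F : Type} [Field k] [Field F] [Algebra k F] (P : P2 k F)

/-- local rings of the plane at its prime divisors -/
def P2.O : Fam (PU k) F := fun u =>
  { carrier := {x | ∃ (j : ℕ) (a b : MvPolynomial (Fin 3) k), a.IsHomogeneous j ∧
      b.IsHomogeneous j ∧ b ∉ u.1 ∧ x * aeval P.σ b = aeval P.σ a}
    one_mem' := ⟨0, 1, 1, isHomogeneous_one _ _, isHomogeneous_one _ _,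
      (Ideal.ne_top_iff_one _).1 u.2.1.ne_top, by simp⟩
    zero_mem' := ⟨0, 0, 1, isHomogeneous_zero _ _ _, isHomogeneous_one _ _,
      (Ideal.ne_top_iff_one _).1 u.2.1.ne_top, by simp⟩
    mul_mem' := by
      rintro x y ⟨j, a, b, ha, hb, hbu, h⟩ ⟨j', a', b', ha', hb', hbu', h'⟩
      refine ⟨j + j', a * a', b * b', ha.mul ha', hb.mul hb', ?_, ?_⟩
      · intro hm
        exact (u.2.1.mem_or_mem hm).elim hbu hbu'
      · rw [map_mul, map_mul, ← h, ← h']; ring
    add_mem' := by
      rintro x y ⟨j, a, b, ha, hb, hbu, h⟩ ⟨j', a', b', ha', hb', hbu', h'⟩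
      refine ⟨j + j', a * b' + b * a', b * b', (ha.mul hb').add (hb.mul ha'), hb.mul hb', ?_, ?_⟩
      · intro hm
        exact (u.2.1.mem_or_mem hm).elim hbu hbu'
      · rw [map_add, map_mul, map_mul, map_mul, ← h, ← h']; ring
    neg_mem' := by
      rintro x ⟨j, a, b, ha, hb, hbu, h⟩
      exact ⟨j, -a, b, ha.neg, hb, hbu, by rw [map_neg, ← h]; ring⟩ }

variable (K : Type) [Field K] [Algebra F K]

/-- the normalisation of the plane in `K`, in codimension one -/
def P2.OK : Fam (PU k) K := ext P.O K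

/-- the coordinates seen in `K` -/
def P2.s : Fin 3 → K := fun i => algebraMap F K (P.σ i)

/-- value in `K` of a form -/
def P2.ev (φ : MvPolynomial (Fin 3) k) : K := algebraMap F K (aeval P.σ φ)

/-- the polarisation: pull-back of a line -/
def P2.pol : Div (P.OK K) := ofSet (P.OK K) (Set.range (P.s K))

/-- the dualising system: trace dual of the structure sheaf, twisted by minus three lines -/
def P2.omegaSys : Sys (PU k) K := fun u =>
  { carrier := {c | ∀ y ∈ P.OK K u, Algebra.trace F K (c * y) ∈ line (P.pol F ^ (-3 : ℤ)) u}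
    zero_mem' := by intro y _; simp
    add_mem' := by
      intro a b ha hb y hy
      rw [add_mul, map_add]
      exact AddSubgroup.add_mem _ (ha y hy) (hb y hy)
    neg_mem' := by
      intro a ha y hy
      rw [neg_mul, map_neg]
      exact AddSubgroup.neg_mem _ (ha y hy) }

open Classical in
/-- the canonical divisor -/
def P2.omega : Div (P.OK K) :=
  if h : ∃ c : Div (P.OK K), line c = P.omegaSys K then h.choose else 1

/-- ring of the affine chart where the linear form `h` does not vanish -/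
def P2.chart (h : MvPolynomial (Fin 3) k) : Subring K :=
  ⨅ u : {u : PU k // h ∉ u.1}, P.OK K u.1

/-- sections of a system over the affine chart where `h` does not vanish -/
def secChart {V : Type} [AddCommGroup V] (h : MvPolynomial (Fin 3) k) (L : Sys (PU k) V) :
    AddSubgroup V :=
  ⨅ u : {u : PU k // h ∉ u.1}, L u.1

/-- smoothness: every closed point has a maximal ideal with two local generators -/
def P2.Reg : Prop :=
  ∀ h : MvPolynomial (Fin 3) k, h.IsHomogeneous 1 → h ≠ 0 →
    ∀ 𝔫 : Ideal (P.chart K h), 𝔫.IsMaximal →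
      ∃ w₁ ∈ 𝔫, ∃ w₂ ∈ 𝔫, ∀ c ∈ 𝔫, ∃ s, s ∉ 𝔫 ∧ s * c ∈ Ideal.span {w₁, w₂}

end Plane

/-! ## Graded families (finitely generated graded modules over the coordinate ring of the plane) -/

section Good

variable {k K : Type} [Field k] [Field K] [Algebra k K]
variable {V : Type} [AddCommGroup V] [Module K V] [Module k V] [IsScalarTower k K V]

/-- `c • W` for a `k`-subspace `W` of a `K`-space -/
def smulK (c : K) (W : Submodule k V) : Submodule k V :=
  W.map ((LinearMap.lsmul K V c).restrictScalars k)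

/-- `G` is a finitely generated graded module over the polynomial ring in three variables of
degree `d` acting through `p`. -/
structure Good (p : Fin 3 → K) (d : ℕ) (G : ℤ → Submodule k V) : Prop where
  fin : ∀ j, Module.Finite k (G j)
  mul : ∀ i j, smulK (p i) (G j) ≤ G (j + d)
  gen : ∃ j₀ : ℤ, ∀ j ≥ j₀, G (j + d) ≤ ⨆ i, smulK (p i) (G j)

/-- `E` is the reflexive hull of the sheaf of the graded module `G` -/
def IsHull {F : Type} [Field F] [Algebra k F] [Algebra F K] (P : P2 k F)
    (G : ℤ → Submodule k V) (E : Sys (PU k) V) : Prop :=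
  ∀ (u : PU k) (x : V), x ∈ E u ↔ ∃ (j : ℕ) (ψ : MvPolynomial (Fin 3) k),
    ψ.IsHomogeneous j ∧ ψ ∉ u.1 ∧ P.ev K ψ • x ∈ G j

/-- relative dimension of two subspaces -/
def rdim {k V : Type*} [Field k] [AddCommGroup V] [Module k V] (S T : Submodule k V) : ℕ∞ :=
  Module.length k (S ⧸ T.comap S.subtype)

/-- the linear forms `X 0 + c X 1 + c ^ 2 X 2` -/
def hlin (c : k) : MvPolynomial (Fin 3) k :=
  MvPolynomial.X 0 + MvPolynomial.C c * MvPolynomial.X 1 + MvPolynomial.C (c ^ 2) * MvPolynomial.X 2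

/-- degree zero part of the localisation of a graded family at an element `t` of degree one -/
def locG (t : K) (G : ℤ → Submodule k V) : Submodule k V := ⨆ j : ℕ, smulK (t ^ j)⁻¹ (G j)

/-- the middle Koszul differential in three variables -/
def cross {R N : Type*} [CommRing R] [AddCommGroup N] [Module R N] (p : Fin 3 → R)
    (ζ : Fin 3 → N) : Fin 3 → N :=
  ![p 1 • ζ 2 - p 2 • ζ 1, p 2 • ζ 0 - p 0 • ζ 2, p 0 • ζ 1 - p 1 • ζ 0]

end Good

/-! ## The graded ring and its completion -/

section Ring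

variable (k : Type) [Field k] {K : Type} [Field K] [Algebra k K]

/-- degree `j` part of the algebra generated by `S` in degree one -/
def Rg (S : Set K) (j : ℕ) : Submodule k K := Submodule.span k S ^ j

/-- its completion, inside the power series over `K` -/
def Rhat (S : Set K) : Subalgebra k (PowerSeries K) where
  carrier := {f | ∀ j, PowerSeries.coeff j f ∈ Rg k S j}
  mul_mem' := by
    intro f g hf hg j
    rw [PowerSeries.coeff_mul]
    refine Submodule.sum_mem _ fun ij hij => ?_
    have h := Finset.HasAntidiagonal.mem_antidiagonal.1 hij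
    rw [← h, Rg, pow_add]
    exact Submodule.mul_mem_mul (hf _) (hg _)
  add_mem' := by
    intro f g hf hg j
    rw [map_add]
    exact Submodule.add_mem _ (hf j) (hg j)
  algebraMap_mem' := by
    intro r j
    rw [PowerSeries.algebraMap_apply, PowerSeries.coeff_C]
    split_ifs with h
    · subst h
      rw [Rg, pow_zero, Submodule.mem_one]
      exact ⟨r, rfl⟩
    · exact Submodule.zero_mem _

/-- the ideal of series without constant term -/
def mId (S : Set K) : Ideal (Rhat k S) :=
  RingHom.ker ((PowerSeries.constantCoeff (R := K)).comp (Rhat k S).val.toRingHom)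

/-- Noether normalisation data: the forms `x * σ i` of degree `d` make the graded ring finite
over the coordinate ring of the plane, and `K` is its field of degree zero fractions. -/
structure NormData {k F : Type} [Field k] [Field F] [Algebra k F] (P : P2 k F) {K : Type}
    [Field K] [Algebra k K] [Algebra F K] (S : Set K) (d : ℕ) (x : K) : Prop where
  finS : S.Finite
  zero_notMem : (0 : K) ∉ S
  d_pos : 0 < d
  x_ne : x ≠ 0
  mem : ∀ i, x * P.s K i ∈ Rg k S d
  gen : ∃ j₀ : ℕ, ∀ j ≥ j₀, Rg k S (j + d) ≤ ⨆ i, smulK (x * P.s K i) (Rg k S j)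
  frac : ∀ c : K, ∃ (j : ℕ), ∃ b ∈ Rg k S j, b ≠ 0 ∧ c * b ∈ Rg k S j

/-- the homogeneous parameters as elements of the completed ring -/
def pR {k F : Type} [Field k] [Field F] [Algebra k F] {P : P2 k F} {K : Type}
    [Field K] [Algebra k K] [Algebra F K] {S : Set K} {d : ℕ} {x : K} (hN : NormData P S d x)
    (i : Fin 3) : Rhat k S :=
  ⟨PowerSeries.monomial d (x * P.s K i), fun j => by
    rw [PowerSeries.coeff_monomial]
    split_ifs with h
    · subst h; exact hN.mem i
    · exact Submodule.zero_mem _⟩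

/-- normality in codimension one: the local rings are localisations of the graded ring -/
def NormalS {k F : Type} [Field k] [Field F] [Algebra k F] (P : P2 k F) {K : Type}
    [Field K] [Algebra k K] [Algebra F K] (S : Set K) (d : ℕ) (x : K) : Prop :=
  ∀ (u : PU k), ∀ c ∈ P.OK K u, ∃ (j : ℕ) (ψ : MvPolynomial (Fin 3) k),
    ψ.IsHomogeneous j ∧ ψ ∉ u.1 ∧ c * P.ev K ψ * x ^ j ∈ Rg k S (d * j)

/-- smoothness of the projective model of `S`, pointwise form -/
def RegS (S : Set K) : Prop :=
  ∀ (A : LocalSubring K) (f : K), f ∈ S → (∀ c : k, algebraMap k K c ∈ A.toSubring) →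
    (∀ g ∈ S, ∃ c : k, ∃ h : g / f - algebraMap k K c ∈ A.toSubring,
      (⟨_, h⟩ : A.toSubring) ∈ IsLocalRing.maximalIdeal A.toSubring) →
    ∃ w₁ ∈ IsLocalRing.maximalIdeal A.toSubring, ∃ w₂ ∈ IsLocalRing.maximalIdeal A.toSubring,
      ∀ g ∈ S, ∃ c : k, ∃ a₁ a₂ : A.toSubring,
        g / f - algebraMap k K c = (a₁ * w₁ + a₂ * w₂ : A.toSubring)

end Ring

/-! ## Filtrations on a module -/

section Filt

variable (k : Type) [Field k] {K : Type} [Field K] [Algebra k K] (S : Set K)
variable {M : Type*} [AddCommGroup M] [Module (Rhat k S) M] [Module k M]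
  [IsScalarTower k (Rhat k S) M] {r : ℕ}

/-- An embedding of `M` into Laurent series vectors, compatible with the action of the ring. -/
structure Emb (ι : M →ₗ[k] (Fin r → LaurentSeries K)) : Prop where
  inj : Function.Injective ι
  smul : ∀ (f : Rhat k S) (m : M) (i : Fin r),
    ι (f • m) i = HahnSeries.ofPowerSeries ℤ K (f : PowerSeries K) * ι m i
  bdd : ∃ n₀ : ℤ, ∀ m i, ∀ n < n₀, (ι m i).coeff n = 0

/-- the filtration by order -/
def Fil (ι : M →ₗ[k] (Fin r → LaurentSeries K)) (n : ℤ) : Submodule k M where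
  carrier := {m | ∀ i, ∀ l < n, (ι m i).coeff l = 0}
  zero_mem' := by intro i l _; simp
  add_mem' := by
    intro a b ha hb i l hl
    simp [ha i l hl, hb i l hl]
  smul_mem' := by
    intro c a ha i l hl
    simp [ha i l hl]

/-- the `n`-th coefficient vector -/
def cf (ι : M →ₗ[k] (Fin r → LaurentSeries K)) (n : ℤ) : M →ₗ[k] (Fin r → K) where
  toFun m := fun i => (ι m i).coeff n
  map_add' a b := by ext i; simp
  map_smul' c a := by ext i; simp

/-- the associated graded module -/
def Gr (ι : M →ₗ[k] (Fin r → LaurentSeries K)) (n : ℤ) : Submodule k (Fin r → K) :=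
  (Fil k ι n).map (cf k ι n)

/-- the residue class of `i` modulo `d` of the associated graded module, normalised -/
def GrN (ι : M →ₗ[k] (Fin r → LaurentSeries K)) (d : ℕ) (x : K) (i : ℤ) (j : ℤ) :
    Submodule k (Fin r → K) :=
  smulK (x ^ (-j)) (Gr k ι (i + d * j))

/-- admissible embeddings -/
structure Adm (p : Fin 3 → K) (d : ℕ) (ι : M →ₗ[k] (Fin r → LaurentSeries K)) : Prop where
  emb : Emb k S ι
  good : Good p d (Gr k ι)
  span : ∃ n, Submodule.span K (Gr k ι n : Set (Fin r → K)) = ⊤
  deep : ∀ i : ℤ, ∃ N : ℤ, ∀ m ∈ Fil k ι N,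
    m ∈ mId k S • Submodule.span (Rhat k S) (Fil k ι i : Set M)

end Filt

/-! ## The explicit surface -/

section Geo

/-- Kummer data on the del Pezzo surface `s 0 * s 1 * s 2 = 1` -/
structure Geo (k K : Type) [Field k] [Field K] [Algebra k K] (A : Subgroup kˣ) (m : ℕ) where
  s : Fin 3 → K
  y : Fin 3 → A → K
  prod : s 0 * s 1 * s 2 = 1
  indep : AlgebraicIndependent k ![s 0, s 1]
  y_one : ∀ j, y j 1 = 1
  y_pow : ∀ j (a : A), y j a ^ m * (s j - 1) = s j - algebraMap k K ((a : kˣ) : k)
  gen : IntermediateField.adjoin k (Set.range fun ja : Fin 3 × A => y ja.1 ja.2) = ⊤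

variable {k K : Type} [Field k] [Field K] [Algebra k K] {A : Subgroup kˣ} [Fintype A] {m : ℕ}
  (g : Geo k K A m)

def Geo.U (i : Fin 3) : K := ∏ a, g.y i a

/-- exponents of the generators -/
def gexp (n : ℕ) (i j : Fin 3) : ℕ := if i = j then 1 else n + 1

/-- the generators of the graded ring -/
def Geo.S : Set K :=
  {z | ∃ (i : Fin 3) (a : ∀ j, Fin (gexp (Fintype.card A) i j) → A),
    z = g.U i * ∏ j, ∏ l, g.y j (a j l)}

def Geo.σ (j : Fin 3) : K := (g.s j - 1)⁻¹

variable {U : Type} (O : Fam U K)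

def Geo.Hd (j : Fin 3) : Div O := ofSet O (Set.range (g.y j))

def Geo.Ld : Div O := ofSet O g.S

def Geo.Jd : Div O := g.Ld O * (∏ j, g.Hd O j ^ (Fintype.card A + 1))⁻¹

def Geo.mu (a : Fin 3 → ℤ) (b : ℤ) : Div O := (∏ j, g.Hd O j ^ a j) * g.Jd O ^ b

def Geo.Dd (ja : Fin 3 × A) : Div O := ofSet O {g.y ja.1 ja.2} * (g.Hd O ja.1)⁻¹

/-- the monomial with exponent vector `α` -/
def Geo.mon (α : Fin 3 × A → Fin m) : K := ∏ ja, g.y ja.1 ja.2 ^ (α ja : ℕ)

/-- the third coordinate of the triple point over `(a, b)` -/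
def tp (p : A × A) : Fin 3 → A := ![p.1, p.2, (p.1 * p.2)⁻¹]

/-- block degrees of an exponent vector -/
def bdeg (α : Fin 3 × A → Fin m) (j : Fin 3) : ℤ := ∑ a, ((α (j, a) : ℕ) : ℤ)

/-- admissible exponent vectors for the multidegree `a` -/
def adm (A : Subgroup kˣ) [Fintype A] (m : ℕ) (a : Fin 3 → ℤ) : Finset (Fin 3 × A → Fin m) := by
  classical
  exact Finset.univ.filter fun α => ∀ j, (m : ℤ) ∣ a j - bdeg α j

def dOf (a : Fin 3 → ℤ) (α : Fin 3 × A → Fin m) (j : Fin 3) : ℤ := (a j - bdeg α j) / m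

/-- ceiling of `(b - |α|_p) / m` -/
def cOf (b : ℤ) (α : Fin 3 × A → Fin m) (p : A × A) : ℤ :=
  -((∑ j, ((α (j, tp p j) : ℕ) : ℤ) - b) / m)

def hexpoly (d : Fin 3 → ℤ) : ℤ :=
  d 0 * d 1 + d 0 * d 2 + d 1 * d 2 + d 0 + d 1 + d 2 + 1

def tri (c : ℤ) : ℤ := c * (c + 1) / 2

/-- exponents in the hexagon -/
def InHex (d : Fin 3 → ℤ) (e : ℤ × ℤ) : Prop :=
  -d 2 ≤ e.1 ∧ e.1 ≤ d 0 ∧ -d 2 ≤ e.2 ∧ e.2 ≤ d 1 ∧ -d 1 ≤ e.1 - e.2 ∧ e.1 - e.2 ≤ d 0

/-- Laurent polynomials in `s, t` with Newton polygon in the hexagon -/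
def Hex (k : Type) [Field k] [Algebra k K] (s t : K) (d : Fin 3 → ℤ) : Submodule k K :=
  Submodule.span k {z | ∃ e : ℤ × ℤ, InHex d e ∧ z = s ^ e.1 * t ^ e.2}

/-- functions vanishing to order at least `c` at the point `(α, β)` -/
def Van (k : Type) [Field k] [Algebra k K] (s t : K) (α β : k) (c : ℕ) : Submodule k K where
  carrier := {h | ∃ e r : MvPolynomial (Fin 2) k, MvPolynomial.eval ![α, β] e ≠ 0 ∧
    r ∈ (Ideal.span {MvPolynomial.X 0 - MvPolynomial.C α, MvPolynomial.X 1 - MvPolynomial.C β} :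
      Ideal (MvPolynomial (Fin 2) k)) ^ c ∧
    h * MvPolynomial.aeval ![s, t] e = MvPolynomial.aeval ![s, t] r}
  zero_mem' := ⟨1, 0, by simp, Submodule.zero_mem _, by simp⟩
  add_mem' := by
    rintro x y ⟨e, r, he, hr, h⟩ ⟨e', r', he', hr', h'⟩
    refine ⟨e * e', r * e' + e * r', by simp [he, he'], ?_, ?_⟩
    · exact Ideal.add_mem _ (Ideal.mul_mem_right _ _ hr) (Ideal.mul_mem_left _ _ hr')
    · rw [map_add, map_mul, map_mul, map_mul, ← h, ← h']; ring
  smul_mem' := by
    rintro c x ⟨e, r, he, hr, h⟩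
    refine ⟨e, MvPolynomial.C c * r, he, Ideal.mul_mem_left _ _ hr, ?_⟩
    rw [map_mul, ← h, MvPolynomial.aeval_C, Algebra.smul_def]; ring

/-- Laurent polynomials in the hexagon with vanishing conditions at the grid points -/
def HexV (A : Subgroup kˣ) (s t : K) (d : Fin 3 → ℤ) (c : A × A → ℤ) : Submodule k K :=
  Hex k s t d ⊓ ⨅ p : A × A, Van k s t ((p.1 : kˣ) : k) ((p.2 : kˣ) : k) (c p).toNat

/-- an integer valued additive valuation (the value at zero is irrelevant) -/
structure ZVal (K : Type) [Field K] where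
  v : K → ℤ
  mul : ∀ x y, x ≠ 0 → y ≠ 0 → v (x * y) = v x + v y
  add : ∀ x y, x ≠ 0 → y ≠ 0 → x + y ≠ 0 → min (v x) (v y) ≤ v (x + y)

/-- the functions `s, t, 1 / (s t)` -/
def s3 (s t : K) : Fin 3 → K := ![s, t, (s * t)⁻¹]

/-- multiplicity of the centre of `w` at the grid point `p` -/
def ZVal.e {k : Type} [Field k] [Algebra k K] {A : Subgroup kˣ} (w : ZVal K) (s t : K)
    (p : A × A) : ℤ :=
  max 0 (min (w.v (s - algebraMap k K ((p.1 : kˣ) : k))) (w.v (t - algebraMap k K ((p.2 : kˣ) : k))))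

/-- the lower bound which membership in `HexV` imposes on the valuation `w` -/
def ZVal.bound {k : Type} [Field k] [Algebra k K] {A : Subgroup kˣ} [Fintype A] (w : ZVal K)
    (s t : K) (d : Fin 3 → ℤ) (c : A × A → ℤ) : ℤ :=
  ∑ j, d j * min 0 (w.v (s3 s t j)) + ∑ p, c p * w.e s t p

open Classical in
/-- the valuations of the curves and blown-up points of the rational surface -/
structure ZVal.Nice {k : Type} [Field k] [Algebra k K] (A : Subgroup kˣ) (w : ZVal K)
    (s t : K) : Prop where
  const : ∀ c : k, c ≠ 0 → w.v (algebraMap k K c) = 0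
  nontriv : ∃ x, x ≠ 0 ∧ w.v x ≠ 0
  cases :
    (∃ p : A × A, (∀ j, w.v (s3 s t j) = 0) ∧
      (∀ j (a : A), w.v (s3 s t j - algebraMap k K ((a : kˣ) : k)) = if a = tp p j then 1 else 0) ∧
      (∀ c : k, w.v ((t - algebraMap k K ((p.2 : kˣ) : k)) -
        algebraMap k K c * (s - algebraMap k K ((p.1 : kˣ) : k))) = 1)) ∨
    ((∃ j, ∀ c : k, w.v (s3 s t j - algebraMap k K c) = 0) ∧
      ((∀ j (a : A), w.v (s3 s t j - algebraMap k K ((a : kˣ) : k)) = min 0 (w.v (s3 s t j))) ∨
        ∃ (j₀ : Fin 3) (a₀ : A), (∀ j, w.v (s3 s t j) = 0) ∧ ∀ j (a : A),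
          w.v (s3 s t j - algebraMap k K ((a : kˣ) : k)) = if j = j₀ ∧ a = a₀ then 1 else 0))

end Geo

end Vale.Agent.P190
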