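import Vale.Agent.P190.Defs

/-! The abstract chase in a filtered Koszul complex. -/

open Module

noncomputable section

namespace Vale.Agent.P190

/-- `T` has codimension at most `n` in `S` -/
def KI.Codim {k V : Type*} [Field k] [AddCommGroup V] [Module k V] (S T : Submodule k V)
    (n : ℕ) : Prop :=
  ∃ φ : V →ₗ[k] (Fin n → k), ∀ v ∈ S, φ v = 0 → v ∈ T

lemma KI.codim_of_rdim {k V : Type*} [Field k] [AddCommGroup V] [Module k V]
    {S T : Submodule k V} {n : ℕ} (h : rdim S T ≤ n) : KI.Codim S T n := by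
  unfold rdim at h
  set Q := S ⧸ T.comap S.subtype
  have hne : Module.length k Q ≠ ⊤ := ne_top_of_le_ne_top (ENat.coe_ne_top n) h
  have hfl : IsFiniteLength k Q := Module.length_ne_top_iff.1 hne
  have hN : IsNoetherian k Q := (isFiniteLength_iff_isNoetherian_isArtinian.1 hfl).1
  have hfin : Module.Finite k Q := inferInstance
  rw [Module.length_eq_finrank] at h
  have hle : finrank k Q ≤ finrank k (Fin n → k) := by
    simpa using h
  obtain ⟨ψ, hψ⟩ := (finrank_le_iff_exists_linearMap (R := k) (M := Q) (M' := Fin n → k)).1 hle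
  obtain ⟨φ, hφ⟩ := LinearMap.exists_extend (ψ ∘ₗ (T.comap S.subtype).mkQ)
  refine ⟨φ, fun v hv h0 => ?_⟩
  have h1 : ψ ((T.comap S.subtype).mkQ ⟨v, hv⟩) = 0 := by
    have := LinearMap.congr_fun hφ ⟨v, hv⟩
    simp only [LinearMap.comp_apply, Submodule.subtype_apply] at this
    rw [← this, h0]
  have h2 : (T.comap S.subtype).mkQ ⟨v, hv⟩ = 0 := hψ (by rw [h1, map_zero])
  rw [Submodule.mkQ_apply, Submodule.Quotient.mk_eq_zero] at h2
  exact h2

lemma KI.codim_bot {k V : Type*} [Field k] [AddCommGroup V] [Module k V]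
    (S : Submodule k V) [Module.Finite k S] : KI.Codim S ⊥ (finrank k S) := by
  obtain ⟨ψ, hψ⟩ := (finrank_le_iff_exists_linearMap (R := k) (M := S)
    (M' := Fin (finrank k S) → k)).1 (by simp)
  obtain ⟨φ, hφ⟩ := LinearMap.exists_extend ψ
  refine ⟨φ, fun v hv h0 => ?_⟩
  have h1 : ψ ⟨v, hv⟩ = 0 := by
    have := LinearMap.congr_fun hφ ⟨v, hv⟩
    simp only [LinearMap.comp_apply, Submodule.subtype_apply] at this
    rw [← this, h0]
  have h2 : (⟨v, hv⟩ : S) = 0 := hψ (by rw [h1, map_zero])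
  simpa using congrArg Subtype.val h2

/-- the basic dimension estimate -/
lemma KI.key {k T X : Type*} [Field k] [AddCommGroup T] [Module k T] [AddCommGroup X]
    [Module k X] (T₀ : Submodule k T) (f : T →ₗ[k] X) {n : ℕ} (g : T →ₗ[k] (Fin n → k))
    (A : Submodule k X) [Module.Finite k A] (h : ∀ t ∈ T₀, g t = 0 → f t ∈ A) :
    finrank k (T₀.map f) ≤ finrank k A + n := by
  -- a complement of the kernel
  obtain ⟨C, hC⟩ := Submodule.exists_isCompl (LinearMap.ker (g ∘ₗ T₀.subtype))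
  have hinj : Function.Injective ((g ∘ₗ T₀.subtype) ∘ₗ C.subtype) := by
    rw [← LinearMap.ker_eq_bot, eq_bot_iff]
    intro c hc
    have h1 : (c : T₀) ∈ LinearMap.ker (g ∘ₗ T₀.subtype) ⊓ C := ⟨hc, c.2⟩
    rw [hC.inf_eq_bot] at h1
    simpa using h1
  have hCf : Module.Finite k C := Module.Finite.of_injective _ hinj
  have hCn : finrank k C ≤ n := by
    simpa using LinearMap.finrank_le_finrank_of_injective hinj
  set B : Submodule k X := C.map (f ∘ₗ T₀.subtype)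
  have hB : finrank k B ≤ n := (Submodule.finrank_map_le _ _).trans hCn
  have hle : T₀.map f ≤ A ⊔ B := by
    rintro _ ⟨t, ht, rfl⟩
    have h1 : (⟨t, ht⟩ : T₀) ∈ LinearMap.ker (g ∘ₗ T₀.subtype) ⊔ C := by
      rw [hC.sup_eq_top]; trivial
    obtain ⟨a, ha, c, hc, hac⟩ := Submodule.mem_sup.1 h1
    have h2 : t = (a : T) + c := by simpa using congrArg Subtype.val hac.symm
    rw [h2, map_add]
    exact Submodule.add_mem_sup (h a a.2 ha) ⟨c, hc, rfl⟩
  calc finrank k (T₀.map f) ≤ finrank k (A ⊔ B : Submodule k X) := Submodule.finrank_mono hle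
    _ ≤ finrank k A + finrank k B := Submodule.finrank_add_le_finrank_add_finrank _ _
    _ ≤ _ := by omega

section Chase

variable {k R K M V : Type*} [Field k] [CommRing R] [Algebra k R] [Field K] [Algebra k K]
  [AddCommGroup M] [Module R M] [Module k M] [IsScalarTower k R M]
  [AddCommGroup V] [Module K V] [Module k V] [IsScalarTower k K V]

/-- the last Koszul differential -/
def KI.d2 (k : Type*) [Field k] [Algebra k R] [Module k M] [IsScalarTower k R M]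
    (p : Fin 3 → R) : (Fin 3 → M) →ₗ[k] M where
  toFun η := ∑ i, p i • η i
  map_add' a b := by simp [Finset.sum_add_distrib]
  map_smul' c a := by
    simp only [Pi.smul_apply, RingHom.id_apply, Finset.smul_sum]
    exact Finset.sum_congr rfl fun i _ => smul_comm _ _ _

/-- the middle Koszul differential -/
def KI.d1 (k : Type*) [Field k] [Algebra k R] [Module k M] [IsScalarTower k R M]
    (p : Fin 3 → R) : (Fin 3 → M) →ₗ[k] (Fin 3 → M) where
  toFun ζ := cross p ζ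
  map_add' a b := by
    ext i; fin_cases i <;> simp [cross, smul_add] <;> abel
  map_smul' c a := by
    ext i; fin_cases i <;> simp [cross, smul_sub, smul_comm c]

lemma KI.d2_apply (p : Fin 3 → R) (η : Fin 3 → M) : KI.d2 k p η = ∑ i, p i • η i := rfl
lemma KI.d1_apply (p : Fin 3 → R) (ζ : Fin 3 → M) : KI.d1 k p ζ = cross p ζ := rfl

/-- vectors with all components in a subspace -/
def KI.pi3 {k M : Type*} [Field k] [AddCommGroup M] [Module k M] (S : Submodule k M) :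
    Submodule k (Fin 3 → M) := Submodule.pi Set.univ fun _ => S

lemma KI.mem_pi3 {k M : Type*} [Field k] [AddCommGroup M] [Module k M] {S : Submodule k M}
    {η : Fin 3 → M} : η ∈ KI.pi3 S ↔ ∀ i, η i ∈ S := by
  simp [KI.pi3, Submodule.mem_pi]

def KI.pi3Equiv {k M : Type*} [Field k] [AddCommGroup M] [Module k M] (S : Submodule k M) :
    KI.pi3 S ≃ₗ[k] (Fin 3 → S) where
  toFun η := fun i => ⟨η.1 i, KI.mem_pi3.1 η.2 i⟩
  invFun ξ := ⟨fun i => ξ i, KI.mem_pi3.2 fun i => (ξ i).2⟩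
  map_add' _ _ := rfl
  map_smul' _ _ := rfl
  left_inv _ := rfl
  right_inv _ := rfl

lemma KI.finite_pi3 {k M : Type*} [Field k] [AddCommGroup M] [Module k M] (S : Submodule k M)
    [Module.Finite k S] : Module.Finite k (KI.pi3 S) :=
  Module.Finite.equiv (KI.pi3Equiv S).symm

lemma KI.finrank_pi3 {k M : Type*} [Field k] [AddCommGroup M] [Module k M] (S : Submodule k M)
    [Module.Finite k S] : finrank k (KI.pi3 S) = 3 * finrank k S := by
  rw [(KI.pi3Equiv S).finrank_eq, Module.finrank_pi_fintype]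
  simp

/-- a filtered module with leading terms -/
structure KI.Filt (F : ℤ → Submodule k M) (c : ℤ → M →ₗ[k] V) (p : Fin 3 → R) (q : Fin 3 → K)
    (D : ℤ) : Prop where
  succ : ∀ n m, m ∈ F (n + 1) ↔ m ∈ F n ∧ c n m = 0
  smul : ∀ i n m, m ∈ F n → p i • m ∈ F (n + D) ∧ c (n + D) (p i • m) = q i • c n m
  fin : ∀ n, Module.Finite k ((F n).map (c n))

variable {F : ℤ → Submodule k M} {c : ℤ → M →ₗ[k] V} {p : Fin 3 → R} {q : Fin 3 → K} {D : ℤ}

lemma KI.Filt.anti (h : KI.Filt F c p q D) {n n' : ℤ} (hn : n ≤ n') : F n' ≤ F n := by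
  induction n', hn using Int.leInduction with
  | base => exact le_rfl
  | succ n' _ ih => exact fun m hm => ih ((h.succ _ _).1 hm).1

lemma KI.Filt.c_eq_zero (h : KI.Filt F c p q D) {n n' : ℤ} (hn : n < n') {m : M}
    (hm : m ∈ F n') : c n m = 0 :=
  ((h.succ n m).1 (h.anti (by omega) hm)).2

lemma KI.Filt.d2 (h : KI.Filt F c p q D) {n : ℤ} {η : Fin 3 → M} (hη : ∀ i, η i ∈ F n) :
    KI.d2 k p η ∈ F (n + D) ∧ c (n + D) (KI.d2 k p η) = KI.d2 k q (fun i => c n (η i)) := by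
  rw [KI.d2_apply, KI.d2_apply, map_sum]
  exact ⟨Submodule.sum_mem _ fun i _ => (h.smul i n _ (hη i)).1,
    Finset.sum_congr rfl fun i _ => (h.smul i n _ (hη i)).2⟩

lemma KI.Filt.d1 (h : KI.Filt F c p q D) {n : ℤ} {ζ : Fin 3 → M} (hζ : ∀ i, ζ i ∈ F n)
    (i : Fin 3) : c (n + D) (KI.d1 k p ζ i) = KI.d1 k q (fun i => c n (ζ i)) i := by
  have := fun i j => (h.smul i n _ (hζ j)).2
  fin_cases i <;> simp [KI.d1_apply, cross, this]

/-- the space of leading terms of approximate cocycles -/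
def KI.Z (F : ℤ → Submodule k M) (c : ℤ → M →ₗ[k] V) (p : Fin 3 → R) (D : ℤ) (a : ℕ) :
    Submodule k (Fin 3 → V) :=
  (KI.pi3 (F (2 * D)) ⊓ (F (a + 1 + 3 * D)).comap (KI.d2 k p)).map
    (LinearMap.compLeft (c (2 * D)) (Fin 3))

/-- the space of leading terms of coboundaries of elements of low order -/
def KI.W (F : ℤ → Submodule k M) (c : ℤ → M →ₗ[k] V) (p : Fin 3 → R) (D : ℤ) (b : ℕ) :
    Submodule k (Fin 3 → V) :=
  (KI.pi3 (F (D - b)) ⊓ (KI.pi3 (F (2 * D))).comap (KI.d1 k p)).map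
    (LinearMap.compLeft (c (2 * D)) (Fin 3) ∘ₗ KI.d1 k p)

lemma KI.Filt.finite_Z (h : KI.Filt F c p q D) (a : ℕ) : Module.Finite k (KI.Z F c p D a) := by
  have := h.fin (2 * D)
  have := KI.finite_pi3 ((F (2 * D)).map (c (2 * D)))
  refine Submodule.finiteDimensional_of_le (S₂ := KI.pi3 ((F (2 * D)).map (c (2 * D)))) ?_
  rintro _ ⟨η, hη, rfl⟩
  exact KI.mem_pi3.2 fun i => ⟨η i, KI.mem_pi3.1 hη.1 i, rfl⟩

lemma KI.Filt.finite_W (h : KI.Filt F c p q D) (b : ℕ) : Module.Finite k (KI.W F c p D b) := by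
  have := h.fin (2 * D)
  have := KI.finite_pi3 ((F (2 * D)).map (c (2 * D)))
  refine Submodule.finiteDimensional_of_le (S₂ := KI.pi3 ((F (2 * D)).map (c (2 * D)))) ?_
  rintro _ ⟨η, hη, rfl⟩
  exact KI.mem_pi3.2 fun i => ⟨KI.d1 k p η i, KI.mem_pi3.1 hη.2 i, rfl⟩

lemma KI.Filt.Z_zero (h : KI.Filt F c p q D) :
    3 * finrank k ((F (2 * D)).map (c (2 * D))) ≤
      finrank k (KI.Z F c p D 0) + finrank k ((F (3 * D)).map (c (3 * D))) := by
  have := h.fin (2 * D)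
  have := h.fin (3 * D)
  have := h.finite_Z 0
  obtain ⟨φ, hφ⟩ := KI.codim_bot ((F (3 * D)).map (c (3 * D)))
  have hk := KI.key (KI.pi3 ((F (2 * D)).map (c (2 * D)))) LinearMap.id (φ ∘ₗ KI.d2 k q)
    (KI.Z F c p D 0) ?_
  · rwa [Submodule.map_id, KI.finrank_pi3] at hk
  intro ξ hξ h0
  choose η hη hηξ using fun i => KI.mem_pi3.1 hξ i
  have h1 := h.d2 hη
  have e : 2 * D + D = 3 * D := by ring
  rw [e] at h1
  have h2 : (fun i => c (2 * D) (η i)) = ξ := funext hηξ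
  rw [h2] at h1
  have h3 : KI.d2 k q ξ = 0 := by
    have := hφ _ ⟨_, h1.1, h1.2⟩ h0
    simpa using this
  refine ⟨η, ⟨KI.mem_pi3.2 hη, ?_⟩, h2⟩
  have e' : ((0 : ℕ) : ℤ) + 1 + 3 * D = 3 * D + 1 := by push_cast; ring
  change KI.d2 k p η ∈ F _
  rw [e', h.succ]
  exact ⟨h1.1, h1.2.trans h3⟩

lemma KI.Filt.Z_succ (h : KI.Filt F c p q D) (a n : ℕ)
    (h3 : ∃ φ : V →ₗ[k] (Fin n → k), ∀ v ∈ (F (a + 1 + 3 * D)).map (c (a + 1 + 3 * D)),
      φ v = 0 → ∃ γ : Fin 3 → V, (∀ i, γ i ∈ (F (a + 1 + 2 * D)).map (c (a + 1 + 2 * D))) ∧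
        v = ∑ i, q i • γ i) :
    finrank k (KI.Z F c p D a) ≤ finrank k (KI.Z F c p D (a + 1)) + n := by
  have := h.finite_Z (a + 1)
  obtain ⟨φ, hφ⟩ := h3
  refine KI.key _ _ (φ ∘ₗ c (a + 1 + 3 * D) ∘ₗ KI.d2 k p) _ ?_
  rintro η ⟨hη, hη'⟩ h0
  obtain ⟨γ, hγ, hv⟩ := hφ _ ⟨_, hη', rfl⟩ h0
  choose m hm hmγ using hγ
  have h1 := h.d2 hm
  have e : (a : ℤ) + 1 + 2 * D + D = a + 1 + 3 * D := by ring
  rw [e] at h1
  have h2 : (fun i => c (a + 1 + 2 * D) (m i)) = γ := funext hmγ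
  rw [h2] at h1
  refine ⟨η - m, ⟨Submodule.sub_mem _ hη (KI.mem_pi3.2 fun i => h.anti (by omega) (hm i)), ?_⟩, ?_⟩
  · have e' : ((a + 1 : ℕ) : ℤ) + 1 + 3 * D = a + 1 + 3 * D + 1 := by push_cast; ring
    change KI.d2 k p (η - m) ∈ F _
    rw [e', h.succ, map_sub, map_sub, h1.2, hv]
    exact ⟨Submodule.sub_mem _ hη' h1.1, sub_self _⟩
  · ext i
    simp [h.c_eq_zero (n := 2 * D) (by omega) (hm i)]

lemma KI.Filt.Z_le_W (h : KI.Filt F c p q D) (a b : ℕ)
    (hst : ∀ m ∈ F (a + 1 + 3 * D), ∃ η : Fin 3 → M, (∀ i, η i ∈ F (a + 1 + 2 * D)) ∧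
      m = ∑ i, p i • η i)
    (htop : F (D - b) = ⊤)
    (hK : ∀ η : Fin 3 → M, ∑ i, p i • η i = 0 → ∃ ζ, η = cross p ζ) :
    KI.Z F c p D a ≤ KI.W F c p D b := by
  rintro _ ⟨η, ⟨hη, hη'⟩, rfl⟩
  obtain ⟨m, hm, hv⟩ := hst _ hη'
  obtain ⟨ζ, hζ⟩ := hK (η - m) (by
    have : KI.d2 k p (η - m) = 0 := by rw [map_sub, hv]; exact sub_self _
    exact this)
  have hm' : m ∈ KI.pi3 (F (2 * D)) := KI.mem_pi3.2 fun i => h.anti (by omega) (hm i)
  refine ⟨ζ, ⟨KI.mem_pi3.2 fun i => by rw [htop]; trivial, ?_⟩, ?_⟩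
  · change cross p ζ ∈ KI.pi3 (F (2 * D))
    rw [← hζ]
    exact Submodule.sub_mem _ hη hm'
  · ext i
    simp only [LinearMap.comp_apply, KI.d1_apply, ← hζ]
    simp [h.c_eq_zero (n := 2 * D) (by omega) (hm i)]

lemma KI.Filt.W_zero (h : KI.Filt F c p q D) :
    finrank k (KI.W F c p D 0) ≤ 3 * finrank k ((F D).map (c D)) := by
  have := h.fin D
  have := KI.finite_pi3 ((F D).map (c D))
  rw [← KI.finrank_pi3]
  refine le_trans (Submodule.finrank_mono ?_) (Submodule.finrank_map_le (KI.d1 k q) _)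
  rintro _ ⟨ζ, ⟨hζ, _⟩, rfl⟩
  have hζ' : ∀ i, ζ i ∈ F D := fun i => by simpa using KI.mem_pi3.1 hζ i
  refine ⟨fun i => c D (ζ i), KI.mem_pi3.2 fun i => ⟨_, hζ' i, rfl⟩, ?_⟩
  ext i
  rw [← h.d1 hζ' i, ← two_mul]
  rfl

lemma KI.Filt.W_succ (h : KI.Filt F c p q D) (hq : q 0 ≠ 0) (b : ℕ) (Y : Submodule k V)
    [Module.Finite k Y]
    (h1 : ∀ γ : V, (∀ i, q i • γ ∈ (F (D - (b + 1))).map (c (D - (b + 1)))) → γ ∈ Y) :
    finrank k (KI.W F c p D (b + 1)) ≤ finrank k (KI.W F c p D b) + finrank k Y := by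
  have := h.finite_W b
  obtain ⟨φ, hφ⟩ := KI.codim_bot Y
  refine KI.key _ _ (φ ∘ₗ ((LinearMap.lsmul K V (q 0)⁻¹).restrictScalars k) ∘ₗ
    c (D - (b + 1)) ∘ₗ LinearMap.proj 0) _ ?_
  rintro ζ ⟨hζ, hζ'⟩ h0
  have hζ1 : ∀ i, ζ i ∈ F (D - (b + 1)) := fun i => by simpa using KI.mem_pi3.1 hζ i
  have hc : ∀ i, KI.d1 k q (fun i => c (D - (b + 1)) (ζ i)) i = 0 := fun i => by
    rw [← h.d1 hζ1 i]
    exact h.c_eq_zero (by omega) (KI.mem_pi3.1 hζ' i)
  have hrel : ∀ i, q i • (q 0)⁻¹ • c (D - (b + 1)) (ζ 0) = c (D - (b + 1)) (ζ i) := by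
    intro i
    have e1 := hc 1
    have e2 := hc 2
    simp only [KI.d1_apply, cross, Matrix.cons_val, sub_eq_zero] at e1 e2
    fin_cases i
    · simp [smul_smul, hq]
    · simp only [Fin.mk_one]
      rw [smul_comm, ← e2, smul_smul, inv_mul_cancel₀ hq, one_smul]
    · simp only [Fin.reduceFinMk]
      rw [smul_comm, e1, smul_smul, inv_mul_cancel₀ hq, one_smul]
  have hY := h1 ((q 0)⁻¹ • c (D - (b + 1)) (ζ 0)) fun i => by
    rw [hrel i]; exact ⟨_, hζ1 i, rfl⟩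
  have hz : (q 0)⁻¹ • c (D - (b + 1)) (ζ 0) = 0 := by simpa using hφ _ hY h0
  refine ⟨ζ, ⟨KI.mem_pi3.2 fun i => ?_, hζ'⟩, rfl⟩
  have e : D - (b : ℤ) = D - (b + 1) + 1 := by ring
  rw [e, h.succ]
  exact ⟨hζ1 i, by rw [← hrel i, hz, smul_zero]⟩

theorem KI.Filt.chase (h : KI.Filt F c p q D) (hq : q 0 ≠ 0) (N N' : ℕ) (α β : ℕ → ℕ)
    (h3 : ∀ a < N, ∃ φ : V →ₗ[k] (Fin (α a) → k),
      ∀ v ∈ (F (a + 1 + 3 * D)).map (c (a + 1 + 3 * D)),
      φ v = 0 → ∃ γ : Fin 3 → V, (∀ i, γ i ∈ (F (a + 1 + 2 * D)).map (c (a + 1 + 2 * D))) ∧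
        v = ∑ i, q i • γ i)
    (h1 : ∀ b : ℕ, ∃ Y : Submodule k V, Module.Finite k Y ∧ finrank k Y = β b ∧
      ∀ γ : V, (∀ i, q i • γ ∈ (F (D - (b + 1))).map (c (D - (b + 1)))) → γ ∈ Y)
    (hst : ∀ m ∈ F (N + 1 + 3 * D), ∃ η : Fin 3 → M, (∀ i, η i ∈ F (N + 1 + 2 * D)) ∧
      m = ∑ i, p i • η i)
    (htop : F (D - N') = ⊤)
    (hK : ∀ η : Fin 3 → M, ∑ i, p i • η i = 0 → ∃ ζ, η = cross p ζ) :
    3 * finrank k ((F (2 * D)).map (c (2 * D))) ≤
      finrank k ((F (3 * D)).map (c (3 * D))) + 3 * finrank k ((F D).map (c D)) +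
        ∑ b ∈ Finset.range N', β b + ∑ a ∈ Finset.range N, α a := by
  have hZ : ∀ n ≤ N, finrank k (KI.Z F c p D 0) ≤
      finrank k (KI.Z F c p D n) + ∑ a ∈ Finset.range n, α a := by
    intro n hn
    induction n with
    | zero => simp
    | succ n ih =>
      have := ih (by omega)
      have := h.Z_succ n (α n) (h3 n (by omega))
      rw [Finset.sum_range_succ]
      omega
  have hW : ∀ n, finrank k (KI.W F c p D n) ≤
      finrank k (KI.W F c p D 0) + ∑ b ∈ Finset.range n, β b := by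
    intro n
    induction n with
    | zero => simp
    | succ n ih =>
      obtain ⟨Y, hY, hYβ, hγ⟩ := h1 n
      have := h.W_succ hq n Y hγ
      rw [Finset.sum_range_succ]
      omega
  have := h.finite_W N'
  have h4 := Submodule.finrank_mono (h.Z_le_W N N' hst htop hK)
  have := hZ N le_rfl
  have := hW N'
  have := h.Z_zero
  have := h.W_zero
  omega

end Chase

end Vale.Agent.P190
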