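import Vale.Agent.P190.GoodA
import Vale.Agent.P190.KIA

/-! Linear algebra and polynomial lemmas for duality on the plane. -/

open Module MvPolynomial

noncomputable section

namespace Vale.Agent.P190

section Poly

variable {k : Type} [Field k]

/-- the socle exponent -/
def DualA.soc (J : ℕ) : Fin 3 →₀ ℕ := Finsupp.equivFunOnFinite.symm fun _ => J - 1

theorem DualA.soc_apply (J : ℕ) (i : Fin 3) : DualA.soc J i = J - 1 := rfl

theorem DualA.degree_sub {J e N : ℕ} (h : N + e + 3 = 3 * J) {m : Fin 3 →₀ ℕ}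
    (hm : m.degree = e) (hle : m ≤ DualA.soc J) : (DualA.soc J - m).degree = N := by
  have h0 := hle 0
  have h1 := hle 1
  have h2 := hle 2
  rw [Finsupp.degree_eq_sum, Fin.sum_univ_three] at hm ⊢
  simp only [Finsupp.tsub_apply, DualA.soc_apply] at h0 h1 h2 ⊢
  omega

theorem DualA.socle {J d N : ℕ} (h : N + d + 3 = 3 * J) (μ : MvPolynomial (Fin 3) k →ₗ[k] k)
    (hμ : ∀ (i : Fin 3) (c : MvPolynomial (Fin 3) k) (e : ℕ), c.IsHomogeneous e → e + J = N →
      μ (X i ^ J * c) = 0) :
    ∃ φ : MvPolynomial (Fin 3) k, φ.IsHomogeneous d ∧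
      ∀ c : MvPolynomial (Fin 3) k, c.IsHomogeneous N → coeff (DualA.soc J) (c * φ) = μ c := by
  classical
  set φ : MvPolynomial (Fin 3) k := ∑ m ∈ Finset.finsuppAntidiag Finset.univ d,
    monomial m (μ (monomial (DualA.soc J - m) 1)) with hφ
  have hc : ∀ m : Fin 3 →₀ ℕ, m.degree = d → coeff m φ = μ (monomial (DualA.soc J - m) 1) := by
    intro m hm
    rw [hφ, coeff_sum, Finset.sum_eq_single m]
    · simp
    · intro b _ hb
      rw [coeff_monomial, if_neg hb]
    · intro hb
      refine absurd ?_ hb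
      rw [Finset.mem_finsuppAntidiag, ← hm, Finsupp.degree_eq_sum]
      simp
  refine ⟨φ, IsHomogeneous.sum _ _ _ fun m hm => isHomogeneous_monomial _ ?_, fun c hcN => ?_⟩
  · rw [Finset.mem_finsuppAntidiag] at hm
    rw [← hm.1, Finsupp.degree_eq_sum]
  · conv => rw [c.as_sum]
    rw [Finset.sum_mul, coeff_sum, map_sum]
    refine Finset.sum_congr rfl fun n hn => ?_
    have hn' : n.degree = N := by
      by_contra h0
      exact mem_support_iff.1 hn (hcN.coeff_eq_zero h0)
    have e1 : μ (monomial n (coeff n c)) = coeff n c * μ (monomial n 1) := by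
      rw [← smul_eq_mul, ← map_smul, smul_monomial, smul_eq_mul, mul_one]
    rw [coeff_monomial_mul', e1]
    split_ifs with hle
    · rw [hc _ (DualA.degree_sub (by omega) hn' hle), tsub_tsub_cancel_of_le hle]
    · obtain ⟨i, hi⟩ : ∃ i, J ≤ n i := by
        by_contra h0
        refine hle fun i => ?_
        have := not_exists.1 h0 i
        rw [DualA.soc_apply]
        omega
      have hle' : Finsupp.single i J ≤ n := Finsupp.single_le_iff.2 hi
      have e2 : (monomial n 1 : MvPolynomial (Fin 3) k) =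
          X i ^ J * monomial (n - Finsupp.single i J) 1 := by
        rw [X_pow_eq_monomial, monomial_mul, add_tsub_cancel_of_le hle', mul_one]
      rw [e2, hμ i _ _ (isHomogeneous_monomial _ rfl), mul_zero]
      rw [← hn']
      conv_rhs => rw [← tsub_add_cancel_of_le hle']
      rw [map_add, Finsupp.degree_single]

theorem DualA.eq_zero_of_socle {J e N : ℕ} (h : N + e + 3 = 3 * J) (he : e < J)
    {ρ : MvPolynomial (Fin 3) k} (hρ : ρ.IsHomogeneous e)
    (h0 : ∀ c : MvPolynomial (Fin 3) k, c.IsHomogeneous N → coeff (DualA.soc J) (c * ρ) = 0) :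
    ρ = 0 := by
  classical
  ext m
  rw [coeff_zero]
  by_cases hm : m.degree = e
  · have hle : m ≤ DualA.soc J := fun i => by
      have := Finsupp.le_degree i m
      rw [DualA.soc_apply]
      omega
    have := h0 (monomial (DualA.soc J - m) 1)
      (isHomogeneous_monomial _ (DualA.degree_sub h hm hle))
    rwa [coeff_monomial_mul', if_pos tsub_le_self, tsub_tsub_cancel_of_le hle, one_mul] at this
  · exact hρ.coeff_eq_zero hm

variable {F : Type} [Field F] [Algebra k F] (P : P2 k F)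

theorem DualA.common_denom {S : Set F} (hS : S.Finite) :
    ∃ (e : ℕ) (b : MvPolynomial (Fin 3) k), b.IsHomogeneous e ∧ b ≠ 0 ∧ ∀ x ∈ S,
      ∃ a : MvPolynomial (Fin 3) k, a.IsHomogeneous e ∧ x * aeval P.σ b = aeval P.σ a := by
  induction S, hS using Set.Finite.induction_on with
  | empty => exact ⟨0, 1, isHomogeneous_one _ _, one_ne_zero, by simp⟩
  | @insert x S _ _ ih =>
    obtain ⟨e, b, hb, hb0, h⟩ := ih
    obtain ⟨j, a', b', ha', hb', hb0', h'⟩ := P.gen x
    refine ⟨e + j, b * b', hb.mul hb', mul_ne_zero hb0 hb0', ?_⟩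
    rintro y (rfl | hy)
    · exact ⟨b * a', hb.mul ha', by rw [map_mul, map_mul, ← h']; ring⟩
    · obtain ⟨a, ha, h1⟩ := h y hy
      exact ⟨a * b', ha.mul hb', by rw [map_mul, map_mul, ← h1]; ring⟩

/-- a finite family of vectors has its relations generated by forms of one degree -/
theorem DualA.exists_rel {V : Type} [AddCommGroup V] [Module F V] {n : ℕ} (g : Fin n → V) :
    ∃ e : ℕ, ∀ t : Fin n → F, (∀ r : Fin n → MvPolynomial (Fin 3) k,
      (∀ a, (r a).IsHomogeneous e) → ∑ a, aeval P.σ (r a) • g a = 0 →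
        ∑ a, aeval P.σ (r a) * t a = 0) → ∃ ψ : V →ₗ[F] F, ∀ a, ψ (g a) = t a := by
  classical
  set π : (Fin n → F) →ₗ[F] V := Fintype.linearCombination F g with hπ
  obtain ⟨s, hs⟩ : (LinearMap.ker π).FG := Module.Finite.iff_fg.1 inferInstance
  obtain ⟨e, b, hb, hb0, h⟩ := DualA.common_denom P
    (S := ⋃ ρ ∈ (s : Set (Fin n → F)), Set.range ρ)
    (s.finite_toSet.biUnion fun ρ _ => Set.finite_range ρ)
  refine ⟨e, fun t ht => ?_⟩
  have hne : aeval P.σ b ≠ 0 := fun h0 => hb0 (P.inj _ _ hb h0)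
  have h1 : Fintype.linearCombination F t ∈ (LinearMap.ker π).dualAnnihilator := by
    rw [← hs, Submodule.mem_dualAnnihilator]
    intro ρ hρ
    induction hρ using Submodule.span_induction with
    | mem ρ hρ =>
      choose r hr1 hr2 using fun a => h (ρ a) (Set.mem_biUnion hρ ⟨a, rfl⟩)
      have h2 : ρ ∈ LinearMap.ker π := hs ▸ Submodule.subset_span hρ
      rw [LinearMap.mem_ker, hπ, Fintype.linearCombination_apply] at h2
      have h3 := ht r hr1 (by
        simp only [← hr2, mul_comm (ρ _), mul_smul]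
        rw [← Finset.smul_sum, h2, smul_zero])
      simp only [← hr2, mul_comm (ρ _), mul_assoc] at h3
      rw [← Finset.mul_sum, mul_eq_zero, or_iff_right hne] at h3
      rw [Fintype.linearCombination_apply]
      simpa only [smul_eq_mul, mul_comm (ρ _)] using h3
    | zero => simp
    | add x y _ _ hx hy => rw [map_add, hx, hy, add_zero]
    | smul c x _ hx => rw [map_smul, hx, smul_zero]
  rw [← LinearMap.range_dualMap_eq_dualAnnihilator_ker] at h1
  obtain ⟨ψ, hψ⟩ := h1
  refine ⟨ψ, fun a => ?_⟩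
  have := LinearMap.congr_fun hψ (Pi.single a 1)
  simpa [hπ] using this

end Poly

section Lin

variable {k K : Type} [Field k] [Field K] [Algebra k K]
variable {V : Type} [AddCommGroup V] [Module K V] [Module k V] [IsScalarTower k K V]

theorem DualA.rdim_le {H : Type} [AddCommGroup H] [Module k H] (H₀ : Submodule k H)
    [Module.Finite k H₀] {S T : Submodule k V} [Module.Finite k S] (hle : T ≤ S)
    (Θ : H →ₗ[k] Module.Dual k V)
    (h : ∀ l : V →ₗ[k] k, (∀ x ∈ T, l x = 0) → ∃ φ ∈ H₀, ∀ x ∈ S, Θ φ x = l x) :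
    rdim S T ≤ finrank k H₀ := by
  rw [rdim, Module.length_eq_finrank, Nat.cast_le, ← Subspace.dual_finrank_eq,
    (Submodule.dualQuotEquivDualAnnihilator _).finrank_eq]
  refine le_trans (Submodule.finrank_mono ?_) (Submodule.finrank_map_le (S.subtype.dualMap ∘ₗ Θ) H₀)
  intro l hl
  obtain ⟨l', rfl⟩ := LinearMap.exists_extend l
  rw [Submodule.mem_dualAnnihilator] at hl
  obtain ⟨φ, hφ, h1⟩ := h l' fun x hx => hl ⟨x, hle hx⟩ hx
  exact ⟨φ, hφ, LinearMap.ext fun x => h1 x x.2⟩

theorem DualA.finrank_map_add {M N : Type} [AddCommGroup M] [Module k M] [AddCommGroup N]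
    [Module k N] (f : M →ₗ[k] N) (S : Submodule k M) [Module.Finite k S] :
    finrank k (S.map f) + finrank k (S ⊓ LinearMap.ker f :) = finrank k S := by
  have h1 := LinearMap.finrank_range_add_finrank_ker (f.domRestrict S)
  rw [LinearMap.range_domRestrict, LinearMap.ker_domRestrict] at h1
  rw [← h1, ← (Submodule.comapSubtypeEquivOfLe
    (inf_le_left : S ⊓ LinearMap.ker f ≤ S)).finrank_eq, Submodule.comap_inf,
    Submodule.comap_subtype_self, top_inf_eq]

/-- Euler characteristic of a Koszul complex in three variables -/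
theorem DualA.koszul_le {A B C Y : Submodule k V} [Module.Finite k A] [Module.Finite k B]
    [Module.Finite k C] [Module.Finite k Y] (q : Fin 3 → K) (hq : q 0 = 1)
    (hAB : ∀ i, ∀ x ∈ A, q i • x ∈ B) (hBC : ∀ i, ∀ x ∈ B, q i • x ∈ C)
    (hY : ∀ x, (∀ i, q i • x ∈ A) → x ∈ Y) {n : ℕ} (h : rdim C (⨆ i, smulK (q i) B) ≤ n) :
    3 * finrank k A + finrank k C ≤ 3 * finrank k B + finrank k Y + n := by
  have := KI.finite_pi3 A
  have := KI.finite_pi3 B
  have h1 := DualA.finrank_map_add (KI.d1 k q) (KI.pi3 A)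
  have h2 := DualA.finrank_map_add (KI.d2 k q) (KI.pi3 B)
  rw [KI.finrank_pi3] at h1 h2
  have hT : (⨆ i, smulK (q i) B) ≤ C := iSup_le fun i => GoodA.smulK_le.2 (hBC i)
  have h3 : finrank k C ≤ finrank k (⨆ i, smulK (q i) B :) + n := by
    have h4 := Submodule.finrank_mono hT
    rw [GoodA.rdim_of_le hT (z := finrank k C - finrank k (⨆ i, smulK (q i) B :)) (by omega),
      Nat.cast_le] at h
    omega
  have h4 : finrank k (⨆ i, smulK (q i) B :) ≤ finrank k ((KI.pi3 B).map (KI.d2 k q)) := by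
    refine Submodule.finrank_mono (iSup_le fun i => GoodA.smulK_le.2 fun x hx => ?_)
    refine ⟨Pi.single i x, KI.mem_pi3.2 fun j => ?_, ?_⟩
    · rw [Pi.single_apply]
      split_ifs
      · exact hx
      · exact zero_mem _
    · rw [KI.d2_apply, Finset.sum_eq_single i] <;> simp +contextual
  have h5 : finrank k ((KI.pi3 A).map (KI.d1 k q)) ≤
      finrank k (KI.pi3 B ⊓ LinearMap.ker (KI.d2 k q) :) := by
    refine Submodule.finrank_mono ?_
    rintro _ ⟨ζ, hζ, rfl⟩
    have hζ' := KI.mem_pi3.1 hζ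
    refine ⟨KI.mem_pi3.2 fun i => ?_, ?_⟩
    · rw [KI.d1_apply]
      fin_cases i <;> exact sub_mem (hAB _ _ (hζ' _)) (hAB _ _ (hζ' _))
    · show KI.d2 k q (KI.d1 k q ζ) = 0
      rw [KI.d2_apply, KI.d1_apply, Fin.sum_univ_three]
      simp only [cross, Matrix.cons_val_zero, Matrix.cons_val_one, Matrix.cons_val]
      module
  have h6 : finrank k (KI.pi3 A ⊓ LinearMap.ker (KI.d1 k q) :) ≤ finrank k Y := by
    have key : ∀ ζ ∈ KI.pi3 A ⊓ LinearMap.ker (KI.d1 k q), ∀ i, ζ i = q i • ζ 0 := by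
      intro ζ hζ i
      have h7 : cross q ζ = 0 := hζ.2
      have h8 := congrFun h7 1
      have h9 := congrFun h7 2
      simp only [cross, hq, one_smul, Matrix.cons_val_zero, Matrix.cons_val_one, Matrix.cons_val,
        Pi.zero_apply, sub_eq_zero] at h8 h9
      fin_cases i
      · simp [hq]
      · exact h9
      · exact h8.symm
    refine LinearMap.finrank_le_finrank_of_injective
      (f := (LinearMap.proj (R := k) (φ := fun _ : Fin 3 => V) 0).restrict
        (p := KI.pi3 A ⊓ LinearMap.ker (KI.d1 k q)) (q := Y)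
        fun ζ hζ => hY _ fun i => ?_) fun ζ ζ' h7 => Subtype.ext (funext fun i => ?_)
    · have := KI.mem_pi3.1 hζ.1 i
      rwa [key ζ hζ i] at this
    · have h8 : ζ.1 0 = ζ'.1 0 := congrArg Subtype.val h7
      rw [key _ ζ.2 i, key _ ζ'.2 i, h8]
  omega

end Lin

theorem DualA.hilb_unique {f : ℤ → ℕ} {χ : ℤ} (h : IsHilb f χ) {a b c : ℚ} {j₁ : ℤ}
    (h' : ∀ j ≥ j₁, (f j : ℚ) = a + b * j + c * j ^ 2) : (χ : ℚ) = a := by
  obtain ⟨b', c', j₀, h⟩ := h
  have h0 := h (max j₀ j₁) (by omega)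
  have h1 := h (max j₀ j₁ + 1) (by omega)
  have h2 := h (max j₀ j₁ + 2) (by omega)
  rw [h' _ (by omega)] at h0 h1 h2
  generalize max j₀ j₁ = J at h0 h1 h2
  push_cast at h0 h1 h2
  linear_combination (-((J : ℚ) + 1) * (J + 2) / 2) * h0 + (J : ℚ) * (J + 2) * h1
    - (J : ℚ) * (J + 1) / 2 * h2

theorem DualA.hilb_add {f f' f'' : ℤ → ℕ} {χ χ' χ'' : ℤ} (h : IsHilb f χ) (h' : IsHilb f' χ')
    (h'' : IsHilb f'' χ'') {z : ℕ} {j₀ : ℤ} (hz : ∀ j ≥ j₀, f j + z = f' j + f'' j) :
    χ + z = χ' + χ'' := by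
  obtain ⟨b', c', j₁, h'⟩ := h'
  obtain ⟨b'', c'', j₂, h''⟩ := h''
  have := DualA.hilb_unique h (a := χ' + χ'' - z) (b := b' + b'') (c := c' + c'')
    (j₁ := max j₀ (max j₁ j₂)) fun j hj => by
      have h1 : (f j : ℚ) + z = f' j + f'' j := by exact_mod_cast hz j (by omega)
      linear_combination h1 + h' j (by omega) + h'' j (by omega)
  have h2 : (χ : ℚ) + z = χ' + χ'' := by linear_combination this
  exact_mod_cast h2

end Vale.Agent.P190
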