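import Vale.Agent.P190.Chi
import Vale.Agent.P190.DualA

/-! Duality. -/

open Module MvPolynomial

noncomputable section

namespace Vale.Agent.P190

theorem Dual.isBun_of_res {U K₀ K V : Type} [Field K₀] [Field K] [Algebra K₀ K] [AddCommGroup V]
    [Module K V] [Module K₀ V] [IsScalarTower K₀ K V] {O₀ : Fam U K₀} {O : Fam U K}
    (h : Over O₀ O) (hO : IsFam O) {L : Sys U V} (hL : IsBun O₀ L)
    (hs : ∀ u, ∀ c ∈ O u, ∀ x ∈ L u, c • x ∈ L u) : IsBun O L := by
  have key : ∀ u (n : ℕ) (e : Basis (Fin n) K₀ V), L u = latt (O₀ u) e →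
      L u = spanO (O u) (Set.range e) := by
    intro u n e he
    refine le_antisymm ?_ (spanO_le ?_ (hs u))
    · rw [he, latt_eq_spanO]
      refine spanO_le subset_spanO fun c hc x hx => ?_
      rw [← algebraMap_smul K]
      exact spanO_smul_mem (h u c hc) hx
    · rintro _ ⟨i, rfl⟩
      rw [he]
      exact Lat1.basis_mem e i
  have hsp : ∀ (n : ℕ) (e : Basis (Fin n) K₀ V), Submodule.span K (Set.range e) = ⊤ := by
    intro n e
    refine eq_top_iff.2 fun x _ => Submodule.span_le_restrictScalars K₀ K _ ?_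
    rw [e.span_eq]
    trivial
  refine ⟨fun u => ?_, ?_⟩
  · obtain ⟨n, e, he⟩ := hL.lat u
    have := hO.bezout u
    rw [key u n e he]
    exact isLat_spanO (hO.frac u) (Set.finite_range e) (hsp n e)
  · obtain ⟨n, e, he⟩ := hL.std
    obtain ⟨n', e', he'⟩ := (isBun_spanO hO (Set.finite_range e) (hsp n e)).std
    refine ⟨n', e', (he.union he').subset fun u hu => ?_⟩
    by_contra h0
    simp only [Set.mem_union, Set.mem_ofPred_eq, not_or, not_not] at h0
    exact hu ((key u n e h0.1).trans h0.2)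

variable {k K : Type} [Field k] [Field K] [Algebra k K]
variable {V : Type} [AddCommGroup V] [Module K V] [Module k V] [IsScalarTower k K V]

theorem Dual.exists_coeffs {p : Fin 3 → K} {n : ℕ} (g : Fin n → V) {m : ℕ} {x : V}
    (hx : x ∈ Submodule.span k {y | ∃ φ : MvPolynomial (Fin 3) k, φ.IsHomogeneous m ∧
      ∃ x ∈ Submodule.span k (Set.range g), y = aeval p φ • x}) :
    ∃ c : Fin n → MvPolynomial (Fin 3) k, (∀ a, (c a).IsHomogeneous m) ∧
      x = ∑ a, aeval p (c a) • g a := by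
  induction hx using Submodule.span_induction with
  | mem y hy =>
    obtain ⟨φ, hφ, x, hx, rfl⟩ := hy
    obtain ⟨κ, rfl⟩ := (Submodule.mem_span_range_iff_exists_fun k).1 hx
    refine ⟨fun a => κ a • φ, fun a => (homogeneousSubmodule _ _ m).smul_mem _ hφ, ?_⟩
    rw [Finset.smul_sum]
    refine Finset.sum_congr rfl fun a _ => ?_
    rw [map_smul, smul_assoc, smul_comm]
  | zero => exact ⟨0, fun a => isHomogeneous_zero _ _ _, by simp⟩
  | add x y _ _ hx hy =>
    obtain ⟨c, hc, rfl⟩ := hx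
    obtain ⟨c', hc', rfl⟩ := hy
    exact ⟨c + c', fun a => (hc a).add (hc' a), by simp [add_smul, Finset.sum_add_distrib]⟩
  | smul r x _ hx =>
    obtain ⟨c, hc, rfl⟩ := hx
    refine ⟨fun a => r • c a, fun a => (homogeneousSubmodule _ _ m).smul_mem _ (hc a), ?_⟩
    rw [Finset.smul_sum]
    refine Finset.sum_congr rfl fun a _ => ?_
    rw [map_smul, smul_assoc]

variable {F : Type} [Field F] [Algebra k F] [Algebra F K] [IsScalarTower k F K] (P : P2 k F)
  [IsAlgClosed k] [CharZero k] [FiniteDimensional F K]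

omit [IsAlgClosed k] in
theorem P2.isBun_omegaSys : IsBun (P.OK K) (P.omegaSys K) := by
  have : CharZero F := charZero_of_injective_algebraMap (algebraMap k F).injective
  refine Dual.isBun_of_res (P.over_OK F K) (P.isSL_OK K).isFam ?_ fun u c hc x hx y hy => ?_
  · exact ((P.isBun_res (isBun_triv (O := P.OK K))).dual.twist (P.pol F ^ (-3 : ℤ))).pull
      (P.isSL_OK F).isFam (Algebra.traceForm F K)
      (LinearMap.ker_eq_bot.1 (traceForm_nondegenerate F K).ker_eq_bot)
  · rw [smul_eq_mul, mul_comm c, mul_assoc]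
    exact hx _ (mul_mem hc hy)

theorem P2.line_omega : line (P.omega K) = P.omegaSys K := by
  have h : ∃ c : Div (P.OK K), line c = P.omegaSys K := by
    obtain ⟨c, e, he⟩ := (P.isBun_omegaSys (K := K)).exists_line (P.isSL_OK K).isFam
      (finrank_self K)
    have h1 : e 1 ≠ 0 := by simp
    refine ⟨ofSet _ {e 1} * c, ?_⟩
    rw [he, ← twist_line, (isBun_line c).twist_singleton (P.isSL_OK K).isFam h1]
    congr 1
    ext
    simp
  rw [P2.omega, dif_pos h]
  exact h.choose_spec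

/-- sections of the dual twisted by the canonical divisor, as functionals to the plane -/
theorem P2.mem_twist_omega_dual {L : Sys (PU k) V} (hL : IsBun (P.OK K) L) (u : PU k)
    (φ : Module.Dual K V) : φ ∈ twist (P.omega K) (dual (P.OK K) L) u ↔
      ∀ x ∈ L u, Algebra.trace F K (φ x) ∈ line (P.pol F ^ (-3 : ℤ)) u := by
  have h1 : φ ∈ twist (P.omega K) (dual (P.OK K) L) u ↔ ∀ x ∈ L u, φ x ∈ line (P.omega K) u :=
    Iff.rfl
  rw [h1, P.line_omega]
  refine ⟨fun h x hx => ?_, fun h x hx y hy => ?_⟩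
  · have := h x hx 1 (one_mem _)
    rwa [mul_one] at this
  · have := h _ (hL.smul_mem hy hx)
    rwa [map_smul, smul_eq_mul, mul_comm] at this

/-- every `F`-linear functional is the trace of a unique `K`-linear one -/
theorem exists_unique_trace_dual [CharZero F] [Module F V] [IsScalarTower F K V] (ψ : V →ₗ[F] F) :
    ∃! φ : Module.Dual K V, ∀ x, Algebra.trace F K (φ x) = ψ x := by
  have nd : ∀ a b : K, (∀ y, Algebra.trace F K (a * y) = Algebra.trace F K (b * y)) → a = b := by
    intro a b h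
    refine sub_eq_zero.1 ((traceForm_nondegenerate F K).1 _ fun y => ?_)
    rw [Algebra.traceForm_apply, sub_mul, map_sub, h, sub_self]
  have ex : ∀ x : V, ∃ c : K, ∀ y : K, Algebra.trace F K (c * y) = ψ (y • x) := by
    intro x
    obtain ⟨c, hc⟩ := ((Algebra.traceForm F K).toDual (traceForm_nondegenerate F K)).surjective
      (ψ ∘ₗ (LinearMap.toSpanSingleton K V x).restrictScalars F)
    exact ⟨c, fun y => LinearMap.congr_fun hc y⟩
  choose c hc using ex
  refine ⟨⟨⟨c, fun x x' => nd _ _ fun y => ?_⟩, fun r x => nd _ _ fun y => ?_⟩, fun x => ?_,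
    fun φ hφ => LinearMap.ext fun x => nd _ _ fun y => ?_⟩
  · rw [add_mul, map_add, hc, hc, hc, smul_add, map_add]
  · simp only [RingHom.id_apply, smul_eq_mul]
    rw [mul_comm r, mul_assoc, hc, hc, ← mul_smul, mul_comm]
  · have := hc x 1
    rwa [mul_one, one_smul] at this
  · show _ = Algebra.trace F K (c x * y)
    rw [hc, ← hφ, map_smul, smul_eq_mul, mul_comm]

/-- top Koszul cohomology is bounded by the sections of the dual -/
theorem P2.h3_le {G : ℤ → Submodule k V} {E : Sys (PU k) V} (hG : Good (P.s K) 1 G)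
    (hE : IsBun (P.OK K) E) (h : IsHull (K := K) P G E) : ∃ J₀ : ℕ, ∀ J : ℕ, J₀ ≤ J →
      rdim (G (3 * J)) (⨆ i, smulK (P.s K i ^ J) (G (2 * J))) ≤
        h0 k (twist (P.omega K) (dual (P.OK K) E)) := by
  classical
  let : Module F V := Module.compHom V (algebraMap F K)
  have : IsScalarTower F K V := IsScalarTower.of_algebraMap_smul fun _ _ => rfl
  have : CharZero F := charZero_of_injective_algebraMap (algebraMap k F).injective
  have hev : ∀ (c : MvPolynomial (Fin 3) k) (x : V), aeval (P.s K) c • x = aeval P.σ c • x := by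
    intro c x
    rw [← P.ev_eq_aeval]
    rfl
  obtain ⟨j₁, hj₁⟩ := hG.exists_span
  obtain ⟨d, hd⟩ : ∃ d : ℕ, j₁ ≤ (d + 3 : ℕ) := ⟨j₁.toNat, by omega⟩
  obtain ⟨n, g, hg⟩ := Submodule.fg_iff_exists_fin_generating_family.1
    (Module.Finite.iff_fg.1 (hG.fin (d + 3 : ℕ)))
  have hgm : ∀ a, g a ∈ G (d + 3 : ℕ) := fun a => hg ▸ Submodule.subset_span ⟨a, rfl⟩
  have hco : ∀ (m : ℕ) (j : ℤ), j = d + 3 + m → ∀ x ∈ G j,
      ∃ c : Fin n → MvPolynomial (Fin 3) k, (∀ a, (c a).IsHomogeneous m) ∧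
        x = ∑ a, aeval (P.s K) (c a) • g a := by
    intro m j hj x hx
    have h1 := hj₁ _ hd m (show x ∈ G _ by convert hx using 2; push_cast; omega)
    rw [← hg] at h1
    exact Dual.exists_coeffs g h1
  obtain ⟨e, he⟩ := DualA.exists_rel P g
  refine ⟨e + d + 3, fun J hJ => ?_⟩
  obtain ⟨N', hN'⟩ : ∃ N', N' + (e + d) + 3 = 3 * J := ⟨3 * J - (e + d + 3), by omega⟩
  obtain ⟨τ, hτ⟩ : ∃ τ : F →ₗ[k] k, ∀ φ : MvPolynomial (Fin 3) k, φ.IsHomogeneous (N' + e + d) →
      τ (aeval P.σ φ) = coeff (DualA.soc J) φ := by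
    obtain ⟨l, hl⟩ := LinearMap.exists_leftInverse_of_injective
      ((aeval P.σ).toLinearMap ∘ₗ (homogeneousSubmodule (Fin 3) k (N' + e + d)).subtype)
      (LinearMap.ker_eq_bot'.2 fun φ hφ => Subtype.ext (P.inj _ _ φ.2 hφ))
    refine ⟨lcoeff k (DualA.soc J) ∘ₗ Submodule.subtype _ ∘ₗ l, fun φ hφ => ?_⟩
    have := LinearMap.congr_fun hl ⟨φ, hφ⟩
    exact congrArg (fun y : homogeneousSubmodule (Fin 3) k (N' + e + d) =>
      coeff (DualA.soc J) y.1) this
  let Θ : Module.Dual K V →ₗ[k] Module.Dual k V :=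
    { toFun := fun φ => τ ∘ₗ (Algebra.trace F K).restrictScalars k ∘ₗ φ.restrictScalars k
      map_add' := fun a b => by ext; simp
      map_smul' := fun a b => by ext; simp }
  have := P.fin_H0 (hE.dual.twist (P.omega K))
  have := hG.fin (3 * J)
  refine DualA.rdim_le _ (iSup_le fun i => GoodA.smulK_le.2 fun x hx => ?_) Θ fun l hl => ?_
  · convert hG.pow_smul_mem i J hx using 2
    push_cast
    ring
  have hΦ : ∀ a, ∃ φ : MvPolynomial (Fin 3) k, φ.IsHomogeneous d ∧
      ∀ c : MvPolynomial (Fin 3) k, c.IsHomogeneous (N' + e) →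
        coeff (DualA.soc J) (c * φ) = l (aeval (P.s K) c • g a) := by
    intro a
    refine DualA.socle (by omega) (l ∘ₗ (LinearMap.toSpanSingleton K V (g a)).restrictScalars k ∘ₗ
      (aeval (P.s K)).toLinearMap) fun i c e' hc he' => ?_
    show l (aeval (P.s K) (X i ^ J * c) • g a) = 0
    rw [map_mul, map_pow, aeval_X, mul_smul]
    refine hl _ (Submodule.mem_iSup_of_mem i (GoodA.smul_mem_smulK _ ?_))
    convert hG.aeval_smul_mem hc (hgm a) using 2
    push_cast
    omega
  choose Φ hΦ1 hΦ2 using hΦ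
  obtain ⟨ψ, hψ⟩ := he (fun a => aeval P.σ (Φ a)) fun r hr h0 => by
    have h1 : ∑ a, r a * Φ a = 0 := by
      refine DualA.eq_zero_of_socle hN' (by omega)
        (IsHomogeneous.sum _ _ _ fun a _ => (hr a).mul (hΦ1 a)) fun c hc => ?_
      rw [Finset.mul_sum, coeff_sum]
      simp only [← mul_assoc]
      rw [Finset.sum_congr rfl fun a _ => hΦ2 a _ (hc.mul (hr a)), ← map_sum]
      simp only [hev, map_mul, mul_smul]
      rw [← Finset.smul_sum, h0, smul_zero, map_zero]
    simp only [← map_mul]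
    rw [← map_sum, h1, map_zero]
  obtain ⟨φ, hφ, -⟩ := exists_unique_trace_dual (K := K) ψ
  have hψ' : ∀ c : Fin n → MvPolynomial (Fin 3) k,
      ψ (∑ a, aeval (P.s K) (c a) • g a) = aeval P.σ (∑ a, c a * Φ a) := by
    intro c
    simp only [hev, map_sum, map_smul, hψ, smul_eq_mul, map_mul]
  refine ⟨φ, Submodule.subset_span fun u => (P.mem_twist_omega_dual hE u φ).2 fun x hx => ?_,
    fun x hx => ?_⟩
  · obtain ⟨j, χ, hχ, hχu, hx⟩ := (h u x).1 hx
    obtain ⟨i, hi⟩ := u.exists_X_notMem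
    have h1 := hG.aeval_smul_mem (isHomogeneous_X_pow (R := k) i (d + 3)) hx
    rw [P.ev_eq_aeval, ← mul_smul, ← map_mul] at h1
    obtain ⟨c, hc, h2⟩ := hco j _ (by push_cast; ring) _ h1
    have h3 := hψ' c
    rw [← h2, hev, map_smul, smul_eq_mul] at h3
    have h4 := (isHomogeneous_X_pow (R := k) i (d + 3)).mul hχ
    have h5 := Plane.mul_notMem (Plane.X_pow_notMem hi (d + 3)) hχu
    have h6 := mul_mem (Plane.ev_div_mem P (K := F)
      (IsHomogeneous.sum Finset.univ _ _ fun a _ => (hc a).mul (hΦ1 a)) u) (P.ev_unit F h4 h5)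
    have h7 : aeval P.σ (X i ^ (d + 3) * χ) ≠ 0 := Plane.ev_ne P h4 (Plane.ne_zero_of_notMem h5)
    have h8 := dv_ne_zero (P.pol F) u
    rw [hφ, mem_line, dv_zpow]
    convert h6 using 1
    show _ = aeval P.σ _ / _ * (_ / aeval P.σ _)
    rw [← h3]
    field_simp
    ring
  · obtain ⟨c, hc, rfl⟩ := hco (N' + e) _ (by push_cast; omega) _ hx
    show τ (Algebra.trace F K (φ _)) = _
    rw [hφ, hψ', hτ _ (IsHomogeneous.sum _ _ _ fun a _ => (hc a).mul (hΦ1 a)), coeff_sum, map_sum]
    exact Finset.sum_congr rfl fun a _ => hΦ2 a _ (hc a)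

theorem P2.chi_le {L : Sys (PU k) V} (hL : IsBun (P.OK K) L) :
    chi k (P.pol K) L ≤ h0 k L + h0 k (twist (P.omega K) (dual (P.OK K) L)) := by
  have hG := P.good_H0 hL
  obtain ⟨J₀, h₀⟩ := P.h3_le hG hL (P.isHull_H0 hL)
  obtain ⟨J₁, h₁⟩ := (P.hilb hL).third_diff
  obtain ⟨J, hJ₀, hJ₁⟩ : ∃ J, J₀ ≤ J ∧ J₁ ≤ J := ⟨_, le_max_left _ _, le_max_right _ _⟩
  have := hG.fin J
  have := hG.fin (2 * J)
  have := hG.fin (3 * J)
  have := P.fin_H0 hL
  have h2 := DualA.koszul_le (A := H0 k (twist (P.pol K ^ (J : ℤ)) L)) (Y := H0 k L)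
    (fun i => P.s K i ^ J) (by rw [P.s_zero, one_pow])
    (fun i x hx => by convert hG.pow_smul_mem i J hx using 4; push_cast; ring)
    (fun i x hx => by convert hG.pow_smul_mem i J hx using 4; push_cast; ring)
    (fun x hx => Submodule.subset_span ((P.isHull_H0 hL).mem_of_pow P J hx)) (h₀ J hJ₀)
  rw [h₁ J hJ₁]
  simp only [h0] at h2 ⊢
  omega

/-- the defect of additivity does not change under twists -/
theorem Dual.chi_exact {V' V'' : Type} [AddCommGroup V'] [Module K V'] [Module k V']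
    [IsScalarTower k K V'] [AddCommGroup V''] [Module K V''] [Module k V''] [IsScalarTower k K V'']
    {L' : Sys (PU k) V'} {L : Sys (PU k) V} {L'' : Sys (PU k) V''}
    {i : V' →ₗ[K] V} {p : V →ₗ[K] V''} (hL : IsBun (P.OK K) L) (h : Exact3 L' L L'' i p) :
    ∃ z : ℕ, ∀ j : ℤ, chi k (P.pol K) (twist (P.pol K ^ j) L) + z =
      chi k (P.pol K) (twist (P.pol K ^ j) L') + chi k (P.pol K) (twist (P.pol K ^ j) L'') := by
  obtain ⟨z, -, -, ⟨j₀, hz⟩, -⟩ := P.h0_exact hL h
  have hO := (P.isSL_OK K).isFam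
  refine ⟨z, fun j => DualA.hilb_add (P.hilb (hL.twist _)) (P.hilb ((h.isBun_left hO hL).twist _))
    (P.hilb ((h.isBun_right hO hL).twist _)) (j₀ := j₀ - j) fun l hl => ?_⟩
  simp only [← twist_mul, ← zpow_add]
  exact hz _ (by omega)

section Self

variable {V : Type} [AddCommGroup V] [Module F V] [Module k V] [IsScalarTower k F V]

theorem Dual.chi_rank_one {L : Sys (PU k) V} (hL : IsBun (P.OK F) L) (hr : finrank F V = 1)
    {e : ℤ} (he : c1 (P.OK F) L = e • cl (P.pol F)) :
    2 * chi k (P.pol F) L = (e + 1) * (e + 2) := by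
  have hO := (P.isSL_OK F).isFam
  obtain ⟨c, ε, rfl⟩ := hL.exists_line hO hr
  rw [c1_push_equiv hO (isBun_line c), c1_line hO, ← cl_zpow] at he
  rw [chi_push_equiv, line, isBun_triv.chi_twist_congr hO _ he]
  have h1 := DualA.hilb_unique (P.hilb (isBun_line (P.pol F ^ e))) (a := (e + 1) * (e + 2) / 2)
    (b := (2 * e + 3) / 2) (c := 1 / 2) (j₁ := -e) fun j hj => by
      obtain ⟨m, hm⟩ := Int.eq_ofNat_of_zero_le (show 0 ≤ j + e by omega)
      rw [twist_line, ← zpow_add, hm, P.h0_pol, Nat.cast_choose_two]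
      have h2 : (m : ℚ) = j + e := by exact_mod_cast hm.symm
      push_cast
      rw [h2]
      ring
  have h2 : (2 : ℚ) * chi k (P.pol F) (line (P.pol F ^ e)) = (e + 1) * (e + 2) := by
    rw [h1]
    ring
  exact_mod_cast h2

theorem Dual.cl_omega : cl (P.omega F) = (-3 : ℤ) • cl (P.pol F) := by
  refine SameDiv.cl_eq ((sameDiv_iff_line _ _).2 ?_)
  rw [P.line_omega]
  funext u
  ext c
  refine ⟨fun h => ?_, fun h y hy => ?_⟩
  · have := h 1 (one_mem _)
    rwa [mul_one, Algebra.trace_self_apply] at this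
  · rw [Algebra.trace_self_apply, mul_comm]
    exact (isBun_line _).smul_mem hy h

omit [IsScalarTower k F V] [IsAlgClosed k] [CharZero k] in
theorem Dual.chi_subsingleton [Subsingleton V] (L : Sys (PU k) V) : chi k (P.pol F) L = 0 := by
  classical
  have h : IsHilb (fun j => h0 k (twist (P.pol F ^ j) L)) 0 :=
    ⟨0, 0, 0, fun j _ => by simp [h0, finrank_zero_of_subsingleton]⟩
  rw [chi, dif_pos ⟨0, h⟩]
  exact (Exists.choose_spec (⟨0, h⟩ : ∃ χ, IsHilb (fun j => h0 k (twist (P.pol F ^ j) L)) χ)).unique h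

theorem Dual.const (n : ℕ) : ∀ (V : Type) [AddCommGroup V] [Module F V] [Module k V]
    [IsScalarTower k F V] (L : Sys (PU k) V), IsBun (P.OK F) L → finrank F V = n →
    ∃ c : ℤ, ∀ j : ℤ, chi k (P.pol F) (twist (P.pol F ^ j) (twist (P.omega F) (dual (P.OK F) L))) =
      chi k (P.pol F) (twist (P.pol F ^ (-j)) L) + c := by
  have hO := (P.isSL_OK F).isFam
  induction n with
  | zero =>
    intro V _ _ _ _ L hL hr
    have := hL.finiteDimensional
    have : Subsingleton V := finrank_zero_iff.1 hr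
    exact ⟨0, fun j => by rw [Dual.chi_subsingleton, Dual.chi_subsingleton, add_zero]⟩
  | succ n ih =>
    intro V _ _ _ _ L hL hr
    have := hL.finiteDimensional
    have : Nontrivial V := finrank_pos_iff.1 (by omega : 0 < finrank F V)
    obtain ⟨x, hx⟩ := exists_ne (0 : V)
    have hE := exact3_sub_quot L (F ∙ x)
    have h1 : finrank F (F ∙ x) = 1 := finrank_span_singleton hx
    have h2 := hE.finrank_add
    obtain ⟨c, hc⟩ := ih _ _ (hL.quot hO (F ∙ x)) (by omega)
    obtain ⟨z, hz⟩ := Dual.chi_exact P hL hE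
    obtain ⟨z', hz'⟩ := Dual.chi_exact P (hL.dual.twist (P.omega F))
      ((hE.dual hO hL).twist (P.omega F))
    have hW := hL.sub hO (F ∙ x)
    obtain ⟨a, ha⟩ := cl_surj (c1 (P.OK F) (sub L (F ∙ x)))
    obtain ⟨e, he⟩ := P.pic_cyclic a
    have h3 : finrank F (Module.Dual F (F ∙ x)) = 1 := by rw [Subspace.dual_finrank_eq, h1]
    refine ⟨c + z - z', fun j => ?_⟩
    have h4 := Dual.chi_rank_one P (hW.twist (P.pol F ^ (-j))) h1 (e := e - j) (by
      rw [c1_twist hO hW, h1, ← ha, he, cl_zpow]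
      module)
    have h5 := Dual.chi_rank_one P ((hW.dual.twist (P.omega F)).twist (P.pol F ^ j)) h3
      (e := j - 3 - e) (by
        rw [c1_twist hO (hW.dual.twist _), c1_twist hO hW.dual, c1_dual hO hW, h3, ← ha, he,
          cl_zpow, Dual.cl_omega]
        module)
    have h6 : (j - 3 - e + 1) * (j - 3 - e + 2) = (e - j + 1) * (e - j + 2) := by ring
    have := hz (-j)
    have := hz' j
    have := hc j
    omega

omit [IsAlgClosed k] in
theorem Dual.vanish {L : Sys (PU k) V} (hL : IsBun (P.OK F) L) :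
    ∃ j₀ : ℤ, ∀ j ≥ j₀, h0 k (twist (P.pol F ^ (-j)) L) = 0 := by
  obtain ⟨n, e, -⟩ := hL.std
  obtain ⟨i, ψ, hψ, h0, h⟩ := P.exists_le_twist hL (isBun_latt (O := P.OK F) e)
  have hne := P.ev_ne_zero F hψ h0
  refine ⟨i + 1, fun j hj => ?_⟩
  have h1 : H0 k (twist (P.pol F ^ (-j)) L) = ⊥ := by
    refine eq_bot_iff.2 (Submodule.span_le.2 fun x hx => ?_)
    have h1 : ∀ a u, e.repr (P.ev F ψ • x) a ∈ line (P.pol F ^ (-j + i)) u := by
      intro a u
      have h2 := h u _ ((mem_twist _ _ _ _).1 (hx u))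
      rw [mem_twist, smul_comm (P.ev F ψ), ← mul_smul, mem_latt] at h2
      have h3 := h2 a
      rw [map_smul, Finsupp.smul_apply, smul_eq_mul] at h3
      rw [mem_line, zpow_add, dv_mul, mul_inv, mul_comm (dv _ u)⁻¹]
      exact h3
    have h2 : P.ev F ψ • x = 0 :=
      e.repr.map_eq_zero_iff.1 (Finsupp.ext fun a => P.H0_pol_neg (by omega) (h1 a))
    exact (smul_eq_zero.1 h2).resolve_left hne
  rw [P190.h0, h1, finrank_bot]

theorem Dual.chi_le_dual {L : Sys (PU k) V} (hL : IsBun (P.OK F) L) :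
    chi k (P.pol F) L ≤ chi k (P.pol F) (twist (P.omega F) (dual (P.OK F) L)) := by
  obtain ⟨c, hc⟩ := Dual.const P _ V L hL rfl
  obtain ⟨j₀, h₀⟩ := Dual.vanish P hL
  obtain ⟨j₁, h₁⟩ := chi_twist_pow_eventually
    (fun i => P.hilb ((hL.dual.twist (P.omega F)).twist (P.pol F ^ i)))
  obtain ⟨j, hj₀, hj₁⟩ : ∃ j, j₀ ≤ j ∧ j₁ ≤ j := ⟨_, le_max_left _ _, le_max_right _ _⟩
  have h2 := P.chi_le (hL.twist (P.pol F ^ (-j)))
  rw [h₀ j hj₀, dual_twist, ← twist_mul, mul_comm, twist_mul, ← zpow_neg, neg_neg, ← h₁ j hj₁,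
    hc j] at h2
  have h3 := hc 0
  rw [neg_zero, zpow_zero, twist_one, twist_one] at h3
  omega

theorem Dual.chi_dual_self {L : Sys (PU k) V} (hL : IsBun (P.OK F) L) :
    chi k (P.pol F) (twist (P.omega F) (dual (P.OK F) L)) = chi k (P.pol F) L := by
  have := hL.finiteDimensional
  refine le_antisymm ?_ (Dual.chi_le_dual P hL)
  have h := Dual.chi_le_dual P (hL.dual.twist (P.omega F))
  rwa [dual_twist, ← twist_mul (P.omega F), mul_inv_cancel, twist_one, ← push_evalEquiv hL,
    chi_push_equiv] at h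

end Self

theorem P2.chi_dual {L : Sys (PU k) V} (hL : IsBun (P.OK K) L) :
    chi k (P.pol K) (twist (P.omega K) (dual (P.OK K) L)) = chi k (P.pol K) L := by
  let : Module F V := Module.compHom V (algebraMap F K)
  have : IsScalarTower F K V := IsScalarTower.of_algebraMap_smul fun _ _ => rfl
  have : IsScalarTower k F V := IsScalarTower.of_algebraMap_smul fun c x => by
    show algebraMap F K (algebraMap k F c) • x = c • x
    rw [← IsScalarTower.algebraMap_apply, algebraMap_smul]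
  have : CharZero F := charZero_of_injective_algebraMap (algebraMap k F).injective
  have hO := (P.isSL_OK K).isFam
  have hF := P.isBun_res hL
  let θ : Module.Dual K V →ₗ[F] Module.Dual F V :=
    { toFun := fun φ => Algebra.trace F K ∘ₗ φ.restrictScalars F
      map_add' := fun a b => by ext; simp
      map_smul' := fun a b => by ext; simp }
  have hθ : Function.Bijective θ := by
    rw [Function.bijective_iff_existsUnique]
    intro ψ
    simp only [LinearMap.ext_iff]
    exact exists_unique_trace_dual ψ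
  have h1 : twist (P.omega K) (dual (P.OK K) L) =
      push (LinearEquiv.ofBijective θ hθ).symm.toLinearMap (twist (P.omega F) (dual (P.OK F) L)) := by
    rw [push_equiv_eq_pull]
    funext u
    ext φ
    rw [P.mem_twist_omega_dual hL]
    refine Iff.trans ?_ (P.mem_twist_omega_dual hF u (θ φ)).symm
    simp only [Algebra.trace_self_apply]
    rfl
  rw [chi_res (P.over_OK F K) hO (P.pol_map F K) (hL.dual.twist _),
    chi_res (P.over_OK F K) hO (P.pol_map F K) hL, h1, chi_push_equiv, Dual.chi_dual_self P hF]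

end Vale.Agent.P190
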