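import Vale.Agent.P190.PlaneA

/-! Auxiliary facts for elimination. -/

open Module MvPolynomial

noncomputable section

namespace Vale.Agent.P190

lemma Elim.exists_C_mem {R : Type} [CommRing R] [IsDomain R] [UniqueFactorizationMonoid R]
    {f g : Polynomial R} (hf : f ≠ 0) (h : IsRelPrime f g) :
    ∃ r : R, r ≠ 0 ∧ Polynomial.C r ∈ Ideal.span {f, g} := by
  classical
  let K := FractionRing R
  have hinj : Function.Injective (Polynomial.map (algebraMap R K)) :=
    Polynomial.map_injective _ (IsFractionRing.injective R K)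
  have hn : ∀ p : Polynomial K, ∃ (b : R) (q : Polynomial R), b ≠ 0 ∧
      q.map (algebraMap R K) = Polynomial.C (algebraMap R K b) * p := by
    intro p
    obtain ⟨b, hb, h⟩ := IsLocalization.integerNormalization_spec (nonZeroDivisors R) p
    refine ⟨b, _, nonZeroDivisors.ne_zero hb, h.trans ?_⟩
    rw [← Polynomial.smul_eq_C_mul, algebraMap_smul]
  by_cases hc : IsCoprime (f.map (algebraMap R K)) (g.map (algebraMap R K))
  · obtain ⟨A, B, hAB⟩ := hc
    obtain ⟨a, A', ha, hA⟩ := hn A
    obtain ⟨b, B', hb, hB⟩ := hn B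
    refine ⟨a * b, mul_ne_zero ha hb, Ideal.mem_span_pair.2
      ⟨Polynomial.C b * A', Polynomial.C a * B', hinj ?_⟩⟩
    simp only [Polynomial.map_add, Polynomial.map_mul, Polynomial.map_C, hA, hB, map_mul]
    linear_combination (Polynomial.C (algebraMap R K a) * Polynomial.C (algebraMap R K b)) * hAB
  · exfalso
    rw [← EuclideanDomain.gcd_isUnit_iff] at hc
    obtain ⟨f1, hf1⟩ := EuclideanDomain.gcd_dvd_left (f.map (algebraMap R K))
      (g.map (algebraMap R K))
    obtain ⟨g1, hg1⟩ := EuclideanDomain.gcd_dvd_right (f.map (algebraMap R K))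
      (g.map (algebraMap R K))
    generalize EuclideanDomain.gcd (f.map (algebraMap R K)) (g.map (algebraMap R K)) = d at *
    have hf' : f.map (algebraMap R K) ≠ 0 := fun h0 => hf (hinj (by simpa using h0))
    have hd0 : d ≠ 0 := left_ne_zero_of_mul (hf1 ▸ hf')
    have hf10 : f1 ≠ 0 := right_ne_zero_of_mul (hf1 ▸ hf')
    obtain ⟨a, F1, ha, hF⟩ := hn f1
    obtain ⟨b, G1, hb, hG⟩ := hn g1
    have h1 : f * (Polynomial.C a * G1) = g * (Polynomial.C b * F1) := by
      apply hinj
      simp only [Polynomial.map_mul, Polynomial.map_C, hF, hG, hf1, hg1]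
      ring
    have h2 : f ∣ Polynomial.C b * F1 := h.dvd_of_dvd_mul_left ⟨_, h1.symm⟩
    have ha' : algebraMap R K a ≠ 0 := fun h0 => ha (IsFractionRing.injective R K (by simpa using h0))
    have hF0 : F1 ≠ 0 := by
      rintro rfl
      exact mul_ne_zero (Polynomial.C_ne_zero.2 ha') hf10 (by simpa using hF.symm)
    have h3 := Polynomial.natDegree_le_of_dvd h2 (mul_ne_zero (Polynomial.C_ne_zero.2 hb) hF0)
    rw [Polynomial.natDegree_C_mul hb,
      ← Polynomial.natDegree_map_eq_of_injective (IsFractionRing.injective R K) f,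
      ← Polynomial.natDegree_map_eq_of_injective (IsFractionRing.injective R K) F1, hF, hf1,
      Polynomial.natDegree_C_mul ha', Polynomial.natDegree_mul hd0 hf10] at h3
    exact hc (Polynomial.isUnit_iff_degree_eq_zero.2 (by
      rw [Polynomial.degree_eq_natDegree hd0]
      exact_mod_cast (by omega : d.natDegree = 0)))

variable {k : Type} [Field k]

lemma Elim.exists_not_mem_vars {f g : MvPolynomial (Fin 3) k} (hf : f ≠ 0) (h : IsRelPrime f g)
    (l : Fin 3) : ∃ r : MvPolynomial (Fin 3) k, r ≠ 0 ∧ r ∈ Ideal.span {f, g} ∧ l ∉ r.vars := by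
  let e : MvPolynomial (Fin 3) k ≃ₐ[k] Polynomial (MvPolynomial {i // i ≠ l} k) :=
    (renameEquiv k (Equiv.optionSubtypeNe l).symm).trans (optionEquivLeft k _)
  have h1 : IsRelPrime (e f) (e g) := by
    intro d hd1 hd2
    have := h (d := e.symm d) (by simpa using map_dvd e.symm hd1) (by simpa using map_dvd e.symm hd2)
    simpa using this.map e
  obtain ⟨r, hr0, hr⟩ := Elim.exists_C_mem ((map_ne_zero_iff e e.injective).2 hf) h1
  have h2 : ∀ r, e.symm (Polynomial.C r) = rename Subtype.val r := by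
    intro r
    rw [AlgEquiv.symm_apply_eq]
    induction r using MvPolynomial.induction_on with
    | C c => simp [e]
    | add p q hp hq => rw [map_add, map_add, map_add, hp, hq]
    | mul_X p i hp =>
      rw [map_mul, map_mul, map_mul, hp, rename_X]
      congr 1
      simp [e, Equiv.optionSubtypeNe_symm_of_ne i.2]
  refine ⟨e.symm (Polynomial.C r), ?_, ?_, ?_⟩
  · exact (map_ne_zero_iff e.symm e.symm.injective).2 (Polynomial.C_ne_zero.2 hr0)
  · obtain ⟨A, B, hAB⟩ := Ideal.mem_span_pair.1 hr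
    refine Ideal.mem_span_pair.2 ⟨e.symm A, e.symm B, ?_⟩
    rw [← hAB]
    simp
  · rw [h2]
    intro hl
    obtain ⟨i, _, hi⟩ := mem_vars_rename _ _ hl
    exact i.2 hi

lemma Elim.aeval_mul {A : Type} [CommRing A] [Algebra k A] {r : MvPolynomial (Fin 3) k} {e : ℕ}
    (h : r.IsHomogeneous e) (c : A) (y : Fin 3 → A) :
    aeval (fun m => c * y m) r = c ^ e * aeval y r := by
  conv_lhs => rw [r.as_sum]
  conv_rhs => rw [r.as_sum]
  rw [map_sum, map_sum, Finset.mul_sum]
  refine Finset.sum_congr rfl fun d hd => ?_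
  rw [aeval_monomial, aeval_monomial, Finsupp.prod, Finsupp.prod, h.degree_eq_sum_deg_support hd]
  simp only [mul_pow, Finset.prod_mul_distrib, Finset.prod_pow_eq_pow_sum]
  ring

/-- dehomogenisation of a binary form -/
def Elim.deh (i j : Fin 3) (r : MvPolynomial (Fin 3) k) : Polynomial k :=
  aeval (fun m => if m = i then 1 else if m = j then Polynomial.X else 0) r

lemma Elim.aeval_deh {A : Type} [CommRing A] [Algebra k A] {r : MvPolynomial (Fin 3) k}
    {i j : Fin 3} (h : ∀ m ∈ r.vars, m = i ∨ m = j) {t : Fin 3 → A} (ht : t i = 1) :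
    Polynomial.aeval (t j) (Elim.deh i j r) = aeval t r := by
  have h1 := comp_aeval_apply (Polynomial.aeval (t j) : Polynomial k →ₐ[k] A)
    (f := fun m => if m = i then 1 else if m = j then Polynomial.X else 0) r
  rw [Elim.deh, h1]
  refine eval₂Hom_congr' rfl (fun m hm _ => ?_) rfl
  by_cases h3 : m = i
  · simp [h3, ht]
  · have h2 : m = j := (h m hm).resolve_left h3
    rw [if_neg h3, if_pos h2, Polynomial.aeval_X, h2]

lemma Elim.deh_ne_zero {r : MvPolynomial (Fin 3) k} {e : ℕ} (hr : r.IsHomogeneous e) (h0 : r ≠ 0)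
    {i j : Fin 3} (h : ∀ m ∈ r.vars, m = i ∨ m = j) : Elim.deh i j r ≠ 0 := by
  intro hd
  let K := FractionRing (MvPolynomial (Fin 3) k)
  let y : Fin 3 → K := fun m => algebraMap (MvPolynomial (Fin 3) k) K (X m)
  have hinj := IsFractionRing.injective (MvPolynomial (Fin 3) k) K
  have hy : y i ≠ 0 := (map_ne_zero_iff _ hinj).2 (X_ne_zero i)
  have h1 : aeval y r = algebraMap (MvPolynomial (Fin 3) k) K r := by
    have := comp_aeval_apply (IsScalarTower.toAlgHom k (MvPolynomial (Fin 3) k) K) (f := X) r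
    rw [aeval_X_left_apply] at this
    exact this.symm
  have h2 := Elim.aeval_deh (A := K) h (t := fun m => (y i)⁻¹ * y m) (inv_mul_cancel₀ hy)
  rw [hd, map_zero, Elim.aeval_mul hr, h1] at h2
  exact mul_ne_zero (pow_ne_zero _ (inv_ne_zero hy)) ((map_ne_zero_iff _ hinj).2 h0) h2.symm

lemma Elim.third {i j : Fin 3} (h : i ≠ j) : ∃ l : Fin 3, ∀ m, m ≠ l → m = i ∨ m = j := by
  revert i j
  decide

lemma Elim.mem_of_isIntegral {K R : Type} [Field K] [CommRing R] [Algebra R K]
    (A : ValuationSubring K) (h : ∀ r : R, algebraMap R K r ∈ A) {x : K} (hx : IsIntegral R x) :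
    x ∈ A := by
  have h1 : IsIntegral A x :=
    IsIntegral.map_of_comp_eq ((algebraMap R K).codRestrict A h) (RingHom.id K) rfl hx
  obtain ⟨y, rfl⟩ := IsIntegrallyClosed.isIntegral_iff.1 h1
  exact y.2

end Vale.Agent.P190
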