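import Vale.Agent.P190.Plane
import Vale.Agent.P190.ElimA

/-! Elimination for two coprime ternary forms, and recognition of prime divisors. -/

open Module MvPolynomial

noncomputable section

namespace Vale.Agent.P190

variable {k F : Type} [Field k] [Field F] [Algebra k F] (P : P2 k F)

/-- two forms without common prime divisor generate an ideal containing a non-zero binary form
in any two of the variables -/
theorem exists_elim {f g : MvPolynomial (Fin 3) k} {a b : ℕ} (hf : f.IsHomogeneous a)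
    (hg : g.IsHomogeneous b) (hf0 : f ≠ 0) (h : ∀ u : PU k, f ∈ u.1 → g ∉ u.1) (l : Fin 3) :
    ∃ (r : MvPolynomial (Fin 3) k) (e : ℕ), r ≠ 0 ∧ r.IsHomogeneous e ∧
      r ∈ Ideal.span {f, g} ∧ l ∉ r.vars := by
  have h1 : IsRelPrime f g := by
    refine WfDvdMonoid.isRelPrime_of_no_irreducible_factors (fun h => hf0 h.1) fun p hp h1 h2 => ?_
    obtain ⟨d, hd⟩ := Plane.isHomogeneous_of_dvd hf hf0 h1
    exact h (Plane.mkU hp.prime hd) (Ideal.mem_span_singleton.2 h1) (Ideal.mem_span_singleton.2 h2)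
  obtain ⟨r, hr0, hr, hl⟩ := Elim.exists_not_mem_vars hf0 h1 l
  obtain ⟨e, he⟩ : ∃ e, homogeneousComponent e r ≠ 0 := by
    by_contra h2
    push Not at h2
    apply hr0
    rw [← sum_homogeneousComponent r]
    exact Finset.sum_eq_zero fun i _ => h2 i
  refine ⟨_, e, he, homogeneousComponent_isHomogeneous _ _, ?_, fun hl' => hl ?_⟩
  · let := MvPolynomial.gradedAlgebra (σ := Fin 3) (R := k)
    refine homogeneousComponent_mem_of_mem (Ideal.homogeneous_span _ _ ?_) hr e
    rintro x (rfl | rfl)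
    · exact ⟨a, hf⟩
    · exact ⟨b, hg⟩
  · rw [mem_vars_iff_mem_support] at hl' ⊢
    obtain ⟨d, hd, hd'⟩ := hl'
    rw [support_homogeneousComponent] at hd
    exact ⟨d, (Finset.mem_filter.1 hd).1, hd'⟩

/-- for all but finitely many `c` the line `hlin c` misses the common zeros -/
theorem exists_pow_le_span_hlin [IsAlgClosed k] {f g : MvPolynomial (Fin 3) k} {a b : ℕ}
    (hf : f.IsHomogeneous a) (hg : g.IsHomogeneous b) (hf0 : f ≠ 0)
    (h : ∀ u : PU k, f ∈ u.1 → g ∉ u.1) : ∃ T : Set k, T.Finite ∧ ∀ c ∉ T, ∃ N : ℕ,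
      ∀ i : Fin 3, (X i : MvPolynomial (Fin 3) k) ^ N ∈ Ideal.span {f, g, hlin c} := by
  have hZ : ∀ i : Fin 3, {x : Fin 3 → k | x i = 1 ∧ aeval x f = 0 ∧ aeval x g = 0}.Finite := by
    intro i
    have h1 : ∀ j : Fin 3, ∃ S : Set k, S.Finite ∧
        ∀ x : Fin 3 → k, x i = 1 ∧ aeval x f = 0 ∧ aeval x g = 0 → x j ∈ S := by
      intro j
      by_cases hij : i = j
      · exact ⟨{1}, Set.finite_singleton _, fun x hx => hij ▸ hx.1⟩
      obtain ⟨l, hl⟩ := Elim.third hij
      obtain ⟨r, e, hr0, hre, hr, hlr⟩ := exists_elim hf hg hf0 h l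
      have hv : ∀ m ∈ r.vars, m = i ∨ m = j := fun m hm => hl m fun h' => hlr (h' ▸ hm)
      refine ⟨_, Polynomial.finite_setOfPred_isRoot (Elim.deh_ne_zero hre hr0 hv), fun x hx => ?_⟩
      have h2 := Elim.aeval_deh hv hx.1
      obtain ⟨A, B, rfl⟩ := Ideal.mem_span_pair.1 hr
      rw [map_add, map_mul, map_mul, hx.2.1, hx.2.2, mul_zero, mul_zero, add_zero,
        Polynomial.coe_aeval_eq_eval] at h2
      exact h2
    choose S hS hS' using h1
    exact (Set.Finite.pi' hS).subset fun x hx j => hS' j x hx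
  have hev : ∀ (x : Fin 3 → k) (c : k), aeval x (hlin c) = x 0 + c * x 1 + c ^ 2 * x 2 := by
    intro x c
    simp [hlin]
  refine ⟨⋃ i : Fin 3, ⋃ x ∈ {x : Fin 3 → k | x i = 1 ∧ aeval x f = 0 ∧ aeval x g = 0},
    {c | aeval x (hlin c) = 0}, Set.finite_iUnion fun i => (hZ i).biUnion fun x hx => ?_,
    fun c hc => ?_⟩
  · have h1 : (Polynomial.C (x 2) * Polynomial.X ^ 2 + Polynomial.C (x 1) * Polynomial.X
        + Polynomial.C (x 0) : Polynomial k) ≠ 0 := by
      intro h0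
      have h2 := congrArg (Polynomial.coeff · 0) h0
      have h3 := congrArg (Polynomial.coeff · 1) h0
      have h4 := congrArg (Polynomial.coeff · 2) h0
      simp [Polynomial.coeff_X, Polynomial.coeff_C] at h2 h3 h4
      have h5 : x i = 1 := hx.1
      fin_cases i <;> simp_all
    refine (Polynomial.finite_setOfPred_isRoot h1).subset fun c hc => ?_
    have h2 : aeval x (hlin c) = 0 := hc
    rw [hev] at h2
    simp only [Set.mem_ofPred_eq, Polynomial.IsRoot.def, Polynomial.eval_add, Polynomial.eval_mul,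
      Polynomial.eval_C, Polynomial.eval_pow, Polynomial.eval_X]
    linear_combination h2
  · have h1 : ∀ i : Fin 3, (X i : MvPolynomial (Fin 3) k) ∈
        (Ideal.span {f, g, hlin c}).radical := by
      intro i
      rw [← vanishingIdeal_zeroLocus_eq_radical (K := k), mem_vanishingIdeal_iff]
      intro x hx
      rw [zeroLocus_span] at hx
      rw [aeval_X]
      by_contra hxi
      apply hc
      simp only [Set.mem_iUnion]
      refine ⟨i, fun m => (x i)⁻¹ * x m, ⟨inv_mul_cancel₀ hxi, ?_, ?_⟩, ?_⟩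
      · rw [Elim.aeval_mul hf, hx f (by simp), mul_zero]
      · rw [Elim.aeval_mul hg, hx g (by simp), mul_zero]
      · have h2 := hx (hlin c) (by simp)
        rw [hev] at h2
        change aeval _ (hlin c) = 0
        rw [hev]
        linear_combination (x i)⁻¹ * h2
    choose n hn using h1
    refine ⟨∑ i, n i, fun i => ?_⟩
    exact Ideal.pow_mem_of_pow_mem _ (hn i)
      (Finset.single_le_sum (f := n) (fun _ _ => Nat.zero_le _) (Finset.mem_univ i))

lemma hlin_isHomogeneous (c : k) : (hlin c).IsHomogeneous 1 := by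
  exact ((isHomogeneous_X k 0).add (isHomogeneous_C_mul_X _ _)).add (isHomogeneous_C_mul_X _ _)

lemma hlin_ne_zero (c : k) : hlin c ≠ 0 := by
  intro h
  have := congrArg (eval ![1, 0, 0]) h
  simp [hlin] at this

variable (K : Type) [Field K] [Algebra F K] [Algebra k K] [IsScalarTower k F K]

/-- a valuation ring on which a coordinate ratio has transcendental residue is centred at a prime
divisor of the plane -/
theorem P2.exists_place [IsAlgClosed k] [FiniteDimensional F K] (A : ValuationSubring K)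
    (hk : ∀ c : k, algebraMap k K c ∈ A) (hA : A ≠ ⊤) (i₀ : Fin 3)
    (hmin : ∀ i, P.s K i / P.s K i₀ ∈ A)
    (htr : ∃ i, i ≠ i₀ ∧ ∀ c : k, (P.s K i / P.s K i₀ - algebraMap k K c)⁻¹ ∈ A) :
    ∃ u : PU k, P.OK K u ≤ A.toSubring := by
  let t : Fin 3 → K := fun m => (P.s K i₀)⁻¹ * P.s K m
  have ht : ∀ m, t m = P.s K m / P.s K i₀ := fun m => (div_eq_inv_mul _ _).symm
  have hs0 := P.s_ne_zero K i₀
  have hθ : ∀ φ : MvPolynomial (Fin 3) k, aeval t φ ∈ A := by
    intro φ
    induction φ using MvPolynomial.induction_on with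
    | C c => rw [aeval_C]; exact hk c
    | add p q hp hq => rw [map_add]; exact add_mem hp hq
    | mul_X p i hp => rw [map_mul, aeval_X, ht]; exact mul_mem hp (hmin i)
  let θ : MvPolynomial (Fin 3) k →+* A :=
    (aeval t : MvPolynomial (Fin 3) k →ₐ[k] K).toRingHom.codRestrict A hθ
  let 𝔭 : Ideal (MvPolynomial (Fin 3) k) := (IsLocalRing.maximalIdeal A).comap θ
  have h𝔭 : 𝔭.IsPrime := Ideal.comap_isPrime _ _
  have hmem : ∀ φ, aeval t φ ≠ 0 → (φ ∉ 𝔭 ↔ (aeval t φ)⁻¹ ∈ A) := by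
    intro φ h0
    rw [Ideal.mem_comap, IsLocalRing.mem_maximalIdeal, mem_nonunits_iff, not_not]
    constructor
    · intro h
      obtain ⟨y, hy⟩ := h.exists_right_inv
      have h1 : aeval t φ * y = 1 := congrArg Subtype.val hy
      rw [← eq_inv_of_mul_eq_one_right h1]
      exact y.2
    · intro h
      exact IsUnit.of_mul_eq_one ⟨_, h⟩ (Subtype.ext (mul_inv_cancel₀ h0))
  have hev : ∀ {φ : MvPolynomial (Fin 3) k} {e : ℕ}, φ.IsHomogeneous e →
      aeval t φ = (P.s K i₀)⁻¹ ^ e * P.ev K φ := by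
    intro φ e he
    rw [P.ev_eq_aeval, ← Elim.aeval_mul he]
  have hne : ∀ {φ : MvPolynomial (Fin 3) k} {e : ℕ}, φ.IsHomogeneous e → φ ≠ 0 →
      aeval t φ ≠ 0 := by
    intro φ e he h0
    rw [hev he]
    exact mul_ne_zero (pow_ne_zero _ (inv_ne_zero hs0)) (P.ev_ne_zero K he h0)
  have hfrac : ∀ {x : F} {j : ℕ} {a b : MvPolynomial (Fin 3) k}, a.IsHomogeneous j →
      b.IsHomogeneous j → b ≠ 0 → b ∉ 𝔭 → x * aeval P.σ b = aeval P.σ a →
      algebraMap F K x ∈ A := by
    intro x j a b ha hb hb0 hb𝔭 h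
    have h1 := mul_mem (hθ a) ((hmem b (hne hb hb0)).1 hb𝔭)
    convert h1 using 1
    have h2 := P.ev_ne_zero K hb hb0
    have h3 : P.ev K a = algebraMap F K x * P.ev K b := by
      rw [P2.ev, P2.ev, ← h, map_mul]
    rw [hev ha, hev hb, h3]
    field_simp
  obtain ⟨φ₀, e₀, he₀, h0, hφ₀⟩ : ∃ (φ : MvPolynomial (Fin 3) k) (e : ℕ), φ.IsHomogeneous e ∧
      φ ≠ 0 ∧ φ ∈ 𝔭 := by
    by_contra hcon
    push Not at hcon
    apply hA
    rw [eq_top_iff]
    intro x _
    refine Elim.mem_of_isIntegral (R := F) A (fun y => ?_) (Algebra.IsIntegral.isIntegral x)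
    obtain ⟨j, a, b, ha, hb, hb0, h⟩ := P.gen y
    exact hfrac ha hb hb0 (hcon b j hb hb0) h
  obtain ⟨φ, hφ1, hφ2⟩ := (h𝔭.multiset_prod_mem_iff_exists_mem
    (UniqueFactorizationMonoid.factors φ₀)).1
    ((Ideal.mem_iff_of_associated (UniqueFactorizationMonoid.factors_prod h0)).2 hφ₀)
  have hp := UniqueFactorizationMonoid.prime_of_factor φ hφ1
  obtain ⟨e, he⟩ := Plane.isHomogeneous_of_dvd he₀ h0
    (UniqueFactorizationMonoid.dvd_of_mem_factors hφ1)
  have key : ∀ {ψ : MvPolynomial (Fin 3) k} {j : ℕ}, ψ.IsHomogeneous j →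
      ψ ∉ (Plane.mkU hp he).1 → ψ ∉ 𝔭 := by
    intro ψ j hψ hψu hψ𝔭
    obtain ⟨i, hi, htr⟩ := htr
    obtain ⟨l, hl⟩ := Elim.third hi.symm
    obtain ⟨r, d, hr0, hrd, hr, hlr⟩ := exists_elim he hψ hp.ne_zero (fun u hu hu' => by
      obtain ⟨φ', _, _, _, hp', hφ', _⟩ := u.exists_gen
      rw [hφ', Ideal.mem_span_singleton] at hu hu'
      exact hψu (Ideal.mem_span_singleton.2
        ((hp'.associated_of_dvd hp hu).symm.dvd.trans hu'))) l
    have hv : ∀ m ∈ r.vars, m = i₀ ∨ m = i := fun m hm => hl m fun h' => hlr (h' ▸ hm)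
    have hr𝔭 : r ∈ 𝔭 := by
      obtain ⟨a, b, rfl⟩ := Ideal.mem_span_pair.1 hr
      exact add_mem (Ideal.mul_mem_left _ _ hφ2) (Ideal.mul_mem_left _ _ hψ𝔭)
    refine (hmem r (hne hrd hr0)).2 ?_ hr𝔭
    rw [← Elim.aeval_deh hv (inv_mul_cancel₀ hs0),
      (IsAlgClosed.splits (Elim.deh i₀ i r)).eq_prod_roots, map_mul, Polynomial.aeval_C, mul_inv,
      ← map_inv₀, map_multiset_prod, Multiset.map_map, ← Multiset.prod_map_inv]
    refine mul_mem (hk _) (multiset_prod_mem _ fun y hy => ?_)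
    obtain ⟨c, _, rfl⟩ := Multiset.mem_map.1 hy
    simpa [ht] using htr c
  refine ⟨Plane.mkU hp he, fun x hx => ?_⟩
  refine Elim.mem_of_isIntegral (R := P.O (Plane.mkU hp he)) A (fun y => ?_) hx
  obtain ⟨j, a, b, ha, hb, hbu, h⟩ := y.2
  exact hfrac ha hb (Plane.ne_zero_of_notMem hbu) (key hb hbu) h

end Vale.Agent.P190
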