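import Vale.Agent.P190.Lat2

/-! Change of the field. -/

open Module
open scoped TensorProduct Pointwise

noncomputable section

namespace Vale.Agent.P190

variable {U K₀ K : Type} [Field K₀] [Field K] [Algebra K₀ K]

lemma mem_ext (O₀ : Fam U K₀) (u : U) (x : K) : x ∈ ext O₀ K u ↔ IsIntegral (O₀ u) x := Iff.rfl

lemma over_ext (O₀ : Fam U K₀) : Over O₀ (ext O₀ K) := by
  intro u x hx
  exact isIntegral_algebraMap (x := (⟨x, hx⟩ : O₀ u))

lemma IsFam.ext_self {O : Fam U K} (hO : IsFam O) : ext O K = O := by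
  funext u
  ext x
  exact ⟨hO.mem_of_isIntegral u, fun hx => isIntegral_algebraMap (x := (⟨x, hx⟩ : O u))⟩

lemma ext_ext (O₀ : Fam U K₀) (K₂ : Type) [Field K₂] [Algebra K K₂] [Algebra K₀ K₂]
    [IsScalarTower K₀ K K₂] : ext (ext O₀ K) K₂ = ext O₀ K₂ := by
  funext u
  ext x
  change IsIntegral (integralClosure (O₀ u) K) x ↔ IsIntegral (O₀ u) x
  exact ⟨isIntegral_trans x, IsIntegral.tower_top⟩

lemma HasK.ext {k : Type} [Field k] [Algebra k K₀] [Algebra k K] [IsScalarTower k K₀ K]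
    {O₀ : Fam U K₀} (h : HasK k O₀) : HasK k (P190.ext O₀ K) := by
  intro u c
  rw [IsScalarTower.algebraMap_apply k K₀ K]
  exact over_ext O₀ u _ (h u c)

lemma IsFam.mem_of_algebraMap_mem_ext {O₀ : Fam U K₀} (h : IsFam O₀) (u : U) {x : K₀}
    (hx : algebraMap K₀ K x ∈ P190.ext O₀ K u) : x ∈ O₀ u := by
  exact h.mem_of_isIntegral u ((isIntegral_algebraMap_iff (algebraMap K₀ K).injective).1 hx)

lemma IsFam.norm_mem {O₀ : Fam U K₀} (h : IsFam O₀) [FiniteDimensional K₀ K] (u : U) {x : K}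
    (hx : x ∈ P190.ext O₀ K u) : Algebra.norm K₀ x ∈ O₀ u := by
  exact h.mem_of_isIntegral u (Algebra.isIntegral_norm K₀ hx)

lemma IsFam.trace_mem {O₀ : Fam U K₀} (h : IsFam O₀) [FiniteDimensional K₀ K] (u : U) {x : K}
    (hx : x ∈ P190.ext O₀ K u) : Algebra.trace K₀ K x ∈ O₀ u := by
  exact h.mem_of_isIntegral u (Algebra.isIntegral_trace hx)

lemma map_mem_ext (O₀ : Fam U K₀) {K' : Type} [Field K'] [Algebra K₀ K'] (σ : K →ₐ[K₀] K')
    (u : U) {x : K} (hx : x ∈ ext O₀ K u) : σ x ∈ ext O₀ K' u := by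
  exact IsIntegral.map (σ.restrictScalars (O₀ u)) hx

lemma Ext.isFractionRing {O : Fam U K} (hO : IsFam O) (u : U) : IsFractionRing (O u) K := by
  refine IsFractionRing.of_field _ _ fun z => ?_
  obtain ⟨b, hb, hb0, hbz⟩ := hO.frac u z
  refine ⟨⟨_, hbz⟩, ⟨_, hb⟩, ?_⟩
  change z = b * z / b
  field_simp

lemma Ext.frac₀ {O₀ : Fam U K₀} (h : IsFam O₀) [Algebra.IsAlgebraic K₀ K] (u : U) (x : K) :
    ∃ b ∈ O₀ u, b ≠ 0 ∧ b • x ∈ ext O₀ K u := by
  have := Ext.isFractionRing h u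
  have h1 : IsAlgebraic (O₀ u) x :=
    (IsFractionRing.isAlgebraic_iff (O₀ u) K₀ K).2 (Algebra.IsAlgebraic.isAlgebraic x)
  obtain ⟨y, hy, hyx⟩ := h1.exists_integral_multiple
  exact ⟨y, y.2, fun h0 => hy (Subtype.ext h0), hyx⟩

lemma Ext.frac {O₀ : Fam U K₀} (h : IsFam O₀) [Algebra.IsAlgebraic K₀ K] (u : U) (x : K) :
    ∃ b ∈ ext O₀ K u, b ≠ 0 ∧ b * x ∈ ext O₀ K u := by
  obtain ⟨b, hb, hb0, hbx⟩ := Ext.frac₀ h u x
  exact ⟨algebraMap K₀ K b, over_ext O₀ u b hb, (map_ne_zero _).2 hb0,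
    by rwa [← Algebra.smul_def]⟩

lemma Ext.fin {O₀ : Fam U K₀} (h : IsFam O₀) [Algebra.IsAlgebraic K₀ K] (x : K) :
    {u | x ∉ ext O₀ K u}.Finite := by
  obtain ⟨p, hp, hpx⟩ := (Algebra.IsAlgebraic.isAlgebraic (R := K₀) x).isIntegral
  refine (p.coeffs.finite_toSet.biUnion fun c _ => h.fin c).subset fun u hu => ?_
  by_contra hc
  simp only [Set.mem_iUnion, Set.mem_ofPred_eq, not_exists, not_not] at hc
  refine hu ⟨p.toSubring (O₀ u) hc, (Polynomial.monic_toSubring _ _ _).2 hp, ?_⟩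
  rw [← Polynomial.map_toSubring p (O₀ u) hc, Polynomial.eval₂_map] at hpx
  exact hpx

lemma IsSL.ext {O₀ : Fam U K₀} (h : IsSL O₀) [FiniteDimensional K₀ K]
    [Algebra.IsSeparable K₀ K] : IsSL (ext O₀ K) := by
  have hpid : ∀ u, {I : Ideal (integralClosure (O₀ u) K) | I.IsMaximal}.Finite ∧
      IsPrincipalIdealRing (integralClosure (O₀ u) K) := by
    intro u
    have := h.pid u
    have := Ext.isFractionRing h.isFam u
    have := IsIntegralClosure.isDedekindDomain (O₀ u) K₀ K (integralClosure (O₀ u) K)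
    have := IsIntegralClosure.finite (O₀ u) K₀ K (integralClosure (O₀ u) K)
    have h1 : {I : Ideal (integralClosure (O₀ u) K) | I.IsMaximal}.Finite := by
      refine ((h.semiloc u).biUnion fun p _ => Algebra.QuasiFinite.finite_primesOver
        (S := integralClosure (O₀ u) K) p).subset fun I hI => ?_
      have : I.IsMaximal := hI
      exact Set.mem_biUnion (Ideal.isMaximal_comap_of_isIntegral_of_isMaximal (R := O₀ u) I)
        ⟨this.isPrime, ⟨rfl⟩⟩
    exact ⟨h1, IsPrincipalIdealRing.of_finite_maximals h1⟩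
  refine ⟨⟨fun u => ?_, Ext.frac h.isFam, Ext.fin h.isFam⟩, fun u => (hpid u).2,
    fun u => (hpid u).1⟩
  have : IsPrincipalIdealRing (P190.ext O₀ K u) := (hpid u).2
  infer_instance

lemma IsSL.finOver_ext {O₀ : Fam U K₀} (h : IsSL O₀) [FiniteDimensional K₀ K]
    [Algebra.IsSeparable K₀ K] : FinOver O₀ (P190.ext O₀ K) := by
  classical
  refine ⟨over_ext O₀, fun u => ?_, ?_⟩
  · have := h.pid u
    have := Ext.isFractionRing h.isFam u
    obtain ⟨S, hS⟩ := (IsIntegralClosure.finite (O₀ u) K₀ K (integralClosure (O₀ u) K)).fg_top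
    have h1 : triv (P190.ext O₀ K) u = spanO (O₀ u) (Subtype.val '' (S : Set (integralClosure (O₀ u) K))) := by
      ext x
      have h2 := congrArg (Submodule.map (integralClosure (O₀ u) K).val.toLinearMap) hS
      rw [Submodule.map_span] at h2
      rw [mem_spanO_iff]
      change _ ↔ x ∈ Submodule.span (O₀ u) ((integralClosure (O₀ u) K).val.toLinearMap '' _)
      rw [h2]
      exact ⟨fun hx => ⟨⟨x, hx⟩, trivial, rfl⟩, by rintro ⟨y, -, rfl⟩; exact y.2⟩
    rw [h1]
    refine isLat_spanO (h.isFam.frac u) (S.finite_toSet.image _) (eq_top_iff.2 fun x _ => ?_)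
    obtain ⟨b, -, hb0, hbx⟩ := Ext.frac₀ h.isFam u x
    have h3 : b • x ∈ spanO (O₀ u) (Subtype.val '' (S : Set (integralClosure (O₀ u) K))) := h1 ▸ hbx
    exact (Submodule.smul_mem_iff _ hb0).1
      (Submodule.span_subset_span (O₀ u) K₀ _ (mem_spanO_iff.1 h3))
  · let b := Module.finBasis K₀ K
    let e := (Algebra.traceForm K₀ K).dualBasis (traceForm_nondegenerate K₀ K) b
    refine ⟨_, e, ((Set.finite_iUnion fun i => Ext.fin h.isFam (b i)).union
      (Set.finite_iUnion fun i => Ext.fin h.isFam (e i))).subset fun u hu => ?_⟩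
    by_contra hc
    simp only [Set.mem_union, Set.mem_ofPred_eq, Set.mem_iUnion, not_or, not_not,
      not_exists] at hc
    refine hu (le_antisymm (fun x hx i => ?_) (Lat1.latt_le e hc.2 fun c hc x hx => ?_))
    · rw [LinearMap.BilinForm.dualBasis_repr_apply, Algebra.traceForm_apply]
      exact h.isFam.trace_mem u ((P190.ext O₀ K u).mul_mem hx (hc.1 i))
    · rw [Algebra.smul_def]
      exact (P190.ext O₀ K u).mul_mem (over_ext O₀ u c hc) hx

/-- the integral closures in an algebraic separable extension are Bezout domains -/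
lemma IsSL.isFam_ext {O₀ : Fam U K₀} (h : IsSL O₀) [Algebra.IsSeparable K₀ K] :
    IsFam (P190.ext O₀ K) := by
  refine ⟨fun u => ?_, Ext.frac h.isFam, Ext.fin h.isFam⟩
  rw [IsBezout.iff_span_pair_isPrincipal]
  intro x y
  let K' := IntermediateField.adjoin K₀ {x.1, y.1}
  have : FiniteDimensional K₀ K' := IntermediateField.finiteDimensional_adjoin
    fun z _ => Algebra.IsIntegral.isIntegral z
  have hx' : x.1 ∈ K' := IntermediateField.subset_adjoin _ _ (by simp)
  have hy' : y.1 ∈ K' := IntermediateField.subset_adjoin _ _ (by simp)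
  have hmem : ∀ z : K', z.1 ∈ P190.ext O₀ K u → z ∈ P190.ext O₀ K' u := fun z hz =>
    (isIntegral_algHom_iff (K'.val.restrictScalars (O₀ u)) Subtype.val_injective).1 hz
  have := (h.ext (K := K')).pid u
  let φ : P190.ext O₀ K' u →+* P190.ext O₀ K u :=
    (K'.val.toRingHom.comp (P190.ext O₀ K' u).subtype).codRestrict _
      fun z => map_mem_ext O₀ K'.val u z.2
  let x' : P190.ext O₀ K' u := ⟨⟨x.1, hx'⟩, hmem _ x.2⟩
  let y' : P190.ext O₀ K' u := ⟨⟨y.1, hy'⟩, hmem _ y.2⟩
  obtain ⟨g, hg⟩ := (IsPrincipalIdealRing.principal (Ideal.span {x', y'})).principal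
  have h1 := congrArg (Ideal.map φ) hg
  rw [Ideal.submodule_span_eq, Ideal.map_span, Ideal.map_span, Set.image_pair,
    Set.image_singleton] at h1
  exact ⟨φ g, h1⟩

variable {O₀ : Fam U K₀} {O : Fam U K}

lemma FinOver.mem_of_algebraMap_mem (h : FinOver O₀ O) (h₀ : IsFam O₀) (u : U) {x : K₀}
    (hx : algebraMap K₀ K x ∈ O u) : x ∈ O₀ u := by
  obtain ⟨n, e, he⟩ := h.bun.lat u
  obtain ⟨i⟩ := e.index_nonempty
  have h1 : e i ∈ triv O u := he ▸ Lat1.basis_mem e i
  have h2 : x • e i ∈ triv O u := by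
    rw [Algebra.smul_def]
    exact (O u).mul_mem hx h1
  rw [he] at h2
  simpa using h2 i

lemma dv_map (h : Over O₀ O) (c : Div O₀) (u : U) :
    dv (Div.map h c) u = algebraMap K₀ K (dv c u) := rfl

lemma Div.map_mul (h : Over O₀ O) (c c' : Div O₀) :
    Div.map h (c * c') = Div.map h c * Div.map h c' := by
  exact Subtype.ext (funext fun u => _root_.map_mul _ _ _)
lemma Div.map_one (h : Over O₀ O) : Div.map h 1 = 1 := by
  exact Subtype.ext (funext fun u => _root_.map_one _)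
/-- pull-back of divisors as a homomorphism -/
def Ext.mapHom (h : Over O₀ O) : Div O₀ →* Div O where
  toFun := Div.map h
  map_one' := Div.map_one h
  map_mul' := Div.map_mul h
lemma Div.map_inv (h : Over O₀ O) (c : Div O₀) : Div.map h c⁻¹ = (Div.map h c)⁻¹ := by
  exact _root_.map_inv (Ext.mapHom h) c
lemma Div.map_zpow (h : Over O₀ O) (c : Div O₀) (n : ℤ) :
    Div.map h (c ^ n) = Div.map h c ^ n := by
  exact _root_.map_zpow (Ext.mapHom h) c n
lemma Div.map_pow (h : Over O₀ O) (c : Div O₀) (n : ℕ) :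
    Div.map h (c ^ n) = Div.map h c ^ n := by
  exact _root_.map_pow (Ext.mapHom h) c n
lemma Div.map_prod (h : Over O₀ O) {ι : Type} (s : Finset ι) (c : ι → Div O₀) :
    Div.map h (∏ i ∈ s, c i) = ∏ i ∈ s, Div.map h (c i) := by
  exact _root_.map_prod (Ext.mapHom h) c s
lemma SameDiv.map (h : Over O₀ O) {c c' : Div O₀} (hc : SameDiv c c') :
    SameDiv (Div.map h c) (Div.map h c') := by
  intro u
  have := (hc u).map (h u)
  rwa [_root_.map_mul, _root_.map_inv] at this
lemma cl_map_congr (h : Over O₀ O) {c c' : Div O₀} (hc : cl c = cl c') :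
    cl (Div.map h c) = cl (Div.map h c') := by
  rw [← sub_eq_zero, sub_eq_add_neg, ← cl_inv, ← cl_mul, cl_eq_zero_iff] at hc
  rw [← sub_eq_zero, sub_eq_add_neg, ← cl_inv, ← cl_mul, cl_eq_zero_iff, ← Div.map_inv,
    ← Div.map_mul]
  obtain ⟨γ, hγ⟩ := hc
  refine ⟨Units.map (algebraMap K₀ K : K₀ →* K) γ, fun u => ?_⟩
  have := (hγ u).map (h u)
  rwa [_root_.map_mul, _root_.map_inv] at this

lemma map_ofSet (h : Over O₀ O) (h₀ : IsFam O₀) (hO : IsFam O) {S : Set K₀} (hS : S.Finite)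
    (h0 : ∃ x ∈ S, x ≠ 0) :
    SameDiv (Div.map h (ofSet O₀ S)) (ofSet O (algebraMap K₀ K '' S)) := by
  have h0' : ∃ x ∈ algebraMap K₀ K '' S, x ≠ 0 := by
    obtain ⟨x, hx, hx0⟩ := h0
    exact ⟨_, ⟨x, hx, rfl⟩, (map_ne_zero _).2 hx0⟩
  rw [sameDiv_iff]
  intro u
  rw [dv_map]
  constructor
  · have h1 := Lat2.dv_mem_line (ofSet O₀ S) u
    rw [line_ofSet h₀ hS h0] at h1
    rw [div_eq_inv_mul, ← mem_line, line_ofSet hO (hS.image _) h0']
    refine spanO_le (N := (spanO (O u) (algebraMap K₀ K '' S)).comap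
      (algebraMap K₀ K).toAddMonoidHom) (fun s hs => subset_spanO ⟨s, hs, rfl⟩) ?_ h1
    intro c hc x hx
    change algebraMap K₀ K (c * x) ∈ spanO (O u) (algebraMap K₀ K '' S)
    rw [_root_.map_mul]
    exact spanO_smul_mem (h u c hc) hx
  · refine Lat2.dv_div_mem hO (hS.image _) h0' le_rfl ?_
    rintro _ ⟨s, hs, rfl⟩
    rw [← map_div₀, div_eq_inv_mul]
    exact h u _ (mem_line_ofSet h₀ hS hs h0 u)

variable {V : Type} [AddCommGroup V] [Module K V] [Module K₀ V] [IsScalarTower K₀ K V]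

lemma twist_map (h : Over O₀ O) (c : Div O₀) (L : Sys U V) :
    twist (Div.map h c) L = twist c L := by
  funext u
  ext x
  rw [mem_twist, mem_twist, dv_map, ← map_inv₀, algebraMap_smul]

/-- push-forward of a bundle along a finite map -/
lemma IsBun.res (h : FinOver O₀ O) (h₀ : IsFam O₀) {L : Sys U V} (hL : IsBun O L) :
    IsBun O₀ L := by
  have h1 : ∀ {u : U} {n m : ℕ} (b : Basis (Fin m) K₀ K) (e : Basis (Fin n) K V),
      triv O u = latt (O₀ u) b → L u = latt (O u) e → L u = latt (O₀ u) (b.smulTower e) := by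
    intro u n m b e hb he
    ext x
    rw [he, mem_latt, mem_latt, Prod.forall, forall_comm]
    refine forall_congr' fun j => ?_
    change e.repr x j ∈ triv O u ↔ _
    rw [hb, mem_latt]
    simp only [Basis.smulTower_repr]
  obtain ⟨n, e, he⟩ := hL.std
  obtain ⟨m, b, hb⟩ := h.bun.std
  refine Lat1.isBun_of (fun u => ?_) (b.smulTower e) ((he.union hb).subset fun u hu => ?_)
  · obtain ⟨n, e, he⟩ := hL.lat u
    obtain ⟨m, b, hb⟩ := h.bun.lat u
    rw [h1 b e hb he]
    exact isLat_latt _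
  · by_contra hc
    simp only [Set.mem_union, Set.mem_ofPred_eq, not_or, not_not] at hc
    exact hu (h1 b e hc.2 hc.1)

lemma chi_res {k : Type} [Field k] [Module k V] (h : Over O₀ O) (hO : IsFam O)
    [Algebra k K] [IsScalarTower k K V] {a₀ : Div O₀} {a : Div O}
    (ha : SameDiv (Div.map h a₀) a) {L : Sys U V} (hL : IsBun O L) :
    chi k a L = chi k a₀ L := by
  classical
  have h1 : ∀ j : ℤ, h0 k (twist (a ^ j) L) = h0 k (twist (a₀ ^ j) L) := by
    intro j
    rw [← hL.twist_congr (ha.zpow j), ← Div.map_zpow, twist_map]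
  exact congrArg (fun f : ℤ → ℕ => if h : ∃ χ : ℤ, IsHilb f χ then h.choose else 0) (funext h1)

/-- the two ways of restricting a system to a subspace agree -/
lemma sub_restrictScalars (L : Sys U V) (W : Submodule K V) :
    push ((Submodule.restrictScalarsEquiv K₀ K V W).restrictScalars K₀).toLinearMap
      (sub L (W.restrictScalars K₀)) = sub L W := by
  funext u
  ext x
  constructor
  · rintro ⟨y, hy, rfl⟩
    exact hy
  · intro hx
    exact ⟨⟨x.1, x.2⟩, hx, rfl⟩

end Vale.Agent.P190
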