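import Vale.Agent.P190.Good

/-! Admissible embeddings: existence, shift and elementary modification. -/

open Module

noncomputable section

namespace Vale.Agent.P190

variable {k : Type} [Field k] {K : Type} [Field K] [Algebra k K] {S : Set K}
variable {M : Type*} [AddCommGroup M] [Module (Rhat k S) M] [Module k M]
  [IsScalarTower k (Rhat k S) M] {r : ℕ}

namespace Filt1

lemma coeff_mul_le {a b : LaurentSeries K} {j n l : ℤ} (ha : ∀ t < j, a.coeff t = 0)
    (hb : ∀ t < n, b.coeff t = 0) (hl : l ≤ n + j) :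
    (a * b).coeff l = if l = n + j then a.coeff j * b.coeff n else 0 := by
  have key : ∀ ij ∈ Finset.antidiagonal a.isPWO_support b.isPWO_support l,
      l = n + j ∧ ij = (j, n) := by
    intro ij hij
    obtain ⟨h1, h2, h3⟩ := Finset.mem_antidiagonal.1 hij
    have h4 : j ≤ ij.1 := not_lt.1 fun h => h1 (ha _ h)
    have h5 : n ≤ ij.2 := not_lt.1 fun h => h2 (hb _ h)
    exact ⟨by omega, Prod.ext (by simp only; omega) (by simp only; omega)⟩
  rw [HahnSeries.coeff_mul]
  split_ifs with h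
  · refine Finset.sum_eq_single (j, n) (fun ij hij hne => absurd (key ij hij).2 hne) fun hn => ?_
    by_contra h0
    exact hn (Finset.mem_antidiagonal.2 ⟨left_ne_zero_of_mul h0, right_ne_zero_of_mul h0, by omega⟩)
  · exact Finset.sum_eq_zero fun ij hij => absurd (key ij hij).1 h

lemma exists_op (φ : (Fin r → K) →ₗ[K] (Fin r → K)) (e : ℤ) :
    ∃ Φ : (Fin r → LaurentSeries K) →ₗ[k] (Fin r → LaurentSeries K),
      (∀ v n, (fun i => (Φ v i).coeff n) = φ fun j => (v j).coeff (n + e)) ∧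
      ∀ (g : LaurentSeries K) (v : Fin r → LaurentSeries K) i,
        Φ (fun j => g * v j) i = g * Φ v i := by
  let f : (Fin r → LaurentSeries K) → Fin r → LaurentSeries K := fun v i =>
    ∑ j, HahnSeries.single (-e) (φ (Pi.single j 1) i) * v j
  have hf : ∀ v n, (fun i => (f v i).coeff n) = φ fun j => (v j).coeff (n + e) := by
    intro v n
    rw [LinearMap.pi_apply_eq_sum_univ]
    funext i
    simp only [f, HahnSeries.coeff_sum, Finset.sum_apply, Pi.smul_apply, smul_eq_mul]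
    refine Finset.sum_congr rfl fun j _ => ?_
    rw [show n = n + e + -e by ring, HahnSeries.coeff_single_mul_add, mul_comm, neg_add_cancel_right]
    refine congrArg (fun w => _ * φ w i) (funext fun l => ?_)
    rw [Pi.single_apply]
    simp only [eq_comm]
  refine ⟨⟨⟨f, fun v w => ?_⟩, fun c v => ?_⟩, hf, fun g v i => ?_⟩
  · funext i
    simp only [f, Pi.add_apply, mul_add, Finset.sum_add_distrib]
  · funext i
    ext n
    have h1 := congrFun (hf (c • v) n) i
    have h2 := congrFun (hf v n) i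
    simp only [RingHom.id_apply, Pi.smul_apply, HahnSeries.coeff_smul] at h1 h2 ⊢
    rw [h1, h2, ← Pi.smul_apply, ← φ.map_smul_of_tower]
    rfl
  · simp only [f, LinearMap.coe_mk, AddHom.coe_mk, Finset.mul_sum, mul_left_comm]

omit [Module (Rhat k S) M] [IsScalarTower k (Rhat k S) M] in
lemma mem_Fil {ι : M →ₗ[k] (Fin r → LaurentSeries K)} {n : ℤ} {m : M} :
    m ∈ Fil k ι n ↔ ∀ l < n, cf k ι l m = 0 :=
  ⟨fun h l hl => funext fun i => h i l hl, fun h i l hl => congrFun (h l hl) i⟩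

variable {V : Type} [AddCommGroup V] [Module K V] [Module k V] [IsScalarTower k K V]

lemma exists_sum {σ : Type} [Fintype σ] (p : σ → K) (W : Submodule k V) {a : V}
    (ha : a ∈ ⨆ i, smulK (p i) W) : ∃ c : σ → V, (∀ i, c i ∈ W) ∧ a = ∑ i, p i • c i := by
  classical
  induction ha using Submodule.iSup_induction' with
  | mem i a ha =>
    obtain ⟨y, hy, rfl⟩ := mem_smulK.1 ha
    refine ⟨Pi.single i y, fun j => ?_, ?_⟩
    · rw [Pi.single_apply]
      split_ifs
      exacts [hy, W.zero_mem]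
    · simp [Pi.single_apply]
  | zero => exact ⟨0, fun _ => W.zero_mem, by simp⟩
  | add a b _ _ ha hb =>
    obtain ⟨c, h1, rfl⟩ := ha
    obtain ⟨c', h2, rfl⟩ := hb
    exact ⟨c + c', fun i => W.add_mem (h1 i) (h2 i), by simp [Finset.sum_add_distrib]⟩

lemma good_ext {p : Fin 3 → K} {d : ℕ} {G : ℤ → Submodule k V} (π : V →ₗ[K] V)
    (hm : ∀ i j, smulK (p i) (G j) ≤ G (j + d))
    (h1 : Good p d fun j => G j ⊓ (LinearMap.ker π).restrictScalars k)
    (h2 : Good p d fun j => (G j).map (π.restrictScalars k)) : Good p d G := by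
  refine ⟨fun j => Module.Finite.iff_fg.2 (Submodule.fg_of_fg_map_of_fg_inf_ker
    (π.restrictScalars k) (Module.Finite.iff_fg.1 (h2.fin j)) (Module.Finite.iff_fg.1 (h1.fin j))),
    hm, ?_⟩
  obtain ⟨j1, h1⟩ := h1.gen
  obtain ⟨j2, h2⟩ := h2.gen
  refine ⟨max j1 j2, fun j hj g hg => ?_⟩
  obtain ⟨c, hc, e⟩ := exists_sum p _ (h2 j (le_of_max_le_right hj) ⟨g, hg, rfl⟩)
  choose y hy hy' using hc
  have h3 : g - ∑ i, p i • y i ∈ G (j + d) ⊓ (LinearMap.ker π).restrictScalars k := by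
    refine ⟨Submodule.sub_mem _ hg (Submodule.sum_mem _ fun i _ => hm i j ⟨_, hy i, rfl⟩), ?_⟩
    simp only [LinearMap.coe_restrictScalars] at e hy'
    simp [e, hy']
  have h4 := h1 j (le_of_max_le_left hj) h3
  rw [← sub_add_cancel g (∑ i, p i • y i)]
  refine Submodule.add_mem _ ((iSup_mono fun i => Submodule.map_mono inf_le_left) h4)
    (Submodule.sum_mem _ fun i _ => Submodule.mem_iSup_of_mem i ⟨_, hy i, rfl⟩)

lemma good_iSup {p : Fin 3 → K} {d : ℕ} {ι : Type} (s : Finset ι) {G : ι → ℤ → Submodule k V}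
    (h : ∀ i, Good p d (G i)) : Good p d fun j => ⨆ i ∈ s, G i j := by
  classical
  induction s using Finset.induction_on with
  | empty =>
    simp only [Finset.notMem_empty, iSup_false, iSup_bot]
    exact ⟨fun _ => inferInstance, fun _ _ => by simp [smulK], 0, fun _ _ => bot_le⟩
  | insert a s _ ih =>
    simp only [Finset.iSup_insert]
    exact (h a).sup ih

lemma exists_emb {R N : Type*} [CommRing R] [IsDomain R] [AddCommGroup N] [Module R N]
    [Module.Finite R N] (htf : ∀ (f : R) (m : N), f ≠ 0 → f • m = 0 → m = 0) :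
    ∃ (r : ℕ) (ι : N →ₗ[R] (Fin r → R)) (A : R), A ≠ 0 ∧ Function.Injective ι ∧
      ∀ y, ∃ m, ι m = A • y := by
  classical
  obtain ⟨n, s, hs⟩ := Module.Finite.exists_fin (R := R) (M := N)
  obtain ⟨I, hI, hI'⟩ := exists_maximal_linearIndepOn R s
  let W := Submodule.span R (Set.range fun i : I => s i)
  let b : Basis I R W := Basis.span hI
  have ha : ∀ i, ∃ a : R, a ≠ 0 ∧ a • s i ∈ W := by
    intro i
    by_cases hi : i ∈ I
    · exact ⟨1, one_ne_zero, by rw [one_smul]; exact Submodule.subset_span ⟨⟨i, hi⟩, rfl⟩⟩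
    · simpa [W, Set.image_eq_range s I] using hI' i hi
  choose a ha ha' using ha
  have hA : ∏ i, a i ≠ 0 := Finset.prod_ne_zero_iff.2 fun i _ => ha i
  have hW : ∀ m, LinearMap.lsmul R N (∏ i, a i) m ∈ W := by
    intro m
    have : Submodule.span R (Set.range s) ≤ W.comap (LinearMap.lsmul R N (∏ i, a i)) := by
      rw [Submodule.span_le]
      rintro _ ⟨i, rfl⟩
      change (∏ i, a i) • s i ∈ W
      rw [Fintype.prod_eq_prod_compl_mul i, mul_smul]
      exact W.smul_mem _ (ha' i)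
    exact this (hs ▸ Submodule.mem_top)
  let b' := b.reindex (Fintype.equivFin I)
  refine ⟨_, b'.equivFun.toLinearMap ∘ₗ (LinearMap.lsmul R N (∏ i, a i)).codRestrict W hW, _, hA,
    ?_, fun y => ⟨b'.equivFun.symm y, ?_⟩⟩
  · refine b'.equivFun.injective.comp ((injective_iff_map_eq_zero _).2 fun m hm => ?_)
    exact htf _ m hA (congrArg Subtype.val hm)
  · rw [← b'.equivFun.apply_symm_apply (_ • y), map_smul]
    rfl

end Filt1
open Filt1

omit [Module (Rhat k S) M] [IsScalarTower k (Rhat k S) M] in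
lemma Fil_anti (ι : M →ₗ[k] (Fin r → LaurentSeries K)) {n n' : ℤ} (h : n ≤ n') :
    Fil k ι n' ≤ Fil k ι n := fun _ hm i l hl => hm i l (hl.trans_le h)

omit [Module (Rhat k S) M] [IsScalarTower k (Rhat k S) M] in
lemma mem_Fil_succ (ι : M →ₗ[k] (Fin r → LaurentSeries K)) {n : ℤ} {m : M} :
    m ∈ Fil k ι (n + 1) ↔ m ∈ Fil k ι n ∧ cf k ι n m = 0 := by
  simp only [mem_Fil]
  refine ⟨fun h => ⟨fun l hl => h l (by omega), h n (by omega)⟩, fun h l hl => ?_⟩
  rcases (Int.lt_add_one_iff.1 hl).eq_or_lt with rfl | h'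
  exacts [h.2, h.1 l h']

omit [IsScalarTower k (Rhat k S) M] in
lemma Emb.smul_mem_Fil {ι : M →ₗ[k] (Fin r → LaurentSeries K)} (h : Emb k S ι) {f : Rhat k S}
    {j : ℕ} (hf : ∀ l < j, PowerSeries.coeff l (f : PowerSeries K) = 0) {n : ℤ} {m : M}
    (hm : m ∈ Fil k ι n) : f • m ∈ Fil k ι (n + j) ∧
      cf k ι (n + j) (f • m) = PowerSeries.coeff j (f : PowerSeries K) • cf k ι n m := by
  have h1 : ∀ t < (j : ℤ), (HahnSeries.ofPowerSeries ℤ K (f : PowerSeries K)).coeff t = 0 := by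
    intro t ht
    rw [PowerSeries.coeff_coe]
    split_ifs
    exacts [rfl, hf _ (by omega)]
  refine ⟨fun i l hl => ?_, funext fun i => ?_⟩
  · rw [h.smul, coeff_mul_le h1 (hm i) hl.le, if_neg hl.ne]
  · change (ι (f • m) i).coeff _ = _
    rw [h.smul, coeff_mul_le h1 (hm i) le_rfl, if_pos rfl, HahnSeries.ofPowerSeries_apply_coeff]
    rfl

omit [IsScalarTower k (Rhat k S) M] in
lemma Emb.smul_mon {ι : M →ₗ[k] (Fin r → LaurentSeries K)} (h : Emb k S ι) {j : ℕ} {a : K}
    {f : Rhat k S} (hf : (f : PowerSeries K) = PowerSeries.monomial j a) {n : ℤ} {m : M}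
    (hm : m ∈ Fil k ι n) : f • m ∈ Fil k ι (n + j) ∧ cf k ι (n + j) (f • m) = a • cf k ι n m := by
  have := h.smul_mem_Fil (f := f) (j := j)
    (fun l hl => by rw [hf, PowerSeries.coeff_monomial, if_neg hl.ne]) hm
  rwa [hf, PowerSeries.coeff_monomial_same] at this

omit [IsScalarTower k (Rhat k S) M] in
lemma Emb.smul_mem_Gr {ι : M →ₗ[k] (Fin r → LaurentSeries K)} (h : Emb k S ι) {j : ℕ} {a : K}
    (ha : a ∈ Rg k S j) {n : ℤ} {g : Fin r → K} (hg : g ∈ Gr k ι n) :
    a • g ∈ Gr k ι (n + j) := by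
  obtain ⟨m, hm, rfl⟩ := hg
  exact ⟨_, h.smul_mon (f := RingA.mon j a ha) rfl hm⟩

omit [IsScalarTower k (Rhat k S) M] in
lemma Emb.exists_Fil_eq_top {ι : M →ₗ[k] (Fin r → LaurentSeries K)} (h : Emb k S ι) :
    ∃ n₀ : ℤ, ∀ n ≤ n₀, Fil k ι n = ⊤ := by
  obtain ⟨n₀, h⟩ := h.bdd
  exact ⟨n₀, fun n hn => eq_top_iff.2 fun m _ i l hl => h m i l (hl.trans_le hn)⟩

omit [IsScalarTower k (Rhat k S) M] in
theorem Adm.shift {p : Fin 3 → K} {d : ℕ} {ι : M →ₗ[k] (Fin r → LaurentSeries K)}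
    (h : Adm k S p d ι) (e : ℤ) :
    ∃ ι' : M →ₗ[k] (Fin r → LaurentSeries K), Adm k S p d ι' ∧
      ∀ n, Gr k ι' n = Gr k ι (n + e) := by
  obtain ⟨Φ, h1, h2⟩ := exists_op (k := k) (LinearMap.id : (Fin r → K) →ₗ[K] _) e
  have hc : ∀ n, cf k (Φ ∘ₗ ι) n = cf k ι (n + e) := fun n => LinearMap.ext fun m => h1 (ι m) n
  have hF : ∀ n, Fil k (Φ ∘ₗ ι) n = Fil k ι (n + e) := by
    intro n
    ext m
    simp only [mem_Fil, hc]
    exact ⟨fun h l hl => by simpa using h (l - e) (by omega), fun h l hl => h _ (by omega)⟩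
  have hG : ∀ n, Gr k (Φ ∘ₗ ι) n = Gr k ι (n + e) := fun n => by rw [Gr, Gr, hc, hF]
  refine ⟨Φ ∘ₗ ι, ⟨⟨?_, fun f m i => ?_, ?_⟩, ?_, ?_, fun i => ?_⟩, hG⟩
  · refine (injective_iff_map_eq_zero _).2 fun m hm => (injective_iff_map_eq_zero _).1 h.emb.inj m ?_
    ext i n
    have : m ∈ Fil k (Φ ∘ₗ ι) (n + 1 - e) := fun i l _ => by rw [hm]; rfl
    rw [hF] at this
    exact this i n (by omega)
  · rw [LinearMap.comp_apply, funext (h.emb.smul f m), h2]; rfl
  · obtain ⟨n₀, h3⟩ := h.emb.bdd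
    exact ⟨n₀ - e, fun m i n hn => (congrFun (h1 (ι m) n) i).trans (h3 m i _ (by omega))⟩
  · rw [funext hG]; exact h.good.shift e
  · obtain ⟨n, hn⟩ := h.span
    exact ⟨n - e, by rwa [hG, sub_add_cancel]⟩
  · obtain ⟨N, hN⟩ := h.deep (i + e)
    exact ⟨N - e, by rwa [hF, hF, sub_add_cancel]⟩

/-- the filtration steps as submodules over the completed ring -/
def Emb.filR {ι : M →ₗ[k] (Fin r → LaurentSeries K)} (h : Emb k S ι) (n : ℤ) :
    Submodule (Rhat k S) M where
  carrier := Fil k ι n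
  add_mem' := (Fil k ι n).add_mem
  zero_mem' := (Fil k ι n).zero_mem
  smul_mem' f _ hm := by
    simpa using (h.smul_mem_Fil (f := f) (j := 0) (fun _ hl => absurd hl (by omega)) hm).1

variable {F : Type} [Field F] [Algebra k F] [Algebra F K] [IsScalarTower k F K] {P : P2 k F}
  {d : ℕ} {x : K}

omit [IsScalarTower k F K] in
theorem NormData.good_Rg (hN : NormData P S d x) :
    Good (fun i => x * P.s K i) d (fun j : ℤ => if 0 ≤ j then Rg k S j.toNat else ⊥) := by
  refine ⟨fun j => ?_, fun i j => ?_, ?_⟩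
  · by_cases h : 0 ≤ j
    · rw [if_pos h]; exact Rg_finite hN.finS _
    · rw [if_neg h]; infer_instance
  · by_cases h : 0 ≤ j
    · rw [if_pos h, if_pos (by omega), show (j + d).toNat = d + j.toNat by omega]
      rintro _ ⟨y, hy, rfl⟩
      exact Rg_mul (hN.mem i) hy
    · simp [h, smulK]
  · obtain ⟨j₀, h⟩ := hN.gen
    refine ⟨j₀, fun j hj => ?_⟩
    have h0 : 0 ≤ j := by omega
    simp only [if_pos h0]
    rw [if_pos (by omega), show (j + d).toNat = j.toNat + d by omega]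
    exact h _ (by omega)

omit [IsScalarTower k (Rhat k S) M] in
/-- every vector has a non-zero multiple in all large degrees -/
theorem NormData.eventually_mem_Gr (hN : NormData P S d x) {p : Fin 3 → K}
    {ι : M →ₗ[k] (Fin r → LaurentSeries K)} (h : Adm k S p d ι) (v : Fin r → K) :
    ∀ᶠ n in Filter.atTop, ∃ c : K, c ≠ 0 ∧ c • v ∈ Gr k ι n := by
  obtain ⟨n₀, hn⟩ := h.span
  have h1 : ∃ (J : ℕ) (b : K), b ∈ Rg k S J ∧ b ≠ 0 ∧ b • v ∈ Gr k ι (n₀ + J) := by
    have hv : v ∈ Submodule.span K (Gr k ι n₀ : Set (Fin r → K)) := hn ▸ Submodule.mem_top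
    have h0 : (1 : K) ∈ Rg k S 0 := Submodule.mem_one.2 ⟨1, map_one _⟩
    induction hv using Submodule.span_induction with
    | mem w hw => exact ⟨0, 1, h0, one_ne_zero, by simpa using hw⟩
    | zero => exact ⟨0, 1, h0, one_ne_zero, by simp⟩
    | add w w' _ _ h1 h2 =>
      obtain ⟨J, b, a1, a2, a3⟩ := h1
      obtain ⟨J', b', a4, a5, a6⟩ := h2
      refine ⟨J + J', b * b', Rg_mul a1 a4, mul_ne_zero a2 a5, ?_⟩
      rw [smul_add]
      refine Submodule.add_mem _ ?_ ?_
      · have := h.emb.smul_mem_Gr a4 a3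
        rwa [smul_smul, mul_comm, add_assoc, ← Nat.cast_add] at this
      · have := h.emb.smul_mem_Gr a1 a6
        rwa [smul_smul, add_assoc, ← Nat.cast_add, add_comm J'] at this
    | smul c w _ h1 =>
      obtain ⟨J, b, a1, a2, a3⟩ := h1
      obtain ⟨J', b', a4, a5, a6⟩ := hN.frac c
      refine ⟨J + J', b * b', Rg_mul a1 a4, mul_ne_zero a2 a5, ?_⟩
      have := h.emb.smul_mem_Gr a6 a3
      rw [smul_smul, add_assoc, ← Nat.cast_add] at this
      rwa [smul_smul, show b * b' * c = c * b' * b by ring]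
  obtain ⟨J, b, -, h2, h3⟩ := h1
  obtain ⟨f, hf⟩ : S.Nonempty := by
    rw [Set.nonempty_iff_ne_empty]
    rintro rfl
    have := hN.mem 0
    rw [Rg, Submodule.span_empty, Submodule.bot_pow hN.d_pos.ne', Submodule.mem_bot,
      P.s_zero, mul_one] at this
    exact hN.x_ne this
  have hf0 : f ≠ 0 := fun e => hN.zero_notMem (e ▸ hf)
  filter_upwards [Filter.eventually_ge_atTop (n₀ + J)] with n hn
  obtain ⟨t, rfl⟩ := Int.le.dest hn
  refine ⟨f ^ t * b, mul_ne_zero (pow_ne_zero _ hf0) h2, ?_⟩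
  rw [mul_smul]
  exact h.emb.smul_mem_Gr (Submodule.pow_mem_pow _ (Submodule.subset_span hf) t) h3

omit [IsScalarTower k (Rhat k S) M] in
theorem NormData.eventually_span (hN : NormData P S d x) {p : Fin 3 → K}
    {ι : M →ₗ[k] (Fin r → LaurentSeries K)} (h : Adm k S p d ι) :
    ∀ᶠ n in Filter.atTop, Submodule.span K (Gr k ι n : Set (Fin r → K)) = ⊤ := by
  filter_upwards [Filter.eventually_all.2 fun i : Fin r =>
    hN.eventually_mem_Gr h (Pi.basisFun K _ i)] with n hn
  rw [eq_top_iff, ← (Pi.basisFun K (Fin r)).span_eq, Submodule.span_le]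
  rintro _ ⟨i, rfl⟩
  obtain ⟨c, h1, h2⟩ := hn i
  exact (Submodule.smul_mem_iff _ h1).1 (Submodule.subset_span h2)

theorem NormData.exists_adm (hN : NormData P S d x) [Module.Finite (Rhat k S) M] [Nontrivial M]
    (htf : ∀ (f : Rhat k S) (m : M), f ≠ 0 → f • m = 0 → m = 0) :
    ∃ (r : ℕ) (ι : M →ₗ[k] (Fin r → LaurentSeries K)), 0 < r ∧
      Adm k S (fun i => x * P.s K i) d ι := by
  classical
  obtain ⟨r, ι₀, A, hA, hinj, hsur⟩ := exists_emb htf
  let ι : M →ₗ[k] (Fin r → LaurentSeries K) :=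
    { toFun := fun m i => HahnSeries.ofPowerSeries ℤ K (ι₀ m i : PowerSeries K)
      map_add' := fun a b => by funext i; simp
      map_smul' := fun c a => by
        funext i
        ext n
        rw [ι₀.map_smul_of_tower]
        simp only [Pi.smul_apply, SetLike.val_smul_of_tower, RingHom.id_apply,
          HahnSeries.coeff_smul, PowerSeries.coeff_coe]
        split_ifs <;> simp }
  have hc : ∀ m i (n : ℤ), (ι m i).coeff n =
      if n < 0 then 0 else PowerSeries.coeff n.natAbs (ι₀ m i : PowerSeries K) :=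
    fun m i n => PowerSeries.coeff_coe _ _
  have he : Emb k S ι := by
    refine ⟨fun a b e => hinj (funext fun i => Subtype.ext
      (HahnSeries.ofPowerSeries_injective (congrFun e i))), fun f m i => ?_,
      0, fun m i n hn => by rw [hc, if_pos hn]⟩
    simp [ι]
  refine ⟨r, ι, Nat.pos_of_ne_zero ?_, he, ?_, ?_, fun i => ?_⟩
  · rintro rfl
    exact not_subsingleton M hinj.subsingleton
  · refine (good_iSup Finset.univ fun i : Fin r =>
      hN.good_Rg.map (LinearMap.single K (fun _ => K) i)).of_le hN.d_pos ?_ ?_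
    · rintro n _ ⟨m, -, rfl⟩
      rw [← Finset.univ_sum_single (cf k ι n m)]
      refine Submodule.sum_mem _ fun i hi => Submodule.mem_iSup_of_mem i
        (Submodule.mem_iSup_of_mem hi ⟨_, ?_, rfl⟩)
      change (ι m i).coeff n ∈ _
      rw [hc]
      by_cases h1 : n < 0
      · rw [if_pos h1]
        exact Submodule.zero_mem (R := k) _
      · rw [if_neg h1, if_pos (by omega), show n.toNat = n.natAbs by omega]
        exact (ι₀ m i).2 _
    · rintro i n _ ⟨g, hg, rfl⟩
      exact he.smul_mem_Gr (hN.mem i) hg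
  · have hA' : ∃ n, PowerSeries.coeff n (A : PowerSeries K) ≠ 0 := by
      by_contra! hn
      exact hA (Subtype.ext (PowerSeries.ext hn))
    refine ⟨Nat.find hA', ?_⟩
    rw [eq_top_iff, ← (Pi.basisFun K (Fin r)).span_eq, Submodule.span_le]
    rintro _ ⟨i, rfl⟩
    obtain ⟨m, hm⟩ := hsur (Pi.single i 1)
    refine (Submodule.smul_mem_iff _ (Nat.find_spec hA')).1 (Submodule.subset_span ⟨m, ?_, ?_⟩)
    · intro j l hl
      rw [hc, hm]
      split_ifs with h0
      · rfl
      · have := Nat.find_min hA' (m := l.natAbs) (by omega)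
        by_cases hj : j = i <;> simp_all
    · funext j
      change (ι m j).coeff _ = _
      rw [hc, hm, if_neg (by omega)]
      by_cases hj : j = i <;> simp [hj]
  · have _i := Rhat.isNoetherianRing (k := k) hN.finS
    obtain ⟨c, hc'⟩ := (mId k S).exists_pow_inf_eq_pow_smul ((he.filR i).map ι₀)
    refine ⟨max i (c + 1 : ℕ), fun m hm => ?_⟩
    have h1 : ι₀ m ∈ mId k S ^ (c + 1) • ⊤ ⊓ (he.filR i).map ι₀ := by
      refine ⟨?_, m, Fil_anti ι (le_max_left _ _) hm, rfl⟩
      rw [pi_eq_sum_univ (ι₀ m)]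
      refine Submodule.sum_mem _ fun j _ => Submodule.smul_mem_smul
        ((Rhat.mem_mId_pow hN.finS _ _).2 fun l hl => ?_) trivial
      have := hm j l (lt_max_of_lt_right (by exact_mod_cast hl))
      rwa [hc, if_neg (by omega), Int.natAbs_natCast] at this
    rw [hc' _ (by omega), Nat.add_sub_cancel_left, pow_one] at h1
    have h2 := Submodule.smul_mono le_rfl inf_le_right h1
    rw [← Submodule.map_smul''] at h2
    obtain ⟨m', h3, h4⟩ := h2
    rw [← hinj h4]
    have h5 : he.filR i ≤ Submodule.span (Rhat k S) (Fil k ι i : Set M) :=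
      fun y hy => Submodule.subset_span hy
    exact Submodule.smul_mono le_rfl h5 h3

omit [IsScalarTower k (Rhat k S) M] in
theorem NormData.adm_modify (hN : NormData P S d x) {ι : M →ₗ[k] (Fin r → LaurentSeries K)}
    (h : Adm k S (fun i => x * P.s K i) d ι) (π : (Fin r → K) →ₗ[K] (Fin r → K))
    (hπ : π ∘ₗ π = π) :
    ∃ ι' : M →ₗ[k] (Fin r → LaurentSeries K), Adm k S (fun i => x * P.s K i) d ι' ∧ ∀ n,
      Gr k ι' n ⊓ (LinearMap.ker π).restrictScalars k =
        (Gr k ι (n + 1)).map ((LinearMap.id - π).restrictScalars k) ∧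
      (Gr k ι' n).map (π.restrictScalars k) =
        Gr k ι n ⊓ (LinearMap.range π).restrictScalars k := by
  obtain ⟨Φ, h1, h2⟩ := exists_op (k := k) π 0
  obtain ⟨Ψ, h3, h4⟩ := exists_op (k := k) (LinearMap.id - π) 1
  have hp : ∀ v, π (π v) = π v := fun v => LinearMap.congr_fun hπ v
  set ι' := (Φ + Ψ) ∘ₗ ι with hι
  have hc : ∀ n m, cf k ι' n m = π (cf k ι n m) + (cf k ι (n + 1) m - π (cf k ι (n + 1) m)) := by
    intro n m
    have a1 := h1 (ι m) n
    rw [add_zero] at a1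
    funext i
    exact (HahnSeries.coeff_add (x := Φ (ι m) i) (y := Ψ (ι m) i)).trans
      (congrArg₂ (· + ·) (congrFun a1 i) (congrFun (h3 (ι m) n) i))
  have hc1 : ∀ n m, π (cf k ι' n m) = π (cf k ι n m) := fun n m => by simp [hc, hp]
  have hF : ∀ n m, m ∈ Fil k ι' n ↔ m ∈ Fil k ι n ∧ π (cf k ι n m) = cf k ι n m := by
    intro n m
    simp only [mem_Fil]
    constructor
    · intro hm
      have a1 : ∀ l < n, π (cf k ι l m) = 0 := fun l hl => by rw [← hc1, hm l hl, map_zero]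
      have a2 : ∀ l ≤ n, π (cf k ι l m) = cf k ι l m := fun l hl => by
        have := hm (l - 1) (by omega)
        rw [hc, a1 _ (by omega), zero_add, sub_add_cancel, sub_eq_zero] at this
        exact this.symm
      exact ⟨fun l hl => by rw [← a2 l hl.le, a1 l hl], a2 n le_rfl⟩
    · rintro ⟨a1, a2⟩ l hl
      rw [hc, a1 l hl, map_zero, zero_add, sub_eq_zero]
      rcases (show l + 1 ≤ n by omega).eq_or_lt with rfl | h'
      · exact a2.symm
      · rw [a1 _ h', map_zero]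
  have hF1 : ∀ n, Fil k ι (n + 1) ≤ Fil k ι' n := fun n m hm => by
    rw [mem_Fil_succ] at hm
    exact (hF n m).2 ⟨hm.1, by rw [hm.2, map_zero]⟩
  have hG : ∀ n, Gr k ι' n ⊓ (LinearMap.ker π).restrictScalars k =
        (Gr k ι (n + 1)).map ((LinearMap.id - π).restrictScalars k) ∧
      (Gr k ι' n).map (π.restrictScalars k) =
        Gr k ι n ⊓ (LinearMap.range π).restrictScalars k := by
    refine fun n => ⟨le_antisymm ?_ ?_, le_antisymm ?_ ?_⟩
    · rintro _ ⟨⟨m, hm, rfl⟩, h0⟩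
      obtain ⟨a1, a2⟩ := (hF n m).1 hm
      have a3 : π (cf k ι n m) = 0 := (hc1 n m).symm.trans h0
      exact ⟨_, ⟨m, (mem_Fil_succ ι).2 ⟨a1, a2.symm.trans a3⟩, rfl⟩, by simp [hc, a3]⟩
    · rintro _ ⟨_, ⟨m, hm, rfl⟩, rfl⟩
      exact ⟨⟨m, hF1 n hm, by simp [hc, ((mem_Fil_succ ι).1 hm).2]⟩, by simp [hp]⟩
    · rintro _ ⟨_, ⟨m, hm, rfl⟩, rfl⟩
      obtain ⟨a1, a2⟩ := (hF n m).1 hm
      exact ⟨⟨m, a1, ((hc1 n m).trans a2).symm⟩, _, rfl⟩
    · rintro _ ⟨⟨m, hm, rfl⟩, v, hv⟩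
      have a2 : π (cf k ι n m) = cf k ι n m := by rw [← hv, hp]
      exact ⟨_, ⟨m, (hF n m).2 ⟨hm, a2⟩, rfl⟩, (hc1 n m).trans a2⟩
  have he : Emb k S ι' := by
    refine ⟨(injective_iff_map_eq_zero _).2 fun m hm =>
      (injective_iff_map_eq_zero _).1 h.emb.inj m ?_, fun f m i => ?_, ?_⟩
    · ext i n
      have : m ∈ Fil k ι' (n + 1) := fun i l _ => by rw [hm]; rfl
      exact ((hF _ _).1 this).1 i n (by omega)
    · simp only [hι, LinearMap.comp_apply, LinearMap.add_apply, Pi.add_apply,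
        funext (h.emb.smul f m), h2, h4, mul_add]
    · obtain ⟨n₀, h5⟩ := h.emb.exists_Fil_eq_top
      exact ⟨n₀ - 1, fun m => hF1 _ (by rw [h5 _ (by omega)]; trivial)⟩
  refine ⟨ι', ⟨he, good_ext π ?_ ?_ ?_, ?_, fun i => ?_⟩, hG⟩
  · rintro i n _ ⟨g, hg, rfl⟩
    exact he.smul_mem_Gr (hN.mem i) hg
  · simp only [fun n => (hG n).1]
    exact (h.good.shift 1).map _
  · simp only [fun n => (hG n).2]
    refine h.good.of_le hN.d_pos (fun _ => inf_le_left) ?_
    rintro i n _ ⟨g, hg, rfl⟩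
    exact ⟨h.good.mul i n ⟨g, hg.1, rfl⟩, (LinearMap.range π).smul_mem _ hg.2⟩
  · obtain ⟨n, a1, a2⟩ := (((Filter.tendsto_atTop_add_const_right _ 1 Filter.tendsto_id).eventually
      (hN.eventually_span h)).and (Filter.eventually_all.2 fun i : Fin r =>
        hN.eventually_mem_Gr h (π (Pi.basisFun K _ i)))).exists
    refine ⟨n, ?_⟩
    have a3 : ∀ v, v - π v ∈ Submodule.span K (Gr k ι' n : Set (Fin r → K)) := by
      intro v
      have : Submodule.span K (Gr k ι (n + 1) : Set (Fin r → K)) ≤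
          (Submodule.span K (Gr k ι' n : Set (Fin r → K))).comap (LinearMap.id - π) :=
        Submodule.span_le.2 fun g hg => Submodule.subset_span ((hG n).1.ge ⟨g, hg, rfl⟩).1
      exact this ((show _ = ⊤ from a1) ▸ Submodule.mem_top)
    rw [eq_top_iff, ← (Pi.basisFun K (Fin r)).span_eq, Submodule.span_le]
    rintro _ ⟨i, rfl⟩
    obtain ⟨c, a4, a5⟩ := a2 i
    obtain ⟨g, a6, a7⟩ := (hG n).2.ge ⟨a5, c • Pi.basisFun K _ i, map_smul _ _ _⟩
    refine (Submodule.smul_mem_iff _ a4).1 ?_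
    have a8 := Submodule.add_mem _ (a3 (c • Pi.basisFun K _ i - g)) (Submodule.subset_span a6)
    rwa [map_sub, map_smul, ← a7, LinearMap.coe_restrictScalars, sub_self, sub_zero,
      sub_add_cancel] at a8
  · obtain ⟨N, hN'⟩ := h.deep (i + 1)
    exact ⟨N, fun m hm => Submodule.smul_mono le_rfl (Submodule.span_mono (hF1 i))
      (hN' m ((hF N m).1 hm).1)⟩

omit [IsScalarTower k (Rhat k S) M] in
/-- stability of the filtration -/
theorem NormData.Fil_stable (hN : NormData P S d x) [Module.Finite (Rhat k S) M]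
    {ι : M →ₗ[k] (Fin r → LaurentSeries K)} (h : Adm k S (fun i => x * P.s K i) d ι) :
    ∃ n₀ : ℤ, ∀ J : ℕ, ∀ n ≥ n₀, ∀ m ∈ Fil k ι (n + d * (3 * J)),
      ∃ η : Fin 3 → M, (∀ i, η i ∈ Fil k ι (n + d * (2 * J))) ∧ m = ∑ i, pR hN i ^ J • η i := by
  obtain ⟨n₀, h0⟩ := h.good.exists_le_pow
  refine ⟨n₀, fun J n hn => ?_⟩
  let W : Submodule (Rhat k S) M :=
    { carrier := {m | ∃ η : Fin 3 → M, (∀ i, η i ∈ Fil k ι (n + d * (2 * J))) ∧
        m = ∑ i, pR hN i ^ J • η i}
      add_mem' := by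
        rintro _ _ ⟨a, h1, rfl⟩ ⟨b, h2, rfl⟩
        exact ⟨a + b, fun i => add_mem (h1 i) (h2 i), by simp [Finset.sum_add_distrib]⟩
      zero_mem' := ⟨0, fun _ => zero_mem _, by simp⟩
      smul_mem' := by
        rintro c _ ⟨a, h1, rfl⟩
        exact ⟨c • a, fun i => (h.emb.filR _).smul_mem c (h1 i), by
          simp [Finset.smul_sum, smul_comm c]⟩ }
  have h1 : ∀ t : ℕ, h.emb.filR (n + d * (3 * J)) ≤ W ⊔ h.emb.filR (n + t + d * (3 * J)) := by
    intro t
    induction t with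
    | zero => simp
    | succ t ih =>
      refine ih.trans (sup_le le_sup_left fun m hm => ?_)
      obtain ⟨g, a1, a2⟩ := exists_sum _ _ (h0 J (n + t) (by omega) ⟨m, hm, rfl⟩)
      choose η a3 a4 using a1
      have a5 := fun i => h.emb.smul_mon (f := pR hN i ^ J) (PowerSeries.monomial_pow ..) (a3 i)
      rw [show n + t + d * (2 * J) + (J * d : ℕ) = n + t + d * (3 * J) by push_cast; ring] at a5
      rw [← add_sub_cancel (∑ i, pR hN i ^ J • η i) m]
      refine Submodule.add_mem_sup ⟨η, fun i => Fil_anti ι (by omega) (a3 i), rfl⟩ ?_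
      rw [show n + (t + 1 : ℕ) + d * (3 * J) = n + t + d * (3 * J) + 1 by push_cast; ring]
      refine (mem_Fil_succ ι).2 ⟨sub_mem hm (sum_mem fun i _ => (a5 i).1), ?_⟩
      simp only [map_sub, map_sum, fun i => (a5 i).2, a4, a2, sub_self]
  obtain ⟨N, hN'⟩ := h.deep (n + d * (3 * J))
  have _i := Rhat.isNoetherianRing (k := k) hN.finS
  refine Submodule.le_of_le_smul_of_le_jacobson_bot (N := W) (I := mId k S)
    (IsNoetherian.noetherian (h.emb.filR (n + d * (3 * J))))
    (Rhat.maximalIdeal_eq (k := k) S ▸ IsLocalRing.maximalIdeal_le_jacobson _)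
    ((h1 (N - (n + d * (3 * J))).toNat).trans (sup_le_sup_left (fun m hm => ?_) _))
  exact Submodule.smul_mono le_rfl (Submodule.span_le.2 fun y hy => hy)
    (hN' m (Fil_anti ι (by omega) hm))

end Vale.Agent.P190
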