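import Vale.Agent.P190.Chart
import Vale.Agent.P190.Ring

/-! Commutative algebra for the normality statement. -/

open Module

noncomputable section

namespace Vale.Agent.P190

variable {k : Type} [Field k] {K : Type} [Field K] [Algebra k K] {S : Set K}

lemma Normal.isIntegral_of_le {R R' : Subring K} (h : R ≤ R') {y : K} (hy : IsIntegral R y) :
    IsIntegral R' y := by
  let _ : Algebra R R' := (Subring.inclusion h).toAlgebra
  have : IsScalarTower R R' K := .of_algebraMap_eq fun _ => rfl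
  exact hy.tower_top

lemma Normal.mem_valuation {R : Subring K} {A : ValuationSubring K} (h : R ≤ A.toSubring) {y : K}
    (hy : IsIntegral R y) : y ∈ A := by
  obtain ⟨z, rfl⟩ := IsIntegrallyClosed.isIntegral_iff.1
    (show IsIntegral A y from Normal.isIntegral_of_le h hy)
  exact z.2

/-- a subring containing the constants and the ratios contains all dehomogenised forms -/
lemma Normal.div_pow_mem {T : Subring K} (hk : ∀ c : k, algebraMap k K c ∈ T) {f : K}
    (hf : ∀ g ∈ S, g / f ∈ T) {j : ℕ} {a : K} (ha : a ∈ Rg k S j) : a / f ^ j ∈ T := by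
  induction j generalizing a with
  | zero =>
    rw [Rg, pow_zero, Submodule.mem_one] at ha
    obtain ⟨c, rfl⟩ := ha
    simpa using hk c
  | succ j ih =>
    rw [Rg, pow_succ'] at ha
    refine Submodule.mul_induction_on ha (fun m hm n hn => ?_) fun a b ha hb => ?_
    · rw [pow_succ', mul_div_mul_comm]
      refine T.mul_mem ?_ (ih hn)
      induction hm using Submodule.span_induction with
      | mem s hs => exact hf s hs
      | zero => simp
      | add a b _ _ ha hb => rw [add_div]; exact T.add_mem ha hb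
      | smul c a _ ha => rw [Algebra.smul_def, mul_div_assoc]; exact T.mul_mem (hk c) ha
    · rw [add_div]; exact T.add_mem ha hb

lemma Normal.pow_mem_Rg {d : ℕ} {t : K} (ht : t ∈ Rg k S d) (j : ℕ) : t ^ j ∈ Rg k S (d * j) := by
  rw [Rg, pow_mul]
  exact Submodule.pow_mem_pow _ ht j

lemma Normal.mem_Rg_one {f : K} (hf : f ∈ S) : f ∈ Rg k S 1 := by
  rw [Rg, pow_one]; exact Submodule.subset_span hf

/-- the affine coordinate ring of the open set where `t` does not vanish -/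
def Normal.B {d : ℕ} {t : K} (ht : t ∈ Rg k S d) : Subalgebra k K where
  carrier := {y | ∃ j : ℕ, y * t ^ j ∈ Rg k S (d * j)}
  mul_mem' := by
    rintro a b ⟨i, ha⟩ ⟨j, hb⟩
    refine ⟨i + j, ?_⟩
    have := Rg_mul ha hb
    rw [← mul_add] at this
    convert this using 1
    ring
  add_mem' := by
    rintro a b ⟨i, ha⟩ ⟨j, hb⟩
    refine ⟨i + j, ?_⟩
    have h1 := Rg_mul ha (Normal.pow_mem_Rg ht j)
    have h2 := Rg_mul (Normal.pow_mem_Rg ht i) hb
    rw [← mul_add] at h1 h2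
    convert Submodule.add_mem _ h1 h2 using 1
    ring
  algebraMap_mem' c := ⟨0, by
    rw [mul_zero, Rg, pow_zero, pow_zero, mul_one, Submodule.mem_one]
    exact ⟨c, rfl⟩⟩

lemma Normal.mem_B {d : ℕ} {t : K} (ht : t ∈ Rg k S d) {y : K} :
    y ∈ Normal.B ht ↔ ∃ j : ℕ, y * t ^ j ∈ Rg k S (d * j) := Iff.rfl

lemma Normal.div_mem_B {d : ℕ} {t : K} (ht : t ∈ Rg k S d) (ht0 : t ≠ 0) {j : ℕ} {a : K}
    (ha : a ∈ Rg k S (d * j)) : a / t ^ j ∈ Normal.B ht :=
  ⟨j, by rwa [div_mul_cancel₀ _ (pow_ne_zero _ ht0)]⟩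

/-- residues of integral elements are constants -/
lemma Normal.residue_of_isIntegral [IsAlgClosed k] {R A : Subring K} (hRA : R ≤ A)
    (hk : ∀ c : k, algebraMap k K c ∈ A) (m : Ideal A) [m.IsPrime]
    (hR : ∀ y, (hy : y ∈ R) → ∃ c : k, (⟨y, hRA hy⟩ - ⟨_, hk c⟩ : A) ∈ m)
    {y : K} (hyA : y ∈ A) (hy : IsIntegral R y) :
    ∃ c : k, (⟨y, hyA⟩ - ⟨_, hk c⟩ : A) ∈ m := by
  let κ : k →+* A ⧸ m := (Ideal.Quotient.mk m).comp ((algebraMap k K).codRestrict A hk)
  let _ : Algebra k (A ⧸ m) := κ.toAlgebra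
  let ρ : R →+* A ⧸ m := (Ideal.Quotient.mk m).comp (Subring.inclusion hRA)
  have hρ : ∀ z, ρ z ∈ κ.range := fun z => by
    obtain ⟨c, hc⟩ := hR z z.2
    exact ⟨c, (Ideal.Quotient.eq.2 hc).symm⟩
  let e : k ≃+* κ.range := RingEquiv.ofBijective κ.rangeRestrict
    ⟨fun a b hab => κ.injective (congrArg Subtype.val hab), κ.rangeRestrict_surjective⟩
  let ψ : R →+* k := e.symm.toRingHom.comp (ρ.codRestrict _ hρ)
  have hψ : κ.comp ψ = ρ := by
    ext z
    have : (e (e.symm (ρ.codRestrict _ hρ z)) : A ⧸ m) = ρ z := by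
      rw [e.apply_symm_apply]; rfl
    exact this
  obtain ⟨p, hp, hpy⟩ := hy
  have h1 : Polynomial.eval₂ (Subring.inclusion hRA) (⟨y, hyA⟩ : A) p = 0 := by
    apply A.subtype_injective
    rw [Polynomial.hom_eval₂, map_zero]
    exact hpy
  have h2 : IsIntegral k (Ideal.Quotient.mk m (⟨y, hyA⟩ : A)) := by
    refine ⟨p.map ψ, hp.map ψ, ?_⟩
    rw [Polynomial.eval₂_map]
    change Polynomial.eval₂ (κ.comp ψ) _ _ = 0
    rw [hψ, ← Polynomial.hom_eval₂, h1, map_zero]
  obtain ⟨c, hc⟩ := minpoly.mem_range_of_degree_eq_one k _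
    (IsAlgClosed.degree_eq_one_of_irreducible k (minpoly.irreducible h2))
  exact ⟨c, Ideal.Quotient.eq.1 hc.symm⟩

section Abs

variable (R₀ : Subalgebra k K) (B : Subalgebra R₀ K)

lemma Normal.const_mem (c : k) : algebraMap k K c ∈ B.toSubring :=
  B.algebraMap_mem (algebraMap k R₀ c)

lemma Normal.noeth [Algebra.FiniteType k R₀] [Module.Finite R₀ B] :
    IsNoetherianRing B.toSubring := by
  have : IsNoetherianRing R₀ := Algebra.FiniteType.isNoetherianRing k R₀
  exact IsNoetherianRing.of_finite R₀ B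

lemma Normal.nullst [IsAlgClosed k] [Algebra.FiniteType k R₀] [Module.Finite R₀ B]
    (n : Ideal B.toSubring) [hn : n.IsMaximal] (b : B.toSubring) :
    ∃ c : k, b - ⟨_, Normal.const_mem R₀ B c⟩ ∈ n := by
  let n' : Ideal B := n
  have : n'.IsMaximal := hn
  have : Algebra.FiniteType k B := Algebra.FiniteType.trans (S := R₀) inferInstance inferInstance
  let _ := Ideal.Quotient.field n'
  have : Module.Finite k (B ⧸ n') := finite_of_finite_type_of_isJacobsonRing k _
  have : Algebra.IsIntegral k (B ⧸ n') := Algebra.IsIntegral.of_finite k _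
  obtain ⟨c, hc⟩ := (IsAlgClosed.algebraMap_bijective_of_isIntegral (k := k) (K := B ⧸ n')).2
    (Ideal.Quotient.mk n' b)
  exact ⟨c, Ideal.Quotient.eq.1 hc.symm⟩

lemma Normal.exists_prime [Module.Finite R₀ B] [IsIntegrallyClosed R₀]
    (h : ∀ 𝔫 : Ideal R₀, 𝔫.IsMaximal → ∃ a b : R₀, 𝔫 = Ideal.span {a, b} ∧
      (Ideal.span {a}).IsPrime ∧ a ≠ 0 ∧ b ∉ Ideal.span {a})
    (n : Ideal B.toSubring) [hn : n.IsMaximal] :
    ∃ Q : Ideal B.toSubring, Q.IsPrime ∧ Q ≠ ⊥ ∧ Q < n := by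
  let n' : Ideal B := n
  have : n'.IsMaximal := hn
  obtain ⟨a, b, hab, hp, ha, hb⟩ := h (n'.under R₀)
    (Ideal.isMaximal_comap_of_isIntegral_of_isMaximal n')
  have hlt : Ideal.span {a} < n'.under R₀ := by
    rw [hab]
    refine lt_of_le_of_ne (Ideal.span_mono (by simp)) fun he => hb ?_
    rw [he]; exact Ideal.subset_span (by simp)
  have : Algebra.IsIntegral R₀ B := Algebra.IsIntegral.of_finite R₀ B
  have : FaithfulSMul R₀ B := (faithfulSMul_iff_algebraMap_injective R₀ B).2 fun a b hab =>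
    Subtype.ext (congrArg (fun z : B => (z : K)) hab)
  obtain ⟨Q, hQ, hQp, hQo⟩ := Ideal.exists_ideal_lt_liesOver_of_lt n' hlt
  refine ⟨Q, hQp, fun h0 => ha ?_, hQ⟩
  have h1 : a ∈ Q.under R₀ := by
    rw [← Q.over_def (Ideal.span {a})]; exact Ideal.subset_span rfl
  have h2 : Q = ⊥ := h0
  rw [h2, Ideal.mem_under, Ideal.mem_bot] at h1
  exact Subtype.ext (congrArg (fun z : B => (z : K)) h1)

end Abs

/-- the localisation at a prime, inside the field -/
abbrev Normal.Loc {R : Subring K} (n : Ideal R) [n.IsPrime] : Subring K :=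
  (LocalSubring.ofPrime R n).toSubring

/-- in a local ring where the generators are constant modulo `(w₁, w₂)`, this ideal is maximal -/
lemma Normal.maximal_eq {R : Subring K} (n : Ideal R) [n.IsPrime]
    (hk : ∀ c : k, algebraMap k K c ∈ R) {d : ℕ} {t f : K} (ht : t ∈ Rg k S d) (ht0 : t ≠ 0)
    (hf0 : f ≠ 0) (hR : ∀ y, y ∈ R ↔ y ∈ Normal.B ht) (hft : f ^ d / t ∈ R)
    {w₁ w₂ : (Normal.Loc n)}
    (h₁ : w₁ ∈ IsLocalRing.maximalIdeal _) (h₂ : w₂ ∈ IsLocalRing.maximalIdeal _)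
    (hw : ∀ g ∈ S, ∃ c : k, ∃ a₁ a₂ : (Normal.Loc n),
      g / f - algebraMap k K c = (a₁ * w₁ + a₂ * w₂ : (Normal.Loc n))) :
    IsLocalRing.maximalIdeal (Normal.Loc n) = Ideal.span {w₁, w₂} := by
  have hRA : R ≤ (Normal.Loc n) := LocalSubring.le_ofPrime R n
  obtain ⟨I, hI⟩ : ∃ I : Ideal (Normal.Loc n), I = Ideal.span {w₁, w₂} := ⟨_, rfl⟩
  rw [← hI]
  have hIm : I ≤ IsLocalRing.maximalIdeal (Normal.Loc n) := by
    rw [hI, Ideal.span_le]
    rintro _ (rfl | rfl) <;> assumption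
  let κ : k →+* (Normal.Loc n) := (algebraMap k K).codRestrict (Normal.Loc n) fun c => hRA (hk c)
  let T₀ : Subring (Normal.Loc n) := ((Ideal.Quotient.mk I).comp κ).range.comap (Ideal.Quotient.mk I)
  have hT₀ : ∀ y : (Normal.Loc n), y ∈ T₀ ↔ ∃ c : k, y - κ c ∈ I := fun y =>
    exists_congr fun c => by
      rw [← Ideal.Quotient.eq, eq_comm]; rfl
  let T : Subring K := T₀.map (Normal.Loc n).subtype
  have hTk : ∀ c : k, algebraMap k K c ∈ T := fun c =>
    ⟨κ c, (hT₀ _).2 ⟨c, by simp⟩, rfl⟩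
  have hTS : ∀ g ∈ S, g / f ∈ T := fun g hg => by
    obtain ⟨c, a₁, a₂, h⟩ := hw g hg
    refine ⟨a₁ * w₁ + a₂ * w₂ + κ c, (hT₀ _).2 ⟨c, ?_⟩, ?_⟩
    · rw [add_sub_cancel_right, hI]
      exact Ideal.mem_span_pair.2 ⟨a₁, a₂, rfl⟩
    · change ((a₁ * w₁ + a₂ * w₂ : (Normal.Loc n)) : K) + algebraMap k K c = _
      rw [← h, sub_add_cancel]
  have hinv : ∀ y z : (Normal.Loc n), y ∈ T₀ → y * z = 1 → z ∈ T₀ := fun y z hy hyz => by
    obtain ⟨c, hc⟩ := (hT₀ y).1 hy
    have hc0 : c ≠ 0 := by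
      rintro rfl
      rw [map_zero, sub_zero] at hc
      exact hIm hc (IsUnit.of_mul_eq_one _ hyz)
    refine (hT₀ z).2 ⟨c⁻¹, ?_⟩
    have : z - κ c⁻¹ = -(z * κ c⁻¹) * (y - κ c) := by
      have h1 : κ c⁻¹ * κ c = 1 := by rw [← map_mul, inv_mul_cancel₀ hc0, map_one]
      linear_combination (κ c⁻¹) * hyz - z * h1
    rw [this]
    exact I.mul_mem_left _ hc
  have hft' : f ^ d / t ∈ T := by
    obtain ⟨y, hy, hyt⟩ := Normal.div_pow_mem hTk hTS ht
    refine ⟨⟨_, hRA hft⟩, hinv y _ hy (Subtype.ext ?_), rfl⟩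
    change (y : K) * (f ^ d / t) = 1
    have : (y : K) = t / f ^ d := hyt
    rw [this]
    field_simp
  have hRT : ∀ y : R, algebraMap R (Normal.Loc n) y ∈ T₀ := fun y => by
    obtain ⟨j, hj⟩ := (hR y).1 y.2
    have h1 := T.mul_mem (Normal.div_pow_mem hTk hTS hj) (T.pow_mem hft' j)
    have h2 : (y : K) * t ^ j / f ^ (d * j) * (f ^ d / t) ^ j = y := by
      rw [div_pow, ← pow_mul]
      field_simp
    rw [h2] at h1
    obtain ⟨z, hz, hzy⟩ := h1
    have : z = algebraMap R (Normal.Loc n) y := Subtype.ext hzy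
    rwa [← this]
  refine le_antisymm (fun y hy => ?_) hIm
  have hyT : y ∈ T₀ := by
    obtain ⟨a, s, rfl⟩ := IsLocalization.exists_mk'_eq n.primeCompl y
    rw [IsLocalization.mk'_eq_mul_mk'_one]
    refine T₀.mul_mem (hRT a) (hinv _ _ (hRT s) ?_)
    rw [IsLocalization.mk'_spec', map_one]
  obtain ⟨c, hc⟩ := (hT₀ y).1 hyT
  have hc0 : c = 0 := by
    by_contra hc0
    have h1 : κ c ∈ IsLocalRing.maximalIdeal (Normal.Loc n) := by
      have := Ideal.sub_mem _ hy (hIm hc)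
      rwa [sub_sub_cancel] at this
    exact h1 ((IsUnit.mk0 c hc0).map κ)
  rwa [hc0, map_zero, sub_zero] at hc

/-- a generator which does not vanish at a given point -/
lemma Normal.exists_gen {R : Subring K} (n : Ideal R) [hn : n.IsPrime] {d : ℕ} (hd : 0 < d)
    {t : K} (ht : t ∈ Rg k S d) (ht0 : t ≠ 0) (hR : ∀ y, y ∈ R ↔ y ∈ Normal.B ht) :
    ∃ f ∈ S, ∀ g ∈ S, g / f ∈ (Normal.Loc n) := by
  obtain ⟨e, rfl⟩ : ∃ e, d = e + 1 := ⟨d - 1, by omega⟩
  have hmem : ∀ a ∈ Rg k S (e + 1), a / t ∈ R := fun a ha => by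
    have := Normal.div_mem_B ht ht0 (j := 1) (a := a) (by rwa [mul_one])
    rw [pow_one] at this
    exact (hR _).2 this
  have hmul : ∀ g ∈ S, ∀ a ∈ Rg k S e, g * a ∈ Rg k S (e + 1) := fun g hg a ha => by
    rw [add_comm]; exact Rg_mul (Normal.mem_Rg_one hg) ha
  have : ∃ f, ∃ hf : f ∈ S, ∃ a, ∃ ha : a ∈ Rg k S e,
      (⟨f * a / t, hmem _ (hmul f hf a ha)⟩ : R) ∉ n := by
    by_contra hcon
    push Not at hcon
    have hall : ∀ a ∈ Rg k S (e + 1), ∃ z ∈ n, (z : K) = a / t := by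
      intro a ha
      rw [Rg, pow_succ'] at ha
      refine Submodule.mul_induction_on ha (fun m hm b hb => ?_) ?_
      · induction hm using Submodule.span_induction with
        | mem s hs => exact ⟨_, hcon s hs b hb, rfl⟩
        | zero => exact ⟨0, n.zero_mem, by simp⟩
        | add a a' _ _ h1 h2 =>
          obtain ⟨z, hz, h1⟩ := h1
          obtain ⟨z', hz', h2⟩ := h2
          exact ⟨z + z', n.add_mem hz hz', by
            rw [Subring.coe_add, h1, h2, add_mul, add_div]⟩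
        | smul c a _ h1 =>
          obtain ⟨z, hz, h1⟩ := h1
          refine ⟨⟨_, (hR _).2 ((Normal.B ht).algebraMap_mem c)⟩ * z, n.mul_mem_left _ hz, ?_⟩
          rw [Subring.coe_mul, h1, Algebra.smul_def, mul_assoc (algebraMap k K c), mul_div_assoc (algebraMap k K c)]
      · rintro a a' ⟨z, hz, h1⟩ ⟨z', hz', h2⟩
        exact ⟨z + z', n.add_mem hz hz', by rw [Subring.coe_add, h1, h2, add_div]⟩
    obtain ⟨z, hz, h1⟩ := hall t ht
    rw [div_self ht0] at h1
    have : z = 1 := Subtype.ext h1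
    exact hn.ne_top ((Ideal.eq_top_iff_one _).2 (this ▸ hz))
  obtain ⟨f, hf, a, ha, hfa⟩ := this
  refine ⟨f, hf, fun g hg => ?_⟩
  have hfa0 : f * a / t ≠ 0 := fun h0 => hfa (by
    have : (⟨f * a / t, hmem _ (hmul f hf a ha)⟩ : R) = 0 := Subtype.ext h0
    rw [this]; exact n.zero_mem)
  have hf0 : f ≠ 0 := fun h => hfa0 (by simp [h])
  have ha0 : a ≠ 0 := fun h => hfa0 (by simp [h])
  set y := IsLocalization.mk' (Normal.Loc n)
    (⟨g * a / t, hmem _ (hmul g hg a ha)⟩ : R) (⟨_, hfa⟩ : n.primeCompl) with hy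
  have h1 : (y : K) * (f * a / t) = g * a / t :=
    congrArg Subtype.val (IsLocalization.mk'_spec (Normal.Loc n)
      (⟨g * a / t, hmem _ (hmul g hg a ha)⟩ : R) (⟨_, hfa⟩ : n.primeCompl))
  have h2 : g / f = y := by
    rw [eq_div_iff hfa0 |>.2 h1]
    field_simp
  rw [h2]
  exact y.2

/-- residues in the localisation at a rational point are constants -/
lemma Normal.residue_loc {R : Subring K} (n : Ideal R) [hn : n.IsPrime]
    (hk : ∀ c : k, algebraMap k K c ∈ R) (hres : ∀ b : R, ∃ c : k, b - ⟨_, hk c⟩ ∈ n)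
    (y : (Normal.Loc n)) :
    ∃ c : k, y - ⟨_, LocalSubring.le_ofPrime R n (hk c)⟩ ∈
      IsLocalRing.maximalIdeal (Normal.Loc n) := by
  obtain ⟨a, s, rfl⟩ := IsLocalization.exists_mk'_eq n.primeCompl y
  obtain ⟨c₁, h₁⟩ := hres a
  obtain ⟨c₂, h₂⟩ := hres s
  let κ : k →+* R := (algebraMap k K).codRestrict R hk
  have hc₂ : c₂ ≠ 0 := by
    rintro rfl
    refine s.2 ?_
    have : (s : R) - κ 0 ∈ n := h₂
    rwa [map_zero, sub_zero] at this
  refine ⟨c₁ / c₂, ?_⟩
  have e : IsLocalization.mk' (Normal.Loc n) a s - ⟨_, LocalSubring.le_ofPrime R n (hk (c₁ / c₂))⟩ =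
      IsLocalization.mk' (Normal.Loc n) (a - κ (c₁ / c₂) * s) s := by
    rw [eq_comm, IsLocalization.mk'_eq_iff_eq_mul, sub_mul, IsLocalization.mk'_spec, map_sub,
      map_mul]
    rfl
  rw [e, IsLocalization.AtPrime.mk'_mem_maximal_iff (Normal.Loc n) n]
  have : a - κ (c₁ / c₂) * s = (a - κ c₁) - κ (c₁ / c₂) * (s - κ c₂) := by
    have h1 : κ (c₁ / c₂) * κ c₂ = κ c₁ := by rw [← map_mul, div_mul_cancel₀ _ hc₂]
    linear_combination -h1
  rw [this]
  exact n.sub_mem h₁ (n.mul_mem_left _ h₂)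

/-- descent of two local generators -/
lemma Normal.two_gen_descend {R : Subring K} (n : Ideal R) [hn : n.IsPrime]
    {w₁ w₂ : (Normal.Loc n)}
    (h : IsLocalRing.maximalIdeal (Normal.Loc n) = Ideal.span {w₁, w₂}) :
    ∃ b₁ ∈ n, ∃ b₂ ∈ n, ∀ c ∈ n, ∃ s, s ∉ n ∧ s * c ∈ Ideal.span {b₁, b₂} := by
  obtain ⟨b₁, s₁, rfl⟩ := IsLocalization.exists_mk'_eq n.primeCompl w₁
  obtain ⟨b₂, s₂, rfl⟩ := IsLocalization.exists_mk'_eq n.primeCompl w₂
  refine ⟨b₁, ?_, b₂, ?_, fun c hc => ?_⟩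
  · rw [← IsLocalization.AtPrime.mk'_mem_maximal_iff (Normal.Loc n) n b₁ s₁, h]
    exact Ideal.subset_span (by simp)
  · rw [← IsLocalization.AtPrime.mk'_mem_maximal_iff (Normal.Loc n) n b₂ s₂, h]
    exact Ideal.subset_span (by simp)
  · have h1 : algebraMap R (Normal.Loc n) c ∈ (Ideal.span {b₁, b₂}).map (algebraMap R (Normal.Loc n)) := by
      have h2 := (IsLocalization.AtPrime.to_map_mem_maximal_iff (Normal.Loc n) n c).2 hc
      rw [h] at h2
      refine (Ideal.span_le.2 ?_ : _ ≤ _) h2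
      rintro _ (rfl | rfl)
      · exact (IsLocalization.mk'_mem_map_algebraMap_iff n.primeCompl (Normal.Loc n) _ _ _).2
          ⟨1, one_mem _, by rw [one_mul]; exact Ideal.subset_span (by simp)⟩
      · exact (IsLocalization.mk'_mem_map_algebraMap_iff n.primeCompl (Normal.Loc n) _ _ _).2
          ⟨1, one_mem _, by rw [one_mul]; exact Ideal.subset_span (by simp)⟩
    obtain ⟨s, hs, hsc⟩ :=
      (IsLocalization.algebraMap_mem_map_algebraMap_iff n.primeCompl (Normal.Loc n) _ _).1 h1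
    exact ⟨s, hs, hsc⟩

/-- a two-dimensional local ring with two generators is integrally closed -/
lemma Normal.mem_loc_of_isIntegral {R : Subring K} [IsNoetherianRing R] (n : Ideal R)
    [hn : n.IsPrime] (hfrac : ∀ y : K, ∃ b ∈ R, b ≠ 0 ∧ y * b ∈ R)
    (hQ : ∃ Q : Ideal R, Q.IsPrime ∧ Q ≠ ⊥ ∧ Q < n)
    {w₁ w₂ : (Normal.Loc n)}
    (h : IsLocalRing.maximalIdeal (Normal.Loc n) = Ideal.span {w₁, w₂})
    {y : K} (hy : IsIntegral R y) : ∃ s : R, s ∉ n ∧ (s : K) * y ∈ R := by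
  have hRA : R ≤ (Normal.Loc n) := LocalSubring.le_ofPrime R n
  have : IsNoetherianRing (Normal.Loc n) := IsLocalization.isNoetherianRing n.primeCompl (Normal.Loc n) inferInstance
  obtain ⟨Q, hQp, hQ0, hQn⟩ := hQ
  have hd : Disjoint (n.primeCompl : Set R) Q := by
    rw [Set.disjoint_left]
    exact fun a ha haQ => ha (hQn.le haQ)
  have hu := IsLocalization.under_map_of_isPrime_disjoint n.primeCompl (Normal.Loc n) hQp hd
  have : UniqueFactorizationMonoid (Normal.Loc n) := ufd_of_two_generators w₁ w₂ h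
    ⟨Q.map (algebraMap R (Normal.Loc n)), IsLocalization.isPrime_of_isPrime_disjoint n.primeCompl (Normal.Loc n) Q hQp hd,
      fun h0 => hQ0 (by
        rw [← hu, h0, eq_bot_iff]
        intro a ha
        rw [Ideal.mem_under, Ideal.mem_bot] at ha
        exact Subtype.ext (congrArg (fun z : (Normal.Loc n) => (z : K)) ha)),
      fun hm => hQn.ne (by
        rw [← hu, hm]
        exact IsLocalization.AtPrime.under_maximalIdeal (Normal.Loc n) n)⟩
  have : IsFractionRing (Normal.Loc n) K := by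
    refine IsFractionRing.of_field _ _ fun z => ?_
    obtain ⟨b, hb, hb0, hbz⟩ := hfrac z
    refine ⟨⟨_, hRA hbz⟩, ⟨_, hRA hb⟩, ?_⟩
    change z = z * b / b
    field_simp
  obtain ⟨z, hz⟩ := IsIntegrallyClosed.isIntegral_iff.1 (Normal.isIntegral_of_le hRA hy)
  obtain ⟨a, s, rfl⟩ := IsLocalization.exists_mk'_eq n.primeCompl z
  refine ⟨s, s.2, ?_⟩
  have h1 : (s : K) * y = a := by
    rw [← hz]
    exact congrArg Subtype.val (IsLocalization.mk'_spec' (Normal.Loc n) a s)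
  rw [h1]
  exact a.2

lemma Normal.mem_of_forall_maximal {R : Subring K} {y : K}
    (h : ∀ n : Ideal R, n.IsMaximal → ∃ s : R, s ∉ n ∧ (s : K) * y ∈ R) : y ∈ R := by
  let I : Ideal R :=
    { carrier := {s | (s : K) * y ∈ R}
      add_mem' := fun {a b} ha hb => by
        change ((a : K) + b) * y ∈ R
        rw [add_mul]; exact R.add_mem ha hb
      zero_mem' := by change ((0 : R) : K) * y ∈ R; simp
      smul_mem' := fun c a ha => by
        change ((c : K) * a) * y ∈ R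
        rw [mul_assoc]; exact R.mul_mem c.2 ha }
  by_contra hy
  have hI : I ≠ ⊤ := fun hI => hy (by
    have : (1 : R) ∈ I := hI ▸ Submodule.mem_top
    have h1 : ((1 : R) : K) * y ∈ R := this
    simpa using h1)
  obtain ⟨n, hn, hIn⟩ := Ideal.exists_le_maximal I hI
  obtain ⟨s, hs, hsy⟩ := h n hn
  exact hs (hIn hsy)

end Vale.Agent.P190
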