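import Vale.Agent.P190.Chart
import Vale.Agent.P190.Ring
import Vale.Agent.P190.NormalA

/-! From the pointwise smoothness of the projective model to the abstract hypotheses. -/

open Module

noncomputable section

namespace Vale.Agent.P190

variable {k : Type} [Field k] {K : Type} [Field K] [Algebra k K] {S : Set K}
variable {F : Type} [Field F] [Algebra k F] [Algebra F K] [IsScalarTower k F K] {P : P2 k F}
  {d : ℕ} {x : K}

lemma NormData.exists_ne_zero (hN : NormData P S d x) : ∃ f ∈ S, f ≠ 0 := by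
  rcases S.eq_empty_or_nonempty with rfl | ⟨f, hf⟩
  · have h := hN.mem 0
    rw [P.s_zero, mul_one, Rg, Submodule.span_empty, Submodule.bot_pow hN.d_pos.ne',
      Submodule.mem_bot] at h
    exact absurd h hN.x_ne
  · exact ⟨f, hf, fun h => hN.zero_notMem (h ▸ hf)⟩

lemma Normal.mul_ev_mem (hN : NormData P S d x) {h : MvPolynomial (Fin 3) k}
    (hh : h.IsHomogeneous 1) : x * P.ev K h ∈ Rg k S d := by
  have h1 : h ∈ MvPolynomial.homogeneousSubmodule (Fin 3) k 1 := hh
  rw [MvPolynomial.homogeneousSubmodule_one_eq_span_X] at h1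
  clear hh
  rw [P.ev_eq_aeval]
  induction h1 using Submodule.span_induction with
  | mem s hs =>
    obtain ⟨i, rfl⟩ := hs
    simpa using hN.mem i
  | zero => simp
  | add a b _ _ ha hb => rw [map_add, mul_add]; exact Submodule.add_mem _ ha hb
  | smul c a _ ha => rw [map_smul, mul_smul_comm]; exact Submodule.smul_mem _ c ha

lemma Normal.chart0_le (hN : NormData P S d x) {h : MvPolynomial (Fin 3) k}
    (hh : h.IsHomogeneous 1) (h0 : h ≠ 0) :
    P.chart0 K h ≤ Normal.B (Normal.mul_ev_mem hN hh) := by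
  refine Algebra.adjoin_le ?_
  rintro _ ⟨i, rfl⟩
  refine ⟨1, ?_⟩
  have := P.ev_ne_zero K hh h0
  have e : P.s K i / P.ev K h * (x * P.ev K h) ^ 1 = x * P.s K i := by field_simp
  simp only []
  rw [e, mul_one]
  exact hN.mem i

/-- the affine ring as an algebra over the chart of the plane -/
def Normal.B' (hN : NormData P S d x) {h : MvPolynomial (Fin 3) k}
    (hh : h.IsHomogeneous 1) (h0 : h ≠ 0) : Subalgebra (P.chart0 K h) K where
  __ := (Normal.B (Normal.mul_ev_mem hN hh)).toSubsemiring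
  algebraMap_mem' r := Normal.chart0_le hN hh h0 r.2

lemma Normal.mem_B' (hN : NormData P S d x) {h : MvPolynomial (Fin 3) k}
    (hh : h.IsHomogeneous 1) (h0 : h ≠ 0) (y : K) :
    y ∈ (Normal.B' hN hh h0).toSubring ↔ y ∈ Normal.B (Normal.mul_ev_mem hN hh) := Iff.rfl

lemma Normal.B'_fg (hN : NormData P S d x) {h : MvPolynomial (Fin 3) k}
    (hh : h.IsHomogeneous 1) (h0 : h ≠ 0) : (Normal.B' hN hh h0).toSubmodule.FG := by
  obtain ⟨j₀, hj₀⟩ := hN.gen
  have hev := P.ev_ne_zero K hh h0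
  have ht0 : x * P.ev K h ≠ 0 := mul_ne_zero hN.x_ne hev
  have ht := Normal.mul_ev_mem hN hh
  obtain ⟨T, hT⟩ : (Rg k S (d * j₀)).FG := Module.Finite.iff_fg.1 (Rg_finite hN.finS _)
  set N : Submodule (P.chart0 K h) K :=
    Submodule.span _ ((fun a => a / (x * P.ev K h) ^ j₀) '' (T : Set K)) with hNdef
  have hsm : ∀ (c : k), ∀ y ∈ N, c • y ∈ N := fun c y hy => by
    rw [← algebraMap_smul (P.chart0 K h) c y]
    exact N.smul_mem _ hy
  have key : ∀ e : ℕ, ∀ a ∈ Rg k S (d * (j₀ + e)), a / (x * P.ev K h) ^ (j₀ + e) ∈ N := by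
    intro e
    induction e with
    | zero =>
      intro a ha
      rw [add_zero] at ha ⊢
      rw [← hT] at ha
      induction ha using Submodule.span_induction with
      | mem s hs => exact Submodule.subset_span ⟨s, hs, rfl⟩
      | zero => simp
      | add a b _ _ ha hb => rw [add_div]; exact N.add_mem ha hb
      | smul c a _ ha => rw [smul_div_assoc]; exact hsm c _ ha
    | succ e ih =>
      intro a ha
      have h1 : d * (j₀ + (e + 1)) = d * (j₀ + e) + d := by ring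
      rw [h1] at ha
      have h2 := hj₀ (d * (j₀ + e)) (by nlinarith [hN.d_pos]) ha
      obtain ⟨c, hc, rfl⟩ := RingA.exists_sum _ _ h2
      rw [Finset.sum_div]
      refine N.sum_mem fun i _ => ?_
      have h3 : x * P.s K i * c i / (x * P.ev K h) ^ (j₀ + (e + 1)) =
          (⟨P.s K i / P.ev K h, Algebra.subset_adjoin ⟨i, rfl⟩⟩ : P.chart0 K h) •
            (c i / (x * P.ev K h) ^ (j₀ + e)) := by
        change _ = P.s K i / P.ev K h * _
        have := hN.x_ne
        rw [← add_assoc, pow_succ]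
        field_simp
      rw [h3]
      exact N.smul_mem _ (ih _ (hc i))
  refine Submodule.fg_def.2 ⟨_, T.finite_toSet.image (fun a => a / (x * P.ev K h) ^ j₀),
    le_antisymm (Submodule.span_le.2 ?_) ?_⟩
  · rintro _ ⟨a, ha, rfl⟩
    exact Normal.div_mem_B ht ht0 (hT ▸ Submodule.subset_span ha)
  · rintro y ⟨j, hj⟩
    have h1 := Rg_mul (Normal.pow_mem_Rg ht j₀) hj
    rw [← mul_add] at h1
    have h2 := key j _ h1
    have h3 : (x * P.ev K h) ^ j₀ * (y * (x * P.ev K h) ^ j) / (x * P.ev K h) ^ (j₀ + j) = y := by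
      rw [pow_add]
      field_simp
    rwa [h3] at h2

/-- elements of the graded ring are integral over the coordinate ring of the plane -/
theorem NormData.isIntegral (hN : NormData P S d x) {h : MvPolynomial (Fin 3) k}
    (hh : h.IsHomogeneous 1) (h0 : h ≠ 0) {j : ℕ} {a : K} (ha : a ∈ Rg k S (d * j)) :
    IsIntegral (P.chart0 K h) (a / (x * P.ev K h) ^ j) :=
  IsIntegral.of_mem_of_fg _ (Normal.B'_fg hN hh h0) _
    (Normal.div_mem_B (Normal.mul_ev_mem hN hh) (mul_ne_zero hN.x_ne (P.ev_ne_zero K hh h0)) ha)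

lemma Normal.ev_X (i : Fin 3) : P.ev K (MvPolynomial.X i) = P.s K i := by
  rw [P.ev_eq_aeval, MvPolynomial.aeval_X]

omit [IsScalarTower k F K] in
lemma Normal.chart0_le_of {T : Subring K} (hk : ∀ c : k, algebraMap k K c ∈ T)
    {h : MvPolynomial (Fin 3) k} (hs : ∀ i, P.s K i / P.ev K h ∈ T) :
    (P.chart0 K h).toSubring ≤ T := by
  intro y hy
  have hy' : y ∈ Algebra.adjoin k (Set.range fun i => P.s K i / P.ev K h) := hy
  clear hy
  induction hy' using Algebra.adjoin_induction with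
  | mem y hy => obtain ⟨i, rfl⟩ := hy; exact hs i
  | algebraMap c => exact hk c
  | add a b ha hb h1 h2 => exact T.add_mem h1 h2
  | mul a b ha hb h1 h2 => exact T.mul_mem h1 h2

lemma Normal.isIntegral_one (hN : NormData P S d x) (i : Fin 3) {a : K} (ha : a ∈ Rg k S d) :
    IsIntegral (P.chart0 K (MvPolynomial.X i)).toSubring (a / (x * P.s K i)) := by
  have := hN.isIntegral (MvPolynomial.isHomogeneous_X k i) (MvPolynomial.X_ne_zero i) (j := 1)
    (a := a) (by rwa [mul_one])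
  rwa [pow_one, Normal.ev_X] at this

lemma Normal.unit_val (hN : NormData P S d x) (A : ValuationSubring K)
    (hk : ∀ c : k, algebraMap k K c ∈ A) {f : K} (hf : f ∈ S) (hmin : ∀ g ∈ S, g / f ∈ A)
    {i₀ : Fin 3} (hi : ∀ i, P.s K i / P.s K i₀ ∈ A) :
    x * P.s K i₀ / f ^ d ∈ A ∧ f ^ d / (x * P.s K i₀) ∈ A := by
  refine ⟨Normal.div_pow_mem (T := A.toSubring) hk hmin (hN.mem i₀), ?_⟩
  refine Normal.mem_valuation (Normal.chart0_le_of (T := A.toSubring) hk ?_)
    (Normal.isIntegral_one hN i₀ ?_)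
  · simp only [Normal.ev_X]
    exact hi
  · simpa using Normal.pow_mem_Rg (Normal.mem_Rg_one (k := k) hf) d

lemma Normal.exists_min_s (A : ValuationSubring K) :
    ∃ i₀ : Fin 3, ∀ i, P.s K i / P.s K i₀ ∈ A := by
  obtain ⟨_, ⟨i₀, rfl⟩, -, h⟩ := exists_min_valuation A (Set.finite_range (P.s K))
    ⟨_, ⟨0, rfl⟩, P.s_ne_zero K 0⟩
  exact ⟨i₀, fun i => h _ ⟨i, rfl⟩⟩

variable [IsAlgClosed k] [CharZero k] [FiniteDimensional F K]

theorem NormData.mem_line (hN : NormData P S d x) {j : ℕ} {a : K} (ha : a ∈ Rg k S j)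
    (u : PU k) : a ∈ line (ofSet (P.OK K) S ^ j) u := by
  rw [P190.mem_line, dv_pow, ← div_eq_inv_mul]
  refine Normal.div_pow_mem (P.hasK_OK K u) (fun g hg => ?_) ha
  rw [div_eq_inv_mul]
  exact mem_line_ofSet (P.isSL_OK K).isFam hN.finS hg hN.exists_ne_zero u

theorem NormData.line_pow_eq (hN : NormData P S d x) (j : ℕ) (u : PU k) :
    line (ofSet (P.OK K) S ^ j) u = spanO (P.OK K u) (Rg k S j : Set K) := by
  apply le_antisymm
  · have hc : dv (ofSet (P.OK K) S) u ∈ Submodule.span (P.OK K u) S := by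
      rw [← mem_spanO_iff, ← line_ofSet (P.isSL_OK K).isFam hN.finS hN.exists_ne_zero,
        P190.mem_line, inv_mul_cancel₀ (dv_ne_zero _ _)]
      exact one_mem _
    have hcj : ∀ j : ℕ, dv (ofSet (P.OK K) S) u ^ j ∈
        Submodule.span (P.OK K u) (Rg k S j : Set K) := by
      intro j
      induction j with
      | zero =>
        refine Submodule.subset_span ?_
        rw [Rg, pow_zero, pow_zero]
        exact Submodule.mem_one.2 ⟨1, map_one _⟩
      | succ j ih =>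
        have := Submodule.mul_mem_mul ih hc
        rw [Submodule.span_mul_span, ← pow_succ] at this
        refine Submodule.span_mono ?_ this
        rintro _ ⟨a, ha, b, hb, rfl⟩
        exact Rg_mul ha (Normal.mem_Rg_one hb)
    intro y hy
    rw [P190.mem_line, dv_pow] at hy
    have := spanO_smul_mem hy (mem_spanO_iff.2 (hcj j))
    rwa [smul_eq_mul, mul_right_comm, inv_mul_cancel₀ (pow_ne_zero _ (dv_ne_zero _ _)),
      one_mul] at this
  · exact spanO_le (fun a ha => hN.mem_line ha u) fun c hc y hy => (isBun_line _).smul_mem hc hy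

theorem NormData.sameDiv_pol (hN : NormData P S d x) :
    SameDiv (ofSet (P.OK K) S ^ d) (ofSet (P.OK K) {x} * P.pol K) := by
  have hO := (P.isSL_OK K).isFam
  refine Lat2.sameDiv_of_valuation hO fun u A hA => ?_
  obtain ⟨f, hf, hf0, hfm⟩ := exists_min_valuation A hN.finS hN.exists_ne_zero
  obtain ⟨i₀, hi⟩ := Normal.exists_min_s (P := P) A
  obtain ⟨h1, h2⟩ := ofSet_valuation hO hN.finS hA hf hf0 hfm
  obtain ⟨h3, h4⟩ := ofSet_valuation hO (Set.finite_range (P.s K)) hA ⟨i₀, rfl⟩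
    (P.s_ne_zero K i₀) (by rintro _ ⟨i, rfl⟩; exact hi i)
  obtain ⟨h5, h6⟩ := ofSet_singleton hO hN.x_ne u
  obtain ⟨h7, h8⟩ := Normal.unit_val hN A (fun c => hA (P.hasK_OK K u c)) hf hfm hi
  have hx := hN.x_ne
  have hs := P.s_ne_zero K i₀
  refine ⟨f ^ d, pow_ne_zero _ hf0, ⟨?_, ?_⟩, ?_, ?_⟩
  · rw [dv_pow, ← div_pow]; exact pow_mem h1 d
  · rw [dv_pow, ← div_pow]; exact pow_mem h2 d
  · have := mul_mem (mul_mem (show _ ∈ A from hA h5) h3) h7
    convert this using 1
    rw [dv_mul, P2.pol]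
    field_simp
  · have := mul_mem (mul_mem (show _ ∈ A from hA h6) h4) h8
    convert this using 1
    rw [dv_mul, P2.pol]
    field_simp

theorem NormData.exists_place (hN : NormData P S d x) (A : ValuationSubring K)
    (hk : ∀ c : k, algebraMap k K c ∈ A) (hA : A ≠ ⊤) {f : K} (hf : f ∈ S)
    (hmin : ∀ g ∈ S, g / f ∈ A)
    (htr : ∃ g ∈ S, ∀ c : k, g / f ≠ algebraMap k K c ∧ (g / f - algebraMap k K c)⁻¹ ∈ A) :
    ∃ u : PU k, P.OK K u ≤ A.toSubring := by
  obtain ⟨i₀, hi⟩ := Normal.exists_min_s (P := P) A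
  refine P.exists_place K A hk hA i₀ hi ?_
  by_contra hcon
  push Not at hcon
  obtain ⟨g, hg, htr⟩ := htr
  have hf0 : f ≠ 0 := fun h => hN.zero_notMem (h ▸ hf)
  have hx := hN.x_ne
  have hs := P.s_ne_zero K i₀
  let m : Ideal A.toSubring := IsLocalRing.maximalIdeal A
  have hm : m.IsPrime := (IsLocalRing.maximalIdeal.isMaximal A).isPrime
  let κ : k →+* A.toSubring := (algebraMap k K).codRestrict A.toSubring hk
  let T₀ : Subring A.toSubring := ((Ideal.Quotient.mk m).comp κ).range.comap (Ideal.Quotient.mk m)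
  have hT₀ : ∀ y : A.toSubring, y ∈ T₀ ↔ ∃ c : k, y - κ c ∈ m := fun y =>
    exists_congr fun c => by
      rw [← Ideal.Quotient.eq, eq_comm]; rfl
  have hle : (P.chart0 K (MvPolynomial.X i₀)).toSubring ≤ T₀.map A.toSubring.subtype := by
    refine Normal.chart0_le_of (T := T₀.map A.toSubring.subtype)
      (fun c => ⟨κ c, (hT₀ _).2 ⟨c, by simp⟩, rfl⟩) fun i => ?_
    rw [Normal.ev_X]
    refine ⟨⟨_, hi i⟩, (hT₀ _).2 ?_, rfl⟩
    by_cases h : i = i₀
    · subst h
      refine ⟨1, ?_⟩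
      have : (⟨_, hi i⟩ : A.toSubring) = 1 := Subtype.ext (div_self hs)
      rw [this, map_one, sub_self]
      exact m.zero_mem
    · obtain ⟨c, hc⟩ := hcon i h
      refine ⟨c, fun hu => hc ?_⟩
      obtain ⟨z, hz⟩ := hu.exists_right_inv
      have h1 : (P.s K i / P.s K i₀ - algebraMap k K c) * (z : K) = 1 := congrArg Subtype.val hz
      rw [← eq_inv_of_mul_eq_one_right h1]
      exact z.2
  have hRA : (P.chart0 K (MvPolynomial.X i₀)).toSubring ≤ A.toSubring := fun y hy => by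
    obtain ⟨z, -, rfl⟩ := hle hy
    exact z.2
  have hres : ∀ y, (hy : y ∈ (P.chart0 K (MvPolynomial.X i₀)).toSubring) →
      ∃ c : k, (⟨y, hRA hy⟩ - ⟨_, hk c⟩ : A.toSubring) ∈ m := fun y hy => by
    obtain ⟨z, hz, rfl⟩ := hle hy
    exact (hT₀ z).1 hz
  obtain ⟨e, rfl⟩ : ∃ e, d = e + 1 := ⟨d - 1, by have := hN.d_pos; omega⟩
  have hfe : f ^ e ∈ Rg k S e := by simpa using Normal.pow_mem_Rg (Normal.mem_Rg_one (k := k) hf) e
  have i1 := Normal.isIntegral_one hN i₀ (Rg_mul hfe (Normal.mem_Rg_one hg))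
  have i2 := Normal.isIntegral_one hN i₀ (Rg_mul hfe (Normal.mem_Rg_one hf))
  obtain ⟨c₁, hc₁⟩ := Normal.residue_of_isIntegral hRA hk m hres (Normal.mem_valuation hRA i1) i1
  obtain ⟨c₂, hc₂⟩ := Normal.residue_of_isIntegral hRA hk m hres (Normal.mem_valuation hRA i2) i2
  obtain ⟨h7, -⟩ := Normal.unit_val hN A hk hf hmin hi
  set y₁ : A.toSubring := ⟨_, Normal.mem_valuation hRA i1⟩ with hy₁
  set y₂ : A.toSubring := ⟨_, Normal.mem_valuation hRA i2⟩ with hy₂
  set z : A.toSubring := ⟨_, h7⟩ with hz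
  have hyz : y₂ * z = 1 := by
    apply Subtype.ext
    change f ^ e * f / (x * P.s K i₀) * (x * P.s K i₀ / f ^ (e + 1)) = 1
    rw [pow_succ]
    field_simp
  have hc0 : c₂ ≠ 0 := by
    rintro rfl
    have h1 : y₂ - κ 0 ∈ m := hc₂
    rw [map_zero, sub_zero] at h1
    exact h1 (IsUnit.of_mul_eq_one _ hyz)
  have h1 : y₁ * z - κ (c₁ / c₂) ∈ m := by
    have e1 : y₁ * z - κ (c₁ / c₂) = z * (y₁ - κ c₁) - z * κ (c₁ / c₂) * (y₂ - κ c₂) := by
      have h1 : κ (c₁ / c₂) * κ c₂ = κ c₁ := by rw [← map_mul, div_mul_cancel₀ _ hc0]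
      linear_combination (κ (c₁ / c₂)) * hyz - z * h1
    rw [e1]
    exact m.sub_mem (m.mul_mem_left _ hc₁) (m.mul_mem_left _ hc₂)
  obtain ⟨h2, h3⟩ := htr (c₁ / c₂)
  refine h1 (IsUnit.of_mul_eq_one ⟨_, h3⟩ (Subtype.ext ?_))
  change (f ^ e * g / (x * P.s K i₀) * (x * P.s K i₀ / f ^ (e + 1)) - algebraMap k K (c₁ / c₂)) *
    (g / f - algebraMap k K (c₁ / c₂))⁻¹ = 1
  have e2 : f ^ e * g / (x * P.s K i₀) * (x * P.s K i₀ / f ^ (e + 1)) = g / f := by
    rw [pow_succ]
    field_simp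
  rw [e2, mul_inv_cancel₀ (sub_ne_zero.2 h2)]

lemma Normal.local_gen (hN : NormData P S d x) (hS : RegS k S) {h : MvPolynomial (Fin 3) k}
    (hh : h.IsHomogeneous 1) (h0 : h ≠ 0) (n : Ideal (Normal.B' hN hh h0).toSubring)
    [n.IsMaximal] : ∃ w₁ w₂ : Normal.Loc n,
      IsLocalRing.maximalIdeal (Normal.Loc n) = Ideal.span {w₁, w₂} := by
  have ht := Normal.mul_ev_mem hN hh
  have ht0 : x * P.ev K h ≠ 0 := mul_ne_zero hN.x_ne (P.ev_ne_zero K hh h0)
  have : Module.Finite (P.chart0 K h) (Normal.B' hN hh h0) :=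
    Module.Finite.iff_fg.2 (Normal.B'_fg hN hh h0)
  have : Algebra.FiniteType k (P.chart0 K h) :=
    Algebra.FiniteType.adjoin_of_finite (Set.finite_range _)
  have hk := Normal.const_mem _ (Normal.B' hN hh h0)
  obtain ⟨f, hf, hfg⟩ := Normal.exists_gen n hN.d_pos ht ht0 (Normal.mem_B' hN hh h0)
  have hf0 : f ≠ 0 := fun h => hN.zero_notMem (h ▸ hf)
  obtain ⟨w₁, h₁, w₂, h₂, hw⟩ := hS (LocalSubring.ofPrime _ n) f hf
    (fun c => LocalSubring.le_ofPrime _ n (hk c)) fun g hg => by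
      obtain ⟨c, hc⟩ := Normal.residue_loc n hk (Normal.nullst _ _ n) ⟨_, hfg g hg⟩
      exact ⟨c, Subring.sub_mem _ (hfg g hg) (LocalSubring.le_ofPrime _ n (hk c)), hc⟩
  refine ⟨w₁, w₂, Normal.maximal_eq n hk ht ht0 hf0 (Normal.mem_B' hN hh h0) ?_ h₁ h₂ hw⟩
  have := Normal.div_mem_B ht ht0 (j := 1) (a := f ^ d)
    (by simpa using Normal.pow_mem_Rg (Normal.mem_Rg_one (k := k) hf) d)
  rwa [pow_one] at this

lemma Normal.chart_eq (hN : NormData P S d x) (hS : RegS k S) {h : MvPolynomial (Fin 3) k}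
    (hh : h.IsHomogeneous 1) (h0 : h ≠ 0) : P.chart K h = (Normal.B' hN hh h0).toSubring := by
  have ht := Normal.mul_ev_mem hN hh
  have ht0 : x * P.ev K h ≠ 0 := mul_ne_zero hN.x_ne (P.ev_ne_zero K hh h0)
  have : Module.Finite (P.chart0 K h) (Normal.B' hN hh h0) :=
    Module.Finite.iff_fg.2 (Normal.B'_fg hN hh h0)
  have : Algebra.FiniteType k (P.chart0 K h) :=
    Algebra.FiniteType.adjoin_of_finite (Set.finite_range _)
  have := P.chart0_isIntegrallyClosed (K := K) hh h0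
  have := Normal.noeth _ (Normal.B' hN hh h0)
  ext y
  rw [P.mem_chart_iff_isIntegral hh h0]
  refine ⟨fun hy => Normal.mem_of_forall_maximal fun n hn => ?_,
    IsIntegral.of_mem_of_fg _ (Normal.B'_fg hN hh h0) y⟩
  obtain ⟨w₁, w₂, hw⟩ := Normal.local_gen hN hS hh h0 n
  refine Normal.mem_loc_of_isIntegral n (fun c => ?_)
    (Normal.exists_prime _ _ (fun 𝔫 h𝔫 => ?_) n) hw
    (Normal.isIntegral_of_le (R := (P.chart0 K h).toSubring) (Normal.chart0_le hN hh h0) hy)
  · obtain ⟨j, b, hb, hb0, hcb⟩ := hN.frac c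
    obtain ⟨f, hf, hf0⟩ := hN.exists_ne_zero
    obtain ⟨e, rfl⟩ : ∃ e, d = e + 1 := ⟨d - 1, by have := hN.d_pos; omega⟩
    have hfe : f ^ (e * j) ∈ Rg k S (e * j) := by
      simpa using Normal.pow_mem_Rg (Normal.mem_Rg_one (k := k) hf) (e * j)
    have e1 : e * j + j = (e + 1) * j := by ring
    refine ⟨f ^ (e * j) * b / (x * P.ev K h) ^ j, Normal.div_mem_B ht ht0 (e1 ▸ Rg_mul hfe hb),
      div_ne_zero (mul_ne_zero (pow_ne_zero _ hf0) hb0) (pow_ne_zero _ ht0), ?_⟩
    have := Normal.div_mem_B ht ht0 (e1 ▸ Rg_mul hfe hcb)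
    rw [Normal.mem_B']
    convert this using 1
    ring
  · obtain ⟨a, b, h1, h2, h3, h4, -⟩ := P.chart0_maximal hh h0 𝔫 h𝔫
    exact ⟨a, b, h1, h2, h3, h4⟩

theorem NormData.reg_and_normal (hN : NormData P S d x) (hS : RegS k S) :
    P.Reg K ∧ NormalS P S d x := by
  constructor
  · intro h hh h0
    rw [Normal.chart_eq hN hS hh h0]
    intro n hn
    obtain ⟨w₁, w₂, hw⟩ := Normal.local_gen hN hS hh h0 n
    exact Normal.two_gen_descend n hw
  · intro u c hc
    obtain ⟨i, hi⟩ := u.exists_X_notMem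
    have hh := MvPolynomial.isHomogeneous_X k i
    have h0 := MvPolynomial.X_ne_zero (R := k) i
    have hev := P.ev_ne_zero K hh h0
    obtain ⟨t, ht, ht0, htu, htc⟩ := P.secChart_local hh h0 isBun_triv hi (x := c) hc
    have h1 : t * c ∈ P.chart K (MvPolynomial.X i) :=
      (P.mem_chart _).2 ((mem_secChart _ _).1 htc)
    rw [Normal.chart_eq hN hS hh h0] at h1
    obtain ⟨j, hj⟩ := h1
    obtain ⟨e, φ, hφ, rfl⟩ := (P.mem_chart0 hh h0 t).1 ht
    have hφ0 : φ ≠ 0 := by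
      rintro rfl
      simp [P2.ev] at ht0
    have hφu : φ ∉ u.1 := by
      refine P.notMem_of_unit K hφ hφ0 ?_
      have h2 := (P.OK K u).mul_mem ((P.OK K u).pow_mem (P.ev_unit K hh hi) e) htu
      convert h2 using 1
      rw [pow_one, div_pow]
      field_simp
    refine ⟨e + j, φ * MvPolynomial.X i ^ j, by simpa using hφ.mul (hh.pow j), fun hm => ?_, ?_⟩
    · exact (u.2.1.mem_or_mem hm).elim hφu fun hm => hi (u.2.1.mem_of_pow_mem _ hm)
    · have h2 := Rg_mul (Normal.pow_mem_Rg (Normal.mul_ev_mem hN hh) e) hj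
      rw [← mul_add] at h2
      convert h2 using 1
      have h3 : P.ev K (φ * MvPolynomial.X i ^ j) = P.ev K φ * P.ev K (MvPolynomial.X i) ^ j := by
        simp only [P2.ev, map_mul, map_pow]
      rw [h3]
      field_simp
      ring

end Vale.Agent.P190
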