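import Vale.Agent.P190.Filt1
import Vale.Agent.P190.Normal
import Vale.Agent.P190.Chi

/-! The reflexive hull of the associated graded module. -/

open Module

noncomputable section

namespace Vale.Agent.P190

variable {k : Type} [Field k] {K : Type} [Field K] [Algebra k K] {S : Set K}
variable {M : Type*} [AddCommGroup M] [Module (Rhat k S) M] [Module k M]
  [IsScalarTower k (Rhat k S) M] {r : ℕ}
variable {F : Type} [Field F] [Algebra k F] [Algebra F K] [IsScalarTower k F K] {P : P2 k F}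
  {d : ℕ} {x : K} [IsAlgClosed k] [CharZero k] [FiniteDimensional F K]

/-- `E` is the hull of the associated graded module, compatibly with all shifts -/
def Hulls (P : P2 k F) (S : Set K) (d : ℕ) (x : K) (ι : M →ₗ[k] (Fin r → LaurentSeries K))
    (E : Sys (PU k) (Fin r → K)) : Prop :=
  IsBun (P.OK K) E ∧ ∀ i : ℤ,
    IsHull (K := K) P (GrN k ι d x i) (twist (ofSet (P.OK K) S ^ i) E)

omit [IsScalarTower k (Rhat k S) M] [IsScalarTower k F K] [IsAlgClosed k] [CharZero k]
  [FiniteDimensional F K] in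
theorem NormData.good_GrN (hN : NormData P S d x) {ι : M →ₗ[k] (Fin r → LaurentSeries K)}
    (h : Adm k S (fun i => x * P.s K i) d ι) (i : ℤ) : Good (P.s K) 1 (GrN k ι d x i) :=
  h.good.veronese hN.x_ne hN.d_pos i

namespace Filt2
open MvPolynomial

variable {V : Type} [AddCommGroup V] [Module K V] [Module k V] [IsScalarTower k K V]

omit [IsAlgClosed k] [CharZero k] in
lemma mem_smulK' {c : K} (hc : c ≠ 0) {W : Submodule k V} {v : V} :
    v ∈ smulK c W ↔ c⁻¹ • v ∈ W :=
  ⟨by rintro ⟨y, hy, rfl⟩; simpa [smul_smul, hc] using hy,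
    fun h => ⟨_, h, by simp [smul_smul, hc]⟩⟩

omit [IsAlgClosed k] [CharZero k] [FiniteDimensional F K] in
lemma ev_smul {G : ℤ → Submodule k V} (hG : Good (P.s K) 1 G) {φ : MvPolynomial (Fin 3) k} {e : ℕ}
    (hφ : φ.IsHomogeneous e) {j : ℤ} {v : V} (hv : v ∈ G j) : P.ev K φ • v ∈ G (j + e) := by
  simpa [P.ev_eq_aeval] using hG.aeval_smul_mem hφ hv

omit [Algebra k K] [IsScalarTower k F K] [IsAlgClosed k] [CharZero k] [FiniteDimensional F K] in
lemma ev_mul (a b : MvPolynomial (Fin 3) k) : P.ev K (a * b) = P.ev K a * P.ev K b := by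
  simp [P2.ev]

/-- the hull of a graded family -/
def hull {G : ℤ → Submodule k V} (hG : Good (P.s K) 1 G) : Sys (PU k) V := fun u =>
  { carrier := {v | ∃ (j : ℕ) (ψ : MvPolynomial (Fin 3) k),
      ψ.IsHomogeneous j ∧ ψ ∉ u.1 ∧ P.ev K ψ • v ∈ G j}
    zero_mem' := ⟨0, 1, isHomogeneous_one _ _, (Ideal.ne_top_iff_one _).1 u.2.1.ne_top, by simp⟩
    add_mem' := by
      rintro a b ⟨j, ψ, h1, h2, h3⟩ ⟨j', ψ', h4, h5, h6⟩
      refine ⟨j + j', ψ * ψ', h1.mul h4, fun h => (u.2.1.mem_or_mem h).elim h2 h5, ?_⟩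
      rw [smul_add, Nat.cast_add]
      refine add_mem ?_ ?_
      · rw [mul_comm, ev_mul, mul_smul]; exact ev_smul hG h4 h3
      · rw [ev_mul, mul_smul, add_comm]; exact ev_smul hG h1 h6
    neg_mem' := by
      rintro a ⟨j, ψ, h1, h2, h3⟩
      exact ⟨j, ψ, h1, h2, by rw [smul_neg]; exact neg_mem h3⟩ }

omit [IsAlgClosed k] in
lemma isBun_hull {G : ℤ → Submodule k V} (hG : Good (P.s K) 1 G)
    (hm : ∀ u, ∀ c ∈ P.OK K u, ∀ v ∈ hull hG u, c • v ∈ hull hG u)
    (hs : ∀ᶠ j in Filter.atTop, Submodule.span K (G j : Set V) = ⊤) :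
    IsBun (P.OK K) (hull hG) := by
  obtain ⟨j₀, h0⟩ := hG.exists_span
  obtain ⟨j, a1, a2, a3⟩ := (hs.and ((Filter.eventually_ge_atTop j₀).and
    (Filter.eventually_ge_atTop 0))).exists
  obtain ⟨j, rfl⟩ := Int.eq_ofNat_of_zero_le a3
  obtain ⟨t, ht⟩ := Module.Finite.iff_fg.1 (hG.fin j)
  have hO := (P.isSL_OK K).isFam
  have hB := isBun_spanO hO t.finite_toSet (by rwa [← ht, Submodule.span_span_of_tower] at a1)
  have hk : ∀ u, ∀ y ∈ G j, y ∈ spanO (P.OK K u) (t : Set V) := by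
    intro u y hy
    rw [← ht] at hy
    induction hy using Submodule.span_induction with
    | mem y hy => exact subset_spanO hy
    | zero => exact zero_mem _
    | add _ _ _ _ h1 h2 => exact add_mem h1 h2
    | smul c y _ h => rw [← algebraMap_smul K]; exact spanO_smul_mem (P.hasK_OK K u c) h
  convert hB.twist (P.pol K ^ j)⁻¹
  funext u
  obtain ⟨l, hl⟩ := u.exists_X_notMem
  have hl' : (X l : MvPolynomial (Fin 3) k) ^ j ∉ u.1 := fun h => hl (u.2.1.mem_of_pow_mem _ h)
  have hX := isHomogeneous_X_pow (R := k) l j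
  have hd := dv_ne_zero (P.pol K) u
  ext v
  rw [mem_twist, dv_inv, inv_inv, dv_pow]
  constructor
  · rintro ⟨e, ψ, h1, h2, h3⟩
    have h4 : X l ^ j * ψ ∉ u.1 := fun h => (u.2.1.mem_or_mem h).elim hl' h2
    have h5 := P.ev_unit K (hX.mul h1) h4
    have h6 := P.ev_ne_zero K (hX.mul h1) (fun h => h4 (by rw [h]; exact zero_mem _))
    have h7 := ev_smul hG hX h3
    rw [← mul_smul, ← ev_mul, add_comm] at h7
    have h8 := h0 j a2 e (by simpa using h7)
    suffices ∀ w ∈ Submodule.span k {y | ∃ φ : MvPolynomial (Fin 3) k, φ.IsHomogeneous e ∧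
        ∃ z ∈ G j, y = aeval (P.s K) φ • z},
        (dv (P.pol K) u ^ e)⁻¹ • w ∈ spanO (P.OK K u) (t : Set V) by
      have h9 := spanO_smul_mem h5 (this _ h8)
      rw [smul_smul, smul_smul] at h9
      convert h9 using 2
      field_simp
      ring
    intro w hw
    induction hw using Submodule.span_induction with
    | mem y hy =>
      obtain ⟨φ, b1, z, b2, rfl⟩ := hy
      have := P.ev_mem K b1 u
      rw [mem_line, dv_pow, P.ev_eq_aeval] at this
      rw [smul_smul]
      exact spanO_smul_mem this (hk u z b2)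
    | zero => simp
    | add _ _ _ _ h1 h2 => rw [smul_add]; exact add_mem h1 h2
    | smul c y _ h =>
      rw [smul_comm, ← algebraMap_smul K]; exact spanO_smul_mem (P.hasK_OK K u c) h
  · intro hv
    have h1 := spanO_le (N := (hull hG u).comap
      (DistribSMul.toAddMonoidHom V (dv (P.pol K) u ^ j)⁻¹)) (fun y hy => ?_)
      (fun c hc y hy => ?_) hv
    · simpa [smul_smul, hd] using h1
    · have h2 := P.ev_mem K hX u
      rw [mem_line, dv_pow] at h2
      have h3 := P.ev_ne_zero K hX (fun h => hl' (by rw [h]; exact zero_mem _))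
      have := hm u _ h2 ((P.ev K (X l ^ j))⁻¹ • y) ⟨j, _, hX, hl', by
        rw [smul_smul, mul_inv_cancel₀ h3, one_smul, ← ht]; exact Submodule.subset_span hy⟩
      rwa [smul_smul, mul_inv_cancel_right₀ h3] at this
    · have := hm u c hc _ hy
      rwa [DistribSMul.toAddMonoidHom_apply, smul_comm] at this

omit [IsAlgClosed k] [CharZero k] in
lemma smulK_inf (c : K) (A : Submodule k V) (W : Submodule K V) :
    smulK c A ⊓ W.restrictScalars k = smulK c (A ⊓ W.restrictScalars k) := by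
  by_cases hc : c = 0
  · simp [smulK, hc]
  · ext v
    simp [mem_smulK' hc, W.smul_mem_iff (inv_ne_zero hc)]

omit [IsAlgClosed k] [CharZero k] in
lemma smulK_map (c : K) (A : Submodule k V) (f : V →ₗ[K] V) :
    (smulK c A).map (f.restrictScalars k) = smulK c (A.map (f.restrictScalars k)) := by
  simp only [smulK, ← Submodule.map_comp]
  congr 1
  ext v
  simp

end Filt2
open Filt2

omit [IsScalarTower k (Rhat k S) M] in
theorem NormData.exists_hulls (hN : NormData P S d x) (hn : NormalS P S d x)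
    {ι : M →ₗ[k] (Fin r → LaurentSeries K)} (h : Adm k S (fun i => x * P.s K i) d ι) :
    ∃ E, Hulls P S d x ι E := by
  have hx := hN.x_ne
  have hO := (P.isSL_OK K).isFam
  have hg : ∀ (i : ℤ) (j : ℕ) v, v ∈ GrN k ι d x i j ↔ x ^ j • v ∈ Gr k ι (i + d * j) := by
    intro i j v
    rw [GrN, mem_smulK' (zpow_ne_zero _ hx), zpow_neg, inv_inv, zpow_natCast]
  let E := fun i => hull (hN.good_GrN h i)
  have hm : ∀ i u, ∀ c ∈ P.OK K u, ∀ v ∈ E i u, c • v ∈ E i u := by
    rintro i u c hc v ⟨j, ψ, h1, h2, h3⟩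
    obtain ⟨j', ψ', h4, h5, h6⟩ := hn u c hc
    refine ⟨j + j', ψ * ψ', h1.mul h4, fun h => (u.2.1.mem_or_mem h).elim h2 h5, (hg ..).2 ?_⟩
    have := h.emb.smul_mem_Gr h6 ((hg ..).1 h3)
    simp only [smul_smul] at this ⊢
    convert this using 2
    · push_cast; ring
    · rw [ev_mul]; ring
  have hB : ∀ i, IsBun (P.OK K) (E i) := fun i => isBun_hull _ (hm i) (by
    have ht : Filter.Tendsto (fun j : ℤ => i + d * j) Filter.atTop Filter.atTop :=
      Filter.tendsto_atTop_add_const_left _ _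
        (Filter.tendsto_id.const_mul_atTop' (by exact_mod_cast hN.d_pos))
    filter_upwards [ht.eventually (hN.eventually_span h)] with j hj
    rw [eq_top_iff, ← hj, Submodule.span_le]
    exact fun v hv => (Submodule.smul_mem_iff _ (zpow_ne_zero (-j) hx)).1
      (Submodule.subset_span ⟨v, hv, rfl⟩))
  set L := ofSet (P.OK K) S with hL
  have h1 : ∀ i, twist L (E i) ≤ E (i + 1) := by
    intro i u v hv
    have a1 := Lat2.dv_mem_line L u
    rw [line_ofSet hO hN.finS hN.exists_ne_zero] at a1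
    have a2 := spanO_le (N := (E (i + 1) u).comap
      (LinearMap.toSpanSingleton K _ ((dv L u)⁻¹ • v)).toAddMonoidHom) (fun s hs => ?_)
      (fun c hc y hy => ?_) a1
    · simpa [smul_smul, dv_ne_zero] using a2
    · obtain ⟨j, ψ, b1, b2, b3⟩ := (mem_twist ..).1 hv
      refine ⟨j, ψ, b1, b2, (hg ..).2 ?_⟩
      have := h.emb.smul_mem_Gr (RingA.mem_one ⟨s, hs⟩) ((hg ..).1 b3)
      simp only [LinearMap.toAddMonoidHom_coe, LinearMap.toSpanSingleton_apply, smul_smul] at this ⊢
      convert this using 2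
      · push_cast; ring
      · ring
    · have := hm _ u c hc _ hy
      simpa [smul_smul, mul_assoc] using this
  have h2 : ∀ (t : ℕ) i, twist (L ^ t) (E i) ≤ E (i + t) := by
    intro t i
    induction t with
    | zero => simp [twist_one]
    | succ t ih =>
      rw [pow_succ', twist_mul, Nat.cast_succ, ← add_assoc]
      exact (twist_mono _ ih).trans (h1 _)
  have h3 : ∀ i, E (i + d) ≤ twist (L ^ d) (E i) := by
    rintro i u v ⟨j, ψ, b1, b2, b3⟩
    rw [(hB i).twist_congr hN.sameDiv_pol, twist_mul, ((hB i).twist _).mem_twist_singleton hO hx,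
      mem_twist]
    obtain ⟨l, hl⟩ := u.exists_X_notMem
    have hX := MvPolynomial.isHomogeneous_X k l
    have b4 := P.ev_mem K hX u
    rw [P190.mem_line, pow_one] at b4
    have b5 := P.ev_ne_zero K hX (MvPolynomial.X_ne_zero l)
    have := hm i u _ b4 ((P.ev K (MvPolynomial.X l))⁻¹ • x⁻¹ • v) ⟨j + 1, _, b1.mul hX,
      fun h => (u.2.1.mem_or_mem h).elim b2 hl, (hg ..).2 ?_⟩
    · rwa [smul_smul, mul_inv_cancel_right₀ b5] at this
    · rw [hg] at b3
      simp only [smul_smul] at b3 ⊢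
      convert b3 using 2
      · push_cast; ring
      · rw [ev_mul]; field_simp; ring
  have h4 : ∀ i, E (i + 1) = twist L (E i) := by
    refine fun i => le_antisymm ?_ (h1 i)
    obtain ⟨t, ht⟩ : ∃ t, d = t + 1 := ⟨d - 1, by have := hN.d_pos; omega⟩
    have a1 := h2 t (i + 1)
    rw [show i + 1 + t = i + d by rw [ht]; push_cast; ring] at a1
    have a2 := twist_mono (L ^ t)⁻¹ (a1.trans (h3 i))
    rwa [← twist_mul, ← twist_mul, inv_mul_cancel, twist_one, ht, pow_succ,
      inv_mul_cancel_left] at a2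
  have h5 : ∀ i : ℤ, twist (L ^ i) (E 0) = E i := by
    intro i
    induction i using Int.induction_on with
    | zero => simp [twist_one]
    | succ i ih => rw [h4, ← ih, ← twist_mul, add_comm, zpow_one_add]
    | pred i ih =>
      have := h4 (-i - 1)
      rw [sub_add_cancel] at this
      rw [zpow_sub_one, mul_comm, twist_mul, ih, this, ← twist_mul, inv_mul_cancel, twist_one]
  exact ⟨E 0, hB 0, fun i => by rw [h5]; exact fun _ _ => Iff.rfl⟩

omit [Module (Rhat k S) M] [IsScalarTower k (Rhat k S) M] [IsScalarTower k F K] [IsAlgClosed k]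
  [CharZero k] [FiniteDimensional F K] in
theorem Hulls.shift {ι ι' : M →ₗ[k] (Fin r → LaurentSeries K)} {E : Sys (PU k) (Fin r → K)}
    (h : Hulls P S d x ι E) {e : ℤ} (he : ∀ n, Gr k ι' n = Gr k ι (n + e)) :
    Hulls P S d x ι' (twist (ofSet (P.OK K) S ^ e) E) := by
  refine ⟨h.1.twist _, fun i => ?_⟩
  rw [← twist_mul, ← zpow_add]
  convert h.2 (i + e) using 1
  funext j
  rw [GrN, GrN, he, add_right_comm]

omit [Module (Rhat k S) M] [IsScalarTower k (Rhat k S) M] [IsAlgClosed k]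
  [CharZero k] [FiniteDimensional F K] in
theorem Hulls.exact3 {ι ι' : M →ₗ[k] (Fin r → LaurentSeries K)}
    {E E' : Sys (PU k) (Fin r → K)} (h : Hulls P S d x ι E) (h' : Hulls P S d x ι' E')
    (π : (Fin r → K) →ₗ[K] (Fin r → K)) (hπ : π ∘ₗ π = π)
    (hG : ∀ n, Gr k ι' n ⊓ (LinearMap.ker π).restrictScalars k =
        (Gr k ι (n + 1)).map ((LinearMap.id - π).restrictScalars k) ∧
      (Gr k ι' n).map (π.restrictScalars k) =
        Gr k ι n ⊓ (LinearMap.range π).restrictScalars k) :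
    ∃ (i : ((Fin r → K) ⧸ LinearMap.range π) →ₗ[K] (Fin r → K))
      (p : (Fin r → K) →ₗ[K] LinearMap.range π),
      Exact3 (twist (ofSet (P.OK K) S) (quot E (LinearMap.range π))) E'
        (sub E (LinearMap.range π)) i p := by
  have hp : ∀ v, π (π v) = π v := fun v => LinearMap.congr_fun hπ v
  have hk : LinearMap.ker (LinearMap.id - π) = LinearMap.range π := by
    ext v
    simp only [LinearMap.mem_ker, LinearMap.sub_apply, LinearMap.id_apply, sub_eq_zero]
    exact ⟨fun h => ⟨v, h.symm⟩, by rintro ⟨w, rfl⟩; exact (hp w).symm⟩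
  have g1 : ∀ j, GrN k ι' d x 0 j ⊓ (LinearMap.ker π).restrictScalars k =
      (GrN k ι d x 1 j).map ((LinearMap.id - π).restrictScalars k) := fun j => by
    rw [GrN, GrN, smulK_inf, smulK_map, (hG _).1, zero_add, add_comm]
  have g2 : ∀ j, (GrN k ι' d x 0 j).map (π.restrictScalars k) =
      GrN k ι d x 0 j ⊓ (LinearMap.range π).restrictScalars k := fun j => by
    rw [GrN, GrN, smulK_inf, smulK_map, (hG _).2]
  have e0 := h.2 0
  have e1 := h.2 1
  have e2 := h'.2 0
  rw [zpow_zero, twist_one] at e0 e2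
  rw [zpow_one] at e1
  have hne : ∀ {u : PU k} {j : ℕ} {ψ : MvPolynomial (Fin 3) k}, ψ.IsHomogeneous j → ψ ∉ u.1 →
      P.ev K ψ ≠ 0 := fun h1 h2 => P.ev_ne_zero K h1 fun h => h2 (by rw [h]; exact zero_mem _)
  refine ⟨(LinearMap.range π).liftQ (LinearMap.id - π) hk.ge, π.rangeRestrict,
    LinearMap.ker_eq_bot.1 (Submodule.ker_liftQ_eq_bot _ _ _ hk.le),
    π.surjective_rangeRestrict, ?_, ?_, ?_⟩
  · rw [Submodule.range_liftQ, LinearMap.ker_rangeRestrict]
    ext v
    exact ⟨by rintro ⟨w, rfl⟩; simp [hp], fun hv => ⟨v, by simpa using hv⟩⟩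
  · rw [quot, ← push_twist]
    funext u
    ext q
    constructor
    · rintro ⟨v, hv, rfl⟩
      obtain ⟨j, ψ, a1, a2, a3⟩ := (e1 u v).1 hv
      exact (e2 u _).2 ⟨j, ψ, a1, a2, by
        simpa [smul_sub] using ((g1 j).ge ⟨_, a3, rfl⟩).1⟩
    · intro hq
      obtain ⟨v, rfl⟩ := Submodule.Quotient.mk_surjective _ q
      obtain ⟨j, ψ, a1, a2, a3⟩ := (e2 u (v - π v)).1 hq
      obtain ⟨g, a4, a5⟩ := (g1 j).le ⟨a3, by simp [hp]⟩
      have a6 := hne a1 a2
      refine ⟨(P.ev K ψ)⁻¹ • g, (e1 u _).2 ⟨j, ψ, a1, a2, by simpa [smul_smul, a6] using a4⟩, ?_⟩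
      refine (Submodule.Quotient.eq _).2 (hk.le ?_)
      rw [LinearMap.mem_ker, map_sub, map_smul, show (LinearMap.id - π : _ →ₗ[K] _) g = _ from a5]
      simp [smul_smul, a6]
  · funext u
    ext w
    constructor
    · intro hw
      obtain ⟨j, ψ, a1, a2, a3⟩ := (e0 u w).1 hw
      obtain ⟨g, a4, a5⟩ := (g2 j).ge ⟨a3, (LinearMap.range π).smul_mem _ w.2⟩
      have a6 := hne a1 a2
      refine ⟨(P.ev K ψ)⁻¹ • g, (e2 u _).2 ⟨j, ψ, a1, a2, by simpa [smul_smul, a6] using a4⟩,
        Subtype.ext ?_⟩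
      change π _ = _
      rw [map_smul, show π g = _ from a5]
      simp [smul_smul, a6]
    · rintro ⟨v, hv, rfl⟩
      obtain ⟨j, ψ, a1, a2, a3⟩ := (e2 u v).1 hv
      exact (e0 u _).2 ⟨j, ψ, a1, a2, by simpa using ((g2 j).le ⟨_, a3, rfl⟩).1⟩

end Vale.Agent.P190
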