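import Vale.Agent.P190.Filt2
import Vale.Agent.P190.Dual
import Vale.Agent.P190.KIA

/-! The key inequality: the filtered Koszul complex. -/

open Module

noncomputable section

namespace Vale.Agent.P190

section Aux

variable {k K : Type} [Field k] [Field K] [Algebra k K]
variable {V : Type} [AddCommGroup V] [Module K V] [Module k V] [IsScalarTower k K V]

lemma KI.mem_smulK {c : K} (hc : c ≠ 0) {W : Submodule k V} {v : V} :
    v ∈ smulK c W ↔ c⁻¹ • v ∈ W := by
  constructor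
  · rintro ⟨w, hw, rfl⟩
    simpa [smul_smul, hc] using hw
  · intro h
    exact ⟨_, h, by simp [smul_smul, hc]⟩

lemma KI.finrank_smulK {c : K} (hc : c ≠ 0) (W : Submodule k V) :
    finrank k (smulK c W) = finrank k W := by
  refine (Submodule.equivMapOfInjective _ ?_ W).finrank_eq.symm
  intro a b hab
  exact smul_right_injective V hc hab

lemma KI.mem_iSup {W : Fin 3 → Submodule k V} {v : V} (h : v ∈ ⨆ i, W i) :
    ∃ γ : Fin 3 → V, (∀ i, γ i ∈ W i) ∧ v = ∑ i, γ i := by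
  have h' : v ∈ ⨆ i ∈ (Finset.univ : Finset (Fin 3)), W i := by simpa using h
  obtain ⟨μ, hμ⟩ := (Submodule.mem_iSup_finset_iff_exists_sum W v).1 h'
  exact ⟨fun i => μ i, fun i => (μ i).2, hμ.symm⟩

end Aux

variable {k : Type} [Field k] {K : Type} [Field K] [Algebra k K] {S : Set K}
variable {M : Type*} [AddCommGroup M] [Module (Rhat k S) M] [Module k M]
  [IsScalarTower k (Rhat k S) M] {r : ℕ}
variable {F : Type} [Field F] [Algebra k F] [Algebra F K] [IsScalarTower k F K] {P : P2 k F}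
  {d : ℕ} {x : K} [IsAlgClosed k] [CharZero k] [FiniteDimensional F K]

omit [IsScalarTower k F K] [IsAlgClosed k] [CharZero k] [FiniteDimensional F K] in
lemma KI.coe_pR_pow (hN : NormData P S d x) (i : Fin 3) (J : ℕ) :
    ((pR hN i ^ J : Rhat k S) : PowerSeries K) =
      PowerSeries.monomial (d * J) ((x * P.s K i) ^ J) := by
  rw [SubmonoidClass.coe_pow]
  change (PowerSeries.monomial d (x * P.s K i)) ^ J = _
  induction J with
  | zero => simp
  | succ J ih => rw [pow_succ, ih, PowerSeries.monomial_mul_monomial, pow_succ, mul_add, mul_one]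

omit [IsScalarTower k F K] [IsAlgClosed k] [CharZero k] [FiniteDimensional F K] in
lemma KI.filt (hN : NormData P S d x) {ι : M →ₗ[k] (Fin r → LaurentSeries K)}
    (h : Adm k S (fun i => x * P.s K i) d ι) (J : ℕ) :
    KI.Filt (Fil k ι) (cf k ι) (fun i => pR hN i ^ J) (fun i => (x * P.s K i) ^ J)
      ((d * J : ℕ) : ℤ) where
  succ _ _ := mem_Fil_succ ι
  smul i n m hm := by
    have := h.emb.smul_mem_Fil (f := pR hN i ^ J) (j := d * J) (fun l hl => by
      rw [KI.coe_pR_pow, PowerSeries.coeff_monomial, if_neg hl.ne]) hm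
    rwa [KI.coe_pR_pow, PowerSeries.coeff_monomial, if_pos rfl] at this
  fin n := h.good.fin n

theorem NormData.key_inequality (hN : NormData P S d x) [Module.Finite (Rhat k S) M]
    {ι : M →ₗ[k] (Fin r → LaurentSeries K)} (h : Adm k S (fun i => x * P.s K i) d ι)
    (hK : ∀ J : ℕ, 0 < J → ∀ η : Fin 3 → M, ∑ i, pR hN i ^ J • η i = 0 →
      ∃ ζ, η = cross (fun i => pR hN i ^ J) ζ)
    {E : Sys (PU k) (Fin r → K)} (hE : Hulls P S d x ι E) :
    ∃ N : ℕ, - chi k (P.pol K) E ≤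
      ∑ i ∈ Finset.range N, (h0 k (twist (ofSet (P.OK K) S ^ (-(i + 1 : ℤ))) E) : ℤ) +
      ∑ i ∈ Finset.range N, (h0 k (twist (P.omega K)
        (dual (P.OK K) (twist (ofSet (P.OK K) S ^ (i + 1 : ℤ)) E))) : ℤ) := by
  have hx := hN.x_ne
  obtain ⟨n₀, hst⟩ := hN.Fil_stable h
  obtain ⟨n₁, htop⟩ := h.emb.exists_Fil_eq_top
  have hull0 : IsHull (K := K) P (GrN k ι d x 0) E := by
    have := hE.2 0
    rwa [zpow_zero, twist_one] at this
  obtain ⟨χ, hχ, hilb⟩ := P.hilb_of_hull (hN.good_GrN h 0) hE.1 hull0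
  obtain ⟨J₁, hJ₁⟩ := hilb.third_diff
  set α : ℕ → ℕ := fun i => h0 k (twist (P.omega K)
    (dual (P.OK K) (twist (ofSet (P.OK K) S ^ (i + 1 : ℤ)) E))) with hα
  set β : ℕ → ℕ := fun i => h0 k (twist (ofSet (P.OK K) S ^ (-(i + 1 : ℤ))) E) with hβ
  choose J₀ hJ₀ using fun a : ℕ =>
    P.h3_le (hN.good_GrN h (a + 1)) (hE.1.twist _) (hE.2 (a + 1))
  set N := n₀.toNat
  set J := max (max 1 J₁) ((Finset.range N).sup J₀)
  have hJ1 : 0 < J := lt_of_lt_of_le one_pos ((le_max_left _ _).trans (le_max_left _ _))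
  have hJ2 : J₁ ≤ J := (le_max_right _ _).trans (le_max_left _ _)
  have hJ3 : ∀ a < N, J₀ a ≤ J := fun a ha =>
    (Finset.le_sup (f := J₀) (Finset.mem_range.2 ha)).trans (le_max_right _ _)
  set N' := (((d * J : ℕ) : ℤ) - n₁).toNat
  have hch := (KI.filt hN h J).chase (pow_ne_zero _ (mul_ne_zero hx (P.s_ne_zero K 0))) N N' α β
    ?_ ?_ ?_ (htop _ (by omega)) (hK J hJ1)
  · have hf : ∀ j : ℤ, finrank k (GrN k ι d x 0 j) =
        finrank k ((Fil k ι (d * j)).map (cf k ι (d * j))) := fun j => by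
      rw [GrN, KI.finrank_smulK (zpow_ne_zero _ hx), zero_add, Gr]
    have h3 := hJ₁ J hJ2
    simp only [hf] at h3
    have e1 : (d : ℤ) * (2 * J) = 2 * ((d * J : ℕ) : ℤ) := by push_cast; ring
    have e2 : (d : ℤ) * (3 * J) = 3 * ((d * J : ℕ) : ℤ) := by push_cast; ring
    have e3 : (d : ℤ) * J = ((d * J : ℕ) : ℤ) := by push_cast; ring
    rw [e1, e2, e3] at h3
    refine ⟨max N N', ?_⟩
    have s1 : ∑ a ∈ Finset.range N, α a ≤ ∑ a ∈ Finset.range (max N N'), α a :=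
      Finset.sum_le_sum_of_subset (Finset.range_mono (le_max_left _ _))
    have s2 : ∑ a ∈ Finset.range N', β a ≤ ∑ a ∈ Finset.range (max N N'), β a :=
      Finset.sum_le_sum_of_subset (Finset.range_mono (le_max_right _ _))
    have t1 : ∑ i ∈ Finset.range (max N N'), (h0 k (twist (P.omega K)
        (dual (P.OK K) (twist (ofSet (P.OK K) S ^ (i + 1 : ℤ)) E))) : ℤ) =
        ((∑ a ∈ Finset.range (max N N'), α a : ℕ) : ℤ) := by rw [Nat.cast_sum]
    have t2 : ∑ i ∈ Finset.range (max N N'),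
        (h0 k (twist (ofSet (P.OK K) S ^ (-(i + 1 : ℤ))) E) : ℤ) =
        ((∑ a ∈ Finset.range (max N N'), β a : ℕ) : ℤ) := by rw [Nat.cast_sum]
    rw [t1, t2]
    omega
  · intro a ha
    obtain ⟨φ, hφ⟩ := KI.codim_of_rdim (hJ₀ a J (hJ3 a ha))
    refine ⟨φ ∘ₗ (LinearMap.lsmul K _ (x ^ (-(3 * J : ℤ)))).restrictScalars k, fun v hv h0 => ?_⟩
    have e1 : (a : ℤ) + 1 + d * (3 * J) = a + 1 + 3 * ((d * J : ℕ) : ℤ) := by push_cast; ring
    have e2 : (a : ℤ) + 1 + d * (2 * J) = a + 1 + 2 * ((d * J : ℕ) : ℤ) := by push_cast; ring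
    have hv' : x ^ (-(3 * J : ℤ)) • v ∈ GrN k ι d x (a + 1) (3 * J) := by
      refine ⟨v, ?_, rfl⟩
      rw [e1]; exact hv
    obtain ⟨γ, hγ, hsum⟩ := KI.mem_iSup (hφ _ hv' h0)
    have hγ' : ∀ i, ∃ g ∈ Gr k ι (a + 1 + d * (2 * J)),
        γ i = P.s K i ^ J • x ^ (-(2 * J : ℤ)) • g := fun i => by
      obtain ⟨_, ⟨g, hg, rfl⟩, hg'⟩ := hγ i
      exact ⟨g, hg, hg'.symm⟩
    choose g hg hgγ using hγ'
    refine ⟨g, fun i => by rw [← e2]; exact hg i, ?_⟩
    have : v = x ^ (3 * J : ℤ) • x ^ (-(3 * J : ℤ)) • v := by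
      rw [smul_smul, ← zpow_add₀ hx]; simp
    rw [this, hsum, Finset.smul_sum]
    refine Finset.sum_congr rfl fun i _ => ?_
    rw [hgγ, smul_smul, smul_smul]
    congr 1
    rw [mul_pow, mul_right_comm, ← zpow_add₀ hx, ← zpow_natCast x]
    congr 2
    ring
  · intro b
    refine ⟨H0 k (twist (ofSet (P.OK K) S ^ (-(b + 1 : ℤ))) E), P.fin_H0 (hE.1.twist _), rfl,
      fun γ hγ => Submodule.subset_span fun u => ?_⟩
    refine IsHull.mem_of_pow P (hE.2 _) J (fun i => ?_) u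
    have e : -((b : ℤ) + 1) + d * J = ((d * J : ℕ) : ℤ) - (b + 1) := by push_cast; ring
    refine ⟨(x * P.s K i) ^ J • γ, by rw [e]; exact hγ i, ?_⟩
    change x ^ (-(J : ℤ)) • (x * P.s K i) ^ J • γ = _
    rw [smul_smul, mul_pow, ← mul_assoc, ← zpow_natCast x, ← zpow_add₀ hx]
    simp
  · intro m hm
    have e1 : (N : ℤ) + 1 + d * (3 * J) = N + 1 + 3 * ((d * J : ℕ) : ℤ) := by push_cast; ring
    have e2 : (N : ℤ) + 1 + d * (2 * J) = N + 1 + 2 * ((d * J : ℕ) : ℤ) := by push_cast; ring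
    have := hst J (N + 1) (by omega) m (by rw [e1]; exact hm)
    rwa [e2] at this

end Vale.Agent.P190
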