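import Vale.Agent.P190.GeoIp
import Vale.Agent.P190.Dual

/-! The canonical class of the Kummer cover. -/

open Module

noncomputable section

namespace Vale.Agent.P190

variable {k : Type} [Field k] [IsAlgClosed k] [CharZero k] {A : Subgroup kˣ} [Fintype A] {m : ℕ}
  {F KX K : Type} [Field F] [Field KX] [Field K] [Algebra k F] [Algebra k KX] [Algebra k K]
  [Algebra F KX] [Algebra F K] [Algebra KX K] [IsScalarTower k F KX] [IsScalarTower k F K]
  [IsScalarTower k KX K] [IsScalarTower F KX K] [FiniteDimensional F KX] [FiniteDimensional F K]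
  [FiniteDimensional KX K]
variable {P : P2 k F} {gX : Geo k KX A 1} {g : Geo k K A m} {x : KX}
  {ipX : Pic (P.OK KX) →+ Pic (P.OK KX) →+ ℤ} {ip : Pic (P.OK K) →+ Pic (P.OK K) →+ ℤ}

lemma Setup.ip_kappa (h : Setup P gX g x ipX ip) (a : Fin 3 → ℤ) (b : ℤ) :
    ip (cl (g.mu (P.OK K) (fun _ => Fintype.card A * ((m : ℤ) - 1) - m) ((m : ℤ) - 2)))
      (cl (g.mu (P.OK K) a b)) = ip (cl (P.omega K)) (cl (g.mu (P.OK K) a b)) := by
  have hm := h.tow.m_pos
  have hinv : (g.mu (P.OK K) a b)⁻¹ = g.mu (P.OK K) (-a) (-b) := by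
    rw [inv_eq_iff_mul_eq_one, ← Geo.mu_add, add_neg_cancel, add_neg_cancel, Geo.mu_zero]
  have h1 := h.rr.chi_line_mul
    (g.mu (P.OK K) (fun _ => Fintype.card A * ((m : ℤ) - 1) - m) ((m : ℤ) - 2))
    (g.mu (P.OK K) a b)⁻¹
  have h2 := h.rr.chi_line (g.mu (P.OK K) a b)
  have h3 := h.rr.chi_line (g.mu (P.OK K) a b)⁻¹
  have h4 : chi k (P.pol K) (triv (P.OK K)) = chiF A m 0 0 := by
    rw [← line_one, ← g.mu_zero (P.OK K), h.tow.chi_mu h.nd]
  simp only [cl_inv, map_neg, AddMonoidHom.neg_apply, neg_neg] at h1 h3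
  rw [hinv, ← Geo.mu_add, h.tow.chi_mu h.nd, h.tow.chi_mu h.nd, h4,
    chiF_symm hm (a' := a) (b' := b) (fun j => by simp) (by ring),
    chiF_symm hm (a := fun _ => Fintype.card A * ((m : ℤ) - 1) - m) (a' := 0) (b' := 0)
      (fun j => by simp) (by ring)] at h1
  rw [hinv, h4] at h3
  rw [h.tow.chi_mu h.nd, h4] at h2
  rw [h.rr.ip_comm (cl (P.omega K))]
  linarith

theorem Setup.cl_omega (h : Setup P gX g x ipX ip) : cl (P.omega K) =
    cl (g.mu (P.OK K) (fun _ => Fintype.card A * ((m : ℤ) - 1) - m) ((m : ℤ) - 2)) := by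
  have hX := (P.isSL_OK KX).isFam
  have hO := (P.isSL_OK K).isFam
  have hm := h.tow.m_pos
  have : CharZero F := charZero_of_injective_algebraMap (algebraMap k F).injective
  obtain ⟨hα, hd, hc⟩ := top_mem_adm (A := A) hm
  set α : Fin 3 × A → Fin m := fun _ => ⟨m - 1, by omega⟩
  set t : Fin 3 → ℤ := fun _ => Fintype.card A * ((m : ℤ) - 1) - m with ht
  set κ := g.mu (P.OK K) t ((m : ℤ) - 2) with hκ
  have hN : IsBun (P.OK KX) (sub (line κ) (KX ∙ g.mon α)) :=
    ((isBun_line κ).res (P.finOver_OK KX K) hX).sub hX _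
  have h1 := h.rrX.chi_le hN
  rw [h.tow.chi_component h.nd _ hα, h.tow.h0_component_eq_zero h.nd _ hα hd, hd, hc] at h1
  have h2 : 0 < h0 k (twist (P.omega KX) (dual (P.OK KX) (sub (line κ) (KX ∙ g.mon α)))) := by
    simp [hexpoly, tri] at h1
    omega
  obtain ⟨φ, hφ, hφ0⟩ := Submodule.exists_mem_ne_zero_of_ne_bot
    (p := H0 k (twist (P.omega KX) (dual (P.OK KX) (sub (line κ) (KX ∙ g.mon α))))) fun hb => by
      rw [h0, hb, finrank_bot] at h2
      exact lt_irrefl _ h2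
  rw [(hN.dual.twist _).mem_H0 (P.hasK_OK KX)] at hφ
  obtain ⟨e, he⟩ := h.tow.exists_basis t
  let cp : K →ₗ[KX] (KX ∙ g.mon α) :=
    (LinearMap.toSpanSingleton KX _ ⟨g.mon α, Submodule.mem_span_singleton_self _⟩).comp
      (e.coord ⟨α, hα⟩)
  have hcp : ∀ z, (cp z : K) = e.repr z ⟨α, hα⟩ • g.mon α := fun _ => rfl
  obtain ⟨φ', hφ', -⟩ := exists_unique_trace_dual (K := K) (V := K)
    ((Algebra.trace F KX).comp ((φ.comp cp).restrictScalars F))
  have hφ'0 : φ' 1 ≠ 0 := by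
    intro h0
    obtain ⟨w, hw⟩ : ∃ w, φ w ≠ 0 := by
      by_contra hcon
      push Not at hcon
      exact hφ0 (LinearMap.ext hcon)
    have h3 := hφ' (((φ w)⁻¹ • w : (KX ∙ g.mon α)) : K)
    have h4 : ∀ v : (KX ∙ g.mon α), cp v = v := fun v => by
      obtain ⟨v, hv⟩ := v
      obtain ⟨c, rfl⟩ := Submodule.mem_span_singleton.1 hv
      apply Subtype.ext
      rw [hcp]
      simp [← he ⟨α, hα⟩]
    have h5 : ∀ z, φ' z = 0 := fun z => by
      rw [← mul_one z, ← smul_eq_mul, map_smul, h0, smul_zero]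
    rw [h5, map_zero] at h3
    simp only [LinearMap.comp_apply, LinearMap.restrictScalars_apply, h4, map_smul, smul_eq_mul,
      inv_mul_cancel₀ hw] at h3
    rw [← map_one (algebraMap F KX), Algebra.trace_algebraMap, nsmul_eq_mul, mul_one] at h3
    exact (Nat.cast_ne_zero.2 (finrank_pos (R := F) (M := KX)).ne') h3.symm
  have hmem : ∀ u, φ' ∈ twist (P.omega K) (dual (P.OK K) (line κ)) u := fun u => by
    rw [P.mem_twist_omega_dual (isBun_line κ)]
    intro z hz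
    rw [hφ']
    refine (P.mem_twist_omega_dual hN u φ).1 (hφ u) (cp z) ?_
    exact h.tow.component_mem e he hz ⟨α, hα⟩
  have hZ : Integral (ofSet (P.OK K) {φ' 1} * κ * (P.omega K)⁻¹) := fun u => by
    have h3 := hmem u (dv κ u) (by
      rw [mem_line, inv_mul_cancel₀ (dv_ne_zero _ _)]; exact one_mem _)
    have h4 := (P.OK K u).mul_mem (ofSet_singleton hO hφ'0 u).1 h3
    convert h4 using 1
    have h5 : φ' (dv κ u) = dv κ u * φ' 1 := by
      rw [← smul_eq_mul, ← map_smul, smul_eq_mul, mul_one]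
    rw [dv_mul, dv_mul, dv_inv, DistribSMul.toAddMonoidHom_apply, LinearMap.smul_apply, h5,
      smul_eq_mul]
    field_simp
  have hcl : cl (ofSet (P.OK K) {φ' 1} * κ * (P.omega K)⁻¹) = cl κ - cl (P.omega K) := by
    rw [cl_mul, cl_mul, cl_inv, cl_ofSet_singleton hO hφ'0, zero_add, sub_eq_add_neg]
  have h3 := h.rr.ip_ample _ hZ (by
    rw [hcl, h.tow.cl_pol h.nd, map_sub, AddMonoidHom.sub_apply, hκ, ht, h.ip_kappa, sub_self])
  have h4 : cl (ofSet (P.OK K) {φ' 1} * κ * (P.omega K)⁻¹) = 0 :=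
    (cl_eq_zero_iff _).2 ⟨1, fun u => by simpa using h3 u⟩
  rw [hcl, sub_eq_zero] at h4
  exact h4.symm

end Vale.Agent.P190
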