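import Vale.Agent.P190.TM
import Vale.Agent.P190.Dual

/-! The intersection pairing and the Riemann-Roch package. -/

open Module MvPolynomial
open scoped TensorProduct

noncomputable section

namespace Vale.Agent.P190

variable {k K : Type} [Field k] [Field K] [Algebra k K]
variable {F : Type} [Field F] [Algebra k F] [Algebra F K] [IsScalarTower k F K] (P : P2 k F)
  [IsAlgClosed k] [CharZero k] [FiniteDimensional F K]

section Group

variable {A : Type} [AddCommGroup A]

/-- the second difference does not depend on the base point -/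
def Quad.Ind (Q : A → ℤ) (p p' : A) : Prop := ∀ e,
  Q (e + p + p') - Q (e + p) - Q (e + p') + Q e = Q (p + p') - Q p - Q p' + Q 0

lemma Quad.Ind.symm {Q : A → ℤ} {p p' : A} (h : Quad.Ind Q p p') : Quad.Ind Q p' p := by
  intro e
  have := h e
  rw [add_right_comm, add_comm p']
  linarith

lemma Quad.Ind.zero (Q : A → ℤ) (p : A) : Quad.Ind Q p 0 := fun e => by simp

lemma Quad.Ind.add {Q : A → ℤ} {p p₁ p₂ : A} (h1 : Quad.Ind Q p p₁) (h2 : Quad.Ind Q p p₂) :
    Quad.Ind Q p (p₁ + p₂) := by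
  intro e
  have h3 := h1 (e + p₂)
  have h4 := h2 e
  have h5 := h1 p₂
  rw [show e + p₂ + p + p₁ = e + p + (p₁ + p₂) by abel, show e + p₂ + p = e + p + p₂ by abel,
    show e + p₂ + p₁ = e + (p₁ + p₂) by abel] at h3
  rw [show p₂ + p + p₁ = p + (p₁ + p₂) by abel, add_comm p₂ p, add_comm p₂ p₁] at h5
  linarith

lemma Quad.Ind.neg {Q : A → ℤ} {p p₁ : A} (h1 : Quad.Ind Q p p₁) : Quad.Ind Q p (-p₁) := by
  intro e
  have h3 := h1 (e - p₁)
  have h5 := h1 (-p₁)
  rw [show e - p₁ + p + p₁ = e + p by abel, show e - p₁ + p = e + p + -p₁ by abel,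
    sub_add_cancel, sub_eq_add_neg e] at h3
  rw [show -p₁ + p + p₁ = p by abel, add_comm (-p₁) p, neg_add_cancel] at h5
  linarith

lemma Quad.exists_bil (Q : A → ℤ) (h : ∀ p p', Quad.Ind Q p p') :
    ∃ ip : A →+ A →+ ℤ, ∀ p p', ip p p' = Q (p + p') - Q p - Q p' + Q 0 := by
  refine ⟨AddMonoidHom.mk' (fun p => AddMonoidHom.mk'
    (fun p' => Q (p + p') - Q p - Q p' + Q 0) fun p₁ p₂ => ?_) fun p₁ p₂ => ?_, fun _ _ => rfl⟩
  · have h5 := h p p₁ p₂
    rw [show p₂ + p + p₁ = p + (p₁ + p₂) by abel, add_comm p₂ p, add_comm p₂ p₁] at h5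
    linarith
  · ext p
    have h5 := h p₁ p p₂
    rw [add_comm p₂ p₁] at h5
    simp only [AddMonoidHom.mk'_apply, AddMonoidHom.add_apply]
    linarith

end Group

section Aux

variable {V V' V'' : Type} [AddCommGroup V] [Module K V] [Module k V] [IsScalarTower k K V]
  [AddCommGroup V'] [Module K V'] [Module k V'] [IsScalarTower k K V']
  [AddCommGroup V''] [Module K V''] [Module k V''] [IsScalarTower k K V'']

lemma Quad.defect_twist (hreg : P.Reg K) {L' : Sys (PU k) V'} {L : Sys (PU k) V}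
    {L'' : Sys (PU k) V''} {i : V' →ₗ[K] V} {p : V →ₗ[K] V''} (hL : IsBun (P.OK K) L)
    (h : Exact3 L' L L'' i p) (c : Div (P.OK K)) :
    chi k (P.pol K) (twist c L') + chi k (P.pol K) (twist c L'') - chi k (P.pol K) (twist c L)
      = chi k (P.pol K) L' + chi k (P.pol K) L'' - chi k (P.pol K) L := by
  have hO := (P.isSL_OK K).isFam
  have h1 := P.defect_tens hreg hL h (isBun_line c)
  rw [finrank_self, Nat.cast_one, one_mul] at h1
  rw [← push_lid hL, ← push_lid (h.isBun_left hO hL), ← push_lid (h.isBun_right hO hL),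
    chi_push_equiv, chi_push_equiv, chi_push_equiv, h1]

lemma Quad.exact3 {U : Type} {O : Fam U K} {c c' : Div O} (hc : Integral c) (hc' : Integral c')
    (h : Coprime c c') : Exact3 (line (c * c')) (prodS (line c) (line c')) (triv O)
      (LinearMap.prod (LinearMap.id : K →ₗ[K] K) (-LinearMap.id))
      (LinearMap.coprod (LinearMap.id : K →ₗ[K] K) LinearMap.id) := by
  refine ⟨fun x y hxy => congrArg Prod.fst hxy, fun x => ⟨(x, 0), by simp⟩, ?_, ?_, ?_⟩
  · ext ⟨x, y⟩
    constructor
    · rintro ⟨z, hz⟩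
      rw [← hz]
      simp
    · intro hxy
      have h1 : x + y = 0 := hxy
      exact ⟨x, by simp [eq_neg_of_add_eq_zero_right h1]⟩
  · rw [line, ← isBun_triv.twist_inf_twist hc hc' h]
    funext u
    ext x
    exact ⟨fun hx => ⟨hx.1, (line c' u).neg_mem hx.2⟩,
      fun hx => ⟨hx.1, (line c' u).neg_mem_iff.1 hx.2⟩⟩
  · rw [← isBun_triv.twist_sup_twist hc hc' h]
    funext u
    ext x
    rw [Pi.sup_apply, AddSubgroup.mem_sup]
    constructor
    · rintro ⟨y, hy, z, hz, rfl⟩
      exact ⟨(y, z), ⟨hy, hz⟩, rfl⟩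
    · rintro ⟨⟨y, z⟩, ⟨hy, hz⟩, rfl⟩
      exact ⟨y, hy, z, hz, rfl⟩

lemma Quad.twist_prodS {U : Type} {O : Fam U K} {V V' : Type} [AddCommGroup V] [Module K V]
    [AddCommGroup V'] [Module K V'] (c : Div O) (L : Sys U V) (L' : Sys U V') :
    twist c (prodS L L') = prodS (twist c L) (twist c L') := rfl

lemma Quad.chi_prodS {L : Sys (PU k) V} {L' : Sys (PU k) V'} (hL : IsBun (P.OK K) L)
    (hL' : IsBun (P.OK K) L') :
    chi k (P.pol K) (prodS L L') = chi k (P.pol K) L + chi k (P.pol K) L' :=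
  P190.chi_prodS (P.hasK_OK K) hL hL' (fun _ => P.fin_H0 (hL.twist _))
    (fun _ => P.fin_H0 (hL'.twist _)) (P.hilb hL) (P.hilb hL')

lemma Quad.exists_frac {U : Type} {O : Fam U K} (hO : IsFam O) (c : Div O) (u : U) :
    ∃ b b' : Div O, Integral b ∧ Integral b' ∧ dv b u = 1 ∧ dv b' u = 1 ∧
      cl c = cl b + - cl b' := by
  classical
  let γ : Div O := ⟨fun _ => c.1 u, ((hO.fin (c.1 u)).union (hO.fin (c.1 u)⁻¹)).subset
    fun u' hu' => by
      by_contra h
      simp only [Set.mem_union, Set.mem_ofPred_eq, not_or, not_not] at h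
      exact hu' ⟨h.1, by simpa using h.2⟩⟩
  have hγ : cl γ = 0 := (cl_eq_zero_iff γ).2 ⟨c.1 u, fun u' => by simpa [γ] using IsU.one _⟩
  obtain ⟨c₁, hc₁, hc₁'⟩ : ∃ c₁ : Div O, c₁.1 u = 1 ∧ cl c₁ = cl c :=
    ⟨c * γ⁻¹, by simp [γ], by rw [cl_mul, cl_inv, hγ, neg_zero, add_zero]⟩
  choose b hb hb0 hbc using fun u => hO.frac u (dv c₁ u)
  let d : Div O := ⟨fun u => if IsU (O u) (c₁.1 u) then 1 else Units.mk0 _ (hb0 u),
    Set.Finite.subset c₁.2 fun u hu h => hu (by
      simp only [if_pos h]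
      exact IsU.one _)⟩
  have hd : Integral d := by
    intro u
    by_cases h : IsU (O u) (c₁.1 u)
    · simp [d, dv, h]
    · simpa [d, dv, h] using hb u
  have hdc : Integral (d * c₁) := by
    intro u
    rw [dv_mul]
    by_cases h : IsU (O u) (c₁.1 u)
    · exact (O u).mul_mem (hd u) h.1
    · simpa [d, dv, h] using hbc u
  have hdu : dv d u = 1 := by simp [d, dv, hc₁, IsU.one]
  refine ⟨d * c₁, d, hdc, hd, ?_, hdu, ?_⟩
  · rw [dv_mul, hdu, dv, hc₁]
    simp
  · rw [cl_mul, hc₁']
    abel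

lemma Quad.chi_subsingleton {U : Type} {O : Fam U K} (a : Div O) [Subsingleton V] (L : Sys U V) :
    chi k a L = 0 := by
  refine chi_eq ⟨0, 0, 0, fun j _ => ?_⟩
  have : h0 k (twist (a ^ j) L) = 0 := finrank_zero_of_subsingleton
  simp [this]

lemma Quad.rank_induction {U : Type} {O : Fam U K} (hO : IsFam O)
    (p : ∀ (V : Type) [AddCommGroup V] [Module K V] [Module k V] [IsScalarTower k K V],
      Sys U V → Prop)
    (h0 : ∀ (V : Type) [AddCommGroup V] [Module K V] [Module k V] [IsScalarTower k K V]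
      (L : Sys U V), IsBun O L → Subsingleton V → p V L)
    (h1 : ∀ (V : Type) [AddCommGroup V] [Module K V] [Module k V] [IsScalarTower k K V]
      (c : Div O) (e : K ≃ₗ[K] V), p V (push e.toLinearMap (line c)))
    (h2 : ∀ (V : Type) [AddCommGroup V] [Module K V] [Module k V] [IsScalarTower k K V]
      (L : Sys U V), IsBun O L → ∀ W : Submodule K V, p W (sub L W) → p (V ⧸ W) (quot L W) →
        p V L) (n : ℕ) :
    ∀ (V : Type) [AddCommGroup V] [Module K V] [Module k V] [IsScalarTower k K V],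
      finrank K V = n → ∀ L : Sys U V, IsBun O L → p V L := by
  induction n with
  | zero =>
    intro V _ _ _ _ hn L hL
    have := hL.finiteDimensional
    exact h0 V L hL (finrank_zero_iff.1 hn)
  | succ n ih =>
    intro V _ _ _ _ hn L hL
    have := hL.finiteDimensional
    have : Nontrivial V := nontrivial_of_finrank_eq_succ hn
    obtain ⟨x, hx⟩ := exists_ne (0 : V)
    have h3 := finrank_span_singleton (K := K) hx
    have h4 := (exact3_sub_quot L (K ∙ x)).finrank_add
    refine h2 V L hL (K ∙ x) ?_ (ih _ (by omega) _ (hL.quot hO _))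
    obtain ⟨c, e, he⟩ := (hL.sub hO (K ∙ x)).exists_line hO h3
    rw [he]
    exact h1 _ c e

lemma Quad.h0_gap {c : Div (P.OK K)} (hc : Integral c) {u : PU k}
    (hu : ¬ IsU (P.OK K u) (c.1 u)) : ∃ e : ℕ, ∀ m : ℕ,
      h0 k (line (P.pol K ^ ((e + m : ℕ) : ℤ) * c)) + m ≤
        h0 k (line (P.pol K ^ ((e + m : ℕ) : ℤ))) := by
  obtain ⟨φ, e, he, hφ, -, hφu, -⟩ := u.exists_gen
  refine ⟨e, fun m => ?_⟩
  let ev : MvPolynomial (Fin 3) k →ₗ[k] K := (aeval (P.s K)).toLinearMap
  have hev : ∀ ψ, ev ψ = P.ev K ψ := fun ψ => (P.ev_eq_aeval K ψ).symm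
  have hfin : ∀ j, Module.Finite k (homogeneousSubmodule (Fin 3) k j) := fun j =>
    Module.finite_of_finrank_pos (by
      rw [finrank_homogeneous]; exact Nat.choose_pos (by omega))
  have := hfin (e + m)
  have := hfin m
  set A := (homogeneousSubmodule (Fin 3) k (e + m)).map ev with hA
  set S := H0 k (line (P.pol K ^ ((e + m : ℕ) : ℤ))) with hS
  set T := H0 k (line (P.pol K ^ ((e + m : ℕ) : ℤ) * c)) with hT
  have : Module.Finite k S := P.fin_H0 (isBun_line _)
  have : Module.Finite k T := P.fin_H0 (isBun_line _)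
  have h1 : finrank k A = (e + m + 2).choose 2 := by
    rw [hA, ← LinearMap.range_domRestrict, LinearMap.finrank_range_of_inj, finrank_homogeneous]
    rw [injective_iff_map_eq_zero]
    intro ψ hψ
    by_contra h0
    exact P.ev_ne_zero K ψ.2 (fun h => h0 (Subtype.ext h)) (hev _ ▸ hψ)
  have h2 : A ⊔ T ≤ S := by
    refine sup_le ?_ (H0_mono (isBun_triv.twist_le_twist (by simpa [mul_comm] using hc)))
    rintro _ ⟨ψ, hψ, rfl⟩
    refine Submodule.subset_span fun u' => ?_
    rw [hev, zpow_natCast]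
    exact P.ev_mem K hψ u'
  have h3 : A ⊓ T ≤ (homogeneousSubmodule (Fin 3) k m).map
      (ev.comp (LinearMap.mulLeft k φ)) := by
    rintro _ ⟨⟨ψ, hψ, rfl⟩, hψT⟩
    by_cases h0 : ψ = 0
    · rw [h0, map_zero]
      exact zero_mem _
    have h4 : ψ ∈ u.1 := by
      by_contra hψu
      have h5 := P.ev_unit K hψ hψu
      have h6 := ((isBun_line _).mem_H0 (P.hasK_OK K) _).1 hψT u
      rw [mem_line, dv_mul, dv_zpow, zpow_natCast, hev] at h6
      refine hu ⟨hc u, ?_⟩
      rw [Units.val_inv_eq_inv_val]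
      change (dv c u)⁻¹ ∈ _
      convert mul_mem h5 h6 using 1
      have := P.ev_ne_zero K hψ h0
      have := dv_ne_zero c u
      have := dv_ne_zero (P.pol K) u
      field_simp
    rw [hφu, Ideal.mem_span_singleton] at h4
    obtain ⟨q, d, rfl, -, hq, hd⟩ := Plane.exists_quot hψ h0 hφ h4
    obtain rfl : m = d := by omega
    exact ⟨q, hq, rfl⟩
  have h4 := Submodule.finrank_sup_add_finrank_inf_eq A T
  have h5 := Submodule.finrank_mono h2
  have h6 := (Submodule.finrank_mono h3).trans (Submodule.finrank_map_le _ _)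
  rw [finrank_homogeneous] at h6
  have h7 : (m + 2 + 1).choose 2 ≤ (e + m + 2).choose 2 := Nat.choose_le_choose 2 (by omega)
  rw [Nat.choose_succ_succ' (m + 2) 1, Nat.choose_one_right] at h7
  change finrank k T + m ≤ finrank k S
  change _ + (m + 2).choose 2 ≤ _ at h7
  omega

end Aux

theorem P2.exists_ip (hreg : P.Reg K) : ∃ ip : Pic (P.OK K) →+ Pic (P.OK K) →+ ℤ,
    ∀ c c' : Div (P.OK K), ip (cl c) (cl c') = chi k (P.pol K) (line (c * c'))
      - chi k (P.pol K) (line c) - chi k (P.pol K) (line c') + chi k (P.pol K) (triv (P.OK K)) := by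
  have hO := (P.isSL_OK K).isFam
  obtain ⟨Q, hQ⟩ : ∃ Q : Pic (P.OK K) → ℤ, ∀ c, Q (cl c) = chi k (P.pol K) (line c) := by
    choose s hs using cl_surj (O := P.OK K)
    exact ⟨fun p => chi k (P.pol K) (line (s p)), fun c =>
      isBun_triv.chi_twist_congr hO _ (hs _)⟩
  have hcop : ∀ c c' : Div (P.OK K), Integral c → Integral c' → Coprime c c' →
      Quad.Ind Q (cl c) (cl c') := by
    intro c c' hc hc' h e
    obtain ⟨e, rfl⟩ := cl_surj e
    have h1 := Quad.defect_twist P hreg ((isBun_line c).prodS (isBun_line c'))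
      (Quad.exact3 hc hc' h) e
    rw [Quad.twist_prodS, Quad.chi_prodS P ((isBun_line c).twist e) ((isBun_line c').twist e),
      Quad.chi_prodS P (isBun_line c) (isBun_line c'), twist_line, twist_line, twist_line,
      ← mul_assoc] at h1
    rw [← cl_mul, ← cl_mul, ← cl_mul, ← cl_mul, ← cl_one, hQ, hQ, hQ, hQ, hQ, hQ, hQ, hQ, line_one]
    change _ - _ - _ + chi k (P.pol K) (twist e (triv _)) = _
    omega
  have hall : ∀ c c' : Div (P.OK K), Quad.Ind Q (cl c) (cl c') := by
    intro c
    refine (P.isSL_OK K).div_induction (p := fun c => ∀ c', Quad.Ind Q (cl c) (cl c')) ?_ ?_ ?_ ?_ c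
    · intro c hc c'
      rw [hc.cl_eq]
      exact (Quad.Ind.zero Q _).symm
    · intro c u π _ hcu hc c'
      have hci : Integral c := by
        intro u'
        by_cases h : u' = u
        · rw [h, hcu]; exact π.2
        · rw [hc u' h]; exact one_mem _
      have hco : ∀ b : Div (P.OK K), dv b u = 1 → Coprime c b := by
        intro b hb u'
        by_cases h : u' = u
        · exact ⟨0, zero_mem _, 1, one_mem _, by rw [h, hb]; simp⟩
        · exact ⟨1, one_mem _, 0, zero_mem _, by rw [hc u' h]; simp⟩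
      obtain ⟨b, b', hb, hb', h1, h2, h3⟩ := Quad.exists_frac hO c' u
      rw [h3]
      exact (hcop c b hci hb (hco b h1)).add (hcop c b' hci hb' (hco b' h2)).neg
    · intro a b ha hb c'
      exact ((ha c').symm.add (hb c').symm).symm
    · intro a ha c'
      exact (ha c').symm.neg.symm
  obtain ⟨ip, hip⟩ := Quad.exists_bil Q fun p p' => by
    obtain ⟨c, rfl⟩ := cl_surj p
    obtain ⟨c', rfl⟩ := cl_surj p'
    exact hall c c'
  refine ⟨ip, fun c c' => ?_⟩
  rw [hip, ← cl_mul, hQ, hQ, hQ, ← cl_one, hQ, line_one]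

theorem P2.exists_RR (hreg : P.Reg K) :
    ∃ ip, RR k (P.OK K) (P.pol K) (P.omega K) ip := by
  obtain ⟨ip, hip⟩ := P.exists_ip hreg
  have hO := (P.isSL_OK K).isFam
  have htw : ∀ (V : Type) [AddCommGroup V] [Module K V] [Module k V] [IsScalarTower k K V]
      (L : Sys (PU k) V), IsBun (P.OK K) L → ∀ c : Div (P.OK K), chi k (P.pol K) (twist c L) =
        chi k (P.pol K) L + ip (c1 (P.OK K) L) (cl c) + finrank K V *
          (chi k (P.pol K) (line c) - chi k (P.pol K) (triv (P.OK K))) := by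
    intro V _ _ _ _ L hL c
    refine Quad.rank_induction (k := k) hO (fun V _ _ _ _ L => chi k (P.pol K) (twist c L) =
        chi k (P.pol K) L + ip (c1 (P.OK K) L) (cl c) + finrank K V *
          (chi k (P.pol K) (line c) - chi k (P.pol K) (triv (P.OK K)))) ?_ ?_ ?_ _ V rfl L hL
    · intro V _ _ _ _ L hL _
      rw [Quad.chi_subsingleton, Quad.chi_subsingleton, c1_of_subsingleton hO hL,
        finrank_zero_of_subsingleton]
      simp
    · intro V _ _ _ _ c' e
      rw [← push_twist, chi_push_equiv, chi_push_equiv, c1_push_equiv hO (isBun_line c'),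
        c1_line hO, ← e.finrank_eq, finrank_self, twist_line, hip, mul_comm c']
      push_cast
      ring
    · intro V _ _ _ _ L hL W h1 h2
      have := hL.finiteDimensional
      have h := exact3_sub_quot L W
      have h3 := Quad.defect_twist P hreg hL h c
      rw [h.c1_add hO hL, h.finrank_add, map_add, AddMonoidHom.add_apply]
      push_cast
      linear_combination h1 + h2 - h3
  refine ⟨ip, P.isSL_OK K, P.hasK_OK K, fun p q => ?_, fun hL => P.fin_H0 hL,
    fun hL => P.hilb hL, fun hL h => ?_, fun hL => htw _ _ hL, ?_, fun hL => P.chi_le hL,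
    fun hL => P.chi_dual hL, fun c c' hc hc' h => ?_, fun c hc h u => ?_⟩
  · obtain ⟨c, rfl⟩ := cl_surj p
    obtain ⟨c', rfl⟩ := cl_surj q
    rw [hip, hip, mul_comm]
    ring
  · obtain ⟨z, -, -, hz, -⟩ := P.chi_exact_eq hL h
    omega
  · intro V V' _ _ _ _ _ _ _ _ L L' hL hL'
    refine Quad.rank_induction (k := k) hO (fun V' _ _ _ _ L' => chi k (P.pol K) (tens K L L') =
      finrank K V' * chi k (P.pol K) L + finrank K V * chi k (P.pol K) L'
        - finrank K V * finrank K V' * chi k (P.pol K) (triv (P.OK K))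
        + ip (c1 (P.OK K) L) (c1 (P.OK K) L')) ?_ ?_ ?_ _ V' rfl L' hL'
    · intro V' _ _ _ _ L' hL' _
      rw [Quad.chi_subsingleton, Quad.chi_subsingleton _ L', c1_of_subsingleton hO hL',
        finrank_zero_of_subsingleton (M := V')]
      simp
    · intro V' _ _ _ _ c' e
      have h1 := push_congr_tens (LinearEquiv.refl K V) e L (line c')
      have h2 : push (LinearEquiv.refl K V).toLinearMap L = L := by
        funext u
        exact AddSubgroup.map_id _
      rw [h2] at h1
      rw [← h1, chi_push_equiv, chi_push_equiv, ← push_comm, chi_push_equiv,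
        ← chi_push_equiv _ (TensorProduct.lid K V), push_lid hL, htw V L hL,
        c1_push_equiv hO (isBun_line c'), c1_line hO, ← e.finrank_eq, finrank_self]
      push_cast
      ring
    · intro V' _ _ _ _ L' hL' W h1 h2
      have := hL'.finiteDimensional
      have h := exact3_sub_quot L' W
      have h3 := P.defect_tens hreg hL' h hL
      rw [h.c1_add hO hL', h.finrank_add, map_add]
      push_cast
      linear_combination h1 + h2 - h3
  · obtain ⟨z, -, -, hz, -⟩ := P.chi_exact_eq ((isBun_line c).prodS (isBun_line c'))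
      (Quad.exact3 hc hc' h)
    rw [Quad.chi_prodS P (isBun_line c) (isBun_line c')] at hz
    rw [hip]
    omega
  · by_contra hu
    obtain ⟨e, he⟩ := Quad.h0_gap P hc hu
    obtain ⟨j₀, h₀⟩ := chi_twist_pow_eventually (k := k) (a := P.pol K) (L := triv (P.OK K))
      fun i => P.hilb (isBun_triv.twist _)
    obtain ⟨j₁, h₁⟩ := chi_twist_pow_eventually (k := k) (a := P.pol K) (L := line c)
      fun i => P.hilb ((isBun_line c).twist _)
    obtain ⟨m, hm₀, hm₁, hm⟩ : ∃ m : ℕ, j₀ ≤ m ∧ j₁ ≤ m ∧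
        chi k (P.pol K) (triv (P.OK K)) - chi k (P.pol K) (line c) < m :=
      ⟨(max (max j₀ j₁) (chi k (P.pol K) (triv (P.OK K)) - chi k (P.pol K) (line c) + 1)).toNat,
        by omega, by omega, by omega⟩
    have h2 := he m
    have h3 := h₀ ((e + m : ℕ) : ℤ) (by omega)
    have h4 := h₁ ((e + m : ℕ) : ℤ) (by omega)
    have h5 := hip c (P.pol K ^ ((e + m : ℕ) : ℤ))
    rw [cl_zpow, map_zsmul, h, smul_zero, mul_comm c] at h5
    rw [twist_line] at h4
    change chi k (P.pol K) (line _) = h0 k (line _) at h3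
    omega

end Vale.Agent.P190
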