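import Mathlib

/-! The local computation behind the smoothness of the Kummer cover. -/

open IsLocalRing

noncomputable section

namespace Vale.Agent.P190.RegA

variable (k : Type) [Field k] {R : Type} [CommRing R] [Algebra k R]

/-- elements which are constant modulo `J` -/
def Cn (J : Ideal R) : Subalgebra k R :=
  (⊥ : Subalgebra k (R ⧸ J)).comap (Ideal.Quotient.mkₐ k J)

variable {k} {J : Ideal R}

lemma mem_Cn {x : R} : x ∈ Cn k J ↔ ∃ c : k, x - algebraMap k R c ∈ J := by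
  simp only [Cn, Subalgebra.mem_comap, Algebra.mem_bot, Set.mem_range]
  refine exists_congr fun c => ?_
  rw [← Ideal.Quotient.eq, eq_comm]
  rfl

lemma Cn_of_mem {x : R} (h : x ∈ J) : x ∈ Cn k J := mem_Cn.2 ⟨0, by simpa using h⟩

variable [IsLocalRing R]

lemma const_mem {c : k} (h : algebraMap k R c ∈ maximalIdeal R) : c = 0 := by
  by_contra hc
  exact notMem_maximalIdeal.2 ((IsUnit.mk0 c hc).map _) h

lemma mul_notMem {x y : R} (hx : x ∉ maximalIdeal R) (hy : y ∉ maximalIdeal R) :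
    x * y ∉ maximalIdeal R := fun h =>
  ((maximalIdeal.isMaximal R).isPrime.mem_or_mem h).elim hx hy

lemma Cn_div (hJ : J ≤ maximalIdeal R) {x y : R} (hy : y ∉ maximalIdeal R) (h1 : y ∈ Cn k J)
    (h2 : x * y ∈ Cn k J) : x ∈ Cn k J := by
  obtain ⟨c, hc⟩ := mem_Cn.1 h1
  obtain ⟨e, he⟩ := mem_Cn.1 h2
  have hc0 : c ≠ 0 := by
    rintro rfl
    exact hy (hJ (by simpa using hc))
  refine mem_Cn.2 ⟨e / c, (J.mul_unit_mem_iff_mem (notMem_maximalIdeal.1 hy)).1 ?_⟩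
  have e1 : algebraMap k R e = algebraMap k R (e / c) * algebraMap k R c := by
    rw [← map_mul, div_mul_cancel₀ _ hc0]
  have e2 : (x - algebraMap k R (e / c)) * y =
      (x * y - algebraMap k R e) - algebraMap k R (e / c) * (y - algebraMap k R c) := by
    rw [e1]; ring
  rw [e2]
  exact J.sub_mem he (J.mul_mem_left _ hc)

lemma Cn_root [CharZero k] (hJ : J ≤ maximalIdeal R) {m : ℕ} (hm : 0 < m) {x : R}
    (hx : x ∉ maximalIdeal R) (h1 : x ∈ Cn k (maximalIdeal R)) (h2 : x ^ m ∈ Cn k J) :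
    x ∈ Cn k J := by
  obtain ⟨c, hc⟩ := mem_Cn.1 h1
  obtain ⟨e, he⟩ := mem_Cn.1 h2
  have hc0 : c ≠ 0 := by
    rintro rfl
    exact hx (by simpa using hc)
  have hr : residue R x = residue R (algebraMap k R c) := Ideal.Quotient.eq.2 hc
  have hg := Commute.geom_sum₂_mul (Commute.all x (algebraMap k R c)) m
  have h3 : e = c ^ m := by
    have h4 : residue R (x ^ m) = residue R (algebraMap k R e) := Ideal.Quotient.eq.2 (hJ he)
    rw [map_pow, hr, ← map_pow, ← map_pow] at h4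
    have h5 := Ideal.Quotient.eq.1 h4
    rw [← map_sub] at h5
    exact (sub_eq_zero.1 (const_mem h5)).symm
  have h6 : ∑ i ∈ Finset.range m, x ^ i * algebraMap k R c ^ (m - 1 - i) ∉ maximalIdeal R := by
    intro h
    have h7 := (residue_eq_zero_iff _).2 h
    simp only [map_sum, map_mul, map_pow, hr] at h7
    rw [geom_sum₂_self, ← map_pow, ← map_natCast (residue R), ← map_mul, residue_eq_zero_iff,
      ← map_pow, ← map_natCast (algebraMap k R), ← map_mul] at h7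
    exact mul_ne_zero (Nat.cast_ne_zero.2 hm.ne') (pow_ne_zero _ hc0) (const_mem h7)
  refine mem_Cn.2 ⟨c, (J.unit_mul_mem_iff_mem (notMem_maximalIdeal.1 h6)).1 ?_⟩
  rw [hg, ← map_pow, ← h3]
  exact he

variable {A : Subgroup kˣ}

/-- a label as an element of the ring -/
def cA (R : Type) [CommRing R] [Algebra k R] (a : A) : R := algebraMap k R ((a : kˣ) : k)

omit [IsLocalRing R] in
lemma cA_mem (a : A) : cA R a ∈ Cn k J := Subalgebra.algebraMap_mem _ _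

lemma cA_notMem (a : A) : cA R a ∉ maximalIdeal R := fun h => (a : kˣ).ne_zero (const_mem h)

lemma cA_sub_mem {a b : A} (h : cA R a - cA R b ∈ maximalIdeal R) : a = b := by
  rw [cA, cA, ← map_sub] at h
  exact Subtype.ext (Units.ext (sub_eq_zero.1 (const_mem h)))

section Block

variable {m : ℕ} {a : A} {η : A → R} {τ : R}

omit [Algebra k R] in
lemma br_pow (hm : 0 < m) {b : A} (hb : η b ∈ maximalIdeal R) : η b ^ m ∈ maximalIdeal R :=
  Ideal.pow_mem_of_mem _ hb _ hm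

lemma br_tau (hm : 0 < m) (hη : ∀ b, η b ^ m = 1 + (cA R a - cA R b) * τ) {b : A}
    (hb : η b ∈ maximalIdeal R) : (cA R a - cA R b) * τ ∉ maximalIdeal R := by
  intro h
  have h1 := br_pow hm hb
  rw [hη] at h1
  exact notMem_maximalIdeal.2 (isUnit_one (M := R)) (by simpa using Ideal.sub_mem _ h1 h)

lemma br_tau' (hm : 0 < m) (hη : ∀ b, η b ^ m = 1 + (cA R a - cA R b) * τ) {b : A}
    (hb : η b ∈ maximalIdeal R) : τ ∉ maximalIdeal R := fun h =>
  br_tau hm hη hb (Ideal.mul_mem_left _ _ h)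

lemma br_unique (hm : 0 < m) (hη : ∀ b, η b ^ m = 1 + (cA R a - cA R b) * τ) {b b' : A}
    (hb : η b ∈ maximalIdeal R) (hb' : η b' ∈ maximalIdeal R) : b' = b := by
  have h1 := Ideal.sub_mem _ (br_pow hm hb) (br_pow hm hb')
  have e : η b ^ m - η b' ^ m = (cA R b' - cA R b) * τ := by rw [hη, hη]; ring
  rw [e] at h1
  exact cA_sub_mem (((maximalIdeal.isMaximal R).isPrime.mem_or_mem h1).resolve_right
    (br_tau' hm hη hb))

lemma br_zer (hm : 0 < m) (hη : ∀ b, η b ^ m = 1 + (cA R a - cA R b) * τ) {b : A}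
    (hb : η b ∈ maximalIdeal R) : cA R a * τ + 1 ∉ maximalIdeal R := by
  intro h
  have h1 := Ideal.sub_mem _ h (br_pow hm hb)
  have e : cA R a * τ + 1 - η b ^ m = cA R b * τ := by rw [hη]; ring
  rw [e] at h1
  exact mul_notMem (cA_notMem b) (br_tau' hm hη hb) h1

variable [CharZero k]

lemma block (hm : 0 < m) (hη : ∀ b, η b ^ m = 1 + (cA R a - cA R b) * τ)
    (hc : ∀ b, η b ∈ Cn k (maximalIdeal R)) (hJ : J ≤ maximalIdeal R) (hτ : τ ∈ Cn k J)
    (hbr : ∀ b, η b ∈ maximalIdeal R → η b ∈ J) (b : A) : η b ∈ Cn k J := by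
  by_cases hb : η b ∈ maximalIdeal R
  · exact Cn_of_mem (hbr b hb)
  · refine Cn_root hJ hm hb (hc b) ?_
    rw [hη]
    exact add_mem (one_mem _) (mul_mem (sub_mem (cA_mem _) (cA_mem _)) hτ)

lemma br_block (hm : 0 < m) (hη : ∀ b, η b ^ m = 1 + (cA R a - cA R b) * τ)
    (hc : ∀ b, η b ∈ Cn k (maximalIdeal R)) (hJ : J ≤ maximalIdeal R) {b : A}
    (hb : η b ∈ J) : τ ∈ Cn k J ∧ ∀ b', η b' ∈ Cn k J := by
  have hτ : τ ∈ Cn k J := by
    refine Cn_div hJ (y := cA R a - cA R b)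
      (fun h => br_tau hm hη (hJ hb) (Ideal.mul_mem_right _ _ h)) (sub_mem (cA_mem _) (cA_mem _)) ?_
    have e : τ * (cA R a - cA R b) = η b ^ m - 1 := by rw [hη]; ring
    rw [e]
    exact sub_mem (pow_mem (Cn_of_mem hb) _) (one_mem _)
  exact ⟨hτ, block hm hη hc hJ hτ fun b' hb' => br_unique hm hη (hJ hb) hb' ▸ hb⟩

lemma param (hm : 0 < m) (hη : ∀ b, η b ^ m = 1 + (cA R a - cA R b) * τ)
    (hc : ∀ b, η b ∈ Cn k (maximalIdeal R)) (hτ : τ ∈ Cn k (maximalIdeal R)) :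
    ∃ t ∈ maximalIdeal R, ∀ J : Ideal R, J ≤ maximalIdeal R → t ∈ J →
      τ ∈ Cn k J ∧ ∀ b, η b ∈ Cn k J := by
  by_cases h : ∃ b, η b ∈ maximalIdeal R
  · obtain ⟨b, hb⟩ := h
    exact ⟨η b, hb, fun J hJ ht => br_block hm hη hc hJ ht⟩
  · obtain ⟨c, hc'⟩ := mem_Cn.1 hτ
    refine ⟨_, hc', fun J hJ ht => ?_⟩
    have h1 : τ ∈ Cn k J := mem_Cn.2 ⟨c, ht⟩
    exact ⟨h1, block hm hη hc hJ h1 fun b hb => (h ⟨b, hb⟩).elim⟩

end Block

lemma span_le {w₁ w₂ : R} (h1 : w₁ ∈ maximalIdeal R) (h2 : w₂ ∈ maximalIdeal R) :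
    Ideal.span {w₁, w₂} ≤ maximalIdeal R := by
  rw [Ideal.span_le]
  rintro x (rfl | rfl)
  exacts [h1, h2]

section Three

variable {m : ℕ} {a : Fin 3 → A} {η : Fin 3 → A → R} {τ : Fin 3 → R}

lemma two_br (hm : 0 < m) (hη : ∀ j b, η j b ^ m = 1 + (cA R (a j) - cA R b) * τ j) {i j l : Fin 3}
    (hrel : (cA R (a i) * τ i + 1) * (cA R (a j) * τ j + 1) * (cA R (a l) * τ l + 1) =
      τ i * τ j * τ l) {b b' : A} (hb : η j b ∈ maximalIdeal R) (hb' : η l b' ∈ maximalIdeal R) :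
    η i (b * b')⁻¹ ∈ maximalIdeal R := by
  have hp := (maximalIdeal.isMaximal R).isPrime
  refine hp.mem_of_pow_mem m ?_
  have h0 : cA R (b * b')⁻¹ * (cA R b * cA R b') = 1 := by
    simp only [cA, ← map_mul, ← Units.val_mul, ← Subgroup.coe_mul, inv_mul_cancel]
    simp
  have h1 : η i (b * b')⁻¹ ^ m * ((cA R b * τ j) * (cA R b' * τ l)) =
      -(cA R (a i) * τ i + 1) * (η j b ^ m * (cA R (a l) * τ l + 1) +
        cA R b * τ j * η l b' ^ m) := by
    rw [hη, hη, hη]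
    linear_combination hrel - τ i * τ j * τ l * h0
  refine (hp.mem_or_mem (h1 ▸ ?_)).resolve_right
    (mul_notMem (mul_notMem (cA_notMem b) (br_tau' hm (hη j) hb))
      (mul_notMem (cA_notMem b') (br_tau' hm (hη l) hb')))
  exact Ideal.mul_mem_left _ _ (Ideal.add_mem _ (Ideal.mul_mem_right _ _ (br_pow hm hb))
    (Ideal.mul_mem_left _ _ (br_pow hm hb')))

variable [CharZero k]

lemma good_index (hm : 0 < m) (hη : ∀ j b, η j b ^ m = 1 + (cA R (a j) - cA R b) * τ j)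
    (hc : ∀ j b, η j b ∈ Cn k (maximalIdeal R)) (hτ : ∀ j, τ j ∈ Cn k (maximalIdeal R))
    {i j l : Fin 3} (hall : ∀ x, x = i ∨ x = j ∨ x = l)
    (hrel : (cA R (a i) * τ i + 1) * (cA R (a j) * τ j + 1) * (cA R (a l) * τ l + 1) =
      τ i * τ j * τ l) (hub : ∀ b, η i b ∉ maximalIdeal R)
    (hg : ¬ ((cA R (a j) * τ j + 1) * (cA R (a l) * τ l + 1) ∈ maximalIdeal R ∧
      τ j * τ l ∈ maximalIdeal R)) :
    ∃ w₁ ∈ maximalIdeal R, ∃ w₂ ∈ maximalIdeal R, ∀ x b, η x b ∈ Cn k (Ideal.span {w₁, w₂}) := by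
  obtain ⟨t₁, h1, h1'⟩ := param hm (hη j) (hc j) (hτ j)
  obtain ⟨t₂, h2, h2'⟩ := param hm (hη l) (hc l) (hτ l)
  have hJ := span_le h1 h2
  obtain ⟨k1, k2⟩ := h1' _ hJ (Ideal.subset_span (by simp))
  obtain ⟨k3, k4⟩ := h2' _ hJ (Ideal.subset_span (by simp))
  have e : τ i * (τ j * τ l - cA R (a i) * ((cA R (a j) * τ j + 1) * (cA R (a l) * τ l + 1))) =
      (cA R (a j) * τ j + 1) * (cA R (a l) * τ l + 1) := by linear_combination -hrel
  have hP : (cA R (a j) * τ j + 1) * (cA R (a l) * τ l + 1) ∈ Cn k (Ideal.span {t₁, t₂}) :=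
    mul_mem (add_mem (mul_mem (cA_mem _) k1) (one_mem _))
      (add_mem (mul_mem (cA_mem _) k3) (one_mem _))
  have k5 : τ i ∈ Cn k (Ideal.span {t₁, t₂}) := by
    refine Cn_div hJ (fun h => hg ?_) (sub_mem (mul_mem k1 k3) (mul_mem (cA_mem (a i)) hP))
      (by rw [e]; exact hP)
    have h3 := e ▸ Ideal.mul_mem_left _ (τ i) h
    exact ⟨h3, by simpa using Ideal.add_mem _ h (Ideal.mul_mem_left _ (cA R (a i)) h3)⟩
  refine ⟨t₁, h1, t₂, h2, fun x b => ?_⟩
  rcases hall x with rfl | rfl | rfl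
  · exact block hm (hη x) (hc x) hJ k5 (fun b hb => (hub b hb).elim) b
  · exact k2 b
  · exact k4 b

lemma prop_aux1 {Z1 Z2 I1 I2 : Prop} (h1 : I1 → ¬ Z1) (h2 : I2 → ¬ Z2) (p : Z1 ∨ Z2)
    (q : I1 ∨ I2) : (I1 ∨ Z1) ∧ (I2 ∨ Z2) := by tauto

lemma prop_aux2 {Z0 Z1 Z2 I0 I1 I2 : Prop} (h0 : I0 → ¬ Z0) (h1 : I1 → ¬ Z1) (h2 : I2 → ¬ Z2)
    (p1 : Z1 ∨ Z2) (p2 : I1 ∨ I2) (p3 : Z0 ∨ Z2) (p4 : I0 ∨ I2) (p5 : Z0 ∨ Z1) (p6 : I0 ∨ I1) :
    False := by tauto

lemma case_unit (hm : 0 < m) (hη : ∀ j b, η j b ^ m = 1 + (cA R (a j) - cA R b) * τ j)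
    (hc : ∀ j b, η j b ∈ Cn k (maximalIdeal R)) (hτ : ∀ j, τ j ∈ Cn k (maximalIdeal R))
    {i j l : Fin 3} (hall : ∀ x, x = i ∨ x = j ∨ x = l)
    (hrel : (cA R (a i) * τ i + 1) * (cA R (a j) * τ j + 1) * (cA R (a l) * τ l + 1) =
      τ i * τ j * τ l) (hub : ∀ b, η i b ∉ maximalIdeal R) :
    ∃ w₁ ∈ maximalIdeal R, ∃ w₂ ∈ maximalIdeal R, ∀ x b, η x b ∈ Cn k (Ideal.span {w₁, w₂}) := by
  have hp := (maximalIdeal.isMaximal R).isPrime
  by_contra hcon
  have g1 := not_not.1 fun hg => hcon (good_index hm hη hc hτ hall hrel hub hg)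
  have hne : ∀ x, τ x ∈ maximalIdeal R → cA R (a x) * τ x + 1 ∉ maximalIdeal R := fun x h h' =>
    notMem_maximalIdeal.2 (isUnit_one (M := R))
      (by simpa using Ideal.sub_mem _ h' (Ideal.mul_mem_left _ (cA R (a x)) h))
  have hun : ∀ x, (τ x ∈ maximalIdeal R ∨ cA R (a x) * τ x + 1 ∈ maximalIdeal R) →
      ∀ b, η x b ∉ maximalIdeal R := fun x h b hb =>
    h.elim (br_tau' hm (hη x) hb) (br_zer hm (hη x) hb)
  have p1 := hp.mem_or_mem g1.1
  have p2 := hp.mem_or_mem g1.2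
  have g2 := not_not.1 fun hg => hcon (good_index hm hη hc hτ (i := j) (j := i) (l := l)
    (fun x => or_left_comm.1 (hall x)) (by linear_combination hrel)
    (hun j (prop_aux1 (hne j) (hne l) p1 p2).1) hg)
  have g3 := not_not.1 fun hg => hcon (good_index hm hη hc hτ (i := l) (j := i) (l := j)
    (fun x => or_rotate.2 (hall x)) (by linear_combination hrel)
    (hun l (prop_aux1 (hne j) (hne l) p1 p2).2) hg)
  exact prop_aux2 (hne i) (hne j) (hne l) p1 p2 (hp.mem_or_mem g2.1) (hp.mem_or_mem g2.2)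
    (hp.mem_or_mem g3.1) (hp.mem_or_mem g3.2)

lemma case_br_aux [IsDomain R] (hm : 0 < m)
    (hη : ∀ j b, η j b ^ m = 1 + (cA R (a j) - cA R b) * τ j)
    (hc : ∀ j b, η j b ∈ Cn k (maximalIdeal R))
    {i j l : Fin 3} (hall : ∀ x, x = i ∨ x = j ∨ x = l)
    (hrel : (cA R (a i) * τ i + 1) * (cA R (a j) * τ j + 1) * (cA R (a l) * τ l + 1) =
      τ i * τ j * τ l) {b : Fin 3 → A} (hb : ∀ x, η x (b x) ∈ maximalIdeal R)
    (h0 : η i (b i) ≠ 0) {r : Fin 3 → R} (hr : ∀ x, η x (b x) = r x * η i (b i))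
    (hrc : ∀ x, r x ∈ Cn k (maximalIdeal R)) :
    (r j ∉ maximalIdeal R ∨ r l ∉ maximalIdeal R) ∧ (r j ∉ maximalIdeal R →
      ∃ w₁ ∈ maximalIdeal R, ∃ w₂ ∈ maximalIdeal R,
        (∀ x b, η x b ∈ Cn k (Ideal.span {w₁, w₂})) ∧ ∀ x, r x ∈ Cn k (Ideal.span {w₁, w₂})) := by
  have hbb := br_unique hm (hη i) (hb i) (two_br hm hη hrel (hb j) (hb l))
  have h1 : cA R (b i) * (cA R (b j) * cA R (b l)) = 1 := by
    rw [← hbb]
    simp only [cA, ← map_mul, ← Units.val_mul, ← Subgroup.coe_mul, inv_mul_cancel]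
    simp
  have hx : ∀ x, cA R (a x) * τ x + 1 = cA R (b x) * τ x + r x ^ m * η i (b i) ^ m := by
    intro x
    rw [← mul_pow, ← hr, hη]
    ring
  have hri : r i = 1 := (mul_eq_right₀ h0).1 (hr i).symm
  have hp : ∀ x, cA R (b x) * τ x ∉ maximalIdeal R := fun x =>
    mul_notMem (cA_notMem _) (br_tau' hm (hη x) (hb x))
  rw [hx, hx, hx, hri, one_pow, one_mul] at hrel
  have h2 : r j ^ m * ((cA R (b i) * τ i) * (cA R (b l) * τ l)) =
      -((cA R (b j) * τ j) * (cA R (b l) * τ l)) - r l ^ m * ((cA R (b i) * τ i) * (cA R (b j) * τ j))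
        - η i (b i) ^ m * (r j ^ m * (cA R (b l) * τ l) + r l ^ m * (cA R (b j) * τ j) +
          r j ^ m * r l ^ m * (cA R (b i) * τ i) + r j ^ m * r l ^ m * η i (b i) ^ m) := by
    refine mul_left_cancel₀ (pow_ne_zero m h0) ?_
    linear_combination hrel - τ i * τ j * τ l * h1
  refine ⟨?_, fun hj => ?_⟩
  · by_contra hcon
    rw [not_or, not_not, not_not] at hcon
    refine mul_notMem (hp j) (hp l) ?_
    have h3 : (cA R (b j) * τ j) * (cA R (b l) * τ l) =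
        -(r j ^ m * ((cA R (b i) * τ i) * (cA R (b l) * τ l)))
        - r l ^ m * ((cA R (b i) * τ i) * (cA R (b j) * τ j))
        - η i (b i) ^ m * (r j ^ m * (cA R (b l) * τ l) + r l ^ m * (cA R (b j) * τ j) +
          r j ^ m * r l ^ m * (cA R (b i) * τ i) + r j ^ m * r l ^ m * η i (b i) ^ m) := by
      linear_combination h2
    rw [h3]
    exact Ideal.sub_mem _ (Ideal.sub_mem _
      (neg_mem (Ideal.mul_mem_right _ _ (Ideal.pow_mem_of_mem _ hcon.1 _ hm)))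
      (Ideal.mul_mem_right _ _ (Ideal.pow_mem_of_mem _ hcon.2 _ hm)))
      (Ideal.mul_mem_right _ _ (br_pow hm (hb i)))
  · obtain ⟨c, hc'⟩ := mem_Cn.1 (hrc l)
    have hJ := span_le (hb i) hc'
    have k0 : η i (b i) ∈ Ideal.span {η i (b i), r l - algebraMap k R c} :=
      Ideal.subset_span (by simp)
    have k1 := fun x => br_block hm (hη x) (hc x) hJ (b := b x)
      (by rw [hr x]; exact Ideal.mul_mem_left _ _ k0)
    have k2 : r l ∈ Cn k (Ideal.span {η i (b i), r l - algebraMap k R c}) :=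
      mem_Cn.2 ⟨c, Ideal.subset_span (by simp)⟩
    have k3 := fun x => mul_mem (cA_mem (b x)) (k1 x).1
    have k4 : r j ∈ Cn k (Ideal.span {η i (b i), r l - algebraMap k R c}) := by
      refine Cn_root hJ hm hj (hrc j) (Cn_div hJ (mul_notMem (hp i) (hp l))
        (mul_mem (k3 i) (k3 l)) ?_)
      rw [h2]
      exact sub_mem (sub_mem (neg_mem (mul_mem (k3 j) (k3 l)))
        (mul_mem (pow_mem k2 _) (mul_mem (k3 i) (k3 j))))
        (Cn_of_mem (Ideal.mul_mem_right _ _ (Ideal.pow_mem_of_mem _ k0 _ hm)))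
    refine ⟨_, hb i, _, hc', fun x => (k1 x).2, fun x => ?_⟩
    rcases hall x with rfl | rfl | rfl
    · rw [hri]; exact one_mem _
    · exact k4
    · exact k2

theorem main [IsDomain R] [Fintype A] (hm : 0 < m)
    (hη : ∀ j b, η j b ^ m = 1 + (cA R (a j) - cA R b) * τ j)
    (hc : ∀ j b, η j b ∈ Cn k (maximalIdeal R)) (hτ : ∀ j, τ j ∈ Cn k (maximalIdeal R))
    (h0 : ∀ j b, η j b ≠ 0)
    (hrel : ∏ j, (cA R (a j) * τ j + 1) = ∏ j, τ j) (i : Fin 3) {v : Fin 3 → R}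
    (hv : ∀ x, v x * ∏ b, η i b = ∏ b, η x b) (hvc : ∀ x, v x ∈ Cn k (maximalIdeal R)) :
    ∃ w₁ ∈ maximalIdeal R, ∃ w₂ ∈ maximalIdeal R,
      (∀ x b, η x b ∈ Cn k (Ideal.span {w₁, w₂})) ∧ ∀ x, v x ∈ Cn k (Ideal.span {w₁, w₂}) := by
  classical
  have hp := (maximalIdeal.isMaximal R).isPrime
  obtain ⟨j, l, hall, hrel⟩ : ∃ j l : Fin 3, (∀ x, x = i ∨ x = j ∨ x = l) ∧
      (cA R (a i) * τ i + 1) * (cA R (a j) * τ j + 1) * (cA R (a l) * τ l + 1) =
        τ i * τ j * τ l := by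
    rw [Fin.prod_univ_three, Fin.prod_univ_three] at hrel
    fin_cases i
    · exact ⟨1, 2, by decide, hrel⟩
    · exact ⟨0, 2, by decide, by simp only [Fin.mk_one]; linear_combination hrel⟩
    · exact ⟨0, 1, by decide, by simp only [Fin.reduceFinMk]; linear_combination hrel⟩
  by_cases hu : ∏ b, η i b ∈ maximalIdeal R
  · have hb : ∀ x, ∃ b, η x b ∈ maximalIdeal R := fun x => by
      have h1 : ∏ b, η x b ∈ maximalIdeal R := hv x ▸ Ideal.mul_mem_left _ _ hu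
      obtain ⟨b, -, hb⟩ := Ideal.IsPrime.prod_mem_iff.1 h1
      exact ⟨b, hb⟩
    choose b hb using hb
    let e : Fin 3 → R := fun x => ∏ c ∈ Finset.univ.erase (b x), η x c
    have he : ∀ x, e x ∉ maximalIdeal R := fun x h => by
      obtain ⟨c, hc1, hc2⟩ := Ideal.IsPrime.prod_mem_iff.1 h
      exact (Finset.mem_erase.1 hc1).1 (br_unique hm (hη x) (hb x) hc2)
    have he' : ∀ x, η x (b x) * e x = ∏ c, η x c := fun x =>
      Finset.mul_prod_erase _ _ (Finset.mem_univ _)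
    have hr : ∀ x, ∃ r, r * e x = v x * e i := fun x => by
      obtain ⟨u, hu⟩ := (notMem_maximalIdeal.1 (he x)).exists_left_inv
      exact ⟨v x * e i * u, by rw [mul_assoc, hu, mul_one]⟩
    choose r hr using hr
    have hr1 : ∀ x, η x (b x) = r x * η i (b i) := fun x => by
      refine mul_right_cancel₀ (notMem_maximalIdeal.1 (he x)).ne_zero ?_
      rw [he', ← hv, ← he']
      linear_combination -η i (b i) * hr x
    have hec : ∀ J : Ideal R, (∀ x b, η x b ∈ Cn k J) → ∀ x, e x ∈ Cn k J := fun J h x =>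
      prod_mem fun c _ => h x c
    have hrc : ∀ x, r x ∈ Cn k (maximalIdeal R) := fun x =>
      Cn_div le_rfl (he x) (hec _ hc x) (hr x ▸ mul_mem (hvc x) (hec _ hc i))
    obtain ⟨q1, q2⟩ := case_br_aux hm hη hc hall hrel hb (h0 _ _) hr1 hrc
    obtain ⟨-, q3⟩ := case_br_aux hm hη hc (i := i) (j := l) (l := j)
      (fun x => (hall x).imp_right Or.symm) (by linear_combination hrel) hb (h0 _ _) hr1 hrc
    obtain ⟨w₁, h1, w₂, h2, h3, h4⟩ := q1.elim q2 q3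
    exact ⟨w₁, h1, w₂, h2, h3, fun x => Cn_div (span_le h1 h2) (he i) (hec _ h3 i)
      (hr x ▸ mul_mem (h4 x) (hec _ h3 x))⟩
  · obtain ⟨w₁, h1, w₂, h2, h3⟩ := case_unit hm hη hc hτ hall hrel fun b hb =>
      hu (Ideal.IsPrime.prod_mem_iff.2 ⟨b, Finset.mem_univ _, hb⟩)
    exact ⟨w₁, h1, w₂, h2, h3, fun x => Cn_div (span_le h1 h2) hu (prod_mem fun c _ => h3 i c)
      (hv x ▸ prod_mem fun c _ => h3 x c)⟩

end Three

end Vale.Agent.P190.RegA
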