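import Vale.Agent.P190.GeoBasic
import Vale.Agent.P190.RegA

/-! The projective model of the Kummer cover is smooth. -/

open Module

noncomputable section

namespace Vale.Agent.P190

variable {k : Type} [Field k] {A : Subgroup kˣ} [Fintype A] {m : ℕ} {K : Type} [Field K]
  [Algebra k K]

lemma Reg.prod_update_mul {ι : Type} [Fintype ι] [DecidableEq ι] (F : ι → K) (i : ι) (x : K) :
    (∏ j, Function.update F i x j) * F i = (∏ j, F j) * x := by
  rw [Finset.prod_update_of_mem (Finset.mem_univ i), ← Finset.mul_prod_erase _ F (Finset.mem_univ i),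
    Finset.sdiff_singleton_eq_erase]
  ring

lemma Reg.replace (g : Geo k K A m) (hm : 0 < m) (i : Fin 3)
    (α : ∀ j, Fin (gexp (Fintype.card A) i j) → A) (j : Fin 3)
    (l : Fin (gexp (Fintype.card A) i j)) (b : A) :
    ∃ z ∈ g.S, z / (g.U i * ∏ j, ∏ l, g.y j (α j l)) = g.y j b / g.y j (α j l) := by
  refine ⟨_, ⟨i, Function.update α j (Function.update (α j) l b), rfl⟩, ?_⟩
  have h0 : g.U i * ∏ j, ∏ l, g.y j (α j l) ≠ 0 := fun h =>
    g.zero_notMem_S hm ⟨i, α, h.symm⟩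
  rw [div_eq_div_iff h0 (g.y_ne_zero hm _ _)]
  have h1 : (∏ l', g.y j (Function.update (α j) l b l')) * g.y j (α j l) =
      (∏ l', g.y j (α j l')) * g.y j b := by
    simp only [Function.apply_update (fun _ => g.y j)]
    exact Reg.prod_update_mul (fun l' => g.y j (α j l')) l _
  have h2 : (∏ j', ∏ l', g.y j' (Function.update α j (Function.update (α j) l b) j' l')) *
      ∏ l', g.y j (α j l') =
      (∏ j', ∏ l', g.y j' (α j' l')) * ∏ l', g.y j (Function.update (α j) l b l') := by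
    simp only [Function.apply_update
      (fun j' (γ : Fin (gexp (Fintype.card A) i j') → A) => ∏ l', g.y j' (γ l'))]
    exact Reg.prod_update_mul (fun j' => ∏ l', g.y j' (α j' l')) j _
  have h3 : ∏ l', g.y j (α j l') ≠ 0 := Finset.prod_ne_zero_iff.2 fun _ _ => g.y_ne_zero hm _ _
  refine mul_right_cancel₀ h3 ?_
  linear_combination g.U i * g.y j (α j l) * h2 + g.U i * (∏ j', ∏ l', g.y j' (α j' l')) * h1

lemma Reg.factor (g : Geo k K A m) (hm : 0 < m) (a : Fin 3 → A) (x : Fin 3)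
    (β : ∀ j, Fin (gexp (Fintype.card A) x j) → A) :
    g.U x * ∏ j, ∏ l, g.y j (β j l) = (∏ b, g.y x b / g.y x (a x)) *
      (∏ j, ∏ l, g.y j (β j l) / g.y j (a j)) * ∏ j, g.y j (a j) ^ (Fintype.card A + 1) := by
  have h1 : ∏ j, g.y j (a j) ^ (Fintype.card A + 1) =
      g.y x (a x) ^ Fintype.card A * ∏ j, g.y j (a j) ^ gexp (Fintype.card A) x j := by
    fin_cases x <;> simp [Fin.prod_univ_three, gexp] <;> ring
  have h2 : ∏ j, g.y j (a j) ^ gexp (Fintype.card A) x j ≠ 0 :=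
    Finset.prod_ne_zero_iff.2 fun _ _ => pow_ne_zero _ (g.y_ne_zero hm _ _)
  have h3 := pow_ne_zero (Fintype.card A) (g.y_ne_zero hm x (a x))
  simp only [h1, Finset.prod_div_distrib, Finset.prod_const, Finset.card_univ, Fintype.card_fin,
    Geo.U]
  field_simp

lemma Reg.ratio_pow (g : Geo k K A m) (j : Fin 3) (a b : A) :
    (g.y j b / g.y j a) ^ m = 1 + (algebraMap k K ((a : kˣ) : k) - algebraMap k K ((b : kˣ) : k)) *
      (g.s j - algebraMap k K ((a : kˣ) : k))⁻¹ := by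
  have h1 := sub_ne_zero.2 (g.s_ne j ((a : kˣ) : k))
  rw [div_pow, g.y_pow_eq, g.y_pow_eq, mul_div_mul_right _ _ (g.σ_ne_zero j)]
  field_simp
  ring

theorem Geo.regS [CharZero k] (g : Geo k K A m) (hm : 0 < m) (hA : 2 ≤ Fintype.card A) :
    RegS k g.S := by
  rintro B f ⟨i, α, hf⟩ hk hS
  letI : Algebra k B.toSubring := ((algebraMap k K).codRestrict B.toSubring hk).toAlgebra
  have halg : ∀ c, ((algebraMap k B.toSubring c : B.toSubring) : K) = algebraMap k K c :=
    fun _ => rfl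
  have hC : ∀ z ∈ g.S, ∃ x : B.toSubring, (x : K) = z / f ∧
      x ∈ RegA.Cn k (IsLocalRing.maximalIdeal B.toSubring) := by
    intro z hz
    obtain ⟨c, h1, h2⟩ := hS z hz
    exact ⟨⟨_, h1⟩ + algebraMap k _ c, by simp [halg], RegA.mem_Cn.2 ⟨c, by simpa using h2⟩⟩
  have hpos : ∀ j, 0 < gexp (Fintype.card A) i j := fun j => by
    unfold gexp
    split_ifs <;> omega
  let a : Fin 3 → A := fun j => α j ⟨0, hpos j⟩
  have hR : ∀ j l b, ∃ x : B.toSubring, (x : K) = g.y j b / g.y j (α j l) ∧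
      x ∈ RegA.Cn k (IsLocalRing.maximalIdeal B.toSubring) := fun j l b => by
    obtain ⟨z, hz, h⟩ := Reg.replace g hm i α j l b
    rw [← h, ← hf]
    exact hC z hz
  choose η hη hηc using fun j b => hR j ⟨0, hpos j⟩ b
  replace hη : ∀ j b, (η j b : K) = g.y j b / g.y j (a j) := hη
  have hηu : ∀ j l, η j (α j l) ∉ IsLocalRing.maximalIdeal B.toSubring := fun j l => by
    obtain ⟨x, hx, -⟩ := hR j l (a j)
    refine IsLocalRing.notMem_maximalIdeal.2 (IsUnit.of_mul_eq_one x (Subtype.ext ?_))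
    have h1 := g.y_ne_zero hm j (a j)
    have h2 := g.y_ne_zero hm j (α j l)
    rw [Subring.coe_mul, hx, hη, Subring.coe_one]
    field_simp
  have hτ : ∀ j, ∃ x : B.toSubring, (x : K) = (g.s j - algebraMap k K ((a j : kˣ) : k))⁻¹ ∧
      x ∈ RegA.Cn k (IsLocalRing.maximalIdeal B.toSubring) := fun j => by
    obtain ⟨b, hb⟩ := Fintype.exists_ne_of_one_lt_card hA (a j)
    have h1 : ((a j : kˣ) : k) - ((b : kˣ) : k) ≠ 0 := fun h =>
      hb (Subtype.ext (Units.ext (sub_eq_zero.1 h))).symm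
    refine ⟨algebraMap k _ (((a j : kˣ) : k) - ((b : kˣ) : k))⁻¹ * (η j b ^ m - 1), ?_,
      mul_mem (Subalgebra.algebraMap_mem _ _) (sub_mem (pow_mem (hηc j b) _) (one_mem _))⟩
    rw [Subring.coe_mul, halg, AddSubgroupClass.coe_sub, Subring.coe_pow, hη, Reg.ratio_pow,
      Subring.coe_one, add_sub_cancel_left, ← map_sub, ← mul_assoc, ← map_mul,
      inv_mul_cancel₀ h1, map_one, one_mul]
  choose τ hτ hτc using hτ
  have hcA : ∀ b : A, ((RegA.cA B.toSubring b : B.toSubring) : K) =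
      algebraMap k K ((b : kˣ) : k) := fun _ => rfl
  let D : B.toSubring := ∏ j, ∏ l, η j (α j l)
  have hD : D ∉ IsLocalRing.maximalIdeal B.toSubring := fun h => by
    have := (IsLocalRing.maximalIdeal.isMaximal B.toSubring).isPrime
    obtain ⟨j, -, h1⟩ := Ideal.IsPrime.prod_mem_iff.1 h
    obtain ⟨l, -, h2⟩ := Ideal.IsPrime.prod_mem_iff.1 h1
    exact hηu j l h2
  have hDc : ∀ J : Ideal B.toSubring, (∀ j b, η j b ∈ RegA.Cn k J) → D ∈ RegA.Cn k J :=
    fun J h => prod_mem fun j _ => prod_mem fun l _ => h _ _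
  have hη0 : ∀ j b, η j b ≠ 0 := fun j b h => by
    have h1 := hη j b
    rw [h, Subring.coe_zero, eq_comm] at h1
    exact div_ne_zero (g.y_ne_zero hm _ _) (g.y_ne_zero hm _ _) h1
  have hkey : ∀ (x : Fin 3) (β : ∀ j, Fin (gexp (Fintype.card A) x j) → A) (G : B.toSubring),
      (G : K) = (g.U x * ∏ j, ∏ l, g.y j (β j l)) / f →
      G * D * ∏ b, η i b = (∏ b, η x b) * ∏ j, ∏ l, η j (β j l) := by
    intro x β G hG
    have h0 : f ≠ 0 := fun h => g.zero_notMem_S hm ⟨i, α, h ▸ hf⟩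
    have h1 : ∏ j, g.y j (a j) ^ (Fintype.card A + 1) ≠ 0 :=
      Finset.prod_ne_zero_iff.2 fun _ _ => pow_ne_zero _ (g.y_ne_zero hm _ _)
    rw [eq_div_iff h0, hf, Reg.factor g hm a, Reg.factor g hm a] at hG
    apply Subtype.ext
    simp only [D, Subring.coe_mul, SubmonoidClass.coe_finsetProd, hη]
    refine mul_right_cancel₀ h1 ?_
    linear_combination hG
  choose G hG hGc using fun x => hC _ ⟨x, fun j _ => a j, rfl⟩
  have hη1 : ∀ j, η j (a j) = 1 := fun j =>
    Subtype.ext (by rw [hη, div_self (g.y_ne_zero hm _ _), Subring.coe_one])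
  have hv : ∀ x, G x * D * ∏ b, η i b = ∏ b, η x b := fun x => by
    simpa [hη1] using hkey x _ _ (hG x)
  obtain ⟨w₁, h1, w₂, h2, h3, h4⟩ := RegA.main (a := a) (η := η) (τ := τ) hm
    (fun j b => Subtype.ext (by
      rw [Subring.coe_pow, hη, Reg.ratio_pow, Subring.coe_add, Subring.coe_mul,
        AddSubgroupClass.coe_sub, hcA, hcA, hτ, Subring.coe_one])) hηc hτc hη0
    (Subtype.ext (by
      simp only [SubmonoidClass.coe_finsetProd, Subring.coe_add, Subring.coe_mul, hcA, hτ,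
        Subring.coe_one]
      have e : ∀ j, algebraMap k K ((a j : kˣ) : k) *
          (g.s j - algebraMap k K ((a j : kˣ) : k))⁻¹ + 1 =
          g.s j * (g.s j - algebraMap k K ((a j : kˣ) : k))⁻¹ := fun j => by
        have h1 := sub_ne_zero.2 (g.s_ne j ((a j : kˣ) : k))
        field_simp
        ring
      simp only [e]
      rw [Finset.prod_mul_distrib, Fin.prod_univ_three g.s, g.prod, one_mul])) i hv
    fun x => mul_mem (hGc x) (hDc _ hηc)
  refine ⟨w₁, h1, w₂, h2, ?_⟩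
  rintro z ⟨x, β, rfl⟩
  obtain ⟨Z, hZ, -⟩ := hC _ ⟨x, β, rfl⟩
  have h5 : Z * D = G x * D * ∏ j, ∏ l, η j (β j l) := by
    refine mul_right_cancel₀ (Finset.prod_ne_zero_iff.2 fun b (_ : b ∈ Finset.univ) => hη0 i b) ?_
    rw [hkey x β Z hZ, ← hv x]
    ring
  have h6 := RegA.Cn_div (RegA.span_le h1 h2) hD (hDc _ h3)
    (h5 ▸ mul_mem (h4 x) (prod_mem fun j _ => prod_mem fun l _ => h3 _ _))
  obtain ⟨c, hc⟩ := RegA.mem_Cn.1 h6
  obtain ⟨a₁, a₂, h7⟩ := Ideal.mem_span_pair.1 hc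
  exact ⟨c, a₁, a₂, by rw [h7, AddSubgroupClass.coe_sub, hZ, halg]⟩

end Vale.Agent.P190
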