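import Vale.Agent.P190.Langton
import Vale.Agent.P190.KI
import Vale.Agent.P190.Omega
import Vale.Agent.P190.Quad
import Vale.Agent.P190.Reg

/-! Assembly of the counterexample. -/

open Module RingTheory.Sequence

noncomputable section

namespace Vale.Agent.P190

lemma Final.sum_le_two (f : ℕ → ℤ) (c : ℤ) (hc : 0 ≤ c) (h1 : ∀ i, f i ≤ c)
    (h2 : ∀ i, 2 ≤ i → f i = 0) (N : ℕ) : ∑ i ∈ Finset.range N, f i ≤ 2 * c := by
  have key : ∀ N : ℕ, ∑ i ∈ Finset.range N, f i ≤ (min N 2 : ℕ) * c := by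
    intro N
    induction N with
    | zero => simp
    | succ N ih =>
      rw [Finset.sum_range_succ]
      by_cases hN : 2 ≤ N
      · rw [h2 N hN, min_eq_right (by omega : 2 ≤ N + 1)]
        rw [min_eq_right hN] at ih
        linarith
      · rw [min_eq_left (by omega : N + 1 ≤ 2)]
        rw [min_eq_left (by omega : N ≤ 2)] at ih
        push_cast at ih ⊢
        have := h1 N
        linarith
  refine (key N).trans ?_
  have : ((min N 2 : ℕ) : ℤ) ≤ 2 := by exact_mod_cast min_le_right N 2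
  nlinarith

lemma Final.h0_eq_zero {k U K V : Type} [Field k] [Field K] [AddCommGroup V] [Module K V]
    [Module k V] {O : Fam U K} {d : Pic O →+ ℝ} (hO : IsFam O) (hd : IsWt d) {L : Sys U V}
    (hL : IsBun O L) {μ : ℝ} (h : Ub O d L μ) (hμ : μ < 0) : h0 k L = 0 := by
  have : H0 k L = ⊥ := by
    rw [H0, Submodule.span_eq_bot]
    intro x hx
    exact h.eq_zero hO hd hL hμ hx
  rw [h0, this, finrank_bot]

variable {k : Type} [Field k] [IsAlgClosed k] [CharZero k] {A : Subgroup kˣ} [Fintype A]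
  {F KX K : Type} [Field F] [Field KX] [Field K] [Algebra k F] [Algebra k KX] [Algebra k K]
  [Algebra F KX] [Algebra F K] [Algebra KX K] [IsScalarTower k F KX] [IsScalarTower k F K]
  [IsScalarTower k KX K] [IsScalarTower F KX K] [FiniteDimensional F KX] [FiniteDimensional F K]
  [FiniteDimensional KX K]
variable {P : P2 k F} {gX : Geo k KX A 1} {g : Geo k K A 6} {x : KX}
  {ipX : Pic (P.OK KX) →+ Pic (P.OK KX) →+ ℤ} {ip : Pic (P.OK K) →+ Pic (P.OK K) →+ ℤ}

theorem Setup.h0_term (h : Setup P gX g x ipX ip) (hn : Fintype.card A = 2000) {V : Type}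
    [AddCommGroup V] [Module K V] [Module k V] [IsScalarTower k K V] {L : Sys (PU k) V}
    (hL : IsBun (P.OK K) L) (i : ℕ)
    (hU : Ub (P.OK K) (gX.degY (P.OK K) ip) L
      ((finrank KX K : ℝ) * (9994 / 3) - (2 * i + 1) * ((finrank KX K : ℝ) * 667))) :
    (h0 k L : ℤ) ≤ 8000 * finrank KX K * finrank K V ∧ (2 ≤ i → (h0 k L : ℤ) = 0) := by
  have hO : IsFam (P.OK K) := (P.isSL_OK K).isFam
  have hN : (0 : ℝ) < finrank KX K := by exact_mod_cast finrank_pos
  have hi : (0 : ℝ) ≤ i := Nat.cast_nonneg i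
  constructor
  · have hω : gX.degY (P.OK K) ip (cl (P.omega K)) / 2 = (finrank KX K : ℝ) * (9994 / 3) := by
      rw [h.cl_omega, h.degY_mu, hn]
      push_cast
      ring
    have := h.h0_le hL (hU.mono (by rw [hω]; nlinarith))
    rw [hn] at this
    exact_mod_cast this
  · intro h2
    have h2' : (2 : ℝ) ≤ i := by exact_mod_cast h2
    have := Final.h0_eq_zero (k := k) hO h.isWt_degY hL hU (by nlinarith)
    exact_mod_cast this

theorem Setup.no_module (h : Setup P gX g x ipX ip) (hn : Fintype.card A = 2000) {M : Type*}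
    [AddCommGroup M] [Module (Rhat k g.S) M] [Module.Finite (Rhat k g.S) M] [Nontrivial M]
    (rs : List (Rhat k g.S)) (hmem : ∀ r ∈ rs, r ∈ IsLocalRing.maximalIdeal (Rhat k g.S))
    (hreg : IsWeaklyRegular M rs) (hlen : 3 ≤ rs.length) : False := by
  let : Module k M := Module.compHom M (algebraMap k (Rhat k g.S))
  have : IsScalarTower k (Rhat k g.S) M := IsScalarTower.of_algebraMap_smul fun _ _ => rfl
  have hO : IsFam (P.OK K) := (P.isSL_OK K).isFam
  have hN := h.tow.normData h.nd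
  have := Rhat.isNoetherianRing (k := k) g.S_finite
  obtain ⟨-, hnorm⟩ := hN.reg_and_normal (g.regS h.tow.m_pos h.tow.two_le)
  have htf : ∀ (f : Rhat k g.S) (y : M), f ≠ 0 → f • y = 0 → y = 0 := fun f y hf hy =>
    torsionFree_of_regular hN.ringKrullDim_eq rs hlen hmem hreg f hf y hy
  obtain ⟨r, ι₀, hr, hι₀⟩ := hN.exists_adm htf
  have hK : ∀ J : ℕ, 0 < J → ∀ η : Fin 3 → M, ∑ i, pR hN i ^ J • η i = 0 →
      ∃ ζ, η = cross (fun i => pR hN i ^ J) ζ := fun J hJ η hη =>
    koszul3 rs hlen hreg _ (fun f hf => hN.mId_le_radical hJ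
      (by rw [← Rhat.maximalIdeal_eq]; exact hmem f hf)) η hη
  set N : ℝ := (finrank KX K : ℝ) with hNdef
  have hNpos : 0 < N := by rw [hNdef]; exact_mod_cast finrank_pos
  set dY := gX.degY (P.OK K) ip with hdY
  have hstep : dY (cl (ofSet (P.OK K) g.S)) = N * 1334 := by
    have : ofSet (P.OK K) g.S = g.Ld (P.OK K) := rfl
    rw [this, g.Ld_eq, h.degY_mu, hn]
    push_cast
    ring
  have hΘd : dY (cl (g.mu (P.OK K) (fun _ => 4997) 2)) = N * (9994 / 3) := by
    rw [h.degY_mu]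
    push_cast
    ring
  have hΘ : cl (P.omega K) = cl (g.mu (P.OK K) (fun _ => 4997) 2) +
      cl (g.mu (P.OK K) (fun _ => 4997) 2) := by
    rw [h.cl_omega, ← cl_mul, ← g.mu_add, hn]
    rfl
  have hωd : dY (cl (P.omega K)) = N * (9994 / 3) + N * (9994 / 3) := by
    rw [hΘ, map_add, hΘd]
  obtain ⟨ι, E, hι, hE, hU, hB⟩ := hN.langton hnorm h.isWt_degY (N * (9994 / 3) - N * 667)
    (by rw [← hdY, hstep]; positivity) hι₀
  rw [← hdY] at hU hB
  rw [hstep] at hU
  have hrk : finrank K (Fin r → K) = r := by simp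
  have hχ := h.rr.chi_le_window (s := ![gX.σ 0, gX.σ 1]) gX.coord_σ h.twoP hE.1
    (w := N * 667) (by positivity) hΘ (d := dY) rfl
    (by rw [hΘd]; convert hU using 1; ring) (by rw [hΘd]; exact hB)
  rw [h.tow.chi_mu h.nd, hrk] at hχ
  have hq := chiF_theta (A := A) h.tow.two_le (θ := 4997) (by rw [hn]; norm_num)
  rw [h.tow.card_adm, hn] at hq
  have hq' : 108 * (chiF A 6 (fun _ => 4997) 2 : ℝ) ≤ N * (27 - 4 * 1999 * 1998) := by
    rw [hNdef]
    have : ((108 * chiF A 6 (fun _ => 4997) 2 : ℤ) : ℝ) ≤ (((finrank KX K : ℤ) *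
      (27 - 4 * (((2000 : ℕ) : ℤ) - 1) * (((2000 : ℕ) : ℤ) - 2)) : ℤ) : ℝ) := by exact_mod_cast hq
    push_cast at this
    linarith
  obtain ⟨T, hT⟩ := hN.key_inequality hι hK hE
  have hA : ∀ i : ℕ, (h0 k (twist (ofSet (P.OK K) g.S ^ (-(i + 1 : ℤ))) E) : ℤ) ≤
      8000 * finrank KX K * r ∧
      (2 ≤ i → (h0 k (twist (ofSet (P.OK K) g.S ^ (-(i + 1 : ℤ))) E) : ℤ) = 0) := by
    intro i
    have h1 := hU.twist hO hE.1 (ofSet (P.OK K) g.S ^ (-(i + 1 : ℤ)))
    rw [cl_zpow, map_zsmul, hstep, zsmul_eq_mul] at h1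
    have h2 := h.h0_term hn (hE.1.twist _) i (by
      rw [← hdY, ← hNdef]; convert h1 using 1; push_cast; ring)
    rwa [hrk] at h2
  have hD : ∀ i : ℕ, (h0 k (twist (P.omega K)
      (dual (P.OK K) (twist (ofSet (P.OK K) g.S ^ (i + 1 : ℤ)) E))) : ℤ) ≤
      8000 * finrank KX K * r ∧ (2 ≤ i → (h0 k (twist (P.omega K)
      (dual (P.OK K) (twist (ofSet (P.OK K) g.S ^ (i + 1 : ℤ)) E))) : ℤ) = 0) := by
    intro i
    have hb := hE.1.twist (ofSet (P.OK K) g.S ^ (i + 1 : ℤ))
    have h1 := ((hB.twist hO hE.1 (ofSet (P.OK K) g.S ^ (i + 1 : ℤ))).dual hO hb).twist hO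
      hb.dual (P.omega K)
    rw [cl_zpow, map_zsmul, hstep, zsmul_eq_mul, hωd] at h1
    have h2 := h.h0_term hn (hb.dual.twist _) i (by
      rw [← hdY, ← hNdef]; convert h1 using 1; push_cast; ring)
    rwa [Subspace.dual_finrank_eq, hrk] at h2
  have hc : (0 : ℤ) ≤ 8000 * finrank KX K * r := by positivity
  have hsA := Final.sum_le_two _ _ hc (fun i => (hA i).1) (fun i => (hA i).2) T
  have hsD := Final.sum_le_two _ _ hc (fun i => (hD i).1) (fun i => (hD i).2) T
  have hfin : -(chi k (P.pol K) E : ℝ) ≤ 32000 * N * r := by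
    have : -chi k (P.pol K) E ≤ 32000 * finrank KX K * r := by linarith
    rw [hNdef]
    exact_mod_cast this
  have hr' : (0 : ℝ) < r := by exact_mod_cast hr
  have hw : (N * 667) ^ 2 / (4 * ((finrank KX K : ℤ) : ℝ)) = N * (667 ^ 2 / 4) := by
    rw [Int.cast_natCast, ← hNdef]
    field_simp
  rw [hw] at hχ
  have h5 : (chiF A 6 (fun _ => 4997) 2 : ℝ) + N * (667 ^ 2 / 4) < -(32000 * N) := by
    nlinarith
  nlinarith

theorem main.{u} : ∃ (R : Type) (_ : CommRing R) (_ : IsDomain R) (_ : IsLocalRing R)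
    (_ : IsNoetherianRing R), IsAdicComplete (IsLocalRing.maximalIdeal R) R ∧
      ringKrullDim R = 3 ∧
      ∀ (M : Type u) [AddCommGroup M] [Module R M] [Module.Finite R M] [Nontrivial M]
        (rs : List R), (∀ r ∈ rs, r ∈ IsLocalRing.maximalIdeal R) → IsRegular M rs →
          (rs.length : WithBot ℕ∞) < ringKrullDim R := by
  let A : Subgroup ℂˣ := rootsOfUnity 2000 ℂ
  let : Fintype A := Fintype.ofFinite A
  have hn : Fintype.card A = 2000 := by
    rw [← Nat.card_eq_fintype_card]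
    exact Complex.card_rootsOfUnity 2000
  obtain ⟨KX, K, _, _, _, _, _, _, gX, g, ht⟩ :=
    exists_tow ℂ A (by rw [hn]; norm_num) (m := 6) (by norm_num)
  obtain ⟨F, P, x, hN, hfin⟩ := exists_normData (k := ℂ) gX.S_finite
    (gX.zero_notMem_S one_pos) (gX.frac one_pos) gX.coord_s.trdeg_eq
  have := ht.finiteDimensional
  have : FiniteDimensional F K := Module.Finite.trans KX K
  have hNY := ht.normData hN
  obtain ⟨ipX, hX⟩ := P.exists_RR (hN.reg_and_normal (gX.regS one_pos ht.two_le)).1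
  obtain ⟨ip, hY⟩ := P.exists_RR (hNY.reg_and_normal (g.regS ht.m_pos ht.two_le)).1
  have hS : Setup P gX g x ipX ip := ⟨ht, hN, hX, hY⟩
  refine ⟨Rhat ℂ g.S, inferInstance, inferInstance, inferInstance,
    Rhat.isNoetherianRing g.S_finite, Rhat.isAdicComplete g.S_finite, hNY.ringKrullDim_eq, ?_⟩
  intro M _ _ _ _ rs hmem hreg
  rw [hNY.ringKrullDim_eq]
  by_contra hlt
  have hlen : 3 ≤ rs.length := by
    by_contra h3
    apply hlt
    have : rs.length < 3 := by omega
    exact_mod_cast this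
  exact hS.no_module hn rs hmem hreg.toIsWeaklyRegular hlen

end Vale.Agent.P190
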