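import Vale.Agent.P190.NoethNorm

/-! Elementary facts on the Kummer data. -/

open Module

noncomputable section

namespace Vale.Agent.P190

variable {k : Type} [Field k] {A : Subgroup kˣ} {m : ℕ} {K : Type} [Field K] [Algebra k K]
  (g : Geo k K A m)

open MvPolynomial in
lemma GB.s3_ne {s t : K} (h : AlgebraicIndependent k ![s, t]) (j : Fin 3) (c : k) :
    s3 s t j ≠ algebraMap k K c := by
  have h1 : ∀ (φ : MvPolynomial (Fin 2) k) (x : Fin 2 → k), eval x φ ≠ 0 →
      aeval ![s, t] φ ≠ 0 := fun φ x hx hc =>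
    hx (by rw [algebraicIndependent_iff.1 h φ hc, map_zero])
  intro hc
  fin_cases j
  · exact h1 (X 0 - C c) ![c + 1, 0] (by simp) (by simpa [sub_eq_zero, s3] using hc)
  · exact h1 (X 1 - C c) ![0, c + 1] (by simp) (by simpa [sub_eq_zero, s3] using hc)
  · have h2 : s * t ≠ 0 := by
      have := h1 (X 0 * X 1) ![1, 1] (by simp)
      rwa [map_mul, aeval_X, aeval_X] at this
    have h3 : (s * t)⁻¹ = algebraMap k K c := hc
    refine h1 (C c * (X 0 * X 1) - 1) ![0, 0] (by simp) ?_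
    simp only [map_sub, map_mul, aeval_C, aeval_X, map_one, Matrix.cons_val_zero,
      Matrix.cons_val_one]
    rw [← h3, inv_mul_cancel₀ h2, sub_self]

lemma GB.coord_of {s : Fin 2 → K} (h : AlgebraicIndependent k s)
    (h1 : IntermediateField.adjoin k (Set.range s) = ⊤) : Coord k s := by
  refine ⟨h, fun x => ?_⟩
  obtain ⟨a, b, hx⟩ := (IntermediateField.mem_adjoin_range_iff k s x).1 (h1 ▸ trivial)
  by_cases hb : MvPolynomial.aeval s b = 0
  · exact ⟨0, 1, one_ne_zero, by simp [hx, hb]⟩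
  · exact ⟨a, b, fun hc => hb (by rw [hc, map_zero]), by rw [hx, div_mul_cancel₀ _ hb]⟩

lemma Geo.s_eq_s3 (j : Fin 3) : g.s j = s3 (g.s 0) (g.s 1) j := by
  fin_cases j
  · rfl
  · rfl
  · exact eq_inv_of_mul_eq_one_right g.prod

lemma Geo.s_ne (j : Fin 3) (c : k) : g.s j ≠ algebraMap k K c := by
  rw [g.s_eq_s3]
  exact GB.s3_ne g.indep j c

lemma Geo.σ_ne_zero (j : Fin 3) : g.σ j ≠ 0 := by
  exact inv_ne_zero (sub_ne_zero.2 (by simpa using g.s_ne j 1))

lemma Geo.σ_ne (j : Fin 3) (c : k) : g.σ j ≠ algebraMap k K c := by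
  intro h
  refine g.s_ne j (1 + c⁻¹) ?_
  rw [map_add, map_inv₀, ← h, Geo.σ, inv_inv, map_one, add_sub_cancel]

lemma Geo.y_pow_eq (j : Fin 3) (a : A) :
    g.y j a ^ m = (g.s j - algebraMap k K ((a : kˣ) : k)) * g.σ j := by
  rw [← g.y_pow, Geo.σ, mul_inv_cancel_right₀ (sub_ne_zero.2 (by simpa using g.s_ne j 1))]

lemma Geo.y_pow_eq' (j : Fin 3) (a : A) :
    g.y j a ^ m = 1 + algebraMap k K (1 - ((a : kˣ) : k)) * g.σ j := by
  have h : g.s j - 1 ≠ 0 := sub_ne_zero.2 (by simpa using g.s_ne j 1)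
  rw [g.y_pow_eq, Geo.σ, map_sub, map_one]
  field_simp
  ring

lemma Geo.y_ne_zero (hm : 0 < m) (j : Fin 3) (a : A) : g.y j a ≠ 0 := by
  intro h
  have := g.y_pow_eq j a
  rw [h, zero_pow hm.ne'] at this
  exact mul_ne_zero (sub_ne_zero.2 (g.s_ne j _)) (g.σ_ne_zero j) this.symm

variable [Fintype A]

lemma Geo.mon_ne_zero (hm : 0 < m) (α : Fin 3 × A → Fin m) : g.mon α ≠ 0 := by
  exact Finset.prod_ne_zero_iff.2 fun ja _ => pow_ne_zero _ (g.y_ne_zero hm _ _)

lemma Geo.S_finite : g.S.Finite := by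
  refine (Set.finite_iUnion fun i : Fin 3 => Set.finite_range
    fun a : ∀ j, Fin (gexp (Fintype.card A) i j) → A =>
      g.U i * ∏ j, ∏ l, g.y j (a j l)).subset ?_
  rintro _ ⟨i, a, rfl⟩
  exact Set.mem_iUnion.2 ⟨i, a, rfl⟩

lemma Geo.S_nonempty : g.S.Nonempty := by
  exact ⟨_, 0, fun _ _ => 1, rfl⟩

lemma Geo.zero_notMem_S (hm : 0 < m) : (0 : K) ∉ g.S := by
  rintro ⟨i, a, h⟩
  exact mul_ne_zero (Finset.prod_ne_zero_iff.2 fun _ _ => g.y_ne_zero hm _ _)
    (Finset.prod_ne_zero_iff.2 fun _ _ => Finset.prod_ne_zero_iff.2 fun _ _ =>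
      g.y_ne_zero hm _ _) h.symm

lemma Geo.frac (hm : 0 < m) (c : K) :
    ∃ (j : ℕ), ∃ b ∈ Rg k g.S j, b ≠ 0 ∧ c * b ∈ Rg k g.S j := by
  classical
  have hc : c ∈ IntermediateField.adjoin k (Set.range fun ja : Fin 3 × A => g.y ja.1 ja.2) :=
    g.gen ▸ trivial
  induction hc using IntermediateField.adjoin_induction with
  | mem x hx =>
    obtain ⟨⟨j, a⟩, rfl⟩ := hx
    have h1 : g.U 0 ∈ g.S := ⟨0, fun _ _ => 1, by simp [g.y_one]⟩
    have h2 : g.y j a * g.U 0 ∈ g.S := by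
      refine ⟨0, fun j' l => if j' = j ∧ (l : ℕ) = 0 then a else 1, ?_⟩
      have h0 : 0 < gexp (Fintype.card A) 0 j := by
        unfold gexp
        split_ifs <;> omega
      rw [mul_comm, Finset.prod_eq_single j, Finset.prod_eq_single ⟨0, h0⟩]
      · simp
      · intro l _ hl
        have : (l : ℕ) ≠ 0 := fun h => hl (Fin.ext h)
        simp [this, g.y_one]
      · simp
      · intro j' _ hj
        simp [hj, g.y_one]
      · simp
    refine ⟨1, g.U 0, ?_, fun h => g.zero_notMem_S hm (h ▸ h1), ?_⟩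
    · rw [Rg, pow_one]; exact Submodule.subset_span h1
    · rw [Rg, pow_one]; exact Submodule.subset_span h2
  | algebraMap x => exact ⟨0, 1, by simp [Rg], one_ne_zero, by simp [Rg]⟩
  | add x y _ _ hx hy =>
    obtain ⟨j, b, h1, h2, h3⟩ := hx
    obtain ⟨j', b', h1', h2', h3'⟩ := hy
    refine ⟨j + j', b * b', Rg_mul h1 h1', mul_ne_zero h2 h2', ?_⟩
    convert add_mem (Rg_mul h3 h1') (Rg_mul h1 h3') using 1
    ring
  | inv x _ hx =>
    obtain ⟨j, b, h1, h2, h3⟩ := hx
    by_cases h0 : x = 0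
    · exact ⟨j, b, h1, h2, by simp [h0]⟩
    · exact ⟨j, x * b, h3, mul_ne_zero h0 h2, by rwa [inv_mul_cancel_left₀ h0]⟩
  | mul x y _ _ hx hy =>
    obtain ⟨j, b, h1, h2, h3⟩ := hx
    obtain ⟨j', b', h1', h2', h3'⟩ := hy
    refine ⟨j + j', b * b', Rg_mul h1 h1', mul_ne_zero h2 h2', ?_⟩
    convert Rg_mul h3 h3' using 1
    ring

omit [Fintype A] in
lemma GB.top_of (gX : Geo k K A 1) {E : IntermediateField k K} (h0 : gX.s 0 ∈ E)
    (h1 : gX.s 1 ∈ E) : E = ⊤ := by
  have h : ∀ j, gX.s j ∈ E := fun j => by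
    rw [gX.s_eq_s3]
    fin_cases j
    · exact h0
    · exact h1
    · exact inv_mem (mul_mem h0 h1)
  rw [eq_top_iff, ← gX.gen, IntermediateField.adjoin_le_iff]
  rintro _ ⟨⟨j, a⟩, rfl⟩
  have := gX.y_pow_eq j a
  rw [pow_one] at this
  change gX.y j a ∈ E
  rw [this]
  exact mul_mem (sub_mem (h j) (E.algebraMap_mem _)) (inv_mem (sub_mem (h j) (one_mem _)))

lemma Geo.coord_s (gX : Geo k K A 1) : Coord k ![gX.s 0, gX.s 1] := by
  exact GB.coord_of gX.indep (GB.top_of gX (IntermediateField.subset_adjoin _ _ ⟨0, rfl⟩)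
    (IntermediateField.subset_adjoin _ _ ⟨1, rfl⟩))

lemma Geo.coord_σ (gX : Geo k K A 1) : Coord k ![gX.σ 0, gX.σ 1] := by
  have h : ∀ (E : IntermediateField k K) j, gX.σ j ∈ E → gX.s j ∈ E := fun E j hj => by
    have := add_mem (inv_mem hj) (one_mem E)
    rwa [Geo.σ, inv_inv, sub_add_cancel] at this
  have h1 : IntermediateField.adjoin k (Set.range ![gX.σ 0, gX.σ 1]) = ⊤ :=
    GB.top_of gX (h _ _ (IntermediateField.subset_adjoin _ _ ⟨0, rfl⟩))
      (h _ _ (IntermediateField.subset_adjoin _ _ ⟨1, rfl⟩))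
  have h2 : Algebra.IsAlgebraic (IntermediateField.adjoin k (Set.range ![gX.σ 0, gX.σ 1])) K := by
    rw [h1, Algebra.isAlgebraic_iff_isIntegral]
    exact Algebra.isIntegral_of_surjective IntermediateField.topEquiv.surjective
  have h3 := IntermediateField.isAlgebraic_adjoin_iff_top.1 h2
  refine GB.coord_of (Algebra.IsAlgebraic.isTranscendenceBasis_of_le_trdeg_of_finite k
    ![gX.σ 0, gX.σ 1] ?_).1 h1
  rw [gX.coord_s.trdeg_eq, Cardinal.mk_fin]
  rfl

variable {KX : Type} [Field KX] [Algebra k KX] [Algebra KX K]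

/-- the Kummer cover lies over the rational surface -/
structure Tow (gX : Geo k KX A 1) (g : Geo k K A m) : Prop where
  two_le : 2 ≤ Fintype.card A
  m_pos : 0 < m
  s_eq : ∀ j, algebraMap KX K (gX.s j) = g.s j

variable {g} {gX : Geo k KX A 1}

lemma Tow.self (h : Tow gX g) : Tow gX gX := ⟨h.two_le, one_pos, fun _ => rfl⟩

lemma Tow.σ_eq (h : Tow gX g) (j : Fin 3) : algebraMap KX K (gX.σ j) = g.σ j := by
  rw [Geo.σ, Geo.σ, map_inv₀, map_sub, map_one, h.s_eq]

variable [IsScalarTower k KX K]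

lemma Tow.y_eq (h : Tow gX g) (j : Fin 3) (a : A) :
    algebraMap KX K (gX.y j a) = g.y j a ^ m := by
  rw [← pow_one (gX.y j a), gX.y_pow_eq, g.y_pow_eq, map_mul, map_sub, h.s_eq, h.σ_eq,
    ← IsScalarTower.algebraMap_apply]

lemma Tow.S_eq (h : Tow gX g) : (· ^ m) '' g.S = algebraMap KX K '' gX.S := by
  have h1 : ∀ (i : Fin 3) (a : ∀ j, Fin (gexp (Fintype.card A) i j) → A),
      (g.U i * ∏ j, ∏ l, g.y j (a j l)) ^ m =
        algebraMap KX K (gX.U i * ∏ j, ∏ l, gX.y j (a j l)) := fun i a => by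
    simp only [Geo.U, map_mul, map_prod, h.y_eq, mul_pow, Finset.prod_pow]
  ext x
  constructor
  · rintro ⟨_, ⟨i, a, rfl⟩, rfl⟩
    exact ⟨_, ⟨i, a, rfl⟩, (h1 i a).symm⟩
  · rintro ⟨_, ⟨i, a, rfl⟩, rfl⟩
    exact ⟨_, ⟨i, a, rfl⟩, h1 i a⟩

lemma GB.isIntegral_y (h : Tow gX g) :
    ∀ x ∈ Set.range fun ja : Fin 3 × A => g.y ja.1 ja.2, IsIntegral KX x := by
  rintro _ ⟨⟨j, a⟩, rfl⟩
  refine IsIntegral.of_pow h.m_pos ?_
  rw [← h.y_eq]
  exact isIntegral_algebraMap

omit [Fintype A] in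
lemma GB.adjoin_top (g : Geo k K A m) :
    IntermediateField.adjoin KX (Set.range fun ja : Fin 3 × A => g.y ja.1 ja.2) = ⊤ := by
  refine eq_top_iff.2 fun x _ => ?_
  have h1 : IntermediateField.adjoin k (Set.range fun ja : Fin 3 × A => g.y ja.1 ja.2) ≤
      (IntermediateField.adjoin KX
        (Set.range fun ja : Fin 3 × A => g.y ja.1 ja.2)).restrictScalars k :=
    IntermediateField.adjoin_le_iff.2 (IntermediateField.subset_adjoin KX _)
  exact h1 (g.gen ▸ trivial)

lemma Tow.adjoin_eq_top (h : Tow gX g) :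
    Algebra.adjoin KX (Set.range fun ja : Fin 3 × A => g.y ja.1 ja.2) = ⊤ := by
  exact (IntermediateField.adjoin_eq_top_iff_of_isAlgebraic
    fun x hx => (GB.isIntegral_y h x hx).isAlgebraic).1 (GB.adjoin_top g)

lemma Tow.finiteDimensional (h : Tow gX g) : FiniteDimensional KX K := by
  have h1 := IntermediateField.finiteDimensional_adjoin (GB.isIntegral_y h)
  rw [GB.adjoin_top g] at h1
  exact Module.Finite.equiv IntermediateField.topEquiv.toLinearEquiv

lemma Tow.normData {F : Type} [Field F] [Algebra k F] [Algebra F KX] [Algebra F K]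
    [IsScalarTower F KX K] {P : P2 k F} {x : KX} (h : Tow gX g) (hN : NormData P gX.S 1 x) :
    NormData P g.S m (algebraMap KX K x) :=
  hN.lift h.m_pos g.S_finite (g.zero_notMem_S h.m_pos) h.S_eq (g.frac h.m_pos)

open MvPolynomial in
lemma GB.exists_X (k : Type) [Field k] (A : Subgroup kˣ) [Fintype A] (hA : 2 ≤ Fintype.card A) :
    Nonempty (Geo k (FractionRing (MvPolynomial (Fin 2) k)) A 1) := by
  set KX := FractionRing (MvPolynomial (Fin 2) k)
  let s : KX := algebraMap (MvPolynomial (Fin 2) k) KX (X 0)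
  let t : KX := algebraMap (MvPolynomial (Fin 2) k) KX (X 1)
  have e : ∀ φ, aeval ![s, t] φ = algebraMap (MvPolynomial (Fin 2) k) KX φ := fun φ => by
    have : aeval ![s, t] = IsScalarTower.toAlgHom k (MvPolynomial (Fin 2) k) KX := by
      ext i
      fin_cases i <;> simp [s, t]
    rw [this]
    rfl
  have hi : AlgebraicIndependent k ![s, t] := algebraicIndependent_iff.2 fun φ h =>
    (IsFractionRing.injective (MvPolynomial (Fin 2) k) KX) (by rw [← e, h, map_zero])
  have h1 : ∀ j, s3 s t j - 1 ≠ 0 := fun j => sub_ne_zero.2 (by simpa using GB.s3_ne hi j 1)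
  have hs : s ≠ 0 := by simpa [s3] using GB.s3_ne hi 0 0
  have ht : t ≠ 0 := by simpa [s3] using GB.s3_ne hi 1 0
  refine ⟨⟨s3 s t, fun j a => (s3 s t j - algebraMap k KX ((a : kˣ) : k)) / (s3 s t j - 1),
    mul_inv_cancel₀ (mul_ne_zero hs ht), hi, fun j => by simpa using div_self (h1 j),
    fun j a => by rw [pow_one, div_mul_cancel₀ _ (h1 j)], eq_top_iff.2 fun x _ => ?_⟩⟩
  generalize hE : IntermediateField.adjoin k (Set.range fun ja : Fin 3 × A =>
    (s3 s t ja.1 - algebraMap k KX ((ja.2 : kˣ) : k)) / (s3 s t ja.1 - 1)) = E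
  obtain ⟨a, ha⟩ := Fintype.exists_ne_of_one_lt_card hA (1 : A)
  have ha' : (1 : KX) - algebraMap k KX ((a : kˣ) : k) ≠ 0 := by
    rw [← map_one (algebraMap k KX), ← map_sub, map_ne_zero, sub_ne_zero]
    exact fun h => ha (Subtype.ext (Units.ext h.symm))
  have h2 : ∀ j, s3 s t j ∈ E := fun j => by
    have h3 : (s3 s t j - algebraMap k KX ((a : kˣ) : k)) / (s3 s t j - 1) ∈ E :=
      hE ▸ IntermediateField.subset_adjoin _ _ ⟨(j, a), rfl⟩
    have h4 := add_mem (div_mem (sub_mem (one_mem E) (E.algebraMap_mem ((a : kˣ) : k)))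
      (sub_mem h3 (one_mem E))) (one_mem E)
    convert h4 using 1
    rw [div_sub_one (h1 j), sub_sub_sub_cancel_left, div_div_cancel₀ ha', sub_add_cancel]
  have h3 : IntermediateField.adjoin k (Set.range ![s, t]) ≤ E := by
    rw [IntermediateField.adjoin_le_iff]
    rintro _ ⟨i, rfl⟩
    fin_cases i
    · exact h2 0
    · exact h2 1
  obtain ⟨p, q, -, rfl⟩ := IsFractionRing.div_surjective (A := MvPolynomial (Fin 2) k) x
  exact h3 ((IntermediateField.mem_adjoin_range_iff _ _ _).2 ⟨p, q, by rw [e, e]⟩)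

theorem exists_tow (k : Type) [Field k] (A : Subgroup kˣ) [Fintype A] (hA : 2 ≤ Fintype.card A)
    {m : ℕ} (hm : 0 < m) :
    ∃ (KX K : Type) (_ : Field KX) (_ : Field K) (_ : Algebra k KX) (_ : Algebra k K)
      (_ : Algebra KX K) (_ : IsScalarTower k KX K) (gX : Geo k KX A 1) (g : Geo k K A m),
      Tow gX g := by
  classical
  obtain ⟨gX⟩ := GB.exists_X k A hA
  set KX := FractionRing (MvPolynomial (Fin 2) k)
  have h : ∀ (j : Fin 3) (a : A), ∃ z : AlgebraicClosure KX,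
      z ^ m = algebraMap KX _ (gX.y j a) ∧ (a = 1 → z = 1) := fun j a => by
    by_cases ha : a = 1
    · exact ⟨1, by rw [ha, gX.y_one, one_pow, map_one], fun _ => rfl⟩
    · obtain ⟨z, hz⟩ := IsAlgClosed.exists_pow_nat_eq
        (algebraMap KX (AlgebraicClosure KX) (gX.y j a)) hm
      exact ⟨z, hz, fun h => (ha h).elim⟩
  choose ρ h1 h2 using h
  let K := IntermediateField.adjoin KX (Set.range fun ja : Fin 3 × A => ρ ja.1 ja.2)
  let y : Fin 3 → A → K := fun j a => ⟨ρ j a, IntermediateField.subset_adjoin _ _ ⟨(j, a), rfl⟩⟩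
  have h3 : ∀ j a, y j a ^ m = algebraMap KX K (gX.y j a) := fun j a => Subtype.ext (h1 j a)
  refine ⟨KX, K, inferInstance, inferInstance, inferInstance, inferInstance, inferInstance,
    inferInstance, gX, ⟨fun j => algebraMap KX K (gX.s j), y, ?_, ?_,
      fun j => Subtype.ext (h2 j 1 rfl), fun j a => ?_, ?_⟩, hA, hm, fun _ => rfl⟩
  · rw [← map_mul, ← map_mul, gX.prod, map_one]
  · have := gX.indep.map' (f := IsScalarTower.toAlgHom k KX K) (algebraMap KX K).injective
    convert this using 1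
    ext i : 1
    fin_cases i <;> rfl
  · have := congrArg (algebraMap KX K) (gX.y_pow j a)
    rwa [pow_one, map_mul, map_sub, map_sub, map_one, ← h3,
      ← IsScalarTower.algebraMap_apply] at this
  · generalize hE : IntermediateField.adjoin k (Set.range fun ja : Fin 3 × A => y ja.1 ja.2) = E
    have h4 : ∀ j a, y j a ∈ E := fun j a =>
      hE ▸ IntermediateField.subset_adjoin _ _ ⟨(j, a), rfl⟩
    have h5 : ∀ x : KX, algebraMap KX K x ∈ E := fun x => by
      have : IntermediateField.adjoin k (Set.range fun ja : Fin 3 × A => gX.y ja.1 ja.2) ≤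
          E.comap (IsScalarTower.toAlgHom k KX K) := by
        rw [IntermediateField.adjoin_le_iff]
        rintro _ ⟨⟨j, a⟩, rfl⟩
        change algebraMap KX K (gX.y j a) ∈ E
        rw [← h3]
        exact pow_mem (h4 j a) m
      exact this (gX.gen ▸ trivial)
    refine eq_top_iff.2 fun x _ => ?_
    obtain ⟨x, hx⟩ := x
    induction hx using IntermediateField.adjoin_induction with
    | mem x hx =>
      obtain ⟨⟨j, a⟩, rfl⟩ := hx
      exact h4 j a
    | algebraMap x => exact h5 x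
    | add x y _ _ hx hy => exact add_mem (hx trivial) (hy trivial)
    | inv x _ hx => exact inv_mem (hx trivial)
    | mul x y _ _ hx hy => exact mul_mem (hx trivial) (hy trivial)

end Vale.Agent.P190
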