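import Vale.Agent.P190.HN

/-! Pencils on a surface: positivity, Riemann inequality, bounds for sections. -/

open Module

noncomputable section

namespace Vale.Agent.P190

variable {k : Type} [Field k] {U K : Type} [Field K] [Algebra k K] {O : Fam U K}
variable {V V' V'' : Type} [AddCommGroup V] [Module K V] [AddCommGroup V'] [Module K V']
  [AddCommGroup V''] [Module K V'']

lemma Pencil.phi (hO : IsFam O) (σ : K) (u : U) :
    (dv (Phi O σ) u)⁻¹ ∈ O u ∧ (dv (Phi O σ) u)⁻¹ * σ ∈ O u ∧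
      ∃ a ∈ O u, ∃ b ∈ O u, a + b * σ = dv (Phi O σ) u := by
  have hS : ({1, σ} : Set K).Finite := Set.toFinite _
  have h0 : ∃ x ∈ ({1, σ} : Set K), x ≠ 0 := ⟨1, by simp, one_ne_zero⟩
  refine ⟨?_, mem_line_ofSet hO hS (by simp) h0 u, ?_⟩
  · have := mem_line_ofSet hO hS (x := 1) (by simp) h0 u
    rw [mem_line, mul_one] at this
    exact this
  · have h1 := Lat2.dv_mem_line (Phi O σ) u
    rw [Phi, line_ofSet hO hS h0, mem_spanO_iff, Submodule.mem_span_pair] at h1
    obtain ⟨a, b, h⟩ := h1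
    refine ⟨a, a.2, b, b.2, ?_⟩
    rw [Phi, ← h, Subring.smul_def, Subring.smul_def, smul_eq_mul, smul_eq_mul, mul_one]

lemma Pencil.zer (hO : IsFam O) {σ : K} {c : k} (hσ : σ ≠ algebraMap k K c) (u : U) :
    ∃ ε ∈ O u, ε * dv (Zer k O σ c) u = (σ - algebraMap k K c) * (dv (Phi O σ) u)⁻¹ := by
  obtain ⟨-, h3⟩ := ofSet_singleton hO (sub_ne_zero.2 hσ) u
  refine ⟨_, h3, ?_⟩
  rw [Zer, dv_mul, dv_inv, ← mul_assoc, div_mul_cancel₀ _ (dv_ne_zero _ u)]

lemma integral_Zer (hO : IsFam O) (hk : HasK k O) {σ : K} {c : k} (hσ : σ ≠ algebraMap k K c) :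
    Integral (Zer k O σ c) := by
  intro u
  obtain ⟨h1, h2, -⟩ := Pencil.phi hO σ u
  obtain ⟨h3, -⟩ := ofSet_singleton hO (sub_ne_zero.2 hσ) u
  have h4 := (O u).mul_mem h3 ((O u).sub_mem h2 ((O u).mul_mem h1 (hk u c)))
  rw [Zer, dv_mul, dv_inv]
  convert h4 using 1
  have := sub_ne_zero.2 hσ
  rw [← mul_sub]
  field_simp

lemma cl_Zer (hO : IsFam O) {σ : K} {c : k} (hσ : σ ≠ algebraMap k K c) :
    cl (Zer k O σ c) = - cl (Phi O σ) := by
  rw [Zer, cl_mul, cl_ofSet_singleton hO (sub_ne_zero.2 hσ), cl_inv, zero_add]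

lemma integral_Phi_inv (hO : IsFam O) (σ : K) : Integral (Phi O σ)⁻¹ := by
  intro u
  rw [dv_inv]
  exact (Pencil.phi hO σ u).1

lemma coprime_Zer (hO : IsFam O) (hk : HasK k O) {σ : K} {c c' : k} (hc : c ≠ c')
    (hσ : σ ≠ algebraMap k K c) (hσ' : σ ≠ algebraMap k K c') :
    Coprime (Zer k O σ c) (Zer k O σ c') := by
  intro u
  obtain ⟨-, -, a, ha, b, hb, hab⟩ := Pencil.phi hO σ u
  obtain ⟨ε, hε, h1⟩ := Pencil.zer hO hσ u
  obtain ⟨ε', hε', h2⟩ := Pencil.zer hO hσ' u
  have hd : algebraMap k K (c' - c)⁻¹ * (algebraMap k K c' - algebraMap k K c) = 1 := by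
    rw [← map_sub, ← map_mul, inv_mul_cancel₀ (sub_ne_zero.2 hc.symm), map_one]
  have h3 : (a + b * algebraMap k K c) * algebraMap k K (c' - c)⁻¹ ∈ O u :=
    (O u).mul_mem ((O u).add_mem ha ((O u).mul_mem hb (hk u c))) (hk u _)
  refine ⟨(b + (a + b * algebraMap k K c) * algebraMap k K (c' - c)⁻¹) * ε,
    (O u).mul_mem ((O u).add_mem hb h3) hε,
    -((a + b * algebraMap k K c) * algebraMap k K (c' - c)⁻¹) * ε',
    (O u).mul_mem ((O u).neg_mem h3) hε', ?_⟩
  have h4 : (a + b * σ) * (dv (Phi O σ) u)⁻¹ = 1 := by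
    rw [hab, mul_inv_cancel₀ (dv_ne_zero _ u)]
  rw [mul_assoc, mul_assoc _ ε', h1, h2]
  linear_combination h4 + (a + b * algebraMap k K c) * (dv (Phi O σ) u)⁻¹ * hd

lemma Pencil.coprime_Phi (hO : IsFam O) (hk : HasK k O) {σ : K} {c : k}
    (hσ : σ ≠ algebraMap k K c) (u : U) :
    ∃ a ∈ O u, ∃ b ∈ O u, a * dv (Zer k O σ c) u + b * (dv (Phi O σ) u)⁻¹ = 1 := by
  obtain ⟨-, -, a, ha, b, hb, hab⟩ := Pencil.phi hO σ u
  obtain ⟨ε, hε, h1⟩ := Pencil.zer hO hσ u
  refine ⟨b * ε, (O u).mul_mem hb hε, a + b * algebraMap k K c,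
    (O u).add_mem ha ((O u).mul_mem hb (hk u c)), ?_⟩
  have h4 : (a + b * σ) * (dv (Phi O σ) u)⁻¹ = 1 := by
    rw [hab, mul_inv_cancel₀ (dv_ne_zero _ u)]
  rw [mul_assoc, h1]
  linear_combination h4

/-- a section which is divisible by `σ - c` away from the poles vanishes on the fibre -/
lemma Pencil.mem_Zer (hO : IsFam O) (hk : HasK k O) {σ : K} {c : k}
    (hσ : σ ≠ algebraMap k K c) {L : Sys U V} (hL : IsBun O L) {u : U} {M : ℕ} {w : V}
    (hw : w ∈ twist (Phi O σ ^ M) L u) (hy : (σ - algebraMap k K c) • w ∈ L u) :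
    (σ - algebraMap k K c) • w ∈ twist (Zer k O σ c) L u := by
  obtain ⟨a, ha, b, hb, hab⟩ := Pencil.coprime_Phi hO hk hσ u
  obtain ⟨ε, hε, h1⟩ := Pencil.zer hO hσ u
  obtain ⟨hφ, -⟩ := Pencil.phi hO σ u
  have hz := dv_ne_zero (Zer k O σ c) u
  have hp := dv_ne_zero (Phi O σ) u
  set y := (σ - algebraMap k K c) • w with hydef
  set ζ := dv (Zer k O σ c) u
  set φ := dv (Phi O σ) u
  have key : ∀ m : ℕ, (ζ⁻¹ * φ⁻¹ ^ m) • y ∈ L u → ζ⁻¹ • y ∈ L u := by
    intro m
    induction m with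
    | zero => simp
    | succ m ih =>
      intro h
      apply ih
      have h2 := (L u).add_mem (hL.smul_mem ((O u).mul_mem ha ((O u).pow_mem hφ m)) hy)
        (hL.smul_mem hb h)
      rw [smul_smul b, ← add_smul] at h2
      convert h2 using 2
      have : ζ * ζ⁻¹ = 1 := mul_inv_cancel₀ hz
      linear_combination (-(ζ⁻¹ * φ⁻¹ ^ m)) * hab + a * φ⁻¹ ^ m * this
  refine key (M + 1) ?_
  have h3 := hL.smul_mem hε ((mem_twist _ _ _ _).1 hw)
  rw [dv_pow, smul_smul] at h3
  rw [hydef, smul_smul]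
  convert h3 using 2
  have : ζ * ζ⁻¹ = 1 := mul_inv_cancel₀ hz
  rw [← inv_pow]
  linear_combination (-(ζ⁻¹ * φ⁻¹ ^ M)) * h1 + ε * φ⁻¹ ^ M * this

variable {a ω : Div O} {ip : Pic O →+ Pic O →+ ℤ}

theorem RR.isWt_Phi [Infinite k] (h : RR k O a ω ip) {σ : K} (hσ : ∀ c : k, σ ≠ algebraMap k K c) :
    IsWt (wtOf ip (cl (Phi O σ))) := by
  have hO := h.isSL.isFam
  have hfin : ∀ u, {c₀ : k | (dv (Zer k O σ c₀) u)⁻¹ ∉ O u}.Finite := fun u => by
    refine ((h.isSL.semiloc u).biUnion (t := fun I =>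
      {c₀ : k | (⟨_, integral_Zer hO h.hasK (hσ c₀) u⟩ : O u) ∈ I}) fun I hI => ?_).subset ?_
    · refine Set.Subsingleton.finite fun c₀ h₀ c₁ h₁ => ?_
      by_contra hne
      obtain ⟨a, ha, b, hb, hab⟩ := coprime_Zer hO h.hasK hne (hσ c₀) (hσ c₁) u
      refine hI.ne_top ((Ideal.eq_top_iff_one I).2 ?_)
      have := I.add_mem (I.mul_mem_left ⟨a, ha⟩ h₀) (I.mul_mem_left ⟨b, hb⟩ h₁)
      convert this using 1
      exact Subtype.ext hab.symm
    · intro c₀ h₀
      have hnu : (⟨_, integral_Zer hO h.hasK (hσ c₀) u⟩ : O u) ∈ nonunits (O u) := by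
        intro hu
        obtain ⟨y, hy⟩ := hu.exists_right_inv
        apply h₀
        rw [inv_eq_of_mul_eq_one_right (congrArg Subtype.val hy)]
        exact y.2
      obtain ⟨I, hI, hm⟩ := exists_max_ideal_of_mem_nonunits hnu
      exact Set.mem_biUnion hI hm
  intro c hc
  obtain ⟨c₀, hc₀⟩ := (Set.Finite.biUnion c.2 fun u _ => hfin u).exists_notMem
  have hcop : Coprime c (Zer k O σ c₀) := fun u => by
    by_cases hu : IsU (O u) (c.1 u)
    · refine ⟨_, hu.2, 0, (O u).zero_mem, ?_⟩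
      simp [dv]
    · have : (dv (Zer k O σ c₀) u)⁻¹ ∈ O u := by
        by_contra h1
        exact hc₀ (Set.mem_biUnion hu h1)
      refine ⟨0, (O u).zero_mem, _, this, ?_⟩
      rw [zero_mul, zero_add, inv_mul_cancel₀ (dv_ne_zero _ u)]
  have := h.ip_coprime c _ hc (integral_Zer hO h.hasK (hσ c₀)) hcop
  rw [cl_Zer hO (hσ c₀), map_neg] at this
  rw [wtOf_apply]
  exact_mod_cast neg_nonneg.1 this

/-- twisting down by a non-trivial effective divisor kills all sections -/
theorem RR.exists_h0_eq_zero (h : RR k O a ω ip) [Module k V] [IsScalarTower k K V]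
    {L : Sys U V} (hL : IsBun O L) {c : Div O} (hc : Integral c)
    (hne : ∃ u, ¬ IsU (O u) (c.1 u)) : ∃ n₀ : ℕ, ∀ n ≥ n₀, h0 k (twist (c ^ n) L) = 0 := by
  have hanti : ∀ m n : ℕ, m ≤ n → H0 k (twist (c ^ n) L) ≤ H0 k (twist (c ^ m) L) := by
    intro m n hmn
    refine H0_mono (hL.twist_le_twist ?_)
    obtain ⟨l, rfl⟩ := Nat.exists_eq_add_of_le hmn
    rw [pow_add, mul_inv_cancel_comm]
    exact hc.pow l
  obtain ⟨n₀, hn₀⟩ := exists_minimalFor_of_wellFoundedLT (fun _ : ℕ => True)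
    (fun n => h0 k (twist (c ^ n) L)) ⟨0, trivial⟩
  have hbot : H0 k (twist (c ^ n₀) L) = ⊥ := by
    obtain ⟨u, hu⟩ := hne
    refine (Submodule.eq_bot_iff _).2 fun x hx => h.isSL.eq_zero_of_forall_twist hL hc hu fun n => ?_
    refine ((hL.twist _).mem_H0 h.hasK x).1 ?_ u
    rcases le_total n n₀ with hn | hn
    · exact hanti _ _ hn hx
    · have := h.fin_H0 (hL.twist (c ^ n₀))
      have h1 := hanti _ _ hn
      have h2 := Submodule.eq_of_le_of_finrank_le h1 (hn₀.2 trivial (Submodule.finrank_mono h1))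
      rw [h2]; exact hx
  refine ⟨n₀, fun n hn => ?_⟩
  have := hanti _ _ hn
  rw [hbot, le_bot_iff] at this
  rw [h0, this, finrank_bot]

lemma Pencil.nonunit {c : Div O} (hc : cl c ≠ 0) : ∃ u, ¬ IsU (O u) (c.1 u) := by
  by_contra hn
  push Not at hn
  exact hc ((cl_eq_zero_iff c).2 ⟨1, fun u => by simpa using hn u⟩)

theorem RR.RI_Phi [Infinite k] (h : RR k O a ω ip) {σ : K} (hσ : ∀ c : k, σ ≠ algebraMap k K c)
    (h0 : ip (cl (Phi O σ)) (cl (Phi O σ)) = 0) {T : Div O}
    (hT : 0 < ip (cl T) (cl (Phi O σ))) : RI O (wtOf ip (cl (Phi O σ))) := by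
  have hO := h.isSL.isFam
  have hd := h.isWt_Phi hσ
  set κ : ℤ := chi k a (line (Phi O σ)) - chi k a (triv O) with hκ
  set t : ℤ := ip (cl T) (cl (Phi O σ)) with ht
  refine ⟨(t : ℝ) - κ, fun V _ _ _ L hL => ?_⟩
  let : Module k V := Module.compHom V (algebraMap k K)
  have : IsScalarTower k K V := .of_algebraMap_smul fun _ _ => rfl
  have := hL.finiteDimensional
  have hr : (0 : ℤ) < finrank K V := by exact_mod_cast finrank_pos
  set r : ℤ := ((finrank K V : ℕ) : ℤ) with hrdef
  set D : ℤ := ip (c1 O L) (cl (Phi O σ)) with hD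
  set e : ℤ := (-(D + r * κ)) / (r * t) + 1 with he
  have hrt : 0 < r * t := mul_pos hr hT
  have he1 : 0 < D + r * e * t + r * κ := by
    have := Int.lt_ediv_add_one_mul_self (-(D + r * κ)) hrt
    rw [← he] at this
    linarith
  have he2 : D + r * (e - 1) * t + r * κ ≤ 0 := by
    have := Int.ediv_mul_le (-(D + r * κ)) hrt.ne'
    have h1 : e - 1 = (-(D + r * κ)) / (r * t) := by rw [he]; ring
    rw [← h1] at this
    linarith
  have hM := hL.twist (T ^ e)
  set M := twist (T ^ e) L with hMdef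
  have hc1 : ∀ N : ℕ, ip (c1 O (twist (Phi O σ ^ N) M)) (cl (Phi O σ)) = D + r * e * t := by
    intro N
    rw [c1_twist hO hM, hMdef, c1_twist hO hL, cl_pow, cl_zpow]
    simp only [map_add, map_nsmul, map_zsmul, AddMonoidHom.add_apply, AddMonoidHom.nsmul_apply,
      AddMonoidHom.zsmul_apply, h0, ← hD, ← ht]
    simp only [nsmul_eq_mul, zsmul_eq_mul, Int.cast_id, ← hrdef]
    ring
  have hchi : ∀ N : ℕ, chi k a M + N ≤ chi k a (twist (Phi O σ ^ N) M) := by
    intro N
    induction N with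
    | zero => simp [twist_one]
    | succ N ih =>
      rw [pow_succ', twist_mul, h.chi_twist (hM.twist _), hc1, ← hκ, ← hrdef]
      push_cast
      linarith
  obtain ⟨n₀, hn₀⟩ := h.exists_h0_eq_zero (hM.dual.twist ω) (integral_Phi_inv hO σ)
    (Pencil.nonunit fun h1 => by
      rw [cl_inv, neg_eq_zero] at h1
      rw [ht, h1, map_zero] at hT
      exact hT.false)
  set N : ℕ := n₀ + (chi k a M).natAbs + 1 with hN
  have h1 := h.chi_le (hM.twist (Phi O σ ^ N))
  have h2 := hn₀ N (by omega)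
  rw [dual_twist, ← twist_mul ω, mul_comm ω, twist_mul, ← inv_pow, h2] at h1
  have h3 : 0 < P190.h0 k (twist (Phi O σ ^ N) M) := by
    have := hchi N
    omega
  obtain ⟨x, hx, hx0⟩ := Submodule.exists_mem_ne_zero_of_ne_bot (p := H0 k (twist (Phi O σ ^ N) M))
    fun hb => by rw [P190.h0, hb, finrank_bot] at h3; exact h3.false
  refine ⟨x, hx0, ?_⟩
  have h4 := sdeg_nonneg_of_sections hO hd (hM.twist (Phi O σ ^ N)) (S := {x})
    (by rintro _ rfl; exact ((hM.twist _).mem_H0 h.hasK _).1 hx)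
  rw [sdeg_twist hO hM, hMdef, sdeg_twist hO hL, finrank_span_singleton hx0, cl_pow, cl_zpow,
    map_nsmul, map_zsmul, wtOf_apply, wtOf_apply, h0, ← ht] at h4
  rw [wtOf_apply, ← hD]
  have hr' : (0 : ℝ) < finrank K V := by exact_mod_cast finrank_pos
  have h5 : (D : ℝ) / finrank K V ≤ -((e - 1) * t + κ) := by
    rw [div_le_iff₀ hr']
    have : ((D + r * (e - 1) * t + r * κ : ℤ) : ℝ) ≤ 0 := by exact_mod_cast he2
    rw [hrdef] at this
    push_cast at this
    linarith
  simp only [Nat.cast_one, one_mul, Int.cast_zero, smul_zero, add_zero, zsmul_eq_mul] at h4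
  linarith

theorem psi_mono (σ : K) {L L' : Sys U V} (h : L ≤ L') : psi k O σ L ≤ psi k O σ L' :=
  Submodule.rank_mono (Submodule.span_mono fun _ ⟨N, hx⟩ =>
    ⟨N, fun u => twist_mono _ h u (hx u)⟩)

theorem psi_pull_le (σ : K) (L : Sys U V) (f : V' →ₗ[K] V) (hf : Function.Injective f) :
    psi k O σ (pull f L) ≤ psi k O σ L := by
  rw [psi, ← rank_map_eq (f := f.restrictScalars (Algebra.adjoin k {σ})) hf]
  refine Submodule.rank_mono ?_
  rw [Hp, Submodule.map_span]
  refine Submodule.span_mono ?_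
  rintro _ ⟨x, ⟨N, hx⟩, rfl⟩
  refine ⟨N, fun u => ?_⟩
  have := hx u
  rw [← pull_twist] at this
  exact this

theorem psi_push_equiv (σ : K) (L : Sys U V) (e : V ≃ₗ[K] V') :
    psi k O σ (push e.toLinearMap L) = psi k O σ L := by
  refine le_antisymm ?_ ?_
  · rw [push_equiv_eq_pull]
    exact psi_pull_le σ L _ e.symm.injective
  · refine le_trans (psi_mono σ fun u x hx => ?_)
      (psi_pull_le σ (push e.toLinearMap L) e.toLinearMap e.injective)
    exact ⟨x, hx, rfl⟩

lemma Pencil.twist_pow_le {c : Div O} (hc : Integral c⁻¹) {L : Sys U V} (hL : IsBun O L)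
    {m n : ℕ} (hmn : m ≤ n) : twist (c ^ m) L ≤ twist (c ^ n) L := by
  refine hL.twist_le_twist ?_
  obtain ⟨l, rfl⟩ := Nat.exists_eq_add_of_le hmn
  rw [pow_add, mul_inv, mul_inv_cancel_left, ← inv_pow]
  exact hc.pow l

/-- sections with poles along `c` -/
def Pencil.Un {c : Div O} (hc : Integral c⁻¹) {L : Sys U V} (hL : IsBun O L) : AddSubgroup V where
  carrier := {x | ∃ N : ℕ, ∀ u, x ∈ twist (c ^ N) L u}
  zero_mem' := ⟨0, fun _ => zero_mem _⟩
  add_mem' := by
    rintro x y ⟨N, hx⟩ ⟨N', hy⟩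
    exact ⟨N + N', fun u => add_mem (Pencil.twist_pow_le hc hL (Nat.le_add_right _ _) u (hx u))
      (Pencil.twist_pow_le hc hL (Nat.le_add_left _ _) u (hy u))⟩
  neg_mem' := by
    rintro x ⟨N, hx⟩
    exact ⟨N, fun u => neg_mem (hx u)⟩

lemma Pencil.Un_smul {c : Div O} (hc : Integral c⁻¹) {L : Sys U V} (hL : IsBun O L) {r : K}
    (hr : r ∈ Pencil.Un hc isBun_triv) {x : V} (hx : x ∈ Pencil.Un hc hL) :
    r • x ∈ Pencil.Un hc hL := by
  obtain ⟨m, hr⟩ := hr
  obtain ⟨N, hx⟩ := hx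
  exact ⟨m + N, fun u => by rw [pow_add]; exact hL.smul_mem_twist (hr u) (hx u)⟩

lemma Pencil.Un_const (hk : HasK k O) {c : Div O} (hc : Integral c⁻¹) (r : k) :
    algebraMap k K r ∈ Pencil.Un hc (isBun_triv (O := O)) :=
  ⟨0, fun u => by rw [pow_zero, twist_one]; exact hk u r⟩

lemma Pencil.Un_aeval {c : Div O} (hc : Integral c⁻¹) {B : Type} [CommRing B] [Algebra B K]
    (hB : ∀ b : B, algebraMap B K b ∈ Pencil.Un hc (isBun_triv (O := O))) {σ : K}
    (hσ : σ ∈ Pencil.Un hc (isBun_triv (O := O))) (q : Polynomial B) :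
    Polynomial.aeval σ q ∈ Pencil.Un hc (isBun_triv (O := O)) := by
  induction q using Polynomial.induction_on with
  | C b => rw [Polynomial.aeval_C]; exact hB b
  | add p q hp hq => rw [map_add]; exact add_mem hp hq
  | monomial n b ih =>
    rw [pow_succ, ← mul_assoc, map_mul, Polynomial.aeval_X, mul_comm]
    exact Pencil.Un_smul hc isBun_triv hσ ih

lemma Pencil.Un_adjoin (hk : HasK k O) {c : Div O} (hc : Integral c⁻¹) {σ : K}
    (hσ : σ ∈ Pencil.Un hc (isBun_triv (O := O))) (b : Algebra.adjoin k {σ}) :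
    (b : K) ∈ Pencil.Un hc (isBun_triv (O := O)) := by
  obtain ⟨b, hb⟩ := b
  rw [Algebra.adjoin_singleton_eq_range_aeval] at hb
  obtain ⟨q, rfl⟩ := hb
  exact Pencil.Un_aeval hc (Pencil.Un_const hk hc) hσ q

lemma Pencil.self_mem (hO : IsFam O) (σ : K) :
    σ ∈ Pencil.Un (integral_Phi_inv hO σ) (isBun_triv (O := O)) :=
  ⟨1, fun u => by rw [pow_one]; exact (Pencil.phi hO σ u).2.1⟩

lemma Pencil.mem_Hp (hO : IsFam O) (hk : HasK k O) (σ : K) {L : Sys U V} (hL : IsBun O L)
    {x : V} : x ∈ Hp k O σ L ↔ ∃ N : ℕ, ∀ u, x ∈ twist (Phi O σ ^ N) L u := by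
  refine ⟨fun hx => ?_, fun hx => Submodule.subset_span hx⟩
  change x ∈ Pencil.Un (integral_Phi_inv hO σ) hL
  induction hx using Submodule.span_induction with
  | mem y hy => exact hy
  | zero => exact zero_mem _
  | add y z _ _ hy hz => exact add_mem hy hz
  | smul b y _ hy =>
    exact Pencil.Un_smul _ hL (Pencil.Un_adjoin hk _ (Pencil.self_mem hO σ) b) hy

lemma Pencil.div_indep {B : Type} [CommRing B] [IsDomain B] [Algebra B K] {ι : Type} [Fintype ι]
    (x : ι → V) {σ : K} {c : B} (hσ : σ ≠ algebraMap B K c)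
    (hkey : ∀ (a : ι → B) (q : ι → Polynomial B), ∑ i, algebraMap B K (a i) • x i =
      (σ - algebraMap B K c) • ∑ i, Polynomial.aeval σ (q i) • x i → ∀ i, a i = 0)
    (p : ι → Polynomial B) (hp : ∑ i, Polynomial.aeval σ (p i) • x i = 0) (i : ι) : p i = 0 := by
  have key : ∀ (m : ℕ) (p : ι → Polynomial B), ∑ i, Polynomial.aeval σ (p i) • x i = 0 →
      ∀ i, (Polynomial.X - Polynomial.C c) ^ m ∣ p i := by
    intro m
    induction m with
    | zero => intro p _ i; simp
    | succ m ih =>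
      intro p hp
      have h1 : ∀ i, p i = Polynomial.C ((p i).eval c) +
          (Polynomial.X - Polynomial.C c) * (p i /ₘ (Polynomial.X - Polynomial.C c)) := fun i => by
        rw [← Polynomial.modByMonic_X_sub_C_eq_C_eval, Polynomial.modByMonic_add_div]
      have h2 : ∑ i, Polynomial.aeval σ (p i) • x i = ∑ i, algebraMap B K ((p i).eval c) • x i +
          (σ - algebraMap B K c) •
            ∑ i, Polynomial.aeval σ (p i /ₘ (Polynomial.X - Polynomial.C c)) • x i := by
        rw [Finset.smul_sum, ← Finset.sum_add_distrib]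
        refine Finset.sum_congr rfl fun i _ => ?_
        conv_lhs => rw [h1 i]
        rw [map_add, map_mul, map_sub, Polynomial.aeval_C, Polynomial.aeval_C, Polynomial.aeval_X,
          add_smul, mul_smul]
      have h3 := hkey (fun i => (p i).eval c) (fun i => -(p i /ₘ (Polynomial.X - Polynomial.C c)))
        (by
          simp only [map_neg, neg_smul, Finset.sum_neg_distrib, smul_neg]
          exact eq_neg_of_add_eq_zero_left (h2.symm.trans hp))
      simp only [h3, map_zero, zero_smul, Finset.sum_const_zero, zero_add] at h1 h2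
      rw [hp, eq_comm, smul_eq_zero] at h2
      intro i
      rw [h1 i, pow_succ']
      exact mul_dvd_mul_left _ (ih _ (h2.resolve_left (sub_ne_zero.2 hσ)) i)
  refine Polynomial.eq_zero_of_dvd_of_natDegree_lt (key ((p i).natDegree + 1) p hp i) ?_
  simp

lemma Pencil.rank_le_of_indep {B : Type} [CommRing B] [IsDomain B] [Module B V]
    (H H' : Submodule B V) (n : ℕ)
    (h : ∀ (ι : Type) [Fintype ι] (x : ι → V), (∀ i, x i ∈ H) →
      (∀ a : ι → B, ∑ i, a i • x i ∈ H' → ∀ i, a i = 0) → Fintype.card ι ≤ n) :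
    Module.rank B H ≤ Module.rank B H' + n := by
  rw [← rank_quotient_add_rank_of_isDomain (H'.comap H.subtype), add_comm]
  refine add_le_add ?_ (rank_le fun s hs => ?_)
  · rw [← rank_map_eq H.injective_subtype]
    exact Submodule.rank_mono (Submodule.map_comap_le _ _)
  · choose x hx using fun i : s => (H'.comap H.subtype).mkQ_surjective i
    rw [← Fintype.card_coe]
    refine h s (fun i => x i) (fun i => (x i).2) fun a ha => Fintype.linearIndependent_iff.1 hs a ?_
    simp only [← hx, ← map_smul, ← map_sum]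
    rw [Submodule.mkQ_apply, Submodule.Quotient.mk_eq_zero, Submodule.mem_comap]
    simpa using ha

theorem Exact3.psi_le (hO : IsFam O) (hk : HasK k O) (σ : K) {L' : Sys U V'} {L : Sys U V}
    {L'' : Sys U V''} {i : V' →ₗ[K] V} {p : V →ₗ[K] V''} (h : Exact3 L' L L'' i p)
    (hL : IsBun O L) : psi k O σ L ≤ psi k O σ L' + psi k O σ L'' := by
  let f := (p.restrictScalars (Algebra.adjoin k {σ})).domRestrict (Hp k O σ L)
  rw [psi, ← f.rank_range_add_rank_ker, add_comm]
  refine add_le_add ?_ (Submodule.rank_mono ?_)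
  · rw [← rank_map_eq (Hp k O σ L).injective_subtype]
    refine le_trans (Submodule.rank_mono ?_)
      (rank_map_le (i.restrictScalars (Algebra.adjoin k {σ})) (Hp k O σ L'))
    rintro _ ⟨⟨x, hx⟩, hx0, rfl⟩
    have h1 : x ∈ LinearMap.range i := by rw [h.exact]; exact hx0
    obtain ⟨y, rfl⟩ := h1
    obtain ⟨N, hN⟩ := (Pencil.mem_Hp hO hk σ hL).1 hx
    refine ⟨y, Submodule.subset_span ⟨N, fun u => ?_⟩, rfl⟩
    rw [h.eq_pull, ← pull_twist]
    exact hN u
  · rintro _ ⟨⟨x, hx⟩, rfl⟩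
    obtain ⟨N, hN⟩ := (Pencil.mem_Hp hO hk σ hL).1 hx
    refine Submodule.subset_span ⟨N, fun u => ?_⟩
    rw [h.eq_push, ← push_twist]
    exact ⟨x, hN u, rfl⟩

/-- sections modulo those vanishing on a fibre inject into the sections on the generic fibre -/
theorem h0_le_add_psi (hO : IsFam O) (hk : HasK k O) [Module k V] [IsScalarTower k K V]
    {σ : K} (hσ : Transcendental k σ) (c : k) {L : Sys U V} (hL : IsBun O L)
    (hfin : Module.Finite k (H0 k L)) {N : ℕ}
    (hN : psi k O σ (sub L (Submodule.span K (H0 k L : Set V))) ≤ N) :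
    h0 k L ≤ h0 k (twist (Zer k O σ c) L) + N := by
  have hσc : σ ≠ algebraMap k K c := fun h => hσ (h ▸ isAlgebraic_algebraMap c)
  have hle : H0 k (twist (Zer k O σ c) L) ≤ H0 k L :=
    H0_mono (hL.twist_le (integral_Zer hO hk hσc))
  have hfin' := Submodule.finiteDimensional_of_le hle
  have key := Pencil.rank_le_of_indep (H0 k L) (H0 k (twist (Zer k O σ c) L)) N
    fun ι _ x hx hind => by
      have hx' : ∀ i u, x i ∈ L u := fun i => (hL.mem_H0 hk _).1 (hx i)
      have hdiv := Pencil.div_indep x hσc fun a q hq => hind a (by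
        simp only [← algebraMap_smul K (a _)]
        refine Submodule.subset_span fun u => ?_
        have hw : ∑ i, Polynomial.aeval σ (q i) • x i ∈
            Pencil.Un (integral_Phi_inv hO σ) hL :=
          sum_mem fun i _ => Pencil.Un_smul _ hL
            (Pencil.Un_aeval _ (Pencil.Un_const hk _) (Pencil.self_mem hO σ) _)
            ⟨0, fun u => by rw [pow_zero, twist_one]; exact hx' i u⟩
        obtain ⟨M, hM⟩ := hw
        rw [hq]
        refine Pencil.mem_Zer hO hk hσc hL (hM u) ?_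
        rw [← hq]
        exact sum_mem fun i _ => hL.smul_mem (hk u _) (hx' i u))
      let v : ι → Hp k O σ (sub L (Submodule.span K (H0 k L : Set V))) := fun i =>
        ⟨⟨x i, Submodule.subset_span (hx i)⟩, Submodule.subset_span
          ⟨0, fun u => by rw [pow_zero, twist_one]; exact hx' i u⟩⟩
      have hv : LinearIndependent (Algebra.adjoin k {σ}) v := by
        refine Fintype.linearIndependent_iff.2 fun g hg i => ?_
        have h1 : ∀ i, ∃ q : Polynomial k, Polynomial.aeval σ q = (g i : K) := fun i => by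
          exact (Algebra.adjoin_singleton_eq_range_aeval k σ).le (g i).2
        choose q hq using h1
        have h2 := congrArg (fun z => ((z.1 : Submodule.span K (H0 k L : Set V)) : V)) hg
        simp only [AddSubmonoidClass.coe_finsetSum, ZeroMemClass.coe_zero] at h2
        have h3 := hdiv q (by simp only [hq]; exact h2) i
        ext
        rw [← hq, h3, map_zero, ZeroMemClass.coe_zero]
      have := hv.cardinal_le_rank.trans hN
      rw [Cardinal.mk_fintype] at this
      exact_mod_cast this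
  rw [← finrank_eq_rank, ← finrank_eq_rank] at key
  exact_mod_cast key

section TwoPencils

variable {KX : Type} [Field KX] [Algebra k KX] [Algebra KX K] [IsScalarTower k KX K]
  [FiniteDimensional KX K] {s : Fin 2 → KX}

omit [FiniteDimensional KX K] in
lemma Pencil.ne_const (hs : Coord k s) (i : Fin 2) (c : k) :
    algebraMap KX K (s i) ≠ algebraMap k K c := fun h => by
  rw [IsScalarTower.algebraMap_apply k KX K] at h
  have h1 := (algebraMap KX K).injective h
  exact hs.indep.transcendental i (h1 ▸ isAlgebraic_algebraMap c)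

theorem psi_le_add (hO : IsFam O) (hk : HasK k O) (hs : Coord k s) (c : k) {L : Sys U V}
    (hL : IsBun O L) :
    psi k O (algebraMap KX K (s 1)) L ≤
      psi k O (algebraMap KX K (s 1)) (twist (Zer k O (algebraMap KX K (s 0)) c) L) +
        ((finrank KX K * finrank K V : ℕ) : Cardinal) := by
  set σ := algebraMap KX K (s 0) with hσdef
  set t := algebraMap KX K (s 1) with htdef
  have hσc : σ ≠ algebraMap k K c := Pencil.ne_const hs 0 c
  refine Pencil.rank_le_of_indep _ _ _ fun ι _ x hx hind => ?_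
  have h0 := integral_Phi_inv hO σ
  have h1 := integral_Phi_inv hO t
  have h01 : Integral (Phi O σ * Phi O t)⁻¹ := by rw [mul_inv]; exact h0.mul h1
  have hUn : ∀ {W : Type} [AddCommGroup W] [Module K W] {M : Sys U W} (hM : IsBun O M)
      {c' : Div O} (hc' : Integral c'⁻¹), Integral (c' * (Phi O σ * Phi O t)⁻¹) →
      Pencil.Un hc' hM ≤ Pencil.Un h01 hM := by
    rintro W _ _ M hM c' hc' h2 y ⟨N, hy⟩
    refine ⟨N, fun u => hM.twist_le_twist ?_ u (hy u)⟩
    rw [← inv_pow, ← mul_pow]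
    exact h2.pow N
  have hU0 : Integral (Phi O σ * (Phi O σ * Phi O t)⁻¹) := by
    rw [mul_inv, mul_inv_cancel_left]; exact h1
  have hU1 : Integral (Phi O t * (Phi O σ * Phi O t)⁻¹) := by
    rw [mul_comm (Phi O σ), mul_inv, mul_inv_cancel_left]; exact h0
  have hdiv := Pencil.div_indep (B := Algebra.adjoin k {t}) x (σ := σ)
    (c := algebraMap k _ c) hσc fun a q hq => hind a (by
      have hy : ∑ i, a i • x i ∈ Hp k O t L := sum_mem fun i _ => Submodule.smul_mem _ _ (hx i)
      obtain ⟨N, hN⟩ := (Pencil.mem_Hp hO hk t hL).1 hy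
      have hw : ∑ i, Polynomial.aeval σ (q i) • x i ∈ Pencil.Un h01 hL :=
        sum_mem fun i _ => Pencil.Un_smul _ hL
          (Pencil.Un_aeval _
            (fun b => hUn isBun_triv h1 hU1 (Pencil.Un_adjoin hk h1 (Pencil.self_mem hO t) b))
            (hUn isBun_triv h0 hU0 (Pencil.self_mem hO σ)) _)
          (hUn hL h1 hU1 ((Pencil.mem_Hp hO hk t hL).1 (hx i)))
      obtain ⟨M, hM⟩ := hw
      have hq' : ∑ i, a i • x i = (σ - algebraMap k K c) •
        ∑ i, Polynomial.aeval σ (q i) • x i := hq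
      refine Submodule.subset_span ⟨N + M, fun u => ?_⟩
      rw [← twist_mul, mul_comm, twist_mul, hq']
      refine Pencil.mem_Zer hO hk hσc (hL.twist _) (M := M) ?_ ?_
      · have h2 := hM u
        rw [mul_pow, twist_mul] at h2
        exact twist_mono _ (Pencil.twist_pow_le h1 hL (Nat.le_add_left _ _)) u h2
      · rw [← hq']
        exact Pencil.twist_pow_le h1 hL (Nat.le_add_right _ _) u (hN u))
  let : Module KX V := Module.compHom V (algebraMap KX K)
  have : IsScalarTower KX K V := .of_algebraMap_smul fun _ _ => rfl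
  have := hL.finiteDimensional
  have : FiniteDimensional KX V := Module.Finite.trans K V
  rw [Module.finrank_mul_finrank]
  refine LinearIndependent.fintype_card_le_finrank (b := x)
    (Fintype.linearIndependent_iff.2 fun g hg i => ?_)
  have hpol : ∀ r : MvPolynomial (Fin 2) k, ∃ q : Polynomial (Algebra.adjoin k {t}),
      Polynomial.aeval σ q = algebraMap KX K (MvPolynomial.aeval s r) := fun r => by
    induction r using MvPolynomial.induction_on with
    | C b =>
      refine ⟨Polynomial.C (algebraMap k _ b), ?_⟩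
      rw [Polynomial.aeval_C, MvPolynomial.aeval_C, ← IsScalarTower.algebraMap_apply,
        ← IsScalarTower.algebraMap_apply]
    | add r r' hr hr' =>
      obtain ⟨q, hq⟩ := hr
      obtain ⟨q', hq'⟩ := hr'
      exact ⟨q + q', by rw [map_add, map_add, map_add, hq, hq']⟩
    | mul_X r j hr =>
      obtain ⟨q, hq⟩ := hr
      rw [map_mul, map_mul, MvPolynomial.aeval_X, ← hq]
      fin_cases j
      · exact ⟨q * Polynomial.X, by rw [map_mul, Polynomial.aeval_X]; rfl⟩
      · exact ⟨q * Polynomial.C ⟨t, Algebra.self_mem_adjoin_singleton k t⟩,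
          by rw [map_mul, Polynomial.aeval_C]; rfl⟩
  classical
  choose A B hB hAB using fun i => hs.gen (g i)
  choose q hq using fun i => hpol (A i * ∏ j ∈ Finset.univ.erase i, B j)
  have hD : ∀ i, MvPolynomial.aeval s (A i * ∏ j ∈ Finset.univ.erase i, B j) =
      MvPolynomial.aeval s (∏ j, B j) * g i := fun i => by
    rw [← Finset.mul_prod_erase _ _ (Finset.mem_univ i), map_mul, map_mul, ← hAB]
    ring
  have h2 := hdiv q (by
    simp only [hq, hD, algebraMap_smul, mul_smul, ← Finset.smul_sum, hg, smul_zero]) i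
  have h3 := hq i
  rw [h2, map_zero, eq_comm, map_eq_zero, hD, mul_eq_zero] at h3
  refine h3.resolve_left fun h4 => ?_
  have h5 := hs.indep (h4.trans (map_zero _).symm)
  obtain ⟨j, -, hj⟩ := Finset.prod_eq_zero_iff.1 h5
  exact hB j hj

theorem RR.psi_rank_one [Infinite k] (h : RR k O a ω ip) (hs : Coord k s) {τ : ℤ} (hτ : 0 < τ)
    (h01 : ip (cl (Phi O (algebraMap KX K (s 0)))) (cl (Phi O (algebraMap KX K (s 1)))) = τ)
    (h11 : ip (cl (Phi O (algebraMap KX K (s 1)))) (cl (Phi O (algebraMap KX K (s 1)))) = 0)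
    {L : Sys U V} (hL : IsBun O L) (hr : finrank K V = 1) :
    psi k O (algebraMap KX K (s 1)) L ≤ ((finrank KX K *
      (ip (c1 O L) (cl (Phi O (algebraMap KX K (s 1)))) / τ + 1).toNat : ℕ) : Cardinal) := by
  have hO := h.isSL.isFam
  have hd := h.isWt_Phi (Pencil.ne_const (K := K) hs 1)
  have key : ∀ (m : ℕ) (L : Sys U V), IsBun O L →
      ip (c1 O L) (cl (Phi O (algebraMap KX K (s 1)))) < m * τ →
      psi k O (algebraMap KX K (s 1)) L ≤ ((finrank KX K * m : ℕ) : Cardinal) := by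
    intro m
    induction m with
    | zero =>
      intro L hL hD
      have : Hp k O (algebraMap KX K (s 1)) L = ⊥ := by
        refine (Submodule.eq_bot_iff _).2 fun x hx => ?_
        obtain ⟨N, hN⟩ := (Pencil.mem_Hp hO h.hasK _ hL).1 hx
        refine Ub.eq_zero hO hd (hL.twist _) (Ub_of_finrank_one hO (hL.twist _) hr).1 ?_ hN
        rw [wtOf_apply, c1_twist hO hL, cl_pow]
        simp only [map_add, map_nsmul, AddMonoidHom.add_apply, AddMonoidHom.nsmul_apply, h11,
          smul_zero, add_zero]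
        exact_mod_cast (by simpa using hD)
      rw [psi, this, rank_bot]
      exact zero_le
    | succ m ih =>
      intro L hL hD
      refine (psi_le_add hO h.hasK hs 0 hL).trans ?_
      rw [hr, mul_add, Nat.cast_add]
      refine add_le_add (ih _ (hL.twist _) ?_) le_rfl
      rw [c1_twist hO hL, hr, one_smul, cl_Zer hO (Pencil.ne_const hs 0 0), map_add, map_neg,
        AddMonoidHom.add_apply, AddMonoidHom.neg_apply, h01]
      push_cast at hD
      linarith
  refine key _ L hL ((Int.lt_ediv_add_one_mul_self _ hτ).trans_le ?_)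
  exact mul_le_mul_of_nonneg_right (Int.self_le_toNat _) hτ.le

end TwoPencils

lemma Pencil.psi_gg [Infinite k] (h : RR k O a ω ip) {s : Fin 2 → K} (hs : Coord k s)
    (h01 : ip (cl (Phi O (s 0))) (cl (Phi O (s 1))) = 1)
    (h11 : ip (cl (Phi O (s 1))) (cl (Phi O (s 1))) = 0) (n : ℕ) :
    ∀ (V : Type) [AddCommGroup V] [Module K V] (L : Sys U V), finrank K V = n → IsBun O L →
      Submodule.span K {x | ∀ u, x ∈ L u} = ⊤ → 0 ≤ ip (c1 O L) (cl (Phi O (s 1))) ∧
      psi k O (s 1) L ≤ ((ip (c1 O L) (cl (Phi O (s 1))) + n).toNat : Cardinal) := by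
  have hO := h.isSL.isFam
  have hd := h.isWt_Phi (σ := s 1) (Pencil.ne_const (K := K) hs 1)
  have hpos : ∀ (V : Type) [AddCommGroup V] [Module K V] (L : Sys U V), IsBun O L →
      ∀ S : Set V, (∀ x ∈ S, ∀ u, x ∈ L u) →
      0 ≤ ip (c1 O (sub L (Submodule.span K S))) (cl (Phi O (s 1))) := fun V _ _ L hL S hS => by
    have := sdeg_nonneg_of_sections hO hd hL hS
    rw [sdeg, wtOf_apply] at this
    exact_mod_cast this
  induction n with
  | zero =>
    intro V _ _ L hn hL _
    have := hL.finiteDimensional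
    have : Subsingleton V := finrank_zero_iff.1 hn
    rw [c1_of_subsingleton hO hL, map_zero, psi, rank_subsingleton']
    exact ⟨le_rfl, zero_le⟩
  | succ n ih =>
    intro V _ _ L hn hL hgg
    have := hL.finiteDimensional
    have : Nontrivial V := nontrivial_of_finrank_eq_succ hn
    obtain ⟨x, hx, hx0⟩ : ∃ x : V, (∀ u, x ∈ L u) ∧ x ≠ 0 := by
      by_contra hcon
      push Not at hcon
      exact bot_ne_top ((Submodule.span_eq_bot.2 hcon).symm.trans hgg)
    have hE := exact3_sub_quot L (K ∙ x)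
    have hr := finrank_span_singleton (K := K) hx0
    have hq : finrank K (V ⧸ K ∙ x) = n := by
      have := hE.finrank_add
      omega
    obtain ⟨h1, h2⟩ := ih _ (quot L (K ∙ x)) hq (hL.quot hO _) (by
      refine top_le_iff.1 ?_
      rw [← Submodule.range_mkQ, LinearMap.range_eq_map, ← hgg, Submodule.map_span]
      refine Submodule.span_mono ?_
      rintro _ ⟨y, hy, rfl⟩ u
      exact ⟨y, hy u, rfl⟩)
    have h3 := hpos V L hL {x} (by rintro _ rfl; exact hx)
    have h4 : psi k O (s 1) (sub L (K ∙ x)) ≤ _ :=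
      h.psi_rank_one (KX := K) hs one_pos h01 h11 (hL.sub hO _) hr
    have h5 := hE.c1_add hO hL
    rw [h5, map_add, AddMonoidHom.add_apply]
    refine ⟨add_nonneg h3 h1, (hE.psi_le hO h.hasK _ hL).trans ((add_le_add h4 h2).trans ?_)⟩
    rw [finrank_self, one_mul, Int.ediv_one, ← Nat.cast_add, Nat.cast_le]
    change (ip (c1 O (sub L (K ∙ x))) (cl (Phi O (s 1))) + 1).toNat + _ ≤ _
    push_cast
    omega

/-- sections on the rational surface are bounded through the Harder-Narasimhan polygon -/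
theorem RR.h0_le_sum [Infinite k] (h : RR k O a ω ip) {s : Fin 2 → K} (hs : Coord k s)
    (h00 : ip (cl (Phi O (s 0))) (cl (Phi O (s 0))) = 0)
    (h01 : ip (cl (Phi O (s 0))) (cl (Phi O (s 1))) = 1)
    (h11 : ip (cl (Phi O (s 1))) (cl (Phi O (s 1))) = 0)
    [Module k V] [IsScalarTower k K V] {L : Sys U V} (hL : IsBun O L) (φ : ℕ → ℝ)
    (hφ : ∀ (j : ℕ) (W : Submodule K V),
      sdeg O (wtOf ip (cl (Phi O (s 0))) + wtOf ip (cl (Phi O (s 1)))) L W
        - ((j : ℝ) - 1) * finrank K W ≤ φ j) :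
    ∃ J : ℕ, (h0 k L : ℝ) ≤ ∑ j ∈ Finset.range J, φ j := by
  have hO := h.isSL.isFam
  have hne := Pencil.ne_const (K := K) hs
  have hd0 := h.isWt_Phi (σ := s 0) (hne 0)
  have hZ : cl (Zer k O (s 1) 0) = - cl (Phi O (s 1)) := cl_Zer hO (hne 1 0)
  have hstep : ∀ j : ℕ, (h0 k (twist (Zer k O (s 1) 0 ^ j) L) : ℝ) ≤
      h0 k (twist (Zer k O (s 1) 0 ^ (j + 1)) L) + φ j := by
    intro j
    have hLj := hL.twist (Zer k O (s 1) 0 ^ j)
    set W := Submodule.span K (H0 k (twist (Zer k O (s 1) 0 ^ j) L) : Set V) with hW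
    have hsec : ∀ x ∈ (H0 k (twist (Zer k O (s 1) 0 ^ j) L) : Set V), ∀ u,
        x ∈ twist (Zer k O (s 1) 0 ^ j) L u := fun x hx => (hLj.mem_H0 h.hasK x).1 hx
    obtain ⟨h1, h2⟩ := Pencil.psi_gg h hs h01 h11 _ W (sub (twist (Zer k O (s 1) 0 ^ j) L) W) rfl
      (hLj.sub hO W) (by
        refine top_le_iff.1 ?_
        rw [← Submodule.span_span_coe_preimage]
        exact Submodule.span_mono fun y hy => hsec _ hy)
    have h3 := h0_le_add_psi hO h.hasK (hs.indep.transcendental 1) 0 hLj (h.fin_H0 hLj) h2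
    rw [← twist_mul, ← pow_succ'] at h3
    have h4 := sdeg_nonneg_of_sections hO hd0 hLj hsec
    have h5 := hφ j W
    have h6 := sdeg_twist (d := wtOf ip (cl (Phi O (s 1)))) hO hL (Zer k O (s 1) 0 ^ j) W
    rw [← hW, sdeg_twist hO hL, cl_pow, map_nsmul, hZ, map_neg, wtOf_apply, h.ip_comm, h01] at h4
    rw [cl_pow, map_nsmul, hZ, map_neg, wtOf_apply, h11, sdeg, wtOf_apply] at h6
    rw [sdeg_add] at h5
    have h7 : (((ip (c1 O (sub (twist (Zer k O (s 1) 0 ^ j) L) W)) (cl (Phi O (s 1))) +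
        (finrank K W : ℕ)).toNat : ℕ) : ℝ) =
        ip (c1 O (sub (twist (Zer k O (s 1) 0 ^ j) L) W)) (cl (Phi O (s 1))) + finrank K W := by
      rw [← Int.cast_natCast, Int.toNat_of_nonneg (by positivity)]
      push_cast
      rfl
    have h8 := (Nat.cast_le (α := ℝ)).2 h3
    rw [Nat.cast_add, h7] at h8
    simp only [Int.cast_zero, neg_zero, smul_zero, mul_zero, add_zero, Int.cast_one, nsmul_eq_mul,
      mul_neg, mul_one] at h4 h6
    linarith
  have hsum : ∀ J : ℕ, (h0 k L : ℝ) ≤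
      h0 k (twist (Zer k O (s 1) 0 ^ J) L) + ∑ j ∈ Finset.range J, φ j := by
    intro J
    induction J with
    | zero => simp [twist_one]
    | succ J ih =>
      rw [Finset.sum_range_succ]
      linarith [hstep J]
  obtain ⟨J, hJ⟩ := h.exists_h0_eq_zero hL (integral_Zer hO h.hasK (hne 1 0))
    (Pencil.nonunit fun h1 => by
      have h2 : cl (Zer k O (s 1) 0) = 0 := h1
      rw [hZ, neg_eq_zero] at h2
      rw [h2, map_zero] at h01
      exact zero_ne_one h01)
  refine ⟨J, (hsum J).trans ?_⟩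
  have h3 : h0 k (twist (Zer k O (s 1) 0 ^ J) L) = 0 := hJ J le_rfl
  rw [h3, Nat.cast_zero, zero_add]

end Vale.Agent.P190
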