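import Vale.Agent.P190.GeoBasic
import Vale.Agent.P190.Ext
import Vale.Agent.P190.Pencil

/-! Relations between the divisors on the Kummer cover. -/

open Module

noncomputable section

namespace Vale.Agent.P190

section Val

variable {U K : Type} [Field K] {O : Fam U K} {u : U} {B : ValuationSubring K}

lemma GeoDiv.div_mem_iff (B : ValuationSubring K) (x : K) {y : K} (hy : y ≠ 0) :
    x / y ∈ B ↔ B.valuation x ≤ B.valuation y := by
  rw [← B.valuation_le_one_iff, map_div₀,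
    div_le_one₀ (zero_lt_iff.2 ((Valuation.ne_zero_iff _).2 hy))]

lemma GeoDiv.val_eq {x y : K} (hx : x ≠ 0) (hy : y ≠ 0) (h : x / y ∈ B ∧ y / x ∈ B) :
    B.valuation x = B.valuation y :=
  le_antisymm ((GeoDiv.div_mem_iff B x hy).1 h.1) ((GeoDiv.div_mem_iff B y hx).1 h.2)

lemma GeoDiv.val_ofSet (hO : IsFam O) {S : Set K} (hS : S.Finite) (h0 : ∃ x ∈ S, x ≠ 0)
    (hB : O u ≤ B.toSubring) : ∃ f ∈ S, B.valuation (dv (ofSet O S) u) = B.valuation f ∧
      ∀ g ∈ S, B.valuation g ≤ B.valuation f := by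
  obtain ⟨f, hf, hf0, hmin⟩ := exists_min_valuation B hS h0
  exact ⟨f, hf, GeoDiv.val_eq (dv_ne_zero _ u) hf0 (ofSet_valuation hO hS hB hf hf0 hmin),
    fun g hg => (GeoDiv.div_mem_iff B g hf0).1 (hmin g hg)⟩

lemma GeoDiv.val_single (hO : IsFam O) {γ : K} (hγ : γ ≠ 0) (hB : O u ≤ B.toSubring) :
    B.valuation (dv (ofSet O {γ}) u) = B.valuation γ :=
  GeoDiv.val_eq (dv_ne_zero _ u) hγ
    ⟨hB (ofSet_singleton hO hγ u).1, hB (ofSet_singleton hO hγ u).2⟩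

lemma GeoDiv.val_congr {c c' : Div O} (h : SameDiv c c') (hB : O u ≤ B.toSubring) :
    B.valuation (dv c u) = B.valuation (dv c' u) :=
  GeoDiv.val_eq (dv_ne_zero _ u) (dv_ne_zero _ u)
    ⟨hB ((sameDiv_iff c c').1 h u).1, hB ((sameDiv_iff c c').1 h u).2⟩

lemma GeoDiv.sameDiv_of_val (hO : IsFam O) {c c' : Div O}
    (h : ∀ u (B : ValuationSubring K), O u ≤ B.toSubring →
      B.valuation (dv c u) = B.valuation (dv c' u)) : SameDiv c c' :=
  (sameDiv_iff c c').2 fun u =>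
    ⟨(hO.mem_iff_valuation u _).2 fun B hB =>
      (GeoDiv.div_mem_iff B _ (dv_ne_zero _ u)).2 (h u B hB).le,
    (hO.mem_iff_valuation u _).2 fun B hB =>
      (GeoDiv.div_mem_iff B _ (dv_ne_zero _ u)).2 (h u B hB).ge⟩

lemma GeoDiv.val_pos (B : ValuationSubring K) {x : K} (hx : x ≠ 0) : 0 < B.valuation x :=
  zero_lt_iff.2 ((Valuation.ne_zero_iff _).2 hx)

lemma GeoDiv.val_const {k : Type} [Field k] [Algebra k K] (hk : HasK k O)
    (hB : O u ≤ B.toSubring) {c : k} (hc : c ≠ 0) : B.valuation (algebraMap k K c) = 1 := by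
  have h1 : (algebraMap k K c) / 1 ∈ B := by simpa using hB (hk u c)
  have h2 : 1 / (algebraMap k K c) ∈ B := by simpa using hB (hk u c⁻¹)
  simpa using GeoDiv.val_eq ((map_ne_zero _).2 hc) one_ne_zero ⟨h1, h2⟩

lemma GeoDiv.val_third {Γ : Type} [LinearOrderedCommGroupWithZero Γ] (v : Valuation K Γ)
    {s₀ s₁ s₂ b₀ b₁ b₂ : K} (hs : s₀ * s₁ * s₂ = 1) (hb : b₀ * b₁ * b₂ = 1) (h₁ : v b₁ = 1)
    (h₂ : v b₂ = 1) {γ : Γ} (hγ : γ ≤ 1) (t₁ : v (s₁ - b₁) < γ) (t₂ : v (s₂ - b₂) < γ) :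
    v (s₀ - b₀) < γ := by
  have e₁ : v s₁ = 1 := by rw [← h₁]; exact v.map_eq_of_sub_lt (by rw [h₁]; exact t₁.trans_le hγ)
  have e₂ : v s₂ = 1 := by rw [← h₂]; exact v.map_eq_of_sub_lt (by rw [h₂]; exact t₂.trans_le hγ)
  have e : (s₀ - b₀) * (s₁ * s₂) * (b₁ * b₂) = -((s₁ - b₁) * s₂ + b₁ * (s₂ - b₂)) := by
    linear_combination (b₁ * b₂) * hs - (s₁ * s₂) * hb
  have := congrArg v e
  simp only [map_mul, e₁, e₂, h₁, h₂, mul_one, Valuation.map_neg] at this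
  rw [this]
  refine v.map_add_lt ?_ ?_
  · rwa [map_mul, e₂, mul_one]
  · rwa [map_mul, h₁, one_mul]

lemma GeoDiv.perm3 (i : Fin 3) : ∃ j l : Fin 3, ∀ {M : Type} [CommMonoid M] (f : Fin 3 → M),
    ∏ x, f x = f i * f j * f l := by
  fin_cases i
  · exact ⟨1, 2, fun f => Fin.prod_univ_three f⟩
  · exact ⟨0, 2, fun f => by rw [Fin.prod_univ_three, mul_comm (f 0)]; rfl⟩
  · exact ⟨0, 1, fun f => by rw [Fin.prod_univ_three, mul_rotate, mul_rotate]; rfl⟩

lemma GeoDiv.prod_gexp {M : Type} [CommMonoid M] (h : Fin 3 → M) (n : ℕ) (i : Fin 3) :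
    (∏ j, h j ^ gexp n i j) * h i ^ n = ∏ j, h j ^ (n + 1) := by
  rw [← Finset.mul_prod_erase _ _ (Finset.mem_univ i),
    ← Finset.mul_prod_erase _ (fun j => h j ^ (n + 1)) (Finset.mem_univ i), mul_right_comm]
  congr 1
  · simp [gexp, pow_succ']
  · exact Finset.prod_congr rfl fun j hj => by
      rw [gexp, if_neg (Finset.ne_of_mem_erase hj).symm]

end Val

variable {k : Type} [Field k] {A : Subgroup kˣ} [Fintype A] {m : ℕ} {U : Type}
  {KX K : Type} [Field KX] [Field K] [Algebra k KX] [Algebra k K] [Algebra KX K]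
  [IsScalarTower k KX K] {gX : Geo k KX A 1} {g : Geo k K A m} {OX : Fam U KX} {O : Fam U K}

lemma Geo.mu_add (g : Geo k K A m) (O : Fam U K) (a a' : Fin 3 → ℤ) (b b' : ℤ) :
    g.mu O (a + a') (b + b') = g.mu O a b * g.mu O a' b' := by
  simp only [Geo.mu, Pi.add_apply, zpow_add, Finset.prod_mul_distrib]
  exact mul_mul_mul_comm _ _ _ _

lemma Geo.mu_zero (g : Geo k K A m) (O : Fam U K) : g.mu O 0 0 = 1 := by
  simp [Geo.mu]

lemma Geo.mu_zpow (g : Geo k K A m) (O : Fam U K) (a : Fin 3 → ℤ) (b e : ℤ) :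
    g.mu O a b ^ e = g.mu O (fun j => e * a j) (e * b) := by
  simp only [Geo.mu, mul_zpow, ← Finset.prod_zpow, ← zpow_mul, mul_comm e]

lemma Geo.Ld_eq (g : Geo k K A m) (O : Fam U K) :
    g.Ld O = g.mu O (fun _ => Fintype.card A + 1) 1 := by
  have e : ∀ j, g.Hd O j ^ ((Fintype.card A : ℤ) + 1) = g.Hd O j ^ (Fintype.card A + 1) :=
    fun j => by rw [← zpow_natCast]; rfl
  simp only [Geo.mu, Geo.Jd, e, zpow_one]
  rw [mul_comm, inv_mul_cancel_right]

lemma Geo.Hd_eq (g : Geo k K A m) (O : Fam U K) (j : Fin 3) :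
    g.Hd O j = g.mu O (Pi.single j 1) 0 := by
  rw [Geo.mu, zpow_zero, mul_one, Finset.prod_eq_single j]
  · simp
  · intro b _ hb
    simp [hb]
  · simp

lemma Geo.Jd_eq (g : Geo k K A m) (O : Fam U K) : g.Jd O = g.mu O 0 1 := by
  simp [Geo.mu]

lemma Geo.cl_Dd (g : Geo k K A m) (hm : 0 < m) (hO : IsFam O) (ja : Fin 3 × A) :
    cl (g.Dd O ja) = - cl (g.Hd O ja.1) := by
  rw [Geo.Dd, cl_mul, cl_ofSet_singleton hO (g.y_ne_zero hm _ _), cl_inv, zero_add]

lemma GeoDiv.range_y (g : Geo k K A m) (j : Fin 3) : ∃ x ∈ Set.range (g.y j), x ≠ 0 :=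
  ⟨_, ⟨1, rfl⟩, by rw [g.y_one]; exact one_ne_zero⟩

lemma GeoDiv.ex_S (g : Geo k K A m) (hm : 0 < m) : ∃ x ∈ g.S, x ≠ 0 := by
  obtain ⟨x, hx⟩ := g.S_nonempty
  exact ⟨x, hx, fun h => g.zero_notMem_S hm (h ▸ hx)⟩

lemma GeoDiv.val_Hd (g : Geo k K A m) (hO : IsFam O) {u : U} {B : ValuationSubring K}
    (hB : O u ≤ B.toSubring) (j : Fin 3) :
    ∃ a, B.valuation (dv (g.Hd O j) u) = B.valuation (g.y j a) ∧
      ∀ b, B.valuation (g.y j b) ≤ B.valuation (dv (g.Hd O j) u) := by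
  obtain ⟨_, ⟨a, rfl⟩, h1, h2⟩ :=
    GeoDiv.val_ofSet hO (Set.finite_range (g.y j)) (GeoDiv.range_y g j) hB
  exact ⟨a, h1, fun b => (h2 _ ⟨b, rfl⟩).trans h1.ge⟩

lemma GeoDiv.val_Dd (g : Geo k K A m) (hm : 0 < m) (hO : IsFam O) {u : U}
    {B : ValuationSubring K} (hB : O u ≤ B.toSubring) (j : Fin 3) (a : A) :
    B.valuation (dv (g.Dd O (j, a)) u) =
      B.valuation (g.y j a) / B.valuation (dv (g.Hd O j) u) := by
  rw [Geo.Dd, dv_mul, dv_inv, map_mul, map_inv₀, GeoDiv.val_single hO (g.y_ne_zero hm j a) hB,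
    div_eq_mul_inv]

lemma Geo.integral_Dd (g : Geo k K A m) (hm : 0 < m) (hO : IsFam O) (ja : Fin 3 × A) :
    Integral (g.Dd O ja) := by
  intro u
  refine (hO.mem_iff_valuation u _).2 fun B hB => ?_
  obtain ⟨a, -, h2⟩ := GeoDiv.val_Hd g hO hB ja.1
  rw [← B.valuation_le_one_iff, GeoDiv.val_Dd g hm hO hB,
    div_le_one₀ (GeoDiv.val_pos B (dv_ne_zero _ u))]
  exact h2 _

lemma GeoDiv.Jd_valuation (g : Geo k K A m) (hm : 0 < m) (hO : IsFam O) {u : U}
    {B : ValuationSubring K} (hB : O u ≤ B.toSubring) :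
    (∀ i, (∏ a, dv (g.Dd O (i, a)) u) / dv (g.Jd O) u ∈ B) ∧
      ∃ i, dv (g.Jd O) u / ∏ a, dv (g.Dd O (i, a)) u ∈ B := by
  choose a₀ h1 h2 using fun j => GeoDiv.val_Hd g hO hB j
  obtain ⟨H, hH⟩ : ∃ H : Fin 3 → B.ValueGroup, ∀ j, H j = B.valuation (dv (g.Hd O j) u) :=
    ⟨_, fun _ => rfl⟩
  simp only [← hH] at h1 h2
  have hpos : ∀ j, 0 < H j := fun j => hH j ▸ GeoDiv.val_pos B (dv_ne_zero _ u)
  have hP : 0 < ∏ j, H j ^ (Fintype.card A + 1) := Finset.prod_pos fun j _ => pow_pos (hpos j) _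
  have eJ : B.valuation (dv (g.Jd O) u) =
      B.valuation (dv (g.Ld O) u) / ∏ j, H j ^ (Fintype.card A + 1) := by
    simp only [Geo.Jd, dv_mul, dv_inv, dv_prod, dv_pow, map_mul, map_inv₀, map_prod, map_pow, ← hH,
      div_eq_mul_inv]
  have eD : ∀ i, B.valuation (∏ a, dv (g.Dd O (i, a)) u) =
      (B.valuation (g.U i) * ∏ j, H j ^ gexp (Fintype.card A) i j) /
        ∏ j, H j ^ (Fintype.card A + 1) := fun i => by
    have h3 : ∏ j, H j ^ gexp (Fintype.card A) i j ≠ 0 :=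
      (Finset.prod_pos fun j _ => pow_pos (hpos j) _).ne'
    rw [← GeoDiv.prod_gexp H _ i, mul_comm (B.valuation (g.U i)), mul_div_mul_left _ _ h3,
      map_prod, Geo.U, map_prod]
    simp only [GeoDiv.val_Dd g hm hO hB, ← hH, Finset.prod_div_distrib, Finset.prod_const,
      Finset.card_univ]
  obtain ⟨_, ⟨i, a, rfl⟩, h3, h4⟩ := GeoDiv.val_ofSet hO g.S_finite (GeoDiv.ex_S g hm) hB
  refine ⟨fun i' => ?_, i, ?_⟩
  · rw [GeoDiv.div_mem_iff B _ (dv_ne_zero _ u), eJ, eD, div_le_div_iff_of_pos_right hP, Geo.Ld,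
      h3]
    refine le_trans (le_of_eq ?_) (h4 _ ⟨i', fun j _ => a₀ j, rfl⟩)
    simp only [map_mul, map_prod, map_pow, ← h1, Finset.prod_const, Finset.card_univ,
      Fintype.card_fin]
  · rw [GeoDiv.div_mem_iff B _ (Finset.prod_ne_zero_iff.2 fun a _ => dv_ne_zero _ u), eJ, eD,
      div_le_div_iff_of_pos_right hP, Geo.Ld, h3, map_mul, map_prod]
    refine mul_le_mul' le_rfl (Finset.prod_le_prod' fun j _ => ?_)
    rw [map_prod]
    simpa using Finset.prod_le_pow_card Finset.univ (fun l => B.valuation (g.y j (a j l))) (H j)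
      fun l _ => h2 j _

lemma Geo.integral_Jd (g : Geo k K A m) (hm : 0 < m) (hO : IsFam O) : Integral (g.Jd O) := by
  intro u
  refine (hO.mem_iff_valuation u _).2 fun B hB => ?_
  obtain ⟨i, hi⟩ := (GeoDiv.Jd_valuation g hm hO hB).2
  have h0 : ∏ a, dv (g.Dd O (i, a)) u ≠ 0 := Finset.prod_ne_zero_iff.2 fun a _ => dv_ne_zero _ u
  rw [← div_mul_cancel₀ (dv (g.Jd O) u) h0]
  exact B.mul_mem _ _ hi (hB (prod_mem fun a _ => g.integral_Dd hm hO (i, a) u))

lemma Geo.sameDiv_div (g : Geo k K A m) (hm : 0 < m) (hO : IsFam O) (j : Fin 3) (a a' : A) :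
    SameDiv (ofSet O {g.y j a / g.y j a'}) (g.Dd O (j, a) * (g.Dd O (j, a'))⁻¹) := by
  refine GeoDiv.sameDiv_of_val hO fun u B hB => ?_
  have hH := GeoDiv.val_pos B (dv_ne_zero (g.Hd O j) u)
  rw [GeoDiv.val_single hO (div_ne_zero (g.y_ne_zero hm j a) (g.y_ne_zero hm j a')) hB, dv_mul,
    dv_inv, map_mul, map_inv₀, GeoDiv.val_Dd g hm hO hB, GeoDiv.val_Dd g hm hO hB, map_div₀,
    ← div_eq_mul_inv, div_div_div_cancel_right₀ hH.ne']

/-- `Jd` is generated by the three products `U i`, normalised -/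
lemma Geo.Jd_valuation (g : Geo k K A m) (hm : 0 < m) (hO : IsFam O) {u : U}
    {B : ValuationSubring K} (hB : O u ≤ B.toSubring) :
    (∀ i, (∏ a, dv (g.Dd O (i, a)) u) / dv (g.Jd O) u ∈ B) ∧
      ∃ i, dv (g.Jd O) u / ∏ a, dv (g.Dd O (i, a)) u ∈ B := by
  exact GeoDiv.Jd_valuation g hm hO hB

lemma Geo.Hd_sameDiv_Phi (gX : Geo k KX A 1) (hA : 2 ≤ Fintype.card A) (hO : IsFam OX)
    (hk : HasK k OX) (j : Fin 3) : SameDiv (gX.Hd OX j) (Phi OX (gX.σ j)) := by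
  refine ofSet_congr hO (Set.finite_range _) (Set.toFinite _) (GeoDiv.range_y gX j) fun u => ?_
  have e : ∀ a : A, gX.y j a = 1 + algebraMap k KX (1 - ((a : kˣ) : k)) * gX.σ j := fun a => by
    rw [← gX.y_pow_eq', pow_one]
  refine le_antisymm (spanO_le ?_ fun c hc x hx => spanO_smul_mem hc hx)
    (spanO_le ?_ fun c hc x hx => spanO_smul_mem hc hx)
  · rintro _ ⟨a, rfl⟩
    rw [e]
    exact add_mem (subset_spanO (by simp)) (spanO_smul_mem (hk u _) (subset_spanO (by simp)))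
  · have h1 : (1 : KX) ∈ spanO (OX u) (Set.range (gX.y j)) := subset_spanO ⟨1, gX.y_one j⟩
    rintro _ (rfl | rfl)
    · exact h1
    · have : Nontrivial A := Fintype.one_lt_card_iff_nontrivial.1 hA
      obtain ⟨a, ha⟩ := exists_ne (1 : A)
      have hc : 1 - ((a : kˣ) : k) ≠ 0 :=
        sub_ne_zero.2 fun h => ha (Subtype.ext (Units.ext h.symm))
      have h2 := spanO_smul_mem (hk u (1 - ((a : kˣ) : k))⁻¹)
        (sub_mem (subset_spanO (R := OX u) (Set.mem_range_self a)) h1)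
      rwa [e, add_sub_cancel_left, smul_eq_mul, ← mul_assoc, ← map_mul, inv_mul_cancel₀ hc,
        map_one, one_mul] at h2

lemma Geo.coprime_Dd (gX : Geo k KX A 1) (hO : IsFam OX) (hk : HasK k OX) (j : Fin 3)
    {a a' : A} (h : a ≠ a') : Coprime (gX.Dd OX (j, a)) (gX.Dd OX (j, a')) := by
  intro u
  have e : ∀ a : A, gX.y j a = 1 + algebraMap k KX (1 - ((a : kˣ) : k)) * gX.σ j := fun a => by
    rw [← gX.y_pow_eq', pow_one]
  have hc : ((a : kˣ) : k) - ((a' : kˣ) : k) ≠ 0 :=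
    sub_ne_zero.2 fun he => h (Subtype.ext (Units.ext he))
  have h1 : spanO (OX u) (Set.range (gX.y j)) ≤ spanO (OX u) {gX.y j a, gX.y j a'} := by
    refine spanO_le ?_ fun c hc x hx => spanO_smul_mem hc hx
    rintro _ ⟨b, rfl⟩
    have e2 : gX.y j b =
        algebraMap k KX ((((b : kˣ) : k) - (a' : kˣ)) / (((a : kˣ) : k) - (a' : kˣ))) • gX.y j a +
        algebraMap k KX ((((a : kˣ) : k) - (b : kˣ)) / (((a : kˣ) : k) - (a' : kˣ))) •
          gX.y j a' := by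
      have hc' : algebraMap k KX ((a : kˣ) : k) - algebraMap k KX ((a' : kˣ) : k) ≠ 0 := by
        rw [← map_sub]; exact (map_ne_zero _).2 hc
      simp only [e, smul_eq_mul, map_div₀, map_sub, map_one]
      field_simp
      ring
    rw [e2]
    exact add_mem (spanO_smul_mem (hk u _) (subset_spanO (by simp)))
      (spanO_smul_mem (hk u _) (subset_spanO (by simp)))
  have h2 := Lat2.dv_mem_line (gX.Hd OX j) u
  rw [Geo.Hd, line_ofSet hO (Set.finite_range _) (GeoDiv.range_y gX j)] at h2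
  obtain ⟨r, r', hr⟩ := Submodule.mem_span_pair.1 (mem_spanO_iff.1 (h1 h2))
  refine ⟨_, mul_mem r.2 (ofSet_singleton hO (gX.y_ne_zero one_pos j a) u).2, _,
    mul_mem r'.2 (ofSet_singleton hO (gX.y_ne_zero one_pos j a') u).2, ?_⟩
  have n1 := dv_ne_zero (ofSet OX {gX.y j a}) u
  have n2 := dv_ne_zero (ofSet OX {gX.y j a'}) u
  have n3 := dv_ne_zero (gX.Hd OX j) u
  change (r : KX) * _ + (r' : KX) * _ = dv (gX.Hd OX j) u at hr
  simp only [Geo.Dd, dv_mul, dv_inv]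
  field_simp
  exact hr

lemma Tow.Hd_pow (h : Tow gX g) (hX : IsFam OX) (hO : IsFam O) (ho : Over OX O) (j : Fin 3) :
    SameDiv (g.Hd O j ^ m) (Div.map ho (gX.Hd OX j)) := by
  have e : (· ^ m) '' Set.range (g.y j) = algebraMap KX K '' Set.range (gX.y j) := by
    rw [← Set.range_comp, ← Set.range_comp]
    exact congrArg _ (funext fun a => (h.y_eq j a).symm)
  have h1 := ofSet_pow_image hO (Set.finite_range _) (GeoDiv.range_y g j) h.m_pos
  rw [e] at h1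
  exact h1.symm.trans (map_ofSet ho hX hO (Set.finite_range _) (GeoDiv.range_y gX j)).symm

lemma Tow.Ld_pow (h : Tow gX g) (hX : IsFam OX) (hO : IsFam O) (ho : Over OX O) :
    SameDiv (g.Ld O ^ m) (Div.map ho (gX.Ld OX)) := by
  have h1 := ofSet_pow_image hO g.S_finite (GeoDiv.ex_S g h.m_pos) h.m_pos
  rw [h.S_eq] at h1
  exact h1.symm.trans (map_ofSet ho hX hO gX.S_finite (GeoDiv.ex_S gX one_pos)).symm

lemma Tow.mu_pow (h : Tow gX g) (hX : IsFam OX) (hO : IsFam O) (ho : Over OX O)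
    (a : Fin 3 → ℤ) (b : ℤ) : SameDiv (g.mu O a b ^ m) (Div.map ho (gX.mu OX a b)) := by
  have hJ : SameDiv (g.Jd O ^ m) (Div.map ho (gX.Jd OX)) := by
    rw [Geo.Jd, Geo.Jd, mul_pow, Div.map_mul, Div.map_inv, inv_pow, Div.map_prod,
      ← Finset.prod_pow]
    refine (h.Ld_pow hX hO ho).mul (SameDiv.prod _ fun j _ => ?_).inv
    rw [← pow_mul, mul_comm, pow_mul, Div.map_pow]
    exact (h.Hd_pow hX hO ho j).pow _
  have e : ∀ (c : Div O) (n : ℤ), (c ^ n) ^ m = (c ^ m) ^ n := fun c n => by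
    rw [← zpow_natCast, ← zpow_natCast, ← zpow_mul, ← zpow_mul, mul_comm]
  rw [Geo.mu, Geo.mu, mul_pow, Div.map_mul, Div.map_prod, ← Finset.prod_pow, e, Div.map_zpow]
  refine (SameDiv.prod _ fun j _ => ?_).mul (hJ.zpow b)
  rw [e, Div.map_zpow]
  exact (h.Hd_pow hX hO ho j).zpow _

lemma Tow.Dd_pow (h : Tow gX g) (hX : IsFam OX) (hO : IsFam O) (ho : Over OX O)
    (ja : Fin 3 × A) : SameDiv (g.Dd O ja ^ m) (Div.map ho (gX.Dd OX ja)) := by
  rw [Geo.Dd, Geo.Dd, mul_pow, Div.map_mul, Div.map_inv, inv_pow]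
  refine SameDiv.mul ?_ (h.Hd_pow hX hO ho ja.1).inv
  have h1 := ofSet_pow_image hO (Set.finite_singleton (g.y ja.1 ja.2))
    ⟨_, rfl, g.y_ne_zero h.m_pos _ _⟩ h.m_pos
  have h2 := map_ofSet ho hX hO (Set.finite_singleton (gX.y ja.1 ja.2))
    ⟨_, rfl, gX.y_ne_zero one_pos _ _⟩
  rw [Set.image_singleton] at h1 h2
  rw [h.y_eq] at h2
  exact h1.symm.trans h2.symm

lemma Tow.map_Phi (h : Tow gX g) (hX : IsFam OX) (hO : IsFam O) (ho : Over OX O) (j : Fin 3) :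
    SameDiv (Div.map ho (Phi OX (gX.σ j))) (Phi O (algebraMap KX K (gX.σ j))) := by
  have h2 := map_ofSet ho hX hO (Set.toFinite {1, gX.σ j}) ⟨1, by simp, one_ne_zero⟩
  rwa [Set.image_pair, map_one] at h2

lemma Tow.mem_line_mu_iff (h : Tow gX g) (hX : IsFam OX) (hO : IsFam O) (ho : Over OX O)
    (a : Fin 3 → ℤ) (b : ℤ) (u : U) (z : K) :
    z ∈ line (g.mu O a b) u ↔ z ^ m / algebraMap KX K (dv (gX.mu OX a b) u) ∈ O u := by
  obtain ⟨h1, h2⟩ := (sameDiv_iff _ _).1 (h.mu_pow hX hO ho a b) u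
  have n1 := dv_ne_zero (g.mu O a b) u
  have n2 := dv_ne_zero (Div.map ho (gX.mu OX a b)) u
  rw [dv_pow] at h1 h2
  rw [mem_line, ← dv_map ho]
  constructor
  · intro hz
    have := mul_mem (pow_mem hz m) h1
    convert this using 1
    rw [mul_pow, inv_pow]
    field_simp
  · intro hz
    refine hO.mem_of_pow_mem u h.m_pos ?_
    have := mul_mem hz h2
    convert this using 1
    rw [mul_pow, inv_pow]
    field_simp

/-- at most one curve of a block passes through a given centre -/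
lemma GeoDiv.block (g : Geo k K A m) (hm : 0 < m) (hA : 2 ≤ Fintype.card A) (hO : IsFam O)
    (hk : HasK k O) {u : U} {B : ValuationSubring K} (hB : O u ≤ B.toSubring) (j : Fin 3) (a : A)
    (h : B.valuation (dv (g.Dd O (j, a)) u) < 1 ∨
      B.valuation (g.s j - algebraMap k K ((a : kˣ) : k)) < 1) :
    B.valuation (dv (g.Dd O (j, a)) u) ^ m =
      B.valuation (g.s j - algebraMap k K ((a : kˣ) : k)) ∧
      ∀ a', a' ≠ a → B.valuation (dv (g.Dd O (j, a')) u) = 1 := by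
  obtain ⟨a₀, h1, h2⟩ := GeoDiv.val_Hd g hO hB j
  have hσ := GeoDiv.val_pos B (g.σ_ne_zero j)
  have hH := GeoDiv.val_pos B (dv_ne_zero (g.Hd O j) u)
  obtain ⟨t, ht⟩ : ∃ t : A → B.ValueGroup,
      ∀ b, t b = B.valuation (g.s j - algebraMap k K ((b : kˣ) : k)) := ⟨_, fun _ => rfl⟩
  have e1 : ∀ b, B.valuation (g.y j b) ^ m = t b * B.valuation (g.σ j) := fun b => by
    rw [← map_pow, g.y_pow_eq, map_mul, ht]
  have e2 : ∀ b, B.valuation (dv (g.Dd O (j, b)) u) ^ m = t b / t a₀ := fun b => by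
    rw [GeoDiv.val_Dd g hm hO hB, h1, div_pow, e1, e1, mul_div_mul_right _ _ hσ.ne']
  have e3 : ∀ b, t b ≤ t a₀ := fun b => by
    have := pow_le_pow_left' ((h2 b).trans h1.le) m
    rw [e1, e1] at this
    exact le_of_mul_le_mul_right this hσ
  have e4 : ∀ b b' : A, b ≠ b' → t b < t b' → t b' = 1 := fun b b' hne hlt => by
    have hc : ((b : kˣ) : k) - ((b' : kˣ) : k) ≠ 0 :=
      sub_ne_zero.2 fun h => hne (Subtype.ext (Units.ext h))
    rw [ht, ht] at hlt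
    rw [← GeoDiv.val_const hk hB hc, ht, ← B.valuation.map_sub_eq_of_lt_left hlt,
      map_sub (algebraMap k K)]
    congr 1
    ring
  have e5 : ∀ b b' : A, b ≠ b' → t b < 1 → t b' = 1 := fun b b' hne hlt => by
    have hc : ((b : kˣ) : k) - ((b' : kˣ) : k) ≠ 0 :=
      sub_ne_zero.2 fun h => hne (Subtype.ext (Units.ext h))
    rw [← GeoDiv.val_const hk hB hc, ht] at hlt
    rw [← GeoDiv.val_const hk hB hc, ht, ← B.valuation.map_add_eq_of_lt_right hlt,
      map_sub (algebraMap k K)]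
    congr 1
    ring
  have h0 : 0 < t a₀ := by
    rw [ht]
    exact GeoDiv.val_pos B (sub_ne_zero.2 (g.s_ne j _))
  rw [← ht] at h ⊢
  have hta : t a < 1 := h.elim (fun h => by
    have h3 := pow_lt_one' h hm.ne'
    rw [e2, div_lt_one₀ h0] at h3
    rwa [e4 a a₀ (fun he => h3.ne (he ▸ rfl)) h3] at h3) id
  have hM : t a₀ = 1 := by
    by_cases he : a = a₀
    · have : Nontrivial A := Fintype.one_lt_card_iff_nontrivial.1 hA
      obtain ⟨b, hb⟩ := exists_ne a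
      have := e3 b
      rw [e5 a b hb.symm hta, ← he] at this
      exact absurd hta this.not_gt
    · exact e5 a a₀ he hta
  refine ⟨by rw [e2, hM, div_one], fun a' ha' => ?_⟩
  have := e2 a'
  rw [hM, e5 a a' ha'.symm hta, div_one] at this
  exact (pow_eq_one_iff_of_nonneg zero_le hm.ne').1 this

/-- the branch curves meet only along the exceptional curves -/
theorem Tow.E_mul (h : Tow gX g) (hX : IsFam OX) (hO : IsFam O) (hk : HasK k O) (ho : Over OX O)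
    (α : Fin 3 × A → Fin m) (u : U) (z : K) (hz : ∀ l, z ∈ line (g.Dd O l ^ (α l : ℕ)) u) :
    z ∈ line ((Div.map ho (gX.Jd OX ^ 2))⁻¹ * ∏ l, g.Dd O l ^ (α l : ℕ)) u := by
  classical
  have hm := h.m_pos
  rw [mem_line]
  refine (hO.mem_iff_valuation u _).2 fun B hB => ?_
  obtain ⟨δ, hδ⟩ : ∃ δ : Fin 3 → A → B.ValueGroup,
      ∀ j a, δ j a = B.valuation (dv (g.Dd O (j, a)) u) := ⟨_, fun _ _ => rfl⟩
  have hδ1 : ∀ j a, δ j a ≤ 1 := fun j a => by
    rw [hδ, B.valuation_le_one_iff]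
    exact hB (g.integral_Dd hm hO (j, a) u)
  have hblk := fun j a => GeoDiv.block g hm h.two_le hO hk hB j a
  simp only [← hδ] at hblk
  have hz' : ∀ j a, B.valuation z ≤ δ j a ^ (α (j, a) : ℕ) := fun j a => by
    have h1 := hB ((mem_line _ u z).1 (hz (j, a)))
    rw [inv_mul_eq_div] at h1
    have h2 := (GeoDiv.div_mem_iff B z (dv_ne_zero _ u)).1 h1
    rwa [dv_pow, map_pow, ← hδ] at h2
  have F1 : ∀ j, B.valuation z ≤ ∏ a, δ j a ^ (α (j, a) : ℕ) := fun j => by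
    by_cases hj : ∃ a, δ j a < 1
    · obtain ⟨a, ha⟩ := hj
      rw [Finset.prod_eq_single a (fun b _ hb => by rw [(hblk j a (Or.inl ha)).2 b hb, one_pow])
        (by simp)]
      exact hz' j a
    · have h1 : ∀ a, δ j a = 1 := fun a => (hδ1 j a).eq_of_not_lt fun ha => hj ⟨a, ha⟩
      have := hz' j 1
      simpa [h1] using this
  have F2 : ∀ j, (∏ a, δ j a) ^ m ≤ ∏ a, δ j a ^ (α (j, a) : ℕ) := fun j => by
    rw [← Finset.prod_pow]
    exact Finset.prod_le_prod' fun a _ =>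
      pow_le_pow_right_of_le_one' (hδ1 j a) (α (j, a)).2.le
  obtain ⟨i, hi⟩ := (g.Jd_valuation hm hO hB).2
  rw [GeoDiv.div_mem_iff B _ (Finset.prod_ne_zero_iff.2 fun a _ => dv_ne_zero _ u), map_prod]
    at hi
  simp only [← hδ] at hi
  obtain ⟨J, hJ⟩ : ∃ J, J = B.valuation (dv (g.Jd O) u) := ⟨_, rfl⟩
  rw [← hJ] at hi
  have hJ1 : J ≤ 1 := hi.trans (Finset.prod_le_one' fun a _ => hδ1 i a)
  have hJm : J ^ m ≤ 1 := pow_le_one' hJ1 m
  obtain ⟨j, l, hp⟩ := GeoDiv.perm3 i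
  have key : ∀ x, ∏ a, δ x a < J →
      ∃ b : A, B.valuation (g.s x - algebraMap k K ((b : kˣ) : k)) < J ^ m := fun x hx => by
    obtain ⟨b, hb⟩ : ∃ b, δ x b < 1 := by
      by_contra hn
      have h1 : ∀ a, δ x a = 1 := fun a => (hδ1 x a).eq_of_not_lt fun ha => hn ⟨a, ha⟩
      simp only [h1, Finset.prod_const_one] at hx
      exact hx.not_ge hJ1
    obtain ⟨h1, h2⟩ := hblk x b (Or.inl hb)
    rw [Finset.prod_eq_single b (fun b' _ hb' => h2 b' hb') (by simp)] at hx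
    exact ⟨b, by rw [← h1]; exact pow_lt_pow_left₀ hx zero_le hm.ne'⟩
  have F3 : J ≤ ∏ a, δ j a ∨ J ≤ ∏ a, δ l a := by
    by_contra hn
    rw [not_or, not_le, not_le] at hn
    obtain ⟨b, hb⟩ := key j hn.1
    obtain ⟨b', hb'⟩ := key l hn.2
    have h1 := GeoDiv.val_third B.valuation (s₀ := g.s i)
      (b₀ := algebraMap k K ((((b * b')⁻¹ : A) : kˣ) : k))
      (by rw [← hp, Fin.prod_univ_three, g.prod])
      (by
        rw [← map_mul, ← map_mul, ← Units.val_mul, ← Units.val_mul, ← Subgroup.coe_mul,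
          ← Subgroup.coe_mul, mul_assoc, inv_mul_cancel]
        simp)
      (GeoDiv.val_const hk hB (Units.ne_zero _)) (GeoDiv.val_const hk hB (Units.ne_zero _)) hJm
      hb hb'
    obtain ⟨h2, h3⟩ := hblk i _ (Or.inr (h1.trans_le hJm))
    rw [Finset.prod_eq_single _ (fun b' _ hb' => h3 b' hb') (by simp)] at hi
    rw [← h2] at h1
    exact h1.not_ge (pow_le_pow_left' hi m)
  have eJ : B.valuation (dv (Div.map ho (gX.Jd OX ^ 2)) u) = J ^ m * J ^ m := by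
    have h1 := GeoDiv.val_congr (h.mu_pow hX hO ho 0 1) hB
    rw [← g.Jd_eq, ← gX.Jd_eq, dv_pow, map_pow, ← hJ] at h1
    rw [Div.map_pow, dv_pow, map_pow, ← h1, sq]
  have hJ0 : 0 < J := hJ ▸ GeoDiv.val_pos B (dv_ne_zero _ u)
  rw [inv_mul_eq_div, GeoDiv.div_mem_iff B _ (dv_ne_zero _ u), dv_mul, dv_inv, map_mul, map_inv₀,
    eJ, le_inv_mul_iff₀ (mul_pos (pow_pos hJ0 m) (pow_pos hJ0 m)), dv_prod, map_prod,
    Fintype.prod_prod_type]
  simp only [dv_pow, map_pow, ← hδ]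
  rw [hp]
  have a1 := (pow_le_pow_left' hi m).trans (F2 i)
  rcases F3 with h3 | h3
  · exact mul_le_mul' (mul_le_mul' a1 ((pow_le_pow_left' h3 m).trans (F2 j))) (F1 l)
  · rw [mul_right_comm _ (∏ a, δ j a ^ (α (j, a) : ℕ))]
    exact mul_le_mul' (mul_le_mul' a1 ((pow_le_pow_left' h3 m).trans (F2 l))) (F1 j)

end Vale.Agent.P190
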