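import Vale.Agent.P190.Ext
import Vale.Agent.P190.C1

/-! Formal consequences of the Riemann-Roch package; projection formulas. -/

open Module

noncomputable section

namespace Vale.Agent.P190

variable {k : Type} [Field k] {U K : Type} [Field K] [Algebra k K] {O : Fam U K}
  {a ω : Div O} {ip : Pic O →+ Pic O →+ ℤ}
variable {V : Type} [AddCommGroup V] [Module K V] [Module k V] [IsScalarTower k K V]

theorem RR.chi_line_mul (h : RR k O a ω ip) (c c' : Div O) :
    chi k a (line (c * c')) = chi k a (line c) + chi k a (line c') - chi k a (triv O)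
      + ip (cl c) (cl c') := by
  have h1 := h.chi_twist (isBun_line c') c
  rw [twist_line, c1_line h.isSL.isFam, finrank_self, h.ip_comm] at h1
  rw [h1]
  push_cast
  ring

theorem RR.chi_line_dual (h : RR k O a ω ip) (c : Div O) :
    chi k a (line (ω * c⁻¹)) = chi k a (line c) := by
  have h1 := h.chi_dual (isBun_line c)
  have h2 : push (LinearMap.ringLmapEquivSelf K K K).toLinearMap (dual O (triv O)) = triv O := by
    funext u
    ext x
    constructor
    · rintro ⟨φ, hφ, rfl⟩
      exact hφ 1 (O u).one_mem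
    · intro hx
      refine ⟨(LinearMap.ringLmapEquivSelf K K K).symm x, fun y hy => ?_,
        LinearEquiv.apply_symm_apply _ _⟩
      simpa using (O u).mul_mem hy hx
  rw [← chi_push_equiv a (LinearMap.ringLmapEquivSelf K K K), line, dual_twist, push_twist,
    push_twist, h2, ← twist_mul] at h1
  exact h1

theorem RR.chi_line (h : RR k O a ω ip) (c : Div O) :
    2 * (chi k a (line c) - chi k a (triv O)) = ip (cl c) (cl c) - ip (cl c) (cl ω) := by
  have h1 := h.chi_line_dual c
  have h2 := h.chi_line_mul ω c⁻¹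
  have h3 := h.chi_line_mul c c⁻¹
  have h4 := h.chi_line_dual 1
  rw [inv_one, mul_one, line_one] at h4
  rw [mul_inv_cancel, line_one, cl_inv, map_neg] at h3
  rw [cl_inv, map_neg, h.ip_comm] at h2
  linarith

theorem RR.chi_of_subsingleton (h : RR k O a ω ip) [Subsingleton V] (L : Sys U V) :
    chi k a L = 0 := by
  refine chi_eq ⟨0, 0, 0, fun j _ => ?_⟩
  have : h0 k (twist (a ^ j) L) = 0 := finrank_zero_of_subsingleton
  simp [this]

/-- the second Chern character in terms of the Euler characteristic -/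
def ch2 (k : Type) [Field k] (a ω : Div O) (ip : Pic O →+ Pic O →+ ℤ) {V : Type}
    [AddCommGroup V] [Module K V] [Module k V] [Algebra k K] (L : Sys U V) : ℝ :=
  (chi k a L : ℝ) - finrank K V * chi k a (triv O) + (ip (c1 O L) (cl ω) : ℝ) / 2

theorem RR.ch2_line (h : RR k O a ω ip) (c : Div O) :
    ch2 k a ω ip (line c) = (ip (cl c) (cl c) : ℝ) / 2 := by
  have h1 : (2 : ℝ) * ((chi k a (line c) : ℝ) - chi k a (triv O)) =
      ip (cl c) (cl c) - ip (cl c) (cl ω) := by exact_mod_cast h.chi_line c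
  rw [ch2, c1_line h.isSL.isFam, finrank_self]
  push_cast
  linarith

theorem RR.ch2_twist (h : RR k O a ω ip) {L : Sys U V} (hL : IsBun O L) (c : Div O) :
    ch2 k a ω ip (twist c L) = ch2 k a ω ip L + ip (c1 O L) (cl c)
      + finrank K V * ((ip (cl c) (cl c) : ℝ) / 2) := by
  have h1 : (2 : ℝ) * ((chi k a (line c) : ℝ) - chi k a (triv O)) =
      ip (cl c) (cl c) - ip (cl c) (cl ω) := by exact_mod_cast h.chi_line c
  rw [ch2, ch2, h.chi_twist hL, c1_twist h.isSL.isFam hL, map_add, map_nsmul]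
  simp only [AddMonoidHom.add_apply, AddMonoidHom.nsmul_apply, nsmul_eq_mul]
  push_cast
  linear_combination (finrank K V : ℝ) / 2 * h1

theorem RR.ch2_dual (h : RR k O a ω ip) {L : Sys U V} (hL : IsBun O L) :
    ch2 k a ω ip (dual O L) = ch2 k a ω ip L := by
  have := hL.finiteDimensional
  have h1 := h.chi_dual hL
  have h4 := h.chi_line_dual 1
  rw [inv_one, mul_one, line_one] at h4
  rw [h.chi_twist hL.dual, h4, sub_self, mul_zero, add_zero] at h1
  rw [ch2, ch2, ← h1, c1_dual h.isSL.isFam hL, Subspace.dual_finrank_eq, map_neg]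
  simp only [AddMonoidHom.neg_apply]
  push_cast
  ring

theorem RR.ch2_tens (h : RR k O a ω ip) {V' : Type} [AddCommGroup V'] [Module K V']
    [Module k V'] [IsScalarTower k K V'] {L : Sys U V} {L' : Sys U V'} (hL : IsBun O L)
    (hL' : IsBun O L') : ch2 k a ω ip (tens K L L') = finrank K V' * ch2 k a ω ip L
      + finrank K V * ch2 k a ω ip L' + ip (c1 O L) (c1 O L') := by
  rw [ch2, ch2, ch2, h.chi_tens hL hL', c1_tens h.isSL.isFam hL hL', finrank_tensorProduct,
    map_add, map_nsmul, map_nsmul]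
  simp only [AddMonoidHom.add_apply, AddMonoidHom.nsmul_apply, nsmul_eq_mul]
  push_cast
  ring

variable {K₀ : Type} [Field K₀] [Algebra k K₀] [Algebra K₀ K] [IsScalarTower k K₀ K]
  {O₀ : Fam U K₀} {a₀ ω₀ : Div O₀} {ip₀ : Pic O₀ →+ Pic O₀ →+ ℤ}

theorem RR.ip_map (h : RR k O a ω ip) (h₀ : RR k O₀ a₀ ω₀ ip₀) (hf : FinOver O₀ O)
    (ha : SameDiv (Div.map hf.le a₀) a) (c c' : Div O₀) :
    ip (cl (Div.map hf.le c)) (cl (Div.map hf.le c')) = finrank K₀ K * ip₀ (cl c) (cl c') := by
  have h1 : ∀ c : Div O₀, chi k a (line (Div.map hf.le c)) = chi k a₀ (triv O) +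
      ip₀ (c1 O₀ (triv O)) (cl c) +
        finrank K₀ K * (chi k a₀ (line c) - chi k a₀ (triv O₀)) := by
    intro c
    rw [chi_res hf.le h.isSL.isFam ha (isBun_line _), line, twist_map, h₀.chi_twist hf.bun]
  have h2 := h.chi_line_mul (Div.map hf.le c) (Div.map hf.le c')
  rw [← Div.map_mul, h1, h1, h1, chi_res hf.le h.isSL.isFam ha isBun_triv, h₀.chi_line_mul,
    cl_mul, map_add] at h2
  linear_combination -h2

/-- degree of a push-forward along a pencil with self-intersection zero and rational fibres -/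
theorem RR.sdeg_res (h : RR k O a ω ip) (h₀ : RR k O₀ a₀ ω₀ ip₀) (hf : FinOver O₀ O)
    (ha : SameDiv (Div.map hf.le a₀) a) (φ : Div O₀) (hφ : ip₀ (cl φ) (cl φ) = 0)
    (hφ' : chi k a₀ (line φ) - chi k a₀ (triv O₀) = 1) [Module K₀ V] [IsScalarTower K₀ K V]
    [IsScalarTower k K₀ V] {L : Sys U V} (hL : IsBun O L) (W : Submodule K V) :
    sdeg O₀ (wtOf ip₀ (cl φ)) L (W.restrictScalars K₀) + (finrank K₀ K * finrank K W : ℕ) =
      sdeg O (wtOf ip (cl (Div.map hf.le φ))) L W
        - finrank K W * ((ip (cl ω) (cl (Div.map hf.le φ)) : ℝ) / 2) := by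
  have hO := h.isSL.isFam
  have hO₀ := h₀.isSL.isFam
  have hW := hL.sub hO W
  have hW₀ : IsBun O₀ (sub L W) := hW.res hf hO₀
  have h1 : sdeg O₀ (wtOf ip₀ (cl φ)) L (W.restrictScalars K₀) =
      ip₀ (c1 O₀ (sub L W)) (cl φ) := by
    rw [sdeg, wtOf_apply, ← sub_restrictScalars (K₀ := K₀) L W,
      c1_push_equiv hO₀ ((hL.res hf hO₀).sub hO₀ _)]
  have h2 := h₀.chi_twist hW₀ φ
  have h3 := h.chi_twist hW (Div.map hf.le φ)
  have h4 := h.chi_line (Div.map hf.le φ)
  rw [h.ip_map h₀ hf ha, hφ, mul_zero, zero_sub, h.ip_comm] at h4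
  rw [chi_res hf.le hO ha (hW.twist _), twist_map, h2, chi_res hf.le hO ha hW, hφ', mul_one,
    ← finrank_mul_finrank K₀ K W] at h3
  have h3' := congrArg (Int.cast : ℤ → ℝ) h3
  have h4' := congrArg (Int.cast : ℤ → ℝ) h4
  push_cast at h3' h4'
  rw [h1, sdeg, wtOf_apply]
  push_cast
  linear_combination h3' + (finrank K W : ℝ) / 2 * h4'

end Vale.Agent.P190
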