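import Vale.Agent.P190.Pencil

/-! Second moment bounds for sections on the generic fibre of a pencil. -/

open Module
open scoped TensorProduct

noncomputable section

namespace Vale.Agent.P190

variable {k : Type} [Field k] {U K : Type} [Field K] [Algebra k K] {O : Fam U K}
variable {V V' V'' : Type} [AddCommGroup V] [Module K V] [AddCommGroup V'] [Module K V']
  [AddCommGroup V''] [Module K V'']

/-- second moment bound for all twists of `G` -/
def RBH.Fl (k : Type) [Field k] [Algebra k K] (σ : K) (d : Pic O →+ ℝ) (C τ : ℝ) (G : Sys U V)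
    (ρ D M : ℝ) : Prop :=
  ∀ (c : Div O) (l : ℝ), 0 < l → ∃ n : ℕ, psi k O σ (twist c G) ≤ n ∧
    (n : ℝ) * l ≤ C * (M + 2 * D * (d (cl c) + τ + l) + ρ * (d (cl c) + τ + l) ^ 2)

variable {σ : K} {d : Pic O →+ ℝ} {C τ : ℝ}

theorem RBH.Fl.mono {G : Sys U V} {ρ D M M' : ℝ} (h : RBH.Fl k σ d C τ G ρ D M) (hC : 0 ≤ C)
    (hM : M ≤ M') : RBH.Fl k σ d C τ G ρ D M' := by
  intro c l hl
  obtain ⟨n, h1, h2⟩ := h c l hl
  exact ⟨n, h1, h2.trans (mul_le_mul_of_nonneg_left (by linarith) hC)⟩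

theorem RBH.Fl.congr {G : Sys U V} {ρ D M ρ' D' M' : ℝ} (h : RBH.Fl k σ d C τ G ρ D M)
    (h1 : ρ = ρ') (h2 : D = D') (h3 : M = M') : RBH.Fl k σ d C τ G ρ' D' M' := by
  subst h1 h2 h3; exact h

theorem RBH.fl_push_equiv (e : V ≃ₗ[K] V') {G : Sys U V} {ρ D M : ℝ} :
    RBH.Fl k σ d C τ (push e.toLinearMap G) ρ D M ↔ RBH.Fl k σ d C τ G ρ D M := by
  unfold RBH.Fl
  simp only [← push_twist, psi_push_equiv]

theorem RBH.Fl.twist {G : Sys U V} {ρ D M : ℝ} (h : RBH.Fl k σ d C τ G ρ D M) (c₀ : Div O) :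
    RBH.Fl k σ d C τ (twist c₀ G) ρ (D + ρ * d (cl c₀))
      (M + 2 * D * d (cl c₀) + ρ * d (cl c₀) ^ 2) := by
  intro c l hl
  obtain ⟨n, h1, h2⟩ := h (c * c₀) l hl
  refine ⟨n, by rwa [← twist_mul], h2.trans (le_of_eq ?_)⟩
  rw [cl_mul, map_add]
  ring

theorem RBH.Fl.exact (hO : IsFam O) (hk : HasK k O) {G' : Sys U V'} {G : Sys U V}
    {G'' : Sys U V''} {i : V' →ₗ[K] V} {p : V →ₗ[K] V''} (h : Exact3 G' G G'' i p)
    (hG : IsBun O G) {ρ D M ρ' D' M' : ℝ} (h1 : RBH.Fl k σ d C τ G' ρ D M)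
    (h2 : RBH.Fl k σ d C τ G'' ρ' D' M') :
    RBH.Fl k σ d C τ G (ρ + ρ') (D + D') (M + M') := by
  intro c l hl
  obtain ⟨n, a1, a2⟩ := h1 c l hl
  obtain ⟨n', b1, b2⟩ := h2 c l hl
  refine ⟨n + n', ?_, ?_⟩
  · refine ((h.twist c).psi_le hO hk σ (hG.twist c)).trans ?_
    push_cast
    exact add_le_add a1 b1
  · push_cast
    linarith

theorem RBH.fl_subsingleton [Subsingleton V] (G : Sys U V) : RBH.Fl k σ d C τ G 0 0 0 := by
  intro c l _
  refine ⟨0, ?_, by simp⟩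
  rw [psi, rank_subsingleton']
  simp

theorem RBH.push_refl (G : Sys U V) : push (LinearEquiv.refl K V).toLinearMap G = G := by
  rw [push_equiv_eq_pull]
  rfl

theorem RBH.Fl.tens_one (hO : IsFam O) {G : Sys U V'} (hG : IsBun O G) {ρ D M : ℝ}
    (h : RBH.Fl k σ d C τ G ρ D M) {L : Sys U V} (hL : IsBun O L) (hr : finrank K V = 1) :
    RBH.Fl k σ d C τ (tens K G L) ρ (D + ρ * d (c1 O L))
      (M + 2 * D * d (c1 O L) + ρ * d (c1 O L) ^ 2) := by
  obtain ⟨c, e, rfl⟩ := hL.exists_line hO hr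
  rw [c1_push_equiv hO (isBun_line c), c1_line hO]
  have h1 := push_congr_tens (LinearEquiv.refl K V') e G (line c)
  rw [RBH.push_refl] at h1
  rw [← h1, RBH.fl_push_equiv, ← push_comm, RBH.fl_push_equiv,
    ← RBH.fl_push_equiv (TensorProduct.lid K V'), push_lid hG]
  exact h.twist c

theorem RBH.exists_tens (hO : IsFam O) (hk : HasK k O) (r : ℕ) :
    ∀ (V : Type) [AddCommGroup V] [Module K V] (L : Sys U V), IsBun O L → finrank K V = r →
      ∃ ML : ℝ, ∀ (V' : Type) [AddCommGroup V'] [Module K V'] (G : Sys U V') (ρ D M : ℝ),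
        IsBun O G → RBH.Fl k σ d C τ G ρ D M →
        RBH.Fl k σ d C τ (tens K G L) (ρ * r) (r * D + ρ * d (c1 O L))
          (r * M + 2 * D * d (c1 O L) + ρ * ML) := by
  induction r with
  | zero =>
    intro V _ _ L hL hr
    have := hL.finiteDimensional
    have : Subsingleton V := finrank_zero_iff.1 hr
    refine ⟨0, fun V' _ _ G ρ D M _ _ => ?_⟩
    refine (RBH.fl_subsingleton _).congr ?_ ?_ ?_ <;> simp [c1_of_subsingleton hO hL]
  | succ r ih =>
    intro V _ _ L hL hr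
    have := hL.finiteDimensional
    have : Nontrivial V := nontrivial_of_finrank_eq_succ hr
    obtain ⟨x, hx⟩ := exists_ne (0 : V)
    have hW : finrank K (K ∙ x) = 1 := finrank_span_singleton hx
    have hE := exact3_sub_quot L (K ∙ x)
    have hq : finrank K (V ⧸ (K ∙ x)) = r := by
      have := hE.finrank_add
      omega
    obtain ⟨ML, hML⟩ := ih _ (quot L (K ∙ x)) (hL.quot hO _) hq
    refine ⟨d (c1 O (sub L (K ∙ x))) ^ 2 + ML, fun V' _ _ G ρ D M hG h => ?_⟩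
    have h1 := h.tens_one hO hG (hL.sub hO (K ∙ x)) hW
    have h2 := hML V' G ρ D M hG h
    have h3 := RBH.Fl.exact hO hk (hE.tens hO hL hG) (hG.tens hL) h1 h2
    refine h3.congr ?_ ?_ ?_
    · push_cast; ring
    · rw [hE.c1_add hO hL, map_add]; push_cast; ring
    · rw [hE.c1_add hO hL, map_add]; push_cast; ring

variable {a ω : Div O} {ip : Pic O →+ Pic O →+ ℤ}
variable {KX : Type} [Field KX] [Algebra k KX] [Algebra KX K] [IsScalarTower k KX K]
  [FiniteDimensional KX K] {s : Fin 2 → KX}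

theorem RBH.fl_triv [Infinite k] (h : RR k O a ω ip) (hs : Coord k s) {τ : ℤ} (hτ : 0 < τ)
    (h01 : ip (cl (Phi O (algebraMap KX K (s 0)))) (cl (Phi O (algebraMap KX K (s 1)))) = τ)
    (h11 : ip (cl (Phi O (algebraMap KX K (s 1)))) (cl (Phi O (algebraMap KX K (s 1)))) = 0) :
    RBH.Fl k (algebraMap KX K (s 1)) (wtOf ip (cl (Phi O (algebraMap KX K (s 1)))))
      (finrank KX K / (4 * τ)) τ (triv O) 1 0 0 := by
  intro c l hl
  have h1 := h.psi_rank_one hs hτ h01 h11 (isBun_line c) (finrank_self K)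
  rw [c1_line h.isSL.isFam] at h1
  refine ⟨_, h1, ?_⟩
  rw [wtOf_apply]
  set z := ip (cl c) (cl (Phi O (algebraMap KX K (s 1)))) with hz
  have hτ' : (0 : ℝ) < τ := by exact_mod_cast hτ
  have h2 : (((z / τ + 1).toNat : ℕ) : ℝ) * (4 * τ * l) ≤ ((z : ℝ) + τ + l) ^ 2 := by
    rcases le_or_gt (z / τ + 1) 0 with h3 | h3
    · rw [Int.toNat_eq_zero.2 h3]
      simp only [Nat.cast_zero, zero_mul]
      positivity
    · have h4 : (((z / τ + 1).toNat : ℕ) : ℝ) = ((z / τ + 1 : ℤ) : ℝ) := by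
        rw [← Int.cast_natCast, Int.toNat_of_nonneg h3.le]
      have h5 : ((z / τ : ℤ) : ℝ) * τ ≤ z := by exact_mod_cast Int.ediv_mul_le z hτ.ne'
      rw [h4]
      push_cast
      nlinarith [sq_nonneg ((z : ℝ) + τ - l), mul_le_mul_of_nonneg_right h5 hl.le]
  have hN : (0 : ℝ) ≤ finrank KX K := Nat.cast_nonneg _
  have h6 := mul_le_mul_of_nonneg_left h2 hN
  push_cast
  rw [div_mul_eq_mul_div, le_div_iff₀ (by positivity)]
  nlinarith

/-- the bound on sections: twisting down along the pencil -/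
theorem RBH.h0_le (h : RR k O a ω ip) [Module k V] [IsScalarTower k K V]
    (hσ : Transcendental k σ) {G : Sys U V} (hG : IsBun O G) {B : ℝ} (c : Div O)
    (hB : ∀ e : ℕ, ∃ n : ℕ, psi k O σ (twist (Zer k O σ 0 ^ e * c) G) ≤ n ∧ (n : ℝ) ≤ B)
    (e : ℕ) : (h0 k (twist c G) : ℝ) ≤ h0 k (twist (Zer k O σ 0 ^ e * c) G) + e * B := by
  induction e with
  | zero => simp
  | succ e ih =>
    obtain ⟨n, h1, h2⟩ := hB e
    have hb := hG.twist (Zer k O σ 0 ^ e * c)
    have h3 := h0_le_add_psi h.isSL.isFam h.hasK hσ 0 hb (h.fin_H0 hb)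
      ((psi_pull_le σ _ _ (Submodule.injective_subtype _)).trans h1)
    rw [← twist_mul, ← mul_assoc, ← pow_succ'] at h3
    have h4 : (h0 k (twist (Zer k O σ 0 ^ e * c) G) : ℝ)
        ≤ h0 k (twist (Zer k O σ 0 ^ (e + 1) * c) G) + n := by exact_mod_cast h3
    push_cast
    linarith

omit [Algebra k K] in
theorem RBH.h0_eq_zero (hO : IsFam O) (hd : IsWt d) [Module k V] {G : Sys U V} (hG : IsBun O G)
    {μ : ℝ} (hU : Ub O d G μ) (hμ : μ < 0) : h0 k G = 0 := by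
  have : H0 k G = ⊥ := by
    rw [H0, Submodule.span_eq_bot]
    exact fun x hx => hU.eq_zero hO hd hG hμ hx
  rw [h0, this, finrank_bot]

end Vale.Agent.P190
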