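import Vale.Agent.P190.TensorA

/-! Tensor products when the rank two lemma holds. -/

open Module
open scoped TensorProduct

noncomputable section

namespace Vale.Agent.P190

variable {U K : Type} [Field K] {O : Fam U K} {d : Pic O →+ ℝ}
variable {V V' : Type} [AddCommGroup V] [Module K V] [AddCommGroup V'] [Module K V']

theorem TensorC.hyper (hO : IsFam O) (hd : IsWt d) (h2 : Rank2 d) (r : ℕ) :
    ∀ (V : Type) [AddCommGroup V] [Module K V] (L : Sys U V), IsBun O L → finrank K V = r + 1 →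
      ∀ ε : ℝ, 0 < ε → ∃ H : Submodule K V, finrank K H = r ∧
        (r : ℝ) / (r + 1) * d (c1 O L) - ε ≤ sdeg O d L H := by
  induction r with
  | zero =>
    intro V _ _ L hL _ ε hε
    refine ⟨⊥, finrank_bot K V, ?_⟩
    rw [sdeg_bot hO hL]
    simp [hε.le]
  | succ r ih =>
    intro V _ _ L hL hV ε hε
    have := hL.finiteDimensional
    obtain ⟨μ, hμ⟩ := exists_Ub hO hd hL
    set S : Set ℝ := {t | ∃ H : Submodule K V, finrank K H = r + 1 ∧ t = sdeg O d L H} with hS
    have hne : S.Nonempty := by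
      obtain ⟨f, hf⟩ := exists_linearIndependent_of_le_finrank (R := K) (M := V) (n := r + 1)
        (by omega)
      exact ⟨_, Submodule.span K (Set.range f), by simpa using finrank_span_eq_card hf, rfl⟩
    have hbd : BddAbove S := ⟨μ * ((r + 1 : ℕ) : ℝ), by
      rintro _ ⟨H, hH, rfl⟩
      rw [← hH]
      exact hμ H⟩
    have hε' : 0 < ε / 5 := by positivity
    obtain ⟨_, ⟨H, hH, rfl⟩, hHb⟩ := exists_lt_of_lt_csSup hne (sub_lt_self (sSup S) hε')
    refine ⟨H, hH, ?_⟩
    obtain ⟨G', hG', hG'b⟩ := ih H (sub L H) (hL.sub hO H) hH _ hε'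
    have e1 : sdeg O d (sub L H) G' = sdeg O d L (G'.map H.subtype) :=
      sdeg_pull hO hL _ H.injective_subtype G'
    obtain ⟨G, hG⟩ : ∃ G, G = G'.map H.subtype := ⟨_, rfl⟩
    have hGr : finrank K G = r := by
      rw [hG, Submodule.finrank_map_subtype_eq, hG']
    rw [e1, ← hG] at hG'b
    have hq : finrank K (V ⧸ G) = 2 := by
      have := G.finrank_quotient_add_finrank
      omega
    obtain ⟨x, hx, hxb⟩ := h2 (V ⧸ G) (quot L G) (hL.quot hO G) hq _ hε'
    have e2 : sdeg O d (quot L G) (K ∙ x) =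
        sdeg O d L ((K ∙ x).comap G.mkQ) - sdeg O d L (LinearMap.ker G.mkQ) :=
      sdeg_push hO hL _ G.mkQ_surjective _
    have e3 := C1.finrank_comap G.mkQ G.mkQ_surjective (K ∙ x)
    rw [Submodule.ker_mkQ] at e2 e3
    rw [finrank_span_singleton hx, hGr] at e3
    have hb : sdeg O d L ((K ∙ x).comap G.mkQ) ≤ sSup S := le_csSup hbd ⟨_, e3, rfl⟩
    rw [e2, c1_quot hO hL] at hxb
    change (r : ℝ) / (r + 1) * sdeg O d L H - ε / 5 ≤ sdeg O d L G at hG'b
    have hr : (0 : ℝ) ≤ r := Nat.cast_nonneg r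
    have hr1 : (0 : ℝ) < r + 1 := by linarith
    have k1 : d (c1 O L) ≤ (2 - r / (r + 1)) * sdeg O d L H + 5 * (ε / 5) := by linarith
    have k2 : (2 - r / (r + 1) : ℝ) = (r + 2) / (r + 1) := by field_simp; ring
    have k3 : ((r : ℝ) + 1) / (r + 1 + 1) ≤ 1 := (div_le_one (by linarith)).2 (by linarith)
    have k4 : (0 : ℝ) ≤ (r + 1) / (r + 1 + 1) := by positivity
    have k5 := mul_le_mul_of_nonneg_left k1 k4
    have k6 : ((r : ℝ) + 1) / (r + 1 + 1) * ((2 - r / (r + 1)) * sdeg O d L H) =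
        sdeg O d L H := by
      rw [k2]; field_simp; ring
    have k7 := mul_le_of_le_one_left hε.le k3
    push_cast
    rw [mul_add, k6] at k5
    linarith

theorem TensorC.line (hO : IsFam O) (hd : IsWt d) (h2 : Rank2 d) (r : ℕ) :
    ∀ (V : Type) [AddCommGroup V] [Module K V] (L : Sys U V), IsBun O L → finrank K V = r + 1 →
      ∀ ε : ℝ, 0 < ε → ∃ x : V, x ≠ 0 ∧ d (c1 O L) / (r + 1) - ε ≤ sdeg O d L (K ∙ x) := by
  induction r with
  | zero =>
    intro V _ _ L hL hV ε hε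
    obtain ⟨x, hx, hx'⟩ := finrank_eq_one_iff'.1 hV
    refine ⟨x, hx, ?_⟩
    have : (K ∙ x) = ⊤ := eq_top_iff.2 fun w _ => Submodule.mem_span_singleton.2 (hx' w)
    rw [this, sdeg_top hO hL]
    simp [hε.le]
  | succ r ih =>
    intro V _ _ L hL hV ε hε
    have hε' : 0 < ε / 2 := by positivity
    obtain ⟨H, hH, hHb⟩ := TensorC.hyper hO hd h2 (r + 1) V L hL hV _ hε'
    obtain ⟨x, hx, hxb⟩ := ih H (sub L H) (hL.sub hO H) hH _ hε'
    refine ⟨x, fun h => hx (Subtype.ext h), ?_⟩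
    have e1 : sdeg O d (sub L H) (K ∙ x) = sdeg O d L ((K ∙ x).map H.subtype) :=
      sdeg_pull hO hL _ H.injective_subtype _
    rw [Submodule.map_span, Set.image_singleton] at e1
    rw [e1] at hxb
    change sdeg O d L H / (r + 1) - ε / 2 ≤ sdeg O d L (K ∙ (x : V)) at hxb
    have hr : (0 : ℝ) ≤ r := Nat.cast_nonneg r
    have hr1 : (0 : ℝ) < r + 1 := by linarith
    push_cast at hHb ⊢
    have k1 := div_le_div_of_nonneg_right hHb hr1.le
    have k2 : (((r : ℝ) + 1) / (r + 1 + 1) * d (c1 O L) - ε / 2) / (r + 1) =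
        d (c1 O L) / (r + 1 + 1) - ε / 2 / (r + 1) := by field_simp
    have k3 : ε / 2 / (r + 1) ≤ ε / 2 := div_le_self hε'.le (by linarith)
    linarith

/-- a tensor as a linear map from the dual of the first factor to the second factor -/
def TensorC.toHom (K V V' : Type) [Field K] [AddCommGroup V] [Module K V] [AddCommGroup V']
    [Module K V'] : V ⊗[K] V' →ₗ[K] (Module.Dual K V →ₗ[K] V') :=
  dualTensorHom K (Module.Dual K V) V' ∘ₗ (Module.Dual.eval K V).rTensor V'

theorem TensorC.toHom_tmul (v : V) (w : V') (φ : Module.Dual K V) :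
    TensorC.toHom K V V' (v ⊗ₜ w) φ = φ v • w := by
  simp [TensorC.toHom]

theorem TensorC.toHom_injective [FiniteDimensional K V] :
    Function.Injective (TensorC.toHom K V V') := by
  rw [TensorC.toHom, LinearMap.coe_comp]
  exact (dualTensorHomEquiv K (Module.Dual K V) V').injective.comp
    (Module.Flat.rTensor_preserves_injective_linearMap _ (Module.evalEquiv K V).injective)

theorem TensorC.toHom_mem {L : Sys U V} {L' : Sys U V'} (hL' : IsBun O L') {u : U}
    {z : V ⊗[K] V'} (hz : z ∈ tens K L L' u) {φ : Module.Dual K V} (hφ : φ ∈ dual O L u) :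
    TensorC.toHom K V V' z φ ∈ L' u := by
  induction hz using AddSubgroup.closure_induction with
  | mem z hz =>
    obtain ⟨x, hx, y, hy, rfl⟩ := hz
    rw [TensorC.toHom_tmul]
    exact hL'.smul_mem (hφ x hx) hy
  | zero => simp
  | add a b _ _ ha hb =>
    rw [map_add, LinearMap.add_apply]
    exact AddSubgroup.add_mem _ ha hb
  | neg a _ ha =>
    rw [map_neg, LinearMap.neg_apply]
    exact AddSubgroup.neg_mem _ ha

theorem Rank2.exists_line (hO : IsFam O) (hd : IsWt d) (h2 : Rank2 d) {L : Sys U V}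
    (hL : IsBun O L) [Nontrivial V] {ε : ℝ} (hε : 0 < ε) :
    ∃ x : V, x ≠ 0 ∧ d (c1 O L) / finrank K V - ε ≤ sdeg O d L (K ∙ x) := by
  have := hL.finiteDimensional
  obtain ⟨r, hr⟩ : ∃ r, finrank K V = r + 1 :=
    Nat.exists_eq_succ_of_ne_zero (finrank_pos (R := K) (M := V)).ne'
  obtain ⟨x, hx, h⟩ := TensorC.line hO hd h2 r V L hL hr ε hε
  refine ⟨x, hx, ?_⟩
  rw [hr]
  push_cast
  exact h

theorem sdeg_line_tens_le (hO : IsFam O) (hd : IsWt d) {L : Sys U V} {L' : Sys U V'}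
    (hL : IsBun O L) (hL' : IsBun O L') {μ ν : ℝ} (h : Ub O d L μ) (h' : Ub O d L' ν)
    {x : V ⊗[K] V'} (hx : x ≠ 0) : sdeg O d (tens K L L') (K ∙ x) ≤ μ + ν := by
  have := hL.finiteDimensional
  have := hL'.finiteDimensional
  have hT := (hL.tens hL').sub hO (K ∙ x)
  obtain ⟨c, e, he⟩ := hT.exists_line hO (finrank_span_singleton hx)
  have e1 : sdeg O d (tens K L L') (K ∙ x) = d (cl c) := by
    rw [sdeg, he, c1_push_equiv hO (isBun_line c), c1_line hO]
  have hy : ((e 1 : K ∙ x) : V ⊗[K] V') ≠ 0 := fun h0 =>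
    one_ne_zero (e.injective ((Subtype.ext h0).trans (map_zero e).symm))
  have hmem : ∀ u, dv c u • ((e 1 : K ∙ x) : V ⊗[K] V') ∈ tens K L L' u := fun u => by
    have h1 : e (dv c u) ∈ sub (tens K L L') (K ∙ x) u := by
      rw [he]
      exact ⟨dv c u, Lat2.dv_mem_line c u, rfl⟩
    have h2 : e (dv c u) = dv c u • e 1 := by rw [← map_smul, smul_eq_mul, mul_one]
    rw [h2] at h1
    exact h1
  obtain ⟨y, hy'⟩ : ∃ y, y = ((e 1 : K ∙ x) : V ⊗[K] V') := ⟨_, rfl⟩
  rw [← hy'] at hy hmem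
  obtain ⟨φ, hφ⟩ : ∃ φ, φ = TensorC.toHom K V V' y := ⟨_, rfl⟩
  have hφ0 : φ ≠ 0 := fun h0 => hy (TensorC.toHom_injective (by rw [← hφ, h0, map_zero]))
  have hq : 0 < finrank K (LinearMap.range φ) := by
    rw [Nat.pos_iff_ne_zero, Ne, Submodule.finrank_eq_zero, LinearMap.range_eq_bot]
    exact hφ0
  have hle : push φ.rangeRestrict (dual O L) ≤ sub (twist c⁻¹ L') (LinearMap.range φ) := by
    rintro u _ ⟨ψ, hψ, rfl⟩
    have h1 := TensorC.toHom_mem hL' (hmem u) hψ
    rw [map_smul, LinearMap.smul_apply, ← hφ] at h1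
    change (dv c⁻¹ u)⁻¹ • φ ψ ∈ L' u
    rw [dv_inv, inv_inv]
    exact h1
  have hP := hL.dual.push hO φ.rangeRestrict φ.surjective_rangeRestrict
  have a1 := ((h.dual hO hL).push hO hL.dual φ.rangeRestrict φ.surjective_rangeRestrict).le_c1
    hO hP
  have a2 : d (c1 O (push φ.rangeRestrict (dual O L))) ≤
      sdeg O d (twist c⁻¹ L') (LinearMap.range φ) :=
    hd.c1_mono hO hP ((hL'.twist c⁻¹).sub hO _) hle
  rw [sdeg_twist hO hL', cl_inv, map_neg] at a2
  have a3 := h' (LinearMap.range φ)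
  have hq' : (0 : ℝ) < finrank K (LinearMap.range φ) := Nat.cast_pos.2 hq
  rw [e1]
  refine le_of_mul_le_mul_left ?_ hq'
  linarith

theorem Rank2.Ub_tens (hO : IsFam O) (hd : IsWt d) (h2 : Rank2 d) {L : Sys U V} {L' : Sys U V'}
    (hL : IsBun O L) (hL' : IsBun O L') {μ ν : ℝ} (h : Ub O d L μ) (h' : Ub O d L' ν) :
    Ub O d (tens K L L') (μ + ν) := by
  intro W
  have hT := hL.tens hL'
  have := hT.finiteDimensional
  rcases eq_or_ne W ⊥ with rfl | hW
  · rw [sdeg_bot hO hT]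
    simp
  have : Nontrivial W := Submodule.nontrivial_iff_ne_bot.2 hW
  have hr : (0 : ℝ) < finrank K W := Nat.cast_pos.2 finrank_pos
  rw [← div_le_iff₀ hr]
  refine le_of_forall_pos_le_add fun ε hε => ?_
  obtain ⟨x, hx, hxb⟩ := h2.exists_line hO hd (hT.sub hO W) hε
  have e1 : sdeg O d (sub (tens K L L') W) (K ∙ x) =
      sdeg O d (tens K L L') ((K ∙ x).map W.subtype) :=
    sdeg_pull hO hT _ W.injective_subtype _
  rw [Submodule.map_span, Set.image_singleton] at e1
  have a1 := sdeg_line_tens_le hO hd hL hL' h h' (x := W.subtype x) fun h0 => hx (Subtype.ext h0)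
  rw [e1] at hxb
  change sdeg O d (tens K L L') W / _ - ε ≤ _ at hxb
  linarith

end Vale.Agent.P190
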