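import Vale.Agent.P190.TensorB
import Vale.Agent.P190.TensorC

/-! Galois descent and the tensor product theorem in characteristic zero. -/

open Module
open scoped TensorProduct

noncomputable section

namespace Vale.Agent.P190

variable {U K : Type} [Field K] {O : Fam U K} {d : Pic O →+ ℝ}
variable {V V' : Type} [AddCommGroup V] [Module K V] [AddCommGroup V'] [Module K V']

section BaseChange

variable {E : Type} [Field E] [Algebra K E]

/-- base change of a system -/
def TensorD.bc (K : Type) [Field K] [Algebra K E] [Module K V] (O' : Fam U E) (L : Sys U V) :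
    Sys U (E ⊗[K] V) :=
  fun u => spanO (O' u) ((fun x => (1 : E) ⊗ₜ[K] x) '' L u)

variable {O' : Fam U E}

lemma TensorD.bc_latt (hov : Over O O') {ι : Type} [Finite ι] (e : Basis ι K V) {L : Sys U V}
    {u : U} (h : L u = latt (O u) e) : TensorD.bc K O' L u = latt (O' u) (e.baseChange E) := by
  apply le_antisymm
  · refine spanO_le ?_ fun c hc x hx => Lat1.latt_smul_mem _ hc hx
    rintro _ ⟨x, hx, rfl⟩ i
    rw [Basis.baseChange_repr_tmul, ← Algebra.algebraMap_eq_smul_one]
    rw [h] at hx
    exact hov u _ (hx i)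
  · refine Lat1.latt_le _ (fun i => ?_) fun c hc x hx => spanO_smul_mem hc hx
    rw [Basis.baseChange_apply]
    exact subset_spanO ⟨e i, h ▸ Lat1.basis_mem e i, rfl⟩

lemma TensorD.isBun_bc (hov : Over O O') {L : Sys U V} (hL : IsBun O L) :
    IsBun O' (TensorD.bc K O' L) := by
  refine ⟨fun u => ?_, ?_⟩
  · obtain ⟨n, e, he⟩ := hL.lat u
    exact ⟨n, _, TensorD.bc_latt hov e he⟩
  · obtain ⟨n, e, he⟩ := hL.std
    exact ⟨n, e.baseChange E, he.subset fun u hu hc => hu (TensorD.bc_latt hov e hc)⟩

lemma TensorD.c1_bc (hO : IsFam O) (hO' : IsFam O') (hov : Over O O') {db : Pic O' →+ ℝ}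
    (hmap : ∀ c : Div O, db (cl (Div.map hov c)) = d (cl c)) {L : Sys U V} (hL : IsBun O L) :
    db (c1 O' (TensorD.bc K O' L)) = d (c1 O L) := by
  obtain ⟨n, e₀, -⟩ := hL.std
  obtain ⟨c, hc⟩ := hL.exists_det hO e₀
  rw [c1_eq hO e₀ c hc, ← hmap]
  congr 1
  refine c1_eq hO' (e₀.baseChange E) _ fun u => ?_
  obtain ⟨e, he, he'⟩ := hc u
  refine ⟨e.baseChange E, TensorD.bc_latt hov e he, ?_⟩
  rw [dv_map, he', Basis.det_apply, Basis.det_apply, RingHom.map_det]
  congr 1
  ext i j
  simp [Basis.toMatrix_apply, Algebra.algebraMap_eq_smul_one]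

lemma TensorD.bc_injective (W : Submodule K V) :
    Function.Injective (W.subtype.baseChange E) := by
  rw [LinearMap.baseChange_eq_ltensor]
  exact Module.Flat.lTensor_preserves_injective_linearMap _ W.injective_subtype

lemma TensorD.finrank_bc (W : Submodule K V) :
    finrank E (W.baseChange E) = finrank K W := by
  rw [Submodule.baseChange, LinearMap.finrank_range_of_inj (TensorD.bc_injective W),
    Module.finrank_baseChange]

lemma TensorD.sdeg_bc (hO : IsFam O) (hO' : IsFam O') (hov : Over O O') {db : Pic O' →+ ℝ}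
    (hmap : ∀ c : Div O, db (cl (Div.map hov c)) = d (cl c)) {L : Sys U V} (hL : IsBun O L)
    (W : Submodule K V) : sdeg O' db (TensorD.bc K O' L) (W.baseChange E) = sdeg O d L W := by
  have h1 : pull (W.subtype.baseChange E) (TensorD.bc K O' L) = TensorD.bc K O' (sub L W) := by
    funext u
    obtain ⟨n, n', e', e, e'', h1, h2, -, h3, -⟩ := (exact3_sub_quot L W).exists_bases hO hL u
    rw [TensorD.bc_latt hov e' h1, ← Lat1.latt_comap (e'.baseChange E) (e.baseChange E)
      (W.subtype.baseChange E) Sum.inl Sum.inl_injective (fun a => by simp [h3]),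
      ← TensorD.bc_latt hov e h2]
    rfl
  rw [Submodule.baseChange, ← Submodule.map_top,
    ← sdeg_pull hO' (TensorD.isBun_bc hov hL) _ (TensorD.bc_injective W), h1,
    sdeg_top hO' (TensorD.isBun_bc hov (hL.sub hO W)), TensorD.c1_bc hO hO' hov hmap (hL.sub hO W),
    sdeg]

lemma TensorD.pull_distrib (hov : Over O O') {L : Sys U V} {L' : Sys U V'} (hL : IsBun O L)
    (hL' : IsBun O L') :
    pull (TensorProduct.AlgebraTensorModule.distribBaseChange K E V V').toLinearMap
      (tens E (TensorD.bc K O' L) (TensorD.bc K O' L')) = TensorD.bc K O' (tens K L L') := by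
  funext u
  obtain ⟨n, e, he⟩ := hL.lat u
  obtain ⟨n', e', he'⟩ := hL'.lat u
  have h1 := Lat1.latt_comap (K := E) (R := O' u) (V := (E ⊗[K] V) ⊗[E] (E ⊗[K] V'))
    (V' := E ⊗[K] (V ⊗[K] V'))
    ((e.tensorProduct e').baseChange E) ((e.baseChange E).tensorProduct (e'.baseChange E))
    (TensorProduct.AlgebraTensorModule.distribBaseChange K E V V').toLinearMap id
    Function.injective_id (fun a => by simp [Basis.tensorProduct_apply'])
  rw [TensorD.bc_latt hov _ (tens_latt e e' he he'), ← h1,
    ← tens_latt _ _ (TensorD.bc_latt hov e he) (TensorD.bc_latt hov e' he')]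
  rfl

lemma TensorD.semi_basis {X X' : Type} [AddCommGroup X] [Module E X] [AddCommGroup X']
    [Module E X'] (σ : E ≃+* E) (T : X' ≃+ X) (hT : ∀ (c : E) x, T (c • x) = σ c • T x)
    {ι : Type} [Finite ι] (e : Basis ι E X) :
    ∃ e' : Basis ι E X', (∀ i, T (e' i) = e i) ∧ ∀ x i, e.repr (T x) i = σ (e'.repr x i) := by
  let φ : X' ≃ₗ[E] (ι → E) :=
    { toFun := fun x i => σ.symm (e.repr (T x) i)
      invFun := fun y => T.symm (e.equivFun.symm fun i => σ (y i))
      map_add' := fun x y => by ext i; simp
      map_smul' := fun c x => by ext i; simp [hT]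
      left_inv := fun x => by
        simp only [RingEquiv.apply_symm_apply]
        rw [AddEquiv.symm_apply_eq, LinearEquiv.symm_apply_eq]
        rfl
      right_inv := fun y => by
        ext i
        simp only [AddEquiv.apply_symm_apply]
        rw [RingEquiv.symm_apply_eq, ← Basis.equivFun_apply, LinearEquiv.apply_symm_apply] }
  have h : ∀ x i, e.repr (T x) i = σ ((Basis.ofEquivFun φ).repr x i) := by
    intro x i
    rw [Basis.ofEquivFun_repr_apply]
    exact (σ.apply_symm_apply _).symm
  refine ⟨Basis.ofEquivFun φ, fun i => e.ext_elem fun j => ?_, h⟩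
  classical
  rw [h, Basis.repr_self, Basis.repr_self, Finsupp.single_apply]
  split_ifs <;> simp

lemma TensorD.c1_semi (hO' : IsFam O') {X X' : Type} [AddCommGroup X] [Module E X]
    [AddCommGroup X'] [Module E X'] (σ : E ≃+* E) (hσ : ∀ u x, σ x ∈ O' u ↔ x ∈ O' u)
    {db : Pic O' →+ ℝ}
    (hgal : ∀ c c' : Div O', (∀ u, dv c' u = σ (dv c u)) → db (cl c') = db (cl c))
    (T : X' ≃+ X) (hT : ∀ (c : E) x, T (c • x) = σ c • T x) {M : Sys U X} {M' : Sys U X'}
    (hM : IsBun O' M) (hM' : IsBun O' M') (h : ∀ u x, x ∈ M' u ↔ T x ∈ M u) :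
    db (c1 O' M') = db (c1 O' M) ∧ finrank E X' = finrank E X := by
  obtain ⟨n, e₀, -⟩ := hM.std
  obtain ⟨e₀', -, h₀⟩ := TensorD.semi_basis σ T hT e₀
  refine ⟨?_, by rw [finrank_eq_card_basis e₀, finrank_eq_card_basis e₀']⟩
  choose e he using fun u => (hM.lat u).exists_basis e₀
  choose e' he₁ he₂ using fun u => TensorD.semi_basis σ T hT (e u)
  obtain ⟨c, hc, hc1⟩ := hM.exists_det_of_bases hO' e₀ e he
  obtain ⟨c', hc', hc1'⟩ := hM'.exists_det_of_bases hO' e₀' e' fun u => by
    ext x
    rw [h, he u, mem_latt, mem_latt]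
    simp only [he₂, hσ]
  rw [hc1, hc1']
  refine (hgal c' c fun u => ?_).symm
  rw [hc, hc', Basis.det_apply, Basis.det_apply, RingEquiv.map_det]
  congr 1
  ext i j
  simp [Basis.toMatrix_apply, ← h₀, he₁]

/-- the semilinear action of an automorphism -/
def TensorD.act (V : Type) [AddCommGroup V] [Module K V] (σ : E ≃ₐ[K] E) :
    E ⊗[K] V ≃ₗ[K] E ⊗[K] V := σ.toLinearEquiv.rTensor V

lemma TensorD.act_smul (σ : E ≃ₐ[K] E) (c : E) (x : E ⊗[K] V) :
    TensorD.act V σ (c • x) = σ c • TensorD.act V σ x := by
  induction x using TensorProduct.induction_on with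
  | zero => simp
  | tmul a v => simp [TensorD.act, TensorProduct.smul_tmul']
  | add x y hx hy => simp only [smul_add, map_add, hx, hy]

lemma TensorD.act_repr (σ : E ≃ₐ[K] E) {ι : Type} (e : Basis ι K V) (x : E ⊗[K] V) (i : ι) :
    (e.baseChange E).repr (TensorD.act V σ x) i = σ ((e.baseChange E).repr x i) := by
  induction x using TensorProduct.induction_on with
  | zero => simp
  | tmul a v => simp [TensorD.act]
  | add x y hx hy => simp only [map_add, Finsupp.add_apply, hx, hy]

lemma TensorD.descent [IsGalois K E] [FiniteDimensional K V] (W₀ : Submodule E (E ⊗[K] V))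
    (h : ∀ (σ : E ≃ₐ[K] E), ∀ x ∈ W₀, TensorD.act V σ x ∈ W₀) :
    ∃ W : Submodule K V, W₀ = W.baseChange E := by
  classical
  let W : Submodule K V := (W₀.restrictScalars K).comap (TensorProduct.mk K E V 1)
  have hle : W.baseChange E ≤ W₀ := by
    rw [Submodule.baseChange_eq_span, Submodule.span_le]
    rintro _ ⟨v, hv, rfl⟩
    exact hv
  obtain ⟨n, n', e, he⟩ := Lat1.exists_adapted_basis W
  have key : ∀ (m : ℕ) (x : E ⊗[K] V), x ∈ W₀ → ((e.baseChange E).repr x).support.card ≤ m →
      (∀ a, (e.baseChange E).repr x (Sum.inl a) = 0) → x = 0 := by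
    intro m
    induction m with
    | zero =>
      intro x _ hx _
      rwa [Nat.le_zero, Finset.card_eq_zero, Finsupp.support_eq_empty,
        LinearEquiv.map_eq_zero_iff] at hx
    | succ m ih =>
      intro x hx hcard hinl
      by_contra hx0
      obtain ⟨i, hi⟩ : ∃ i, (e.baseChange E).repr x i ≠ 0 := by
        by_contra hc
        push Not at hc
        exact hx0 ((e.baseChange E).ext_elem fun i => by simp [hc])
      set y := ((e.baseChange E).repr x i)⁻¹ • x with hy
      have hyW : y ∈ W₀ := W₀.smul_mem _ hx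
      have hyr : ∀ j, (e.baseChange E).repr y j =
          ((e.baseChange E).repr x i)⁻¹ * (e.baseChange E).repr x j := fun j => by simp [hy]
      have hyi : (e.baseChange E).repr y i = 1 := by rw [hyr, inv_mul_cancel₀ hi]
      have hfix : ∀ (σ : E ≃ₐ[K] E) j,
          σ ((e.baseChange E).repr y j) = (e.baseChange E).repr y j := by
        intro σ j
        have h1 := ih (TensorD.act V σ y - y) (sub_mem (h σ y hyW) hyW) (by
          have h2 : ((e.baseChange E).repr (TensorD.act V σ y - y)).support ⊆
              ((e.baseChange E).repr x).support.erase i := by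
            intro l hl
            rw [Finsupp.mem_support_iff, map_sub, Finsupp.sub_apply, TensorD.act_repr] at hl
            rw [Finset.mem_erase, Finsupp.mem_support_iff]
            constructor
            · rintro rfl
              rw [hyi] at hl
              simp at hl
            · intro h0
              rw [hyr, h0] at hl
              simp at hl
          have h3 := Finset.card_le_card h2
          rw [Finset.card_erase_of_mem (Finsupp.mem_support_iff.2 hi)] at h3
          omega) (fun a => by
            rw [map_sub, Finsupp.sub_apply, TensorD.act_repr, hyr, hinl]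
            simp)
        rw [← TensorD.act_repr, sub_eq_zero.1 h1]
      choose c hc using fun j =>
        (InfiniteGalois.mem_range_algebraMap_iff_fixed _).2 fun σ => hfix σ j
      have h1 : y = (1 : E) ⊗ₜ[K] (e.equivFun.symm c) := by
        refine (e.baseChange E).ext_elem fun j => ?_
        rw [Basis.baseChange_repr_tmul, ← Algebra.algebraMap_eq_smul_one, ← hc,
          ← Basis.equivFun_apply, LinearEquiv.apply_symm_apply]
      have h2 : e.equivFun.symm c ∈ W := by
        change (1 : E) ⊗ₜ[K] (e.equivFun.symm c) ∈ W₀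
        rwa [← h1]
      rcases i with a | b
      · exact hi (hinl a)
      · have h3 : W ≤ LinearMap.ker (e.coord (Sum.inr b)) := by
          rw [he, Submodule.span_le]
          rintro _ ⟨a, rfl⟩
          simp
        have h4 : e.repr (e.equivFun.symm c) (Sum.inr b) = 0 := h3 h2
        rw [h1, Basis.baseChange_repr_tmul, h4, zero_smul] at hyi
        exact zero_ne_one hyi
  refine ⟨W, le_antisymm (fun x hx => ?_) hle⟩
  have h1 : ∑ a, (e.baseChange E).repr x (Sum.inl a) • (e.baseChange E) (Sum.inl a) ∈
      W.baseChange E := by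
    refine Submodule.sum_mem _ fun a _ => Submodule.smul_mem _ _ ?_
    rw [Basis.baseChange_apply]
    refine Submodule.tmul_mem_baseChange_of_mem _ ?_
    rw [he]
    exact Submodule.subset_span ⟨a, rfl⟩
  have h2 := key _ _ (sub_mem hx (hle h1)) le_rfl fun a => by
    simp [Finsupp.single_apply, -Basis.baseChange_apply]
  rw [sub_eq_zero.1 h2]
  exact h1

end BaseChange

lemma TensorD.Ub_bc [CharZero K] (hO : IsSL O) {db : Pic (ext O (AlgebraicClosure K)) →+ ℝ}
    (hdb : WtExt O d db) {L : Sys U V} (hL : IsBun O L) {μ : ℝ} (h : Ub O d L μ) :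
    Ub (ext O (AlgebraicClosure K)) db (TensorD.bc K (ext O (AlgebraicClosure K)) L) μ := by
  have hOb : IsFam (ext O (AlgebraicClosure K)) := hO.isFam_ext
  have hov : Over O (ext O (AlgebraicClosure K)) := over_ext O
  have hLb := TensorD.isBun_bc hov hL
  have := hL.finiteDimensional
  obtain ⟨W₀, hW₀⟩ := exists_gMax_sdeg hOb hdb.isWt hLb μ
  obtain ⟨W, rfl⟩ := TensorD.descent W₀ fun σ x hx => by
    have hσ : ∀ u x, σ.symm x ∈ ext O (AlgebraicClosure K) u ↔ x ∈ ext O (AlgebraicClosure K) u :=
      fun u x => ⟨fun h => by simpa using map_mem_ext O σ.toAlgHom u h,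
        map_mem_ext O σ.symm.toAlgHom u⟩
    let W₁ : Submodule (AlgebraicClosure K) (AlgebraicClosure K ⊗[K] V) :=
      { carrier := {y | TensorD.act V σ.symm y ∈ W₀}
        zero_mem' := by simp
        add_mem' := fun {a b} ha hb => by
          change TensorD.act V σ.symm (a + b) ∈ W₀
          rw [map_add]
          exact add_mem ha hb
        smul_mem' := fun c y hy => by
          change TensorD.act V σ.symm (c • y) ∈ W₀
          rw [TensorD.act_smul]
          exact W₀.smul_mem _ hy }
    let T : W₁ ≃+ W₀ :=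
      { toFun := fun y => ⟨TensorD.act V σ.symm y, y.2⟩
        invFun := fun y => ⟨(TensorD.act V σ.symm).symm y, by
          change TensorD.act V σ.symm _ ∈ W₀
          rw [LinearEquiv.apply_symm_apply]
          exact y.2⟩
        left_inv := fun y => Subtype.ext (LinearEquiv.symm_apply_apply _ _)
        right_inv := fun y => Subtype.ext (LinearEquiv.apply_symm_apply _ _)
        map_add' := fun a b => Subtype.ext (map_add _ _ _) }
    obtain ⟨h1, h2⟩ := TensorD.c1_semi hOb σ.symm.toRingEquiv hσ (hdb.gal σ.symm) T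
      (fun c y => Subtype.ext (TensorD.act_smul _ _ _)) (hLb.sub hOb W₀) (hLb.sub hOb W₁)
      (fun u y => by
        obtain ⟨n, e, he⟩ := hL.lat u
        change y.1 ∈ TensorD.bc K (ext O (AlgebraicClosure K)) L u ↔
          TensorD.act V σ.symm y.1 ∈ TensorD.bc K (ext O (AlgebraicClosure K)) L u
        rw [TensorD.bc_latt hov e he, mem_latt, mem_latt]
        simp only [TensorD.act_repr, hσ])
    refine hW₀.2 W₁ (by simp only [sdeg, h1, h2]) ?_
    change TensorD.act V σ.symm (TensorD.act V σ x) ∈ W₀
    obtain ⟨n, e, -⟩ := hL.std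
    have h3 : TensorD.act V σ.symm (TensorD.act V σ x) = x :=
      (e.baseChange _).ext_elem fun i => by simp [TensorD.act_repr]
    rwa [h3]
  intro W'
  have h1 := hW₀.1 W'
  have h2 := h W
  simp only [TensorD.sdeg_bc hO.isFam hOb hov hdb.map hL, TensorD.finrank_bc] at h1
  linarith

theorem Ub_tens [CharZero K] (hO : IsSL O) (hd : IsWt d) (hRI : RI O d) {L : Sys U V}
    {L' : Sys U V'} (hL : IsBun O L) (hL' : IsBun O L') {μ ν : ℝ} (h : Ub O d L μ)
    (h' : Ub O d L' ν) : Ub O d (tens K L L') (μ + ν) := by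
  obtain ⟨db, hdb⟩ := exists_wtExt hO hd
  have hOb : IsFam (ext O (AlgebraicClosure K)) := hO.isFam_ext
  have hov : Over O (ext O (AlgebraicClosure K)) := over_ext O
  have h1 := (rank2_closure hO hd hRI hdb).Ub_tens hOb hdb.isWt (TensorD.isBun_bc hov hL)
    (TensorD.isBun_bc hov hL') (TensorD.Ub_bc hO hdb hL h) (TensorD.Ub_bc hO hdb hL' h')
  have h2 := h1.pull hOb ((TensorD.isBun_bc hov hL).tens (TensorD.isBun_bc hov hL'))
    (TensorProduct.AlgebraTensorModule.distribBaseChange K (AlgebraicClosure K) V V').toLinearMap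
    (LinearEquiv.injective _)
  rw [TensorD.pull_distrib hov hL hL'] at h2
  intro W
  have h3 := h2 (W.baseChange (AlgebraicClosure K))
  rwa [TensorD.sdeg_bc hO.isFam hOb hov hdb.map (hL.tens hL'), TensorD.finrank_bc] at h3

end Vale.Agent.P190
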