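import Vale.Agent.P190.Pencil
import Vale.Agent.P190.Proj
import Vale.Agent.P190.TensorD
import Vale.Agent.P190.RBHA

/-! The Bogomolov inequality combined with the Hodge index theorem. -/

open Module

noncomputable section

namespace Vale.Agent.P190

variable {k : Type} [Field k] {U K : Type} [Field K] [Algebra k K] {O : Fam U K}
  {a ω : Div O} {ip : Pic O →+ Pic O →+ ℤ}
variable {V : Type} [AddCommGroup V] [Module K V] [Module k V] [IsScalarTower k K V]
variable {KX : Type} [Field KX] [Algebra k KX] [Algebra KX K] [IsScalarTower k KX K]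
  [FiniteDimensional KX K] {s : Fin 2 → KX}

/-- two transversal pencils -/
structure TwoP (ip : Pic O →+ Pic O →+ ℤ) (φ₀ φ₁ : Pic O) (τ : ℤ) : Prop where
  pos : 0 < τ
  h00 : ip φ₀ φ₀ = 0
  h01 : ip φ₀ φ₁ = τ
  h11 : ip φ₁ φ₁ = 0

/-- existence of a tensor power with prescribed normalised invariants -/
def RBH.Ex (k : Type) [Field k] [Algebra k K] (a ω : Div O) (ip : Pic O →+ Pic O →+ ℤ) (σ : K)
    (d₀ d₁ : Pic O →+ ℝ) (C τ : ℝ) (u : Pic O → ℝ) (A q μ δ B n m : ℝ) : Prop :=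
  ∃ (W : Type) (_ : AddCommGroup W) (_ : Module K W) (_ : Module k W) (_ : IsScalarTower k K W)
    (G : Sys U W), IsBun O G ∧ 0 < finrank K W ∧
    (∀ p, (ip (c1 O G) p : ℝ) = finrank K W * m * u p) ∧
    ch2 k a ω ip G = finrank K W * (n * A + (m ^ 2 - n) / 2 * q) ∧ Ub O d₀ G (m * μ) ∧
    RBH.Fl k σ d₁ C τ G (finrank K W) (finrank K W * m * δ)
      (finrank K W * ((m ^ 2 - n) * δ ^ 2 + n * B))

theorem RBH.Ex.step [CharZero k] (h : RR k O a ω ip) {σ : K} {d₀ d₁ : Pic O →+ ℝ} {C τ : ℝ}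
    {u : Pic O → ℝ} {A q μ δ B n m : ℝ} (hd : IsWt d₀) (hRI : RI O d₀) (hC : 0 ≤ C)
    {L : Sys U V} (hL : IsBun O L) (hr : 0 < finrank K V) {ε : ℝ} (hε : ε ^ 2 = 1)
    (h1 : ∀ p, (ip (c1 O L) p : ℝ) = finrank K V * ε * u p)
    (h2 : ch2 k a ω ip L = finrank K V * A) (h3 : Ub O d₀ L (ε * μ))
    (h4 : d₁ (c1 O L) = finrank K V * ε * δ) (h5 : u (c1 O L) = finrank K V * ε * q) {ML : ℝ}
    (h6 : ∀ (V' : Type) [AddCommGroup V'] [Module K V'] (G : Sys U V') (ρ D M : ℝ),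
      IsBun O G → RBH.Fl k σ d₁ C τ G ρ D M →
      RBH.Fl k σ d₁ C τ (tens K G L) (ρ * finrank K V) (finrank K V * D + ρ * d₁ (c1 O L))
        (finrank K V * M + 2 * D * d₁ (c1 O L) + ρ * ML))
    (h7 : ML ≤ finrank K V * B) (hE : RBH.Ex k a ω ip σ d₀ d₁ C τ u A q μ δ B n m) :
    RBH.Ex k a ω ip σ d₀ d₁ C τ u A q μ δ B (n + 1) (m + ε) := by
  have : CharZero K := charZero_of_injective_algebraMap (algebraMap k K).injective
  have hO := h.isSL.isFam
  obtain ⟨W, _, _, _, _, G, hG, hρ, g1, g2, g3, g4⟩ := hE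
  have hrk : finrank K (TensorProduct K W V) = finrank K W * finrank K V :=
    Module.finrank_tensorProduct
  refine ⟨TensorProduct K W V, inferInstance, inferInstance, inferInstance, inferInstance,
    tens K G L, hG.tens hL, ?_, fun p => ?_, ?_, ?_, ?_⟩
  · rw [hrk]; exact Nat.mul_pos hρ hr
  · rw [c1_tens hO hG hL, map_add, map_nsmul, map_nsmul, hrk]
    simp only [AddMonoidHom.add_apply, AddMonoidHom.nsmul_apply, nsmul_eq_mul]
    push_cast
    rw [g1, h1]
    ring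
  · rw [h.ch2_tens hG hL, g2, h2, g1, h5, hrk]
    push_cast
    linear_combination (-(finrank K W : ℝ) * finrank K V * q / 2) * hε
  · have := Ub_tens h.isSL hd hRI hG hL g3 h3
    rwa [← add_mul] at this
  · have h8 := h6 W G _ _ _ hG g4
    have hρ' : (0 : ℝ) ≤ finrank K W := Nat.cast_nonneg _
    have h9 := mul_le_mul_of_nonneg_left h7 hρ'
    refine (h8.mono hC (M' := finrank K W * finrank K V *
      (((m + ε) ^ 2 - (n + 1)) * δ ^ 2 + (n + 1) * B)) ?_).congr ?_ ?_ ?_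
    · rw [h4]
      have : (finrank K W : ℝ) * finrank K V * (((m + ε) ^ 2 - (n + 1)) * δ ^ 2 + (n + 1) * B)
          = finrank K V * (finrank K W * ((m ^ 2 - n) * δ ^ 2 + n * B)) +
            2 * (finrank K W * m * δ) * (finrank K V * ε * δ)
            + finrank K W * (finrank K V * B) := by
        linear_combination ((finrank K W : ℝ) * finrank K V * δ ^ 2) * hε
      rw [this]
      linarith
    · rw [hrk]; push_cast; ring
    · rw [hrk, h4]; push_cast; ring
    · rw [hrk]; push_cast; ring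

theorem RBH.iterate {R : ℝ → ℝ → Prop} (h0 : R 0 0) (h1 : ∀ n m, R n m → R (n + 1) (m + 1))
    (h2 : ∀ n m, R n m → R (n + 1) (m + -1)) (i : ℕ) : R ((i : ℝ) ^ 2) (-i) := by
  have h3 : ∀ (t : ℕ) n m, R n m → R (n + 2 * t) m := by
    intro t
    induction t with
    | zero => intro n m h; simpa using h
    | succ t ih =>
      intro n m h
      have := h2 _ _ (h1 _ _ (ih n m h))
      convert this using 1
      · push_cast; ring
      · ring
  induction i with
  | zero => simpa using h0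
  | succ i ih =>
    have := h2 _ _ (h3 i _ _ ih)
    convert this using 1
    · push_cast; ring
    · push_cast; ring

theorem RBH.limit {X Y : ℝ} (h : ∀ i : ℕ, 1 ≤ i → (i : ℝ) ^ 2 * X ≤ i * Y) : X ≤ 0 := by
  by_contra hX
  push Not at hX
  obtain ⟨i, hi⟩ := exists_nat_gt (max 1 (Y / X))
  have h1 : (1 : ℝ) < i := (le_max_left _ _).trans_lt hi
  have h2 : Y / X < i := (le_max_right _ _).trans_lt hi
  have h3 := h i (by exact_mod_cast h1.le)
  rw [div_lt_iff₀ hX] at h2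
  nlinarith

theorem RBH.numeric {A δ χ κ w ν e C B y θ i Bd : ℝ} (hi : 1 ≤ i) (hθ0 : 0 ≤ θ) (hθ1 : θ ≤ 1)
    (he : 0 ≤ e) (hC : 0 ≤ C)
    (hBd : Bd * i = C * (i ^ 2 * B + 2 * (-i * δ) * (y + i) + (y + i) ^ 2))
    (h : i ^ 2 * A - (i * ν + θ) * i * δ + χ - (i * κ - (i * ν + θ) * w) / 2 ≤ e * Bd) :
    i ^ 2 * (A - ν * δ) ≤ i * (|δ| + |χ| + |κ| + (|ν| + 1) * |w| +
      e * (C * (|B| + 2 * |δ| * (|y| + 1) + (|y| + 1) ^ 2))) := by
  have hi0 : 0 < i := by linarith
  have hy : |y + i| ≤ (|y| + 1) * i := by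
    have h1 := abs_add_le y i
    rw [abs_of_pos hi0] at h1
    nlinarith [abs_nonneg y]
  have b1 : (y + i) ^ 2 ≤ ((|y| + 1) * i) ^ 2 := by
    rw [← sq_abs (y + i)]
    exact pow_le_pow_left₀ (abs_nonneg _) hy 2
  have b2 : -δ * (y + i) ≤ |δ| * ((|y| + 1) * i) := by
    refine (le_abs_self _).trans ?_
    rw [abs_mul, abs_neg]
    exact mul_le_mul_of_nonneg_left hy (abs_nonneg _)
  have b3 : i ^ 2 * B ≤ i ^ 2 * |B| := mul_le_mul_of_nonneg_left (le_abs_self _) (by positivity)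
  have b4 : Bd ≤ i * (C * (|B| + 2 * |δ| * (|y| + 1) + (|y| + 1) ^ 2)) := by
    refine le_of_mul_le_mul_right ?_ hi0
    rw [hBd]
    have b5 := mul_le_mul_of_nonneg_left b2 hi0.le
    have : i ^ 2 * B + 2 * (-i * δ) * (y + i) + (y + i) ^ 2
        ≤ i ^ 2 * (|B| + 2 * |δ| * (|y| + 1) + (|y| + 1) ^ 2) := by nlinarith
    nlinarith [mul_le_mul_of_nonneg_left this hC]
  have b6 := mul_le_mul_of_nonneg_left b4 he
  have c1 : θ * δ ≤ |δ| := by
    refine (le_abs_self _).trans ?_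
    rw [abs_mul, abs_of_nonneg hθ0]
    nlinarith [abs_nonneg δ]
  have c2 : -χ ≤ i * |χ| := by nlinarith [neg_abs_le χ, abs_nonneg χ]
  have c3 : i * κ ≤ i * |κ| := mul_le_mul_of_nonneg_left (le_abs_self _) hi0.le
  have c4 : -(ν * w) ≤ |ν| * |w| := by rw [← abs_mul]; exact neg_le_abs _
  have c5 : -(θ * w) ≤ i * |w| := by
    refine (neg_le_abs _).trans ?_
    rw [abs_mul, abs_of_nonneg hθ0]
    nlinarith [abs_nonneg w]
  have c6 := mul_le_mul_of_nonneg_left c1 hi0.le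
  have c7 := mul_le_mul_of_nonneg_left c4 hi0.le
  have c8 : 0 ≤ i * |κ| := by positivity
  have c9 : 0 ≤ i * (|ν| * |w|) := by positivity
  have c10 : 0 ≤ i * |w| := by positivity
  nlinarith

/-- relative Bogomolov inequality: bundles semistable on the generic fibre -/
theorem RR.ch2_le [CharZero k] (h : RR k O a ω ip) (hs : Coord k s) {τ : ℤ}
    (hP : TwoP ip (cl (Phi O (algebraMap KX K (s 0)))) (cl (Phi O (algebraMap KX K (s 1)))) τ)
    {L : Sys U V} (hL : IsBun O L) [Nontrivial V] {μ : ℝ}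
    (hU : Ub O (wtOf ip (cl (Phi O (algebraMap KX K (s 0))))) L μ)
    (hB : Lb O (wtOf ip (cl (Phi O (algebraMap KX K (s 0))))) L μ) :
    ch2 k a ω ip L ≤ μ * (ip (c1 O L) (cl (Phi O (algebraMap KX K (s 1)))) : ℝ) / τ := by
  have hO := h.isSL.isFam
  have hk := h.hasK
  have := hL.finiteDimensional
  have hτ : (0 : ℝ) < τ := by exact_mod_cast hP.pos
  have hτ1 : (1 : ℝ) ≤ τ := by exact_mod_cast hP.pos
  have htr : ∀ i, Transcendental k (algebraMap KX K (s i)) := fun i =>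
    (transcendental_algebraMap_iff (algebraMap KX K).injective).2 (hs.indep.transcendental i)
  have hne : ∀ i (c : k), algebraMap KX K (s i) ≠ algebraMap k K c := fun i c hc =>
    htr i (hc ▸ isAlgebraic_algebraMap c)
  set σ₀ := algebraMap KX K (s 0) with hσ₀
  set σ₁ := algebraMap KX K (s 1) with hσ₁
  set φ₀ := cl (Phi O σ₀) with hφ₀
  set φ₁ := cl (Phi O σ₁) with hφ₁
  have h10 : ip φ₁ φ₀ = τ := by rw [h.ip_comm, hP.h01]
  have hd₀ : IsWt (wtOf ip φ₀) := h.isWt_Phi (hne 0)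
  have hRI : RI O (wtOf ip φ₀) :=
    h.RI_Phi (hne 0) hP.h00 (T := Phi O σ₁) (by rw [← hφ₁, h10]; exact hP.pos)
  have hr : 0 < finrank K V := finrank_pos
  have hr' : (0 : ℝ) < finrank K V := by exact_mod_cast hr
  set C : ℝ := finrank KX K / (4 * τ) with hCdef
  have hC : 0 ≤ C := by positivity
  obtain ⟨M₁, hM₁⟩ := RBH.exists_tens (k := k) (σ := σ₁) (d := wtOf ip φ₁) (C := C) (τ := τ)
    hO hk _ V L hL rfl
  obtain ⟨M₂, hM₂⟩ := RBH.exists_tens (k := k) (σ := σ₁) (d := wtOf ip φ₁) (C := C) (τ := τ)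
    hO hk _ _ (dual O L) hL.dual rfl
  set u : Pic O → ℝ := fun p => (ip (c1 O L) p : ℝ) / finrank K V with hu
  set A : ℝ := ch2 k a ω ip L / finrank K V with hA
  set q : ℝ := u (c1 O L) / finrank K V with hq
  set B : ℝ := max M₁ M₂ / finrank K V with hBdef
  have hdr : finrank K (Module.Dual K V) = finrank K V := Subspace.dual_finrank_eq
  have hμ : u φ₀ = μ := by
    have h1 := hU.c1_le hO hL
    have h2 := hB.le_c1 hO hL
    rw [wtOf_apply] at h1 h2
    rw [hu]
    simp only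
    rw [div_eq_iff hr'.ne']
    linarith
  have hBr : (finrank K V : ℝ) * B = max M₁ M₂ := by rw [hBdef]; field_simp
  have hEx : ∀ i : ℕ, RBH.Ex k a ω ip σ₁ (wtOf ip φ₀) (wtOf ip φ₁) C τ u A q μ (u φ₁) B
      ((i : ℝ) ^ 2) (-i) := by
    refine RBH.iterate ?_ (fun n m hE => ?_) (fun n m hE => ?_)
    · refine ⟨K, inferInstance, inferInstance, inferInstance, inferInstance, triv O, isBun_triv,
        by simp, fun p => by simp [c1_triv hO], ?_, ?_, ?_⟩
      · have := h.ch2_line 1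
        rw [line_one, cl_one] at this
        simp [this]
      · have := (Ub_of_finrank_one (d := wtOf ip φ₀) hO isBun_triv (finrank_self K)).1
        simpa [c1_triv hO] using this
      · refine (RBH.fl_triv h hs hP.pos hP.h01 hP.h11).congr ?_ ?_ ?_ <;> simp
    · refine hE.step h hd₀ hRI hC hL hr (one_pow 2) (fun p => ?_) ?_ (by simpa using hU) ?_ ?_
        hM₁ ?_
      · rw [hu]; field_simp
      · rw [hA]; field_simp
      · rw [wtOf_apply, hu]; field_simp
      · rw [hq]; field_simp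
      · rw [hBr]; exact le_max_left _ _
    · refine hE.step h hd₀ hRI hC hL.dual (hdr ▸ hr) (ε := -1) (by norm_num) (fun p => ?_) ?_
        (by simpa using hB.dual hO hL) ?_ ?_ hM₂ ?_
      · rw [c1_dual hO hL, hdr, hu]; simp; field_simp
      · rw [h.ch2_dual hL, hdr, hA]; field_simp
      · rw [wtOf_apply, c1_dual hO hL, hdr, hu]; simp; field_simp
      · rw [c1_dual hO hL, hdr, hq, hu]; simp; field_simp
      · rw [hdr, hBr]; exact le_max_right _ _
  set e₀ : ℕ := (ip (cl ω) φ₀).natAbs + 2 with he₀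
  have he₀' : (ip (cl ω) φ₀ : ℝ) + 2 ≤ e₀ := by
    have : ip (cl ω) φ₀ + 2 ≤ (e₀ : ℤ) := by rw [he₀]; push_cast; have := le_abs_self (ip (cl ω) φ₀); omega
    exact_mod_cast this
  have hZ : cl (Zer k O σ₁ 0) = -φ₁ := cl_Zer hO (hne 1 0)
  have key : A - μ / τ * u φ₁ ≤ 0 := by
    refine RBH.limit (Y := |u φ₁| + |(chi k a (triv O) : ℝ)| + |u (cl ω)| +
      (|μ / τ| + 1) * |(ip (cl ω) φ₁ : ℝ)| + e₀ * (C * (|B| + 2 * |u φ₁| *
        (|(ip (cl ω) φ₁ : ℝ) + τ| + 1) + (|(ip (cl ω) φ₁ : ℝ) + τ| + 1) ^ 2))) fun i hi => ?_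
    have hi' : (1 : ℝ) ≤ i := by exact_mod_cast hi
    obtain ⟨W, _, _, _, _, E, hE, hρ, g1, g2, g3, g4⟩ := hEx i
    have := hE.finiteDimensional
    have hρ' : (0 : ℝ) < finrank K W := by exact_mod_cast hρ
    set c : ℤ := ⌊i * (μ / τ)⌋ + 1 with hc
    have hc1 : (i : ℝ) * (μ / τ) < c := by rw [hc]; push_cast; exact Int.lt_floor_add_one _
    have hc2 : (c : ℝ) ≤ i * (μ / τ) + 1 := by
      rw [hc]; push_cast; have := Int.floor_le ((i : ℝ) * (μ / τ)); linarith
    have hc3 : (i : ℝ) * μ < c * τ := by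
      have := mul_lt_mul_of_pos_right hc1 hτ
      rwa [mul_assoc, div_mul_cancel₀ _ hτ.ne'] at this
    have hc4 : (c : ℝ) * τ ≤ i * μ + τ := by
      have := mul_le_mul_of_nonneg_right hc2 hτ.le
      rwa [add_mul, mul_assoc, div_mul_cancel₀ _ hτ.ne', one_mul] at this
    have hLb : Lb O (wtOf ip φ₀) E (-i * μ) := by
      intro W'
      have := g3 W'
      rw [wtOf_apply, g1, hμ]
      linarith
    set T : Div O := Phi O σ₁ ^ c with hT
    have hclT : cl T = c • φ₁ := cl_zpow _ _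
    have hG := hE.twist (ω * T)
    have hF := hE.dual.twist T⁻¹
    have hdual : twist ω (dual O (twist (ω * T) E)) = twist T⁻¹ (dual O E) := by
      rw [dual_twist, ← twist_mul, mul_inv_rev, mul_comm T⁻¹, mul_inv_cancel_left]
    have e1 := h.chi_le hG
    have e2 := h.chi_dual hG
    rw [hdual] at e1 e2
    have e3 : h0 k (twist T⁻¹ (dual O E)) = 0 := by
      refine RBH.h0_eq_zero hO hd₀ hF ((hLb.dual hO hE).twist hO hE.dual T⁻¹) ?_
      rw [cl_inv, hclT, map_neg, map_zsmul, wtOf_apply, h10, zsmul_eq_mul]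
      linarith
    set Bd : ℝ := C * ((i : ℝ) ^ 2 * B + 2 * (-i * u φ₁) * (ip (cl ω) φ₁ + τ + i)
      + (ip (cl ω) φ₁ + τ + i) ^ 2) / i with hBd
    have e4 := RBH.h0_le h (htr 1) hE (B := finrank K W * Bd) (ω * T) (fun e => by
      obtain ⟨n, n1, n2⟩ := g4 (Zer k O σ₁ 0 ^ e * (ω * T)) i (by linarith)
      refine ⟨n, n1, ?_⟩
      have hy : wtOf ip φ₁ (cl (Zer k O σ₁ 0 ^ e * (ω * T))) = ip (cl ω) φ₁ := by
        rw [cl_mul, cl_mul, cl_pow, hZ, hclT, map_add, map_add, map_nsmul, map_zsmul, map_neg,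
          wtOf_apply, wtOf_apply, hP.h11]
        simp
      rw [hy] at n2
      rw [hBd, ← mul_div_assoc, le_div_iff₀ (by linarith)]
      refine n2.trans (le_of_eq ?_)
      ring) e₀
    have e5 : h0 k (twist (Zer k O σ₁ 0 ^ e₀ * (ω * T)) E) = 0 := by
      refine RBH.h0_eq_zero hO hd₀ (hE.twist _) (g3.twist hO hE _) ?_
      rw [cl_mul, cl_mul, cl_pow, hZ, hclT, map_add, map_add, map_nsmul, map_zsmul, map_neg,
        wtOf_apply, wtOf_apply, h10, zsmul_eq_mul, nsmul_eq_mul]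
      have h2 : (2 : ℝ) ≤ e₀ := by rw [he₀]; push_cast; linarith [Nat.cast_nonneg (α := ℝ) (ip (cl ω) φ₀).natAbs]
      nlinarith
    have hdW : finrank K (Module.Dual K W) = finrank K W := Subspace.dual_finrank_eq
    have e6 := h.ch2_twist hE.dual T⁻¹
    rw [h.ch2_dual hE, g2, c1_dual hO hE, cl_inv, hclT, hdW] at e6
    simp only [map_neg, map_zsmul, AddMonoidHom.neg_apply, AddMonoidHom.zsmul_apply, hP.h11,
      zsmul_eq_mul] at e6
    push_cast at e6
    rw [g1] at e6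
    have e7 : (ip (c1 O (twist T⁻¹ (dual O E))) (cl ω) : ℝ)
        = finrank K W * (i * u (cl ω) - c * ip (cl ω) φ₁) := by
      rw [c1_twist hO hE.dual, c1_dual hO hE, cl_inv, hclT, hdW, h.ip_comm (cl ω) φ₁]
      simp only [map_neg, map_zsmul, map_add, map_nsmul, AddMonoidHom.neg_apply,
        AddMonoidHom.zsmul_apply, AddMonoidHom.add_apply, AddMonoidHom.nsmul_apply, zsmul_eq_mul,
        nsmul_eq_mul]
      push_cast
      rw [g1]
      ring
    rw [ch2, e7, hdW, e2] at e6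
    have e8 : (chi k a (twist (ω * T) E) : ℝ) ≤ h0 k (twist (ω * T) E) := by
      rw [e3] at e1
      exact_mod_cast (by simpa using e1)
    rw [e5] at e4
    refine RBH.numeric (θ := c - i * (μ / τ)) (Bd := Bd) hi' (by linarith) (by linarith)
      (Nat.cast_nonneg _) hC (by rw [hBd]; field_simp) ?_
    refine le_of_mul_le_mul_left ?_ hρ'
    push_cast at e4
    linear_combination e8 + e4 - e6
  have e9 : μ * (ip (c1 O L) φ₁ : ℝ) / τ = finrank K V * (μ / τ * u φ₁) := by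
    rw [hu]; field_simp
  have e10 : ch2 k a ω ip L = finrank K V * A := by rw [hA]; field_simp
  rw [e9, e10]
  exact mul_le_mul_of_nonneg_left (by linarith) hr'.le

end Vale.Agent.P190
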