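import Vale.Agent.P190.VarianceA

/-! The slopes of a push-forward along a Kummer cover are concentrated. -/

open Module

noncomputable section

namespace Vale.Agent.P190

variable {U K₀ K : Type} [Field K₀] [Field K] [Algebra K₀ K] {O₀ : Fam U K₀} {O : Fam U K}
variable {V : Type} [AddCommGroup V] [Module K V] [Module K₀ V] [IsScalarTower K₀ K V]

/-- divisorial data of a Kummer cover -/
structure KumData (hf : FinOver O₀ O) (d : Pic O₀ →+ ℝ) {I : Type} [Fintype I] (m : ℕ)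
    (D : I → Div O) (DX : I → Div O₀) (E : Div O₀) : Prop where
  m_pos : 0 < m
  integral : ∀ l, Integral (D l)
  pow : ∀ l, SameDiv (D l ^ m) (Div.map hf.le (DX l))
  deg_ge : ∀ l, -2 ≤ d (cl (DX l))
  partner : ∀ l, ∃ (l' : I) (y : K), y ≠ 0 ∧ SameDiv (ofSet O {y}) (D l * (D l')⁻¹) ∧
    Coprime (DX l) (DX l') ∧ d (cl (DX l)) = d (cl (DX l'))
  gen : ∃ ys : Set K, Algebra.adjoin K₀ ys = ⊤ ∧ ∀ y ∈ ys, y ≠ 0 ∧ ∃ l l' : I,
    SameDiv (ofSet O {y}) (D l * (D l')⁻¹) ∧ d (cl (DX l)) = d (cl (DX l'))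
  E_integral : Integral E
  E_deg : d (cl E) = 0
  E_mul : ∀ (α : I → Fin m) (u : U) (x : K), (∀ l, x ∈ line (D l ^ (α l : ℕ)) u) →
    x ∈ line ((Div.map hf.le E)⁻¹ * ∏ l, D l ^ (α l : ℕ)) u

namespace Variance

variable {hf : FinOver O₀ O} {d : Pic O₀ →+ ℝ} {I : Type} [Fintype I] {m : ℕ} {D : I → Div O}
  {DX : I → Div O₀} {E : Div O₀} {L : Sys U V}

/-- the centred degree -/
def cen (d : Pic O₀ →+ ℝ) (L : Sys U V) (m : ℕ) (D : I → Div O) (DX : I → Div O₀) (α : I → ℤ)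
    (W : Submodule K₀ V) : ℝ :=
  sd O₀ d L (∏ l, D l ^ α l) W - (∑ l, α l * d (cl (DX l)) / m) * finrank K₀ W

lemma cen_periodic (hO₀ : IsFam O₀) (hK : KumData hf d m D DX E) (hL : IsBun O L)
    {α α' : I → ℤ} (h : ∀ l, (m : ℤ) ∣ α l - α' l) (W : Submodule K₀ V) :
    cen d L m D DX α W = cen d L m D DX α' W := by
  choose γ hγ using h
  have hm : (m : ℝ) ≠ 0 := by exact_mod_cast hK.m_pos.ne'
  have h1 : ∀ l, α l = m * γ l + α' l := fun l => by linarith [hγ l]
  have h2 : SameDiv (∏ l, D l ^ α l) (Div.map hf.le (∏ l, DX l ^ γ l) * ∏ l, D l ^ α' l) := by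
    rw [Div.map_prod, ← Finset.prod_mul_distrib]
    apply SameDiv.prod
    intro l _
    rw [h1 l, zpow_add, zpow_mul, zpow_natCast, Div.map_zpow]
    exact ((hK.pow l).zpow _).mul (SameDiv.refl _)
  unfold cen
  rw [sd_congr hL h2, sd_map_mul hO₀ hf hL, cl_prod, map_sum]
  have h3 : ∑ l, (α l : ℝ) * d (cl (DX l)) / m =
      ∑ l, d (cl (DX l ^ γ l)) + ∑ l, (α' l : ℝ) * d (cl (DX l)) / m := by
    rw [← Finset.sum_add_distrib]
    apply Finset.sum_congr rfl
    intro l _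
    rw [h1 l, cl_zpow, map_zsmul, zsmul_eq_mul]
    push_cast
    field_simp
  rw [h3]
  ring

lemma cen_mul [DecidableEq I] (hO₀ : IsFam O₀) (hO : IsFam O) (hf : FinOver O₀ O)
    (hL : IsBun O L) {y : K} (hy : y ≠ 0)
    {l l' : I} (h : SameDiv (ofSet O {y}) (D l * (D l')⁻¹)) (hd : d (cl (DX l)) = d (cl (DX l')))
    (α : I → ℤ) (W : Submodule K₀ V) :
    cen d L m D DX (α + Pi.single l 1 - Pi.single l' 1) (W.map (mulE K₀ V y hy).toLinearMap) =
      cen d L m D DX α W := by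
  have h1 : ∏ i, D i ^ (α + Pi.single l 1 - Pi.single l' 1 : I → ℤ) i =
      (D l * (D l')⁻¹) * ∏ i, D i ^ α i := by
    simp only [Pi.sub_apply, Pi.add_apply, zpow_sub, zpow_add, Finset.prod_mul_distrib,
      Finset.prod_inv_distrib]
    have h0 : ∀ j : I, ∏ i, D i ^ (Pi.single j 1 : I → ℤ) i = D j := by
      intro j
      rw [Finset.prod_eq_single j (fun i _ hi => by rw [Pi.single_eq_of_ne hi, zpow_zero])
        (fun hj => absurd (Finset.mem_univ j) hj), Pi.single_eq_same, zpow_one]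
    rw [h0, h0]
    ac_rfl
  have h2 : ∑ i, ((α + Pi.single l 1 - Pi.single l' 1 : I → ℤ) i : ℝ) * d (cl (DX i)) / m =
      ∑ i, (α i : ℝ) * d (cl (DX i)) / m := by
    have h0 : ∀ j : I, ∑ i, ((Pi.single j 1 : I → ℤ) i : ℝ) * d (cl (DX i)) / m =
        d (cl (DX j)) / m := by
      intro j
      rw [Finset.sum_eq_single j (fun i _ hi => by rw [Pi.single_eq_of_ne hi]; simp)
        (fun hj => absurd (Finset.mem_univ j) hj), Pi.single_eq_same]
      simp
    simp only [Pi.sub_apply, Pi.add_apply, Int.cast_sub, Int.cast_add, sub_mul, add_mul, sub_div,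
      add_div, Finset.sum_sub_distrib, Finset.sum_add_distrib, h0, hd]
    ring
  unfold cen
  rw [h1, h2, ← sd_congr hL (h.mul (SameDiv.refl _)), sd_mul hO₀ hO hf hL, finrank_mul]

/-- the averaged degree is bounded on all subspaces -/
lemma sum_cen_le [DecidableEq I] [NeZero m] (hO₀ : IsFam O₀) (hO : IsFam O) (hd : IsWt d)
    (hK : KumData hf d m D DX E) (hL : IsBun O L)
    (hst : ∀ (α : I → Fin m) (W : Submodule K V),
      sdeg O₀ d (twist (∏ l, D l ^ (α l : ℕ)) L) (W.restrictScalars K₀) ≤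
        (-1 + ∑ l, (α l : ℕ) * d (cl (DX l)) / m) * finrank K₀ (W.restrictScalars K₀))
    (W : Submodule K₀ V) :
    ∑ β : I → ZMod m, (cen d L m D DX (fun l => (β l).val) W + finrank K₀ W) ≤ 0 := by
  have hL₀ : IsBun O₀ L := hL.res hf hO₀
  have := hL₀.finiteDimensional
  let f : Submodule K₀ V → ℝ := fun W =>
    ∑ β : I → ZMod m, (cen d L m D DX (fun l => (β l).val) W + finrank K₀ W)
  have hs : ∀ W W', f W + f W' ≤ f (W ⊔ W') + f (W ⊓ W') := by
    intro W W'
    simp only [f, ← Finset.sum_add_distrib]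
    apply Finset.sum_le_sum
    intro β _
    have h1 := sdeg_supermodular hO₀ hd (bun hO₀ hf hL (∏ l, D l ^ (((β l).val : ℕ) : ℤ))) W W'
    have h2 : (finrank K₀ (W ⊔ W' : Submodule K₀ V) : ℝ) + finrank K₀ (W ⊓ W' : Submodule K₀ V) =
        finrank K₀ W + finrank K₀ W' := by
      exact_mod_cast Submodule.finrank_sup_add_finrank_inf_eq W W'
    unfold cen sd
    have h3 : (finrank K₀ (W ⊔ W' : Submodule K₀ V) : ℝ) =
      finrank K₀ W + finrank K₀ W' - finrank K₀ (W ⊓ W' : Submodule K₀ V) := by linarith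
    rw [h3]
    linarith
  have hb : BddAbove (Set.range f) := by
    have h1 : ∀ β : I → ZMod m, ∃ c : ℝ, ∀ W : Submodule K₀ V,
        cen d L m D DX (fun l => (β l).val) W + finrank K₀ W ≤ c := by
      intro β
      obtain ⟨W₀, hW₀, -⟩ := exists_gMax_sdeg hO₀ hd
        (bun hO₀ hf hL (∏ l, D l ^ (((β l).val : ℕ) : ℤ)))
        ((∑ l, ((((β l).val : ℕ) : ℤ) : ℝ) * d (cl (DX l)) / m) - 1)
      refine ⟨_, fun W => le_trans (le_of_eq ?_) (hW₀ W)⟩
      unfold cen sd
      ring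
    choose c hc using h1
    refine ⟨∑ β, c β, ?_⟩
    rintro _ ⟨W, rfl⟩
    exact Finset.sum_le_sum fun β _ => hc β W
  obtain ⟨W₀, hW₀⟩ := exists_gMax f hs hb
  obtain ⟨ys, hys, hy⟩ := hK.gen
  have hinv : ∀ y ∈ ys, ∀ x ∈ W₀, y • x ∈ W₀ := by
    intro y hyy
    obtain ⟨hy0, l, l', h1, h2⟩ := hy y hyy
    have h3 : f (W₀.map (mulE K₀ V y hy0).toLinearMap) = f W₀ := by
      simp only [f]
      rw [← Equiv.sum_comp (Equiv.addRight (Pi.single l 1 - Pi.single l' 1 : I → ZMod m))]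
      apply Finset.sum_congr rfl
      intro β _
      rw [finrank_mul, ← cen_mul hO₀ hO hf hL hy0 h1 h2 (fun l => (β l).val) W₀]
      congr 1
      apply cen_periodic hO₀ hK hL
      intro i
      rw [← ZMod.intCast_zmod_eq_zero_iff_dvd]
      simp only [Equiv.coe_addRight, Pi.add_apply, Pi.sub_apply, Int.cast_sub, Int.cast_add,
        Int.cast_natCast, ZMod.natCast_zmod_val, Pi.single_apply, Int.cast_ite,
        Int.cast_one, Int.cast_zero]
      ring
    intro x hx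
    exact hW₀.2 _ h3 ⟨x, hx, rfl⟩
  have hall : ∀ y : K, ∀ x ∈ W₀, y • x ∈ W₀ := by
    intro y
    have hy' : y ∈ Algebra.adjoin K₀ ys := by rw [hys]; trivial
    induction hy' using Algebra.adjoin_induction with
    | mem y hyy => exact hinv y hyy
    | algebraMap r => intro x hx; rw [algebraMap_smul]; exact W₀.smul_mem r hx
    | add y z _ _ h1 h2 => intro x hx; rw [add_smul]; exact W₀.add_mem (h1 x hx) (h2 x hx)
    | mul y z _ _ h1 h2 => intro x hx; rw [mul_smul]; exact h1 _ (h2 x hx)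
  let W₁ : Submodule K V :=
    { carrier := W₀
      add_mem' := fun ha hb => W₀.add_mem ha hb
      zero_mem' := W₀.zero_mem
      smul_mem' := fun y x hx => hall y x hx }
  have hW₁ : W₁.restrictScalars K₀ = W₀ := by ext x; rfl
  refine (hW₀.1 W).trans ?_
  apply Finset.sum_nonpos
  intro β _
  have h1 := hst (fun l => ⟨(β l).val, ZMod.val_lt _⟩) W₁
  rw [hW₁] at h1
  unfold cen sd
  simp only [zpow_natCast, Int.cast_natCast] at h1 ⊢
  linarith

lemma deg_nonpos (hO₀ : IsFam O₀) (hd : IsWt d) (hK : KumData hf d m D DX E) (l : I) :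
    d (cl (DX l)) ≤ 0 :=
  hd _ (integral_of_map hO₀ hf (((hK.integral l).pow m).congr (hK.pow l)))

/-- the loss along one divisor -/
lemma loss_le (hO₀ : IsFam O₀) (hO : IsFam O) (hd : IsWt d) (hK : KumData hf d m D DX E)
    (hL : IsBun O L) {x : ℝ} {W W' : Submodule K₀ V}
    (hW : GMax (fun W : Submodule K₀ V => sdeg O₀ d L W - x * finrank K₀ W) W)
    (hW' : GMax (fun W : Submodule K₀ V => sdeg O₀ d L W - (x + 2) * finrank K₀ W) W')
    (l : I) (a : ℕ) : sd O₀ d L (1 : Div O) W' - sd O₀ d L (D l ^ a) W' ≤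
      a * (- d (cl (DX l)) / m * finrank K₀ W) := by
  have hL₀ : IsBun O₀ L := hL.res hf hO₀
  have := hL₀.finiteDimensional
  have hone : ∀ W : Submodule K₀ V, sd O₀ d L (1 : Div O) W = sdeg O₀ d L W := fun W => by
    unfold sd; rw [twist_one]
  obtain ⟨l', y, hy, h1, hc, hdd⟩ := hK.partner l
  have hm : (0 : ℝ) < m := by exact_mod_cast hK.m_pos
  have hya : ∀ e : ℕ, SameDiv (ofSet O {y ^ e}) (D l ^ e * (D l' ^ e)⁻¹) := fun e => by
    have := (sameDiv_singleton_pow hO hy e).trans (h1.pow e)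
    rwa [mul_pow, inv_pow] at this
  -- near invariance
  have hle : ∀ e : ℕ, e ≤ m → W'.map (mulE K₀ V (y ^ e) (pow_ne_zero e hy)).toLinearMap ≤ W := by
    intro e he
    have hsd : SameDiv (D l ^ e * D l' ^ (m - e))
        (ofSet O {y ^ e} * (Div.map hf.le (DX l') * 1)) := by
      have h2 : D l ^ e * D l' ^ (m - e) = (D l ^ e * (D l' ^ e)⁻¹) * (D l' ^ m * 1) := by
        conv_rhs => rw [← Nat.add_sub_cancel' he, pow_add]
        group
      rw [h2]
      exact (hya e).symm.mul ((hK.pow l').mul (SameDiv.refl _))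
    refine GMax.le_of_mono (f' := fun W : Submodule K₀ V =>
      sd O₀ d L (D l ^ e * D l' ^ (m - e)) W - (x + 2 + d (cl (DX l'))) * finrank K₀ W)
      ?_ ?_ hW ?_
    · intro W₁ W₂
      have h3 := sdeg_supermodular hO₀ hd hL₀ W₁ W₂
      have h2 : (finrank K₀ (W₁ ⊔ W₂ : Submodule K₀ V) : ℝ) +
          finrank K₀ (W₁ ⊓ W₂ : Submodule K₀ V) = finrank K₀ W₁ + finrank K₀ W₂ := by
        exact_mod_cast Submodule.finrank_sup_add_finrank_inf_eq W₁ W₂
      have h4 : (finrank K₀ (W₁ ⊔ W₂ : Submodule K₀ V) : ℝ) =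
        finrank K₀ W₁ + finrank K₀ W₂ - finrank K₀ (W₁ ⊓ W₂ : Submodule K₀ V) := by linarith
      rw [h4]
      linarith
    · intro W₁ W₂ h12
      have h2 := sd_sub_mono hO₀ hf hd hL (c := 1) (c' := D l ^ e * D l' ^ (m - e))
        (by rw [inv_one, mul_one]; exact ((hK.integral l).pow _).mul ((hK.integral l').pow _)) h12
      have h3 : (finrank K₀ W₁ : ℝ) ≤ finrank K₀ W₂ := by
        exact_mod_cast Submodule.finrank_mono h12
      have h4 := hK.deg_ge l'
      rw [hone, hone] at h2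
      nlinarith
    · intro W₁
      obtain ⟨W₂, rfl⟩ := exists_map_eq (K₀ := K₀) (pow_ne_zero e hy) W₁
      have h2 := hW'.1 W₂
      simp only [sd_congr hL hsd, sd_mul hO₀ hO hf hL, sd_map_mul hO₀ hf hL, finrank_mul, hone]
        at h2 ⊢
      linarith
  -- one step
  have hstep : ∀ b : ℕ, sd O₀ d L (D l ^ b) W' - sd O₀ d L (D l ^ (b + 1)) W' ≤
      - d (cl (DX l)) / m * finrank K₀ W := by
    intro b
    have h2 : ∀ e : ℕ, e < m → sd O₀ d L (D l ^ b) W' - sd O₀ d L (D l ^ (b + 1)) W' ≤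
        sd O₀ d L (D l ^ (b + e)) W - sd O₀ d L (D l ^ (b + (e + 1))) W := by
      intro e he
      have h3 := loss_local (d := d) hO₀ hf hL hK.m_pos (hK.integral l) (hK.integral l')
        (hK.pow l) (hK.pow l') hc he.le ((D l ^ e * (D l' ^ e)⁻¹) * D l ^ b)
        (W'.map (mulE K₀ V (y ^ e) (pow_ne_zero e hy)).toLinearMap)
      have e1 : D l * (D l ^ e * (D l' ^ e)⁻¹ * D l ^ b) =
          D l ^ e * (D l' ^ e)⁻¹ * D l ^ (b + 1) := by
        rw [pow_succ, mul_comm, mul_assoc]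
      have e2 : D l' ^ e * (D l ^ e * (D l' ^ e)⁻¹ * D l ^ b) = D l ^ (b + e) := by
        rw [pow_add, mul_comm (D l ^ e), mul_assoc, mul_inv_cancel_left, mul_comm]
      have e3 : D l * D l ^ (b + e) = D l ^ (b + (e + 1)) := by
        rw [← add_assoc, pow_succ, mul_comm]
      rw [e1, e2, e3, ← sd_congr hL ((hya e).mul (SameDiv.refl _)),
        ← sd_congr hL ((hya e).mul (SameDiv.refl _)), sd_mul hO₀ hO hf hL,
        sd_mul hO₀ hO hf hL] at h3
      rw [h3]
      refine sd_sub_mono hO₀ hf hd hL ?_ (hle e he.le)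
      rw [← e3, mul_inv_cancel_right]
      exact hK.integral l
    have h3 : ∑ e ∈ Finset.range m, (sd O₀ d L (D l ^ b) W' - sd O₀ d L (D l ^ (b + 1)) W') ≤
        ∑ e ∈ Finset.range m,
          (sd O₀ d L (D l ^ (b + e)) W - sd O₀ d L (D l ^ (b + (e + 1))) W) :=
      Finset.sum_le_sum fun e he => h2 e (Finset.mem_range.1 he)
    rw [Finset.sum_range_sub' (fun e => sd O₀ d L (D l ^ (b + e)) W), Finset.sum_const,
      Finset.card_range, nsmul_eq_mul, add_zero, add_comm b m, pow_add (D l) m b,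
      sd_congr hL ((hK.pow l).mul (SameDiv.refl _)), sd_map_mul hO₀ hf hL] at h3
    rw [div_mul_eq_mul_div, le_div_iff₀ hm]
    linarith
  induction a with
  | zero => simp
  | succ a ih =>
    have := hstep a
    push_cast
    linarith

lemma sum_val (I : Type) [Fintype I] [DecidableEq I] (m : ℕ) [NeZero m] (l : I) :
    2 * ∑ β : I → ZMod m, ((β l).val : ℝ) ≤ m * Fintype.card (I → ZMod m) := by
  have h1 : ∑ β : I → ZMod m, ((β l).val : ℝ) =
      ∑ β : I → ZMod m, (((-β) l).val : ℝ) :=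
    (Equiv.sum_comp (Equiv.neg (I → ZMod m)) (fun β => ((β l).val : ℝ))).symm
  rw [two_mul]
  nth_rewrite 2 [h1]
  rw [← Finset.sum_add_distrib, mul_comm, ← nsmul_eq_mul, ← Finset.card_univ, ← Finset.sum_const]
  apply Finset.sum_le_sum
  intro β _
  have : (β l).val + (-β l).val ≤ m := by
    rw [ZMod.neg_val]
    have := ZMod.val_lt (β l)
    split_ifs <;> omega
  exact_mod_cast this

lemma main_bound (hO₀ : IsFam O₀) (hO : IsFam O) (hd : IsWt d) (hK : KumData hf d m D DX E)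
    (hL : IsBun O L)
    (hst : ∀ (α : I → Fin m) (W : Submodule K V),
      sdeg O₀ d (twist (∏ l, D l ^ (α l : ℕ)) L) (W.restrictScalars K₀) ≤
        (-1 + ∑ l, (α l : ℕ) * d (cl (DX l)) / m) * finrank K₀ (W.restrictScalars K₀))
    {x : ℝ} {W W' : Submodule K₀ V}
    (hW : GMax (fun W : Submodule K₀ V => sdeg O₀ d L W - x * finrank K₀ W) W)
    (hW' : GMax (fun W : Submodule K₀ V => sdeg O₀ d L W - (x + 2) * finrank K₀ W) W') :
    sdeg O₀ d L W' + finrank K₀ W' ≤
      (∑ l, - d (cl (DX l))) * ((finrank K₀ W - finrank K₀ W') / 2) := by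
  classical
  have : NeZero m := ⟨hK.m_pos.ne'⟩
  have hL₀ : IsBun O₀ L := hL.res hf hO₀
  have := hL₀.finiteDimensional
  have hm : (0 : ℝ) < m := by exact_mod_cast hK.m_pos
  have hone : ∀ W : Submodule K₀ V, sd O₀ d L (1 : Div O) W = sdeg O₀ d L W := fun W => by
    unfold sd; rw [twist_one]
  have hΔ : (0 : ℝ) ≤ finrank K₀ W - finrank K₀ W' := by
    have h1 : W' ≤ W := by
      refine GMax.le_of_mono ?_ ?_ hW hW'.1
      · intro W₁ W₂
        have h3 := sdeg_supermodular hO₀ hd hL₀ W₁ W₂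
        have h2 : (finrank K₀ (W₁ ⊔ W₂ : Submodule K₀ V) : ℝ) +
            finrank K₀ (W₁ ⊓ W₂ : Submodule K₀ V) = finrank K₀ W₁ + finrank K₀ W₂ := by
          exact_mod_cast Submodule.finrank_sup_add_finrank_inf_eq W₁ W₂
        have h4 : (finrank K₀ (W₁ ⊔ W₂ : Submodule K₀ V) : ℝ) =
          finrank K₀ W₁ + finrank K₀ W₂ - finrank K₀ (W₁ ⊓ W₂ : Submodule K₀ V) := by linarith
        rw [h4]
        linarith
      · intro W₁ W₂ h12
        have h3 : (finrank K₀ W₁ : ℝ) ≤ finrank K₀ W₂ := by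
          exact_mod_cast Submodule.finrank_mono h12
        linarith
    have h3 : (finrank K₀ W' : ℝ) ≤ finrank K₀ W := by exact_mod_cast Submodule.finrank_mono h1
    linarith
  have hβ : ∀ β : I → ZMod m, sdeg O₀ d L W' - cen d L m D DX (fun l => (β l).val) W' ≤
      ∑ l, (β l).val * (- d (cl (DX l)) / m * (finrank K₀ W - finrank K₀ W')) := by
    intro β
    obtain ⟨B, hB, hBL, hBl, hs⟩ := exists_inf hO₀ hf hd hL (fun l => D l ^ (β l).val)
      (fun l => (hK.integral l).pow _) W' Finset.univ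
    have h1 : B ≤ twist (Div.map hf.le E⁻¹ * ∏ l, D l ^ (β l).val) L := by
      intro u z hz
      obtain ⟨n, e, he⟩ := hL.lat u
      rw [mem_twist_iff_repr he, Div.map_inv]
      intro i
      apply hK.E_mul (fun l => ⟨(β l).val, ZMod.val_lt _⟩)
      intro l
      exact (mem_twist_iff_repr he _ _).1 (hBl l (Finset.mem_univ l) u hz) i
    have h2 : sdeg O₀ d B W' ≤ sd O₀ d L (Div.map hf.le E⁻¹ * ∏ l, D l ^ (β l).val) W' :=
      sdeg_mono hO₀ hd hB (bun hO₀ hf hL _) h1 W'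
    rw [sd_map_mul hO₀ hf hL, cl_inv, map_neg, hK.E_deg] at h2
    have h3 := Finset.sum_le_sum fun l (_ : l ∈ Finset.univ) =>
      loss_le hO₀ hO hd hK hL hW hW' l (β l).val
    unfold cen
    simp only [zpow_natCast, Int.cast_natCast]
    have h4 : ∑ l, ((β l).val : ℝ) * (- d (cl (DX l)) / m * (finrank K₀ W - finrank K₀ W')) =
        ∑ l, ((β l).val : ℝ) * (- d (cl (DX l)) / m * finrank K₀ W) +
          (∑ l, ((β l).val : ℝ) * d (cl (DX l)) / m) * finrank K₀ W' := by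
      rw [Finset.sum_mul, ← Finset.sum_add_distrib]
      apply Finset.sum_congr rfl
      intro l _
      ring
    rw [h4, ← hone]
    linarith
  have hsum := sum_cen_le hO₀ hO hd hK hL hst W'
  have h5 := Finset.sum_le_sum fun β (_ : β ∈ Finset.univ) => hβ β
  rw [Finset.sum_comm] at h5
  have h6 : ∑ l, ∑ β : I → ZMod m,
      ((β l).val : ℝ) * (- d (cl (DX l)) / m * (finrank K₀ W - finrank K₀ W')) ≤
      ∑ l, Fintype.card (I → ZMod m) *
        (- d (cl (DX l)) * ((finrank K₀ W - finrank K₀ W') / 2)) := by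
    apply Finset.sum_le_sum
    intro l _
    rw [← Finset.sum_mul]
    have h7 := sum_val I m l
    have h8 : 0 ≤ - d (cl (DX l)) / m * ((finrank K₀ W : ℝ) - finrank K₀ W') :=
      mul_nonneg (div_nonneg (by linarith [deg_nonpos hO₀ hd hK l]) hm.le) hΔ
    calc _ ≤ (m * Fintype.card (I → ZMod m) / 2) *
          (- d (cl (DX l)) / m * ((finrank K₀ W : ℝ) - finrank K₀ W')) :=
          mul_le_mul_of_nonneg_right (by linarith) h8
      _ = _ := by field_simp
  rw [← Finset.mul_sum, ← Finset.sum_mul] at h6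
  rw [Finset.sum_sub_distrib, Finset.sum_const, Finset.card_univ, nsmul_eq_mul] at h5
  rw [Finset.sum_add_distrib, Finset.sum_const, Finset.card_univ, nsmul_eq_mul] at hsum
  have hc : (0 : ℝ) < Fintype.card (I → ZMod m) := by exact_mod_cast Fintype.card_pos
  refine le_of_mul_le_mul_left ?_ hc
  linarith

end Variance

theorem KumData.variance (hO₀ : IsFam O₀) (hO : IsFam O) {hf : FinOver O₀ O} {d : Pic O₀ →+ ℝ}
    (hd : IsWt d) {I : Type} [Fintype I] {m : ℕ} {D : I → Div O} {DX : I → Div O₀} {E : Div O₀}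
    (hK : KumData hf d m D DX E) {L : Sys U V} (hL : IsBun O L)
    (hst : ∀ (α : I → Fin m) (W : Submodule K V),
      sdeg O₀ d (twist (∏ l, D l ^ (α l : ℕ)) L) (W.restrictScalars K₀) ≤
        (-1 + ∑ l, (α l : ℕ) * d (cl (DX l)) / m) * finrank K₀ (W.restrictScalars K₀)) :
    ∃ φ : ℕ → ℝ, (∀ (j : ℕ) (W : Submodule K₀ V),
        sdeg O₀ d L W - ((j : ℝ) - 1) * finrank K₀ W ≤ φ j) ∧
      ∀ J : ℕ, ∑ j ∈ Finset.range J, φ j ≤ (∑ l, - d (cl (DX l))) * finrank K₀ V := by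
  have hL₀ : IsBun O₀ L := hL.res hf hO₀
  have := hL₀.finiteDimensional
  choose Wx hWx using fun x : ℝ => exists_gMax_sdeg hO₀ hd hL₀ x
  let ρ : ℕ → ℝ := fun j => finrank K₀ (Wx ((j : ℝ) - 3))
  have hS : 0 ≤ ∑ l, - d (cl (DX l)) :=
    Finset.sum_nonneg fun l _ => by linarith [Variance.deg_nonpos hO₀ hd hK l]
  refine ⟨fun j => (∑ l, - d (cl (DX l))) * ((ρ j - ρ (j + 2)) / 2), fun j W => ?_, fun J => ?_⟩
  · have e1 : ((j + 2 : ℕ) : ℝ) - 3 = (j : ℝ) - 3 + 2 := by push_cast; ring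
    have h1 := Variance.main_bound hO₀ hO hd hK hL hst (hWx ((j : ℝ) - 3)) (hWx ((j : ℝ) - 3 + 2))
    have h2 := (hWx ((j : ℝ) - 3 + 2)).1 W
    have h3 : (0 : ℝ) ≤ j * finrank K₀ (Wx ((j : ℝ) - 3 + 2)) := by positivity
    have e2 : ρ (j + 2) = finrank K₀ (Wx ((j : ℝ) - 3 + 2)) := by
      show (finrank K₀ (Wx (((j + 2 : ℕ) : ℝ) - 3)) : ℝ) = _
      rw [e1]
    beta_reduce
    rw [e2]
    simp only [ρ] at h2 ⊢
    linarith
  · rw [← Finset.mul_sum]
    apply mul_le_mul_of_nonneg_left _ hS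
    have h1 : ∑ j ∈ Finset.range J, (ρ j - ρ (j + 2)) / 2 =
        (ρ 0 + ρ 1 - ρ J - ρ (J + 1)) / 2 := by
      induction J with
      | zero => simp
      | succ J ih => rw [Finset.sum_range_succ, ih]; ring
    have h2 : ∀ j, ρ j ≤ finrank K₀ V := fun j => by
      simp only [ρ]; exact_mod_cast Submodule.finrank_le _
    have h3 : ∀ j, 0 ≤ ρ j := fun j => by simp only [ρ]; positivity
    rw [h1]
    linarith [h2 0, h2 1, h3 J, h3 (J + 1)]

end Vale.Agent.P190
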