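import Vale.Agent.P190.ChiExpl
import Vale.Agent.P190.RBH
import Vale.Agent.P190.Variance

/-! Intersection numbers, the canonical class, and the bound for sections. -/

open Module

noncomputable section

namespace Vale.Agent.P190

variable {k : Type} [Field k] [IsAlgClosed k] [CharZero k] {A : Subgroup kˣ} [Fintype A] {m : ℕ}
  {F KX K : Type} [Field F] [Field KX] [Field K] [Algebra k F] [Algebra k KX] [Algebra k K]
  [Algebra F KX] [Algebra F K] [Algebra KX K] [IsScalarTower k F KX] [IsScalarTower k F K]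
  [IsScalarTower k KX K] [IsScalarTower F KX K] [FiniteDimensional F KX] [FiniteDimensional F K]
  [FiniteDimensional KX K]

/-- everything that is known about the two surfaces -/
structure Setup (P : P2 k F) (gX : Geo k KX A 1) (g : Geo k K A m) (x : KX)
    (ipX : Pic (P.OK KX) →+ Pic (P.OK KX) →+ ℤ) (ip : Pic (P.OK K) →+ Pic (P.OK K) →+ ℤ) :
    Prop where
  tow : Tow gX g
  nd : NormData P gX.S 1 x
  rrX : RR k (P.OK KX) (P.pol KX) (P.omega KX) ipX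
  rr : RR k (P.OK K) (P.pol K) (P.omega K) ip

/-- the degree on the rational surface -/
def Geo.degX {U : Type} (gX : Geo k KX A 1) (OX : Fam U KX) (ipX : Pic OX →+ Pic OX →+ ℤ) :
    Pic OX →+ ℝ :=
  wtOf ipX (cl (Phi OX (gX.σ 0))) + wtOf ipX (cl (Phi OX (gX.σ 1)))

/-- the degree on the cover -/
def Geo.degY {U : Type} (gX : Geo k KX A 1) (O : Fam U K) (ip : Pic O →+ Pic O →+ ℤ) :
    Pic O →+ ℝ :=
  wtOf ip (cl (Phi O (algebraMap KX K (gX.σ 0)))) + wtOf ip (cl (Phi O (algebraMap KX K (gX.σ 1))))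

variable {P : P2 k F} {gX : Geo k KX A 1} {g : Geo k K A m} {x : KX}
  {ipX : Pic (P.OK KX) →+ Pic (P.OK KX) →+ ℤ} {ip : Pic (P.OK K) →+ Pic (P.OK K) →+ ℤ}

theorem Setup.ipX_mu (h : Setup P gX g x ipX ip) (a : Fin 3 → ℤ) (b : ℤ) (a' : Fin 3 → ℤ)
    (b' : ℤ) : ipX (cl (gX.mu (P.OK KX) a b)) (cl (gX.mu (P.OK KX) a' b')) =
      form (Fintype.card A) a b a' b' := by
  have h1 := h.rrX.chi_line_mul (gX.mu (P.OK KX) a b) (gX.mu (P.OK KX) a' b')
  rw [← Geo.mu_add, ← line_one, ← gX.mu_zero (P.OK KX), h.tow.self.chi_mu h.nd,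
    h.tow.self.chi_mu h.nd, h.tow.self.chi_mu h.nd, h.tow.self.chi_mu h.nd] at h1
  rw [← chiF_one_add (A := A)]
  linarith

theorem Setup.ip_mu (h : Setup P gX g x ipX ip) (a : Fin 3 → ℤ) (b : ℤ) (a' : Fin 3 → ℤ)
    (b' : ℤ) : (m : ℤ) ^ 2 * ip (cl (g.mu (P.OK K) a b)) (cl (g.mu (P.OK K) a' b')) =
      finrank KX K * form (Fintype.card A) a b a' b' := by
  have hX := (P.isSL_OK KX).isFam
  have hO := (P.isSL_OK K).isFam
  have h1 := h.rr.ip_map h.rrX (P.finOver_OK KX K) (P.pol_map KX K) (gX.mu (P.OK KX) a b)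
    (gX.mu (P.OK KX) a' b')
  rw [← (h.tow.mu_pow hX hO _ a b).cl_eq, ← (h.tow.mu_pow hX hO _ a' b').cl_eq, cl_pow, cl_pow,
    h.ipX_mu] at h1
  rw [← h1]
  simp only [map_nsmul, AddMonoidHom.nsmul_apply, nsmul_eq_mul]
  ring

theorem Setup.cl_PhiX (h : Setup P gX g x ipX ip) (j : Fin 3) :
    cl (Phi (P.OK KX) (gX.σ j)) = cl (gX.mu (P.OK KX) (Pi.single j 1) 0) := by
  rw [← Geo.Hd_eq]
  exact (gX.Hd_sameDiv_Phi h.tow.two_le (P.isSL_OK KX).isFam (P.hasK_OK KX) j).cl_eq.symm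

theorem Setup.cl_Phi (h : Setup P gX g x ipX ip) (j : Fin 3) :
    cl (Phi (P.OK K) (algebraMap KX K (gX.σ j))) = cl (g.mu (P.OK K) (Pi.single j m) 0) := by
  have hX := (P.isSL_OK KX).isFam
  have hO := (P.isSL_OK K).isFam
  have ho := P.over_OK KX K
  rw [← (h.tow.map_Phi hX hO ho j).cl_eq,
    ← ((gX.Hd_sameDiv_Phi h.tow.two_le hX (P.hasK_OK KX) j).map ho).cl_eq,
    ← (h.tow.Hd_pow hX hO ho j).cl_eq, Geo.Hd_eq, ← zpow_natCast, Geo.mu_zpow, mul_zero]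
  congr 2
  funext i
  by_cases hi : i = j
  · subst hi; simp
  · simp [hi]

theorem Setup.twoPX (h : Setup P gX g x ipX ip) :
    TwoP ipX (cl (Phi (P.OK KX) (gX.σ 0))) (cl (Phi (P.OK KX) (gX.σ 1))) 1 := by
  refine ⟨one_pos, ?_, ?_, ?_⟩ <;> simp [h.cl_PhiX, h.ipX_mu, form]

theorem Setup.twoP (h : Setup P gX g x ipX ip) :
    TwoP ip (cl (Phi (P.OK K) (algebraMap KX K (gX.σ 0))))
      (cl (Phi (P.OK K) (algebraMap KX K (gX.σ 1)))) (finrank KX K) := by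
  have hm : ((m : ℤ) ^ 2) ≠ 0 := pow_ne_zero _ (by exact_mod_cast h.tow.m_pos.ne')
  refine ⟨by exact_mod_cast finrank_pos, ?_, ?_, ?_⟩ <;>
  · apply mul_left_cancel₀ hm
    simp only [h.cl_Phi, h.ip_mu]
    simp [form]
    try ring

theorem Setup.isWt_degX (h : Setup P gX g x ipX ip) : IsWt (gX.degX (P.OK KX) ipX) := by
  exact (h.rrX.isWt_Phi (gX.σ_ne 0)).add (h.rrX.isWt_Phi (gX.σ_ne 1))

theorem Setup.isWt_degY (h : Setup P gX g x ipX ip) : IsWt (gX.degY (P.OK K) ip) := by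
  refine (h.rr.isWt_Phi ?_).add (h.rr.isWt_Phi ?_) <;>
  · rw [h.tow.σ_eq]
    exact g.σ_ne _

theorem Setup.degX_mu (h : Setup P gX g x ipX ip) (a : Fin 3 → ℤ) (b : ℤ) :
    gX.degX (P.OK KX) ipX (cl (gX.mu (P.OK KX) a b)) = a 0 + a 1 + 2 * a 2 := by
  simp only [Geo.degX, AddMonoidHom.add_apply, wtOf_apply, h.cl_PhiX, h.ipX_mu]
  simp [form]
  ring

theorem Setup.degY_mu (h : Setup P gX g x ipX ip) (a : Fin 3 → ℤ) (b : ℤ) :
    gX.degY (P.OK K) ip (cl (g.mu (P.OK K) a b)) =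
      (finrank KX K : ℝ) * (a 0 + a 1 + 2 * a 2) / m := by
  have hm : (m : ℝ) ≠ 0 := by exact_mod_cast h.tow.m_pos.ne'
  simp only [Geo.degY, AddMonoidHom.add_apply, wtOf_apply, h.cl_Phi]
  have h0 := congrArg (Int.cast : ℤ → ℝ) (h.ip_mu a b (Pi.single 0 m) 0)
  have h1 := congrArg (Int.cast : ℤ → ℝ) (h.ip_mu a b (Pi.single 1 m) 0)
  simp [form] at h0 h1
  rw [eq_div_iff hm]
  apply mul_left_cancel₀ hm
  linear_combination h0 + h1

theorem Setup.degX_Dd (h : Setup P gX g x ipX ip) (l : Fin 3 × A) :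
    gX.degX (P.OK KX) ipX (cl (gX.Dd (P.OK KX) l)) = if l.1 = 2 then -2 else -1 := by
  rw [gX.cl_Dd one_pos (P.isSL_OK KX).isFam, map_neg, Geo.Hd_eq, h.degX_mu]
  obtain ⟨j, a⟩ := l
  fin_cases j <;> simp

theorem Setup.degY_Dd (h : Setup P gX g x ipX ip) (l : Fin 3 × A) :
    gX.degY (P.OK K) ip (cl (g.Dd (P.OK K) l)) =
      finrank KX K * gX.degX (P.OK KX) ipX (cl (gX.Dd (P.OK KX) l)) / m := by
  rw [gX.cl_Dd one_pos (P.isSL_OK KX).isFam, map_neg, Geo.Hd_eq, h.degX_mu,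
    g.cl_Dd h.tow.m_pos (P.isSL_OK K).isFam, map_neg, Geo.Hd_eq, h.degY_mu]
  ring

theorem Setup.kumData (h : Setup P gX g x ipX ip) :
    KumData (P.finOver_OK KX K) (gX.degX (P.OK KX) ipX) m (g.Dd (P.OK K)) (gX.Dd (P.OK KX))
      (gX.Jd (P.OK KX) ^ 2) := by
  have hX := (P.isSL_OK KX).isFam
  have hO := (P.isSL_OK K).isFam
  have hm := h.tow.m_pos
  refine ⟨hm, g.integral_Dd hm hO, h.tow.Dd_pow hX hO _, fun l => ?_, fun l => ?_, ?_,
    (gX.integral_Jd one_pos hX).pow 2, ?_, h.tow.E_mul hX hO (P.hasK_OK K) _⟩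
  · rw [h.degX_Dd]
    split_ifs <;> norm_num
  · obtain ⟨j, a⟩ := l
    obtain ⟨a', ha'⟩ := Fintype.exists_ne_of_one_lt_card (α := A) h.tow.two_le a
    exact ⟨(j, a'), _, div_ne_zero (g.y_ne_zero hm j a) (g.y_ne_zero hm j a'),
      g.sameDiv_div hm hO j a a', gX.coprime_Dd hX (P.hasK_OK KX) j ha'.symm,
      by rw [h.degX_Dd, h.degX_Dd]⟩
  · refine ⟨_, h.tow.adjoin_eq_top, ?_⟩
    rintro _ ⟨⟨j, a⟩, rfl⟩
    refine ⟨g.y_ne_zero hm j a, (j, a), (j, 1), ?_, by rw [h.degX_Dd, h.degX_Dd]⟩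
    have := g.sameDiv_div hm hO j a 1
    rwa [g.y_one, div_one] at this
  · rw [cl_pow, map_nsmul, Geo.Jd_eq, h.degX_mu]
    simp

/-- bundles of slope at most half the canonical degree have few sections -/
theorem Setup.h0_le (h : Setup P gX g x ipX ip) {V : Type} [AddCommGroup V] [Module K V]
    [Module k V] [IsScalarTower k K V] {L : Sys (PU k) V} (hL : IsBun (P.OK K) L)
    (hU : Ub (P.OK K) (gX.degY (P.OK K) ip) L (gX.degY (P.OK K) ip (cl (P.omega K)) / 2)) :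
    h0 k L ≤ 4 * Fintype.card A * finrank KX K * finrank K V := by
  have hX := (P.isSL_OK KX).isFam
  have hO := (P.isSL_OK K).isFam
  have hm : (m : ℝ) ≠ 0 := by exact_mod_cast h.tow.m_pos.ne'
  let _ : Module KX V := Module.compHom V (algebraMap KX K)
  have hsm : ∀ (c : KX) (v : V), c • v = algebraMap KX K c • v := fun _ _ => rfl
  have : IsScalarTower KX K V := ⟨fun a b v => by rw [hsm, Algebra.smul_def, mul_smul]⟩
  have : IsScalarTower k KX V := ⟨fun a b v => by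
    rw [hsm, hsm, Algebra.smul_def, map_mul, ← IsScalarTower.algebraMap_apply, mul_smul,
      algebraMap_smul]⟩
  have hφ' : ∀ j : Fin 3, chi k (P.pol KX) (line (Phi (P.OK KX) (gX.σ j))) -
      chi k (P.pol KX) (triv (P.OK KX)) = 1 := fun j => by
    have h1 : chi k (P.pol KX) (line (Phi (P.OK KX) (gX.σ j))) =
        chi k (P.pol KX) (line (gX.mu (P.OK KX) (Pi.single j 1) 0)) :=
      isBun_triv.chi_twist_congr hX _ (h.cl_PhiX j)
    rw [h1, ← line_one, ← gX.mu_zero (P.OK KX), h.tow.self.chi_mu h.nd, h.tow.self.chi_mu h.nd,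
      chiF_one, chiF_one]
    fin_cases j <;> simp [hexpoly]
  obtain ⟨φ, hφ, hsum⟩ := h.kumData.variance hX hO h.isWt_degX hL (fun α W => by
    have hL' := hL.twist (∏ l, g.Dd (P.OK K) l ^ (α l : ℕ))
    have h0 := h.rr.sdeg_res h.rrX (P.finOver_OK KX K) (P.pol_map KX K) _ h.twoPX.h00 (hφ' 0) hL' W
    have h1 := h.rr.sdeg_res h.rrX (P.finOver_OK KX K) (P.pol_map KX K) _ h.twoPX.h11 (hφ' 1) hL' W
    rw [(h.tow.map_Phi hX hO _ 0).cl_eq] at h0
    rw [(h.tow.map_Phi hX hO _ 1).cl_eq] at h1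
    have h2 := hU.twist hO hL (∏ l, g.Dd (P.OK K) l ^ (α l : ℕ)) W
    have h3 : gX.degY (P.OK K) ip (cl (∏ l, g.Dd (P.OK K) l ^ (α l : ℕ))) = finrank KX K *
        ∑ l, (α l : ℕ) * gX.degX (P.OK KX) ipX (cl (gX.Dd (P.OK KX) l)) / m := by
      rw [cl_prod, map_sum, Finset.mul_sum]
      refine Finset.sum_congr rfl fun l _ => ?_
      rw [cl_pow, map_nsmul, h.degY_Dd, nsmul_eq_mul]
      ring
    have h4 : finrank KX (W.restrictScalars KX) = finrank KX K * finrank K W :=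
      (Module.finrank_mul_finrank KX K W).symm
    rw [h3] at h2
    rw [h4]
    simp only [Geo.degX, Geo.degY, sdeg_add, AddMonoidHom.add_apply, wtOf_apply] at h2 ⊢
    push_cast at h0 h1 h2 ⊢
    have h5 : (0 : ℝ) ≤ finrank KX K * finrank K W := by positivity
    nlinarith)
  obtain ⟨J, hJ⟩ := h.rrX.h0_le_sum gX.coord_σ h.twoPX.h00 h.twoPX.h01 h.twoPX.h11
    (hL.res (P.finOver_OK KX K) hX) φ hφ
  have h6 := hJ.trans (hsum J)
  have h7 : ∑ l, - gX.degX (P.OK KX) ipX (cl (gX.Dd (P.OK KX) l)) = 4 * Fintype.card A := by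
    simp only [h.degX_Dd, Fintype.sum_prod_type, Fin.sum_univ_three]
    simp
    ring
  rw [h7, ← Module.finrank_mul_finrank KX K V, Nat.cast_mul, ← mul_assoc] at h6
  exact_mod_cast h6

end Vale.Agent.P190
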