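import Vale.Agent.P190.C1

/-! Maximisers of supermodular functions on the lattice of subspaces. -/

open Module

noncomputable section

namespace Vale.Agent.P190

variable {K : Type} [Field K] {V : Type} [AddCommGroup V] [Module K V]

/-- `W₀` is the largest maximiser of `f` -/
def GMax (f : Submodule K V → ℝ) (W₀ : Submodule K V) : Prop :=
  (∀ W, f W ≤ f W₀) ∧ ∀ W, f W = f W₀ → W ≤ W₀

theorem exists_gMax [FiniteDimensional K V] (f : Submodule K V → ℝ)
    (hs : ∀ W W', f W + f W' ≤ f (W ⊔ W') + f (W ⊓ W')) (hb : BddAbove (Set.range f)) :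
    ∃ W₀, GMax f W₀ := by
  classical
  set M := sSup (Set.range f) with hM
  have hle : ∀ W, f W ≤ M := fun W => le_csSup hb ⟨W, rfl⟩
  have hne : (Set.range f).Nonempty := ⟨_, ⊥, rfl⟩
  have hP : ∃ n : ℕ, ∃ ε : ℝ, 0 < ε ∧ ∀ W, M - ε ≤ f W → finrank K W ≤ n :=
    ⟨finrank K V, 1, one_pos, fun W _ => Submodule.finrank_le W⟩
  obtain ⟨ε₀, hε₀, h₀⟩ := Nat.find_spec hP
  have hex : ∀ ε : ℝ, 0 < ε → ∃ W, M - ε ≤ f W ∧ Nat.find hP ≤ finrank K W := by
    intro ε hε
    rcases Nat.eq_zero_or_pos (Nat.find hP) with h | h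
    · obtain ⟨_, ⟨W, rfl⟩, hW⟩ := exists_lt_of_lt_csSup hne (show M - ε < M by linarith)
      exact ⟨W, hW.le, by omega⟩
    · have := Nat.find_min hP (show Nat.find hP - 1 < Nat.find hP by omega)
      push Not at this
      obtain ⟨W, hW, hr⟩ := this ε hε
      exact ⟨W, hW, by omega⟩
  obtain ⟨W₀, hW₀, hr₀⟩ := hex (ε₀ / 2) (by linarith)
  have key : ∀ W, M - ε₀ / 2 ≤ f W → W ≤ W₀ := by
    intro W hW
    have h1 := hs W₀ W
    have h2 := hle (W₀ ⊓ W)
    have h3 := h₀ (W₀ ⊔ W) (by linarith)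
    have h4 : W₀ = W₀ ⊔ W :=
      Submodule.eq_of_le_of_finrank_le le_sup_left (h3.trans hr₀)
    rw [h4]
    exact le_sup_right
  have hmax : M ≤ f W₀ := by
    refine le_of_forall_pos_le_add fun ε hε => ?_
    obtain ⟨W, hW, hr⟩ := hex (min ε (ε₀ / 2)) (lt_min hε (by linarith))
    have h1 : min ε (ε₀ / 2) ≤ ε := min_le_left _ _
    have h2 : min ε (ε₀ / 2) ≤ ε₀ / 2 := min_le_right _ _
    have h3 : W ≤ W₀ := key W (by linarith)
    have h4 : W = W₀ :=
      Submodule.eq_of_le_of_finrank_le h3 ((h₀ W₀ (by linarith)).trans hr)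
    rw [← h4]
    linarith
  refine ⟨W₀, fun W => (hle W).trans hmax, fun W hW => key W ?_⟩
  rw [hW]
  exact hW₀

theorem GMax.unique {f : Submodule K V → ℝ} {W₀ W₁ : Submodule K V} (h₀ : GMax f W₀)
    (h₁ : GMax f W₁) : W₀ = W₁ := by
  have h : f W₀ = f W₁ := le_antisymm (h₁.1 W₀) (h₀.1 W₁)
  exact le_antisymm (h₁.2 W₀ h) (h₀.2 W₁ h.symm)

/-- monotonicity of the largest maximiser -/
theorem GMax.le_of_mono {f f' : Submodule K V → ℝ}
    (hs : ∀ W W', f W + f W' ≤ f (W ⊔ W') + f (W ⊓ W'))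
    (hm : ∀ W W', W ≤ W' → f W - f' W ≤ f W' - f' W') {W₀ W₀' : Submodule K V}
    (h₀ : GMax f W₀) (h₀' : ∀ W, f' W ≤ f' W₀') : W₀' ≤ W₀ := by
  have h1 := hs W₀ W₀'
  have h2 := hm (W₀ ⊓ W₀') W₀' inf_le_right
  have h3 := h₀' (W₀ ⊓ W₀')
  have h4 := h₀.1 (W₀ ⊔ W₀')
  exact le_sup_right.trans (h₀.2 (W₀ ⊔ W₀') (by linarith))

theorem HN.finrank_comap_mkQ [FiniteDimensional K V] (W₀ : Submodule K V)
    (W : Submodule K (V ⧸ W₀)) :
    finrank K (W.comap W₀.mkQ) = finrank K W + finrank K W₀ := by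
  have hle : W₀ ≤ W.comap W₀.mkQ := Submodule.le_comap_mkQ W₀ W
  have h := (W₀.mkQ.domRestrict (W.comap W₀.mkQ)).finrank_range_add_finrank_ker
  rw [LinearMap.range_domRestrict, Submodule.map_comap_eq_of_surjective W₀.mkQ_surjective,
    LinearMap.ker_domRestrict, Submodule.ker_mkQ] at h
  rw [← h, (Submodule.comapSubtypeEquivOfLe hle).finrank_eq]

variable {U : Type} {O : Fam U K} {d : Pic O →+ ℝ}

theorem exists_gMax_sdeg (hO : IsFam O) (hd : IsWt d) {L : Sys U V} (hL : IsBun O L) (x : ℝ) :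
    ∃ W₀, GMax (fun W : Submodule K V => sdeg O d L W - x * finrank K W) W₀ := by
  have := hL.finiteDimensional
  refine exists_gMax _ (fun W W' => ?_) ?_
  · have h1 := sdeg_supermodular hO hd hL W W'
    have h2 : (finrank K (W ⊔ W' : Submodule K V) : ℝ) + finrank K (W ⊓ W' : Submodule K V)
        = finrank K W + finrank K W' := by
      exact_mod_cast Submodule.finrank_sup_add_finrank_inf_eq W W'
    have h3 : x * finrank K (W ⊔ W' : Submodule K V) + x * finrank K (W ⊓ W' : Submodule K V)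
        = x * finrank K W + x * finrank K W' := by
      rw [← mul_add, h2, mul_add]
    linarith
  · obtain ⟨μ, hμ⟩ := exists_Ub hO hd hL
    refine ⟨|μ - x| * finrank K V, ?_⟩
    rintro _ ⟨W, rfl⟩
    have h1 := hμ W
    have h2 : (finrank K W : ℝ) ≤ finrank K V := by exact_mod_cast Submodule.finrank_le W
    have h3 : (0 : ℝ) ≤ finrank K W := Nat.cast_nonneg _
    have h4 : (μ - x) * finrank K W ≤ |μ - x| * finrank K V :=
      (mul_le_mul_of_nonneg_right (le_abs_self _) h3).trans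
        (mul_le_mul_of_nonneg_left h2 (abs_nonneg _))
    simp only
    linarith

/-- cutting the Harder-Narasimhan filtration at slope `x` -/
theorem hn_cut (hO : IsFam O) {L : Sys U V} (hL : IsBun O L) {x : ℝ} {W₀ : Submodule K V}
    (h : ∀ W : Submodule K V, sdeg O d L W - x * finrank K W ≤ sdeg O d L W₀ - x * finrank K W₀) :
    Lb O d (sub L W₀) x ∧ Ub O d (quot L W₀) x := by
  have := hL.finiteDimensional
  constructor
  · intro W
    have h1 : sdeg O d (sub L W₀) W = sdeg O d L (W.map W₀.subtype) :=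
      sdeg_pull hO hL _ W₀.injective_subtype W
    have h2 := h (W.map W₀.subtype)
    rw [Submodule.finrank_map_subtype_eq] at h2
    have h3 : d (c1 O (sub L W₀)) = sdeg O d L W₀ := rfl
    rw [h1, h3]
    linarith
  · intro W
    have h1 : sdeg O d (quot L W₀) W
        = sdeg O d L (W.comap W₀.mkQ) - sdeg O d L (LinearMap.ker W₀.mkQ) :=
      sdeg_push hO hL _ W₀.mkQ_surjective W
    rw [Submodule.ker_mkQ] at h1
    have h2 := h (W.comap W₀.mkQ)
    rw [HN.finrank_comap_mkQ] at h2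
    push_cast at h2
    rw [h1]
    linarith

/-- a quotient of minimal slope, for an integer valued degree -/
theorem exists_min_quot (hO : IsFam O) (hd : IsWt d) (hint : ∀ p, ∃ n : ℤ, d p = n)
    {L : Sys U V} (hL : IsBun O L) [Nontrivial V] :
    ∃ (W : Submodule K V) (μ : ℝ), W ≠ ⊤ ∧ Lb O d L μ ∧ Lb O d (sub L W) μ ∧
      Ub O d (quot L W) μ ∧ Lb O d (quot L W) μ ∧
      d (c1 O (quot L W)) = μ * finrank K (V ⧸ W) := by
  have := hL.finiteDimensional
  set n := finrank K V with hn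
  have hlt : ∀ W : Submodule K V, W ≠ ⊤ → finrank K W < n := fun W hW =>
    Submodule.finrank_lt hW
  have hfac : (0 : ℝ) < (n.factorial : ℝ) := by exact_mod_cast Nat.factorial_pos n
  have hz : ∀ W : Submodule K V, W ≠ ⊤ → ∃ z : ℤ,
      (z : ℝ) * ((n : ℝ) - finrank K W) = n.factorial * (d (c1 O L) - sdeg O d L W) := by
    intro W hW
    obtain ⟨a, ha⟩ := hint (c1 O L)
    obtain ⟨b, hb⟩ := hint (c1 O (sub L W))
    have h1 := hlt W hW
    obtain ⟨m, hm⟩ := Nat.dvd_factorial (show 0 < n - finrank K W by omega)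
      (show n - finrank K W ≤ n by omega)
    refine ⟨m * (a - b), ?_⟩
    have h2 : ((n - finrank K W : ℕ) : ℝ) = (n : ℝ) - finrank K W := by
      rw [Nat.cast_sub h1.le]
    rw [hm, sdeg, ha, hb, ← h2]
    push_cast
    ring
  obtain ⟨ν, hν⟩ := exists_Ub hO hd hL
  obtain ⟨z₀, ⟨W₀, hW₀, hz₀⟩, hmin⟩ := Int.exists_least_of_bdd
    (P := fun z : ℤ => ∃ W : Submodule K V, W ≠ ⊤ ∧
      (z : ℝ) * ((n : ℝ) - finrank K W) = n.factorial * (d (c1 O L) - sdeg O d L W))
    (by
      refine ⟨⌊-(n.factorial * (|d (c1 O L)| + |ν| * n) : ℝ)⌋, ?_⟩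
      rintro z ⟨W, hW, hz⟩
      have h1 : (finrank K W : ℝ) + 1 ≤ n := by exact_mod_cast hlt W hW
      have h3 : (0 : ℝ) ≤ finrank K W := Nat.cast_nonneg _
      have h4 : ν * finrank K W ≤ |ν| * n :=
        (mul_le_mul_of_nonneg_right (le_abs_self _) h3).trans
          (mul_le_mul_of_nonneg_left (by linarith) (abs_nonneg _))
      have h5 := hν W
      have h6 := neg_abs_le (d (c1 O L))
      have h7 : -(n.factorial * (|d (c1 O L)| + |ν| * n) : ℝ)
          ≤ n.factorial * (d (c1 O L) - sdeg O d L W) := by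
        rw [← mul_neg]
        exact mul_le_mul_of_nonneg_left (by linarith) hfac.le
      have h8 : (0 : ℝ) ≤ n.factorial * (|d (c1 O L)| + |ν| * n) := by positivity
      have h9 : -(n.factorial * (|d (c1 O L)| + |ν| * n) : ℝ) ≤ z := by
        by_cases hz0 : (0 : ℝ) ≤ z
        · linarith
        · have : (z : ℝ) * ((n : ℝ) - finrank K W) ≤ z := by nlinarith
          linarith
      have h10 := Int.floor_le (-(n.factorial * (|d (c1 O L)| + |ν| * n) : ℝ))
      exact_mod_cast h10.trans h9)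
    (by
      obtain ⟨z, hz⟩ := hz ⊥ bot_ne_top
      exact ⟨z, ⊥, bot_ne_top, hz⟩)
  set μ : ℝ := z₀ / n.factorial with hμ
  have heq : μ * ((n : ℝ) - finrank K W₀) = d (c1 O L) - sdeg O d L W₀ := by
    rw [hμ, div_mul_eq_mul_div, hz₀]
    field_simp
  have hLb : Lb O d L μ := by
    intro W
    by_cases hW : W = ⊤
    · subst hW
      rw [sdeg_top hO hL, finrank_top]
      simp
    · obtain ⟨z, hz⟩ := hz W hW
      have h1 : (z₀ : ℝ) ≤ z := by exact_mod_cast hmin z ⟨W, hW, hz⟩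
      have h2 : (finrank K W : ℝ) + 1 ≤ n := by exact_mod_cast hlt W hW
      rw [hμ, div_mul_eq_mul_div, div_le_iff₀ hfac, mul_comm _ (n.factorial : ℝ), ← hz]
      exact mul_le_mul_of_nonneg_right h1 (by linarith)
  have hcut := hn_cut (d := d) (x := μ) (W₀ := W₀) hO hL fun W => by
    have := hLb W
    linarith
  refine ⟨W₀, μ, hW₀, hLb, hcut.1, hcut.2, hLb.push hO hL _ W₀.mkQ_surjective, ?_⟩
  have h1 : (finrank K (V ⧸ W₀) : ℝ) + finrank K W₀ = n := by
    exact_mod_cast W₀.finrank_quotient_add_finrank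
  rw [c1_quot hO hL, ← heq, ← h1]
  ring

end Vale.Agent.P190
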