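import Vale.Agent.P190.RBH

/-! Bundles whose slopes lie in a window. -/

open Module

noncomputable section

namespace Vale.Agent.P190

variable {k : Type} [Field k] {U K : Type} [Field K] [Algebra k K] {O : Fam U K}
  {a ω : Div O} {ip : Pic O →+ Pic O →+ ℤ}
variable {V : Type} [AddCommGroup V] [Module K V] [Module k V] [IsScalarTower k K V]
variable {KX : Type} [Field KX] [Algebra k KX] [Algebra KX K] [IsScalarTower k KX K]
  [FiniteDimensional KX K] {s : Fin 2 → KX}

omit [FiniteDimensional KX K] in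
theorem Window.isWt [CharZero k] (h : RR k O a ω ip) (hs : Coord k s) (i : Fin 2) :
    IsWt (wtOf ip (cl (Phi O (algebraMap KX K (s i))))) := by
  refine h.isWt_Phi fun c hc => ?_
  rw [IsScalarTower.algebraMap_apply k KX K] at hc
  have h1 := (algebraMap KX K).injective hc
  exact hs.indep.transcendental i (h1 ▸ isAlgebraic_algebraMap c)

theorem Window.ch2_exact (h : RR k O a ω ip) {L : Sys U V} (hL : IsBun O L)
    (W : Submodule K V) :
    ch2 k a ω ip L ≤ ch2 k a ω ip (sub L W) + ch2 k a ω ip (quot L W) := by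
  have := hL.finiteDimensional
  have hO := h.isSL.isFam
  have h1 : (chi k a L : ℝ) ≤ chi k a (sub L W) + chi k a (quot L W) := by
    exact_mod_cast h.chi_exact hL (exact3_sub_quot L W)
  have h2 := (exact3_sub_quot L W).c1_add hO hL
  have h3 : (finrank K V : ℝ) = finrank K W + finrank K (V ⧸ W) := by
    exact_mod_cast (exact3_sub_quot L W).finrank_add
  simp only [ch2]
  rw [h2, h3, map_add, AddMonoidHom.add_apply]
  push_cast
  linarith

theorem Window.claimA [CharZero k] (h : RR k O a ω ip) (hs : Coord k s) {τ : ℤ}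
    (hP : TwoP ip (cl (Phi O (algebraMap KX K (s 0)))) (cl (Phi O (algebraMap KX K (s 1)))) τ)
    (w : ℝ) (n : ℕ) : ∀ (V : Type) [AddCommGroup V] [Module K V] [Module k V]
      [IsScalarTower k K V] (L : Sys U V) (x : ℝ), finrank K V = n → IsBun O L →
      Ub O (wtOf ip (cl (Phi O (algebraMap KX K (s 0)))) +
        wtOf ip (cl (Phi O (algebraMap KX K (s 1))))) L w →
      Lb O (wtOf ip (cl (Phi O (algebraMap KX K (s 0))))) L x →
      ch2 k a ω ip L * τ ≤ finrank K V * (w ^ 2 / 4) - x * (w * finrank K V -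
        (wtOf ip (cl (Phi O (algebraMap KX K (s 0)))) +
          wtOf ip (cl (Phi O (algebraMap KX K (s 1))))) (c1 O L)) := by
  have hO := h.isSL.isFam
  have hτ : (0 : ℝ) < τ := by exact_mod_cast hP.pos
  set d₀ := wtOf ip (cl (Phi O (algebraMap KX K (s 0)))) with hd₀
  set d₁ := wtOf ip (cl (Phi O (algebraMap KX K (s 1)))) with hd₁
  induction n using Nat.strong_induction_on with
  | _ n ih =>
    intro V _ _ _ _ L x hn hL hU hB
    have := hL.finiteDimensional
    rcases subsingleton_or_nontrivial V with hV | hV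
    · have h0 : finrank K V = 0 := finrank_zero_of_subsingleton
      simp [ch2, h.chi_of_subsingleton L, c1_of_subsingleton hO hL, h0]
    · obtain ⟨W, μ, hW, -, hsub, hUq, hLq, hdq⟩ := exists_min_quot (d := d₀) hO
        (Window.isWt h hs 0) (fun p => ⟨_, wtOf_apply _ _ _⟩) hL
      have hlt : finrank K W < finrank K V := Submodule.finrank_lt hW
      have hr : (finrank K V : ℝ) = finrank K W + finrank K (V ⧸ W) := by
        exact_mod_cast (exact3_sub_quot L W).finrank_add
      have hq1 : (1 : ℝ) ≤ finrank K (V ⧸ W) := by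
        have : (finrank K W : ℝ) + 1 ≤ finrank K V := by exact_mod_cast hlt
        linarith
      have hnt : Nontrivial (V ⧸ W) := Submodule.Quotient.nontrivial_iff.2 hW
      have hxμ : x ≤ μ := by
        have h1 := (hB.push hO hL _ W.mkQ_surjective).le_c1 hO (hL.quot hO W)
        exact le_of_mul_le_mul_right (h1.trans hdq.le) (by linarith)
      have e1 := ih _ (hn ▸ hlt) W (sub L W) μ rfl (hL.sub hO W)
        (hU.pull hO hL _ W.injective_subtype) hsub
      have e2 := h.ch2_le hs hP (hL.quot hO W) hUq hLq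
      rw [le_div_iff₀ hτ, ← wtOf_apply, ← hd₁] at e2
      have e3 := mul_le_mul_of_nonneg_right (Window.ch2_exact h hL W) hτ.le
      have e4 := hU.c1_le hO hL
      have e5 := (exact3_sub_quot L W).c1_add hO hL
      have e6 : 0 ≤ (μ - x) * (w * finrank K V - (d₀ + d₁) (c1 O L)) :=
        mul_nonneg (by linarith) (by linarith)
      have e7 : 0 ≤ (finrank K (V ⧸ W) : ℝ) * (w / 2 - μ) ^ 2 := by positivity
      simp only [AddMonoidHom.add_apply] at e1 e4 e6 ⊢
      rw [e5, map_add, map_add, hdq, hr] at e6 ⊢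
      nlinarith

theorem RR.ch2_le_window [CharZero k] (h : RR k O a ω ip) (hs : Coord k s) {τ : ℤ}
    (hP : TwoP ip (cl (Phi O (algebraMap KX K (s 0)))) (cl (Phi O (algebraMap KX K (s 1)))) τ)
    {L : Sys U V} (hL : IsBun O L) {w : ℝ} (hw : 0 ≤ w)
    (hU : Ub O (wtOf ip (cl (Phi O (algebraMap KX K (s 0)))) +
      wtOf ip (cl (Phi O (algebraMap KX K (s 1))))) L w)
    (hB : Lb O (wtOf ip (cl (Phi O (algebraMap KX K (s 0)))) +
      wtOf ip (cl (Phi O (algebraMap KX K (s 1))))) L (-w)) :
    ch2 k a ω ip L ≤ finrank K V * (w ^ 2 / (4 * τ)) := by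
  have := hL.finiteDimensional
  have hO := h.isSL.isFam
  have hτ : (0 : ℝ) < τ := by exact_mod_cast hP.pos
  obtain ⟨W, hW⟩ := exists_gMax_sdeg hO (Window.isWt h hs 0) hL 0
  obtain ⟨h1, h2⟩ := hn_cut hO hL hW.1
  have hq := hL.quot hO W
  have e1 := Window.claimA h hs hP w _ W (sub L W) 0 rfl (hL.sub hO W)
    (hU.pull hO hL _ W.injective_subtype) h1
  have h3 := (hB.push hO hL _ W.mkQ_surjective).dual hO hq
  have h4 := h2.dual hO hq
  rw [neg_neg] at h3
  rw [neg_zero] at h4
  have e2 := Window.claimA h hs hP w _ _ (dual O (quot L W)) 0 rfl hq.dual h3 h4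
  rw [h.ch2_dual hq, Subspace.dual_finrank_eq] at e2
  have e3 := mul_le_mul_of_nonneg_right (Window.ch2_exact h hL W) hτ.le
  have hr : (finrank K V : ℝ) = finrank K W + finrank K (V ⧸ W) := by
    exact_mod_cast (exact3_sub_quot L W).finrank_add
  have e4 : (finrank K V : ℝ) * (w ^ 2 / (4 * τ)) = finrank K V * (w ^ 2 / 4) / τ := by
    field_simp
  rw [e4, le_div_iff₀ hτ, hr]
  linarith

end Vale.Agent.P190
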