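import Vale.Agent.P190.Filt2
import Vale.Agent.P190.Window

/-! Elementary modifications bring the slopes into a window. -/

open Module

noncomputable section

namespace Vale.Agent.P190

section Window

variable {k : Type} [Field k] {U K : Type} [Field K] [Algebra k K] {O : Fam U K}
  {a ω : Div O} {ip : Pic O →+ Pic O →+ ℤ}
variable {V : Type} [AddCommGroup V] [Module K V] [Module k V] [IsScalarTower k K V]
variable {KX : Type} [Field KX] [Algebra k KX] [Algebra KX K] [IsScalarTower k KX K]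
  [FiniteDimensional KX K] {s : Fin 2 → KX}

theorem RR.chi_le_window [CharZero k] (h : RR k O a ω ip) (hs : Coord k s) {τ : ℤ}
    (hP : TwoP ip (cl (Phi O (algebraMap KX K (s 0)))) (cl (Phi O (algebraMap KX K (s 1)))) τ)
    {L : Sys U V} (hL : IsBun O L) {w : ℝ} (hw : 0 ≤ w) {Θ : Div O}
    (hΘ : cl ω = cl Θ + cl Θ) {d : Pic O →+ ℝ}
    (hd : d = wtOf ip (cl (Phi O (algebraMap KX K (s 0)))) +
      wtOf ip (cl (Phi O (algebraMap KX K (s 1)))))
    (hU : Ub O d L (d (cl Θ) + w)) (hB : Lb O d L (d (cl Θ) - w)) :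
    (chi k a L : ℝ) ≤ finrank K V * (chi k a (line Θ) + w ^ 2 / (4 * τ)) := by
  have hO := h.isSL.isFam
  have hL' : IsBun O (twist Θ⁻¹ L) := hL.twist _
  have hU' : Ub O d (twist Θ⁻¹ L) w := by
    have := hU.twist hO hL Θ⁻¹
    rw [cl_inv, map_neg] at this
    convert this using 1; ring
  have hB' : Lb O d (twist Θ⁻¹ L) (-w) := by
    have := hB.twist hO hL Θ⁻¹
    rw [cl_inv, map_neg] at this
    convert this using 1; ring
  subst hd
  have h1 := h.ch2_le_window hs hP hL' hw hU' hB'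
  have h2 := h.chi_twist hL' Θ
  rw [← twist_mul, mul_inv_cancel, twist_one] at h2
  have h3 : (chi k a L : ℝ) = chi k a (twist Θ⁻¹ L) + ip (c1 O (twist Θ⁻¹ L)) (cl Θ)
      + finrank K V * (chi k a (line Θ) - chi k a (triv O)) := by
    exact_mod_cast h2
  unfold ch2 at h1
  rw [hΘ, map_add] at h1
  push_cast at h1
  rw [h3]
  nlinarith

end Window

variable {k : Type} [Field k] {K : Type} [Field K] [Algebra k K] {S : Set K}
variable {M : Type*} [AddCommGroup M] [Module (Rhat k S) M] [Module k M]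
  [IsScalarTower k (Rhat k S) M] {r : ℕ}
variable {F : Type} [Field F] [Algebra k F] [Algebra F K] [IsScalarTower k F K] {P : P2 k F}
  {d : ℕ} {x : K} [IsAlgClosed k] [CharZero k] [FiniteDimensional F K]

theorem NormData.langton_step (hN : NormData P S d x) (hn : NormalS P S d x)
    {dg : Pic (P.OK K) →+ ℝ} (hd : IsWt dg) {μ : ℝ}
    (hstep : 0 < dg (cl (ofSet (P.OK K) S))) {ι : M →ₗ[k] (Fin r → LaurentSeries K)}
    (h : Adm k S (fun i => x * P.s K i) d ι) {E : Sys (PU k) (Fin r → K)}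
    (hE : Hulls P S d x ι E) (hU : Ub (P.OK K) dg E (μ + dg (cl (ofSet (P.OK K) S))))
    (hB : ¬ Lb (P.OK K) dg E μ) :
    ∃ (ι' : M →ₗ[k] (Fin r → LaurentSeries K)) (E' : Sys (PU k) (Fin r → K)),
      Adm k S (fun i => x * P.s K i) d ι' ∧ Hulls P S d x ι' E' ∧
      Ub (P.OK K) dg E' (μ + dg (cl (ofSet (P.OK K) S))) ∧
      dg (c1 (P.OK K) E) + dg (cl (ofSet (P.OK K) S)) ≤ dg (c1 (P.OK K) E') := by
  have hO : IsFam (P.OK K) := (P.isSL_OK K).isFam
  obtain ⟨W, hW, -⟩ := exists_gMax_sdeg hO hd hE.1 μ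
  have hWne : W ≠ ⊤ := by
    rintro rfl
    apply hB
    intro W'
    have h1 := hW W'
    simp only [sdeg_top hO hE.1, finrank_top] at h1
    linarith
  obtain ⟨-, hQ⟩ := hn_cut hO hE.1 hW
  obtain ⟨W', hWW'⟩ := W.exists_isCompl
  obtain ⟨π, hπr, hπ⟩ : ∃ π : (Fin r → K) →ₗ[K] (Fin r → K), LinearMap.range π = W ∧
      π ∘ₗ π = π :=
    ⟨W.projection W' hWW', Submodule.range_projection hWW',
      Submodule.isIdempotentElem_projection hWW'⟩
  obtain ⟨ι', hι', hG⟩ := hN.adm_modify h π hπ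
  obtain ⟨E', hE'⟩ := hN.exists_hulls hn hι'
  obtain ⟨i, p, hex⟩ := hE.exact3 hE' π hπ hG
  subst hπr
  have hq : IsBun (P.OK K) (quot E (LinearMap.range π)) := hE.1.quot hO _
  refine ⟨ι', E', hι', hE', ?_, ?_⟩
  · exact hex.Ub hO hd hE'.1 (hQ.twist hO hq _) (hU.pull hO hE.1 _ (Submodule.injective_subtype _))
  · rw [hex.c1_add hO hE'.1, c1_twist hO hq, map_add, map_add, c1_quot hO hE.1, map_nsmul]
    have hpos : 1 ≤ finrank K ((Fin r → K) ⧸ LinearMap.range π) := by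
      have : Nontrivial ((Fin r → K) ⧸ LinearMap.range π) :=
        Submodule.Quotient.nontrivial_iff.2 hWne
      exact finrank_pos
    have hpos' : (1 : ℝ) ≤ finrank K ((Fin r → K) ⧸ LinearMap.range π) := by exact_mod_cast hpos
    have hs : sdeg (P.OK K) dg E (LinearMap.range π) =
      dg (c1 (P.OK K) (sub E (LinearMap.range π))) := rfl
    rw [nsmul_eq_mul, hs]
    nlinarith

theorem NormData.langton (hN : NormData P S d x) (hn : NormalS P S d x)
    {dg : Pic (P.OK K) →+ ℝ} (hd : IsWt dg) (μ : ℝ)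
    (hstep : 0 < dg (cl (ofSet (P.OK K) S))) {ι : M →ₗ[k] (Fin r → LaurentSeries K)}
    (h : Adm k S (fun i => x * P.s K i) d ι) :
    ∃ (ι' : M →ₗ[k] (Fin r → LaurentSeries K)) (E' : Sys (PU k) (Fin r → K)),
      Adm k S (fun i => x * P.s K i) d ι' ∧ Hulls P S d x ι' E' ∧
      Ub (P.OK K) dg E' (μ + dg (cl (ofSet (P.OK K) S))) ∧ Lb (P.OK K) dg E' μ := by
  have hO : IsFam (P.OK K) := (P.isSL_OK K).isFam
  set t := dg (cl (ofSet (P.OK K) S)) with ht
  -- start: shift down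
  obtain ⟨E₀, hE₀⟩ := hN.exists_hulls hn h
  obtain ⟨ν, hν⟩ := exists_Ub hO hd hE₀.1
  obtain ⟨e, he⟩ : ∃ e : ℤ, ν + e * t ≤ μ + t := by
    refine ⟨⌊(μ + t - ν) / t⌋, ?_⟩
    have h1 := Int.floor_le ((μ + t - ν) / t)
    have h2 := (le_div_iff₀ hstep).1 h1
    linarith
  obtain ⟨ι₁, hι₁, hG₁⟩ := h.shift e
  have hE₁ := hE₀.shift hG₁
  have hU₁ : Ub (P.OK K) dg (twist (ofSet (P.OK K) S ^ e) E₀) (μ + t) := by
    have := hν.twist hO hE₀.1 (ofSet (P.OK K) S ^ e)
    rw [cl_zpow, map_zsmul, zsmul_eq_mul] at this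
    exact this.mono he
  have key : ∀ (n : ℕ) (ι : M →ₗ[k] (Fin r → LaurentSeries K)) (E : Sys (PU k) (Fin r → K)),
      Adm k S (fun i => x * P.s K i) d ι → Hulls P S d x ι E → Ub (P.OK K) dg E (μ + t) →
      (μ + t) * finrank K (Fin r → K) - dg (c1 (P.OK K) E) < n * t →
      ∃ (ι' : M →ₗ[k] (Fin r → LaurentSeries K)) (E' : Sys (PU k) (Fin r → K)),
        Adm k S (fun i => x * P.s K i) d ι' ∧ Hulls P S d x ι' E' ∧
        Ub (P.OK K) dg E' (μ + t) ∧ Lb (P.OK K) dg E' μ := by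
    intro n
    induction n with
    | zero =>
      intro ι E _ hE hU hlt
      have := hU.c1_le hO hE.1
      simp only [Nat.cast_zero, zero_mul] at hlt
      linarith
    | succ n ih =>
      intro ι E hι hE hU hlt
      by_cases hB : Lb (P.OK K) dg E μ
      · exact ⟨ι, E, hι, hE, hU, hB⟩
      · obtain ⟨ι', E', hι', hE', hU', hle⟩ := hN.langton_step hn hd hstep hι hE hU hB
        refine ih ι' E' hι' hE' hU' ?_
        push_cast at hlt
        rw [← ht] at hle
        linarith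
  obtain ⟨n, hn'⟩ := exists_nat_gt (((μ + t) * finrank K (Fin r → K) -
    dg (c1 (P.OK K) (twist (ofSet (P.OK K) S ^ e) E₀))) / t)
  exact key n ι₁ _ hι₁ hE₁ hU₁ ((div_lt_iff₀ hstep).1 hn')

end Vale.Agent.P190
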