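import Vale.Agent.P190.Defs

/-! Lattices over one Bezout subring, and the operations on bundles. -/

open Module
open scoped TensorProduct Pointwise

noncomputable section

namespace Vale.Agent.P190

variable {U K : Type} [Field K]
variable {V V' V'' : Type} [AddCommGroup V] [Module K V] [AddCommGroup V'] [Module K V']
  [AddCommGroup V''] [Module K V'']

lemma mem_latt {R : Subring K} {ι : Type} (e : Basis ι K V) (x : V) :
    x ∈ latt R e ↔ ∀ i, e.repr x i ∈ R := Iff.rfl

lemma Lat1.aux_smul {R : Subring K} {S : Set V} {c : K} (hc : c ∈ R) {x : V}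
    (hx : x ∈ spanO R S) : c • x ∈ spanO R S := by
  induction hx using AddSubgroup.closure_induction with
  | mem y hy =>
    obtain ⟨r, hr, s, hs, rfl⟩ := hy
    exact AddSubgroup.subset_closure ⟨c * r, R.mul_mem hc hr, s, hs, smul_smul _ _ _⟩
  | zero => rw [smul_zero]; exact zero_mem _
  | add x y _ _ hx hy => rw [smul_add]; exact add_mem hx hy
  | neg x _ hx => rw [smul_neg]; exact neg_mem hx

lemma mem_spanO_iff {R : Subring K} {S : Set V} {x : V} :
    x ∈ spanO R S ↔ x ∈ Submodule.span R S := by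
  constructor
  · intro h
    induction h using AddSubgroup.closure_induction with
    | mem y hy =>
      obtain ⟨r, hr, s, hs, rfl⟩ := hy
      exact Submodule.smul_mem _ (⟨r, hr⟩ : R) (Submodule.subset_span hs)
    | zero => exact zero_mem _
    | add x y _ _ hx hy => exact add_mem hx hy
    | neg x _ hx => exact neg_mem hx
  · intro h
    induction h using Submodule.span_induction with
    | mem s hs => exact AddSubgroup.subset_closure ⟨1, one_mem _, s, hs, (one_smul _ _).symm⟩
    | zero => exact zero_mem _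
    | add x y _ _ hx hy => exact add_mem hx hy
    | smul r x _ hx => exact Lat1.aux_smul r.2 hx

lemma subset_spanO {R : Subring K} {S : Set V} : S ⊆ spanO R S := by
  intro s hs
  exact AddSubgroup.subset_closure ⟨1, one_mem _, s, hs, (one_smul _ _).symm⟩

lemma spanO_smul_mem {R : Subring K} {S : Set V} {c : K} (hc : c ∈ R) {x : V}
    (hx : x ∈ spanO R S) : c • x ∈ spanO R S := by
  exact Lat1.aux_smul hc hx

lemma spanO_le {R : Subring K} {S : Set V} {N : AddSubgroup V} (hS : S ⊆ N)
    (hN : ∀ c ∈ R, ∀ x ∈ N, c • x ∈ N) : spanO R S ≤ N := by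
  refine (AddSubgroup.closure_le _).2 ?_
  rintro _ ⟨r, hr, s, hs, rfl⟩
  exact hN r hr s (hS hs)

lemma latt_eq_spanO {R : Subring K} {ι : Type} [Finite ι] (e : Basis ι K V) :
    latt R e = spanO R (Set.range e) := by
  ext x
  rw [mem_spanO_iff, Basis.mem_span_iff_repr_mem, mem_latt]
  refine forall_congr' fun i => ⟨fun h => ⟨⟨_, h⟩, rfl⟩, ?_⟩
  rintro ⟨r, hr⟩
  rw [← hr]
  exact r.2

lemma Lat1.latt_reindex {R : Subring K} {ι ι' : Type} (e : Basis ι K V) (σ : ι ≃ ι') :
    latt R (e.reindex σ) = latt R e := by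
  ext x
  simp only [mem_latt, Basis.repr_reindex_apply]
  exact ⟨fun h i => by simpa using h (σ i), fun h i => h _⟩

lemma Lat1.latt_smul_mem {R : Subring K} {ι : Type} (e : Basis ι K V) {c : K} (hc : c ∈ R)
    {x : V} (hx : x ∈ latt R e) : c • x ∈ latt R e := by
  intro i
  rw [map_smul, Finsupp.smul_apply, smul_eq_mul]
  exact R.mul_mem hc (hx i)

lemma Lat1.basis_mem {R : Subring K} {ι : Type} (e : Basis ι K V) (i : ι) :
    e i ∈ latt R e := by
  classical
  intro j
  rw [Basis.repr_self, Finsupp.single_apply]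
  split_ifs
  · exact R.one_mem
  · exact R.zero_mem

lemma Lat1.latt_le {R : Subring K} {ι : Type} [Finite ι] (e : Basis ι K V) {N : AddSubgroup V}
    (h : ∀ i, e i ∈ N) (hN : ∀ c ∈ R, ∀ x ∈ N, c • x ∈ N) : latt R e ≤ N := by
  rw [latt_eq_spanO]
  exact spanO_le (Set.range_subset_iff.2 h) hN

lemma Lat1.latt_comap {R : Subring K} {ι ι' : Type} (e' : Basis ι' K V') (e : Basis ι K V)
    (f : V' →ₗ[K] V) (σ : ι' → ι) (hσ : Function.Injective σ) (h : ∀ a, f (e' a) = e (σ a)) :
    (latt R e).comap f.toAddMonoidHom = latt R e' := by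
  classical
  have h1 : ∀ a x, e.repr (f x) (σ a) = e'.repr x a := by
    intro a x
    have : (e.coord (σ a)).comp f = e'.coord a := by
      refine e'.ext fun b => ?_
      simp [h, Finsupp.single_apply, hσ.eq_iff]
    exact LinearMap.congr_fun this x
  have h2 : ∀ j, j ∉ Set.range σ → ∀ x, e.repr (f x) j = 0 := by
    intro j hj x
    have : (e.coord j).comp f = 0 := by
      refine e'.ext fun b => ?_
      have : σ b ≠ j := fun hb => hj ⟨b, hb⟩
      simp [h, this]
    exact LinearMap.congr_fun this x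
  ext x
  change (∀ j, e.repr (f x) j ∈ R) ↔ ∀ a, e'.repr x a ∈ R
  constructor
  · intro hx a
    rw [← h1]; exact hx _
  · intro hx j
    by_cases hj : j ∈ Set.range σ
    · obtain ⟨a, rfl⟩ := hj
      rw [h1]; exact hx a
    · rw [h2 j hj]; exact R.zero_mem

lemma Lat1.latt_map {R : Subring K} {ι ι' : Type} [Finite ι] [Finite ι'] (e : Basis ι K V)
    (e' : Basis ι' K V') (p : V →ₗ[K] V') (h1 : ∀ j, p (e j) ∈ latt R e')
    (h2 : ∀ b, ∃ j, p (e j) = e' b) : (latt R e).map p.toAddMonoidHom = latt R e' := by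
  apply le_antisymm
  · rw [AddSubgroup.map_le_iff_le_comap]
    refine Lat1.latt_le e h1 fun c hc x hx => ?_
    change p (c • x) ∈ latt R e'
    rw [map_smul]
    exact Lat1.latt_smul_mem e' hc hx
  · refine Lat1.latt_le e' (fun b => ?_) ?_
    · obtain ⟨j, hj⟩ := h2 b
      exact ⟨e j, Lat1.basis_mem e j, hj⟩
    · rintro c hc _ ⟨x, hx, rfl⟩
      exact ⟨c • x, Lat1.latt_smul_mem e hc hx, map_smul p c x⟩

lemma isLat_latt {R : Subring K} {ι : Type} [Finite ι] (e : Basis ι K V) :
    IsLat R (latt R e) := by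
  obtain ⟨n, ⟨σ⟩⟩ := Finite.exists_equiv_fin ι
  exact ⟨n, e.reindex σ, (Lat1.latt_reindex e σ).symm⟩

lemma IsLat.smul_mem {R : Subring K} {N : AddSubgroup V} (h : IsLat R N) {c : K} (hc : c ∈ R)
    {x : V} (hx : x ∈ N) : c • x ∈ N := by
  obtain ⟨n, e, rfl⟩ := h
  exact Lat1.latt_smul_mem e hc hx

lemma IsLat.finiteDimensional {R : Subring K} {N : AddSubgroup V} (h : IsLat R N) :
    FiniteDimensional K V := by
  obtain ⟨n, e, -⟩ := h
  exact Module.Finite.of_basis e

/-- a local basis can be taken with any index type of the right size -/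
lemma IsLat.exists_basis {R : Subring K} {N : AddSubgroup V} (h : IsLat R N) {ι : Type}
    [Finite ι] (e₀ : Basis ι K V) : ∃ e : Basis ι K V, N = latt R e := by
  obtain ⟨n, e, rfl⟩ := h
  exact ⟨e.reindex (e.indexEquiv e₀), (Lat1.latt_reindex e _).symm⟩

lemma Lat1.exists_gen {R : Subring K} [IsBezout R]
    (hfrac : ∀ x : K, ∃ b ∈ R, b ≠ 0 ∧ b * x ∈ R) (f : V →ₗ[K] K) {S : Set V} (hS : S.Finite) :
    ∃ x ∈ Submodule.span R S, ∀ s ∈ S, ∃ r : R, f s = r * f x := by
  induction S, hS using Set.Finite.induction_on with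
  | empty => exact ⟨0, zero_mem _, by simp⟩
  | @insert s S _ _ ih =>
    obtain ⟨x, hx, h⟩ := ih
    obtain ⟨b, hb, hb0, hbx⟩ := hfrac (f x)
    obtain ⟨c, hc, hc0, hcs⟩ := hfrac (f s)
    have hp : b * c * f x ∈ R := by
      have := R.mul_mem hc hbx
      convert this using 1; ring
    have hq : b * c * f s ∈ R := by
      have := R.mul_mem hb hcs
      convert this using 1; ring
    obtain ⟨α, β, hαβ⟩ := IsBezout.gcd_eq_sum (⟨_, hp⟩ : R) ⟨_, hq⟩
    obtain ⟨p, hp'⟩ := IsBezout.gcd_dvd_left (⟨_, hp⟩ : R) ⟨_, hq⟩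
    obtain ⟨q, hq'⟩ := IsBezout.gcd_dvd_right (⟨_, hp⟩ : R) ⟨_, hq⟩
    rw [← hαβ] at hp' hq'
    have hp2 : b * c * f x = ((α : K) * (b * c * f x) + β * (b * c * f s)) * p :=
      congrArg Subtype.val hp'
    have hq2 : b * c * f s = ((α : K) * (b * c * f x) + β * (b * c * f s)) * q :=
      congrArg Subtype.val hq'
    have hbc : b * c ≠ 0 := mul_ne_zero hb0 hc0
    have hf : f (α • x + β • s) = α * f x + β * f s := by
      rw [map_add]
      change f ((α : K) • x) + f ((β : K) • s) = _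
      rw [map_smul, map_smul, smul_eq_mul, smul_eq_mul]
    refine ⟨α • x + β • s, add_mem (Submodule.smul_mem _ _
      (Submodule.span_mono (Set.subset_insert _ _) hx))
      (Submodule.smul_mem _ _ (Submodule.subset_span (Set.mem_insert _ _))), ?_⟩
    have hx2 : f x = p * f (α • x + β • s) := by
      rw [hf]
      apply mul_left_cancel₀ hbc
      linear_combination hp2
    have hs2 : f s = q * f (α • x + β • s) := by
      rw [hf]
      apply mul_left_cancel₀ hbc
      linear_combination hq2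
    rintro t (rfl | ht)
    · exact ⟨q, hs2⟩
    · obtain ⟨r, hr⟩ := h t ht
      refine ⟨r * p, ?_⟩
      rw [hr, Subring.coe_mul, mul_assoc, ← hx2]

lemma Lat1.exists_indep {R : Subring K} [IsBezout R]
    (hfrac : ∀ x : K, ∃ b ∈ R, b ≠ 0 ∧ b * x ∈ R) (d : ℕ) :
    ∀ S : Set V, S.Finite → finrank K (Submodule.span K S) = d →
      ∃ (n : ℕ) (b : Fin n → V), LinearIndependent K b ∧
        Submodule.span R (Set.range b) = Submodule.span R S := by
  induction d using Nat.strong_induction_on with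
  | _ d ih =>
  intro S hS hd
  by_cases h0 : ∀ s ∈ S, s = 0
  · refine ⟨0, Fin.elim0, linearIndependent_empty_type, ?_⟩
    rw [Set.range_eq_empty, Submodule.span_empty, eq_comm, Submodule.span_eq_bot]
    exact h0
  push Not at h0
  obtain ⟨s₀, hs₀, hs₀'⟩ := h0
  obtain ⟨f, hf⟩ := Module.Projective.exists_dual_ne_zero K hs₀'
  obtain ⟨x, hx, h⟩ := Lat1.exists_gen hfrac f hS
  choose! r hr using h
  have hfx : f x ≠ 0 := by
    intro h0
    apply hf
    rw [hr s₀ hs₀, h0, mul_zero]
  set S' := (fun s => s - r s • x) '' S with hS'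
  have hle : Submodule.span R S' ≤ Submodule.span R S := by
    rw [Submodule.span_le]
    rintro _ ⟨s, hs, rfl⟩
    exact sub_mem (Submodule.subset_span hs) (Submodule.smul_mem _ _ hx)
  have hker : Submodule.span K S' ≤ LinearMap.ker f := by
    rw [Submodule.span_le]
    rintro _ ⟨s, hs, rfl⟩
    change f (s - (r s : K) • x) = 0
    rw [map_sub, map_smul, hr s hs, smul_eq_mul, sub_self]
  have hlt : Submodule.span K S' < Submodule.span K S := by
    refine lt_of_le_of_ne ?_ fun heq => hf (hker (heq ▸ Submodule.subset_span hs₀))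
    rw [Submodule.span_le]
    intro y hy
    exact Submodule.span_subset_span R K _ (hle (Submodule.subset_span hy))
  have : FiniteDimensional K (Submodule.span K S) := FiniteDimensional.span_of_finite K hS
  obtain ⟨n, b, hb, hb'⟩ := ih _ (hd ▸ Submodule.finrank_lt_finrank_of_lt hlt) S'
    (hS.image _) rfl
  refine ⟨n + 1, Fin.cons x b, hb.finCons ?_, ?_⟩
  · intro hmem
    apply hfx
    refine hker (Submodule.span_le.2 ?_ hmem)
    intro y hy
    exact Submodule.span_subset_span R K _ (hb' ▸ Submodule.subset_span hy)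
  · rw [Fin.range_cons, Submodule.span_insert, hb']
    apply le_antisymm
    · exact sup_le ((Submodule.span_singleton_le_iff_mem _ _).2 hx) hle
    · rw [Submodule.span_le]
      intro s hs
      have h1 : s = r s • x + (s - r s • x) := by abel
      rw [h1]
      exact Submodule.add_mem_sup (Submodule.smul_mem _ _ (Submodule.mem_span_singleton_self x))
        (Submodule.subset_span ⟨s, hs, rfl⟩)

/-- finitely generated torsion-free modules over a Bezout domain are free -/
lemma isLat_spanO {R : Subring K} [IsBezout R] (hfrac : ∀ x : K, ∃ b ∈ R, b ≠ 0 ∧ b * x ∈ R)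
    {S : Set V} (hS : S.Finite) (hspan : Submodule.span K S = ⊤) : IsLat R (spanO R S) := by
  obtain ⟨n, b, hb, h⟩ := Lat1.exists_indep hfrac _ S hS rfl
  have hsp : ⊤ ≤ Submodule.span K (Set.range b) := by
    rw [← hspan, Submodule.span_le]
    intro s hs
    have : s ∈ Submodule.span R (Set.range b) := h ▸ Submodule.subset_span hs
    exact Submodule.span_subset_span R K _ this
  refine ⟨n, Basis.mk hb hsp, ?_⟩
  rw [latt_eq_spanO, Basis.coe_mk]
  ext x
  rw [mem_spanO_iff, mem_spanO_iff, h]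

/-- bases adapted to a subspace -/
lemma IsLat.exists_adapted {R : Subring K} [IsBezout R]
    (hfrac : ∀ x : K, ∃ b ∈ R, b ≠ 0 ∧ b * x ∈ R) {N : AddSubgroup V} (h : IsLat R N)
    (W : Submodule K V) : ∃ (n n' : ℕ) (e : Basis (Fin n ⊕ Fin n') K V),
      N = latt R e ∧ W = Submodule.span K (Set.range fun i => e (Sum.inl i)) := by
  obtain ⟨m, e₀, rfl⟩ := h
  obtain ⟨n', b, hb, hb'⟩ := Lat1.exists_indep hfrac _ (Set.range fun j => W.mkQ (e₀ j))
    (Set.finite_range _) rfl
  have hmap : Submodule.span R (Set.range fun j => W.mkQ (e₀ j)) =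
      (Submodule.span R (Set.range e₀)).map (W.mkQ.restrictScalars R) := by
    rw [Submodule.map_span, ← Set.range_comp]
    rfl
  have h1 : ∀ j, ∃ y ∈ Submodule.span R (Set.range e₀), W.mkQ y = b j := by
    intro j
    have : b j ∈ (Submodule.span R (Set.range e₀)).map (W.mkQ.restrictScalars R) := by
      rw [← hmap, ← hb']
      exact Submodule.subset_span ⟨j, rfl⟩
    exact this
  choose y hy hy' using h1
  have h2 : ∀ j, ∃ z ∈ Submodule.span R (Set.range y), W.mkQ z = W.mkQ (e₀ j) := by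
    intro j
    have h3 : W.mkQ (e₀ j) ∈ (Submodule.span R (Set.range y)).map (W.mkQ.restrictScalars R) := by
      rw [Submodule.map_span, ← Set.range_comp]
      have : (W.mkQ.restrictScalars R) ∘ y = b := funext hy'
      rw [this, hb']
      exact Submodule.subset_span ⟨j, rfl⟩
    exact h3
  choose z hz hz' using h2
  obtain ⟨n, a, ha, ha'⟩ := Lat1.exists_indep hfrac _ (Set.range fun j => e₀ j - z j)
    (Set.finite_range _) rfl
  have haW : ∀ i, a i ∈ W := by
    intro i
    have h3 : a i ∈ Submodule.span R (Set.range fun j => e₀ j - z j) :=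
      ha' ▸ Submodule.subset_span ⟨i, rfl⟩
    refine Submodule.span_le.2 ?_ (Submodule.span_subset_span R K _ h3)
    rintro _ ⟨j, rfl⟩
    rw [SetLike.mem_coe, ← Submodule.Quotient.eq]
    exact (hz' j).symm
  have hyle : Submodule.span R (Set.range y) ≤ Submodule.span R (Set.range e₀) :=
    Submodule.span_le.2 (Set.range_subset_iff.2 hy)
  have hspan : Submodule.span R (Set.range (Sum.elim a y)) = Submodule.span R (Set.range e₀) := by
    rw [Set.Sum.elim_range, Submodule.span_union, ha']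
    apply le_antisymm
    · refine sup_le (Submodule.span_le.2 ?_) hyle
      rintro _ ⟨j, rfl⟩
      exact sub_mem (Submodule.subset_span ⟨j, rfl⟩) (hyle (hz j))
    · rw [Submodule.span_le]
      rintro _ ⟨j, rfl⟩
      have h3 : e₀ j = (e₀ j - z j) + z j := by abel
      rw [h3]
      exact Submodule.add_mem_sup (Submodule.subset_span ⟨j, rfl⟩) (hz j)
  have hyb : W.mkQ ∘ y = b := funext hy'
  have hdisj : Disjoint W (Submodule.span K (Set.range y)) := by
    rw [Submodule.disjoint_def]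
    intro x hxW hx
    obtain ⟨c, rfl⟩ := (Submodule.mem_span_range_iff_exists_fun K).1 hx
    have h3 : ∑ j, c j • b j = 0 := by
      have := (Submodule.Quotient.mk_eq_zero W).2 hxW
      rw [← Submodule.mkQ_apply, map_sum] at this
      simpa only [map_smul, hy'] using this
    have h4 := Fintype.linearIndependent_iff.1 hb c h3
    simp [h4]
  have haW' : Submodule.span K (Set.range a) ≤ W :=
    Submodule.span_le.2 (Set.range_subset_iff.2 haW)
  have hli : LinearIndependent K (Sum.elim a y) :=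
    ha.sum_type (LinearIndependent.of_comp W.mkQ (hyb ▸ hb)) (hdisj.mono_left haW')
  have hsp : ⊤ ≤ Submodule.span K (Set.range (Sum.elim a y)) := by
    rw [← e₀.span_eq, Submodule.span_le]
    intro s hs
    exact Submodule.span_subset_span R K _ (hspan ▸ Submodule.subset_span hs)
  refine ⟨n, n', Basis.mk hli hsp, ?_, ?_⟩
  · rw [latt_eq_spanO, latt_eq_spanO, Basis.coe_mk]
    ext x
    rw [mem_spanO_iff, mem_spanO_iff, hspan]
  · simp only [Basis.coe_mk, Sum.elim_inl]
    refine le_antisymm (fun w hw => ?_) haW'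
    have h3 : w ∈ Submodule.span K (Set.range (Sum.elim a y)) := hsp trivial
    rw [Set.Sum.elim_range, Submodule.span_union, Submodule.mem_sup] at h3
    obtain ⟨w₁, h₁, w₂, h₂, rfl⟩ := h3
    have h4 : w₂ = 0 := (Submodule.disjoint_def.1 hdisj) w₂
      ((W.add_mem_iff_right (haW' h₁)).1 hw) h₂
    rw [h4, add_zero]
    exact h₁

/-- every vector has a non-zero multiple in a lattice -/
lemma IsLat.exists_smul_mem {R : Subring K} (hfrac : ∀ x : K, ∃ b ∈ R, b ≠ 0 ∧ b * x ∈ R)
    {N : AddSubgroup V} (h : IsLat R N) (x : V) : ∃ b ∈ R, b ≠ 0 ∧ b • x ∈ N := by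
  obtain ⟨n, e, rfl⟩ := h
  choose b hb hb0 hbx using fun i => hfrac (e.repr x i)
  refine ⟨∏ i, b i, prod_mem fun i _ => hb i, Finset.prod_ne_zero_iff.2 fun i _ => hb0 i,
    fun i => ?_⟩
  rw [map_smul, Finsupp.smul_apply, smul_eq_mul,
    ← Finset.prod_erase_mul _ _ (Finset.mem_univ i), mul_assoc]
  exact R.mul_mem (prod_mem fun j _ => hb j) (hbx i)

variable {O : Fam U K}

lemma IsBun.finiteDimensional {L : Sys U V} (h : IsBun O L) : FiniteDimensional K V := by
  obtain ⟨n, e, -⟩ := h.std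
  exact Module.Finite.of_basis e

lemma IsBun.smul_mem {L : Sys U V} (h : IsBun O L) {u : U} {c : K} (hc : c ∈ O u) {x : V}
    (hx : x ∈ L u) : c • x ∈ L u := (h.lat u).smul_mem hc hx

lemma Lat1.finite_notMem_latt (hO : IsFam O) {ι : Type} [Finite ι] (e : Basis ι K V) (x : V) :
    {u | x ∉ latt (O u) e}.Finite := by
  refine (Set.finite_iUnion fun i => hO.fin (e.repr x i)).subset fun u hu => ?_
  simpa [mem_latt] using hu

lemma Lat1.isBun_of {L : Sys U V} (h : ∀ u, IsLat (O u) (L u)) {ι : Type} [Finite ι]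
    (e : Basis ι K V) (he : {u | L u ≠ latt (O u) e}.Finite) : IsBun O L := by
  obtain ⟨n, ⟨σ⟩⟩ := Finite.exists_equiv_fin ι
  refine ⟨h, n, e.reindex σ, ?_⟩
  simpa only [Lat1.latt_reindex] using he

lemma IsBun.std' (hO : IsFam O) {L : Sys U V} (h : IsBun O L) {ι : Type} [Finite ι]
    (e : Basis ι K V) : {u | L u ≠ latt (O u) e}.Finite := by
  obtain ⟨n, e₀, h₀⟩ := h.std
  refine ((h₀.union (Set.finite_iUnion fun i => Lat1.finite_notMem_latt hO e₀ (e i))).union
    (Set.finite_iUnion fun j => Lat1.finite_notMem_latt hO e (e₀ j))).subset fun u hu => ?_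
  by_contra hc
  simp only [Set.mem_union, Set.mem_ofPred_eq, Set.mem_iUnion, not_or, not_not,
    not_exists] at hc
  apply hu
  rw [hc.1.1]
  exact le_antisymm (Lat1.latt_le e₀ hc.2 fun c hc x hx => Lat1.latt_smul_mem e hc hx)
    (Lat1.latt_le e hc.1.2 fun c hc x hx => Lat1.latt_smul_mem e₀ hc hx)

lemma IsBun.finite_notMem (hO : IsFam O) {L : Sys U V} (h : IsBun O L) (x : V) :
    {u | x ∉ L u}.Finite := by
  obtain ⟨n, e, he⟩ := h.std
  refine (he.union (Lat1.finite_notMem_latt hO e x)).subset fun u hu => ?_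
  by_contra hc
  simp only [Set.mem_union, Set.mem_ofPred_eq, not_or, not_not] at hc
  exact hu (hc.1 ▸ hc.2)

lemma isBun_latt {ι : Type} [Finite ι] (e : Basis ι K V) : IsBun O (fun u => latt (O u) e) := by
  exact Lat1.isBun_of (fun u => isLat_latt e) e (by simp)

lemma isBun_spanO (hO : IsFam O) {S : Set V} (hS : S.Finite) (hspan : Submodule.span K S = ⊤) :
    IsBun O (fun u => spanO (O u) S) := by
  have hfin : ∀ x ∈ Submodule.span K S, {u | x ∉ spanO (O u) S}.Finite := by
    intro x hx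
    induction hx using Submodule.span_induction with
    | mem s hs => simp [show ∀ u, s ∈ spanO (O u) S from fun u => subset_spanO hs]
    | zero => simp
    | add x y _ _ hx hy =>
      refine (hx.union hy).subset fun u hu => ?_
      by_contra hc
      simp only [Set.mem_union, Set.mem_ofPred_eq, not_or, not_not] at hc
      exact hu (add_mem hc.1 hc.2)
    | smul c x _ hx =>
      refine (hx.union (hO.fin c)).subset fun u hu => ?_
      by_contra hc
      simp only [Set.mem_union, Set.mem_ofPred_eq, not_or, not_not] at hc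
      exact hu (spanO_smul_mem hc.2 hc.1)
  have : FiniteDimensional K V := Module.finite_def.2 ⟨hS.toFinset, by simpa using hspan⟩
  let e := Module.finBasis K V
  refine ⟨fun u => ?_, _, e, ?_⟩
  · have := hO.bezout u
    exact isLat_spanO (hO.frac u) hS hspan
  · refine ((Set.finite_iUnion fun i => hfin (e i) (hspan ▸ trivial)).union
      (hS.biUnion fun s _ => Lat1.finite_notMem_latt hO e s)).subset fun u hu => ?_
    by_contra hc
    simp only [Set.mem_union, Set.mem_ofPred_eq, Set.mem_iUnion, not_or, not_not,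
      not_exists] at hc
    apply hu
    exact le_antisymm (spanO_le hc.2 fun c hc x hx => Lat1.latt_smul_mem e hc hx)
      (Lat1.latt_le e hc.1 fun c hc x hx => spanO_smul_mem hc hx)

lemma isBun_triv : IsBun O (triv O) := by
  have : triv O = fun u => latt (O u) (Basis.singleton Unit K) := by
    funext u
    ext x
    simp [mem_latt, triv]
  rw [this]
  exact isBun_latt _

lemma IsBun.twist {L : Sys U V} (h : IsBun O L) (c : Div O) : IsBun O (twist c L) := by
  refine ⟨fun u => ?_, ?_⟩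
  · obtain ⟨n, e, he⟩ := h.lat u
    refine ⟨n, e.unitsSMul fun _ => c.1 u, ?_⟩
    ext x
    rw [mem_twist, he, mem_latt, mem_latt]
    refine forall_congr' fun i => ?_
    rw [Basis.repr_unitsSMul, map_smul, Finsupp.smul_apply, Units.smul_def, Units.val_inv_eq_inv_val]
    rfl
  · obtain ⟨n, e, he⟩ := h.std
    refine ⟨n, e, (he.union c.2).subset fun u hu => ?_⟩
    by_contra hc
    simp only [Set.mem_union, Set.mem_ofPred_eq, not_or, not_not] at hc
    apply hu
    have h1 : dv c u ∈ O u := hc.2.1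
    have h2 : (dv c u)⁻¹ ∈ O u := by
      have := hc.2.2
      rwa [Units.val_inv_eq_inv_val] at this
    have h3 : dv c u ≠ 0 := Units.ne_zero _
    ext x
    rw [mem_twist, hc.1]
    refine ⟨fun hx => ?_, fun hx => Lat1.latt_smul_mem e h2 hx⟩
    have := Lat1.latt_smul_mem e h1 hx
    rwa [smul_smul, mul_inv_cancel₀ h3, one_smul] at this

lemma isBun_line (c : Div O) : IsBun O (line c) := isBun_triv.twist c

lemma Lat1.exists_adapted_basis [FiniteDimensional K V] (W : Submodule K V) :
    ∃ (n n' : ℕ) (e : Basis (Fin n ⊕ Fin n') K V),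
      W = Submodule.span K (Set.range fun i => e (Sum.inl i)) := by
  have : IsBezout (⊤ : Subring K) :=
    Function.Surjective.isBezout (Subring.topEquiv (R := K)).symm.toRingHom
      (Subring.topEquiv (R := K)).symm.surjective
  obtain ⟨n, n', e, -, he⟩ := (isLat_latt (R := (⊤ : Subring K))
    (Module.finBasis K V)).exists_adapted (fun x => ⟨1, Subring.mem_top _, one_ne_zero, Subring.mem_top _⟩) W
  exact ⟨n, n', e, he⟩

lemma Lat1.aux_pull {ι ι' : Type} (e : Basis (ι ⊕ ι') K V) (f : V' →ₗ[K] V)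
    (hf : Function.Injective f)
    (hW : LinearMap.range f = Submodule.span K (Set.range fun i => e (Sum.inl i))) :
    ∃ e' : Basis ι K V', ∀ a, e (Sum.inl a) = f (e' a) := by
  have h1 : ∀ a, ∃ y, f y = e (Sum.inl a) := fun a => by
    have : e (Sum.inl a) ∈ LinearMap.range f := hW ▸ Submodule.subset_span ⟨a, rfl⟩
    exact this
  choose y hy using h1
  have h2 : f ∘ y = fun i => e (Sum.inl i) := funext hy
  have hli : LinearIndependent K y :=
    LinearIndependent.of_comp f (h2 ▸ e.linearIndependent.comp _ Sum.inl_injective)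
  have hsp : ⊤ ≤ Submodule.span K (Set.range y) := by
    intro x _
    have h3 : f x ∈ (Submodule.span K (Set.range y)).map f := by
      rw [Submodule.map_span, ← Set.range_comp, h2, ← hW]
      exact ⟨x, rfl⟩
    obtain ⟨x', hx', h4⟩ := h3
    exact hf h4 ▸ hx'
  exact ⟨Basis.mk hli hsp, fun a => by rw [Basis.coe_mk, hy]⟩

lemma Lat1.aux_push {ι ι' : Type} [Finite ι] [Finite ι'] (e : Basis (ι ⊕ ι') K V)
    (p : V →ₗ[K] V') (hp : Function.Surjective p)
    (hW : LinearMap.ker p = Submodule.span K (Set.range fun i => e (Sum.inl i))) :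
    ∃ e' : Basis ι' K V', (∀ b, p (e (Sum.inr b)) = e' b) ∧
      ∀ R : Subring K, (latt R e).map p.toAddMonoidHom = latt R e' := by
  have h0 : ∀ a, p (e (Sum.inl a)) = 0 := fun a => by
    have : e (Sum.inl a) ∈ LinearMap.ker p := hW ▸ Submodule.subset_span ⟨a, rfl⟩
    exact this
  have hli : LinearIndependent K (p ∘ (e ∘ Sum.inr)) := by
    refine (e.linearIndependent.comp _ Sum.inr_injective).map ?_
    rw [hW]
    have := e.linearIndependent.disjoint_span_image
      (s := Set.range Sum.inr) (t := Set.range Sum.inl) Set.isCompl_range_inl_range_inr.symm.1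
    rwa [← Set.range_comp, ← Set.range_comp] at this
  have hsp : ⊤ ≤ Submodule.span K (Set.range (p ∘ (e ∘ Sum.inr))) := by
    rw [← LinearMap.range_eq_top.2 hp, LinearMap.range_eq_map, ← e.span_eq, Submodule.map_span,
      Submodule.span_le]
    rintro _ ⟨_, ⟨j, rfl⟩, rfl⟩
    rcases j with a | b
    · rw [h0]; exact zero_mem _
    · exact Submodule.subset_span ⟨b, rfl⟩
  refine ⟨Basis.mk hli hsp, fun b => by rw [Basis.coe_mk]; rfl, fun R => ?_⟩
  refine Lat1.latt_map e _ p ?_ fun b => ⟨Sum.inr b, by rw [Basis.coe_mk]; rfl⟩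
  rintro (a | b)
  · rw [h0]; exact zero_mem _
  · have := Lat1.basis_mem (R := R) (Basis.mk hli hsp) b
    rwa [Basis.coe_mk] at this

lemma IsBun.pull (hO : IsFam O) {L : Sys U V} (h : IsBun O L) (f : V' →ₗ[K] V)
    (hf : Function.Injective f) : IsBun O (pull f L) := by
  have := h.finiteDimensional
  refine ⟨fun u => ?_, ?_⟩
  · have := hO.bezout u
    obtain ⟨n, n', e, he, hW⟩ := (h.lat u).exists_adapted (hO.frac u) (LinearMap.range f)
    obtain ⟨e', he'⟩ := Lat1.aux_pull e f hf hW
    refine ⟨n, e', ?_⟩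
    rw [← Lat1.latt_comap e' e f Sum.inl Sum.inl_injective fun a => (he' a).symm, ← he]
    rfl
  · obtain ⟨n, n', e, hW⟩ := Lat1.exists_adapted_basis (LinearMap.range f)
    obtain ⟨e', he'⟩ := Lat1.aux_pull e f hf hW
    refine ⟨n, e', (h.std' hO e).subset fun u hu he => hu ?_⟩
    rw [← Lat1.latt_comap e' e f Sum.inl Sum.inl_injective fun a => (he' a).symm, ← he]
    rfl

lemma IsBun.push (hO : IsFam O) {L : Sys U V} (h : IsBun O L) (f : V →ₗ[K] V')
    (hf : Function.Surjective f) : IsBun O (push f L) := by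
  have := h.finiteDimensional
  refine ⟨fun u => ?_, ?_⟩
  · have := hO.bezout u
    obtain ⟨n, n', e, he, hW⟩ := (h.lat u).exists_adapted (hO.frac u) (LinearMap.ker f)
    obtain ⟨e', -, he'⟩ := Lat1.aux_push e f hf hW
    refine ⟨n', e', ?_⟩
    rw [← he', ← he]
    rfl
  · obtain ⟨n, n', e, hW⟩ := Lat1.exists_adapted_basis (LinearMap.ker f)
    obtain ⟨e', -, he'⟩ := Lat1.aux_push e f hf hW
    refine ⟨n', e', (h.std' hO e).subset fun u hu he => hu ?_⟩
    rw [← he', ← he]
    rfl

lemma IsBun.sub (hO : IsFam O) {L : Sys U V} (h : IsBun O L) (W : Submodule K V) :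
    IsBun O (sub L W) := h.pull hO _ W.injective_subtype

lemma IsBun.quot (hO : IsFam O) {L : Sys U V} (h : IsBun O L) (W : Submodule K V) :
    IsBun O (quot L W) := h.push hO _ W.mkQ_surjective

lemma dual_latt {ι : Type} [Finite ι] [DecidableEq ι] (e : Basis ι K V) {L : Sys U V} {u : U}
    (h : L u = latt (O u) e) : dual O L u = latt (O u) e.dualBasis := by
  ext φ
  change (∀ x ∈ L u, φ x ∈ O u) ↔ _
  rw [h, mem_latt]
  simp only [Basis.dualBasis_repr]
  refine ⟨fun hφ i => hφ _ (Lat1.basis_mem e i), fun hφ x hx => ?_⟩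
  refine Lat1.latt_le (N := (O u).toAddSubgroup.comap φ.toAddMonoidHom) e hφ ?_ hx
  intro c hc y hy
  change φ (c • y) ∈ O u
  rw [map_smul]
  exact (O u).mul_mem hc hy

lemma tens_latt {ι ι' : Type} [Finite ι] [Finite ι'] (e : Basis ι K V) (e' : Basis ι' K V')
    {L : Sys U V} {L' : Sys U V'} {u : U} (h : L u = latt (O u) e) (h' : L' u = latt (O u) e') :
    tens K L L' u = latt (O u) (e.tensorProduct e') := by
  apply le_antisymm
  · refine (AddSubgroup.closure_le _).2 ?_
    rintro _ ⟨x, hx, y, hy, rfl⟩ ⟨i, j⟩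
    rw [h] at hx
    rw [h'] at hy
    rw [Basis.tensorProduct_repr_tmul_apply, smul_eq_mul]
    exact (O u).mul_mem (hy j) (hx i)
  · rw [latt_eq_spanO]
    refine (AddSubgroup.closure_le _).2 ?_
    rintro _ ⟨r, hr, _, ⟨⟨i, j⟩, rfl⟩, rfl⟩
    refine AddSubgroup.subset_closure ⟨r • e i, ?_, e' j, ?_, ?_⟩
    · rw [h]; exact Lat1.latt_smul_mem e hr (Lat1.basis_mem e i)
    · rw [h']; exact Lat1.basis_mem e' j
    · rw [Basis.tensorProduct_apply, TensorProduct.smul_tmul']

lemma IsBun.dual {L : Sys U V} (h : IsBun O L) : IsBun O (dual O L) := by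
  refine ⟨fun u => ?_, ?_⟩
  · obtain ⟨n, e, he⟩ := h.lat u
    exact ⟨n, e.dualBasis, dual_latt e he⟩
  · obtain ⟨n, e, he⟩ := h.std
    exact ⟨n, e.dualBasis, he.subset fun u hu hc => hu (dual_latt e hc)⟩

lemma IsBun.tens {L : Sys U V} {L' : Sys U V'} (h : IsBun O L) (h' : IsBun O L') :
    IsBun O (tens K L L') := by
  obtain ⟨n, e, he⟩ := h.std
  obtain ⟨n', e', he'⟩ := h'.std
  refine Lat1.isBun_of (fun u => ?_) (e.tensorProduct e') ((he.union he').subset fun u hu => ?_)
  · obtain ⟨m, b, hb⟩ := h.lat u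
    obtain ⟨m', b', hb'⟩ := h'.lat u
    rw [tens_latt b b' hb hb']
    exact isLat_latt _
  · by_contra hc
    simp only [Set.mem_union, Set.mem_ofPred_eq, not_or, not_not] at hc
    exact hu (tens_latt e e' hc.1 hc.2)

lemma Lat1.prodS_latt {ι ι' : Type} (e : Basis ι K V) (e' : Basis ι' K V')
    {L : Sys U V} {L' : Sys U V'} {u : U} (h : L u = latt (O u) e) (h' : L' u = latt (O u) e') :
    prodS L L' u = latt (O u) (e.prod e') := by
  ext x
  rw [prodS, AddSubgroup.mem_prod, h, h', mem_latt, mem_latt, mem_latt, Sum.forall]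
  simp only [Basis.prod_repr_inl, Basis.prod_repr_inr]

lemma IsBun.prodS {L : Sys U V} {L' : Sys U V'} (h : IsBun O L) (h' : IsBun O L') :
    IsBun O (prodS L L') := by
  obtain ⟨n, e, he⟩ := h.std
  obtain ⟨n', e', he'⟩ := h'.std
  refine Lat1.isBun_of (fun u => ?_) (e.prod e') ((he.union he').subset fun u hu => ?_)
  · obtain ⟨m, b, hb⟩ := h.lat u
    obtain ⟨m', b', hb'⟩ := h'.lat u
    rw [Lat1.prodS_latt b b' hb hb']
    exact isLat_latt _
  · by_contra hc
    simp only [Set.mem_union, Set.mem_ofPred_eq, not_or, not_not] at hc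
    exact hu (Lat1.prodS_latt e e' hc.1 hc.2)

lemma IsBun.inf (hO : IsFam O) {L L' : Sys U V} (h : IsBun O L) (h' : IsBun O L') :
    IsBun O (L ⊓ L') := by
  have h1 : L ⊓ L' = P190.pull (LinearMap.prod (LinearMap.id : V →ₗ[K] V) LinearMap.id)
      (P190.prodS L L') := by
    funext u
    ext x
    exact Iff.rfl
  rw [h1]
  exact (h.prodS h').pull hO _ fun x y hxy => congrArg Prod.fst hxy

lemma IsBun.sup (hO : IsFam O) {L L' : Sys U V} (h : IsBun O L) (h' : IsBun O L') :
    IsBun O (L ⊔ L') := by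
  have h1 : L ⊔ L' = P190.push (LinearMap.coprod (LinearMap.id : V →ₗ[K] V) LinearMap.id)
      (P190.prodS L L') := by
    funext u
    ext x
    rw [Pi.sup_apply, AddSubgroup.mem_sup]
    constructor
    · rintro ⟨y, hy, z, hz, rfl⟩
      exact ⟨(y, z), ⟨hy, hz⟩, rfl⟩
    · rintro ⟨⟨y, z⟩, ⟨hy, hz⟩, rfl⟩
      exact ⟨y, hy, z, hz, rfl⟩
  rw [h1]
  exact (h.prodS h').push hO _ fun x => ⟨(x, 0), by simp⟩

lemma exact3_sub_quot (L : Sys U V) (W : Submodule K V) :
    Exact3 (sub L W) L (quot L W) W.subtype W.mkQ := by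
  exact ⟨W.injective_subtype, W.mkQ_surjective, by simp, rfl, rfl⟩

lemma Exact3.isBun_left (hO : IsFam O) {L' : Sys U V'} {L : Sys U V} {L'' : Sys U V''}
    {i : V' →ₗ[K] V} {p : V →ₗ[K] V''} (h : Exact3 L' L L'' i p) (hL : IsBun O L) :
    IsBun O L' := by
  rw [h.eq_pull]; exact hL.pull hO _ h.inj

lemma Exact3.isBun_right (hO : IsFam O) {L' : Sys U V'} {L : Sys U V} {L'' : Sys U V''}
    {i : V' →ₗ[K] V} {p : V →ₗ[K] V''} (h : Exact3 L' L L'' i p) (hL : IsBun O L) :
    IsBun O L'' := by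
  rw [h.eq_push]; exact hL.push hO _ h.surj

lemma Exact3.finrank_add {L' : Sys U V'} {L : Sys U V} {L'' : Sys U V''}
    {i : V' →ₗ[K] V} {p : V →ₗ[K] V''} (h : Exact3 L' L L'' i p) [FiniteDimensional K V] :
    finrank K V = finrank K V' + finrank K V'' := by
  rw [← p.finrank_range_add_finrank_ker, ← h.exact, LinearMap.finrank_range_of_inj h.inj,
    LinearMap.range_eq_top.2 h.surj, finrank_top, add_comm]

/-- local bases adapted to an exact triple -/
lemma Exact3.exists_bases (hO : IsFam O) {L' : Sys U V'} {L : Sys U V} {L'' : Sys U V''}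
    {i : V' →ₗ[K] V} {p : V →ₗ[K] V''} (h : Exact3 L' L L'' i p) (hL : IsBun O L) (u : U) :
    ∃ (n n' : ℕ) (e' : Basis (Fin n) K V') (e : Basis (Fin n ⊕ Fin n') K V)
      (e'' : Basis (Fin n') K V''), L' u = latt (O u) e' ∧ L u = latt (O u) e ∧
      L'' u = latt (O u) e'' ∧ (∀ a, e (Sum.inl a) = i (e' a)) ∧
      ∀ b, p (e (Sum.inr b)) = e'' b := by
  have := hO.bezout u
  obtain ⟨n, n', e, he, hW⟩ := (hL.lat u).exists_adapted (hO.frac u) (LinearMap.range i)
  obtain ⟨e', he'⟩ := Lat1.aux_pull e i h.inj hW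
  obtain ⟨e'', h1, h2⟩ := Lat1.aux_push e p h.surj (h.exact ▸ hW)
  refine ⟨n, n', e', e, e'', ?_, he, ?_, he', h1⟩
  · rw [← Lat1.latt_comap e' e i Sum.inl Sum.inl_injective fun a => (he' a).symm, ← he, h.eq_pull]
    rfl
  · rw [← h2, ← he, h.eq_push]
    rfl

lemma Exact3.twist {L' : Sys U V'} {L : Sys U V} {L'' : Sys U V''}
    {i : V' →ₗ[K] V} {p : V →ₗ[K] V''} (h : Exact3 L' L L'' i p) (c : Div O) :
    Exact3 (twist c L') (twist c L) (twist c L'') i p := by
  refine ⟨h.inj, h.surj, h.exact, ?_, ?_⟩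
  · funext u
    ext x
    rw [h.eq_pull]
    change i ((dv c u)⁻¹ • x) ∈ L u ↔ (dv c u)⁻¹ • i x ∈ L u
    rw [map_smul]
  · funext u
    ext x
    have h3 : dv c u ≠ 0 := Units.ne_zero _
    rw [h.eq_push, mem_twist]
    constructor
    · rintro ⟨y, hy, hy'⟩
      refine ⟨dv c u • y, ?_, ?_⟩
      · change (dv c u)⁻¹ • dv c u • y ∈ L u
        rwa [smul_smul, inv_mul_cancel₀ h3, one_smul]
      · change p (dv c u • y) = x
        change p y = _ at hy'
        rw [map_smul, hy', smul_smul, mul_inv_cancel₀ h3, one_smul]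
    · rintro ⟨y, hy, rfl⟩
      exact ⟨(dv c u)⁻¹ • y, hy, map_smul p _ _⟩

lemma Lat1.push_map_tens {W W' : Type} [AddCommGroup W] [Module K W] [AddCommGroup W']
    [Module K W'] (f : V →ₗ[K] V') (g : W →ₗ[K] W') (L : Sys U V) (B : Sys U W) :
    push (TensorProduct.map f g) (tens K L B) = tens K (push f L) (push g B) := by
  funext u
  rw [push, tens, AddMonoidHom.map_closure, tens]
  congr 1
  ext z
  constructor
  · rintro ⟨_, ⟨x, hx, y, hy, rfl⟩, rfl⟩
    exact ⟨f x, ⟨x, hx, rfl⟩, g y, ⟨y, hy, rfl⟩, rfl⟩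
  · rintro ⟨_, ⟨x, hx, rfl⟩, _, ⟨y, hy, rfl⟩, rfl⟩
    exact ⟨_, ⟨x, hx, y, hy, rfl⟩, rfl⟩

lemma Exact3.tens (hO : IsFam O) {L' : Sys U V'} {L : Sys U V} {L'' : Sys U V''}
    {i : V' →ₗ[K] V} {p : V →ₗ[K] V''} (h : Exact3 L' L L'' i p) (hL : IsBun O L)
    {W : Type} [AddCommGroup W] [Module K W] {B : Sys U W} (hB : IsBun O B) :
    Exact3 (tens K B L') (tens K B L) (tens K B L'') (i.lTensor W) (p.lTensor W) := by
  refine ⟨Module.Flat.lTensor_preserves_injective_linearMap _ h.inj,
    LinearMap.lTensor_surjective _ h.surj, ?_, ?_, ?_⟩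
  · exact (LinearMap.exact_iff.1
      (lTensor_exact W (LinearMap.exact_iff.2 h.exact.symm) h.surj)).symm
  · funext u
    obtain ⟨n, n', e', e, e'', h1, h2, -, h3, -⟩ := h.exists_bases hO hL u
    obtain ⟨m, b, hb⟩ := hB.lat u
    rw [tens_latt b e' hb h1, ← Lat1.latt_comap (b.tensorProduct e') (b.tensorProduct e)
      (i.lTensor W) (Prod.map id Sum.inl) (Function.injective_id.prodMap Sum.inl_injective)
      (fun a => by simp [Basis.tensorProduct_apply', h3]), ← tens_latt b e hb h2]
    rfl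
  · rw [h.eq_push]
    have h1 := Lat1.push_map_tens (LinearMap.id : W →ₗ[K] W) p B L
    have h2 : push (LinearMap.id : W →ₗ[K] W) B = B := by
      funext u
      exact AddSubgroup.map_id _
    rw [h2] at h1
    exact h1.symm

lemma Exact3.dual (hO : IsFam O) {L' : Sys U V'} {L : Sys U V} {L'' : Sys U V''}
    {i : V' →ₗ[K] V} {p : V →ₗ[K] V''} (h : Exact3 L' L L'' i p) (hL : IsBun O L) :
    Exact3 (dual O L'') (dual O L) (dual O L') p.dualMap i.dualMap := by
  refine ⟨LinearMap.dualMap_injective_of_surjective h.surj,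
    LinearMap.dualMap_surjective_of_injective h.inj, ?_, ?_, ?_⟩
  · rw [LinearMap.range_dualMap_eq_dualAnnihilator_ker,
      LinearMap.ker_dualMap_eq_dualAnnihilator_range, h.exact]
  · funext u
    ext φ
    rw [h.eq_push]
    constructor
    · intro hφ x hx
      exact hφ _ ⟨x, hx, rfl⟩
    · rintro hφ _ ⟨x, hx, rfl⟩
      exact hφ x hx
  · funext u
    obtain ⟨n, n', e', e, e'', h1, h2, -, h3, -⟩ := h.exists_bases hO hL u
    rw [dual_latt e' h1, ← Lat1.latt_map e.dualBasis e'.dualBasis i.dualMap, ← dual_latt e h2]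
    · rfl
    · intro j a
      rw [Basis.dualBasis_repr, LinearMap.dualMap_apply, ← h3, Basis.dualBasis_apply]
      exact Lat1.basis_mem e _ j
    · intro a
      refine ⟨Sum.inl a, e'.ext fun b => ?_⟩
      rw [LinearMap.dualMap_apply, ← h3, Basis.dualBasis_apply_self, Basis.dualBasis_apply_self]
      simp

lemma push_evalEquiv {L : Sys U V} (h : IsBun O L) [Module.IsReflexive K V] :
    push (Module.evalEquiv K V).toLinearMap L = dual O (dual O L) := by
  funext u
  obtain ⟨n, e, he⟩ := h.lat u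
  have h1 : ∀ j, (Module.evalEquiv K V).toLinearMap (e j) = e.dualBasis.dualBasis j := by
    intro j
    refine e.dualBasis.ext fun b => ?_
    rw [Basis.dualBasis_apply_self]
    change e.dualBasis b (e j) = _
    rw [Basis.dualBasis_apply_self]
    simp [eq_comm]
  rw [dual_latt e.dualBasis (dual_latt e he), ← Lat1.latt_map e e.dualBasis.dualBasis
    (Module.evalEquiv K V).toLinearMap (fun j => h1 j ▸ Lat1.basis_mem _ j) fun b => ⟨b, h1 b⟩,
    ← he]
  rfl

lemma push_comm (L : Sys U V) (L' : Sys U V') :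
    push (TensorProduct.comm K V V').toLinearMap (tens K L L') = tens K L' L := by
  funext u
  rw [push, tens, AddMonoidHom.map_closure, tens]
  congr 1
  ext z
  constructor
  · rintro ⟨_, ⟨x, hx, y, hy, rfl⟩, rfl⟩
    exact ⟨y, hy, x, hx, rfl⟩
  · rintro ⟨y, hy, x, hx, rfl⟩
    exact ⟨_, ⟨x, hx, y, hy, rfl⟩, rfl⟩

lemma push_assoc (L : Sys U V) (L' : Sys U V') (L'' : Sys U V'') :
    push (TensorProduct.assoc K V V' V'').toLinearMap (tens K (tens K L L') L'') =
      tens K L (tens K L' L'') := by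
  funext u
  apply le_antisymm
  · rw [push, AddSubgroup.map_le_iff_le_comap]
    refine (AddSubgroup.closure_le _).2 ?_
    rintro _ ⟨w, hw, z, hz, rfl⟩
    change TensorProduct.assoc K V V' V'' (w ⊗ₜ[K] z) ∈ tens K L (tens K L' L'') u
    induction hw using AddSubgroup.closure_induction with
    | mem w hw =>
      obtain ⟨x, hx, y, hy, rfl⟩ := hw
      exact AddSubgroup.subset_closure ⟨x, hx, y ⊗ₜ[K] z,
        AddSubgroup.subset_closure ⟨y, hy, z, hz, rfl⟩, rfl⟩
    | zero => rw [TensorProduct.zero_tmul, map_zero]; exact zero_mem _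
    | add a b _ _ ha hb => rw [TensorProduct.add_tmul, map_add]; exact add_mem ha hb
    | neg a _ ha => rw [TensorProduct.neg_tmul, map_neg]; exact neg_mem ha
  · refine (AddSubgroup.closure_le _).2 ?_
    rintro _ ⟨x, hx, w, hw, rfl⟩
    change x ⊗ₜ[K] w ∈ push (TensorProduct.assoc K V V' V'').toLinearMap
      (tens K (tens K L L') L'') u
    induction hw using AddSubgroup.closure_induction with
    | mem w hw =>
      obtain ⟨y, hy, z, hz, rfl⟩ := hw
      exact ⟨(x ⊗ₜ[K] y) ⊗ₜ[K] z, AddSubgroup.subset_closure ⟨x ⊗ₜ[K] y,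
        AddSubgroup.subset_closure ⟨x, hx, y, hy, rfl⟩, z, hz, rfl⟩, rfl⟩
    | zero => rw [TensorProduct.tmul_zero]; exact zero_mem _
    | add a b _ _ ha hb => rw [TensorProduct.tmul_add]; exact add_mem ha hb
    | neg a _ ha => rw [TensorProduct.tmul_neg]; exact neg_mem ha

lemma push_lid {L : Sys U V} (h : IsBun O L) (c : Div O) :
    push (TensorProduct.lid K V).toLinearMap (tens K (line c) L) = twist c L := by
  funext u
  have h3 : dv c u ≠ 0 := Units.ne_zero _
  apply le_antisymm
  · rw [push, AddSubgroup.map_le_iff_le_comap]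
    refine (AddSubgroup.closure_le _).2 ?_
    rintro _ ⟨a, ha, x, hx, rfl⟩
    change (dv c u)⁻¹ • a • x ∈ L u
    rw [smul_smul]
    exact h.smul_mem ha hx
  · intro x hx
    refine ⟨dv c u ⊗ₜ[K] ((dv c u)⁻¹ • x), AddSubgroup.subset_closure ⟨_, ?_, _, hx, rfl⟩, ?_⟩
    · change (dv c u)⁻¹ * dv c u ∈ O u
      rw [inv_mul_cancel₀ h3]
      exact (O u).one_mem
    · change dv c u • (dv c u)⁻¹ • x = x
      rw [smul_smul, mul_inv_cancel₀ h3, one_smul]

lemma push_congr_tens {W W' : Type} [AddCommGroup W] [Module K W] [AddCommGroup W'] [Module K W']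
    (e : V ≃ₗ[K] V') (e' : W ≃ₗ[K] W') (L : Sys U V) (B : Sys U W) :
    push (TensorProduct.congr e e').toLinearMap (tens K L B) =
      tens K (push e.toLinearMap L) (push e'.toLinearMap B) := by
  exact Lat1.push_map_tens e.toLinearMap e'.toLinearMap L B

lemma push_equiv_eq_pull (e : V ≃ₗ[K] V') (L : Sys U V) :
    push e.toLinearMap L = pull e.symm.toLinearMap L := by
  funext u
  ext x
  constructor
  · rintro ⟨y, hy, rfl⟩
    change e.symm (e y) ∈ L u
    rwa [e.symm_apply_apply]
  · intro hx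
    exact ⟨e.symm x, hx, e.apply_symm_apply x⟩

/-- a bundle of rank one is a divisor -/
lemma IsBun.exists_line (hO : IsFam O) {L : Sys U V} (h : IsBun O L) (hr : finrank K V = 1) :
    ∃ (c : Div O) (e : K ≃ₗ[K] V), L = P190.push e.toLinearMap (line c) := by
  have := h.finiteDimensional
  let e₀ : Basis (Fin 1) K V := Module.finBasisOfFinrankEq K V hr
  choose e he using fun u => (h.lat u).exists_basis e₀
  have h1 : ∀ (b : Basis (Fin 1) K V) (x : V), x = b.repr x 0 • b 0 := by
    intro b x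
    have := b.sum_repr x
    rw [Fin.sum_univ_one] at this
    exact this.symm
  have h2 : ∀ u, e₀.repr (e u 0) 0 ≠ 0 := by
    intro u h0
    apply (e u).ne_zero 0
    rw [h1 e₀ (e u 0), h0, zero_smul]
  have h3 : ∀ u x, (e u).repr x 0 = (e₀.repr (e u 0) 0)⁻¹ * e₀.repr x 0 := by
    intro u x
    rw [eq_inv_mul_iff_mul_eq₀ (h2 u)]
    conv_rhs => rw [h1 (e u) x, map_smul, Finsupp.smul_apply, smul_eq_mul, mul_comm]
  refine ⟨⟨fun u => Units.mk0 _ (h2 u), (h.std' hO e₀).subset fun u hu hc => hu ⟨?_, ?_⟩⟩,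
    (Basis.singleton (Fin 1) K).equiv e₀ (Equiv.refl _), ?_⟩
  · have : e u 0 ∈ latt (O u) e₀ := hc ▸ he u ▸ Lat1.basis_mem _ _
    exact this 0
  · have : e₀ 0 ∈ latt (O u) (e u) := he u ▸ hc ▸ Lat1.basis_mem _ _
    have h4 := this 0
    rw [h3, Basis.repr_self, Finsupp.single_eq_same, mul_one] at h4
    rwa [Units.val_inv_eq_inv_val]
  · rw [push_equiv_eq_pull]
    funext u
    ext x
    have h4 : ((Basis.singleton (Fin 1) K).equiv e₀ (Equiv.refl _)).symm x = e₀.repr x 0 := by
      rw [LinearEquiv.symm_apply_eq]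
      conv_lhs => rw [h1 e₀ x]
      have h5 : (Basis.singleton (Fin 1) K).equiv e₀ (Equiv.refl _) 1 = e₀ 0 := by
        simpa using (Basis.singleton (Fin 1) K).equiv_apply 0 e₀ (Equiv.refl _)
      rw [← h5, ← map_smul, smul_eq_mul, mul_one]
    change _ ↔ (e₀.repr (e u 0) 0)⁻¹ *
      ((Basis.singleton (Fin 1) K).equiv e₀ (Equiv.refl _)).symm x ∈ O u
    rw [h4, ← h3, he u, mem_latt, Fin.forall_fin_one]

end Vale.Agent.P190
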