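import Vale.Agent.P190.Lat1

/-! Twists, divisors generated by finite sets, valuative criteria. -/

open Module
open scoped TensorProduct Pointwise

noncomputable section

namespace Vale.Agent.P190

variable {U K : Type} [Field K] {O : Fam U K}
variable {V V' : Type} [AddCommGroup V] [Module K V] [AddCommGroup V'] [Module K V']

lemma dv_ne_zero (c : Div O) (u : U) : dv c u ≠ 0 := Units.ne_zero _
lemma dv_mul (c c' : Div O) (u : U) : dv (c * c') u = dv c u * dv c' u := rfl
lemma dv_one (u : U) : dv (1 : Div O) u = 1 := rfl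
/-- the value at `u` as a homomorphism -/
def Lat2.dvHom (O : Fam U K) (u : U) : Div O →* K where
  toFun c := dv c u
  map_one' := rfl
  map_mul' _ _ := rfl

lemma dv_inv (c : Div O) (u : U) : dv c⁻¹ u = (dv c u)⁻¹ := by
  exact Units.val_inv_eq_inv_val _
lemma dv_zpow (c : Div O) (n : ℤ) (u : U) : dv (c ^ n) u = dv c u ^ n := by
  exact map_zpow (Lat2.dvHom O u) c n
lemma dv_pow (c : Div O) (n : ℕ) (u : U) : dv (c ^ n) u = dv c u ^ n := by
  exact map_pow (Lat2.dvHom O u) c n
lemma dv_prod {ι : Type} (s : Finset ι) (c : ι → Div O) (u : U) :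
    dv (∏ i ∈ s, c i) u = ∏ i ∈ s, dv (c i) u := by
  exact map_prod (Lat2.dvHom O u) c s

lemma cl_prod {ι : Type} (s : Finset ι) (c : ι → Div O) :
    cl (∏ i ∈ s, c i) = ∑ i ∈ s, cl (c i) := by
  classical
  induction s using Finset.induction_on with
  | empty => rfl
  | insert i s hi ih => rw [Finset.prod_insert hi, Finset.sum_insert hi, cl_mul, ih]

lemma mem_line (c : Div O) (u : U) (x : K) : x ∈ line c u ↔ (dv c u)⁻¹ * x ∈ O u := Iff.rfl

lemma twist_one (L : Sys U V) : twist (1 : Div O) L = L := by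
  funext u
  ext x
  rw [mem_twist, dv_one, inv_one, one_smul]

lemma twist_mul (c c' : Div O) (L : Sys U V) : twist (c * c') L = twist c (twist c' L) := by
  funext u
  ext x
  rw [mem_twist, mem_twist, mem_twist, dv_mul, smul_smul, mul_inv_rev]

lemma twist_line (c c' : Div O) : twist c (line c') = line (c * c') := by
  exact (twist_mul c c' _).symm

lemma line_one : line (1 : Div O) = triv O := by
  exact twist_one _

lemma twist_mono (c : Div O) {L L' : Sys U V} (h : L ≤ L') : twist c L ≤ twist c L' := by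
  intro u x hx
  exact h u hx

lemma twist_inf (c : Div O) (L L' : Sys U V) : twist c (L ⊓ L') = twist c L ⊓ twist c L' := by
  funext u
  ext x
  exact Iff.rfl

lemma sameDiv_iff (c c' : Div O) :
    SameDiv c c' ↔ ∀ u, dv c u / dv c' u ∈ O u ∧ dv c' u / dv c u ∈ O u := by
  refine forall_congr' fun u => ?_
  simp only [IsU, dv, mul_inv_rev, inv_inv, Units.val_mul, Units.val_inv_eq_inv_val,
    div_eq_mul_inv]

lemma sameDiv_iff_line (c c' : Div O) : SameDiv c c' ↔ line c = line c' := by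
  rw [sameDiv_iff]
  constructor
  · intro h
    funext u
    ext x
    have h1 := dv_ne_zero c u
    have h2 := dv_ne_zero c' u
    rw [mem_line, mem_line]
    constructor
    · intro hx
      convert (O u).mul_mem (h u).1 hx using 1
      field_simp
    · intro hx
      convert (O u).mul_mem (h u).2 hx using 1
      field_simp
  · intro h u
    have h1 : ∀ a : Div O, dv a u ∈ line a u := fun a => by
      rw [mem_line, inv_mul_cancel₀ (dv_ne_zero a u)]
      exact (O u).one_mem
    have h2 := h1 c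
    have h3 := h1 c'
    rw [h, mem_line] at h2
    rw [← h, mem_line] at h3
    rw [div_eq_inv_mul, div_eq_inv_mul]
    exact ⟨h2, h3⟩

lemma SameDiv.refl (c : Div O) : SameDiv c c := by
  intro u
  rw [mul_inv_cancel]
  exact IsU.one _
lemma SameDiv.symm {c c' : Div O} (h : SameDiv c c') : SameDiv c' c := by
  rw [sameDiv_iff_line] at h ⊢
  exact h.symm
lemma SameDiv.trans {c c' c'' : Div O} (h : SameDiv c c') (h' : SameDiv c' c'') :
    SameDiv c c'' := by
  rw [sameDiv_iff_line] at h h' ⊢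
  exact h.trans h'
lemma SameDiv.mul {a b a' b' : Div O} (h : SameDiv a a') (h' : SameDiv b b') :
    SameDiv (a * b) (a' * b') := by
  intro u
  have := (h u).mul (h' u)
  convert this using 1
  simp only [Subgroup.coe_mul, Pi.mul_apply, mul_inv]
  ac_rfl
lemma SameDiv.inv {a a' : Div O} (h : SameDiv a a') : SameDiv a⁻¹ a'⁻¹ := by
  intro u
  have := (h u).inv
  convert this using 1
  simp [mul_comm]
lemma SameDiv.zpow {a a' : Div O} (h : SameDiv a a') (n : ℤ) : SameDiv (a ^ n) (a' ^ n) := by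
  induction n using Int.induction_on with
  | zero => simpa using SameDiv.refl _
  | succ n ih => rw [zpow_add_one, zpow_add_one]; exact ih.mul h
  | pred n ih => rw [zpow_sub_one, zpow_sub_one]; exact ih.mul h.inv
lemma SameDiv.pow {a a' : Div O} (h : SameDiv a a') (n : ℕ) : SameDiv (a ^ n) (a' ^ n) := by
  simpa using h.zpow n
lemma SameDiv.prod {ι : Type} (s : Finset ι) {a a' : ι → Div O}
    (h : ∀ i ∈ s, SameDiv (a i) (a' i)) : SameDiv (∏ i ∈ s, a i) (∏ i ∈ s, a' i) := by
  classical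
  induction s using Finset.induction_on with
  | empty => simpa using SameDiv.refl _
  | insert i s hi ih =>
    rw [Finset.prod_insert hi, Finset.prod_insert hi]
    exact (h i (Finset.mem_insert_self _ _)).mul (ih fun j hj => h j (Finset.mem_insert_of_mem hj))
lemma SameDiv.cl_eq {a a' : Div O} (h : SameDiv a a') : cl a = cl a' := by
  rw [← sub_eq_zero, sub_eq_add_neg, ← cl_inv, ← cl_mul, cl_eq_zero_iff]
  exact ⟨1, fun u => by simpa using h u⟩

lemma Lat2.twist_le {L : Sys U V} (hL : IsBun O L) {c c' : Div O}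
    (h : ∀ u, dv c u / dv c' u ∈ O u) : twist c L ≤ twist c' L := by
  intro u x hx
  have h1 := hL.smul_mem (h u) ((mem_twist _ _ _ _).1 hx)
  rw [smul_smul] at h1
  rw [mem_twist]
  convert h1 using 2
  have := dv_ne_zero c u
  field_simp

lemma IsBun.twist_congr {L : Sys U V} (hL : IsBun O L) {c c' : Div O} (h : SameDiv c c') :
    P190.twist c L = P190.twist c' L := by
  rw [sameDiv_iff] at h
  exact le_antisymm (Lat2.twist_le hL fun u => (h u).1) (Lat2.twist_le hL fun u => (h u).2)

lemma IsBun.twist_le_twist {L : Sys U V} (hL : IsBun O L) {c c' : Div O}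
    (h : Integral (c * c'⁻¹)) : P190.twist c L ≤ P190.twist c' L := by
  refine Lat2.twist_le hL fun u => ?_
  have := h u
  rwa [dv_mul, dv_inv, ← div_eq_mul_inv] at this

lemma IsBun.twist_le {L : Sys U V} (hL : IsBun O L) {c : Div O} (h : Integral c) :
    P190.twist c L ≤ L := by
  have := hL.twist_le_twist (c := c) (c' := 1) (by simpa using h)
  rwa [twist_one] at this

/-- multiplication of a section of a line by a section of a twisted bundle -/
lemma IsBun.smul_mem_twist {L : Sys U V} (hL : IsBun O L) {c c' : Div O} {u : U} {a : K}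
    (ha : a ∈ line c u) {x : V} (hx : x ∈ P190.twist c' L u) :
    a • x ∈ P190.twist (c * c') L u := by
  have h1 := hL.smul_mem ha hx
  rw [mem_twist, dv_mul]
  convert h1 using 1
  simp only [smul_smul, smul_eq_mul, DistribSMul.toAddMonoidHom_apply]
  congr 1
  ring

lemma Integral.mul {a b : Div O} (ha : Integral a) (hb : Integral b) : Integral (a * b) := by
  exact fun u => (O u).mul_mem (ha u) (hb u)
lemma Integral.pow {a : Div O} (ha : Integral a) (n : ℕ) : Integral (a ^ n) := by
  intro u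
  rw [dv_pow]
  exact (O u).pow_mem (ha u) n
lemma integral_one : Integral (1 : Div O) := by
  exact fun u => (O u).one_mem
lemma Integral.congr {a b : Div O} (ha : Integral a) (h : SameDiv a b) : Integral b := by
  intro u
  have h1 := (O u).mul_mem ((sameDiv_iff _ _).1 h u).2 (ha u)
  rwa [div_mul_cancel₀ _ (dv_ne_zero a u)] at h1
lemma Coprime.congr {a b a' b' : Div O} (h : Coprime a b) (ha : SameDiv a a')
    (hb : SameDiv b b') : Coprime a' b' := by
  intro u
  obtain ⟨x, hx, y, hy, hxy⟩ := h u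
  refine ⟨_, (O u).mul_mem hx ((sameDiv_iff _ _).1 ha u).1, _,
    (O u).mul_mem hy ((sameDiv_iff _ _).1 hb u).1, ?_⟩
  rw [mul_assoc, mul_assoc, div_mul_cancel₀ _ (dv_ne_zero a' u),
    div_mul_cancel₀ _ (dv_ne_zero b' u), hxy]

lemma pull_twist (f : V' →ₗ[K] V) (c : Div O) (L : Sys U V) :
    pull f (twist c L) = twist c (pull f L) := by
  funext u
  ext x
  change (dv c u)⁻¹ • f x ∈ L u ↔ f ((dv c u)⁻¹ • x) ∈ L u
  rw [map_smul]

lemma push_twist (f : V →ₗ[K] V') (c : Div O) (L : Sys U V) :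
    push f (twist c L) = twist c (push f L) := by
  funext u
  ext x
  have h3 := dv_ne_zero c u
  rw [mem_twist]
  constructor
  · rintro ⟨y, hy, rfl⟩
    exact ⟨(dv c u)⁻¹ • y, hy, map_smul f _ _⟩
  · rintro ⟨y, hy, hy'⟩
    refine ⟨dv c u • y, ?_, ?_⟩
    · change (dv c u)⁻¹ • dv c u • y ∈ L u
      rwa [smul_smul, inv_mul_cancel₀ h3, one_smul]
    · change f (dv c u • y) = x
      change f y = _ at hy'
      rw [map_smul, hy', smul_smul, mul_inv_cancel₀ h3, one_smul]

lemma sub_twist (c : Div O) (L : Sys U V) (W : Submodule K V) :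
    sub (twist c L) W = twist c (sub L W) := pull_twist _ _ _

lemma Lat2.twist_eq_push (c : Div O) (L : Sys U V) :
    twist c L = fun u => push (LinearMap.lsmul K V (dv c u)) L u := by
  funext u
  ext x
  have h3 := dv_ne_zero c u
  rw [mem_twist]
  constructor
  · intro hx
    refine ⟨_, hx, ?_⟩
    change dv c u • (dv c u)⁻¹ • x = x
    rw [smul_smul, mul_inv_cancel₀ h3, one_smul]
  · rintro ⟨y, hy, rfl⟩
    change (dv c u)⁻¹ • dv c u • y ∈ L u
    rwa [smul_smul, inv_mul_cancel₀ h3, one_smul]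

lemma tens_twist_left (c : Div O) (L : Sys U V) (L' : Sys U V') :
    tens K (twist c L) L' = twist c (tens K L L') := by
  rw [Lat2.twist_eq_push, Lat2.twist_eq_push]
  have h := Lat1.push_map_tens (U := U) (K := K) (V := V) (V' := V) (W := V') (W' := V')
  funext u
  have h1 := congrFun (h (LinearMap.lsmul K V (dv c u)) LinearMap.id L L') u
  have h2 : push (LinearMap.id : V' →ₗ[K] V') L' = L' := by
    funext u
    exact AddSubgroup.map_id _
  have h3 : TensorProduct.map (LinearMap.lsmul K V (dv c u)) (LinearMap.id : V' →ₗ[K] V') =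
      LinearMap.lsmul K _ (dv c u) := by
    ext x y
    simp [TensorProduct.smul_tmul']
  rw [h2, h3] at h1
  exact h1.symm

lemma tens_twist_right (c : Div O) (L : Sys U V) (L' : Sys U V') :
    tens K L (twist c L') = twist c (tens K L L') := by
  rw [← push_comm, tens_twist_left, push_twist, push_comm]

lemma dual_twist (c : Div O) (L : Sys U V) : dual O (twist c L) = twist c⁻¹ (dual O L) := by
  funext u
  ext φ
  have h3 := dv_ne_zero c u
  rw [mem_twist, dv_inv, inv_inv]
  constructor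
  · intro h x hx
    have := h (dv c u • x) (by rwa [mem_twist, smul_smul, inv_mul_cancel₀ h3, one_smul])
    rwa [map_smul] at this
  · intro h x hx
    have := h _ ((mem_twist _ _ _ _).1 hx)
    rwa [LinearMap.smul_apply, map_smul, smul_smul, mul_inv_cancel₀ h3, one_smul] at this

/-- coprime integral divisors: intersection and sum of the twisted lattices -/
lemma IsBun.twist_inf_twist {L : Sys U V} (hL : IsBun O L) {c c' : Div O} (hc : Integral c)
    (hc' : Integral c') (h : Coprime c c') :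
    P190.twist c L ⊓ P190.twist c' L = P190.twist (c * c') L := by
  apply le_antisymm
  · rintro u x ⟨h1, h2⟩
    obtain ⟨a, ha, b, hb, hab⟩ := h u
    have h3 := add_mem (hL.smul_mem ha h2) (hL.smul_mem hb h1)
    rw [mem_twist, dv_mul]
    convert h3 using 1
    have h4 := dv_ne_zero c u
    have h5 := dv_ne_zero c' u
    simp only [smul_smul, DistribSMul.toAddMonoidHom_apply]
    rw [← add_smul]
    congr 1
    field_simp
    linear_combination -hab
  · refine le_inf (hL.twist_le_twist ?_) (hL.twist_le_twist ?_)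
    · simpa [mul_assoc, mul_comm c'] using hc'
    · simpa using hc

lemma IsBun.twist_sup_twist {L : Sys U V} (hL : IsBun O L) {c c' : Div O} (hc : Integral c)
    (hc' : Integral c') (h : Coprime c c') : P190.twist c L ⊔ P190.twist c' L = L := by
  refine le_antisymm (sup_le (hL.twist_le hc) (hL.twist_le hc')) fun u x hx => ?_
  obtain ⟨a, ha, b, hb, hab⟩ := h u
  have h1 : x = (a * dv c u) • x + (b * dv c' u) • x := by rw [← add_smul, hab, one_smul]
  have h2 : ∀ (c : Div O) (a : K), a ∈ O u → (a * dv c u) • x ∈ P190.twist c L u := by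
    intro c a ha
    rw [mem_twist, smul_smul, mul_comm a, ← mul_assoc, inv_mul_cancel₀ (dv_ne_zero c u), one_mul]
    exact hL.smul_mem ha hx
  rw [h1]
  exact AddSubgroup.add_mem_sup (h2 c a ha) (h2 c' b hb)

lemma line_ofSet (hO : IsFam O) {S : Set K} (hS : S.Finite) (h0 : ∃ x ∈ S, x ≠ 0) (u : U) :
    line (ofSet O S) u = spanO (O u) S := by
  have h : ∃ c : Div O, ∀ u, line c u = spanO (O u) S := by
    have h1 : ∀ u, ∃ x ∈ spanO (O u) S, ∀ s ∈ S, ∃ r ∈ O u, s = r * x := by
      intro u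
      have := hO.bezout u
      obtain ⟨x, hx, h⟩ := Lat1.exists_gen (hO.frac u) (LinearMap.id : K →ₗ[K] K) hS
      refine ⟨x, mem_spanO_iff.2 hx, fun s hs => ?_⟩
      obtain ⟨r, hr⟩ := h s hs
      exact ⟨r, r.2, hr⟩
    choose x hx hx' using h1
    obtain ⟨s₀, hs₀, hs₀'⟩ := h0
    have h2 : ∀ u, x u ≠ 0 := by
      intro u h
      obtain ⟨r, -, hr⟩ := hx' u s₀ hs₀
      exact hs₀' (by rw [hr, h, mul_zero])
    refine ⟨⟨fun u => Units.mk0 _ (h2 u), ((hO.fin s₀⁻¹).union
      (hS.biUnion fun s _ => hO.fin s)).subset fun u hu => ?_⟩, fun u => ?_⟩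
    · by_contra hc
      simp only [Set.mem_union, Set.mem_ofPred_eq, Set.mem_iUnion, not_or, not_not,
        not_exists] at hc
      refine hu ⟨spanO_le (N := (O u).toAddSubgroup) hc.2
        (fun c hc y hy => (O u).mul_mem hc hy) (hx u), ?_⟩
      obtain ⟨r, hr, hr'⟩ := hx' u s₀ hs₀
      have h3 : (x u)⁻¹ = r * s₀⁻¹ := by
        have := h2 u
        field_simp
        rw [hr', mul_comm]
      rw [Units.val_inv_eq_inv_val, Units.val_mk0, h3]
      exact (O u).mul_mem hr hc.1
    · apply le_antisymm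
      · intro y hy
        have h3 := spanO_smul_mem hy (hx u)
        change ((x u)⁻¹ * y) * x u ∈ _ at h3
        rwa [mul_comm, ← mul_assoc, mul_inv_cancel₀ (h2 u), one_mul] at h3
      · refine spanO_le (fun s hs => ?_) fun c hc y hy => (isBun_line _).smul_mem hc hy
        obtain ⟨r, hr, hr'⟩ := hx' u s hs
        change (x u)⁻¹ * s ∈ O u
        rwa [hr', mul_comm, mul_assoc, mul_inv_cancel₀ (h2 u), mul_one]
  rw [ofSet, dif_pos h]
  exact h.choose_spec u

lemma mem_line_ofSet (hO : IsFam O) {S : Set K} (hS : S.Finite) {x : K} (hx : x ∈ S)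
    (h0 : ∃ x ∈ S, x ≠ 0) (u : U) : x ∈ line (ofSet O S) u := by
  rw [line_ofSet hO hS h0]
  exact subset_spanO hx

lemma Lat2.dv_mem_line (c : Div O) (u : U) : dv c u ∈ line c u := by
  rw [mem_line, inv_mul_cancel₀ (dv_ne_zero c u)]
  exact (O u).one_mem

lemma Lat2.dv_div_mem (hO : IsFam O) {S : Set K} (hS : S.Finite) (h0 : ∃ x ∈ S, x ≠ 0) {u : U}
    {A : Subring K} (hA : O u ≤ A) {f : K} (h : ∀ g ∈ S, g / f ∈ A) :
    dv (ofSet O S) u / f ∈ A := by
  have h1 := Lat2.dv_mem_line (ofSet O S) u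
  rw [line_ofSet hO hS h0] at h1
  refine spanO_le (N := A.toAddSubgroup.comap (AddMonoidHom.mulRight f⁻¹)) ?_ ?_ h1 |>
    fun h2 => by rw [div_eq_mul_inv]; exact h2
  · intro g hg
    have := h g hg
    rwa [div_eq_mul_inv] at this
  · intro c hc x hx
    change c * x * f⁻¹ ∈ A
    rw [mul_assoc]
    exact A.mul_mem (hA hc) hx

lemma ofSet_singleton (hO : IsFam O) {γ : K} (hγ : γ ≠ 0) (u : U) :
    dv (ofSet O {γ}) u / γ ∈ O u ∧ γ / dv (ofSet O {γ}) u ∈ O u := by
  have h0 : ∃ x ∈ ({γ} : Set K), x ≠ 0 := ⟨γ, rfl, hγ⟩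
  constructor
  · refine Lat2.dv_div_mem hO (Set.finite_singleton γ) h0 le_rfl ?_
    rintro _ rfl
    rw [div_self hγ]
    exact (O u).one_mem
  · rw [div_eq_inv_mul]
    exact mem_line_ofSet hO (Set.finite_singleton γ) rfl h0 u

lemma cl_ofSet_singleton (hO : IsFam O) {γ : K} (hγ : γ ≠ 0) : cl (ofSet O {γ}) = 0 := by
  rw [cl_eq_zero_iff]
  refine ⟨Units.mk0 γ hγ, fun u => ?_⟩
  have := ofSet_singleton hO hγ u
  simpa only [IsU, dv, mul_inv_rev, inv_inv, Units.val_mul, Units.val_inv_eq_inv_val,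
    div_eq_mul_inv, Units.val_mk0] using this

lemma IsBun.mem_twist_singleton (hO : IsFam O) {L : Sys U V} (hL : IsBun O L) {γ : K}
    (hγ : γ ≠ 0) (u : U) (x : V) : x ∈ P190.twist (ofSet O {γ}) L u ↔ γ⁻¹ • x ∈ L u := by
  obtain ⟨h1, h2⟩ := ofSet_singleton hO hγ u
  have h3 := dv_ne_zero (ofSet O {γ}) u
  rw [mem_twist]
  constructor
  · intro hx
    have := hL.smul_mem h1 hx
    rw [smul_smul] at this
    convert this using 2
    field_simp
  · intro hx
    have := hL.smul_mem h2 hx
    rw [smul_smul] at this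
    convert this using 2
    field_simp

/-- twisting by a principal divisor is the image under multiplication -/
lemma IsBun.twist_singleton (hO : IsFam O) {L : Sys U V} (hL : IsBun O L) {γ : K} (hγ : γ ≠ 0) :
    P190.twist (ofSet O {γ}) L =
      P190.push (LinearEquiv.smulOfNeZero K V γ hγ).toLinearMap L := by
  rw [push_equiv_eq_pull]
  funext u
  ext x
  rw [hL.mem_twist_singleton hO hγ]
  have : (LinearEquiv.smulOfNeZero K V γ hγ).symm x = γ⁻¹ • x := by
    rw [LinearEquiv.symm_apply_eq, LinearEquiv.smulOfNeZero_apply, smul_smul,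
      mul_inv_cancel₀ hγ, one_smul]
  rw [← this]
  rfl

lemma cl_eq_iff (hO : IsFam O) (c c' : Div O) :
    cl c = cl c' ↔ ∃ γ : K, γ ≠ 0 ∧ SameDiv c (ofSet O {γ} * c') := by
  constructor
  · intro h
    rw [← sub_eq_zero, sub_eq_add_neg, ← cl_inv, ← cl_mul, cl_eq_zero_iff] at h
    obtain ⟨γ, hγ⟩ := h
    refine ⟨γ, γ.ne_zero, (sameDiv_iff _ _).2 fun u => ?_⟩
    obtain ⟨h1, h2⟩ := ofSet_singleton hO γ.ne_zero u
    obtain ⟨h3, h4⟩ := hγ u
    have h5 := dv_ne_zero (ofSet O {(γ : K)}) u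
    have h6 := dv_ne_zero c u
    have h7 := dv_ne_zero c' u
    have h8 := γ.ne_zero
    have h3' : dv c u * (dv c' u)⁻¹ * (γ : K)⁻¹ ∈ O u := by simpa [dv] using h3
    have h4' : (γ : K) * (dv c' u * (dv c u)⁻¹) ∈ O u := by simpa [dv] using h4
    rw [dv_mul]
    constructor
    · convert (O u).mul_mem h3' h2 using 1
      field_simp
    · convert (O u).mul_mem h4' h1 using 1
      field_simp
  · rintro ⟨γ, hγ, h⟩
    rw [h.cl_eq, cl_mul, cl_ofSet_singleton hO hγ, zero_add]

/-- the rings of a family are integrally closed -/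
lemma IsFam.mem_of_isIntegral (hO : IsFam O) (u : U) {x : K} (hx : IsIntegral (O u) x) :
    x ∈ O u := by
  have := hO.bezout u
  have : IsFractionRing (O u) K := by
    refine IsFractionRing.of_field _ _ fun z => ?_
    obtain ⟨b, hb, hb0, hbz⟩ := hO.frac u z
    refine ⟨⟨_, hbz⟩, ⟨_, hb⟩, ?_⟩
    change z = b * z / b
    field_simp
  obtain ⟨y, rfl⟩ := IsIntegrallyClosed.algebraMap_eq_of_integral hx
  exact y.2

lemma IsFam.mem_of_pow_mem (hO : IsFam O) (u : U) {x : K} {m : ℕ} (hm : 0 < m)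
    (hx : x ^ m ∈ O u) : x ∈ O u := by
  refine hO.mem_of_isIntegral u (IsIntegral.of_pow hm ?_)
  exact isIntegral_algebraMap (x := (⟨_, hx⟩ : O u))

lemma IsFam.mem_iff_valuation (hO : IsFam O) (u : U) (x : K) :
    x ∈ O u ↔ ∀ A : ValuationSubring K, O u ≤ A.toSubring → x ∈ A := by
  refine ⟨fun hx A hA => hA hx, fun h => ?_⟩
  by_contra hx
  have : IsIntegrallyClosedIn (O u) K :=
    Subring.isIntegrallyClosedIn_iff.2 fun x hx => hO.mem_of_isIntegral u hx
  obtain ⟨A, hA, hxA⟩ := Subring.exists_le_valuationSubring_of_isIntegrallyClosedIn hx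
  exact hxA (h A hA)

/-- in a valuation overring, an element of smallest value generates the divisor -/
lemma ofSet_valuation (hO : IsFam O) {S : Set K} (hS : S.Finite) {u : U}
    {A : ValuationSubring K} (hA : O u ≤ A.toSubring) {f : K} (hf : f ∈ S) (hf0 : f ≠ 0)
    (hmin : ∀ g ∈ S, g / f ∈ A) :
    dv (ofSet O S) u / f ∈ A ∧ f / dv (ofSet O S) u ∈ A := by
  refine ⟨Lat2.dv_div_mem hO hS ⟨f, hf, hf0⟩ hA hmin, hA ?_⟩
  rw [div_eq_inv_mul]
  exact mem_line_ofSet hO hS hf ⟨f, hf, hf0⟩ u

lemma exists_min_valuation (A : ValuationSubring K) {S : Set K} (hS : S.Finite)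
    (h0 : ∃ x ∈ S, x ≠ 0) : ∃ f ∈ S, f ≠ 0 ∧ ∀ g ∈ S, g / f ∈ A := by
  obtain ⟨x, hx, hx0⟩ := h0
  obtain ⟨f, hf, hmax⟩ := Set.exists_max_image S A.valuation hS ⟨x, hx⟩
  have hf0 : f ≠ 0 := by
    rintro rfl
    have := hmax x hx
    rw [map_zero, le_zero_iff, map_eq_zero] at this
    exact hx0 this
  refine ⟨f, hf, hf0, fun g hg => ?_⟩
  rw [← A.valuation_le_one_iff, map_div₀]
  exact div_le_one_of_le₀ (hmax g hg) zero_le

lemma Lat2.sameDiv_of_valuation (hO : IsFam O) {c c' : Div O}
    (h : ∀ u (A : ValuationSubring K), O u ≤ A.toSubring → ∃ f : K, f ≠ 0 ∧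
      (dv c u / f ∈ A ∧ f / dv c u ∈ A) ∧ dv c' u / f ∈ A ∧ f / dv c' u ∈ A) : SameDiv c c' := by
  rw [sameDiv_iff]
  intro u
  rw [hO.mem_iff_valuation, hO.mem_iff_valuation]
  constructor
  · intro A hA
    obtain ⟨f, hf, ⟨h1, -⟩, -, h2⟩ := h u A hA
    have := mul_mem h1 h2
    rwa [div_mul_div_cancel₀ hf] at this
  · intro A hA
    obtain ⟨f, hf, ⟨-, h1⟩, h2, -⟩ := h u A hA
    have := mul_mem h2 h1
    rwa [div_mul_div_cancel₀ hf] at this

lemma ofSet_mul (hO : IsFam O) {S T : Set K} (hS : S.Finite) (hT : T.Finite)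
    (hS0 : ∃ x ∈ S, x ≠ 0) (hT0 : ∃ x ∈ T, x ≠ 0) :
    SameDiv (ofSet O (S * T)) (ofSet O S * ofSet O T) := by
  refine Lat2.sameDiv_of_valuation hO fun u A hA => ?_
  obtain ⟨f, hf, hf0, hfm⟩ := exists_min_valuation A hS hS0
  obtain ⟨g, hg, hg0, hgm⟩ := exists_min_valuation A hT hT0
  obtain ⟨h1, h2⟩ := ofSet_valuation hO hS hA hf hf0 hfm
  obtain ⟨h3, h4⟩ := ofSet_valuation hO hT hA hg hg0 hgm
  refine ⟨f * g, mul_ne_zero hf0 hg0, ofSet_valuation hO (hS.mul hT) hA (Set.mul_mem_mul hf hg)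
    (mul_ne_zero hf0 hg0) ?_, ?_, ?_⟩
  · rintro _ ⟨s, hs, t, ht, rfl⟩
    rw [mul_div_mul_comm]
    exact mul_mem (hfm s hs) (hgm t ht)
  · rw [dv_mul, mul_div_mul_comm]
    exact mul_mem h1 h3
  · rw [dv_mul, mul_div_mul_comm]
    exact mul_mem h2 h4

lemma ofSet_pow_image (hO : IsFam O) {S : Set K} (hS : S.Finite) (hS0 : ∃ x ∈ S, x ≠ 0)
    {m : ℕ} (hm : 0 < m) : SameDiv (ofSet O ((· ^ m) '' S)) (ofSet O S ^ m) := by
  refine Lat2.sameDiv_of_valuation hO fun u A hA => ?_
  obtain ⟨f, hf, hf0, hfm⟩ := exists_min_valuation A hS hS0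
  obtain ⟨h1, h2⟩ := ofSet_valuation hO hS hA hf hf0 hfm
  refine ⟨f ^ m, pow_ne_zero _ hf0, ofSet_valuation hO (hS.image _) hA ⟨f, hf, rfl⟩
    (pow_ne_zero _ hf0) ?_, ?_, ?_⟩
  · rintro _ ⟨s, hs, rfl⟩
    rw [← div_pow]
    exact pow_mem (hfm s hs) m
  · rw [dv_pow, ← div_pow]
    exact pow_mem h1 m
  · rw [dv_pow, ← div_pow]
    exact pow_mem h2 m

lemma ofSet_congr (hO : IsFam O) {S T : Set K} (hS : S.Finite) (hT : T.Finite)
    (hS0 : ∃ x ∈ S, x ≠ 0) (h : ∀ u, spanO (O u) S = spanO (O u) T) :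
    SameDiv (ofSet O S) (ofSet O T) := by
  by_cases hT0 : ∃ x ∈ T, x ≠ 0
  · rw [sameDiv_iff_line]
    funext u
    rw [line_ofSet hO hS hS0, line_ofSet hO hT hT0, h]
  · intro u
    exfalso
    push Not at hT0
    obtain ⟨x, hx, hx0⟩ := hS0
    have h1 : x ∈ spanO (O u) T := h u ▸ subset_spanO hx
    exact hx0 (spanO_le (N := ⊥) hT0 (fun c _ y hy => by simp_all) h1)

open Classical in
/-- the divisor with value `x` at `u` and one elsewhere -/
def Lat2.single (O : Fam U K) (u : U) (x : Kˣ) : Div O :=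
  ⟨Pi.mulSingle u x, (Set.finite_singleton u).subset fun u' hu' => by
    by_contra h
    apply hu'
    rw [Pi.mulSingle_eq_of_ne h]
    exact IsU.one _⟩

lemma Lat2.integral_single (u : U) {x : Kˣ} (hx : (x : K) ∈ O u) :
    Integral (Lat2.single O u x) := by
  intro u'
  by_cases h : u' = u
  · subst h
    simpa [Lat2.single, dv] using hx
  · simp [Lat2.single, dv, h]

/-- the same for integral divisors -/
lemma IsSL.integral_induction (hO : IsSL O) {p : Div O → Prop}
    (unit : ∀ c : Div O, SameDiv c 1 → p c)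
    (prime : ∀ (c : Div O) (u : U) (π : O u), Prime π → dv c u = π →
      (∀ u', u' ≠ u → dv c u' = 1) → p c)
    (mul : ∀ a b, Integral a → Integral b → p a → p b → p (a * b)) (c : Div O)
    (hc : Integral c) : p c := by
  classical
  have h1 : ∀ (u : U) (x : O u) (hx : (x : K) ≠ 0), p (Lat2.single O u (Units.mk0 _ hx)) := by
    intro u x
    have := hO.pid u
    induction x using UniqueFactorizationMonoid.induction_on_prime with
    | h₁ => intro h; exact absurd rfl h
    | h₂ x hx =>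
      intro hx0
      obtain ⟨y, hy⟩ := hx.exists_right_inv
      refine unit _ fun u' => ?_
      have h2 : (x : K)⁻¹ = y := inv_eq_of_mul_eq_one_right (congrArg Subtype.val hy)
      by_cases h : u' = u
      · subst h
        simp [Lat2.single, IsU, h2]
      · simp [Lat2.single, h, IsU.one]
    | h₃ a π ha hπ ih =>
      intro h0
      have ha0 : (a : K) ≠ 0 := fun h => ha (Subtype.ext h)
      have hπ0 : (π : K) ≠ 0 := fun h => hπ.ne_zero (Subtype.ext h)
      have h2 : Lat2.single O u (Units.mk0 _ h0) =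
          Lat2.single O u (Units.mk0 _ hπ0) * Lat2.single O u (Units.mk0 _ ha0) := by
        apply Subtype.ext
        change Pi.mulSingle u _ = Pi.mulSingle u _ * Pi.mulSingle u _
        rw [← Pi.mulSingle_mul]
        congr 1
        exact Units.ext rfl
      rw [h2]
      refine mul _ _ (Lat2.integral_single u π.2) (Lat2.integral_single u a.2)
        (prime _ u π hπ ?_ fun u' hu' => ?_) (ih ha0)
      · simp [Lat2.single, dv]
      · simp [Lat2.single, dv, hu']
  have h2 : ∀ (s : Finset U) (c : Div O), Integral c → (∀ u ∉ s, IsU (O u) (c.1 u)) → p c := by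
    intro s
    induction s using Finset.induction_on with
    | empty => exact fun c _ h => unit c fun u => by simpa using h u (by simp)
    | insert u s hu ih =>
      intro c hc h
      have h3 : c = Lat2.single O u (c.1 u) * (c * (Lat2.single O u (c.1 u))⁻¹) := by
        rw [mul_comm, inv_mul_cancel_right]
      have h4 : Integral (c * (Lat2.single O u (c.1 u))⁻¹) := by
        intro u'
        by_cases h : u' = u
        · subst h
          simp [Lat2.single, dv]
        · simpa [Lat2.single, dv, h] using hc u'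
      rw [h3]
      refine mul _ _ (Lat2.integral_single u (hc u)) h4 ?_ (ih _ h4 fun u' hu' => ?_)
      · have := h1 u ⟨_, hc u⟩ (dv_ne_zero c u)
        convert this using 2
        ext
        rfl
      · by_cases h5 : u' = u
        · subst h5
          simp [Lat2.single, IsU.one]
        · simpa [Lat2.single, h5] using h u' (by simp [h5, hu'])
  exact h2 (Set.Finite.toFinset c.2) c hc fun u hu => by
    by_contra h
    exact hu ((Set.Finite.mem_toFinset _).2 h)

/-- induction over prime divisors: an additive property holds for all divisors -/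
lemma IsSL.div_induction (hO : IsSL O) {p : Div O → Prop}
    (unit : ∀ c : Div O, SameDiv c 1 → p c)
    (prime : ∀ (c : Div O) (u : U) (π : O u), Prime π → dv c u = π →
      (∀ u', u' ≠ u → dv c u' = 1) → p c)
    (mul : ∀ a b, p a → p b → p (a * b)) (inv : ∀ a, p a → p a⁻¹) (c : Div O) : p c := by
  classical
  have h1 := hO.integral_induction unit prime fun a b _ _ => mul a b
  choose b hb hb0 hbc using fun u => hO.isFam.frac u (dv c u)
  let d : Div O := ⟨fun u => if IsU (O u) (c.1 u) then 1 else Units.mk0 _ (hb0 u),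
    Set.Finite.subset c.2 fun u hu h => hu (by
      simp only [if_pos h]
      exact IsU.one _)⟩
  have hd : Integral d := by
    intro u
    by_cases h : IsU (O u) (c.1 u)
    · simp [d, dv, h]
    · simpa [d, dv, h] using hb u
  have hdc : Integral (d * c) := by
    intro u
    rw [dv_mul]
    by_cases h : IsU (O u) (c.1 u)
    · exact (O u).mul_mem (hd u) h.1
    · simpa [d, dv, h] using hbc u
  have h2 : c = d⁻¹ * (d * c) := by rw [inv_mul_cancel_left]
  rw [h2]
  exact mul _ _ (inv _ (h1 d hd)) (h1 _ hdc)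

/-- Krull intersection for a non-unit -/
lemma IsSL.eq_zero_of_forall_twist (hO : IsSL O) {L : Sys U V} (hL : IsBun O L) {c : Div O}
    (hc : Integral c) {u : U} (hu : ¬ IsU (O u) (c.1 u)) {x : V}
    (hx : ∀ n : ℕ, x ∈ twist (c ^ n) L u) : x = 0 := by
  obtain ⟨n, e, he⟩ := hL.lat u
  have := hO.pid u
  have h0 := dv_ne_zero c u
  have h1 : ∀ (m : ℕ) i, (dv c u ^ m)⁻¹ * e.repr x i ∈ O u := by
    intro m i
    have h2 := hx m
    rw [mem_twist, he, dv_pow] at h2
    simpa using h2 i
  refine e.ext_elem fun i => ?_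
  rw [map_zero, Finsupp.zero_apply]
  by_contra hne
  have h2 : e.repr x i ∈ O u := by simpa using h1 0 i
  have h3 : ¬ IsUnit (⟨dv c u, hc u⟩ : O u) := by
    intro h
    obtain ⟨y, hy⟩ := h.exists_right_inv
    refine hu ⟨hc u, ?_⟩
    have h4 : (dv c u)⁻¹ = y := inv_eq_of_mul_eq_one_right (congrArg Subtype.val hy)
    rw [Units.val_inv_eq_inv_val]
    change (dv c u)⁻¹ ∈ O u
    rw [h4]
    exact y.2
  obtain ⟨m, hm⟩ := FiniteMultiplicity.of_not_isUnit h3
    (show (⟨_, h2⟩ : O u) ≠ 0 from fun h => hne (congrArg Subtype.val h))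
  refine hm ⟨⟨_, h1 (m + 1) i⟩, Subtype.ext ?_⟩
  change e.repr x i = dv c u ^ (m + 1) * ((dv c u ^ (m + 1))⁻¹ * e.repr x i)
  rw [mul_inv_cancel_left₀ (pow_ne_zero _ h0)]

section H0

variable {k : Type} [Field k] [Algebra k K] [Module k V] [IsScalarTower k K V]
  [Module k V'] [IsScalarTower k K V']

lemma IsBun.mem_H0 (hk : HasK k O) {L : Sys U V} (hL : IsBun O L) (x : V) :
    x ∈ H0 k L ↔ ∀ u, x ∈ L u := by
  refine ⟨fun hx => ?_, fun hx => Submodule.subset_span hx⟩
  induction hx using Submodule.span_induction with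
  | mem y hy => exact hy
  | zero => exact fun u => zero_mem _
  | add x y _ _ hx hy => exact fun u => add_mem (hx u) (hy u)
  | smul c x _ hx =>
    intro u
    rw [← algebraMap_smul K]
    exact hL.smul_mem (hk u c) (hx u)

lemma H0_mono {L L' : Sys U V} (h : L ≤ L') : H0 k L ≤ H0 k L' := by
  exact Submodule.span_mono fun x hx u => h u (hx u)

lemma H0_push_equiv (e : V ≃ₗ[K] V') (L : Sys U V) :
    H0 k (push e.toLinearMap L) = (H0 k L).map (e.toLinearMap.restrictScalars k) := by
  rw [H0, H0, Submodule.map_span, push_equiv_eq_pull]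
  congr 1
  ext x
  constructor
  · intro hx
    exact ⟨e.symm x, hx, e.apply_symm_apply x⟩
  · rintro ⟨y, hy, rfl⟩ u
    change e.symm (e y) ∈ L u
    rw [e.symm_apply_apply]
    exact hy u

lemma h0_push_equiv (e : V ≃ₗ[K] V') (L : Sys U V) : h0 k (push e.toLinearMap L) = h0 k L := by
  rw [h0, h0, H0_push_equiv]
  exact LinearEquiv.finrank_map_eq (e.restrictScalars k) _

lemma IsBun.h0_twist_congr (hO : IsFam O) {L : Sys U V} (hL : IsBun O L) {c c' : Div O}
    (h : cl c = cl c') : h0 k (P190.twist c L) = h0 k (P190.twist c' L) := by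
  obtain ⟨γ, hγ, h1⟩ := (cl_eq_iff hO c c').1 h
  rw [hL.twist_congr h1, twist_mul, (hL.twist c').twist_singleton hO hγ, h0_push_equiv]

lemma IsHilb.unique {f : ℤ → ℕ} {χ χ' : ℤ} (h : IsHilb f χ) (h' : IsHilb f χ') : χ = χ' := by
  obtain ⟨b, c, j₀, h⟩ := h
  obtain ⟨b', c', j₁, h'⟩ := h'
  have h0 := h (max j₀ j₁) (by omega)
  have h1 := h (max j₀ j₁ + 1) (by omega)
  have h2 := h (max j₀ j₁ + 2) (by omega)
  rw [h' _ (by omega)] at h0 h1 h2
  generalize max j₀ j₁ = J at h0 h1 h2
  push_cast at h0 h1 h2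
  have : (χ : ℚ) = χ' := by
    linear_combination (-((J : ℚ) + 1) * (J + 2) / 2) * h0 + (J : ℚ) * (J + 2) * h1
      - (J : ℚ) * (J + 1) / 2 * h2
  exact_mod_cast this

lemma chi_eq {a : Div O} {L : Sys U V} {χ : ℤ}
    (h : IsHilb (fun j => h0 k (twist (a ^ j) L)) χ) : chi k a L = χ := by
  have h1 : ∃ χ : ℤ, IsHilb (fun j => h0 k (twist (a ^ j) L)) χ := ⟨χ, h⟩
  rw [chi, dif_pos h1]
  exact h1.choose_spec.unique h

omit [Algebra k K] [IsScalarTower k K V] [IsScalarTower k K V'] in
lemma Lat2.chi_congr {a a' : Div O} {L : Sys U V} {L' : Sys U V'}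
    (h : ∀ j : ℤ, h0 k (twist (a ^ j) L) = h0 k (twist (a' ^ j) L')) :
    chi k a L = chi k a' L' := by
  classical
  exact congrArg (fun f : ℤ → ℕ => if h : ∃ χ : ℤ, IsHilb f χ then h.choose else 0) (funext h)

lemma chi_push_equiv (a : Div O) (e : V ≃ₗ[K] V') (L : Sys U V) :
    chi k a (push e.toLinearMap L) = chi k a L := by
  exact Lat2.chi_congr fun j => by rw [← push_twist, h0_push_equiv]

lemma IsBun.chi_twist_congr (hO : IsFam O) (a : Div O) {L : Sys U V} (hL : IsBun O L)
    {c c' : Div O} (h : cl c = cl c') :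
    chi k a (P190.twist c L) = chi k a (P190.twist c' L) := by
  refine Lat2.chi_congr fun j => ?_
  rw [← twist_mul, ← twist_mul]
  exact hL.h0_twist_congr hO (by rw [cl_mul, cl_mul, h])

lemma IsBun.chi_pol_congr (hO : IsFam O) {a a' : Div O} (h : cl a = cl a') {L : Sys U V}
    (hL : IsBun O L) : chi k a L = chi k a' L := by
  refine Lat2.chi_congr fun j => ?_
  exact hL.h0_twist_congr hO (by rw [cl_zpow, cl_zpow, h])

lemma chi_prodS (hk : HasK k O) {a : Div O} {L : Sys U V} {L' : Sys U V'} (hL : IsBun O L)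
    (hL' : IsBun O L') (hf : ∀ j : ℤ, Module.Finite k (H0 k (twist (a ^ j) L)))
    (hf' : ∀ j : ℤ, Module.Finite k (H0 k (twist (a ^ j) L'))) {χ χ' : ℤ}
    (h : IsHilb (fun j => h0 k (twist (a ^ j) L)) χ)
    (h' : IsHilb (fun j => h0 k (twist (a ^ j) L')) χ') :
    chi k a (prodS L L') = χ + χ' := by
  have h1 : ∀ j : ℤ, h0 k (twist (a ^ j) (prodS L L')) =
      h0 k (twist (a ^ j) L) + h0 k (twist (a ^ j) L') := by
    intro j
    have h2 : H0 k (twist (a ^ j) (prodS L L')) =
        (H0 k (twist (a ^ j) L)).prod (H0 k (twist (a ^ j) L')) := by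
      ext x
      rw [Submodule.mem_prod, ((hL.prodS hL').twist _).mem_H0 hk, (hL.twist _).mem_H0 hk,
        (hL'.twist _).mem_H0 hk, ← forall_and]
      rfl
    have := hf j
    have := hf' j
    rw [h0, h0, h0, h2, ← Module.finrank_prod]
    exact LinearEquiv.finrank_eq
      { toFun := fun x => (⟨x.1.1, x.2.1⟩, ⟨x.1.2, x.2.2⟩)
        invFun := fun x => ⟨(x.1.1, x.2.1), x.1.2, x.2.2⟩
        map_add' := fun _ _ => rfl
        map_smul' := fun _ _ => rfl
        left_inv := fun _ => rfl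
        right_inv := fun _ => rfl }
  obtain ⟨b, c, j₀, h⟩ := h
  obtain ⟨b', c', j₁, h'⟩ := h'
  refine chi_eq ⟨b + b', c + c', max j₀ j₁, fun j hj => ?_⟩
  have h2 := h j (by omega)
  have h3 := h' j (by omega)
  simp only [h1] at h2 h3 ⊢
  push_cast
  rw [h2, h3]
  ring

/-- for large `j` the Euler characteristic of the `j`-th twist is its number of sections -/
lemma chi_twist_pow_eventually {a : Div O} {L : Sys U V}
    (h : ∀ i : ℤ, IsHilb (fun j => h0 k (twist (a ^ j) (twist (a ^ i) L)))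
      (chi k a (twist (a ^ i) L))) :
    ∃ j₀ : ℤ, ∀ j ≥ j₀, chi k a (twist (a ^ j) L) = h0 k (twist (a ^ j) L) := by
  obtain ⟨b, c, j₀, h1⟩ := h 0
  simp only [zpow_zero, twist_one] at h1
  refine ⟨j₀, fun i hi => chi_eq ⟨b + 2 * c * i, c, 0, fun j hj => ?_⟩⟩
  simp only
  rw [← twist_mul, ← zpow_add, h1 (j + i) (by omega), Int.cast_natCast, h1 i hi]
  push_cast
  ring

end H0

end Vale.Agent.P190
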