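import Vale.Agent.P190.Ring

/-! Graded Noether normalisation by linear forms. -/

open Module

noncomputable section

namespace Vale.Agent.P190

variable {k : Type} [Field k] {K : Type} [Field K] [Algebra k K]

namespace NN
open MvPolynomial Submodule

lemma iSup_smulK {ι : Type} (p : ι → K) (W : Submodule k K) :
    ⨆ i, smulK (p i) W = span k (Set.range p) * W := by
  apply le_antisymm
  · refine iSup_le fun i => ?_
    rintro _ ⟨y, hy, rfl⟩
    exact mul_mem_mul (subset_span ⟨i, rfl⟩) hy
  · refine mul_le.2 fun a ha b hb => ?_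
    induction ha using span_induction with
    | mem x hx =>
      obtain ⟨i, rfl⟩ := hx
      exact mem_iSup_of_mem i ⟨b, hb, rfl⟩
    | zero => rw [zero_mul]; exact zero_mem _
    | add x y _ _ hx hy => rw [add_mul]; exact add_mem hx hy
    | smul c x _ hx => rw [smul_mul_assoc]; exact smul_mem _ c hx

/-- `I` is a reduction of `M` -/
def Red (M I : Submodule k K) : Prop := I ≤ M ∧ ∃ j, M ^ (j + 1) ≤ I * M ^ j

lemma up {M I : Submodule k K} {j₀ : ℕ} (h : M ^ (j₀ + 1) ≤ I * M ^ j₀) {j : ℕ} (hj : j₀ ≤ j) :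
    M ^ (j + 1) ≤ I * M ^ j := by
  obtain ⟨n, rfl⟩ := Nat.exists_eq_add_of_le hj
  rw [add_right_comm, pow_add, pow_add M j₀ n, ← mul_assoc]
  exact mul_le_mul_left h _

lemma iter {M I : Submodule k K} {j₀ d : ℕ} (h : ∀ j ≥ j₀, M ^ (j + d) ≤ I * M ^ j) (n : ℕ)
    {j : ℕ} (hj : j₀ ≤ j) : M ^ (j + d * n) ≤ I ^ n * M ^ j := by
  induction n with
  | zero => simp
  | succ n ih =>
    rw [Nat.mul_succ, ← add_assoc, pow_succ' I, mul_assoc]
    exact (h _ (by omega)).trans (mul_le_mul_right ih _)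

lemma Red.trans {M I I' : Submodule k K} (h : Red M I) (h' : Red I I') : Red M I' := by
  obtain ⟨h1, j, h2⟩ := h
  obtain ⟨h3, e, h4⟩ := h'
  refine ⟨h3.trans h1, j + e, ?_⟩
  have := iter (d := 1) (fun i hi => up h2 hi) (e + 1) le_rfl
  rw [one_mul, ← add_assoc] at this
  refine this.trans ((mul_le_mul_left h4 _).trans ?_)
  rw [mul_assoc, add_comm j, pow_add]
  exact mul_le_mul_right (mul_le_mul_left (pow_le_pow_left' h1 e) _) _

lemma map_homog {ι : Type} (p : ι → K) (n : ℕ) :
    (homogeneousSubmodule ι k n).map (aeval p).toLinearMap = span k (Set.range p) ^ n := by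
  rw [← homogeneousSubmodule_one_pow, Submodule.map_pow, homogeneousSubmodule_one_eq_span_X,
    map_span, ← Set.range_comp]
  congr 3
  ext i
  simp

lemma aeval_mul_homog {ι A : Type} [CommRing A] [Algebra k A] (t : A) (x : ι → A) {n : ℕ}
    {φ : MvPolynomial ι k} (h : φ.IsHomogeneous n) :
    aeval (fun i => t * x i) φ = t ^ n * aeval x φ := by
  have h1 : φ ∈ homogeneousSubmodule ι k 1 ^ n := by rwa [homogeneousSubmodule_one_pow]
  clear h
  induction h1 using Submodule.pow_induction_on_left' with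
  | algebraMap r => simp
  | add x y i hx hy a b => rw [map_add, map_add, a, b, mul_add]
  | mem_mul m hm i y hy a =>
    have : aeval (fun i => t * x i) m = t * aeval x m := by
      rw [homogeneousSubmodule_one_eq_span_X] at hm
      induction hm using span_induction with
      | mem x hx => obtain ⟨i, rfl⟩ := hx; simp
      | zero => simp
      | add x y _ _ hx hy => rw [map_add, map_add, hx, hy, mul_add]
      | smul c x _ hx => rw [map_smul, map_smul, hx, mul_smul_comm]
    rw [map_mul, map_mul, a, this, pow_succ]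
    ring

lemma approx {ι : Type} (p : ι → K) (c : ι → k) (t : K) (I' : Submodule k K)
    (ht : t ∈ span k (Set.range p)) (hq : ∀ i, p i - c i • t ∈ I') {n : ℕ}
    {φ : MvPolynomial ι k} (h : φ.IsHomogeneous n) : ∀ y ∈ span k (Set.range p),
      (aeval p φ - eval c φ • t ^ n) * y ∈ I' * span k (Set.range p) ^ n := by
  have h1 : φ ∈ homogeneousSubmodule ι k 1 ^ n := by rwa [homogeneousSubmodule_one_pow]
  clear h
  induction h1 using Submodule.pow_induction_on_left' with
  | algebraMap r =>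
    intro y _
    simp [Algebra.algebraMap_eq_smul_one]
  | add x y i hx hy a b =>
    intro z hz
    have := add_mem (a z hz) (b z hz)
    convert this using 1
    rw [map_add, map_add, add_smul]
    ring
  | mem_mul m hm i φ hφ a =>
    intro y hy
    have h2 : aeval p m ∈ span k (Set.range p) := by
      rw [← pow_one (span k (Set.range p)), ← map_homog]
      exact ⟨m, hm, rfl⟩
    have h3 : aeval p m - eval c m • t ∈ I' := by
      rw [homogeneousSubmodule_one_eq_span_X] at hm
      clear h2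
      induction hm using span_induction with
      | mem x hx => obtain ⟨i, rfl⟩ := hx; simpa using hq i
      | zero => simp
      | add x y _ _ hx hy =>
        have := add_mem hx hy
        convert this using 1
        rw [map_add, map_add, add_smul]
        ring
      | smul r x _ hx =>
        have := smul_mem _ r hx
        convert this using 1
        rw [map_smul, smul_eval, smul_sub, smul_smul]
    have h4 := mul_mem_mul (a y hy) h2
    have h5 := mul_mem_mul h3 (smul_mem _ (eval c φ) (mul_mem_mul (pow_mem_pow _ ht i) hy))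
    rw [mul_assoc I', ← pow_succ] at h4
    rw [← pow_succ] at h5
    convert add_mem h4 h5 using 1
    simp only [map_mul, Algebra.smul_def, Nat.succ_eq_add_one]
    ring

lemma step [Infinite k] {r : ℕ} (p : Fin (r + 1) → K) {e : ℕ} {f : MvPolynomial (Fin (r + 1)) k}
    (hf : f.IsHomogeneous e) (h0 : f ≠ 0) (hp : aeval p f = 0) :
    ∃ p' : Fin r → K, Red (span k (Set.range p)) (span k (Set.range p')) := by
  have h1 : ∃ c, eval c (f * X 0) ≠ 0 := by
    by_contra hc
    push Not at hc
    exact mul_ne_zero h0 (X_ne_zero 0) (MvPolynomial.funext fun x => by rw [hc x, map_zero])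
  obtain ⟨c, hc⟩ := h1
  rw [map_mul, eval_X, mul_ne_zero_iff] at hc
  have hm : ∀ i, p i ∈ span k (Set.range p) := fun i => subset_span ⟨i, rfl⟩
  have ht : (c 0)⁻¹ • p 0 ∈ span k (Set.range p) := smul_mem _ _ (hm 0)
  refine ⟨fun i => p i.succ - c i.succ • (c 0)⁻¹ • p 0, span_le.2 ?_, e, ?_⟩
  · rintro _ ⟨i, rfl⟩
    exact sub_mem (hm _) (smul_mem _ _ ht)
  set I' := span k (Set.range fun i : Fin r => p i.succ - c i.succ • (c 0)⁻¹ • p 0)
  have hq : ∀ i, p i - c i • (c 0)⁻¹ • p 0 ∈ I' := fun i => by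
    refine Fin.cases ?_ (fun i => subset_span ⟨i, rfl⟩) i
    rw [smul_smul, mul_inv_cancel₀ hc.2, one_smul, sub_self]
    exact zero_mem _
  rw [pow_succ]
  refine mul_le.2 fun x hx y hy => ?_
  rw [← map_homog] at hx
  obtain ⟨φ, hφ, rfl⟩ := hx
  have a1 := approx p c _ I' ht hq hφ y hy
  have a2 := approx p c _ I' ht hq hf y hy
  have := sub_mem a1 (smul_mem _ (eval c φ * (eval c f)⁻¹) a2)
  convert this using 1
  rw [hp, zero_sub, ← smul_mul_assoc, smul_neg, smul_smul, inv_mul_cancel_right₀ hc.1]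
  simp only [AlgHom.toLinearMap_apply]
  ring

lemma homog {r : ℕ} (g : MvPolynomial (Fin r) k) :
    ∃ (D : ℕ) (f : MvPolynomial (Fin (r + 1)) k), f.IsHomogeneous D ∧
      ∀ (A : Type) [CommRing A] [Algebra k A] (x : Fin r → A),
        aeval (Fin.cons 1 x : Fin (r + 1) → A) f = aeval x g := by
  induction g using MvPolynomial.induction_on with
  | C a => exact ⟨0, C a, isHomogeneous_C _ _, fun A _ _ x => by simp⟩
  | add a b ha hb =>
    obtain ⟨D, f, h1, h2⟩ := ha
    obtain ⟨D', f', h1', h2'⟩ := hb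
    refine ⟨D + D', f * X 0 ^ D' + X 0 ^ D * f', ?_, fun A _ _ x => by simp [h2, h2']⟩
    exact (h1.mul (isHomogeneous_X_pow _ _)).add ((isHomogeneous_X_pow _ _).mul h1')
  | mul_X a i ha =>
    obtain ⟨D, f, h1, h2⟩ := ha
    exact ⟨D + 1, f * X i.succ, h1.mul (isHomogeneous_X _ _), fun A _ _ x => by simp [h2]⟩

lemma cons_eq {r : ℕ} (p : Fin (r + 1) → K) (h0 : p 0 ≠ 0) :
    p = fun i => p 0 * (Fin.cons 1 (fun j : Fin r => p j.succ / p 0) : Fin (r + 1) → K) i := by
  funext i
  refine Fin.cases (by simp) (fun i => ?_) i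
  simp only [Fin.cons_succ]
  field_simp

lemma exists_rel (htr : Algebra.trdeg k K = 2) {r : ℕ} (hr : 3 ≤ r) (p : Fin (r + 1) → K) :
    ∃ (e : ℕ) (f : MvPolynomial (Fin (r + 1)) k), f.IsHomogeneous e ∧ f ≠ 0 ∧ aeval p f = 0 := by
  by_cases h0 : p 0 = 0
  · exact ⟨1, X 0, isHomogeneous_X _ _, X_ne_zero _, by simpa using h0⟩
  have h1 : ¬ AlgebraicIndependent k fun j : Fin r => p j.succ / p 0 := fun h => by
    have := h.cardinalMk_le_trdeg
    rw [htr, Cardinal.mk_fin] at this
    have : r ≤ 2 := by exact_mod_cast this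
    omega
  rw [algebraicIndependent_iff] at h1
  push Not at h1
  obtain ⟨g, h2, h3⟩ := h1
  obtain ⟨D, f, h4, h5⟩ := homog g
  refine ⟨D, f, h4, fun h => h3 ?_, ?_⟩
  · have := h5 (MvPolynomial (Fin r) k) X
    rw [h, map_zero, aeval_X_left_apply] at this
    exact this.symm
  · rw [cons_eq p h0, aeval_mul_homog _ _ h4, h5, h2, mul_zero]

lemma finite_of_red {S : Set K} (hS : S.Finite)
    (hfrac : ∀ c : K, ∃ (j : ℕ), ∃ b ∈ Rg k S j, b ≠ 0 ∧ c * b ∈ Rg k S j) {r : ℕ}
    (p : Fin (r + 1) → K) (h0 : p 0 ≠ 0) (h : Red (span k S) (span k (Set.range p))) :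
    FiniteDimensional (IntermediateField.adjoin k (Set.range fun j : Fin r => p j.succ / p 0))
      K := by
  set F := IntermediateField.adjoin k (Set.range fun j : Fin r => p j.succ / p 0)
  obtain ⟨h1, j₀, h2⟩ := h
  have hp0 : p 0 ∈ span k S := h1 (subset_span ⟨0, rfl⟩)
  obtain ⟨T, hT⟩ := Module.Finite.iff_fg.1 (Rg_finite (k := k) hS j₀)
  let W : Submodule F K := span F ((fun y => y / p 0 ^ j₀) '' T)
  have hW : FiniteDimensional F W :=
    FiniteDimensional.span_of_finite _ (T.finite_toSet.image _)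
  have hk : ∀ (c : k) (x : K), x ∈ W → c • x ∈ W := fun c x hx => by
    rw [← algebraMap_smul F]
    exact W.smul_mem _ hx
  have a0 : ∀ y ∈ span k S ^ j₀, y / p 0 ^ j₀ ∈ W := by
    intro y hy
    rw [← Rg, ← hT] at hy
    induction hy using span_induction with
    | mem x hx => exact subset_span ⟨x, hx, rfl⟩
    | zero => rw [zero_div]; exact zero_mem _
    | add x y _ _ hx hy => rw [add_div]; exact add_mem hx hy
    | smul c x _ hx => rw [smul_div_assoc]; exact hk c _ hx
  have a1 : ∀ a ∈ span k (Set.range p), a / p 0 ∈ F := by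
    intro a ha
    induction ha using span_induction with
    | mem x hx =>
      obtain ⟨i, rfl⟩ := hx
      refine Fin.cases ?_ (fun i => IntermediateField.subset_adjoin _ _ ⟨i, rfl⟩) i
      rw [div_self h0]
      exact one_mem _
    | zero => rw [zero_div]; exact zero_mem _
    | add x y _ _ hx hy => rw [add_div]; exact add_mem hx hy
    | smul c x _ hx => rw [smul_div_assoc]; exact F.smul_mem hx
  have a2 : ∀ j ≥ j₀, ∀ y ∈ span k S ^ j, y / p 0 ^ j ∈ W := by
    intro j hj
    induction j, hj using Nat.le_induction with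
    | base => exact a0
    | succ j hj ih =>
      intro y hy
      refine Submodule.mul_induction_on (up h2 hj hy) (fun a ha b hb => ?_) fun x y hx hy => ?_
      · have := W.smul_mem ⟨_, a1 a ha⟩ (ih b hb)
        convert this using 1
        change _ = a / p 0 * (b / p 0 ^ j)
        rw [pow_succ']
        field_simp
      · rw [add_div]; exact add_mem hx hy
  have a3 : ∀ j, ∀ y ∈ span k S ^ j, y / p 0 ^ j ∈ W := by
    intro j y hy
    have := a2 (j + j₀) (by omega) (y * p 0 ^ j₀)
      (by rw [pow_add]; exact mul_mem_mul hy (pow_mem_pow _ hp0 _))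
    rwa [pow_add, mul_div_mul_right _ _ (pow_ne_zero _ h0)] at this
  have a4 : W = ⊤ := by
    refine eq_top_iff.2 fun c _ => ?_
    obtain ⟨j, b, hb, hb0, hcb⟩ := hfrac c
    have a5 : ∀ x ∈ W, LinearMap.mulLeft F (b / p 0 ^ j) x ∈ W := by
      intro x hx
      induction hx using span_induction with
      | mem x hx =>
        obtain ⟨y, hy, rfl⟩ := hx
        have : y ∈ Rg k S j₀ := hT ▸ subset_span hy
        have := a3 _ _ (Rg_mul hb this)
        rwa [pow_add, ← div_mul_div_comm] at this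
      | zero => rw [map_zero]; exact zero_mem _
      | add x y _ _ hx hy => rw [map_add]; exact add_mem hx hy
      | smul c x _ hx => rw [map_smul]; exact W.smul_mem _ hx
    have hne : b / p 0 ^ j ≠ 0 := div_ne_zero hb0 (pow_ne_zero _ h0)
    have a6 : Function.Injective ((LinearMap.mulLeft F (b / p 0 ^ j)).restrict a5) :=
      fun x y hxy => Subtype.ext (mul_left_cancel₀ hne (congrArg Subtype.val hxy))
    obtain ⟨w, hw⟩ := LinearMap.injective_iff_surjective.1 a6 ⟨_, a3 j _ hcb⟩
    have a7 : b / p 0 ^ j * w = c * b / p 0 ^ j := congrArg Subtype.val hw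
    rw [mul_div_assoc, mul_comm c] at a7
    rw [← mul_left_cancel₀ hne a7]
    exact w.2
  rw [a4] at hW
  exact Module.Finite.equiv topEquiv

lemma three_le {S : Set K} (hS : S.Finite)
    (hfrac : ∀ c : K, ∃ (j : ℕ), ∃ b ∈ Rg k S j, b ≠ 0 ∧ c * b ∈ Rg k S j)
    (htr : Algebra.trdeg k K = 2) {r : ℕ} (p : Fin r → K)
    (h : Red (span k S) (span k (Set.range p))) : 3 ≤ r := by
  by_cases h0 : ∃ i, p i ≠ 0
  · obtain ⟨i, hi⟩ := h0
    obtain ⟨r, rfl⟩ : ∃ r', r = r' + 1 := ⟨r - 1, by have := i.2; omega⟩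
    have e : Set.range (p ∘ Equiv.swap 0 i) = Set.range p :=
      (Equiv.swap 0 i).surjective.range_comp p
    have h1 := finite_of_red hS hfrac (p ∘ Equiv.swap 0 i) (by simpa using hi) (by rwa [e])
    have h2 := IntermediateField.isAlgebraic_adjoin_iff_top.1
      (@Algebra.IsAlgebraic.of_finite _ K _ _ _ _ h1)
    have h3 := (Algebra.IsAlgebraic.trdeg_le_cardinalMk k _ (alg := h2)).trans
      Cardinal.mk_range_le
    rw [htr, Cardinal.mk_fin] at h3
    have : 2 ≤ r := by exact_mod_cast h3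
    omega
  · exfalso
    push Not at h0
    have h1 : span k (Set.range p) = ⊥ := span_eq_bot.2 (by rintro _ ⟨i, rfl⟩; exact h0 i)
    obtain ⟨-, j, h2⟩ := h
    rw [h1, bot_mul] at h2
    have h3 : span k S = ⊥ := eq_bot_iff.2 fun x hx =>
      pow_eq_zero_iff (Nat.succ_ne_zero j) |>.1 (h2 (pow_mem_pow _ hx _))
    have h4 : Algebra.IsAlgebraic k K := ⟨fun c => by
      obtain ⟨j, b, hb, hb0, hcb⟩ := hfrac c
      rcases j with _ | j
      · rw [Rg, pow_zero, mem_one] at hb hcb
        obtain ⟨x, rfl⟩ := hb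
        obtain ⟨y, hy⟩ := hcb
        have : c = algebraMap k K (y / x) := by rw [map_div₀, hy, mul_div_cancel_right₀ _ hb0]
        rw [this]
        exact isAlgebraic_algebraMap _
      · rw [Rg, h3, pow_succ, mul_bot] at hb
        exact (hb0 hb).elim⟩
    rw [trdeg_eq_zero] at htr
    exact two_ne_zero htr.symm

lemma exists_three [Infinite k] (htr : Algebra.trdeg k K = 2) {M : Submodule k K} (n : ℕ) :
    ∀ p : Fin (n + 3) → K, Red M (span k (Set.range p)) →
      ∃ p' : Fin 3 → K, Red M (span k (Set.range p')) := by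
  induction n with
  | zero => exact fun p h => ⟨p, h⟩
  | succ n ih =>
    intro p h
    obtain ⟨e, f, h1, h2, h3⟩ := exists_rel htr (r := n + 3) (by omega) p
    obtain ⟨p', h4⟩ := step p h1 h2 h3
    exact ih p' (h.trans h4)

lemma prod_mem {ι : Type} (M : Submodule k K) (f : ι → K) (t : Finset ι) (h : ∀ i, f i ∈ M) :
    ∏ i ∈ t, f i ∈ M ^ t.card := by
  classical
  induction t using Finset.induction_on with
  | empty => simp [mem_one]
  | insert a t ha ih =>
    rw [Finset.prod_insert ha, Finset.card_insert_of_notMem ha, pow_succ']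
    exact mul_mem_mul (h a) ih

lemma pigeon {S : Set K} (hS : S.Finite) {m : ℕ} (hm : 0 < m) :
    ∃ j₁, ∀ j ≥ j₁, span k S ^ (j + m) ≤ span k ((· ^ m) '' S) * span k S ^ j := by
  classical
  have := hS.fintype
  refine ⟨Fintype.card S * m, fun j hj => ?_⟩
  rw [span_pow, span_le]
  intro a ha
  obtain ⟨f, hf, rfl⟩ := Set.mem_pow_iff_prod.1 ha
  have : Nonempty S := ⟨⟨_, hf ⟨0, by omega⟩⟩⟩
  obtain ⟨y, hy⟩ := Fintype.exists_le_card_fiber_of_mul_le_card (fun i => (⟨f i, hf i⟩ : S))
    (n := m) (by rw [Fintype.card_fin]; exact hj.trans (Nat.le_add_right _ _))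
  obtain ⟨t, ht, hc⟩ := Finset.exists_subset_card_eq hy
  rw [← Finset.prod_mul_prod_compl t, Finset.prod_congr rfl (g := fun _ => (y : K))
    (fun i hi => congrArg Subtype.val (Finset.mem_filter.1 (ht hi)).2), Finset.prod_const, hc]
  have h1 := prod_mem (span k S) f tᶜ fun i => subset_span (hf i)
  rw [Finset.card_compl, Fintype.card_fin, hc, Nat.add_sub_cancel] at h1
  exact mul_mem_mul (subset_span ⟨y, y.2, rfl⟩) h1

end NN

open MvPolynomial Submodule in
theorem exists_normData [Infinite k] {S : Set K} (hS : S.Finite) (h0 : (0 : K) ∉ S)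
    (hfrac : ∀ c : K, ∃ (j : ℕ), ∃ b ∈ Rg k S j, b ≠ 0 ∧ c * b ∈ Rg k S j)
    (htr : Algebra.trdeg k K = 2) :
    ∃ (F : IntermediateField k K) (P : P2 k F) (x : K),
      NormData P S 1 x ∧ FiniteDimensional F K := by
  obtain ⟨n, q, -, hq⟩ := hS.fin_param
  have h1 : NN.Red (span k S) (span k (Set.range q)) := ⟨by rw [hq], 0, by simp [hq]⟩
  obtain ⟨n, rfl⟩ := Nat.exists_eq_add_of_le' (NN.three_le hS hfrac htr q h1)
  obtain ⟨p, hp⟩ := NN.exists_three htr n q h1
  have h2 : ∀ (e : ℕ) (f : MvPolynomial (Fin 3) k), f.IsHomogeneous e → aeval p f = 0 → f = 0 := by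
    intro e f a b
    by_contra c
    obtain ⟨p', h⟩ := NN.step p a c b
    have := NN.three_le hS hfrac htr p' (hp.trans h)
    omega
  have h3 : p 0 ≠ 0 := fun h => X_ne_zero _ (h2 1 (X 0) (isHomogeneous_X _ _) (by simpa using h))
  let F := IntermediateField.adjoin k (Set.range fun j : Fin 2 => p j.succ / p 0)
  let τ : Fin 2 → F := fun j => ⟨p j.succ / p 0, IntermediateField.subset_adjoin _ _ ⟨j, rfl⟩⟩
  have h4 : ∀ i, p 0 * algebraMap F K ((Fin.cons 1 τ : Fin 3 → F) i) = p i := fun i => by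
    refine Fin.cases (by simp) (fun i => ?_) i
    exact mul_div_cancel₀ _ h3
  have h5 : ∀ g : MvPolynomial (Fin 2) k, algebraMap F K (aeval τ g) =
      aeval (fun j : Fin 2 => p j.succ / p 0) g := fun g => (aeval_algebraMap_apply K τ g).symm
  let P : P2 k F :=
    { σ := Fin.cons 1 τ
      σ0 := rfl
      inj := fun j a ha h => h2 j a ha (by
        have := aeval_algebraMap_apply K (Fin.cons 1 τ : Fin 3 → F) a
        rw [h, map_zero] at this
        rw [← funext h4, NN.aeval_mul_homog _ _ ha]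
        exact mul_eq_zero_of_right _ this)
      gen := fun x => by
        obtain ⟨r, s, h⟩ := (IntermediateField.mem_adjoin_range_iff _ _ _).1 x.2
        by_cases hs : aeval τ s = 0
        · refine ⟨0, 0, 1, isHomogeneous_zero _ _ _, isHomogeneous_one _ _, one_ne_zero, ?_⟩
          rw [← h5 s, hs, map_zero, div_zero] at h
          simpa using h
        obtain ⟨D, a, a1, a2⟩ := NN.homog r
        obtain ⟨D', b, b1, b2⟩ := NN.homog s
        refine ⟨D + D', a * X 0 ^ D', X 0 ^ D * b, a1.mul (isHomogeneous_X_pow _ _),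
          (isHomogeneous_X_pow _ _).mul b1, mul_ne_zero (pow_ne_zero _ (X_ne_zero _))
            (fun hb => hs (by rw [← b2, hb, map_zero])), ?_⟩
        rw [← h5, ← h5, ← map_div₀] at h
        have h6 : x = aeval τ r / aeval τ s := Subtype.ext h
        simp [a2, b2, h6, hs] }
  refine ⟨F, P, p 0, ⟨hS, h0, one_pos, h3, fun i => ?_, ?_, hfrac⟩,
    NN.finite_of_red hS hfrac p h3 hp⟩
  · rw [Rg, pow_one]
    exact hp.1 (subset_span ⟨i, (h4 i).symm⟩)
  · obtain ⟨j₀, hj⟩ := hp.2
    refine ⟨j₀, fun j h => ?_⟩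
    rw [NN.iSup_smulK, show (fun i => p 0 * P.s K i) = p from funext h4]
    exact NN.up hj h

open Submodule in
theorem NormData.lift {F KX : Type} [Field F] [Field KX] [Algebra k F] [Algebra k KX]
    [Algebra F KX] [Algebra F K] [Algebra KX K] [IsScalarTower k KX K] [IsScalarTower F KX K]
    {P : P2 k F} {SX : Set KX} {x : KX} (hN : NormData P SX 1 x) {S : Set K} {m : ℕ}
    (hm : 0 < m) (hS : S.Finite) (h0 : (0 : K) ∉ S)
    (hpow : (· ^ m) '' S = algebraMap KX K '' SX)
    (hfrac : ∀ c : K, ∃ (j : ℕ), ∃ b ∈ Rg k S j, b ≠ 0 ∧ c * b ∈ Rg k S j) :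
    NormData P S m (algebraMap KX K x) := by
  let φ := IsScalarTower.toAlgHom k KX K
  have hφ : ∀ i, φ (x * P.s KX i) = algebraMap KX K x * P.s K i := fun i => by
    rw [map_mul]
    congr 1
    exact (IsScalarTower.algebraMap_apply F KX K _).symm
  have h1 : (span k SX).map φ.toLinearMap = span k ((· ^ m) '' S) := by
    rw [map_span, hpow]
    rfl
  have h2 : span k ((· ^ m) '' S) ≤ span k S ^ m := span_le.2 (by
    rintro _ ⟨y, hy, rfl⟩
    exact pow_mem_pow _ (subset_span hy) m)
  refine ⟨hS, h0, hm, (map_ne_zero _).2 hN.x_ne, fun i => ?_, ?_, hfrac⟩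
  · refine h2 ?_
    rw [← h1]
    exact ⟨_, by simpa [Rg] using hN.mem i, hφ i⟩
  · obtain ⟨j₀, h3⟩ := hN.gen
    obtain ⟨j₁, h4⟩ := NN.pigeon (k := k) hS hm
    have h5 := map_mono (f := φ.toLinearMap) (h3 j₀ le_rfl)
    rw [NN.iSup_smulK, Rg, Rg, Submodule.map_mul, Submodule.map_pow, Submodule.map_pow, h1,
      map_span, ← Set.range_comp] at h5
    have h6 : (φ.toLinearMap ∘ fun i => x * P.s KX i) = fun i => algebraMap KX K x * P.s K i :=
      funext hφ
    rw [h6] at h5
    refine ⟨j₁ + m * j₀, fun j hj => ?_⟩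
    obtain ⟨j, rfl⟩ := Nat.exists_eq_add_of_le hj
    have h7 := NN.iter h4 (j₀ + 1) (j := j₁ + j) (by omega)
    rw [NN.iSup_smulK, Rg, Rg, show j₁ + m * j₀ + j + m = j₁ + j + m * (j₀ + 1) by ring,
      show j₁ + m * j₀ + j = m * j₀ + (j₁ + j) by ring, pow_add _ (m * j₀), pow_mul,
      ← mul_assoc]
    exact h7.trans (mul_le_mul_left (h5.trans (mul_le_mul_right (pow_le_pow_left' h2 j₀) _)) _)

theorem Coord.trdeg_eq {s : Fin 2 → K} (h : Coord k s) : Algebra.trdeg k K = 2 := by
  have h1 : IntermediateField.adjoin k (Set.range s) = ⊤ := eq_top_iff.2 fun x _ => by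
    obtain ⟨a, b, hb, hx⟩ := h.gen x
    refine (IntermediateField.mem_adjoin_range_iff _ _ _).2 ⟨a, b, ?_⟩
    rw [← hx, mul_div_cancel_right₀]
    exact fun hc => hb (algebraicIndependent_iff.1 h.indep b hc)
  have h2 : Algebra.IsAlgebraic (IntermediateField.adjoin k (Set.range s)) K := by
    rw [h1, Algebra.isAlgebraic_iff_isIntegral]
    exact Algebra.isIntegral_of_surjective IntermediateField.topEquiv.surjective
  have h3 := h.indep.isTranscendenceBasis_iff_isAlgebraic.2
    (IntermediateField.isAlgebraic_adjoin_iff_top.1 h2)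
  rw [← h3.cardinalMk_eq_trdeg, Cardinal.mk_fin]
  rfl

end Vale.Agent.P190
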