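import Mathlib

/-! Auxiliary facts on homogeneous polynomials. -/

open Module MvPolynomial

noncomputable section

namespace Vale.Agent.P190

variable {σ k : Type} [Field k]

/-- the grading as a polynomial in a new variable -/
def Plane.gr : MvPolynomial σ k →ₐ[k] Polynomial (MvPolynomial σ k) :=
  aeval fun i => Polynomial.monomial 1 (X i)

lemma Plane.gr_monomial (s : σ →₀ ℕ) (c : k) :
    Plane.gr (monomial s c : MvPolynomial σ k) = Polynomial.monomial s.degree (monomial s c) := by
  classical
  induction s using Finsupp.induction with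
  | zero =>
    rw [monomial_zero', Plane.gr, aeval_C]
    simp [Polynomial.algebraMap_apply]
  | single_add a n s _ _ ih =>
    rw [monomial_single_add, map_mul, ih, map_pow, Plane.gr, aeval_X, Polynomial.monomial_pow,
      Polynomial.monomial_mul_monomial, map_add, Finsupp.degree_single, one_mul]

lemma Plane.coeff_gr (p : MvPolynomial σ k) (j : ℕ) :
    (Plane.gr p).coeff j = homogeneousComponent j p := by
  induction p using MvPolynomial.induction_on' with
  | monomial s c =>
    rw [Plane.gr_monomial, Polynomial.coeff_monomial,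
      homogeneousComponent_of_mem (isHomogeneous_monomial c rfl : IsHomogeneous _ s.degree)]
    simp only [eq_comm]
  | add p q hp hq => rw [map_add, Polynomial.coeff_add, hp, hq, map_add]

lemma Plane.gr_of_isHomogeneous {p : MvPolynomial σ k} {n : ℕ} (h : p.IsHomogeneous n) :
    Plane.gr p = Polynomial.monomial n p := by
  ext1 j
  rw [Plane.coeff_gr, Polynomial.coeff_monomial, homogeneousComponent_of_mem h]
  simp only [eq_comm]

lemma Plane.isHomogeneous_of_mul {a b : MvPolynomial σ k} {n : ℕ}
    (h : (a * b).IsHomogeneous n) (h0 : a * b ≠ 0) :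
    ∃ d e, a.IsHomogeneous d ∧ b.IsHomogeneous e ∧ d + e = n := by
  have h1 := Plane.gr_of_isHomogeneous h
  rw [map_mul] at h1
  have h2 : Plane.gr a * Plane.gr b ≠ 0 := by
    rw [h1]; simpa using h0
  have ha := left_ne_zero_of_mul h2
  have hb := right_ne_zero_of_mul h2
  have h3 := Polynomial.natDegree_mul ha hb
  have h4 := Polynomial.natTrailingDegree_mul ha hb
  rw [h1, Polynomial.natDegree_monomial_eq _ h0] at h3
  rw [h1, Polynomial.natTrailingDegree_monomial h0] at h4
  have h5 := Polynomial.natTrailingDegree_le_natDegree (Plane.gr a)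
  have h6 := Polynomial.natTrailingDegree_le_natDegree (Plane.gr b)
  have key : ∀ p : MvPolynomial σ k,
      (Plane.gr p).natTrailingDegree = (Plane.gr p).natDegree →
        p.IsHomogeneous (Plane.gr p).natDegree := by
    intro p hp
    set d := (Plane.gr p).natDegree with hd
    rw [← sum_homogeneousComponent p]
    refine IsHomogeneous.sum _ _ _ fun i _ => ?_
    by_cases hi : i = d
    · rw [hi]; exact homogeneousComponent_isHomogeneous _ _
    · rw [← Plane.coeff_gr]
      rcases lt_or_gt_of_ne hi with hi | hi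
      · rw [Polynomial.coeff_eq_zero_of_lt_natTrailingDegree (by omega)]
        exact isHomogeneous_zero _ _ _
      · rw [Polynomial.coeff_eq_zero_of_natDegree_lt hi]
        exact isHomogeneous_zero _ _ _
  exact ⟨_, _, key a (by omega), key b (by omega), h3.symm⟩

lemma Plane.isHomogeneous_of_dvd {a φ : MvPolynomial σ k} {n : ℕ} (h : φ.IsHomogeneous n)
    (h0 : φ ≠ 0) (ha : a ∣ φ) : ∃ d, a.IsHomogeneous d := by
  obtain ⟨b, rfl⟩ := ha
  obtain ⟨d, _, h1, _⟩ := Plane.isHomogeneous_of_mul h h0
  exact ⟨d, h1⟩

lemma Plane.exists_quot {a φ : MvPolynomial σ k} {n e : ℕ} (ha : a.IsHomogeneous n)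
    (h0 : a ≠ 0) (hφ : φ.IsHomogeneous e) (h : φ ∣ a) :
    ∃ q d, a = φ * q ∧ q ≠ 0 ∧ q.IsHomogeneous d ∧ n = e + d := by
  obtain ⟨q, rfl⟩ := h
  obtain ⟨d', d, h1, h2, h3⟩ := Plane.isHomogeneous_of_mul ha h0
  refine ⟨q, d, rfl, right_ne_zero_of_mul h0, h2, ?_⟩
  rw [← h3, h1.inj_right hφ (left_ne_zero_of_mul h0)]

lemma Plane.eq_C_of_isHomogeneous_zero {a : MvPolynomial σ k} (h : a.IsHomogeneous 0) :
    a = C (coeff 0 a) := by
  rw [← homogeneousComponent_zero, homogeneousComponent_eq_self h]

lemma Plane.isUnit_of_isHomogeneous_zero {a : MvPolynomial σ k} (h : a.IsHomogeneous 0)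
    (h0 : a ≠ 0) : IsUnit a := by
  have h1 := Plane.eq_C_of_isHomogeneous_zero h
  rw [h1] at h0 ⊢
  exact (IsUnit.mk0 _ fun h2 => h0 (by rw [h2, map_zero])).map C

lemma Plane.not_isUnit {a : MvPolynomial σ k} {n : ℕ} (h : a.IsHomogeneous n) (hn : 0 < n) :
    ¬ IsUnit a := by
  intro hu
  have h1 := hu.map (constantCoeff : MvPolynomial σ k →+* k)
  rw [constantCoeff_eq, h.coeff_eq_zero (by simp; omega)] at h1
  exact not_isUnit_zero h1

theorem Plane.finrank_homogeneous (j : ℕ) :
    finrank k (homogeneousSubmodule (Fin 3) k j) = (j + 2).choose 2 := by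
  classical
  have h1 : homogeneousSubmodule (Fin 3) k j = Submodule.span k
      (Set.range fun d : (Finset.univ : Finset (Fin 3)).finsuppAntidiag j =>
        (monomial d.1 1 : MvPolynomial (Fin 3) k)) := by
    apply le_antisymm
    · intro p hp
      rw [p.as_sum]
      refine Submodule.sum_mem _ fun d hd => ?_
      have h2 : d.degree = j := by
        by_contra h
        exact mem_support_iff.1 hd (IsHomogeneous.coeff_eq_zero hp h)
      rw [← mul_one (coeff d p), ← smul_eq_mul, ← smul_monomial]
      refine Submodule.smul_mem _ _ (Submodule.subset_span ⟨⟨d, ?_⟩, rfl⟩)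
      rw [Finset.mem_finsuppAntidiag, ← h2, Finsupp.degree_eq_sum]
      simp
    · rw [Submodule.span_le]
      rintro _ ⟨⟨d, hd⟩, rfl⟩
      refine isHomogeneous_monomial _ ?_
      rw [Finsupp.degree_eq_sum]
      exact (Finset.mem_finsuppAntidiag.1 hd).1
  have h2 : LinearIndependent k
      (fun d : (Finset.univ : Finset (Fin 3)).finsuppAntidiag j =>
        (monomial d.1 1 : MvPolynomial (Fin 3) k)) := by
    have := (basisMonomials (Fin 3) k).linearIndependent.comp
      (fun d : (Finset.univ : Finset (Fin 3)).finsuppAntidiag j => d.1) Subtype.val_injective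
    simpa [Function.comp_def] using this
  rw [h1, finrank_span_eq_card h2, Fintype.card_coe, Finset.card_finsuppAntidiag_nat_eq_choose]
  simp only [Finset.card_univ, Fintype.card_fin]
  rw [show 3 + j - 1 = j + 2 by omega]
  exact Nat.choose_symm_add

end Vale.Agent.P190
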