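import Vale.Agent.P190.Ext
import Vale.Agent.P190.PlaneA

/-! The local rings of the plane at its prime divisors. -/

open Module MvPolynomial

noncomputable section

namespace Vale.Agent.P190

variable {k F : Type} [Field k] [Field F] [Algebra k F] (P : P2 k F)

lemma Plane.exists_gen (u : PU k) : ∃ (φ : MvPolynomial (Fin 3) k) (e : ℕ), 0 < e ∧
    φ.IsHomogeneous e ∧ Prime φ ∧ u.1 = Ideal.span {φ} ∧ ∀ u' : PU k, φ ∈ u'.1 → u' = u := by
  obtain ⟨hu, φ, e, h0, he, hφ⟩ := u.2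
  have hp : Prime φ := (Ideal.span_singleton_prime h0).1 (hφ ▸ hu)
  refine ⟨φ, e, ?_, he, hp, hφ, fun u' h' => ?_⟩
  · rcases Nat.eq_zero_or_pos e with rfl | h
    · exact absurd (Plane.isUnit_of_isHomogeneous_zero he h0) hp.not_isUnit
    · exact h
  · obtain ⟨hu', φ', e', h0', _, hφ'⟩ := u'.2
    have hp' : Prime φ' := (Ideal.span_singleton_prime h0').1 (hφ' ▸ hu')
    rw [hφ', Ideal.mem_span_singleton] at h'
    refine Subtype.ext ?_
    rw [hφ, hφ', Ideal.span_singleton_eq_span_singleton]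
    exact hp'.associated_of_dvd hp h'

lemma Plane.X_mem_unique (u : PU k) {i j : Fin 3} (hi : X i ∈ u.1) (hj : X j ∈ u.1) : i = j := by
  obtain ⟨φ, e, _, _, hp, hφ, _⟩ := Plane.exists_gen u
  rw [hφ, Ideal.mem_span_singleton] at hi hj
  exact X_dvd_X.1 ((hp.associated_of_dvd X_prime hi).symm.dvd.trans hj)

lemma Plane.exists_X_notMem (u : PU k) : ∃ i : Fin 3, X i ∉ u.1 := by
  by_contra h
  push Not at h
  exact absurd (Plane.X_mem_unique u (h 0) (h 1)) (by decide)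

/-- the prime divisor of a prime form -/
def Plane.mkU {φ : MvPolynomial (Fin 3) k} {e : ℕ} (hp : Prime φ) (he : φ.IsHomogeneous e) :
    PU k := ⟨Ideal.span {φ}, (Ideal.span_singleton_prime hp.ne_zero).2 hp, φ, e, hp.ne_zero, he, rfl⟩

lemma Plane.exists_mem {φ : MvPolynomial (Fin 3) k} {j : ℕ} (hφ : φ.IsHomogeneous j)
    (hj : 0 < j) : ∃ u : PU k, φ ∈ u.1 := by
  by_cases h0 : φ = 0
  · exact ⟨Plane.mkU (X_prime (i := 0)) (isHomogeneous_X _ _), by rw [h0]; exact Ideal.zero_mem _⟩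
  · obtain ⟨p, hp, hd⟩ := WfDvdMonoid.exists_irreducible_factor (Plane.not_isUnit hφ hj) h0
    obtain ⟨d, hd'⟩ := Plane.isHomogeneous_of_dvd hφ h0 hd
    exact ⟨Plane.mkU hp.prime hd', Ideal.mem_span_singleton.2 hd⟩

lemma Plane.finite_mem {φ : MvPolynomial (Fin 3) k} (h0 : φ ≠ 0) :
    {u : PU k | φ ∈ u.1}.Finite := by
  have h1 : ((fun p => Ideal.span {p}) ''
      {p | p ∈ UniqueFactorizationMonoid.factors φ}).Finite :=
    (Multiset.finite_toSet _).image _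
  refine (h1.preimage (Subtype.val_injective (p := fun P : Ideal (MvPolynomial (Fin 3) k) =>
    P.IsPrime ∧ ∃ (φ : MvPolynomial (Fin 3) k) (j : ℕ), φ ≠ 0 ∧ φ.IsHomogeneous j ∧
      P = Ideal.span {φ})).injOn).subset fun u hu => ?_
  obtain ⟨ψ, e, _, _, hp, hψ, _⟩ := Plane.exists_gen u
  have hu' : φ ∈ u.1 := hu
  rw [hψ, Ideal.mem_span_singleton] at hu'
  obtain ⟨q, hq, hq'⟩ := UniqueFactorizationMonoid.exists_mem_factors_of_dvd h0 hp.irreducible hu'
  exact ⟨q, hq, (hψ.trans (Ideal.span_singleton_eq_span_singleton.2 hq')).symm⟩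

lemma Plane.ev_ne {φ : MvPolynomial (Fin 3) k} {j : ℕ} (hφ : φ.IsHomogeneous j) (h0 : φ ≠ 0) :
    aeval P.σ φ ≠ 0 := fun h => h0 (P.inj j φ hφ h)

lemma Plane.σ_ne (i : Fin 3) : P.σ i ≠ 0 := by
  have := Plane.ev_ne P (isHomogeneous_X k i) (X_ne_zero i)
  rwa [aeval_X] at this

lemma Plane.ev_inj {a b : MvPolynomial (Fin 3) k} {j : ℕ} (ha : a.IsHomogeneous j)
    (hb : b.IsHomogeneous j) (h : aeval P.σ a = aeval P.σ b) : a = b := by
  rw [← sub_eq_zero]
  exact P.inj j _ (ha.sub hb) (by rw [map_sub, h, sub_self])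

lemma Plane.ne_zero_of_notMem {u : PU k} {b : MvPolynomial (Fin 3) k} (hb : b ∉ u.1) : b ≠ 0 :=
  fun h => hb (by rw [h]; exact Ideal.zero_mem _)

lemma Plane.div_mem {u : PU k} {a b : MvPolynomial (Fin 3) k} {j : ℕ} (ha : a.IsHomogeneous j)
    (hb : b.IsHomogeneous j) (hbu : b ∉ u.1) : aeval P.σ a / aeval P.σ b ∈ P.O u :=
  ⟨j, a, b, ha, hb, hbu, div_mul_cancel₀ _ (Plane.ev_ne P hb (Plane.ne_zero_of_notMem hbu))⟩

lemma Plane.X_pow_notMem {u : PU k} {i : Fin 3} (hi : X i ∉ u.1) (e : ℕ) : X i ^ e ∉ u.1 :=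
  fun h => hi (u.2.1.mem_of_pow_mem e h)

lemma Plane.mul_notMem {u : PU k} {a b : MvPolynomial (Fin 3) k} (ha : a ∉ u.1) (hb : b ∉ u.1) :
    a * b ∉ u.1 := fun h => (u.2.1.mem_or_mem h).elim ha hb

lemma Plane.div_pow_mem {u : PU k} {a : MvPolynomial (Fin 3) k} {j : ℕ} (ha : a.IsHomogeneous j)
    {i : Fin 3} (hi : X i ∉ u.1) : aeval P.σ a / P.σ i ^ j ∈ P.O u := by
  have := Plane.div_mem P ha (isHomogeneous_X_pow i j) (Plane.X_pow_notMem hi j)
  rwa [map_pow, aeval_X] at this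

lemma Plane.pow_div_mem {u : PU k} {a : MvPolynomial (Fin 3) k} {j : ℕ} (ha : a.IsHomogeneous j)
    (hu : a ∉ u.1) (i : Fin 3) : P.σ i ^ j / aeval P.σ a ∈ P.O u := by
  have := Plane.div_mem P (isHomogeneous_X_pow i j) ha hu
  rwa [map_pow, aeval_X] at this

lemma Plane.notMem_of_pow_div_mem {u : PU k} {a : MvPolynomial (Fin 3) k} {j : ℕ}
    (ha : a.IsHomogeneous j) (h0 : a ≠ 0) {i : Fin 3} (hi : X i ∉ u.1)
    (h : P.σ i ^ j / aeval P.σ a ∈ P.O u) : a ∉ u.1 := by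
  intro hu
  obtain ⟨m, c, d, hc, hd, hdu, h1⟩ := h
  have h2 : X i ^ j * d = a * c := by
    refine Plane.ev_inj P ((isHomogeneous_X_pow i j).mul hd) (ha.mul hc) ?_
    rw [map_mul, map_mul, map_pow, aeval_X, ← h1]
    have := Plane.ev_ne P ha h0
    field_simp
  exact Plane.mul_notMem (Plane.X_pow_notMem hi j) hdu (h2 ▸ Ideal.mul_mem_right _ _ hu)

/-- every non-zero element of the local ring is a unit times a power of the uniformiser -/
lemma Plane.exists_pow {u : PU k} {φ : MvPolynomial (Fin 3) k} {e : ℕ}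
    (he : φ.IsHomogeneous e) (hp : Prime φ) (hφ : u.1 = Ideal.span {φ}) {i : Fin 3}
    (hi : X i ∉ u.1) {x : F} (hx : x ∈ P.O u) (hx0 : x ≠ 0) :
    ∃ n : ℕ, x / (aeval P.σ φ / P.σ i ^ e) ^ n ∈ P.O u ∧
      (aeval P.σ φ / P.σ i ^ e) ^ n / x ∈ P.O u := by
  obtain ⟨j, a, b, ha, hb, hbu, h⟩ := hx
  have hb0 := Plane.ev_ne P hb (Plane.ne_zero_of_notMem hbu)
  have ha0 : a ≠ 0 := by
    rintro rfl
    rw [map_zero] at h
    exact mul_ne_zero hx0 hb0 h
  obtain ⟨n, a', ha', hn⟩ := WfDvdMonoid.max_power_factor ha0 hp.irreducible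
  obtain ⟨q, d, hq, hq0, hqd, hj⟩ := Plane.exists_quot ha ha0 (he.pow n) ⟨a', hn⟩
  obtain rfl : a' = q := mul_left_cancel₀ (pow_ne_zero n hp.ne_zero) (hn.symm.trans hq)
  have hau : a' ∉ u.1 := by rwa [hφ, Ideal.mem_span_singleton]
  have h1 : (X i ^ (e * n) * a').IsHomogeneous j := hj ▸ (isHomogeneous_X_pow i (e * n)).mul hqd
  have h2 := Plane.mul_notMem (Plane.X_pow_notMem hi (e * n)) hau
  have h3 : x = aeval P.σ φ ^ n * aeval P.σ a' / aeval P.σ b := by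
    rw [eq_div_iff hb0, h, hq, map_mul, map_pow]
  have h4 := Plane.ev_ne P he hp.ne_zero
  have h5 := Plane.σ_ne P i
  have h6 := Plane.ev_ne P hqd hq0
  refine ⟨n, ?_, ?_⟩
  · convert Plane.div_mem P h1 hb hbu using 1
    rw [h3, map_mul, map_pow, aeval_X, div_pow, ← pow_mul]
    field_simp
  · convert Plane.div_mem P hb h1 h2 using 1
    rw [h3, map_mul, map_pow, aeval_X, div_pow, ← pow_mul]
    field_simp

lemma Plane.associated_of_div {R : Subring F} {x y : R} (hx : x ≠ 0) (hy : y ≠ 0)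
    (h1 : (x : F) / y ∈ R) (h2 : (y : F) / x ∈ R) : Associated x y := by
  have hx' : (x : F) ≠ 0 := fun h => hx (Subtype.ext h)
  have hy' : (y : F) ≠ 0 := fun h => hy (Subtype.ext h)
  refine associated_of_dvd_dvd ⟨⟨_, h2⟩, Subtype.ext ?_⟩ ⟨⟨_, h1⟩, Subtype.ext ?_⟩
  · change (y : F) = x * (y / x)
    field_simp
  · change (x : F) = y * (x / y)
    field_simp

lemma Plane.irreducible_unif {u : PU k} {φ : MvPolynomial (Fin 3) k} {e : ℕ}
    (he : φ.IsHomogeneous e) (hp : Prime φ) (hφ : u.1 = Ideal.span {φ}) {i : Fin 3}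
    (hi : X i ∉ u.1) :
    Irreducible (⟨_, Plane.div_pow_mem P he hi⟩ : P.O u) ∧
      ∀ {x : P.O u}, x ≠ 0 → ∃ n : ℕ, Associated ((⟨_, Plane.div_pow_mem P he hi⟩ : P.O u) ^ n) x := by
  set π : P.O u := ⟨_, Plane.div_pow_mem P he hi⟩ with hπ
  have hπ0 : π ≠ 0 := fun h => div_ne_zero (Plane.ev_ne P he hp.ne_zero)
    (pow_ne_zero _ (Plane.σ_ne P i)) (congrArg Subtype.val h)
  have h1 : ∀ {x : P.O u}, x ≠ 0 → ∃ n : ℕ, Associated (π ^ n) x := by
    intro x hx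
    obtain ⟨n, h1, h2⟩ := Plane.exists_pow P he hp hφ hi x.2 (fun h => hx (Subtype.ext h))
    exact ⟨n, Plane.associated_of_div (pow_ne_zero _ hπ0) hx h2 h1⟩
  have h2 : ¬ IsUnit π := by
    intro h
    obtain ⟨y, hy⟩ := h.exists_right_inv
    refine Plane.notMem_of_pow_div_mem P he hp.ne_zero hi ?_
      (hφ ▸ Ideal.mem_span_singleton_self φ)
    have h3 : aeval P.σ φ / P.σ i ^ e * y = 1 := congrArg Subtype.val hy
    rw [← inv_div, ← eq_inv_of_mul_eq_one_right h3]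
    exact y.2
  refine ⟨⟨h2, fun x y hxy => ?_⟩, h1⟩
  have hx : x ≠ 0 := left_ne_zero_of_mul (hxy ▸ hπ0)
  have hy : y ≠ 0 := right_ne_zero_of_mul (hxy ▸ hπ0)
  obtain ⟨n, hn⟩ := h1 hx
  obtain ⟨m, hm⟩ := h1 hy
  rcases n with _ | n
  · left; rw [pow_zero] at hn; exact associated_one_iff_isUnit.1 hn.symm
  rcases m with _ | m
  · right; rw [pow_zero] at hm; exact associated_one_iff_isUnit.1 hm.symm
  exfalso
  have h3 : π * π ∣ π * 1 := by
    rw [mul_one]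
    conv_rhs => rw [hxy]
    exact mul_dvd_mul ((dvd_pow_self π (Nat.succ_ne_zero n)).trans hn.dvd)
      ((dvd_pow_self π (Nat.succ_ne_zero m)).trans hm.dvd)
  exact h2 (isUnit_of_dvd_one ((mul_dvd_mul_iff_left hπ0).1 h3))

lemma Plane.isDVR (u : PU k) : IsDiscreteValuationRing (P.O u) := by
  obtain ⟨φ, e, _, he, hp, hφ, _⟩ := Plane.exists_gen u
  obtain ⟨i, hi⟩ := Plane.exists_X_notMem u
  obtain ⟨h1, h2⟩ := Plane.irreducible_unif P he hp hφ hi
  exact IsDiscreteValuationRing.ofHasUnitMulPowIrreducibleFactorization ⟨_, h1, h2⟩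

lemma Plane.isSL_O : IsSL P.O := by
  refine ⟨⟨fun u => ?_, fun u x => ?_, fun x => ?_⟩, fun u => ?_, fun u => ?_⟩
  · have := Plane.isDVR P u
    infer_instance
  · obtain ⟨j, a, b, ha, hb, hb0, h⟩ := P.gen x
    obtain ⟨i, hi⟩ := Plane.exists_X_notMem u
    refine ⟨_, Plane.div_pow_mem P hb hi,
      div_ne_zero (Plane.ev_ne P hb hb0) (pow_ne_zero _ (Plane.σ_ne P i)), ?_⟩
    convert Plane.div_pow_mem P ha hi using 1
    rw [← h]; ring
  · obtain ⟨j, a, b, ha, hb, hb0, h⟩ := P.gen x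
    refine (Plane.finite_mem hb0).subset fun u hu => ?_
    by_contra h'
    exact hu ⟨j, a, b, ha, hb, h', h⟩
  · have := Plane.isDVR P u
    infer_instance
  · have := Plane.isDVR P u
    exact (Set.finite_singleton (IsLocalRing.maximalIdeal _)).subset fun I hI =>
      IsLocalRing.eq_maximalIdeal hI

/-- a prime element of the local ring is associated to the uniformiser -/
lemma Plane.prime_div {O : Fam (PU k) F} (hO : O = P.O) {u : PU k} {φ : MvPolynomial (Fin 3) k}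
    {e : ℕ} (he : φ.IsHomogeneous e) (hp : Prime φ) (hφ : u.1 = Ideal.span {φ}) {i : Fin 3}
    (hi : X i ∉ u.1) (π : O u) (hπ : Prime π) :
    (π : F) / (aeval P.σ φ / P.σ i ^ e) ∈ O u ∧ (aeval P.σ φ / P.σ i ^ e) / (π : F) ∈ O u := by
  subst hO
  have := Plane.isDVR P u
  have h1 := (Plane.irreducible_unif P he hp hφ hi).1
  have h2 := IsDiscreteValuationRing.associated_of_irreducible _ h1 hπ.irreducible
  have h3 : aeval P.σ φ / P.σ i ^ e ≠ 0 := fun h => h1.ne_zero (Subtype.ext h)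
  have h4 : (π : F) ≠ 0 := fun h => hπ.ne_zero (Subtype.ext h)
  obtain ⟨a, ha⟩ := h2.dvd
  obtain ⟨b, hb⟩ := h2.symm.dvd
  have ha' : (π : F) = aeval P.σ φ / P.σ i ^ e * a := congrArg Subtype.val ha
  have hb' : aeval P.σ φ / P.σ i ^ e = π * b := congrArg Subtype.val hb
  constructor
  · rw [ha', mul_div_cancel_left₀ _ h3]; exact a.2
  · rw [hb', mul_div_cancel_left₀ _ h4]; exact b.2

/-- global sections of the powers of the hyperplane bundle -/
lemma Plane.sections {x : F} {p q : ℕ}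
    (hx : ∀ (u : PU k) (i : Fin 3), X i ∉ u.1 → x * P.σ i ^ q / P.σ i ^ p ∈ P.O u) (d : ℕ) :
    ∀ (a b : MvPolynomial (Fin 3) k) (c : ℕ), a.IsHomogeneous c → b.IsHomogeneous d → a ≠ 0 →
      b ≠ 0 → c + q = d + p → x * aeval P.σ b = aeval P.σ a →
      ∃ (φ : MvPolynomial (Fin 3) k) (n : ℕ), φ.IsHomogeneous n ∧ n + q = p ∧
        x = aeval P.σ φ := by
  induction d using Nat.strong_induction_on with
  | _ d ih =>
  intro a b c ha hb ha0 hb0 hc h
  rcases Nat.eq_zero_or_pos d with rfl | hd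
  · obtain ⟨b', hb'⟩ := (Plane.isUnit_of_isHomogeneous_zero hb hb0).exists_right_inv
    obtain ⟨d1, d2, h1, h2, h3⟩ := Plane.isHomogeneous_of_mul (a := b) (b := b') (n := 0)
      (by rw [hb']; exact isHomogeneous_one _ _) (by rw [hb']; exact one_ne_zero)
    obtain rfl : d2 = 0 := by omega
    refine ⟨a * b', c, ha.mul h2, by omega, ?_⟩
    rw [map_mul, ← h, mul_assoc, ← map_mul, hb', map_one, mul_one]
  · obtain ⟨u, hu⟩ := Plane.exists_mem hb hd
    obtain ⟨φ, e, he0, he, hp, hφ, _⟩ := Plane.exists_gen u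
    obtain ⟨i, hi⟩ := Plane.exists_X_notMem u
    obtain ⟨m, a1, b1, ha1, hb1, hb1u, h1⟩ := hx u i hi
    have h2 : a * (X i ^ q * b1) = b * (X i ^ p * a1) := by
      refine Plane.ev_inj P (ha.mul ((isHomogeneous_X_pow i q).mul hb1)) ?_ ?_
      · have := hb.mul ((isHomogeneous_X_pow i p).mul ha1)
        rwa [show d + (p + m) = c + (q + m) by omega] at this
      · simp only [map_mul, map_pow, aeval_X]
        rw [← h, ← h1]
        have := Plane.σ_ne P i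
        field_simp
    have h3 : a ∈ u.1 := (u.2.1.mem_or_mem (h2 ▸ Ideal.mul_mem_right _ _ hu)).resolve_right
      (Plane.mul_notMem (Plane.X_pow_notMem hi q) hb1u)
    rw [hφ, Ideal.mem_span_singleton] at hu h3
    obtain ⟨a', c', rfl, ha0', ha', hc'⟩ := Plane.exists_quot ha ha0 he h3
    obtain ⟨b', d', rfl, hb0', hb', hd'⟩ := Plane.exists_quot hb hb0 he hu
    refine ih d' (by omega) a' b' c' ha' hb' ha0' hb0' (by omega) ?_
    rw [map_mul, map_mul, mul_left_comm] at h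
    exact mul_left_cancel₀ (Plane.ev_ne P he hp.ne_zero) h

lemma Plane.sections' {x : F} (hx0 : x ≠ 0) {p q : ℕ}
    (hx : ∀ (u : PU k) (i : Fin 3), X i ∉ u.1 → x * P.σ i ^ q / P.σ i ^ p ∈ P.O u) :
    ∃ (φ : MvPolynomial (Fin 3) k) (n : ℕ), φ.IsHomogeneous n ∧ n + q = p ∧
      x = aeval P.σ φ := by
  obtain ⟨j, a, b, ha, hb, hb0, h⟩ := P.gen x
  have ha0 : a ≠ 0 := by
    rintro rfl
    rw [map_zero] at h
    exact mul_ne_zero hx0 (Plane.ev_ne P hb hb0) h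
  refine Plane.sections P hx (j + q) (a * X 0 ^ p) (b * X 0 ^ q) (j + p)
    (ha.mul (isHomogeneous_X_pow 0 p)) (hb.mul (isHomogeneous_X_pow 0 q))
    (mul_ne_zero ha0 (pow_ne_zero _ (X_ne_zero 0))) (mul_ne_zero hb0 (pow_ne_zero _ (X_ne_zero 0)))
    (by omega) ?_
  simp only [map_mul, map_pow, aeval_X, P.σ0, one_pow, mul_one, h]

end Vale.Agent.P190
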