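import Vale.Agent.P190.Ext
import Vale.Agent.P190.C1
import Vale.Agent.P190.PlaneB

/-! The projective plane and its finite covers in codimension one. -/

open Module MvPolynomial

set_option linter.unusedSectionVars false

noncomputable section

namespace Vale.Agent.P190

variable {k F : Type} [Field k] [Field F] [Algebra k F] (P : P2 k F)

theorem P2.isSL_O : IsSL P.O := by
  exact Plane.isSL_O P

theorem P2.isDVR (u : PU k) : IsDiscreteValuationRing (P.O u) := by
  exact Plane.isDVR P u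

theorem P2.hasK_O : HasK k P.O := by
  intro u c
  exact ⟨0, C c, 1, isHomogeneous_C _ _, isHomogeneous_one _ _,
    (Ideal.ne_top_iff_one _).1 u.2.1.ne_top, by simp⟩

theorem P2.OK_self : P.OK F = P.O := by
  exact P.isSL_O.isFam.ext_self

variable (K : Type) [Field K] [Algebra F K] [Algebra k K] [IsScalarTower k F K]

theorem P2.isSL_OK [CharZero k] [FiniteDimensional F K] : IsSL (P.OK K) := by
  have : CharZero F := charZero_of_injective_algebraMap (algebraMap k F).injective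
  exact P.isSL_O.ext

theorem P2.hasK_OK : HasK k (P.OK K) := by
  exact P.hasK_O.ext

theorem P2.over_OK (K' : Type) [Field K'] [Algebra F K'] [Algebra K K'] [IsScalarTower F K K'] :
    Over (P.OK K) (P.OK K') := by
  have h := over_ext (K := K') (P.OK K)
  rwa [P2.OK, ext_ext] at h

theorem P2.finOver_OK [CharZero k] [FiniteDimensional F K] (K' : Type) [Field K'] [Algebra F K']
    [Algebra K K'] [IsScalarTower F K K'] [FiniteDimensional K K'] :
    FinOver (P.OK K) (P.OK K') := by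
  have : CharZero K := charZero_of_injective_algebraMap (algebraMap k K).injective
  have h := (P.isSL_OK K).finOver_ext (K := K')
  have h1 : ext (P.OK K) K' = P.OK K' := ext_ext _ _
  rwa [h1] at h

theorem P2.ext_OK (K' : Type) [Field K'] [Algebra F K'] [Algebra K K'] [IsScalarTower F K K'] :
    ext (P.OK K) K' = P.OK K' := by
  exact ext_ext _ _

lemma P2.ev_eq_aeval (φ : MvPolynomial (Fin 3) k) : P.ev K φ = aeval (P.s K) φ := by
  have := comp_aeval_apply (IsScalarTower.toAlgHom k F K) (f := P.σ) φ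
  exact this

lemma P2.s_zero : P.s K 0 = 1 := by
  rw [P2.s, P.σ0, map_one]

lemma P2.ev_ne_zero {φ : MvPolynomial (Fin 3) k} {j : ℕ} (hφ : φ.IsHomogeneous j) (h0 : φ ≠ 0) :
    P.ev K φ ≠ 0 := by
  exact (map_ne_zero _).2 (Plane.ev_ne P hφ h0)

lemma P2.s_ne_zero (i : Fin 3) : P.s K i ≠ 0 := by
  exact (map_ne_zero _).2 (Plane.σ_ne P i)

lemma PU.exists_X_notMem (u : PU k) : ∃ i : Fin 3, X i ∉ u.1 := by
  exact Plane.exists_X_notMem u

/-- two of the three variables lie outside any prime divisor -/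
lemma PU.X_mem_unique (u : PU k) {i j : Fin 3} (hi : X i ∈ u.1) (hj : X j ∈ u.1) : i = j := by
  exact Plane.X_mem_unique u hi hj

/-- every non-constant form has a prime divisor -/
lemma PU.exists_mem {φ : MvPolynomial (Fin 3) k} {j : ℕ} (hφ : φ.IsHomogeneous j) (hj : 0 < j) :
    ∃ u : PU k, φ ∈ u.1 := by
  exact Plane.exists_mem hφ hj

lemma PU.finite_mem {φ : MvPolynomial (Fin 3) k} (h0 : φ ≠ 0) : {u : PU k | φ ∈ u.1}.Finite := by
  exact Plane.finite_mem h0

/-- distinct prime divisors: the generator of one is not in the other -/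
lemma PU.exists_gen (u : PU k) : ∃ (φ : MvPolynomial (Fin 3) k) (e : ℕ), 0 < e ∧
    φ.IsHomogeneous e ∧ Prime φ ∧ u.1 = Ideal.span {φ} ∧ ∀ u' : PU k, φ ∈ u'.1 → u' = u := by
  exact Plane.exists_gen u

variable [CharZero k] [FiniteDimensional F K]

lemma Plane.range_s : ∃ x ∈ Set.range (P.s K), x ≠ 0 := ⟨_, ⟨0, rfl⟩, P.s_ne_zero K 0⟩

lemma Plane.map_mem {u : PU k} {x : F} (hx : x ∈ P.O u) : algebraMap F K x ∈ P.OK K u :=
  over_ext P.O u x hx

lemma Plane.pol_div {u : PU k} {i : Fin 3} (hi : X i ∉ u.1) :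
    dv (P.pol K) u / P.s K i ∈ P.OK K u ∧ P.s K i / dv (P.pol K) u ∈ P.OK K u := by
  have hO := (P.isSL_OK K).isFam
  constructor
  · refine Lat2.dv_div_mem hO (Set.finite_range _) (Plane.range_s P K) le_rfl ?_
    rintro _ ⟨l, rfl⟩
    have := Plane.map_mem P K (Plane.div_mem P (isHomogeneous_X k l) (isHomogeneous_X k i) hi)
    rwa [aeval_X, aeval_X, map_div₀] at this
  · rw [div_eq_inv_mul]
    exact mem_line_ofSet hO (Set.finite_range _) ⟨i, rfl⟩ (Plane.range_s P K) u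

theorem P2.pol_map (K' : Type) [Field K'] [Algebra F K'] [Algebra K K'] [IsScalarTower F K K']
    [FiniteDimensional F K'] :
    SameDiv (Div.map (P.over_OK K K') (P.pol K)) (P.pol K') := by
  have h := map_ofSet (P.over_OK K K') (P.isSL_OK K).isFam
    (by
      have : CharZero F := charZero_of_injective_algebraMap (algebraMap k F).injective
      exact (P.isSL_O.ext (K := K')).isFam) (Set.finite_range (P.s K)) (Plane.range_s P K)
  have h1 : algebraMap K K' '' Set.range (P.s K) = Set.range (P.s K') := by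
    rw [← Set.range_comp]
    congr 1
    funext i
    exact (IsScalarTower.algebraMap_apply F K K' _).symm
  rwa [h1] at h

lemma P2.ev_mem {φ : MvPolynomial (Fin 3) k} {e : ℕ} (hφ : φ.IsHomogeneous e) (u : PU k) :
    P.ev K φ ∈ line (P.pol K ^ e) u := by
  obtain ⟨i, hi⟩ := u.exists_X_notMem
  have h1 := (P.OK K u).mul_mem ((P.OK K u).pow_mem (Plane.pol_div P K hi).2 e)
    (Plane.map_mem P K (Plane.div_pow_mem P hφ hi))
  rw [mem_line, dv_pow]
  convert h1 using 1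
  have := P.s_ne_zero K i
  have := dv_ne_zero (P.pol K) u
  rw [map_div₀, map_pow, div_pow]
  change _ = _ * (P.ev K φ / P.s K i ^ e)
  field_simp

lemma P2.ev_unit {φ : MvPolynomial (Fin 3) k} {e : ℕ} (hφ : φ.IsHomogeneous e) {u : PU k}
    (hu : φ ∉ u.1) : dv (P.pol K) u ^ e / P.ev K φ ∈ P.OK K u := by
  obtain ⟨i, hi⟩ := u.exists_X_notMem
  have h1 := (P.OK K u).mul_mem ((P.OK K u).pow_mem (Plane.pol_div P K hi).1 e)
    (Plane.map_mem P K (Plane.pow_div_mem P hφ hu i))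
  convert h1 using 1
  have := P.s_ne_zero K i
  rw [map_div₀, map_pow, div_pow]
  change _ = _ * (P.s K i ^ e / P.ev K φ)
  field_simp

/-- a form in the prime `u` is not a local generator -/
lemma P2.notMem_of_unit {φ : MvPolynomial (Fin 3) k} {e : ℕ} (hφ : φ.IsHomogeneous e)
    (h0 : φ ≠ 0) {u : PU k} (hu : dv (P.pol K) u ^ e / P.ev K φ ∈ P.OK K u) : φ ∉ u.1 := by
  obtain ⟨i, hi⟩ := u.exists_X_notMem
  have h1 := (P.OK K u).mul_mem ((P.OK K u).pow_mem (Plane.pol_div P K hi).2 e) hu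
  refine Plane.notMem_of_pow_div_mem P hφ h0 hi
    (P.isSL_O.isFam.mem_of_algebraMap_mem_ext (K := K) u ?_)
  change _ ∈ P.OK K u
  convert h1 using 1
  have := dv_ne_zero (P.pol K) u
  rw [map_div₀, map_pow, div_pow]
  change P.s K i ^ e / P.ev K φ = _
  field_simp

lemma Plane.div_zpow_mem {x : F} {j : ℤ} {u : PU k} (hx : x ∈ line (P.pol F ^ j) u) {i : Fin 3}
    (hi : X i ∉ u.1) : x * P.σ i ^ (-j).toNat / P.σ i ^ j.toNat ∈ P.O u := by
  rw [← P.OK_self]
  rw [mem_line, dv_zpow] at hx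
  obtain ⟨h1, h2⟩ := Plane.pol_div P F hi
  have h3 : P.s F i = P.σ i := rfl
  rw [h3] at h1 h2
  have h4 := Plane.σ_ne P i
  have h5 := dv_ne_zero (P.pol F) u
  obtain ⟨n, rfl | rfl⟩ := Int.eq_nat_or_neg j
  · convert (P.OK F u).mul_mem ((P.OK F u).pow_mem h1 n) hx using 1
    rw [Int.toNat_natCast, Int.toNat_neg_natCast, zpow_natCast, div_pow]
    field_simp
  · convert (P.OK F u).mul_mem ((P.OK F u).pow_mem h2 n) hx using 1
    rw [neg_neg, Int.toNat_natCast, Int.toNat_neg_natCast, zpow_neg, zpow_natCast, div_pow]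
    field_simp

theorem P2.H0_pol (j : ℕ) (x : F) : (∀ u, x ∈ line (P.pol F ^ (j : ℤ)) u) ↔
    ∃ φ : MvPolynomial (Fin 3) k, φ.IsHomogeneous j ∧ x = P.ev F φ := by
  constructor
  · intro hx
    by_cases hx0 : x = 0
    · exact ⟨0, isHomogeneous_zero _ _ _, by simp [hx0, P2.ev]⟩
    obtain ⟨φ, n, h1, h2, h3⟩ := Plane.sections' P hx0
      (fun u i hi => Plane.div_zpow_mem P (hx u) hi)
    obtain rfl : n = j := by omega
    exact ⟨φ, h1, h3⟩
  · rintro ⟨φ, hφ, rfl⟩ u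
    rw [zpow_natCast]
    exact P.ev_mem F hφ u

theorem P2.H0_pol_neg {j : ℤ} (hj : j < 0) {x : F} (hx : ∀ u, x ∈ line (P.pol F ^ j) u) :
    x = 0 := by
  by_contra hx0
  obtain ⟨φ, n, h1, h2, h3⟩ := Plane.sections' P hx0
    (fun u i hi => Plane.div_zpow_mem P (hx u) hi)
  omega

theorem finrank_homogeneous (j : ℕ) :
    finrank k (homogeneousSubmodule (Fin 3) k j) = (j + 2).choose 2 := by
  exact Plane.finrank_homogeneous j

theorem P2.h0_pol (j : ℕ) : h0 k (line (P.pol F ^ (j : ℤ))) = (j + 2).choose 2 := by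
  have h1 : H0 k (line (P.pol F ^ (j : ℤ))) = LinearMap.range
      ((aeval P.σ : MvPolynomial (Fin 3) k →ₐ[k] F).toLinearMap ∘ₗ
        (homogeneousSubmodule (Fin 3) k j).subtype) := by
    ext x
    rw [(isBun_line _).mem_H0 (P.hasK_OK F), P.H0_pol]
    constructor
    · rintro ⟨φ, hφ, rfl⟩
      exact ⟨⟨φ, hφ⟩, rfl⟩
    · rintro ⟨⟨φ, hφ⟩, rfl⟩
      exact ⟨φ, hφ, rfl⟩
  rw [h0, h1, LinearMap.finrank_range_of_inj, finrank_homogeneous]
  rintro ⟨a, ha⟩ ⟨b, hb⟩ h
  exact Subtype.ext (Plane.ev_inj P ha hb h)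

theorem P2.pic_cyclic (c : Div (P.OK F)) : ∃ e : ℤ, cl c = e • cl (P.pol F) := by
  have hO := P.isSL_OK F
  refine hO.div_induction (p := fun c => ∃ e : ℤ, cl c = e • cl (P.pol F)) ?_ ?_ ?_ ?_ c
  · intro c hc
    exact ⟨0, by rw [hc.cl_eq, cl_one, zero_smul]⟩
  · intro c u π hπ hc hc'
    obtain ⟨φ, e, _, he, hp, hφ, huniq⟩ := u.exists_gen
    have h0 := P.ev_ne_zero F he hp.ne_zero
    refine ⟨-e, ?_⟩
    rw [← cl_zpow, cl_eq_iff hO.isFam]
    refine ⟨_, h0, (sameDiv_iff _ _).2 fun u' => ?_⟩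
    obtain ⟨h1, h2⟩ := ofSet_singleton hO.isFam h0 u'
    have h3 := dv_ne_zero (ofSet (P.OK F) {P.ev F φ}) u'
    have h4 := dv_ne_zero (P.pol F) u'
    have h5 := dv_ne_zero c u'
    suffices h : dv c u' / (P.ev F φ / dv (P.pol F) u' ^ e) ∈ P.OK F u' ∧
        (P.ev F φ / dv (P.pol F) u' ^ e) / dv c u' ∈ P.OK F u' by
      rw [dv_mul, dv_zpow, zpow_neg, zpow_natCast]
      constructor
      · convert (P.OK F u').mul_mem h.1 h2 using 1
        field_simp
      · convert (P.OK F u').mul_mem h.2 h1 using 1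
        field_simp
    by_cases hu : u' = u
    · subst hu
      obtain ⟨i, hi⟩ := u'.exists_X_notMem
      obtain ⟨h6, h7⟩ := Plane.prime_div P P.OK_self he hp hφ hi π hπ
      obtain ⟨h8, h9⟩ := Plane.pol_div P F hi
      have h10 : P.s F i = P.σ i := rfl
      have h11 : aeval P.σ φ = P.ev F φ := rfl
      rw [h10] at h8 h9
      rw [h11, ← hc] at h6 h7
      have h12 := Plane.σ_ne P i
      constructor
      · convert (P.OK F u').mul_mem h6 ((P.OK F u').pow_mem h8 e) using 1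
        rw [div_pow]
        field_simp
      · convert (P.OK F u').mul_mem h7 ((P.OK F u').pow_mem h9 e) using 1
        rw [div_pow]
        field_simp
    · rw [hc' u' hu, one_div, inv_div, div_one]
      refine ⟨P.ev_unit F he fun h => hu (huniq u' h), ?_⟩
      have := P.ev_mem F he u'
      rwa [mem_line, dv_pow, ← div_eq_inv_mul] at this
  · rintro a b ⟨e, he⟩ ⟨e', he'⟩
    exact ⟨e + e', by rw [cl_mul, he, he', add_smul]⟩
  · rintro a ⟨e, he⟩
    exact ⟨-e, by rw [cl_inv, he, neg_smul]⟩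

variable {K}
variable {V : Type} [AddCommGroup V] [Module K V]

lemma Plane.ev_div_mem {φ : MvPolynomial (Fin 3) k} {e : ℕ} (hφ : φ.IsHomogeneous e)
    (u : PU k) : P.ev K φ / dv (P.pol K) u ^ e ∈ P.OK K u := by
  have := P.ev_mem K hφ u
  rwa [mem_line, dv_pow, ← div_eq_inv_mul] at this

/-- a power of the uniformiser clears the denominator -/
lemma Plane.exists_pow_mul_mem {u : PU k} {φ : MvPolynomial (Fin 3) k} {e : ℕ}
    (he : φ.IsHomogeneous e) (hp : Prime φ) (hφ : u.1 = Ideal.span {φ}) (c : K) :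
    ∃ n : ℕ, (P.ev K φ / dv (P.pol K) u ^ e) ^ n * c ∈ P.OK K u := by
  have : IsFractionRing (P.O u) F := by
    refine IsFractionRing.of_field _ _ fun z => ?_
    obtain ⟨b, hb, hb0, hbz⟩ := P.isSL_O.isFam.frac u z
    refine ⟨⟨_, hbz⟩, ⟨_, hb⟩, ?_⟩
    change z = b * z / b
    field_simp
  have h1 : IsAlgebraic (P.O u) c :=
    (IsFractionRing.isAlgebraic_iff (P.O u) F K).2 (Algebra.IsAlgebraic.isAlgebraic c)
  obtain ⟨y, hy0, hy⟩ := h1.exists_integral_multiple
  obtain ⟨i, hi⟩ := u.exists_X_notMem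
  have hy0' : (y : F) ≠ 0 := fun h => hy0 (Subtype.ext h)
  obtain ⟨n, _, h2⟩ := Plane.exists_pow P he hp hφ hi y.2 hy0'
  refine ⟨n, ?_⟩
  have h3 : algebraMap F K y * c ∈ P.OK K u := by
    have h4 : y • c = algebraMap F K y * c := by
      rw [Algebra.smul_def]; rfl
    rw [h4] at hy
    exact hy
  have h5 := (P.OK K u).mul_mem ((P.OK K u).mul_mem (Plane.map_mem P K h2) h3)
    ((P.OK K u).pow_mem ((P.OK K u).pow_mem (Plane.pol_div P K hi).2 e) n)
  convert h5 using 1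
  have h6 : algebraMap F K y ≠ 0 := (map_ne_zero _).2 hy0'
  have h7 := P.s_ne_zero K i
  have h8 := dv_ne_zero (P.pol K) u
  rw [map_div₀, map_pow, map_div₀, map_pow]
  change _ = (P.ev K φ / P.s K i ^ e) ^ n / _ * _ * _
  simp only [div_pow]
  field_simp

lemma Plane.exists_pow_smul_mem {u : PU k} {φ : MvPolynomial (Fin 3) k} {e : ℕ}
    (he : φ.IsHomogeneous e) (hp : Prime φ) (hφ : u.1 = Ideal.span {φ}) {N N' : AddSubgroup V}
    (hN : IsLat (P.OK K u) N) (hN' : IsLat (P.OK K u) N') :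
    ∃ n : ℕ, ∀ x ∈ N, (P.ev K (φ ^ n) / dv (P.pol K) u ^ (e * n)) • x ∈ N' := by
  obtain ⟨m, b, rfl⟩ := hN
  obtain ⟨m', b', rfl⟩ := hN'
  choose n hn using fun ij : Fin m × Fin m' =>
    Plane.exists_pow_mul_mem P he hp hφ (b'.repr (b ij.1) ij.2)
  obtain ⟨n₀, hn₀⟩ := (Set.finite_range n).bddAbove
  refine ⟨n₀, ?_⟩
  have h0 : P.ev K (φ ^ n₀) / dv (P.pol K) u ^ (e * n₀)
      = (P.ev K φ / dv (P.pol K) u ^ e) ^ n₀ := by
    rw [P2.ev, P2.ev, map_pow, map_pow, div_pow, pow_mul]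
  rw [h0]
  set t := P.ev K φ / dv (P.pol K) u ^ e with ht
  refine Lat1.latt_le (R := P.OK K u) b
    (N := (latt (P.OK K u) b').comap (DistribSMul.toAddMonoidHom V (t ^ n₀))) (fun i j => ?_) ?_
  · change b'.repr (t ^ n₀ • b i) j ∈ P.OK K u
    obtain ⟨d, hd⟩ := Nat.exists_eq_add_of_le' (hn₀ ⟨(i, j), rfl⟩)
    rw [map_smul, Finsupp.smul_apply, smul_eq_mul, hd, pow_add, mul_assoc]
    exact (P.OK K u).mul_mem ((P.OK K u).pow_mem (Plane.ev_div_mem P he u) d) (hn (i, j))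
  · intro c hc x hx
    change t ^ n₀ • c • x ∈ latt (P.OK K u) b'
    rw [smul_comm]
    exact Lat1.latt_smul_mem b' hc hx

lemma Plane.glue (I : Ideal (MvPolynomial (Fin 3) k)) (hI : I.IsPrime) (Q : PU k → K → Prop)
    (hQ : ∀ u t r, r ∈ P.OK K u → Q u t → Q u (r * t)) (hT : {u | ¬ Q u 1}.Finite)
    (h : ∀ u, ¬ Q u 1 → ∃ (i : ℕ) (ψ : MvPolynomial (Fin 3) k), ψ.IsHomogeneous i ∧ ψ ∉ I ∧
      Q u (P.ev K ψ / dv (P.pol K) u ^ i)) :
    ∃ (i : ℕ) (ψ : MvPolynomial (Fin 3) k), ψ.IsHomogeneous i ∧ ψ ∉ I ∧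
      ∀ u, Q u (P.ev K ψ / dv (P.pol K) u ^ i) := by
  suffices H : ∀ T : Set (PU k), T.Finite → ∃ (i : ℕ) (ψ : MvPolynomial (Fin 3) k),
      ψ.IsHomogeneous i ∧ ψ ∉ I ∧ ∀ u ∈ T, Q u (P.ev K ψ / dv (P.pol K) u ^ i) by
    obtain ⟨i, ψ, h1, h2, h3⟩ := H _ hT
    refine ⟨i, ψ, h1, h2, fun u => ?_⟩
    by_cases hu : Q u 1
    · simpa using hQ u 1 _ (Plane.ev_div_mem P h1 u) hu
    · exact h3 u hu
  intro T hT'
  induction T, hT' using Set.Finite.induction_on with
  | empty => exact ⟨0, 1, isHomogeneous_one _ _, (Ideal.ne_top_iff_one _).1 hI.ne_top, by simp⟩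
  | @insert u T _ _ ih =>
    obtain ⟨i, ψ, h1, h2, h3⟩ := ih
    by_cases hu : Q u 1
    · refine ⟨i, ψ, h1, h2, fun u' hu' => ?_⟩
      rcases hu' with rfl | hu'
      · simpa using hQ u' 1 _ (Plane.ev_div_mem P h1 u') hu
      · exact h3 u' hu'
    · obtain ⟨i', ψ', h1', h2', h3'⟩ := h u hu
      have h4 : ∀ u', P.ev K (ψ * ψ') / dv (P.pol K) u' ^ (i + i') =
          P.ev K ψ / dv (P.pol K) u' ^ i * (P.ev K ψ' / dv (P.pol K) u' ^ i') := by
        intro u'
        rw [P2.ev, P2.ev, P2.ev, map_mul, map_mul, pow_add, mul_div_mul_comm]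
      refine ⟨i + i', ψ * ψ', h1.mul h1', fun hm => (hI.mem_or_mem hm).elim h2 h2',
        fun u' hu' => ?_⟩
      rw [h4]
      rcases hu' with rfl | hu'
      · exact hQ _ _ _ (Plane.ev_div_mem P h1 u') h3'
      · rw [mul_comm]
        exact hQ _ _ _ (Plane.ev_div_mem P h1' u') (h3 u' hu')

lemma Plane.mem_twist_iff {L : Sys (PU k) V} {ψ : MvPolynomial (Fin 3) k} {i : ℕ} {u : PU k}
    {x : V} : P.ev K ψ • x ∈ twist (P.pol K ^ (i : ℤ)) L u ↔
      (P.ev K ψ / dv (P.pol K) u ^ i) • x ∈ L u := by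
  rw [mem_twist, dv_zpow, zpow_natCast, smul_smul, div_eq_inv_mul]

/-- clearing denominators away from `u` -/
theorem P2.exists_clear {L : Sys (PU k) V} (hL : IsBun (P.OK K) L) {u : PU k} {x : V}
    (hx : x ∈ L u) : ∃ (i : ℕ) (ψ : MvPolynomial (Fin 3) k), ψ.IsHomogeneous i ∧ ψ ∉ u.1 ∧
      ∀ u', P.ev K ψ • x ∈ twist (P.pol K ^ (i : ℤ)) L u' := by
  have hO := (P.isSL_OK K).isFam
  obtain ⟨i, ψ, h1, h2, h3⟩ := Plane.glue P (K := K) u.1 u.2.1 (fun u' t => t • x ∈ L u')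
    (fun u' t r hr ht => by rw [mul_smul]; exact hL.smul_mem hr ht)
    (by simpa using hL.finite_notMem hO x) (fun u' hu' => by
      rw [one_smul] at hu'
      obtain ⟨φ, e, _, he, hp, hφ, huniq⟩ := u'.exists_gen
      obtain ⟨m, b, _⟩ := hL.lat u'
      have := hO.bezout u'
      obtain ⟨n, hn⟩ := Plane.exists_pow_smul_mem P he hp hφ
        (isLat_spanO (S := insert x (Set.range b)) (hO.frac u') ((Set.finite_range _).insert x)
          (eq_top_iff.2 (b.span_eq.ge.trans (Submodule.span_mono (Set.subset_insert _ _)))))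
        (hL.lat u')
      refine ⟨e * n, φ ^ n, he.pow n, fun h => hu' ?_, hn x (subset_spanO (Set.mem_insert _ _))⟩
      rw [← huniq u (u.2.1.mem_of_pow_mem n h)]
      exact hx)
  exact ⟨i, ψ, h1, h2, fun u' => (Plane.mem_twist_iff P).2 (h3 u')⟩

/-- a common denominator for two bundles on the same space -/
theorem P2.exists_le_twist {L L' : Sys (PU k) V} (hL : IsBun (P.OK K) L)
    (hL' : IsBun (P.OK K) L') : ∃ (i : ℕ) (ψ : MvPolynomial (Fin 3) k), ψ.IsHomogeneous i ∧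
      ψ ≠ 0 ∧ ∀ u, ∀ x ∈ L u, P.ev K ψ • x ∈ twist (P.pol K ^ (i : ℤ)) L' u := by
  have hO := (P.isSL_OK K).isFam
  obtain ⟨n, b, hb⟩ := hL.std
  obtain ⟨i, ψ, h1, h2, h3⟩ := Plane.glue P (K := K) ⊥ Ideal.isPrime_bot
    (fun u t => ∀ x ∈ L u, t • x ∈ L' u)
    (fun u t r hr ht x hx => by rw [mul_smul]; exact hL'.smul_mem hr (ht x hx))
    ((hb.union (hL'.std' hO b)).subset fun u hu => by
      by_contra h
      simp only [Set.mem_union, Set.mem_ofPred_eq, not_or, not_not] at h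
      refine hu fun x hx => ?_
      rw [one_smul, h.2, ← h.1]
      exact hx)
    (fun u _ => by
      obtain ⟨φ, e, _, he, hp, hφ, _⟩ := u.exists_gen
      obtain ⟨n, hn⟩ := Plane.exists_pow_smul_mem P he hp hφ (hL.lat u) (hL'.lat u)
      exact ⟨e * n, φ ^ n, he.pow n, pow_ne_zero n hp.ne_zero, hn⟩)
  exact ⟨i, ψ, h1, h2, fun u x hx => (Plane.mem_twist_iff P).2 (h3 u x hx)⟩

end Vale.Agent.P190
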