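import Vale.Agent.P190.Chi
import Vale.Agent.P190.Chart

/-! The defect of an exact triple is multiplied by the rank under tensor product. -/

open Module MvPolynomial
open scoped TensorProduct

noncomputable section

namespace Vale.Agent.P190

theorem TM.len_le {R M Z Z' : Type} [Ring R] [AddCommGroup M] [Module R M] [AddCommGroup Z]
    [Module R Z] [AddCommGroup Z'] [Module R Z'] (q : M →ₗ[R] Z) (hq : Function.Surjective q)
    (q' : M →ₗ[R] Z') (h : ∀ x, q' x = 0 → q x = 0) : Module.length R Z ≤ Module.length R Z' := by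
  have h1 := Module.length_le_of_surjective ((LinearMap.ker q').liftQ q h) (fun z => by
    obtain ⟨x, rfl⟩ := hq z
    exact ⟨Submodule.Quotient.mk x, rfl⟩)
  rw [q'.quotKerEquivRange.length_eq] at h1
  exact h1.trans (Module.length_le_of_injective _ (LinearMap.range q').injective_subtype)

theorem TM.mul_rdim_le {k M M' : Type} [Field k] [AddCommGroup M] [Module k M] [AddCommGroup M']
    [Module k M'] {S T : Submodule k M} {S' T' : Submodule k M'} {r : ℕ}
    (f : Fin r → M →ₗ[k] M') (hf : ∀ i, ∀ x ∈ S, f i x ∈ S')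
    (h : ∀ x : Fin r → M, (∀ i, x i ∈ S) → ∑ i, f i (x i) ∈ T' → ∀ i, x i ∈ T) :
    r * rdim S T ≤ rdim S' T' := by
  have := TM.len_le (M := Fin r → S)
    (LinearMap.pi fun i : Fin r => (T.comap S.subtype).mkQ ∘ₗ LinearMap.proj i)
    (fun z => by
      choose x hx using fun i => (T.comap S.subtype).mkQ_surjective (z i)
      exact ⟨x, funext hx⟩)
    ((T'.comap S'.subtype).mkQ ∘ₗ ∑ i : Fin r, (f i).restrict (hf i) ∘ₗ LinearMap.proj i)
    (fun x hx => by
      rw [LinearMap.comp_apply, Submodule.mkQ_apply, Submodule.Quotient.mk_eq_zero,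
        Submodule.mem_comap] at hx
      funext i
      exact (Submodule.Quotient.mk_eq_zero _).2
        (h (fun i => x i) (fun i => (x i).2) (by simpa using hx) i))
  simpa [rdim] using this

theorem TM.rdim_le_mul {k M M' : Type} [Field k] [AddCommGroup M] [Module k M] [AddCommGroup M']
    [Module k M'] {S T : Submodule k M} {S' T' : Submodule k M'} {r : ℕ}
    (g : Fin r → M' →ₗ[k] M) (hg : ∀ i, ∀ y ∈ S', g i y ∈ S)
    (h : ∀ y ∈ S', (∀ i, g i y ∈ T) → y ∈ T') : rdim S' T' ≤ r * rdim S T := by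
  have := TM.len_le (T'.comap S'.subtype).mkQ (Submodule.mkQ_surjective _)
    (LinearMap.pi fun i : Fin r => (T.comap S.subtype).mkQ ∘ₗ (g i).restrict (hg i))
    (fun y hy => (Submodule.Quotient.mk_eq_zero _).2 (h y y.2 fun i =>
      (Submodule.Quotient.mk_eq_zero (T.comap S.subtype)).1 (congrFun hy i)))
  simpa [rdim] using this

theorem TM.exists_max {A M : Type} [CommRing A] [IsNoetherianRing A] [AddCommGroup M]
    [Module A M] (N N' : Submodule A M) (hN : N.FG) :
    ∃ 𝒩 : Set (Ideal A), 𝒩.Finite ∧ (∀ 𝔫 ∈ 𝒩, 𝔫.IsMaximal) ∧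
      ∀ s : A, (∀ 𝔫 ∈ 𝒩, s ∉ 𝔫) → ∀ x ∈ N, s • x ∈ N' → x ∈ N' := by
  have : Module.Finite A N := Module.Finite.iff_fg.2 hN
  have hfin := associatedPrimes.finite A (N ⧸ N'.comap N.subtype)
  have hex : ∀ Q : associatedPrimes A (N ⧸ N'.comap N.subtype), ∃ 𝔫 : Ideal A,
      𝔫.IsMaximal ∧ Q.1 ≤ 𝔫 := fun Q => Ideal.exists_le_maximal _ Q.2.isPrime.ne_top
  choose m hm hle using hex
  have := hfin.to_subtype
  refine ⟨Set.range m, Set.finite_range m, by rintro _ ⟨Q, rfl⟩; exact hm Q,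
    fun s hs x hx hsx => ?_⟩
  by_contra hx'
  have h1 : s ∈ {r : A | ∃ z : N ⧸ N'.comap N.subtype, z ≠ 0 ∧ r • z = 0} :=
    ⟨Submodule.Quotient.mk ⟨x, hx⟩,
      fun h => hx' ((Submodule.Quotient.mk_eq_zero (N'.comap N.subtype)).1 h),
      (Submodule.Quotient.mk_eq_zero (N'.comap N.subtype)).2 hsx⟩
  rw [← biUnion_associatedPrimes_eq_zero_divisors] at h1
  obtain ⟨Q, hQ, hsQ⟩ := Set.mem_iUnion₂.1 h1
  exact hs _ ⟨⟨Q, hQ⟩, rfl⟩ (hle ⟨Q, hQ⟩ hsQ)

/-- coordinates of a tensor along a linear form on the first factor -/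
def TM.crd {K W : Type} [Field K] [AddCommGroup W] [Module K W] (V : Type) [AddCommGroup V]
    [Module K V] (φ : W →ₗ[K] K) : W ⊗[K] V →ₗ[K] V :=
  (TensorProduct.lid K V).toLinearMap ∘ₗ φ.rTensor V

section Crd
variable {K W V V'' : Type} [Field K] [AddCommGroup W] [Module K W] [AddCommGroup V] [Module K V]
  [AddCommGroup V''] [Module K V'']

theorem TM.crd_tmul (φ : W →ₗ[K] K) (w : W) (x : V) : TM.crd V φ (w ⊗ₜ x) = φ w • x := by
  simp [TM.crd]

theorem TM.crd_lTensor (φ : W →ₗ[K] K) (p : V →ₗ[K] V'') (y : W ⊗[K] V) :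
    TM.crd V'' φ (p.lTensor W y) = p (TM.crd V φ y) := by
  induction y with
  | zero => simp
  | tmul w x => simp [TM.crd_tmul]
  | add a b ha hb => simp [ha, hb]

theorem TM.sum_crd {r : ℕ} (b : Basis (Fin r) K W) (y : W ⊗[K] V) :
    ∑ i, b i ⊗ₜ[K] TM.crd V (b.coord i) y = y := by
  induction y with
  | zero => simp
  | tmul w x =>
    simp only [TM.crd_tmul, ← TensorProduct.smul_tmul, ← TensorProduct.sum_tmul,
      Basis.coord_apply, b.sum_repr]
  | add a c ha hc => simp only [map_add, TensorProduct.tmul_add, Finset.sum_add_distrib, ha, hc]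

theorem TM.crd_sum {r : ℕ} (b : Basis (Fin r) K W) (x : Fin r → V) (j : Fin r) :
    TM.crd V (b.coord j) (∑ i, b i ⊗ₜ[K] x i) = x j := by
  simp [TM.crd_tmul, Finsupp.single_apply]

theorem TM.crd_mem {U : Type} {O : Fam U K} {B : Sys U W} {L : Sys U V} (hL : IsBun O L) {u : U}
    {φ : W →ₗ[K] K} (hφ : ∀ w ∈ B u, φ w ∈ O u) {y : W ⊗[K] V} (hy : y ∈ tens K B L u) :
    TM.crd V φ y ∈ L u := by
  induction hy using AddSubgroup.closure_induction with
  | mem z hz =>
    obtain ⟨w, hw, x, hx, rfl⟩ := hz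
    rw [TM.crd_tmul]
    exact hL.smul_mem (hφ w hw) hx
  | zero => simp
  | add a b _ _ ha hb =>
    rw [map_add]
    exact AddSubgroup.add_mem _ ha hb
  | neg a _ ha =>
    rw [map_neg]
    exact AddSubgroup.neg_mem _ ha

theorem TM.crd_smul (c : K) (φ : W →ₗ[K] K) (y : W ⊗[K] V) :
    TM.crd V (c • φ) y = c • TM.crd V φ y := by
  simp [TM.crd]

end Crd

variable {k K : Type} [Field k] [Field K] [Algebra k K]
variable {V V' V'' W : Type} [AddCommGroup V] [Module K V] [Module k V] [IsScalarTower k K V]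
  [AddCommGroup V'] [Module K V'] [Module k V'] [IsScalarTower k K V']
  [AddCommGroup V''] [Module K V''] [Module k V''] [IsScalarTower k K V'']
  [AddCommGroup W] [Module K W] [Module k W] [IsScalarTower k K W]
variable {F : Type} [Field F] [Algebra k F] [Algebra F K] [IsScalarTower k F K] (P : P2 k F)
  [IsAlgClosed k] [CharZero k] [FiniteDimensional F K]

omit [IsAlgClosed k] in
theorem TM.mem_span_image {L : Sys (PU k) V} (hL : IsBun (P.OK K) L) (h : MvPolynomial (Fin 3) k)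
    (p : V →ₗ[K] V'') (x : V'') :
    x ∈ Submodule.span k (p '' (secChart h L : Set V)) ↔ ∃ y ∈ secChart h L, p y = x := by
  refine ⟨fun hx => ?_, fun hx => Submodule.subset_span hx⟩
  induction hx using Submodule.span_induction with
  | mem y hy => exact hy
  | zero => exact ⟨0, zero_mem _, map_zero p⟩
  | add x y _ _ hx hy =>
    obtain ⟨a, ha, rfl⟩ := hx
    obtain ⟨b, hb, rfl⟩ := hy
    exact ⟨a + b, add_mem ha hb, map_add p a b⟩
  | smul c x _ hx =>
    obtain ⟨a, ha, rfl⟩ := hx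
    refine ⟨algebraMap k K c • a, AddSubgroup.mem_iInf.2 fun u =>
      hL.smul_mem (P.hasK_OK K u.1 c) (AddSubgroup.mem_iInf.1 ha u), ?_⟩
    rw [map_smul, algebraMap_smul]

omit [IsAlgClosed k] in
theorem TM.mem_span {L : Sys (PU k) V} (hL : IsBun (P.OK K) L) (h : MvPolynomial (Fin 3) k)
    (x : V) : x ∈ Submodule.span k (secChart h L : Set V) ↔ x ∈ secChart h L := by
  simpa using TM.mem_span_image P hL h LinearMap.id x

/-- the sections on a chart as a module over the ring of the chart -/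
def TM.sec {L : Sys (PU k) V} (hL : IsBun (P.OK K) L) (h : MvPolynomial (Fin 3) k) :
    Submodule (P.chart K h) V where
  carrier := secChart h L
  add_mem' := add_mem
  zero_mem' := zero_mem _
  smul_mem' c _ hx := AddSubgroup.mem_iInf.2 fun u =>
    hL.smul_mem (Subring.mem_iInf.1 c.2 u) (AddSubgroup.mem_iInf.1 hx u)

theorem TM.exists_reg {h : MvPolynomial (Fin 3) k} (hh : h.IsHomogeneous 1) (h0 : h ≠ 0)
    {L : Sys (PU k) V} {L'' : Sys (PU k) V''} (hL : IsBun (P.OK K) L)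
    (hL'' : IsBun (P.OK K) L'') (p : V →ₗ[K] V'') :
    ∃ 𝒩 : Set (Ideal (P.chart K h)), 𝒩.Finite ∧ (∀ 𝔫 ∈ 𝒩, 𝔫.IsMaximal) ∧
      ∀ s : P.chart K h, (∀ 𝔫 ∈ 𝒩, s ∉ 𝔫) → ∀ x ∈ secChart h L'',
        (∃ y ∈ secChart h L, p y = (s : K) • x) → ∃ y ∈ secChart h L, p y = x := by
  have := P.chart_noetherian (K := K) hh h0
  obtain ⟨S, hS, -, hN⟩ := P.secChart_fg hh h0 hL''
  refine TM.exists_max (TM.sec P hL'' h) ((TM.sec P hL h).map (p.restrictScalars _))
    (Submodule.fg_def.2 ⟨S, hS, le_antisymm (Submodule.span_le.2 fun x hx => ?_) fun x hx => ?_⟩)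
  · change x ∈ secChart h L''
    rw [hN]
    exact subset_spanO hx
  · change x ∈ secChart h L'' at hx
    rw [hN] at hx
    refine spanO_le (N := (Submodule.span (P.chart K h) S).toAddSubgroup) Submodule.subset_span
      (fun c hc y hy => ?_) hx
    exact Submodule.smul_mem _ (⟨c, (P.mem_chart_iff_isIntegral hh h0 c).2
      (isIntegral_algebraMap (x := (⟨c, hc⟩ : P.chart0 K h)))⟩ : P.chart K h) hy

theorem P2.defect_tens (hreg : P.Reg K) {L' : Sys (PU k) V'} {L : Sys (PU k) V}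
    {L'' : Sys (PU k) V''} {i : V' →ₗ[K] V} {p : V →ₗ[K] V''} (hL : IsBun (P.OK K) L)
    (h : Exact3 L' L L'' i p) {B : Sys (PU k) W} (hB : IsBun (P.OK K) B) :
    chi k (P.pol K) (tens K B L') + chi k (P.pol K) (tens K B L'') - chi k (P.pol K) (tens K B L)
      = finrank K W * (chi k (P.pol K) L' + chi k (P.pol K) L'' - chi k (P.pol K) L) := by
  have hO := (P.isSL_OK K).isFam
  have hL'' := h.isBun_right hO hL
  obtain ⟨z, T, hT, hz, hc⟩ := P.chi_exact_eq hL h
  obtain ⟨z', T', hT', hz', hc'⟩ := P.chi_exact_eq (hB.tens hL) (h.tens hO hL hB)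
  obtain ⟨c, hcT⟩ := (hT.union hT').exists_notMem
  have e1 := hc c fun hm => hcT (Or.inl hm)
  have e2 := hc' c fun hm => hcT (Or.inr hm)
  have hh := hlin_isHomogeneous c
  have h0 := hlin_ne_zero c
  obtain ⟨𝒩, hf, hm, hr⟩ := TM.exists_reg P hh h0 hL hL'' p
  obtain ⟨𝒩', hf', hm', hr'⟩ := TM.exists_reg P hh h0 (hB.tens hL) (hB.tens hL'') (p.lTensor W)
  obtain ⟨b, s, hs, hb⟩ := P.exists_semilocal_basis hreg hh h0 hB (hf.union hf')
    fun 𝔫 h𝔫 => h𝔫.elim (hm 𝔫) (hm' 𝔫)
  have k1 : ∀ {M : Type} [AddCommGroup M] [Module K M] {E : Sys (PU k) M} (i) (x : M),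
      x ∈ secChart (hlin c) E → b i ⊗ₜ[K] x ∈ secChart (hlin c) (tens K B E) :=
    fun i x hx => AddSubgroup.mem_iInf.2 fun u => AddSubgroup.subset_closure
      ⟨b i, (hb u.1 u.2).1 (Lat1.basis_mem b i), x, AddSubgroup.mem_iInf.1 hx u, rfl⟩
  have k2 : ∀ {M : Type} [AddCommGroup M] [Module K M] {E : Sys (PU k) M}, IsBun (P.OK K) E →
      ∀ (i) (y : W ⊗[K] M), y ∈ secChart (hlin c) (tens K B E) →
        TM.crd M ((s : K) • b.coord i) y ∈ secChart (hlin c) E :=
    fun hE i y hy => AddSubgroup.mem_iInf.2 fun u => TM.crd_mem hE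
      (fun w hw => by simpa using (hb u.1 u.2).2 w hw i) (AddSubgroup.mem_iInf.1 hy u)
  have a1 := TM.mul_rdim_le (S := Submodule.span k (secChart (hlin c) L'' : Set V''))
    (T := Submodule.span k (p '' (secChart (hlin c) L : Set V)))
    (S' := Submodule.span k (secChart (hlin c) (tens K B L'') : Set (W ⊗[K] V'')))
    (T' := Submodule.span k (p.lTensor W '' (secChart (hlin c) (tens K B L) : Set (W ⊗[K] V))))
    (fun i => (TensorProduct.mk K W V'' (b i)).restrictScalars k)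
    (fun i x hx => Submodule.subset_span (k1 i x ((TM.mem_span P hL'' _ x).1 hx)))
    (fun x hx hT j => by
      obtain ⟨y, hy, he⟩ := (TM.mem_span_image P (hB.tens hL) _ _ _).1 hT
      refine Submodule.subset_span (hr s (fun 𝔫 h𝔫 => hs 𝔫 (Or.inl h𝔫)) _
        ((TM.mem_span P hL'' _ _).1 (hx j)) ⟨_, k2 hL j y hy, ?_⟩)
      rw [← TM.crd_lTensor, he, TM.crd_smul]
      exact congrArg _ (TM.crd_sum b x j))
  have a2 := TM.rdim_le_mul (S := Submodule.span k (secChart (hlin c) L'' : Set V''))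
    (T := Submodule.span k (p '' (secChart (hlin c) L : Set V)))
    (S' := Submodule.span k (secChart (hlin c) (tens K B L'') : Set (W ⊗[K] V'')))
    (T' := Submodule.span k (p.lTensor W '' (secChart (hlin c) (tens K B L) : Set (W ⊗[K] V))))
    (fun i => (TM.crd V'' ((s : K) • b.coord i)).restrictScalars k)
    (fun i y hy => Submodule.subset_span
      (k2 hL'' i y ((TM.mem_span P (hB.tens hL'') _ y).1 hy)))
    (fun y hy hT => by
      choose n hn he using fun i => (TM.mem_span_image P hL _ _ _).1 (hT i)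
      refine Submodule.subset_span (hr' s (fun 𝔫 h𝔫 => hs 𝔫 (Or.inr h𝔫)) _
        ((TM.mem_span P (hB.tens hL'') _ y).1 hy)
        ⟨∑ i, b i ⊗ₜ[K] n i, sum_mem fun i _ => k1 i _ (hn i), ?_⟩)
      rw [← TM.sum_crd b ((s : K) • y), map_sum]
      refine Finset.sum_congr rfl fun i _ => ?_
      rw [LinearMap.lTensor_tmul, he, map_smul]
      exact congrArg _ (TM.crd_smul _ _ _))
  have e3 := le_antisymm a2 a1
  rw [e1, e2] at e3
  have e4 : z' = finrank K W * z := by exact_mod_cast e3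
  rw [← hz, ← hz', e4]
  push_cast
  ring

end Vale.Agent.P190
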