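import Vale.Agent.P190.Ext
import Vale.Agent.P190.HN

/-! Extension of a degree function to the algebraic closure. -/

open Module

noncomputable section

namespace Vale.Agent.P190

variable {U K : Type} [Field K]

/-- `db` extends the degree `d` to the algebraic closure, through norms -/
structure WtExt (O : Fam U K) (d : Pic O →+ ℝ)
    (db : Pic (ext O (AlgebraicClosure K)) →+ ℝ) : Prop where
  isWt : IsWt db
  map : ∀ c : Div O, db (cl (Div.map (over_ext O) c)) = d (cl c)
  norm : ∀ (K' : IntermediateField K (AlgebraicClosure K)) [FiniteDimensional K K']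
    (h : Over (ext O K') (ext O (AlgebraicClosure K))) (c' : Div (ext O K')) (c : Div O),
    (∀ u, dv c u = Algebra.norm K (dv c' u)) →
      db (cl (Div.map h c')) = d (cl c) / finrank K K'
  gal : ∀ (σ : AlgebraicClosure K ≃ₐ[K] AlgebraicClosure K)
    (c c' : Div (ext O (AlgebraicClosure K))), (∀ u, dv c' u = σ (dv c u)) → db (cl c') = db (cl c)

section Nu

open scoped IntermediateField

/-- a function turning products of nonzero elements into sums -/
def TensorA.IsLog (g : K → ℝ) : Prop := ∀ x y, x ≠ 0 → y ≠ 0 → g (x * y) = g x + g y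

theorem TensorA.IsLog.one {g : K → ℝ} (hg : TensorA.IsLog g) : g 1 = 0 := by
  have := hg 1 1 one_ne_zero one_ne_zero
  rw [mul_one] at this
  linarith

theorem TensorA.IsLog.pow {g : K → ℝ} (hg : TensorA.IsLog g) {x : K} (hx : x ≠ 0) (n : ℕ) :
    g (x ^ n) = n * g x := by
  induction n with
  | zero => simp [hg.one]
  | succ n ih =>
    rw [pow_succ, hg _ _ (pow_ne_zero n hx) hx, ih]
    push_cast
    ring

theorem TensorA.IsLog.neg_one {g : K → ℝ} (hg : TensorA.IsLog g) : g (-1) = 0 := by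
  have := hg.pow (x := -1) (neg_ne_zero.2 one_ne_zero) 2
  rw [neg_one_sq, hg.one] at this
  push_cast at this
  linarith

/-- the normalised norm -/
def TensorA.nu (g : K → ℝ) {L : Type} [Field L] [Algebra K L] (x : L) : ℝ :=
  g ((minpoly K x).coeff 0) / (minpoly K x).natDegree

theorem TensorA.nu_eq {g : K → ℝ} (hg : TensorA.IsLog g) {L : Type} [Field L] [Algebra K L]
    [FiniteDimensional K L] {x : L} (hx : x ≠ 0) :
    TensorA.nu g x = g (Algebra.norm K x) / finrank K L := by
  have hi : IsIntegral K x := Algebra.IsIntegral.isIntegral x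
  have h0 : (minpoly K x).coeff 0 ≠ 0 := minpoly.coeff_zero_ne_zero hi hx
  have h1 : Algebra.norm K (IntermediateField.AdjoinSimple.gen K x) =
      (-1) ^ (minpoly K x).natDegree * (minpoly K x).coeff 0 := by
    have := Algebra.PowerBasis.norm_gen_eq_coeff_zero_minpoly
      (IntermediateField.adjoin.powerBasis hi)
    simpa [IntermediateField.minpoly_gen] using this
  have h2 : finrank K L = (minpoly K x).natDegree * finrank K⟮x⟯ L := by
    rw [← IntermediateField.adjoin.finrank hi, finrank_mul_finrank]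
  have h3 : (finrank K⟮x⟯ L : ℝ) ≠ 0 := Nat.cast_ne_zero.2 finrank_pos.ne'
  have hm : (-1 : K) ≠ 0 := neg_ne_zero.2 one_ne_zero
  rw [Algebra.norm_eq_norm_adjoin, h1, hg.pow (mul_ne_zero (pow_ne_zero _ hm) h0),
    hg _ _ (pow_ne_zero _ hm) h0, hg.pow hm, hg.neg_one, h2, TensorA.nu]
  push_cast
  rw [mul_zero, zero_add, mul_comm ((minpoly K x).natDegree : ℝ), mul_div_mul_left _ _ h3]

theorem TensorA.nu_map (g : K → ℝ) {L L' : Type} [Field L] [Algebra K L] [Field L']
    [Algebra K L'] (f : L →ₐ[K] L') (x : L) : TensorA.nu g (f x) = TensorA.nu g x := by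
  simp only [TensorA.nu, minpoly.algHom_eq f f.injective]

theorem TensorA.isLog_nu {g : K → ℝ} (hg : TensorA.IsLog g) (L : Type) [Field L] [Algebra K L]
    [Algebra.IsAlgebraic K L] : TensorA.IsLog (TensorA.nu g : L → ℝ) := by
  intro x y hx hy
  obtain ⟨K', hK', hxK, hyK⟩ : ∃ K' : IntermediateField K L, FiniteDimensional K K' ∧
      x ∈ K' ∧ y ∈ K' :=
    ⟨K⟮x, y⟯, IntermediateField.finiteDimensional_adjoin_pair
      (Algebra.IsIntegral.isIntegral x) (Algebra.IsIntegral.isIntegral y),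
      IntermediateField.subset_adjoin _ _ (by simp), IntermediateField.subset_adjoin _ _ (by simp)⟩
  obtain ⟨x, rfl⟩ : ∃ x' : K', K'.val x' = x := ⟨⟨x, hxK⟩, rfl⟩
  obtain ⟨y, rfl⟩ : ∃ y' : K', K'.val y' = y := ⟨⟨y, hyK⟩, rfl⟩
  have hx' : x ≠ 0 := fun h => hx (by rw [h, map_zero])
  have hy' : y ≠ 0 := fun h => hy (by rw [h, map_zero])
  rw [← map_mul, TensorA.nu_map, TensorA.nu_map, TensorA.nu_map, TensorA.nu_eq hg hx',
    TensorA.nu_eq hg hy', TensorA.nu_eq hg (mul_ne_zero hx' hy'), map_mul,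
    hg _ _ (Algebra.norm_ne_zero_iff.2 hx') (Algebra.norm_ne_zero_iff.2 hy'), add_div]

theorem TensorA.exists_finite {L : Type} [Field L] [Algebra K L] [Algebra.IsAlgebraic K L]
    (x : L) : ∃ K' : IntermediateField K L, FiniteDimensional K K' ∧ ∃ x' : K', K'.val x' = x :=
  ⟨K⟮x⟯, IntermediateField.adjoin.finiteDimensional (Algebra.IsIntegral.isIntegral x),
    ⟨x, IntermediateField.mem_adjoin_simple_self K x⟩, rfl⟩

theorem TensorA.IsLog.eq_zero {g : K → ℝ} (hg : TensorA.IsLog g) {R : Subring K}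
    (h : ∀ x ∈ R, x ≠ 0 → g x ≤ 0) {c : Kˣ} (hc : IsU R c) : g c = 0 := by
  have h1 := h _ hc.1 c.ne_zero
  have h2 := h _ hc.2 c⁻¹.ne_zero
  have h3 := hg _ _ c.ne_zero c⁻¹.ne_zero
  rw [Units.mul_inv, hg.one] at h3
  linarith

variable {O : Fam U K}

open Classical in
/-- the local degree at `u` -/
def TensorA.loc (d : Pic O →+ ℝ) (u : U) (y : K) : ℝ :=
  if h : y = 0 then 0 else d (cl (Lat2.single O u (Units.mk0 y h)))

theorem TensorA.loc_unit (d : Pic O →+ ℝ) (u : U) (y : Kˣ) :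
    TensorA.loc d u y = d (cl (Lat2.single O u y)) := by
  rw [TensorA.loc, dif_neg y.ne_zero, Units.mk0_val]

theorem TensorA.isLog_loc (d : Pic O →+ ℝ) (u : U) : TensorA.IsLog (TensorA.loc d u) := by
  classical
  intro x y hx hy
  lift x to Kˣ using hx.isUnit
  lift y to Kˣ using hy.isUnit
  have h2 : Lat2.single O u (x * y) = Lat2.single O u x * Lat2.single O u y := by
    apply Subtype.ext
    change Pi.mulSingle u _ = Pi.mulSingle u _ * Pi.mulSingle u _
    convert Pi.mulSingle_mul (f := fun _ : U => Kˣ) u x y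
  rw [← Units.val_mul, TensorA.loc_unit, TensorA.loc_unit, TensorA.loc_unit, h2, cl_mul, map_add]

theorem TensorA.loc_nonpos {d : Pic O →+ ℝ} (hd : IsWt d) (u : U) (y : K) (hy : y ∈ O u)
    (h0 : y ≠ 0) : TensorA.loc d u y ≤ 0 := by
  lift y to Kˣ using h0.isUnit
  rw [TensorA.loc_unit]
  exact hd _ (Lat2.integral_single u hy)

theorem TensorA.finsum_loc {d : Pic O →+ ℝ} (hd : IsWt d) (c : Div O) :
    ∑ᶠ u, TensorA.loc d u (dv c u) = d (cl c) := by
  classical
  have hf : {u | ¬ IsU (O u) (c.1 u)}.Finite := c.2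
  rw [finsum_eq_sum_of_support_subset (s := hf.toFinset) _ (fun u hu => by
    rw [Set.Finite.coe_toFinset]
    exact fun h => hu ((TensorA.isLog_loc d u).eq_zero (TensorA.loc_nonpos hd u) h))]
  have h1 : SameDiv c (∏ u ∈ hf.toFinset, Lat2.single O u (c.1 u)) := by
    intro u
    have e : (∏ u ∈ hf.toFinset, Lat2.single O u (c.1 u)).1 u =
        if u ∈ hf.toFinset then c.1 u else 1 := by
      rw [Subgroup.val_finsetProd, Finset.prod_apply, ← Finset.prod_pi_mulSingle]
      refine Finset.prod_congr rfl fun v _ => ?_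
      simp only [Lat2.single]
    rw [e]
    split_ifs with h
    · rw [mul_inv_cancel]
      exact IsU.one _
    · rw [inv_one, mul_one]
      simpa using h
  rw [h1.cl_eq, cl_prod, map_sum]
  exact Finset.sum_congr rfl fun u _ => TensorA.loc_unit d u _

theorem TensorA.nu_nonpos (hO : IsFam O) {d : Pic O →+ ℝ} (hd : IsWt d) {L : Type} [Field L]
    [Algebra K L] [Algebra.IsAlgebraic K L] (u : U) (x : L) (hx : x ∈ ext O L u) (h0 : x ≠ 0) :
    TensorA.nu (TensorA.loc d u) x ≤ 0 := by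
  obtain ⟨K', hK', x, rfl⟩ := TensorA.exists_finite (K := K) x
  have hx' : x ≠ 0 := fun h => h0 (by rw [h, map_zero])
  have hi : x ∈ ext O K' u :=
    (isIntegral_algHom_iff (K'.val.restrictScalars (O u)) K'.val.injective).1 hx
  rw [TensorA.nu_map, TensorA.nu_eq (TensorA.isLog_loc d u) hx']
  exact div_nonpos_of_nonpos_of_nonneg
    (TensorA.loc_nonpos hd u _ (hO.norm_mem u hi) (Algebra.norm_ne_zero_iff.2 hx'))
    (Nat.cast_nonneg _)

/-- the degree of a divisor over an algebraic extension -/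
def TensorA.deg (d : Pic O →+ ℝ) {L : Type} [Field L] [Algebra K L] (c : Div (ext O L)) : ℝ :=
  ∑ᶠ u, TensorA.nu (TensorA.loc d u) (dv c u)

theorem TensorA.deg_mul (hO : IsFam O) {d : Pic O →+ ℝ} (hd : IsWt d) {L : Type} [Field L]
    [Algebra K L] [Algebra.IsAlgebraic K L] (c c' : Div (ext O L)) :
    TensorA.deg d (c * c') = TensorA.deg d c + TensorA.deg d c' := by
  have hfin : ∀ c : Div (ext O L),
      Function.HasFiniteSupport fun u => TensorA.nu (TensorA.loc d u) (dv c u) := fun c =>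
    Set.Finite.subset c.2 fun u hu h => hu
      ((TensorA.isLog_nu (TensorA.isLog_loc d u) L).eq_zero (TensorA.nu_nonpos hO hd u) h)
  rw [TensorA.deg, TensorA.deg, TensorA.deg, ← finsum_add_distrib (hfin c) (hfin c')]
  exact finsum_congr fun u => TensorA.isLog_nu (TensorA.isLog_loc d u) L _ _
    (dv_ne_zero c u) (dv_ne_zero c' u)

theorem TensorA.deg_norm {d : Pic O →+ ℝ} (hd : IsWt d) {L L' : Type} [Field L]
    [Algebra K L] [Field L'] [Algebra K L'] [FiniteDimensional K L'] (f : L' →ₐ[K] L)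
    (x : U → L') (hx : ∀ u, x u ≠ 0) (c : Div O) (hc : ∀ u, dv c u = Algebra.norm K (x u)) :
    ∑ᶠ u, TensorA.nu (TensorA.loc d u) (f (x u)) = d (cl c) / finrank K L' := by
  rw [← TensorA.finsum_loc hd, div_eq_inv_mul, mul_finsum]
  refine finsum_congr fun u => ?_
  rw [TensorA.nu_map, TensorA.nu_eq (TensorA.isLog_loc d u) (hx u), hc, div_eq_inv_mul]

theorem TensorA.deg_triv (hO : IsFam O) {d : Pic O →+ ℝ} (hd : IsWt d) {L : Type} [Field L]
    [Algebra K L] [Algebra.IsAlgebraic K L] (c : Div (ext O L)) (hc : c ∈ DivTriv (ext O L)) :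
    TensorA.deg d c = 0 := by
  obtain ⟨γ, hγ⟩ := hc
  obtain ⟨K', hK', x, hx⟩ := TensorA.exists_finite (K := K) (γ : L)
  have hx0 : x ≠ 0 := fun h => γ.ne_zero (by rw [← hx, h, map_zero])
  let y : Kˣ := Units.mk0 _ (Algebra.norm_ne_zero_iff (R := K).2 hx0)
  let c₀ : Div O := ⟨fun _ => y, ((hO.fin y).union (hO.fin (y⁻¹ : Kˣ))).subset fun u hu => by
    by_contra h
    simp only [Set.mem_union, Set.mem_ofPred_eq, not_or, not_not] at h
    exact hu h⟩
  have h0 : cl c₀ = 0 := (cl_eq_zero_iff c₀).2 ⟨y, fun u => by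
    rw [mul_inv_cancel]; exact IsU.one _⟩
  have h1 := TensorA.deg_norm hd K'.val (fun _ => x) (fun _ => hx0) c₀ fun _ => rfl
  rw [h0, map_zero, zero_div, hx] at h1
  rw [← h1]
  refine finsum_congr fun u => ?_
  have hl := TensorA.isLog_nu (TensorA.isLog_loc d u) L
  have h2 := hl _ _ (c.1 u * γ⁻¹).ne_zero γ.ne_zero
  rw [hl.eq_zero (TensorA.nu_nonpos hO hd u) (hγ u), zero_add, ← Units.val_mul,
    inv_mul_cancel_right] at h2
  exact h2

theorem TensorA.exists_hom (hO : IsFam O) {d : Pic O →+ ℝ} (hd : IsWt d) (L : Type) [Field L]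
    [Algebra K L] [Algebra.IsAlgebraic K L] :
    ∃ db : Pic (ext O L) →+ ℝ, ∀ c, db (cl c) = TensorA.deg d c := by
  let φ : Div (ext O L) →* Multiplicative ℝ := MonoidHom.mk'
    (fun c => Multiplicative.ofAdd (TensorA.deg d c)) fun c c' => by
      rw [TensorA.deg_mul hO hd, ofAdd_add]
  exact ⟨MonoidHom.toAdditiveLeft (QuotientGroup.lift (DivTriv (ext O L)) φ fun c hc =>
    congrArg Multiplicative.ofAdd (TensorA.deg_triv hO hd c hc)), fun c => rfl⟩

end Nu

theorem exists_wtExt [CharZero K] {O : Fam U K} (hO : IsSL O) {d : Pic O →+ ℝ} (hd : IsWt d) :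
    ∃ db, WtExt O d db := by
  obtain ⟨db, hdb⟩ := TensorA.exists_hom hO.isFam hd (AlgebraicClosure K)
  refine ⟨db, fun c hc => ?_, fun c => ?_, fun K' _ h c' c hc => ?_, fun σ c c' hc => ?_⟩
  · rw [hdb]
    exact finsum_induction (· ≤ (0 : ℝ)) le_rfl (fun _ _ => add_nonpos)
      fun u => TensorA.nu_nonpos hO.isFam hd u _ (hc u) (dv_ne_zero c u)
  · have := TensorA.deg_norm hd (Algebra.ofId K (AlgebraicClosure K)) (dv c) (dv_ne_zero c) c
      fun u => by simp
    rw [finrank_self, Nat.cast_one, div_one] at this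
    rw [hdb, ← this]
    rfl
  · rw [hdb, ← TensorA.deg_norm hd K'.val (dv c') (dv_ne_zero c') c hc]
    rfl
  · rw [hdb, hdb]
    exact finsum_congr fun u => by
      rw [hc u]
      exact TensorA.nu_map _ (σ : AlgebraicClosure K →ₐ[K] AlgebraicClosure K) _

/-- every bundle of rank two has lines of degree arbitrarily close to the slope -/
def Rank2 {O : Fam U K} (d : Pic O →+ ℝ) : Prop :=
  ∀ (V : Type) [AddCommGroup V] [Module K V] (L : Sys U V), IsBun O L → finrank K V = 2 →
    ∀ ε : ℝ, 0 < ε → ∃ x : V, x ≠ 0 ∧ d (c1 O L) / 2 - ε ≤ sdeg O d L (K ∙ x)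

end Vale.Agent.P190
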