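import Vale.Agent.P190.TensorBB

/-! The rank two lemma over the algebraic closure (symmetric powers and Gauss lemma). -/

open Module

noncomputable section

namespace Vale.Agent.P190

variable {U K : Type} [Field K]

/-- Riemann inequality over a finite extension -/
theorem RI_finite [CharZero K] {O : Fam U K} (hO : IsSL O) {d : Pic O →+ ℝ} (hd : IsWt d)
    (hRI : RI O d) (K' : Type) [Field K'] [Algebra K K'] [FiniteDimensional K K']
    {d' : Pic (ext O K') →+ ℝ}
    (hd' : ∀ (c' : Div (ext O K')) (c : Div O), (∀ u, dv c u = Algebra.norm K (dv c' u)) →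
      d' (cl c') = d (cl c) / finrank K K') : RI (ext O K') d' :=
  TensorB.RI_finite hO hRI hd K' hd'

/-- pull-back of classes -/
def TensorB.picMap {K₁ : Type} [Field K₁] [Algebra K K₁] {O₀ : Fam U K} {O : Fam U K₁}
    (h : Over O₀ O) : Pic O₀ →+ Pic O :=
  MonoidHom.toAdditive (QuotientGroup.map (DivTriv O₀) (DivTriv O)
    { toFun := Div.map h, map_one' := Div.map_one h, map_mul' := Div.map_mul h }
    fun c hc => by
      have h1 : cl c = cl 1 := (QuotientGroup.eq_one_iff c).2 hc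
      have h2 := cl_map_congr h h1
      rw [Div.map_one] at h2
      exact (QuotientGroup.eq_one_iff (Div.map h c)).1 h2)

lemma TensorB.picMap_cl {K₁ : Type} [Field K₁] [Algebra K K₁] {O₀ : Fam U K} {O : Fam U K₁}
    (h : Over O₀ O) (c : Div O₀) : TensorB.picMap h (cl c) = cl (Div.map h c) := rfl

variable {V : Type} [AddCommGroup V] [Module K V]

lemma TensorB.tri {R : Subring K} [IsBezout R] (hfrac : ∀ x : K, ∃ b ∈ R, b ≠ 0 ∧ b * x ∈ R)
    {N : AddSubgroup V} (h : IsLat R N) (e₀ : Basis (Fin 2) K V) :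
    ∃ (e : Basis (Fin 2) K V) (a b c : K), N = latt R e ∧ e 0 = a • e₀ 0 ∧
      e 1 = b • e₀ 0 + c • e₀ 1 := by
  obtain ⟨n, n', e, h1, h2⟩ := h.exists_adapted hfrac (K ∙ e₀ 0)
  have h3 : n = 1 := by
    have := finrank_span_eq_card (e.linearIndependent.comp _ Sum.inl_injective)
    rw [Fintype.card_fin] at this
    rw [← this, ← finrank_span_singleton (K := K) (e₀.ne_zero 0), h2]
    rfl
  have h4 : n + n' = 2 := by
    have := (finrank_eq_card_basis e).symm.trans (finrank_eq_card_basis e₀)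
    simpa using this
  subst h3
  obtain rfl : n' = 1 := by omega
  have h5 : e (Sum.inl 0) ∈ K ∙ e₀ 0 := h2 ▸ Submodule.subset_span ⟨0, rfl⟩
  obtain ⟨a, ha⟩ := Submodule.mem_span_singleton.1 h5
  refine ⟨e.reindex finSumFinEquiv, a, e₀.repr (e (Sum.inr 0)) 0, e₀.repr (e (Sum.inr 0)) 1,
    by rw [Lat1.latt_reindex]; exact h1, ?_, ?_⟩
  · rw [Basis.reindex_apply, ha]
    rfl
  · have := e₀.sum_repr (e (Sum.inr 0))
    rw [Fin.sum_univ_two] at this
    rw [Basis.reindex_apply, this]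
    rfl

lemma TensorB.det_tri (e₀ e : Basis (Fin 2) K V) {a b c : K} (h0 : e 0 = a • e₀ 0)
    (h1 : e 1 = b • e₀ 0 + c • e₀ 1) : e₀.det e = a * c := by
  rw [Basis.det_apply, Matrix.det_fin_two]
  simp [Basis.toMatrix_apply, h0, h1]

lemma TensorB.mem_tri {R : Subring K} (e₀ e : Basis (Fin 2) K V) {a b c : K}
    (h0 : e 0 = a • e₀ 0) (h1 : e 1 = b • e₀ 0 + c • e₀ 1) (ha : a ≠ 0) (hc : c ≠ 0)
    (p q t : K) : t • (p • e₀ 0 + q • e₀ 1) ∈ latt R e ↔
      t * ((p - q / c * b) / a) ∈ R ∧ t * (q / c) ∈ R := by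
  have : p • e₀ 0 + q • e₀ 1 = ((p - q / c * b) / a) • e 0 + (q / c) • e 1 := by
    rw [h0, h1, smul_add, smul_smul, smul_smul, smul_smul, div_mul_cancel₀ _ ha,
      div_mul_cancel₀ _ hc, ← add_assoc, ← add_smul, sub_add_cancel]
  rw [this, mem_latt, Fin.forall_fin_two]
  simp

open Polynomial in
lemma TensorB.subst {k : ℕ} {a b c γ l : K} (ha : a ≠ 0) (hc : c ≠ 0) (p q : Fin k → K)
    (r : Fin (k + 1) → K) (h : C γ * (C l * ∏ i, (C (p i) + C (q i) * X)) =
      ∑ i, C (r i) * (C (a ^ (k - i)) * (C b + C c * X) ^ (i : ℕ))) :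
    C (γ * l) * ∏ i, (C ((p i - q i / c * b) / a) + C (q i / c) * X) =
      ∑ i : Fin (k + 1), C (r i) * X ^ (i : ℕ) := by
  have h1 := congrArg (fun f => f.comp (C (a / c) * X - C (b / c))) h
  have e1 : (C b + C c * X).comp (C (a / c) * X - C (b / c)) = C a * X := by
    simp only [add_comp, mul_comp, C_comp, X_comp]
    rw [mul_sub, ← mul_assoc, ← C_mul, ← C_mul, mul_div_cancel₀ _ hc, mul_div_cancel₀ _ hc]
    ring
  have e2 : ∀ i, (C (p i) + C (q i) * X).comp (C (a / c) * X - C (b / c)) =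
      C a * (C ((p i - q i / c * b) / a) + C (q i / c) * X) := fun i => by
    simp only [add_comp, mul_comp, C_comp, X_comp]
    rw [mul_sub, mul_add, ← mul_assoc, ← mul_assoc, ← C_mul, ← C_mul, ← C_mul, ← C_mul,
      mul_div_cancel₀ _ ha, show q i * (a / c) = a * (q i / c) by ring,
      show q i * (b / c) = q i / c * b by ring, C_sub]
    ring
  simp only [mul_comp, C_comp, prod_comp, sum_comp, pow_comp, e1, e2] at h1
  have e3 : ∀ i : Fin (k + 1), C (r i) * (C (a ^ (k - i)) * (C a * X) ^ (i : ℕ)) =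
      C a ^ k * (C (r i) * X ^ (i : ℕ)) := fun i => by
    have : C a ^ k = C a ^ (k - i) * C a ^ (i : ℕ) := by
      rw [← pow_add, Nat.sub_add_cancel (Nat.lt_succ_iff.1 i.2)]
    rw [this, C_pow, mul_pow]
    ring
  simp only [e3] at h1
  rw [Finset.prod_mul_distrib, Finset.prod_const, Finset.card_univ, Fintype.card_fin,
    ← Finset.mul_sum] at h1
  refine mul_left_cancel₀ (pow_ne_zero k (C_ne_zero.2 ha)) ?_
  rw [← h1, C_mul]
  ring

open Polynomial in
lemma TensorB.integral {R : Subring K} [IsBezout R] {k : ℕ} {μ : K} (α β γ : Fin k → K)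
    (h0 : ∀ i, α i ≠ 0 ∨ β i ≠ 0) (hγ0 : ∀ i, γ i ≠ 0)
    (hγ : ∀ i t, (t * α i ∈ R ∧ t * β i ∈ R) ↔ (γ i)⁻¹ * t ∈ R) (r : Fin (k + 1) → K)
    (hr : ∀ i, r i ∈ R)
    (h : C μ * ∏ i, (C (α i) + C (β i) * X) = ∑ i : Fin (k + 1), C (r i) * X ^ (i : ℕ)) :
    μ * (∏ i, γ i)⁻¹ ∈ R := by
  have h1 : ∀ i, γ i * α i ∈ R ∧ γ i * β i ∈ R := fun i =>
    (hγ i _).2 (by rw [inv_mul_cancel₀ (hγ0 i)]; exact one_mem _)
  refine TensorB.gauss R (fun i => γ i * α i) (fun i => γ i * β i) (fun i => (h1 i).1)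
    (fun i => (h1 i).2) (fun i => ?_) _ fun j => ?_
  · refine TensorB.unimod (h1 i).1 (h1 i).2 ((h0 i).imp (mul_ne_zero (hγ0 i))
      (mul_ne_zero (hγ0 i))) fun t a b => ?_
    have := (hγ i (t * γ i)).1 ⟨by rwa [mul_assoc], by rwa [mul_assoc]⟩
    rwa [mul_comm t, inv_mul_cancel_left₀ (hγ0 i)] at this
  · have h2 : ∏ i, (C (γ i * α i) + C (γ i * β i) * X) =
        C (∏ i, γ i) * ∏ i, (C (α i) + C (β i) * X) := by
      rw [map_prod, ← Finset.prod_mul_distrib]
      refine Finset.prod_congr rfl fun i _ => ?_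
      rw [C_mul, C_mul]
      ring
    rw [h2, coeff_C_mul, mul_assoc,
      inv_mul_cancel_left₀ (Finset.prod_ne_zero_iff.2 fun i _ => hγ0 i), ← coeff_C_mul, h,
      finsetSum_coeff]
    refine sum_mem fun i _ => ?_
    rw [coeff_C_mul, coeff_X_pow]
    split_ifs
    · simpa using hr i
    · simp

lemma TensorB.exists_tri {O : Fam U K} (hO : IsFam O) {L : Sys U V} (hL : IsBun O L)
    (e₀ : Basis (Fin 2) K V) : ∃ (e : U → Basis (Fin 2) K V) (a b c : U → K),
      (∀ u, L u = latt (O u) (e u) ∧ e u 0 = a u • e₀ 0 ∧ e u 1 = b u • e₀ 0 + c u • e₀ 1) ∧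
      {u | ¬ (a u = 1 ∧ b u = 0 ∧ c u = 1)}.Finite := by
  have h : ∀ u, ∃ (e : Basis (Fin 2) K V) (a b c : K), (L u = latt (O u) e ∧ e 0 = a • e₀ 0 ∧
      e 1 = b • e₀ 0 + c • e₀ 1) ∧ (L u = latt (O u) e₀ → a = 1 ∧ b = 0 ∧ c = 1) := by
    intro u
    by_cases hu : L u = latt (O u) e₀
    · exact ⟨e₀, 1, 0, 1, ⟨hu, by simp, by simp⟩, fun _ => ⟨rfl, rfl, rfl⟩⟩
    · have := hO.bezout u
      obtain ⟨e, a, b, c, h⟩ := TensorB.tri (hO.frac u) (hL.lat u) e₀
      exact ⟨e, a, b, c, h, fun h => (hu h).elim⟩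
  choose e a b c h1 h2 using h
  exact ⟨e, a, b, c, h1, (hL.std' hO e₀).subset fun u hu hc => hu (h2 u hc)⟩

/-- a divisor from a family of nonzero elements which are almost all equal to one -/
def TensorB.mkDiv (O : Fam U K) (a : U → K) (h0 : ∀ u, a u ≠ 0) (h : {u | a u ≠ 1}.Finite) :
    Div O :=
  ⟨fun u => Units.mk0 (a u) (h0 u), h.subset fun u hu hc => hu (by
    have : Units.mk0 (a u) (h0 u) = 1 := Units.ext hc
    simp only [this]
    exact IsU.one _)⟩

theorem rank2_closure [CharZero K] {O : Fam U K} (hO : IsSL O) {d : Pic O →+ ℝ} (hd : IsWt d)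
    (hRI : RI O d) {db : Pic (ext O (AlgebraicClosure K)) →+ ℝ} (hdb : WtExt O d db) :
    Rank2 db := by
  intro V _ _ L hL h2 ε hε
  have hOb : IsFam (ext O (AlgebraicClosure K)) := hO.isFam_ext
  have := hL.finiteDimensional
  let e₀ := Module.finBasisOfFinrankEq (AlgebraicClosure K) V h2
  obtain ⟨e, a, b, c, he, hfin⟩ := TensorB.exists_tri hOb hL e₀
  have hdet := fun u => TensorB.det_tri e₀ (e u) (he u).2.1 (he u).2.2
  have hac : ∀ u, a u ≠ 0 ∧ c u ≠ 0 := fun u =>
    mul_ne_zero_iff.1 (hdet u ▸ C1.det_ne_zero e₀ (e u))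
  let B := {u | ¬ (a u = 1 ∧ b u = 0 ∧ c u = 1)}
  let T := a '' B ∪ b '' B ∪ c '' B
  have : Finite T := ((hfin.image a).union (hfin.image b)).union (hfin.image c)
  let K' := IntermediateField.adjoin K T
  have : FiniteDimensional K K' :=
    IntermediateField.finiteDimensional_adjoin fun x _ => Algebra.IsIntegral.isIntegral x
  have hm : ∀ u, a u ∈ K' ∧ b u ∈ K' ∧ c u ∈ K' := fun u => by
    by_cases hu : u ∈ B
    · exact ⟨IntermediateField.subset_adjoin _ _ (Or.inl (Or.inl ⟨u, hu, rfl⟩)),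
        IntermediateField.subset_adjoin _ _ (Or.inl (Or.inr ⟨u, hu, rfl⟩)),
        IntermediateField.subset_adjoin _ _ (Or.inr ⟨u, hu, rfl⟩)⟩
    · obtain ⟨h1, h2, h3⟩ := not_not.1 hu
      rw [h1, h2, h3]
      exact ⟨one_mem _, zero_mem _, one_mem _⟩
  have hov : Over (ext O K') (ext O (AlgebraicClosure K)) := fun u x hx =>
    map_mem_ext O K'.val u hx
  have hO' : IsFam (ext O K') := (hO.ext (K := K')).isFam
  have hRI' := RI_finite hO hd hRI K' (d' := db.comp (TensorB.picMap hov))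
    fun c' c h => hdb.norm K' hov c' c h
  let a' := TensorB.mkDiv (ext O K') (fun u => ⟨a u, (hm u).1⟩)
    (fun u h => (hac u).1 (congrArg Subtype.val h))
    (hfin.subset fun u hu hc => hu (Subtype.ext hc.1))
  let c' := TensorB.mkDiv (ext O K') (fun u => ⟨c u, (hm u).2.2⟩)
    (fun u h => (hac u).2 (congrArg Subtype.val h))
    (hfin.subset fun u hu hc => hu (Subtype.ext hc.2.2))
  obtain ⟨g, hg⟩ := TensorB.sym_line hO' hRI' a' c' (fun u => ⟨b u, (hm u).2.1⟩)
    (hfin.subset fun u hu hc => hu ⟨Subtype.ext hc.1, Subtype.ext hc.2.1, Subtype.ext hc.2.2⟩)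
  obtain ⟨k, hk⟩ := exists_nat_gt (max 0 (g / ε))
  have hk0 : (0 : ℝ) < k := (le_max_left _ _).trans_lt hk
  have hk1 : g < k * ε := (div_lt_iff₀ hε).1 ((le_max_right _ _).trans_lt hk)
  obtain ⟨f, γ, hf0, hfd, hγ, hr⟩ := hg k
  have hc1 : c1 (ext O (AlgebraicClosure K)) L = cl (Div.map hov (a' * c')) :=
    c1_eq hOb e₀ _ fun u => ⟨e u, (he u).1, by rw [hdet, dv_map, dv_mul, map_mul]; rfl⟩
  obtain ⟨l, p, q, hl, hpq, hf⟩ := TensorB.factor k (f.map (algebraMap K' (AlgebraicClosure K)))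
    (Polynomial.map_ne_zero hf0) (by rwa [Polynomial.natDegree_map])
  have hx : ∀ i, p i • e₀ 0 + q i • e₀ 1 ≠ 0 := fun i h => by
    have h0 := congrArg (fun x => e₀.repr x 0) h
    have h1 := congrArg (fun x => e₀.repr x 1) h
    simp at h0 h1
    exact (hpq i).elim (fun h => h h0) fun h => h h1
  choose δ hδ hδ' using fun i => TensorB.exists_gen (d := db) hOb hL (hx i)
  have hint : Integral (Div.map hov γ * ofSet _ {l} * (∏ i, δ i)⁻¹) := fun u => by
    obtain ⟨r, h1, h3⟩ := hr u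
    have h4 := congrArg (Polynomial.map (algebraMap K' (AlgebraicClosure K))) h3
    simp only [Polynomial.map_mul, Polynomial.map_C, Polynomial.map_sum, Polynomial.map_pow,
      Polynomial.map_add, Polynomial.map_X, map_pow] at h4
    rw [hf] at h4
    simp only [← map_pow] at h4
    have h5 := TensorB.subst (a := a u) (b := b u) (c := c u) (hac u).1 (hac u).2 p q _ h4
    have := hOb.bezout u
    have h6 := TensorB.integral (R := ext O (AlgebraicClosure K) u) _ _ (fun i => dv (δ i) u)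
      (fun i => ?_) (fun i => dv_ne_zero _ u) (fun i t => ?_) _ (fun i => hov u _ (h1 i)) h5
    · have h7 := (ofSet_singleton hOb hl u).1
      have := mul_mem h6 h7
      rw [dv_mul, dv_mul, dv_inv, dv_prod, dv_map]
      convert this using 1
      field_simp
    · by_contra hc
      push Not at hc
      have h7 : q i = 0 := by simpa [(hac u).2] using hc.2
      have h8 : p i = 0 := by simpa [h7, (hac u).1] using hc.1
      exact (hpq i).elim (fun h => h h8) fun h => h h7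
    · rw [← hδ', (he u).1,
        TensorB.mem_tri e₀ (e u) (he u).2.1 (he u).2.2 (hac u).1 (hac u).2]
  have h3 := hdb.isWt _ hint
  rw [cl_mul, cl_mul, cl_inv, cl_prod, cl_ofSet_singleton hOb hl, add_zero, map_add, map_neg,
    map_sum] at h3
  simp only [AddMonoidHom.comp_apply, TensorB.picMap_cl] at hγ
  have : Nonempty (Fin k) := ⟨⟨0, by exact_mod_cast hk0⟩⟩
  obtain ⟨i, -, hi⟩ := Finset.exists_le_of_sum_le (s := Finset.univ) Finset.univ_nonempty
    (f := fun _ : Fin k => db (c1 (ext O (AlgebraicClosure K)) L) / 2 - ε)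
    (g := fun i => db (cl (δ i))) (by
      rw [Finset.sum_const, Finset.card_univ, Fintype.card_fin, nsmul_eq_mul, hc1, Div.map_mul,
        cl_mul, map_add]
      linarith)
  exact ⟨_, hx i, by rwa [hδ]⟩

end Vale.Agent.P190
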