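import Vale.Agent.P190.TensorA

/-! Auxiliary results for the rank two lemma: degrees of lines, restriction of scalars. -/

open Module

noncomputable section

namespace Vale.Agent.P190

variable {U K : Type} [Field K] {O : Fam U K}

lemma TensorB.exists_eq_line (hO : IsFam O) {M : Sys U K} (hM : IsBun O M) :
    ∃ c : Div O, M = line c := by
  obtain ⟨c, hc⟩ := hM.exists_det hO (Basis.singleton Unit K)
  refine ⟨c, funext fun u => ?_⟩
  obtain ⟨e, h1, h2⟩ := hc u
  have h3 : dv c u = e () := by
    rw [h2, Basis.det_apply, Matrix.det_unique, Basis.toMatrix_apply]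
    simp
  ext x
  rw [h1, mem_latt, mem_line, h3]
  have h4 : e.repr x () * e () = x := by
    have := e.sum_repr x
    simpa using this
  have h5 : (e ())⁻¹ * x = e.repr x () := by
    have h0 : e () ≠ 0 := e.ne_zero ()
    conv_lhs => rw [← h4]
    field_simp
  rw [h5]
  exact ⟨fun h => h (), fun h _ => h⟩

variable {V : Type} [AddCommGroup V] [Module K V] {d : Pic O →+ ℝ}

lemma TensorB.sdeg_span (hO : IsFam O) {L : Sys U V} (hL : IsBun O L) {x : V} (hx : x ≠ 0) :
    sdeg O d L (K ∙ x) = d (c1 O (pull (LinearMap.toSpanSingleton K V x) L)) := by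
  have hf : Function.Injective (LinearMap.toSpanSingleton K V x) :=
    smul_left_injective K hx
  rw [← sdeg_top hO (hL.pull hO _ hf), sdeg_pull hO hL _ hf, Submodule.map_top,
    LinearMap.range_toSpanSingleton]

lemma TensorB.exists_gen (hO : IsFam O) {L : Sys U V} (hL : IsBun O L) {x : V} (hx : x ≠ 0) :
    ∃ c : Div O, sdeg O d L (K ∙ x) = d (cl c) ∧
      ∀ u (t : K), t • x ∈ L u ↔ (dv c u)⁻¹ * t ∈ O u := by
  have hf : Function.Injective (LinearMap.toSpanSingleton K V x) :=
    smul_left_injective K hx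
  obtain ⟨c, hc⟩ := TensorB.exists_eq_line hO (hL.pull hO _ hf)
  refine ⟨c, by rw [TensorB.sdeg_span hO hL hx, hc, c1_line hO], fun u t => ?_⟩
  rw [← mem_line, ← hc]
  rfl

lemma TensorB.le_sdeg (hO : IsFam O) (hd : IsWt d) {L : Sys U V} (hL : IsBun O L) {x : V}
    (hx : x ≠ 0) (c : Div O) (hc : ∀ u, dv c u • x ∈ L u) : d (cl c) ≤ sdeg O d L (K ∙ x) := by
  obtain ⟨c', h1, h2⟩ := TensorB.exists_gen (d := d) hO hL hx
  have := hd (c'⁻¹ * c) fun u => by
    rw [dv_mul, dv_inv]
    exact (h2 u _).1 (hc u)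
  rw [cl_mul, cl_inv, map_add, map_neg] at this
  linarith

section Norm

variable (K' : Type) [Field K'] [Algebra K K'] [FiniteDimensional K K']

/-- the norm of a divisor -/
def TensorB.nrm (hO : IsFam O) (c : Div (ext O K')) : Div O :=
  ⟨fun u => Units.map (Algebra.norm K) (c.1 u), Set.Finite.subset c.2 fun u hu hc =>
    hu ⟨hO.norm_mem u hc.1, by rw [← map_inv]; exact hO.norm_mem u hc.2⟩⟩

lemma TensorB.dv_nrm (hO : IsFam O) (c : Div (ext O K')) (u : U) :
    dv (TensorB.nrm K' hO c) u = Algebra.norm K (dv c u) := rfl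

variable {W : Type} [AddCommGroup W] [Module K' W] [Module K W] [IsScalarTower K K' W]

omit [FiniteDimensional K K'] in
lemma TensorB.latt_tower {R : Subring K} {R' : Subring K'} {ι κ : Type} (b : Basis ι K K')
    (e : Basis κ K' W) (h : R'.toAddSubgroup = latt R b) :
    latt R' e = latt R (b.smulTower e) := by
  ext x
  simp only [mem_latt, Basis.smulTower_repr, Prod.forall]
  constructor
  · intro hx i j
    have : e.repr x j ∈ latt R b := h ▸ hx j
    exact this i
  · intro hx j
    have : e.repr x j ∈ R'.toAddSubgroup := h ▸ fun i => hx i j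
    exact this

lemma TensorB.det_tower {ι κ : Type} [Fintype ι] [DecidableEq ι] [Fintype κ] [DecidableEq κ]
    (b₀ b : Basis ι K K') (e₀ e : Basis κ K' W) :
    (b₀.smulTower e₀).det (b.smulTower e) =
      Algebra.norm K (e₀.det e) * b₀.det b ^ Fintype.card κ := by
  rw [← Basis.det_mul_det _ (b₀.smulTower e)]
  congr 1
  · have : ⇑(b₀.smulTower e) =
        ((e₀.equiv e (Equiv.refl κ)).toLinearMap.restrictScalars K) ∘ (b₀.smulTower e₀) := by
      funext ij
      simp
    rw [this, Basis.det_comp, Basis.det_self, mul_one, LinearMap.det_restrictScalars,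
      Basis.det_basis]
  · have : (b₀.smulTower e).toMatrix (b.smulTower e) =
        Matrix.kroneckerMap (· * ·) (b₀.toMatrix b) (1 : Matrix κ κ K) := by
      ext ⟨i, j⟩ ⟨i', j'⟩
      simp only [Basis.toMatrix_apply, Basis.smulTower_repr, Basis.smulTower_apply, map_smul,
        Basis.repr_self, Finsupp.smul_apply, Matrix.kroneckerMap_apply, Matrix.one_apply,
        Finsupp.single_apply, smul_eq_mul]
      by_cases h : j' = j
      · simp [h]
      · simp [h, Ne.symm h]
    rw [Basis.det_apply, this, Matrix.det_kronecker, Matrix.det_one, one_pow, mul_one,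
      Basis.det_apply]

lemma TensorB.c1_res [CharZero K] (hO : IsSL O) {L : Sys U W} (hL : IsBun (ext O K') L) :
    ∃ c : Div (ext O K'), c1 (ext O K') L = cl c ∧
      c1 O L = cl (TensorB.nrm K' hO.isFam c) + finrank K' W • c1 O (triv (ext O K')) := by
  have hO' : IsFam (ext O K') := (hO.ext (K := K')).isFam
  have hF := hO.finOver_ext (K := K')
  have := hL.finiteDimensional
  let e₀ := Module.finBasis K' W
  let b₀ := Module.finBasis K K'
  obtain ⟨c, hc⟩ := hL.exists_det hO' e₀
  obtain ⟨a, ha⟩ := hF.bun.exists_det hO.isFam b₀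
  refine ⟨c, c1_eq hO' e₀ c hc, ?_⟩
  rw [c1_eq hO.isFam b₀ a ha, ← cl_pow, ← cl_mul]
  refine c1_eq hO.isFam (b₀.smulTower e₀) _ fun u => ?_
  obtain ⟨e, h1, h2⟩ := hc u
  obtain ⟨b, h3, h4⟩ := ha u
  refine ⟨b.smulTower e, by rw [h1]; exact TensorB.latt_tower K' b e h3, ?_⟩
  rw [TensorB.det_tower, dv_mul, dv_pow, TensorB.dv_nrm, h2, h4, Fintype.card_fin]

end Norm

/-- Riemann inequality over a finite extension -/
theorem TensorB.RI_finite [CharZero K] (hO : IsSL O)
    (hRI : RI O d) (hd : IsWt d) (K' : Type) [Field K'] [Algebra K K'] [FiniteDimensional K K']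
    {d' : Pic (ext O K') →+ ℝ}
    (hd' : ∀ (c' : Div (ext O K')) (c : Div O), (∀ u, dv c u = Algebra.norm K (dv c' u)) →
      d' (cl c') = d (cl c) / finrank K K') : RI (ext O K') d' := by
  have hO' : IsFam (ext O K') := (hO.ext (K := K')).isFam
  have hF := hO.finOver_ext (K := K')
  have hn : (0 : ℝ) < finrank K K' := by exact_mod_cast finrank_pos
  have hw : IsWt d' := fun c hc => by
    rw [hd' c (TensorB.nrm K' hO.isFam c) fun u => rfl]
    exact div_nonpos_of_nonpos_of_nonneg (hd _ fun u => hO.isFam.norm_mem u (hc u)) hn.le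
  have hm : ∀ c : Div O, d' (cl (Div.map (over_ext O) c)) = d (cl c) := fun c => by
    rw [hd' _ (c ^ finrank K K') fun u => by rw [dv_pow, dv_map, Algebra.norm_algebraMap],
      cl_pow, map_nsmul, nsmul_eq_mul]
    field_simp
  obtain ⟨g, hg⟩ := hRI
  refine ⟨g - d (c1 O (triv (ext O K'))) / finrank K K', fun V _ _ _ L hL => ?_⟩
  let _ : Module K V := Module.compHom V (algebraMap K K')
  have : IsScalarTower K K' V := IsScalarTower.of_algebraMap_smul fun _ _ => rfl
  have := hL.finiteDimensional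
  have hL0 : IsBun O L := hL.res hF hO.isFam
  obtain ⟨x, hx, h1⟩ := hg V L hL0
  refine ⟨x, hx, ?_⟩
  obtain ⟨c, h2, h3⟩ := TensorB.exists_gen (d := d) hO.isFam hL0 hx
  have h4 := TensorB.le_sdeg hO' hw hL hx (Div.map (over_ext O) c) fun u => by
    rw [dv_map, algebraMap_smul, h3, inv_mul_cancel₀ (dv_ne_zero c u)]
    exact one_mem _
  obtain ⟨a, h5, h6⟩ := TensorB.c1_res K' hO hL
  have hr : (0 : ℝ) < finrank K' V := by exact_mod_cast finrank_pos
  rw [h5, hd' a (TensorB.nrm K' hO.isFam a) fun u => rfl]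
  rw [h6, map_add, map_nsmul, nsmul_eq_mul, ← finrank_mul_finrank K K' V, Nat.cast_mul, h2] at h1
  rw [hm] at h4
  refine le_trans (le_of_eq ?_) (h1.trans h4)
  field_simp
  ring

end Vale.Agent.P190
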