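import Vale.Agent.P190.TensorBA

/-! Auxiliary results for the rank two lemma: Gauss lemma, symmetric powers. -/

open Module Polynomial

noncomputable section

namespace Vale.Agent.P190

variable {U K : Type} [Field K] {O : Fam U K}

lemma TensorB.gauss (R : Subring K) {ι : Type} [Fintype ι] (α β : ι → K) (hα : ∀ i, α i ∈ R)
    (hβ : ∀ i, β i ∈ R) (hu : ∀ i, ∃ s ∈ R, ∃ t ∈ R, s * α i + t * β i = 1) (μ : K)
    (h : ∀ j, μ * (∏ i, (C (α i) + C (β i) * X)).coeff j ∈ R) : μ ∈ R := by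
  let I : Ideal R :=
    { carrier := {s | μ * s ∈ R}
      zero_mem' := by simp
      add_mem' := fun {a b} ha hb => by
        change μ * ((a : K) + b) ∈ R
        rw [mul_add]
        exact R.add_mem ha hb
      smul_mem' := fun c a ha => by
        change μ * ((c : K) * a) ∈ R
        rw [mul_left_comm]
        exact R.mul_mem c.2 ha }
  by_contra hμ
  have hI : I ≠ ⊤ := fun hc => by
    have : (1 : R) ∈ I := hc ▸ Submodule.mem_top
    exact hμ (by simpa [I] using this)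
  obtain ⟨m, hm, hle⟩ := I.exists_le_maximal hI
  let P : R[X] := ∏ i, (C (⟨α i, hα i⟩ : R) + C (⟨β i, hβ i⟩ : R) * X)
  have hP : P.map R.subtype = ∏ i, (C (α i) + C (β i) * X) := by
    simp [P, Polynomial.map_prod]
  have h0 : P.map (Ideal.Quotient.mk m) = 0 := by
    ext j
    rw [coeff_map, coeff_zero, Ideal.Quotient.eq_zero_iff_mem]
    refine hle ?_
    have := h j
    rw [← hP, coeff_map] at this
    exact this
  have := hm.isPrime
  have := Ideal.Quotient.isDomain m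
  rw [Polynomial.map_prod] at h0
  obtain ⟨i, -, hi⟩ := (Finset.prod_eq_zero_iff (M₀ := (R ⧸ m)[X])).1 h0
  have h1 := congrArg (fun p => p.coeff 0) hi
  have h2 := congrArg (fun p => p.coeff 1) hi
  simp only [coeff_map, coeff_add, coeff_C_zero, mul_coeff_zero, coeff_X_zero, mul_zero, add_zero,
    coeff_zero, Ideal.Quotient.eq_zero_iff_mem, coeff_C_succ, coeff_C_mul, coeff_X_one, mul_one,
    zero_add] at h1 h2
  obtain ⟨s, hs, t, ht, hst⟩ := hu i
  refine hm.ne_top ((Ideal.eq_top_iff_one m).2 ?_)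
  have : (1 : R) = ⟨s, hs⟩ * ⟨α i, hα i⟩ + ⟨t, ht⟩ * ⟨β i, hβ i⟩ := Subtype.ext hst.symm
  rw [this]
  exact m.add_mem (m.mul_mem_left _ h1) (m.mul_mem_left _ h2)

lemma TensorB.unimod {R : Subring K} [IsBezout R] {α β : K} (hα : α ∈ R) (hβ : β ∈ R)
    (h0 : α ≠ 0 ∨ β ≠ 0) (h : ∀ t : K, t * α ∈ R → t * β ∈ R → t ∈ R) :
    ∃ s ∈ R, ∃ t ∈ R, s * α + t * β = 1 := by
  obtain ⟨s, t, hst⟩ := IsBezout.gcd_eq_sum (⟨α, hα⟩ : R) ⟨β, hβ⟩
  obtain ⟨a, ha⟩ := IsBezout.gcd_dvd_left (⟨α, hα⟩ : R) ⟨β, hβ⟩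
  obtain ⟨b, hb⟩ := IsBezout.gcd_dvd_right (⟨α, hα⟩ : R) ⟨β, hβ⟩
  generalize IsBezout.gcd (⟨α, hα⟩ : R) ⟨β, hβ⟩ = δ at hst ha hb
  have ha' : α = δ * a := congrArg Subtype.val ha
  have hb' : β = δ * b := congrArg Subtype.val hb
  have hst' : s * α + t * β = δ := congrArg Subtype.val hst
  have hδ : (δ : K) ≠ 0 := fun hc => by
    rw [hc, zero_mul] at ha' hb'
    tauto
  have h1 : (δ : K)⁻¹ ∈ R := by
    refine h _ ?_ ?_
    · rw [ha', inv_mul_cancel_left₀ hδ]; exact a.2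
    · rw [hb', inv_mul_cancel_left₀ hδ]; exact b.2
  refine ⟨_, R.mul_mem h1 s.2, _, R.mul_mem h1 t.2, ?_⟩
  rw [mul_assoc, mul_assoc, ← mul_add, hst', inv_mul_cancel₀ hδ]

lemma TensorB.factor [IsAlgClosed K] (k : ℕ) : ∀ f : K[X], f ≠ 0 → f.natDegree ≤ k →
    ∃ (l : K) (p q : Fin k → K), l ≠ 0 ∧ (∀ i, p i ≠ 0 ∨ q i ≠ 0) ∧
      f = C l * ∏ i, (C (p i) + C (q i) * X) := by
  induction k with
  | zero =>
    intro f hf hd
    have := eq_C_of_natDegree_le_zero hd
    refine ⟨f.coeff 0, Fin.elim0, Fin.elim0, fun h => hf ?_, fun i => i.elim0, by simpa using this⟩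
    rw [this, h, C_0]
  | succ k ih =>
    intro f hf hd
    by_cases h : f.natDegree ≤ k
    · obtain ⟨l, p, q, h1, h2, h3⟩ := ih f hf h
      refine ⟨l, Fin.cons 1 p, Fin.cons 0 q, h1, fun i => ?_, ?_⟩
      · refine Fin.cases (Or.inl ?_) (fun i => ?_) i
        · simp
        · simpa using h2 i
      · rw [Fin.prod_univ_succ]
        simpa using h3
    · obtain ⟨z, hz⟩ := IsAlgClosed.exists_root f (fun hc => h (by
        rw [natDegree_eq_of_degree_eq_some hc]; exact Nat.zero_le _))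
      obtain ⟨f', hf'⟩ := dvd_iff_isRoot.2 hz
      have h0 : f' ≠ 0 := fun hc => hf (by rw [hf', hc, mul_zero])
      have hd' : f'.natDegree ≤ k := by
        rw [hf', natDegree_mul (X_sub_C_ne_zero z) h0, natDegree_X_sub_C] at hd
        omega
      obtain ⟨l, p, q, h1, h2, h3⟩ := ih f' h0 hd'
      refine ⟨l, Fin.cons (-z) p, Fin.cons 1 q, h1, fun i => ?_, ?_⟩
      · refine Fin.cases (Or.inr ?_) (fun i => ?_) i
        · simp
        · simpa using h2 i
      · rw [Fin.prod_univ_succ, hf', h3]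
        simp only [Fin.cons_zero, Fin.cons_succ, map_neg, map_one]
        ring

/-- the matrix of the symmetric power of a triangular matrix -/
def TensorB.sy (k : ℕ) (a b c : K) : Matrix (Fin (k + 1)) (Fin (k + 1)) K :=
  fun j i => (C (a ^ (k - i)) * (C b + C c * X) ^ (i : ℕ)).coeff j

lemma TensorB.deg_lin (b c : K) (i : ℕ) : ((C b + C c * X) ^ i).natDegree ≤ i := by
  refine natDegree_pow_le.trans ?_
  have : (C b + C c * X).natDegree ≤ 1 := by
    rw [add_comm]
    exact natDegree_linear_le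
  nlinarith

lemma TensorB.det_sy (k : ℕ) (a b c : K) :
    (TensorB.sy k a b c).det = ∏ i : Fin (k + 1), a ^ (k - i) * c ^ (i : ℕ) := by
  rw [Matrix.det_of_isUpperTriangular]
  · refine Finset.prod_congr rfl fun i _ => ?_
    have h1 : (C b + C c * X).natDegree ≤ 1 := by
      rw [add_comm]
      exact natDegree_linear_le
    have := coeff_pow_of_natDegree_le (m := (i : ℕ)) h1
    rw [mul_one] at this
    rw [TensorB.sy, coeff_C_mul, this]
    simp
  · intro j i h
    have h : (i : ℕ) < j := h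
    rw [TensorB.sy, coeff_C_mul, coeff_eq_zero_of_natDegree_lt
      ((TensorB.deg_lin b c i).trans_lt h), mul_zero]

lemma TensorB.sy_one (k : ℕ) : TensorB.sy k (1 : K) 0 1 = 1 := by
  ext j i
  simp [TensorB.sy, Matrix.one_apply, coeff_X_pow, Fin.ext_iff]

lemma TensorB.sum_half (k : ℕ) (x y : ℝ) :
    ∑ i : Fin (k + 1), (((k - i : ℕ) : ℝ) * x + (i : ℕ) * y) = (k + 1) * (k * (x + y) / 2) := by
  have h1 : ∑ i : Fin (k + 1), ((i : ℕ) : ℝ) = (k + 1) * k / 2 := by
    rw [Fin.sum_univ_eq_sum_range (fun i => (i : ℝ))]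
    have := Finset.sum_range_id_mul_two (k + 1)
    have h2 : ((∑ i ∈ Finset.range (k + 1), i : ℕ) : ℝ) * 2 = (k + 1) * k := by
      exact_mod_cast this
    push_cast at h2
    linarith
  have h2 : ∀ i : Fin (k + 1), ((k - i : ℕ) : ℝ) = k - (i : ℕ) := fun i =>
    Nat.cast_sub (Nat.lt_succ_iff.1 i.2)
  simp only [h2, Finset.sum_add_distrib, ← Finset.sum_mul, Finset.sum_sub_distrib, h1,
    Finset.sum_const, Finset.card_univ, Fintype.card_fin, nsmul_eq_mul]
  push_cast
  ring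

lemma TensorB.sym_line (hO : IsFam O) {d : Pic O →+ ℝ} (hRI : RI O d) (a c : Div O) (b : U → K)
    (hfin : {u | ¬ (dv a u = 1 ∧ b u = 0 ∧ dv c u = 1)}.Finite) : ∃ g : ℝ, ∀ k : ℕ,
    ∃ (f : K[X]) (γ : Div O), f ≠ 0 ∧ f.natDegree ≤ k ∧
      k * (d (cl a) + d (cl c)) / 2 - g ≤ d (cl γ) ∧ ∀ u, ∃ r : Fin (k + 1) → K,
        (∀ i, r i ∈ O u) ∧ C (dv γ u) * f =
          ∑ i, C (r i) * (C (dv a u ^ (k - i)) * (C (b u) + C (dv c u) * X) ^ (i : ℕ)) := by
  obtain ⟨g, hg⟩ := hRI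
  refine ⟨g, fun k => ?_⟩
  let e₀ := Pi.basisFun K (Fin (k + 1))
  let M := fun u => TensorB.sy k (dv a u) (b u) (dv c u)
  have hM : ∀ u, IsUnit (M u).det := fun u => by
    rw [TensorB.det_sy, isUnit_iff_ne_zero]
    exact Finset.prod_ne_zero_iff.2 fun i _ =>
      mul_ne_zero (pow_ne_zero _ (dv_ne_zero a u)) (pow_ne_zero _ (dv_ne_zero c u))
  let e := fun u => e₀.map (Matrix.toLinearEquiv e₀ (M u) (hM u))
  have he : ∀ u i j, e u i j = M u j i := fun u i j => by
    simp [e, e₀, Matrix.toLinearEquiv_apply, Matrix.toLin_eq_toLin']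
  let S : Sys U (Fin (k + 1) → K) := fun u => latt (O u) (e u)
  have hS : IsBun O S := by
    refine Lat1.isBun_of (fun u => isLat_latt _) e₀ (hfin.subset fun u hu hc => hu ?_)
    have : e u = e₀ := by
      ext i j
      rw [he]
      simp only [M, hc.1, hc.2.1, hc.2.2, TensorB.sy_one, e₀, Pi.basisFun_apply, Matrix.one_apply,
        Pi.single_apply]
    simp only [S, this]
  have hc1 : c1 O S = cl (∏ i : Fin (k + 1), a ^ (k - i) * c ^ (i : ℕ)) := by
    refine c1_eq hO e₀ _ fun u => ⟨e u, rfl, ?_⟩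
    have : e₀.toMatrix (e u) = M u := by
      ext i j
      rw [Basis.toMatrix_apply, Pi.basisFun_repr, he]
    rw [Basis.det_apply, this, TensorB.det_sy, dv_prod]
    simp only [dv_mul, dv_pow]
  obtain ⟨v, hv, h1⟩ := hg _ S hS
  obtain ⟨γ, h2, h3⟩ := TensorB.exists_gen (d := d) hO hS hv
  let f : K[X] := ∑ j : Fin (k + 1), monomial j (v j)
  have hf : ∀ j : Fin (k + 1), f.coeff j = v j := fun j => by
    simp [f, coeff_monomial, Fin.val_inj]
  have hdeg : f.natDegree ≤ k := natDegree_sum_le_of_forall_le _ _ fun j _ =>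
    (natDegree_monomial_le _).trans (Nat.lt_succ_iff.1 j.2)
  refine ⟨f, γ, fun h => hv (funext fun j => by rw [← hf, h, coeff_zero]; rfl), hdeg, ?_,
    fun u => ?_⟩
  · rw [hc1, cl_prod, map_sum, h2] at h1
    simp only [cl_mul, cl_pow, map_add, map_nsmul, nsmul_eq_mul, TensorB.sum_half,
      finrank_fin_fun] at h1
    push_cast at h1
    rwa [mul_div_cancel_left₀ _ (by positivity)] at h1
  · have h4 : dv γ u • v ∈ S u := by
      rw [h3, inv_mul_cancel₀ (dv_ne_zero γ u)]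
      exact one_mem _
    refine ⟨fun i => (e u).repr (dv γ u • v) i, h4, ?_⟩
    have h5 := (e u).sum_repr (dv γ u • v)
    ext j
    rw [finsetSum_coeff, coeff_C_mul]
    by_cases hj : j < k + 1
    · have h6 := congrFun h5 ⟨j, hj⟩
      rw [Finset.sum_apply, Pi.smul_apply, smul_eq_mul, ← hf] at h6
      rw [← h6]
      refine Finset.sum_congr rfl fun i _ => ?_
      rw [coeff_C_mul, Pi.smul_apply, smul_eq_mul, he]
      rfl
    · rw [coeff_eq_zero_of_natDegree_lt (by omega), mul_zero]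
      refine (Finset.sum_eq_zero fun i _ => ?_).symm
      rw [coeff_C_mul, coeff_C_mul, coeff_eq_zero_of_natDegree_lt
        ((TensorB.deg_lin _ _ i).trans_lt (by omega)), mul_zero, mul_zero]

end Vale.Agent.P190
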