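import Vale.Agent.P190.ValsB

/-! Point valuations, and the valuative description of Laurent polynomials. -/

open MvPolynomial

noncomputable section

namespace Vale.Agent.P190

namespace Vals

variable {k K : Type} [Field k] [Field K] [Algebra k K] {s t : K}

/-- translation of the coordinates -/
def tr (a b : k) : MvPolynomial (Fin 2) k →ₐ[k] MvPolynomial (Fin 2) k :=
  aeval ![X 0 + C a, X 1 + C b]

lemma aeval_tr {L : Type} [CommRing L] [Algebra k L] (u v : L) (a b : k)
    (P : MvPolynomial (Fin 2) k) :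
    aeval ![u, v] (tr a b P) = aeval ![u + algebraMap k L a, v + algebraMap k L b] P := by
  have : (aeval ![u, v]).comp (tr a b) =
      aeval ![u + algebraMap k L a, v + algebraMap k L b] := by
    ext i
    fin_cases i <;> simp [tr]
  exact DFunLike.congr_fun this P

lemma tr_tr (a b : k) (P : MvPolynomial (Fin 2) k) : tr (-a) (-b) (tr a b P) = P := by
  have : (tr (-a) (-b)).comp (tr a b) = AlgHom.id k _ := by
    ext i : 1
    fin_cases i <;> simp [tr]
  exact DFunLike.congr_fun this P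

lemma tr_ne (a b : k) {P : MvPolynomial (Fin 2) k} (hP : P ≠ 0) : tr a b P ≠ 0 := by
  intro h
  apply hP
  rw [← tr_tr a b P, h, map_zero]

lemma aeval_tr' (a b : k) (P : MvPolynomial (Fin 2) k) :
    aeval ![s - algebraMap k K a, t - algebraMap k K b] (tr a b P) = aeval ![s, t] P := by
  rw [aeval_tr, sub_add_cancel, sub_add_cancel]

lemma coord_tr (h : Coord k ![s, t]) (a b : k) :
    Coord k ![s - algebraMap k K a, t - algebraMap k K b] := by
  constructor
  · rw [algebraicIndependent_iff]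
    intro P hP
    by_contra hne
    apply aeval_ne h (tr_ne (-a) (-b) hne)
    rw [aeval_tr, map_neg, map_neg, ← sub_eq_add_neg, ← sub_eq_add_neg, hP]
  · intro x
    obtain ⟨P, Q, hQ, hx⟩ := h.gen x
    exact ⟨tr a b P, tr a b Q, tr_ne a b hQ, by rw [aeval_tr', aeval_tr', hx]⟩

lemma coeff_zero_tr (a b : k) (P : MvPolynomial (Fin 2) k) :
    coeff 0 (tr a b P) = eval ![a, b] P := by
  have h1 := aeval_tr (0 : k) 0 a b P
  have h2 : (![0, 0] : Fin 2 → k) = 0 := by
    ext i
    fin_cases i <;> rfl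
  rw [h2, aeval_zero] at h1
  simpa [constantCoeff_eq] using h1

/-- the ideal of the point `(a, b)` -/
abbrev ptI (a b : k) : Ideal (MvPolynomial (Fin 2) k) := Ideal.span {X 0 - C a, X 1 - C b}

lemma idealOfVars_eq : idealOfVars (Fin 2) k = ptI 0 0 := by
  rw [idealOfVars, ptI]
  congr 1
  ext x
  simp [Fin.exists_fin_two, eq_comm]

lemma tr_mem (a b a' b' : k) (n : ℕ) {P : MvPolynomial (Fin 2) k} (hP : P ∈ ptI a' b' ^ n) :
    tr a b P ∈ ptI (a' - a) (b' - b) ^ n := by
  have h1 : Ideal.map (tr a b) (ptI a' b') = ptI (a' - a) (b' - b) := by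
    rw [ptI, ptI, Ideal.map_span, Set.image_pair]
    congr 2
    · simp only [tr, map_sub, aeval_X, algHom_C, algebraMap_eq, Matrix.cons_val_zero]
      ring
    · congr 1
      simp only [tr, map_sub, aeval_X, algHom_C, algebraMap_eq, Matrix.cons_val_zero,
        Matrix.cons_val_one]
      ring
  rw [← h1, ← Ideal.map_pow]
  exact Ideal.mem_map_of_mem _ hP

lemma mem_ptI_pow (a b : k) (n : ℕ) (P : MvPolynomial (Fin 2) k) :
    P ∈ ptI a b ^ n ↔ ∀ e ∈ (tr a b P).support, n ≤ e 0 + e 1 := by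
  have h1 : P ∈ ptI a b ^ n ↔ tr a b P ∈ idealOfVars (Fin 2) k ^ n := by
    rw [idealOfVars_eq]
    constructor
    · intro hP
      simpa using tr_mem a b a b n hP
    · intro hP
      simpa [tr_tr] using tr_mem (-a) (-b) 0 0 n hP
  rw [h1, mem_pow_idealOfVars_iff]
  simp only [Finsupp.degree_eq_sum, Fin.sum_univ_two]

section Pt

variable {w : ZVal K} {a b : k}

/-- the order of vanishing at the point `(a, b)` -/
def IsPt (w : ZVal K) (s t : K) (a b : k) : Prop :=
  IsMon k w ![s - algebraMap k K a, t - algebraMap k K b] ![1, 1]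

lemma IsPt.const (hw : IsPt w s t a b) : Const k w := IsMon.const hw

lemma IsPt.le_iff (hw : IsPt w s t a b) {P : MvPolynomial (Fin 2) k} (hP : P ≠ 0) (n : ℕ) :
    (n : ℤ) ≤ w.v (aeval ![s, t] P) ↔ P ∈ ptI a b ^ n := by
  rw [mem_ptI_pow, ← aeval_tr' a b, hw _ (tr_ne a b hP)]
  simp only [Matrix.cons_val_zero, Matrix.cons_val_one, mul_one]
  exact forall₂_congr fun e _ => by omega

lemma IsPt.nonneg (hw : IsPt w s t a b) {P : MvPolynomial (Fin 2) k} (hP : P ≠ 0) :
    0 ≤ w.v (aeval ![s, t] P) := by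
  simpa using (hw.le_iff hP 0).2 (by simp)

lemma IsPt.of_eval (hw : IsPt w s t a b) {P : MvPolynomial (Fin 2) k} (hP : eval ![a, b] P ≠ 0) :
    w.v (aeval ![s, t] P) = 0 := by
  refine le_antisymm ?_ (hw.nonneg (by rintro rfl; simp at hP))
  rw [← coeff_zero_tr] at hP
  have := IsMon.le_of_coeff hw hP
  rw [aeval_tr'] at this
  simpa using this

lemma IsPt.v_u (hw : IsPt w s t a b) : w.v (s - algebraMap k K a) = 1 := IsMon.v_s hw

lemma IsPt.v_v (hw : IsPt w s t a b) : w.v (t - algebraMap k K b) = 1 := IsMon.v_t hw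

lemma IsPt.v_lin (h : Coord k ![s, t]) (hw : IsPt w s t a b) (c : k) :
    t - algebraMap k K b - algebraMap k K c * (s - algebraMap k K a) ≠ 0 ∧
      w.v (t - algebraMap k K b - algebraMap k K c * (s - algebraMap k K a)) = 1 := by
  classical
  have hc : coeff (Finsupp.single 1 1) (X 1 - C c * X 0 : MvPolynomial (Fin 2) k) ≠ 0 := by
    rw [coeff_sub, coeff_C_mul, coeff_X, coeff_X, if_pos rfl, if_neg]
    · simp
    · intro h0
      simpa using DFunLike.congr_fun h0 0
  have h1 := IsMon.le_of_coeff hw hc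
  have h2 := aeval_ne (coord_tr h a b) (P := X 1 - C c * X 0) (by
    intro h0
    simp [h0] at hc)
  simp only [map_sub, map_mul, aeval_X, aeval_C, Matrix.cons_val_zero, Matrix.cons_val_one] at h1 h2
  refine ⟨h2, le_antisymm (by simpa using h1) ?_⟩
  exact ((Ge.of_eq hw.v_v).sub (hw.const.ge_mul c (Ge.of_eq hw.v_u))).le h2

lemma IsPt.v_s3 (h : Coord k ![s, t]) (hw : IsPt w s t a b) (ha : a ≠ 0) (hb : b ≠ 0) (j : Fin 3) :
    w.v (s3 s t j) = 0 := by
  have hs : w.v s = 0 := by simpa using hw.of_eval (P := X 0) (by simpa using ha)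
  have ht : w.v t = 0 := by simpa using hw.of_eval (P := X 1) (by simpa using hb)
  rcases fin3 j with rfl | rfl | rfl
  · exact hs
  · exact ht
  · rw [v_s3_two h, hs, ht]
    rfl

lemma IsPt.v_D_two (h : Coord k ![s, t]) (hw : IsPt w s t a b) (ha : a ≠ 0) (hb : b ≠ 0) :
    w.v (aeval ![s, t] (D 2 (a * b)⁻¹)) = 1 := by
  obtain ⟨h1, h2⟩ := hw.v_lin h (-(b / a))
  have ha' : algebraMap k K a ≠ 0 := by simpa using ha
  have hb' : algebraMap k K b ≠ 0 := by simpa using hb
  have hc : -b⁻¹ ≠ 0 := by simpa using hb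
  have hc' : algebraMap k K (-b⁻¹) ≠ 0 := by simpa using hb
  have h3 : aeval ![s, t] (D 2 (a * b)⁻¹) = algebraMap k K (-b⁻¹) *
      (t - algebraMap k K b - algebraMap k K (-(b / a)) * (s - algebraMap k K a)) +
      algebraMap k K (-(a * b)⁻¹) * ((s - algebraMap k K a) * (t - algebraMap k K b)) := by
    simp only [D_two, map_sub, map_one, map_mul, aeval_C, aeval_X, Matrix.cons_val_zero,
      Matrix.cons_val_one, map_neg, map_inv₀, map_div₀]
    field_simp
    ring
  have h4 : w.v (algebraMap k K (-b⁻¹) *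
      (t - algebraMap k K b - algebraMap k K (-(b / a)) * (s - algebraMap k K a))) = 1 := by
    rw [w.mul _ _ hc' h1, hw.const _ hc, h2, zero_add]
  rw [h3, v_add_of_lt w (mul_ne_zero hc' h1), h4]
  rw [h4]
  exact hw.const.ge_mul _ ((Ge.of_eq hw.v_u).mul (Ge.of_eq hw.v_v))

open Classical in
lemma IsPt.v_s3_sub {A : Subgroup kˣ} (h : Coord k ![s, t]) {p : A × A}
    (hw : IsPt w s t ((p.1 : kˣ) : k) ((p.2 : kˣ) : k)) (j : Fin 3) (c : A) :
    w.v (s3 s t j - algebraMap k K ((c : kˣ) : k)) = if c = tp p j then 1 else 0 := by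
  have ha := Units.ne_zero (p.1 : kˣ)
  have hb := Units.ne_zero (p.2 : kˣ)
  have h0 := Vals.v_s3_sub h w j (hw.v_s3 h ha hb j) ((c : kˣ) : k)
  split_ifs with hc
  · subst hc
    rcases fin3 j with rfl | rfl | rfl
    · exact hw.v_u
    · exact hw.v_v
    · rw [h0, ← hw.v_D_two h ha hb]
      simp [tp]
  · rw [h0]
    apply hw.of_eval
    intro h1
    apply hc
    apply coe_inj
    rcases fin3 j with rfl | rfl | rfl
    · simpa [D_zero, tp, sub_eq_zero, eq_comm] using h1
    · simpa [D_one, tp, sub_eq_zero, eq_comm] using h1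
    · simp only [D_two, map_sub, map_one, map_mul, eval_C, eval_X, Matrix.cons_val_zero,
        Matrix.cons_val_one] at h1
      have h2 : ((tp p 2 : kˣ) : k) = (((p.1 : kˣ) : k) * ((p.2 : kˣ) : k))⁻¹ := by simp [tp]
      rw [h2]
      field_simp
      linear_combination -h1

lemma IsPt.nice {A : Subgroup kˣ} (h : Coord k ![s, t]) {p : A × A}
    (hw : IsPt w s t ((p.1 : kˣ) : k) ((p.2 : kˣ) : k)) : w.Nice A s t :=
  ⟨hw.const, ⟨_, s_ne_const h _, by rw [hw.v_u]; exact one_ne_zero⟩,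
    Or.inl ⟨p, hw.v_s3 h (Units.ne_zero _) (Units.ne_zero _), hw.v_s3_sub h,
      fun c => (hw.v_lin h c).2⟩⟩

lemma IsPt.bound {A : Subgroup kˣ} [Fintype A] (h : Coord k ![s, t]) {p : A × A}
    (hw : IsPt w s t ((p.1 : kˣ) : k) ((p.2 : kˣ) : k)) (d : Fin 3 → ℤ) (c : A × A → ℤ) :
    w.bound s t d c = c p := by
  classical
  have he : ∀ q : A × A, w.e s t q = if q = p then 1 else 0 := by
    intro q
    have e0 := hw.v_s3_sub h 0 q.1
    have e1 := hw.v_s3_sub h 1 q.2
    rw [s3_zero] at e0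
    rw [s3_one] at e1
    rw [ZVal.e, e0, e1]
    change max 0 (min (if q.1 = p.1 then 1 else 0) (if q.2 = p.2 then 1 else 0)) = _
    by_cases h1 : q.1 = p.1 <;> by_cases h2 : q.2 = p.2 <;> simp [h1, h2, Prod.ext_iff]
  simp [ZVal.bound, he, hw.v_s3 h (Units.ne_zero _) (Units.ne_zero _)]

lemma IsPt.le_of_van (h : Coord k ![s, t]) (hw : IsPt w s t a b) {n : ℕ} {z : K} (hz : z ≠ 0)
    (hv : z ∈ Van k s t a b n) : (n : ℤ) ≤ w.v z := by
  obtain ⟨e, r, he, hr, hzr⟩ := hv
  have he0 : e ≠ 0 := by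
    rintro rfl
    simp at he
  have hr0 : r ≠ 0 := by
    rintro rfl
    exact mul_ne_zero hz (aeval_ne h he0) (by simpa using hzr)
  have := (hw.le_iff hr0 n).2 hr
  rw [← hzr, w.mul _ _ hz (aeval_ne h he0), hw.of_eval he] at this
  omega

end Pt

lemma v_mon (h : Coord k ![s, t]) (w : ZVal K) (i j : ℤ) :
    w.v (s ^ i * t ^ j) = i * w.v s + j * w.v t := by
  rw [w.mul _ _ (zpow_ne_zero _ (s_ne h)) (zpow_ne_zero _ (t_ne h)), v_zpow w (s_ne h),
    v_zpow w (t_ne h)]

/-- a function without poles along the prime valuations is a Laurent polynomial -/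
lemma exists_laurent (h : Coord k ![s, t]) {z : K} (hz : z ≠ 0)
    (H : ∀ (w : ZVal K) (π : MvPolynomial (Fin 2) k), Prime π → ¬ π ∣ X 0 → ¬ π ∣ X 1 →
      IsPr w ![s, t] π → 0 ≤ w.v z) :
    ∃ (N : ℕ) (P : MvPolynomial (Fin 2) k),
      z * aeval ![s, t] ((X 0 * X 1 : MvPolynomial (Fin 2) k) ^ N) = aeval ![s, t] P := by
  obtain ⟨P₀, Q₀, hQ₀, hz₀⟩ := h.gen z
  obtain ⟨P, Q, c, hrel, rfl, rfl⟩ := UniqueFactorizationMonoid.exists_reduced_factors' P₀ Q₀ hQ₀
  have hc : c ≠ 0 := left_ne_zero_of_mul hQ₀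
  have hQ : Q ≠ 0 := right_ne_zero_of_mul hQ₀
  have hz1 : z * aeval ![s, t] Q = aeval ![s, t] P := by
    apply mul_left_cancel₀ (aeval_ne h hc)
    rw [map_mul, map_mul] at hz₀
    linear_combination hz₀
  have hπ : ∀ π : MvPolynomial (Fin 2) k, Prime π → π ∣ Q → π ∣ X 0 * X 1 := by
    intro π hπ hd
    by_contra hn
    obtain ⟨w, hw⟩ := exists_isPr h hπ
    have h1 := H w π hπ (fun h0 => hn (h0.mul_right _)) (fun h0 => hn (h0.mul_left _)) hw
    have h2 := hw.of_not_dvd (P := P) fun h0 => hπ.not_isUnit (hrel h0 hd)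
    rw [← hz1, w.mul _ _ hz (aeval_ne h hQ), hw Q hQ] at h2
    have := multiplicity_ne_zero.2 hd
    omega
  have key : ∀ Q' : MvPolynomial (Fin 2) k, Q' ∣ Q → ∃ N : ℕ, Q' ∣ (X 0 * X 1) ^ N := by
    intro Q'
    induction Q' using UniqueFactorizationMonoid.induction_on_prime with
    | h₁ => exact fun h0 => absurd (zero_dvd_iff.1 h0) hQ
    | h₂ u hu => exact fun _ => ⟨0, hu.dvd⟩
    | h₃ a p _ hp ih =>
      intro hd
      obtain ⟨N, hN⟩ := ih ((dvd_mul_left _ _).trans hd)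
      refine ⟨N + 1, ?_⟩
      rw [pow_succ']
      exact mul_dvd_mul (hπ p hp ((dvd_mul_right _ _).trans hd)) hN
  obtain ⟨N, T, hT⟩ := key Q dvd_rfl
  exact ⟨N, P * T, by rw [hT, map_mul, map_mul, ← hz1, mul_assoc]⟩

end Vals

end Vale.Agent.P190
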