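import Vale.Agent.P190.GeoBasic
import Vale.Agent.P190.ValsC

/-! Valuative description of Laurent polynomials with vanishing conditions. -/

open Module

noncomputable section

namespace Vale.Agent.P190

variable {k : Type} [Field k] {A : Subgroup kˣ} [Fintype A] {K : Type} [Field K] [Algebra k K]

lemma ZVal.v_one (w : ZVal K) : w.v 1 = 0 := Vals.v_one w

lemma ZVal.v_inv (w : ZVal K) {x : K} (hx : x ≠ 0) : w.v x⁻¹ = - w.v x := Vals.v_inv w hx

lemma ZVal.v_zpow (w : ZVal K) {x : K} (hx : x ≠ 0) (n : ℤ) : w.v (x ^ n) = n * w.v x :=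
  Vals.v_zpow w hx n

lemma ZVal.v_pow (w : ZVal K) {x : K} (hx : x ≠ 0) (n : ℕ) : w.v (x ^ n) = n * w.v x :=
  Vals.v_pow w hx n

lemma ZVal.v_prod (w : ZVal K) {ι : Type} (T : Finset ι) {f : ι → K} (hf : ∀ i ∈ T, f i ≠ 0) :
    w.v (∏ i ∈ T, f i) = ∑ i ∈ T, w.v (f i) := Vals.v_prod w T hf

/-- the valuation ring -/
lemma ZVal.exists_valuationSubring (w : ZVal K) :
    ∃ B : ValuationSubring K, ∀ x, x ∈ B ↔ x = 0 ∨ 0 ≤ w.v x := Vals.exists_valuationSubring w

open Classical in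
theorem exists_vals (A : Subgroup kˣ) [Fintype A] {s t : K} (h : Coord k ![s, t]) :
    ∃ 𝒲 : Set (ZVal K), (∀ w ∈ 𝒲, w.Nice A s t) ∧
      (∀ (j₀ : Fin 3) (a₀ : A), ∃ w ∈ 𝒲, ∀ (j : Fin 3) (a : A),
        w.v (s3 s t j - algebraMap k K ((a : kˣ) : k)) = if j = j₀ ∧ a = a₀ then 1 else 0) ∧
      ∀ (d : Fin 3 → ℤ) (c : A × A → ℤ) (z : K), z ≠ 0 →
        (z ∈ HexV A s t d c ↔ ∀ w ∈ 𝒲, w.bound s t d c ≤ w.v z) := by
  refine ⟨{w | (∃ π : MvPolynomial (Fin 2) k, Prime π ∧ ¬ π ∣ MvPolynomial.X 0 ∧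
      ¬ π ∣ MvPolynomial.X 1 ∧ Vals.IsPr w ![s, t] π) ∨
      (∃ a b : ℤ, Vals.Six a b ∧ Vals.IsMon k w ![s, t] ![a, b]) ∨
      ∃ p : A × A, Vals.IsPt w s t ((p.1 : kˣ) : k) ((p.2 : kˣ) : k)}, ?_, ?_, ?_⟩
  · rintro w (⟨π, hπ, h0, h1, hw⟩ | ⟨a, b, hab, hw⟩ | ⟨p, hw⟩)
    · exact hw.nice A h hπ h0 h1
    · exact hw.nice A h hab
    · exact hw.nice h
  · intro j₀ a₀
    have ha₀ : ((a₀ : kˣ) : k) ≠ 0 := Units.ne_zero _
    have hj : ¬ (j₀ = 2 ∧ ((a₀ : kˣ) : k) = 0) := fun h' => ha₀ h'.2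
    have hπ := (Vals.D_irred hj).prime
    obtain ⟨w, hw⟩ := Vals.exists_isPr h hπ
    have h0 : ¬ Vals.D j₀ ((a₀ : kˣ) : k) ∣ MvPolynomial.X 0 := fun hd =>
      ha₀ (Vals.D_dvd h (j' := 0) hj (by simpa [Vals.D_zero] using hd)).2
    have h1 : ¬ Vals.D j₀ ((a₀ : kˣ) : k) ∣ MvPolynomial.X 1 := fun hd =>
      ha₀ (Vals.D_dvd h (j' := 1) hj (by simpa [Vals.D_one] using hd)).2
    exact ⟨w, Or.inl ⟨_, hπ, h0, h1, hw⟩, hw.v_s3_sub' h hπ h0 h1 dvd_rfl⟩
  · intro d c z hz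
    have hs := Vals.s_ne h
    have ht := Vals.t_ne h
    constructor
    · rintro ⟨hH, hV⟩ w (⟨π, hπ, h0, h1, hw⟩ | ⟨a, b, hab, hw⟩ | ⟨p, hw⟩)
      · rw [hw.bound h hπ h0 h1]
        refine ((hw.const hπ).ge_span ?_ hH).le hz
        rintro _ ⟨e, -, rfl⟩
        have e0 : w.v s = 0 := hw.v_s3 h h0 h1 0
        have e1 : w.v t = 0 := hw.v_s3 h h0 h1 1
        exact Vals.Ge.of_eq (by rw [Vals.v_mon h, e0, e1]; simp)
      · rw [hw.bound h]
        refine (hw.const.ge_span ?_ hH).le hz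
        rintro _ ⟨e, he, rfl⟩
        have e0 : w.v s = a := hw.v_s
        have e1 : w.v t = b := hw.v_t
        refine Or.inr ?_
        rw [Vals.v_mon h, e0, e1]
        unfold InHex at he
        rcases hab with ⟨rfl, rfl⟩ | ⟨rfl, rfl⟩ | ⟨rfl, rfl⟩ | ⟨rfl, rfl⟩ | ⟨rfl, rfl⟩ | ⟨rfl, rfl⟩ <;>
          norm_num <;> omega
      · rw [hw.bound h]
        have := hw.le_of_van h hz ((Submodule.mem_iInf _).1 hV p)
        omega
    · intro H
      obtain ⟨N, P, hP⟩ := Vals.exists_laurent h hz fun w π hπ h0 h1 hw => by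
        rw [← hw.bound h hπ h0 h1 d c]
        exact H w (Or.inl ⟨π, hπ, h0, h1, hw⟩)
      have hXN : ((MvPolynomial.X 0 * MvPolynomial.X 1 : MvPolynomial (Fin 2) k) ^ N) ≠ 0 :=
        pow_ne_zero _ (mul_ne_zero (MvPolynomial.X_ne_zero _) (MvPolynomial.X_ne_zero _))
      have hP0 : P ≠ 0 := by
        rintro rfl
        exact mul_ne_zero hz (Vals.aeval_ne h hXN) (by simpa using hP)
      have hP' : z * (s ^ (N : ℤ) * t ^ (N : ℤ)) = MvPolynomial.aeval ![s, t] P := by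
        rw [← hP]
        simp [mul_pow]
      refine ⟨?_, (Submodule.mem_iInf _).2 fun p => ?_⟩
      · have key : ∀ a b : ℤ, Vals.Six a b → ∀ e ∈ P.support,
            d 0 * min 0 a + d 1 * min 0 b + d 2 * min 0 (-(a + b)) + (N * a + N * b) ≤
              e 0 * a + e 1 * b := by
          intro a b hab
          obtain ⟨w, hw⟩ := Vals.exists_isMon h ![a, b]
          have h1 := H w (Or.inr (Or.inl ⟨a, b, hab, hw⟩))
          have e0 : w.v s = a := hw.v_s
          have e1 : w.v t = b := hw.v_t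
          refine (hw P hP0 _).1 ?_
          rw [← hP', w.mul _ _ hz (mul_ne_zero (zpow_ne_zero _ hs) (zpow_ne_zero _ ht)),
            Vals.v_mon h, e0, e1, ← hw.bound h d c]
          omega
        have hz' : z = ∑ e ∈ P.support, MvPolynomial.coeff e P •
            (s ^ ((e 0 : ℤ) - N) * t ^ ((e 1 : ℤ) - N)) := by
          apply mul_right_cancel₀ (mul_ne_zero (zpow_ne_zero (N : ℤ) hs) (zpow_ne_zero (N : ℤ) ht))
          rw [hP', Finset.sum_mul, MvPolynomial.aeval_def, MvPolynomial.eval₂_eq']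
          refine Finset.sum_congr rfl fun e _ => ?_
          rw [Fin.prod_univ_two, Algebra.smul_def, zpow_sub₀ hs, zpow_sub₀ ht]
          simp only [Matrix.cons_val_zero, Matrix.cons_val_one, zpow_natCast]
          field_simp
        rw [hz']
        refine Submodule.sum_mem _ fun e he => Submodule.smul_mem _ _ (Submodule.subset_span
          ⟨((e 0 : ℤ) - N, (e 1 : ℤ) - N), ?_, rfl⟩)
        have k1 := key 1 0 (by simp [Vals.Six]) e he
        have k2 := key (-1) 0 (by simp [Vals.Six]) e he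
        have k3 := key 0 1 (by simp [Vals.Six]) e he
        have k4 := key 0 (-1) (by simp [Vals.Six]) e he
        have k5 := key 1 (-1) (by simp [Vals.Six]) e he
        have k6 := key (-1) 1 (by simp [Vals.Six]) e he
        norm_num at k1 k2 k3 k4 k5 k6
        unfold InHex
        dsimp only
        omega
      · obtain ⟨w, hw⟩ := Vals.exists_isMon (Vals.coord_tr h ((p.1 : kˣ) : k) ((p.2 : kˣ) : k))
          ![1, 1]
        replace hw : Vals.IsPt w s t ((p.1 : kˣ) : k) ((p.2 : kˣ) : k) := hw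
        have h1 := H w (Or.inr (Or.inr ⟨p, hw⟩))
        have he : MvPolynomial.eval ![((p.1 : kˣ) : k), ((p.2 : kˣ) : k)]
            ((MvPolynomial.X 0 * MvPolynomial.X 1 : MvPolynomial (Fin 2) k) ^ N) ≠ 0 := by
          simp
        refine ⟨_, P, he, (hw.le_iff hP0 _).1 ?_, hP⟩
        have h2 := hw.nonneg hP0
        rw [hw.bound h] at h1
        rw [← hP, w.mul _ _ hz (Vals.aeval_ne h hXN), hw.of_eval he] at h2 ⊢
        omega

end Vale.Agent.P190
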