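import Vale.Agent.P190.Defs

/-! Construction of integer valued valuations on a field of rational functions. -/

open MvPolynomial

noncomputable section

namespace Vale.Agent.P190

namespace Vals

section Generic

variable {K : Type} [Field K]

lemma v_one (w : ZVal K) : w.v 1 = 0 := by
  have := w.mul 1 1 one_ne_zero one_ne_zero
  rw [mul_one] at this
  omega

lemma v_inv (w : ZVal K) {x : K} (hx : x ≠ 0) : w.v x⁻¹ = - w.v x := by
  have := w.mul x x⁻¹ hx (inv_ne_zero hx)
  rw [mul_inv_cancel₀ hx, v_one] at this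
  omega

lemma v_pow (w : ZVal K) {x : K} (hx : x ≠ 0) (n : ℕ) : w.v (x ^ n) = n * w.v x := by
  induction n with
  | zero => simp [v_one]
  | succ n ih =>
    rw [pow_succ, w.mul _ _ (pow_ne_zero _ hx) hx, ih]
    push_cast
    ring

lemma v_zpow (w : ZVal K) {x : K} (hx : x ≠ 0) (n : ℤ) : w.v (x ^ n) = n * w.v x := by
  obtain ⟨m, rfl | rfl⟩ := n.eq_nat_or_neg
  · rw [zpow_natCast, v_pow w hx]
  · rw [zpow_neg, zpow_natCast, v_inv w (pow_ne_zero _ hx), v_pow w hx]
    ring

lemma v_prod (w : ZVal K) {ι : Type} (T : Finset ι) {f : ι → K} (hf : ∀ i ∈ T, f i ≠ 0) :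
    w.v (∏ i ∈ T, f i) = ∑ i ∈ T, w.v (f i) := by
  classical
  induction T using Finset.induction_on with
  | empty => simp [v_one]
  | insert a T ha ih =>
    have h1 : ∀ i ∈ T, f i ≠ 0 := fun i hi => hf i (Finset.mem_insert_of_mem hi)
    rw [Finset.prod_insert ha, Finset.sum_insert ha,
      w.mul _ _ (hf a (Finset.mem_insert_self _ _)) (Finset.prod_ne_zero_iff.2 h1), ih h1]

lemma v_neg (w : ZVal K) (x : K) : w.v (-x) = w.v x := by
  by_cases hx : x = 0
  · simp [hx]
  have h1 : w.v (-1) = 0 := by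
    have := w.mul (-1) (-1) (by simp) (by simp)
    rw [neg_mul_neg, mul_one, v_one] at this
    omega
  have := w.mul (-1) x (by simp) hx
  rw [neg_one_mul, h1] at this
  omega

/-- `x` is zero or has valuation at least `n` -/
def Ge (w : ZVal K) (n : ℤ) (x : K) : Prop := x = 0 ∨ n ≤ w.v x

lemma Ge.zero (w : ZVal K) (n : ℤ) : Ge w n 0 := Or.inl rfl

lemma Ge.add {w : ZVal K} {n : ℤ} {x y : K} (hx : Ge w n x) (hy : Ge w n y) : Ge w n (x + y) := by
  by_cases hx0 : x = 0
  · simpa [hx0] using hy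
  by_cases hy0 : y = 0
  · simpa [hy0] using hx
  by_cases hxy : x + y = 0
  · exact Or.inl hxy
  have := w.add x y hx0 hy0 hxy
  exact Or.inr ((le_min (hx.resolve_left hx0) (hy.resolve_left hy0)).trans this)

lemma Ge.neg {w : ZVal K} {n : ℤ} {x : K} (hx : Ge w n x) : Ge w n (-x) := by
  rcases hx with rfl | hx
  · simpa using Ge.zero w n
  · exact Or.inr (by rwa [v_neg])

lemma Ge.sub {w : ZVal K} {n : ℤ} {x y : K} (hx : Ge w n x) (hy : Ge w n y) : Ge w n (x - y) := by
  rw [sub_eq_add_neg]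
  exact hx.add hy.neg

lemma Ge.mul {w : ZVal K} {n n' : ℤ} {x y : K} (hx : Ge w n x) (hy : Ge w n' y) :
    Ge w (n + n') (x * y) := by
  by_cases hx0 : x = 0
  · simpa [hx0] using Ge.zero w _
  by_cases hy0 : y = 0
  · simpa [hy0] using Ge.zero w _
  refine Or.inr ?_
  rw [w.mul x y hx0 hy0]
  exact add_le_add (hx.resolve_left hx0) (hy.resolve_left hy0)

lemma Ge.mono {w : ZVal K} {n n' : ℤ} {x : K} (hx : Ge w n x) (h : n' ≤ n) : Ge w n' x :=
  hx.imp_right fun h' => h.trans h'

lemma Ge.of_eq {w : ZVal K} {n : ℤ} {x : K} (h : w.v x = n) : Ge w n x := Or.inr h.ge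

lemma Ge.le {w : ZVal K} {n : ℤ} {x : K} (hx : Ge w n x) (h : x ≠ 0) : n ≤ w.v x :=
  hx.resolve_left h

/-- adding something of larger valuation does not change the valuation -/
lemma v_add_of_lt (w : ZVal K) {x y : K} (hx : x ≠ 0) (hy : Ge w (w.v x + 1) y) :
    w.v (x + y) = w.v x := by
  have hxy : x + y ≠ 0 := by
    intro h
    have hy' : y = -x := by linear_combination h
    have := hy.le (by rw [hy']; exact neg_ne_zero.2 hx)
    rw [hy', v_neg] at this
    omega
  have h1 : w.v x ≤ w.v (x + y) := ((Ge.of_eq rfl).add (hy.mono (by omega))).le hxy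
  by_contra hne
  have h2 : Ge w (w.v x + 1) (x + y) := Or.inr (by omega)
  have h3 := (h2.sub hy).le (by simpa using hx)
  rw [add_sub_cancel_right] at h3
  omega

lemma exists_valuationSubring (w : ZVal K) :
    ∃ B : ValuationSubring K, ∀ x, x ∈ B ↔ x = 0 ∨ 0 ≤ w.v x := by
  refine ⟨{ carrier := {x | Ge w 0 x}
            mul_mem' := fun ha hb => by simpa using ha.mul hb
            one_mem' := Ge.of_eq (v_one w)
            add_mem' := fun ha hb => ha.add hb
            zero_mem' := Ge.zero w 0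
            neg_mem' := fun ha => ha.neg
            mem_or_inv_mem' := ?_ }, fun x => Iff.rfl⟩
  intro x
  by_cases hx : x = 0
  · exact Or.inl (Or.inl hx)
  rcases le_total 0 (w.v x) with h | h
  · exact Or.inl (Or.inr h)
  · refine Or.inr (Or.inr ?_)
    rw [v_inv w hx]
    omega

variable {k : Type} [Field k] [Algebra k K]

/-- trivial on the constants -/
def Const (k : Type) [Field k] [Algebra k K] (w : ZVal K) : Prop :=
  ∀ c : k, c ≠ 0 → w.v (algebraMap k K c) = 0

lemma Const.ge {w : ZVal K} (hw : Const k w) (c : k) : Ge w 0 (algebraMap k K c) := by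
  by_cases hc : c = 0
  · exact Or.inl (by simp [hc])
  · exact Ge.of_eq (hw c hc)

lemma Const.ge_mul {w : ZVal K} (hw : Const k w) (c : k) {n : ℤ} {x : K} (hx : Ge w n x) :
    Ge w n (algebraMap k K c * x) := by
  simpa using (hw.ge c).mul hx

lemma Const.ge_span {w : ZVal K} (hw : Const k w) {n : ℤ} {S : Set K} (hS : ∀ x ∈ S, Ge w n x)
    {x : K} (hx : x ∈ Submodule.span k S) : Ge w n x := by
  induction hx using Submodule.span_induction with
  | mem x hx => exact hS x hx
  | zero => exact Ge.zero w n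
  | add x y _ _ hx hy => exact hx.add hy
  | smul c x _ hx =>
    rw [Algebra.smul_def]
    exact hw.ge_mul c hx

lemma Const.v_sub {w : ZVal K} (hw : Const k w) {x : K} (hx : x ≠ 0) (hv : w.v x ≠ 0) {c : k}
    (hc : c ≠ 0) : w.v (x - algebraMap k K c) = min 0 (w.v x) := by
  rcases lt_or_gt_of_ne hv with h | h
  · rw [min_eq_right h.le, sub_eq_add_neg]
    exact v_add_of_lt w hx ((hw.ge c).neg.mono (by omega))
  · have hc' : -algebraMap k K c ≠ 0 := by simpa using hc
    have h0 : w.v (-algebraMap k K c) = 0 := by rw [v_neg, hw c hc]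
    rw [min_eq_left h.le, sub_eq_neg_add, v_add_of_lt w hc' (Or.inr (by omega)), h0]

end Generic

section Extend

variable {k K : Type} [Field k] [Field K] [Algebra k K] {σ : Fin 2 → K}

lemma aeval_inj (h : Coord k σ) : Function.Injective (aeval σ : MvPolynomial (Fin 2) k → K) :=
  h.indep

lemma aeval_ne (h : Coord k σ) {P : MvPolynomial (Fin 2) k} (hP : P ≠ 0) : aeval σ P ≠ 0 :=
  fun h0 => hP (aeval_inj h (by simpa using h0))

/-- extension of a valuation from the polynomial ring to the function field -/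
lemma exists_ext (h : Coord k σ) (ν : MvPolynomial (Fin 2) k → ℤ)
    (hmul : ∀ P Q, P ≠ 0 → Q ≠ 0 → ν (P * Q) = ν P + ν Q)
    (hadd : ∀ P Q, P ≠ 0 → Q ≠ 0 → P + Q ≠ 0 → min (ν P) (ν Q) ≤ ν (P + Q)) :
    ∃ w : ZVal K, ∀ P, P ≠ 0 → w.v (aeval σ P) = ν P := by
  choose a b hb hab using h.gen
  have ha : ∀ {x : K} {P Q : MvPolynomial (Fin 2) k}, x ≠ 0 → Q ≠ 0 →
      x * aeval σ Q = aeval σ P → P ≠ 0 := by
    intro x P Q hx hQ he hP
    rw [hP, map_zero] at he
    exact mul_ne_zero hx (aeval_ne h hQ) he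
  have key : ∀ {x : K} {P Q : MvPolynomial (Fin 2) k}, x ≠ 0 → Q ≠ 0 →
      x * aeval σ Q = aeval σ P → ν (a x) - ν (b x) = ν P - ν Q := by
    intro x P Q hx hQ he
    have h1 : a x * Q = P * b x := by
      apply aeval_inj h
      rw [map_mul, map_mul, ← he, ← hab x]
      ring
    have h2 := hmul _ _ (ha hx (hb x) (hab x)) hQ
    rw [h1, hmul _ _ (ha hx hQ he) (hb x)] at h2
    omega
  have h1 : ν 1 = 0 := by
    have := hmul 1 1 one_ne_zero one_ne_zero
    rw [mul_one] at this
    omega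
  refine ⟨⟨fun x => ν (a x) - ν (b x), fun x y hx hy => ?_, fun x y hx hy hxy => ?_⟩,
    fun P hP => ?_⟩
  · have hax := ha hx (hb x) (hab x)
    have hay := ha hy (hb y) (hab y)
    have := key (P := a x * a y) (mul_ne_zero hx hy) (mul_ne_zero (hb x) (hb y))
      (by rw [map_mul, map_mul, ← hab x, ← hab y]; ring)
    rw [hmul _ _ hax hay, hmul _ _ (hb x) (hb y)] at this
    omega
  · have hax := ha hx (hb x) (hab x)
    have hay := ha hy (hb y) (hab y)
    have he : (x + y) * aeval σ (b x * b y) = aeval σ (a x * b y + a y * b x) := by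
      rw [map_add, map_mul, map_mul, map_mul, ← hab x, ← hab y]; ring
    have hbb := mul_ne_zero (hb x) (hb y)
    have h2 := key hxy hbb he
    have h3 := hadd _ _ (mul_ne_zero hax (hb y)) (mul_ne_zero hay (hb x)) (ha hxy hbb he)
    rw [hmul _ _ hax (hb y), hmul _ _ hay (hb x)] at h3
    rw [hmul _ _ (hb x) (hb y)] at h2
    omega
  · have := key (P := P) (Q := 1) (aeval_ne h hP) one_ne_zero (by simp)
    change ν (a _) - ν (b _) = _
    omega

/-- the valuation attached to a prime polynomial -/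
def IsPr (w : ZVal K) (σ : Fin 2 → K) (π : MvPolynomial (Fin 2) k) : Prop :=
  ∀ P, P ≠ 0 → w.v (aeval σ P) = multiplicity π P

lemma exists_isPr (h : Coord k σ) {π : MvPolynomial (Fin 2) k} (hπ : Prime π) :
    ∃ w : ZVal K, IsPr w σ π := by
  refine exists_ext h (fun P => multiplicity π P) (fun P Q hP hQ => ?_) (fun P Q hP hQ hPQ => ?_)
  · rw [multiplicity_mul hπ (FiniteMultiplicity.of_prime_left hπ (mul_ne_zero hP hQ))]
    push_cast
    rfl
  · have h1 : min (multiplicity π P) (multiplicity π Q) ≤ multiplicity π (P + Q) := by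
      apply (FiniteMultiplicity.of_prime_left hπ hPQ).le_multiplicity_of_pow_dvd
      exact dvd_add ((pow_dvd_pow _ (min_le_left _ _)).trans (pow_multiplicity_dvd _ _))
        ((pow_dvd_pow _ (min_le_right _ _)).trans (pow_multiplicity_dvd _ _))
    omega

/-- the monomial valuation with weights `ω` -/
def IsMon (k : Type) [Field k] [Algebra k K] (w : ZVal K) (σ : Fin 2 → K) (ω : Fin 2 → ℤ) : Prop :=
  ∀ P : MvPolynomial (Fin 2) k, P ≠ 0 → ∀ n : ℤ,
    (n ≤ w.v (aeval σ P) ↔ ∀ e ∈ P.support, n ≤ e 0 * ω 0 + e 1 * ω 1)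

/-- weighted homogeneous components as a Hahn series -/
def hahn (ω : Fin 2 → ℤ) :
    MvPolynomial (Fin 2) k →+* HahnSeries ℤ (MvPolynomial (Fin 2) k) :=
  eval₂Hom (HahnSeries.C.comp C) fun i => HahnSeries.single (ω i) (X i)

lemma hahn_monomial (ω : Fin 2 → ℤ) (e : Fin 2 →₀ ℕ) (c : k) :
    hahn ω (monomial e c) = HahnSeries.single (e 0 * ω 0 + e 1 * ω 1) (monomial e c) := by
  rw [hahn, eval₂Hom_monomial, Finsupp.prod_fintype _ _ (by simp), Fin.prod_univ_two,
    RingHom.comp_apply, HahnSeries.C_apply, HahnSeries.single_pow, HahnSeries.single_pow,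
    HahnSeries.single_mul_single, HahnSeries.single_mul_single, zero_add, nsmul_eq_mul,
    nsmul_eq_mul, monomial_eq, Finsupp.prod_fintype _ _ (by simp), Fin.prod_univ_two]

lemma hahn_coeff (ω : Fin 2 → ℤ) (P : MvPolynomial (Fin 2) k) (n : ℤ) (e : Fin 2 →₀ ℕ) :
    coeff e ((hahn ω P).coeff n) = if n = e 0 * ω 0 + e 1 * ω 1 then coeff e P else 0 := by
  classical
  induction P using MvPolynomial.induction_on' with
  | monomial e' c =>
    rw [hahn_monomial, HahnSeries.coeff_single, coeff_monomial]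
    by_cases he : e' = e
    · subst he
      rw [if_pos rfl]
      split_ifs <;> simp
    · split_ifs <;> simp [he]
  | add P Q hP hQ =>
    rw [map_add, HahnSeries.coeff_add, coeff_add, hP, hQ, coeff_add]
    split_ifs <;> simp

lemma hahn_ne (ω : Fin 2 → ℤ) {P : MvPolynomial (Fin 2) k} (hP : P ≠ 0) : hahn ω P ≠ 0 := by
  intro h0
  apply hP
  ext e
  have := hahn_coeff ω P (e 0 * ω 0 + e 1 * ω 1) e
  rw [h0, if_pos rfl] at this
  simpa using this.symm

lemma exists_isMon (h : Coord k σ) (ω : Fin 2 → ℤ) : ∃ w : ZVal K, IsMon k w σ ω := by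
  obtain ⟨w, hw⟩ := exists_ext h (fun P => (hahn ω P).order) (fun P Q hP hQ => by
      rw [map_mul, HahnSeries.order_mul (hahn_ne ω hP) (hahn_ne ω hQ)]) (fun P Q hP hQ hPQ => by
      have := hahn_ne ω hPQ
      rw [map_add] at this ⊢
      exact HahnSeries.min_order_le_order_add this)
  refine ⟨w, fun P hP n => ?_⟩
  rw [hw P hP, HahnSeries.le_order_iff_forall (hahn_ne ω hP)]
  constructor
  · intro H e he
    by_contra hlt
    have := hahn_coeff ω P (e 0 * ω 0 + e 1 * ω 1) e
    rw [H _ (not_le.1 hlt), if_pos rfl] at this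
    exact mem_support_iff.1 he (by simpa using this.symm)
  · intro H j hj
    ext e
    rw [hahn_coeff, coeff_zero]
    split_ifs with hje
    · by_contra hne
      have := H e (mem_support_iff.2 hne)
      omega
    · rfl

end Extend

end Vals

end Vale.Agent.P190
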