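import Vale.Agent.P190.ValsA

/-! The prime, monomial and point valuations of a field of rational functions in two variables. -/

open MvPolynomial

noncomputable section

namespace Vale.Agent.P190

namespace Vals

variable {k K : Type} [Field k] [Field K] [Algebra k K] {s t : K}

/-- the equations of the curves `s3 j = c` -/
def D (j : Fin 3) (c : k) : MvPolynomial (Fin 2) k :=
  ![X 0 - C c, X 1 - C c, 1 - C c * X 0 * X 1] j

lemma D_zero (c : k) : D 0 c = X 0 - C c := rfl
lemma D_one (c : k) : D 1 c = X 1 - C c := rfl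
lemma D_two (c : k) : D 2 c = 1 - C c * X 0 * X 1 := rfl

lemma s3_zero : s3 s t 0 = s := rfl
lemma s3_one : s3 s t 1 = t := rfl
lemma s3_two : s3 s t 2 = (s * t)⁻¹ := rfl

lemma fin3 (j : Fin 3) : j = 0 ∨ j = 1 ∨ j = 2 := by
  fin_cases j <;> simp

lemma coeff_D_zero (c : k) : coeff (Finsupp.single 0 1) (D 0 c) = 1 := by
  classical
  rw [D_zero, coeff_sub, coeff_X, if_pos rfl, coeff_C, if_neg, sub_zero]
  exact (Finsupp.single_ne_zero.2 one_ne_zero).symm

lemma coeff_D_one (c : k) : coeff (Finsupp.single 1 1) (D 1 c) = 1 := by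
  classical
  rw [D_one, coeff_sub, coeff_X, if_pos rfl, coeff_C, if_neg, sub_zero]
  exact (Finsupp.single_ne_zero.2 one_ne_zero).symm

lemma coeff_D_two (c : k) : coeff 0 (D 2 c) = 1 := by
  rw [D_two, ← constantCoeff_eq]
  simp

lemma D_ne (j : Fin 3) (c : k) : D j c ≠ 0 := by
  intro h
  rcases fin3 j with rfl | rfl | rfl
  · simpa [h] using coeff_D_zero c
  · simpa [h] using coeff_D_one c
  · simpa [h] using coeff_D_two c

lemma s_ne_const (h : Coord k ![s, t]) (c : k) : s - algebraMap k K c ≠ 0 := by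
  simpa [D_zero] using aeval_ne h (D_ne 0 c)

lemma t_ne_const (h : Coord k ![s, t]) (c : k) : t - algebraMap k K c ≠ 0 := by
  simpa [D_one] using aeval_ne h (D_ne 1 c)

lemma s_ne (h : Coord k ![s, t]) : s ≠ 0 := by simpa using s_ne_const h 0

lemma t_ne (h : Coord k ![s, t]) : t ≠ 0 := by simpa using t_ne_const h 0

lemma s3_ne (h : Coord k ![s, t]) (j : Fin 3) : s3 s t j ≠ 0 := by
  rcases fin3 j with rfl | rfl | rfl
  · exact s_ne h
  · exact t_ne h
  · exact inv_ne_zero (mul_ne_zero (s_ne h) (t_ne h))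

lemma v_s3_two (h : Coord k ![s, t]) (w : ZVal K) : w.v (s3 s t 2) = -(w.v s + w.v t) := by
  rw [s3_two, v_inv w (mul_ne_zero (s_ne h) (t_ne h)), w.mul _ _ (s_ne h) (t_ne h)]

lemma v_s3_sub (h : Coord k ![s, t]) (w : ZVal K) (j : Fin 3) (hj : w.v (s3 s t j) = 0) (c : k) :
    w.v (s3 s t j - algebraMap k K c) = w.v (aeval ![s, t] (D j c)) := by
  rcases fin3 j with rfl | rfl | rfl
  · simp [D_zero, s3_zero]
  · simp [D_one, s3_one]
  · have hst := mul_ne_zero (s_ne h) (t_ne h)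
    have h1 : s3 s t 2 - algebraMap k K c = aeval ![s, t] (D 2 c) * s3 s t 2 := by
      simp only [D_two, s3_two, map_sub, map_one, map_mul, aeval_C, aeval_X, Matrix.cons_val_zero,
        Matrix.cons_val_one]
      have := s_ne h
      have := t_ne h
      field_simp
    rw [h1, w.mul _ _ (aeval_ne h (D_ne 2 c)) (s3_ne h 2), hj, add_zero]

lemma D_irred {j : Fin 3} {c : k} (hj : ¬ (j = 2 ∧ c = 0)) : Irreducible (D j c) := by
  rcases fin3 j with rfl | rfl | rfl
  · have := irreducible_mul_X_add (1 : MvPolynomial (Fin 2) k) (-C c) 0 one_ne_zero (by simp)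
      (by simp) isRelPrime_one_left
    rwa [one_mul, ← sub_eq_add_neg] at this
  · have := irreducible_mul_X_add (1 : MvPolynomial (Fin 2) k) (-C c) 1 one_ne_zero (by simp)
      (by simp) isRelPrime_one_left
    rwa [one_mul, ← sub_eq_add_neg] at this
  · have hc : c ≠ 0 := fun hc => hj ⟨rfl, hc⟩
    have hv : (1 : Fin 2) ∉ (C (-c) * X 0 : MvPolynomial (Fin 2) k).vars := by
      classical
      intro hm
      have := vars_mul _ _ hm
      simp at this
    have := irreducible_mul_X_add (C (-c) * X 0 : MvPolynomial (Fin 2) k) 1 1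
      (mul_ne_zero (by simpa using hc) (X_ne_zero _)) hv (by simp) isRelPrime_one_right
    convert this using 1
    rw [D_two, map_neg]
    ring

lemma D_dvd (h : Coord k ![s, t]) {j j' : Fin 3} {c c' : k} (hj : ¬ (j = 2 ∧ c = 0))
    (hd : D j c ∣ D j' c') : j = j' ∧ c = c' := by
  have key : ∀ pt : Fin 2 → K, aeval pt (D j c) = 0 → aeval pt (D j' c') = 0 := by
    intro pt h0
    obtain ⟨Q, hQ⟩ := hd
    rw [hQ, map_mul, h0, zero_mul]
  have hinj := (algebraMap k K).injective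
  have hs : ∀ a : k, 1 - algebraMap k K a * s ≠ 0 := by
    intro a h0
    have ha : a ≠ 0 := by
      rintro rfl
      simp at h0
    apply s_ne_const h a⁻¹
    have ha' : algebraMap k K a ≠ 0 := by simpa using ha
    rw [map_inv₀]
    field_simp
    linear_combination -h0
  rcases fin3 j with rfl | rfl | rfl
  · have := key ![algebraMap k K c, s] (by simp [D_zero])
    rcases fin3 j' with rfl | rfl | rfl
    · exact ⟨rfl, hinj (by simpa [D_zero, sub_eq_zero] using this)⟩
    · exact absurd (by simpa [D_one] using this) (s_ne_const h c')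
    · exact absurd (by simpa [D_two] using this) (hs (c' * c))
  · have := key ![s, algebraMap k K c] (by simp [D_one])
    rcases fin3 j' with rfl | rfl | rfl
    · exact absurd (by simpa [D_zero] using this) (s_ne_const h c')
    · exact ⟨rfl, hinj (by simpa [D_one, sub_eq_zero] using this)⟩
    · exact absurd (by simpa [D_two, mul_right_comm] using this) (hs (c' * c))
  · have hc : c ≠ 0 := fun hc => hj ⟨rfl, hc⟩
    have hc' : algebraMap k K c ≠ 0 := by simpa using hc
    have hs0 := s_ne h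
    have := key ![s, (algebraMap k K c * s)⁻¹] (by
      simp only [D_two, map_sub, map_one, map_mul, aeval_C, aeval_X, Matrix.cons_val_zero,
        Matrix.cons_val_one]
      field_simp
      ring)
    rcases fin3 j' with rfl | rfl | rfl
    · exact absurd (by simpa [D_zero] using this) (s_ne_const h c')
    · refine absurd ?_ (hs (c' * c))
      simp only [D_one, map_sub, aeval_C, aeval_X, Matrix.cons_val_zero,
        Matrix.cons_val_one] at this
      rw [map_mul]
      field_simp at this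
      linear_combination this
    · refine ⟨rfl, hinj ?_⟩
      simp only [D_two, map_sub, map_one, map_mul, aeval_C, aeval_X, Matrix.cons_val_zero,
        Matrix.cons_val_one] at this
      field_simp at this
      linear_combination this

/-! ### Prime valuations -/

section Pr

variable {w : ZVal K} {π : MvPolynomial (Fin 2) k}

lemma D_of_dvd (hπ : Prime π) {j : Fin 3} {c : k} (hd : π ∣ D j c) :
    ¬ (j = 2 ∧ c = 0) ∧ D j c ∣ π := by
  have hj : ¬ (j = 2 ∧ c = 0) := by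
    rintro ⟨rfl, rfl⟩
    apply hπ.not_dvd_one
    simpa [D_two] using hd
  exact ⟨hj, hπ.irreducible.dvd_symm (D_irred hj) hd⟩

lemma D_unique (h : Coord k ![s, t]) (hπ : Prime π) {j j' : Fin 3} {c c' : k} (hd : π ∣ D j c)
    (hd' : π ∣ D j' c') : j = j' ∧ c = c' :=
  D_dvd h (D_of_dvd hπ hd).1 ((D_of_dvd hπ hd).2.trans hd')

lemma IsPr.of_not_dvd (hw : IsPr w ![s, t] π) {P : MvPolynomial (Fin 2) k} (hP : ¬ π ∣ P) :
    w.v (aeval ![s, t] P) = 0 := by
  rw [hw P (fun h0 => hP (h0 ▸ dvd_zero _)), multiplicity_eq_zero.2 hP]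
  rfl

lemma IsPr.const (hw : IsPr w ![s, t] π) (hπ : Prime π) : Const k w := by
  intro c hc
  have := hw.of_not_dvd (P := C c) fun hd =>
    hπ.not_isUnit (isUnit_of_dvd_unit hd ((isUnit_iff_ne_zero.2 hc).map C))
  simpa using this

open Classical in
lemma IsPr.v_D (hw : IsPr w ![s, t] π) (hπ : Prime π) (j : Fin 3) (c : k) :
    w.v (aeval ![s, t] (D j c)) = if π ∣ D j c then 1 else 0 := by
  split_ifs with hd
  · rw [hw _ (D_ne j c), multiplicity_eq_of_dvd_of_not_dvd (k := 1) (by simpa using hd)]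
    · rfl
    · intro h2
      have h3 : π * π ∣ π * 1 := by
        rw [mul_one, ← pow_two]
        exact h2.trans (D_of_dvd hπ hd).2
      exact hπ.not_dvd_one ((mul_dvd_mul_iff_left hπ.ne_zero).1 h3)
  · exact hw.of_not_dvd hd

lemma IsPr.v_s3 (h : Coord k ![s, t]) (hw : IsPr w ![s, t] π) (h0 : ¬ π ∣ X 0) (h1 : ¬ π ∣ X 1)
    (j : Fin 3) : w.v (s3 s t j) = 0 := by
  have hs : w.v s = 0 := by simpa using hw.of_not_dvd h0
  have ht : w.v t = 0 := by simpa using hw.of_not_dvd h1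
  rcases fin3 j with rfl | rfl | rfl
  · exact hs
  · exact ht
  · rw [v_s3_two h, hs, ht]
    rfl

open Classical in
lemma IsPr.v_s3_sub (h : Coord k ![s, t]) (hw : IsPr w ![s, t] π) (hπ : Prime π) (h0 : ¬ π ∣ X 0)
    (h1 : ¬ π ∣ X 1) (j : Fin 3) (c : k) :
    w.v (s3 s t j - algebraMap k K c) = if π ∣ D j c then 1 else 0 := by
  rw [Vals.v_s3_sub h w j (hw.v_s3 h h0 h1 j), hw.v_D hπ]

lemma coe_inj {A : Subgroup kˣ} {a b : A} (h : ((a : kˣ) : k) = ((b : kˣ) : k)) : a = b :=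
  Subtype.ext (Units.ext h)

open Classical in
lemma IsPr.v_s3_sub' {A : Subgroup kˣ} (h : Coord k ![s, t]) (hw : IsPr w ![s, t] π)
    (hπ : Prime π) (h0 : ¬ π ∣ X 0) (h1 : ¬ π ∣ X 1) {j₀ : Fin 3} {a₀ : A}
    (hd : π ∣ D j₀ ((a₀ : kˣ) : k)) (j : Fin 3) (a : A) :
    w.v (s3 s t j - algebraMap k K ((a : kˣ) : k)) = if j = j₀ ∧ a = a₀ then 1 else 0 := by
  rw [hw.v_s3_sub h hπ h0 h1]
  by_cases hja : j = j₀ ∧ a = a₀
  · rw [if_pos hja, if_pos]
    rw [hja.1, hja.2]
    exact hd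
  · rw [if_neg hja, if_neg]
    intro hd'
    have := D_unique h hπ hd' hd
    exact hja ⟨this.1, coe_inj this.2⟩

lemma IsPr.nice (A : Subgroup kˣ) (h : Coord k ![s, t]) (hw : IsPr w ![s, t] π) (hπ : Prime π)
    (h0 : ¬ π ∣ X 0) (h1 : ¬ π ∣ X 1) : w.Nice A s t := by
  classical
  refine ⟨hw.const hπ, ⟨aeval ![s, t] π, aeval_ne h hπ.ne_zero, ?_⟩, Or.inr ⟨?_, ?_⟩⟩
  · rw [hw π hπ.ne_zero]
    have := multiplicity_ne_zero.2 (dvd_refl π)
    omega
  · by_cases hd : ∃ c, π ∣ D 0 c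
    · obtain ⟨c, hc⟩ := hd
      refine ⟨1, fun c' => ?_⟩
      rw [hw.v_s3_sub h hπ h0 h1, if_neg]
      intro hc'
      exact absurd (D_unique h hπ hc hc').1 (by decide)
    · refine ⟨0, fun c' => ?_⟩
      rw [hw.v_s3_sub h hπ h0 h1, if_neg]
      exact fun hc' => hd ⟨c', hc'⟩
  · by_cases hd : ∃ (j : Fin 3) (a : A), π ∣ D j ((a : kˣ) : k)
    · obtain ⟨j₀, a₀, hd⟩ := hd
      exact Or.inr ⟨j₀, a₀, hw.v_s3 h h0 h1, hw.v_s3_sub' h hπ h0 h1 hd⟩
    · refine Or.inl fun j a => ?_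
      rw [hw.v_s3_sub h hπ h0 h1, if_neg (fun hc' => hd ⟨j, a, hc'⟩), hw.v_s3 h h0 h1, min_self]

lemma IsPr.bound {A : Subgroup kˣ} [Fintype A] (h : Coord k ![s, t]) (hw : IsPr w ![s, t] π)
    (hπ : Prime π) (h0 : ¬ π ∣ X 0) (h1 : ¬ π ∣ X 1) (d : Fin 3 → ℤ) (c : A × A → ℤ) :
    w.bound s t d c = 0 := by
  classical
  have he : ∀ p : A × A, w.e s t p = 0 := by
    intro p
    have e0 := hw.v_s3_sub h hπ h0 h1 0 ((p.1 : kˣ) : k)
    have e1 := hw.v_s3_sub h hπ h0 h1 1 ((p.2 : kˣ) : k)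
    rw [s3_zero] at e0
    rw [s3_one] at e1
    rw [ZVal.e, e0, e1]
    split_ifs with a b
    · exact absurd (D_unique h hπ a b).1 (by decide)
    all_goals rfl
  simp [ZVal.bound, he, hw.v_s3 h h0 h1]

end Pr

/-! ### Monomial valuations -/

section Mon

variable {w : ZVal K} {σ : Fin 2 → K} {ω : Fin 2 → ℤ}

lemma IsMon.le_of_coeff (hw : IsMon k w σ ω) {P : MvPolynomial (Fin 2) k} {e : Fin 2 →₀ ℕ}
    (he : coeff e P ≠ 0) : w.v (aeval σ P) ≤ e 0 * ω 0 + e 1 * ω 1 :=
  (hw P (by rintro rfl; simp at he) _).1 le_rfl e (mem_support_iff.2 he)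

lemma IsMon.v_monomial (hw : IsMon k w σ ω) (e : Fin 2 →₀ ℕ) {c : k} (hc : c ≠ 0) :
    w.v (aeval σ (monomial e c)) = e 0 * ω 0 + e 1 * ω 1 := by
  classical
  refine le_antisymm (hw.le_of_coeff (by simpa using hc)) ?_
  refine (hw _ (by simpa using hc) _).2 fun e' he' => ?_
  rw [Finset.mem_singleton.1 (support_monomial_subset he')]

lemma IsMon.const (hw : IsMon k w σ ω) : Const k w := by
  intro c hc
  simpa using hw.v_monomial 0 hc

lemma IsMon.v_zero (hw : IsMon k w σ ω) : w.v (σ 0) = ω 0 := by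
  have := hw.v_monomial (Finsupp.single 0 1) (one_ne_zero (α := k))
  rw [← X, aeval_X] at this
  simpa using this

lemma IsMon.v_one (hw : IsMon k w σ ω) : w.v (σ 1) = ω 1 := by
  have := hw.v_monomial (Finsupp.single 1 1) (one_ne_zero (α := k))
  rw [← X, aeval_X] at this
  simpa using this

lemma IsMon.v_s (hw : IsMon k w ![s, t] ω) : w.v s = ω 0 := hw.v_zero

lemma IsMon.v_t (hw : IsMon k w ![s, t] ω) : w.v t = ω 1 := hw.v_one

lemma IsMon.v_s3_sub (h : Coord k ![s, t]) (hw : IsMon k w ![s, t] ω) (j : Fin 3)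
    (hj : w.v (s3 s t j) = 0) (c : k) : w.v (s3 s t j - algebraMap k K c) = 0 := by
  have hne : s3 s t j - algebraMap k K c ≠ 0 := by
    rcases fin3 j with rfl | rfl | rfl
    · exact s_ne_const h c
    · exact t_ne_const h c
    · intro h0
      apply aeval_ne h (D_ne 2 c)
      have hst := mul_ne_zero (s_ne h) (t_ne h)
      rw [s3_two, sub_eq_zero] at h0
      simp only [D_two, map_sub, map_one, map_mul, aeval_C, aeval_X, Matrix.cons_val_zero,
        Matrix.cons_val_one]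
      rw [← h0, mul_assoc, inv_mul_cancel₀ hst, sub_self]
  refine le_antisymm ?_ (((Ge.of_eq hj).sub (hw.const.ge c)).le hne)
  rw [Vals.v_s3_sub h w j hj]
  rcases fin3 j with rfl | rfl | rfl
  · have := hw.le_of_coeff (P := D 0 c) (e := Finsupp.single 0 1) (by simp [coeff_D_zero])
    rw [s3_zero, hw.v_s] at hj
    simpa [hj] using this
  · have := hw.le_of_coeff (P := D 1 c) (e := Finsupp.single 1 1) (by simp [coeff_D_one])
    rw [s3_one, hw.v_t] at hj
    simpa [hj] using this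
  · simpa using hw.le_of_coeff (P := D 2 c) (e := 0) (by simp [coeff_D_two])

lemma IsMon.v_s3_sub' {A : Subgroup kˣ} (h : Coord k ![s, t]) (hw : IsMon k w ![s, t] ω)
    (j : Fin 3) (a : A) :
    w.v (s3 s t j - algebraMap k K ((a : kˣ) : k)) = min 0 (w.v (s3 s t j)) := by
  by_cases hj : w.v (s3 s t j) = 0
  · rw [hw.v_s3_sub h j hj, hj, min_self]
  · exact hw.const.v_sub (s3_ne h j) hj (Units.ne_zero _)

/-- the six boundary weights -/
def Six (a b : ℤ) : Prop :=
  (a = 1 ∧ b = 0) ∨ (a = -1 ∧ b = 0) ∨ (a = 0 ∧ b = 1) ∨ (a = 0 ∧ b = -1) ∨ (a = 1 ∧ b = -1) ∨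
    (a = -1 ∧ b = 1)

lemma IsMon.nice (A : Subgroup kˣ) (h : Coord k ![s, t]) {a b : ℤ} (hw : IsMon k w ![s, t] ![a, b])
    (hab : Six a b) : w.Nice A s t := by
  have hs : w.v s = a := hw.v_s
  have ht : w.v t = b := hw.v_t
  have h2 := v_s3_two h w
  refine ⟨hw.const, ?_, Or.inr ⟨?_, Or.inl (hw.v_s3_sub' h)⟩⟩
  · by_cases ha : a = 0
    · exact ⟨t, t_ne h, by unfold Six at hab; omega⟩
    · exact ⟨s, s_ne h, by omega⟩
  · by_cases ha : a = 0
    · exact ⟨0, hw.v_s3_sub h 0 (by rw [s3_zero]; omega)⟩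
    by_cases hb : b = 0
    · exact ⟨1, hw.v_s3_sub h 1 (by rw [s3_one]; omega)⟩
    · exact ⟨2, hw.v_s3_sub h 2 (by unfold Six at hab; omega)⟩

lemma IsMon.bound {A : Subgroup kˣ} [Fintype A] (h : Coord k ![s, t]) {a b : ℤ}
    (hw : IsMon k w ![s, t] ![a, b]) (d : Fin 3 → ℤ) (c : A × A → ℤ) :
    w.bound s t d c = d 0 * min 0 a + d 1 * min 0 b + d 2 * min 0 (-(a + b)) := by
  have hs : w.v s = a := hw.v_s
  have ht : w.v t = b := hw.v_t
  have he : ∀ p : A × A, w.e s t p = 0 := by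
    intro p
    have e0 := hw.v_s3_sub' h 0 p.1
    rw [s3_zero] at e0
    rw [ZVal.e, e0]
    omega
  rw [ZVal.bound, Fin.sum_univ_three, v_s3_two h, s3_zero, s3_one, hs, ht]
  simp [he]

end Mon

end Vals

end Vale.Agent.P190
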