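import Vale.Agent.P190.HN
import Vale.Agent.P190.Ext

/-! Auxiliary results on degrees of twists, seen from the base. -/

open Module

noncomputable section

namespace Vale.Agent.P190

variable {U K₀ K : Type} [Field K₀] [Field K] [Algebra K₀ K] {O₀ : Fam U K₀} {O : Fam U K}
variable {V : Type} [AddCommGroup V] [Module K V] [Module K₀ V] [IsScalarTower K₀ K V]

namespace Variance

/-- degree over the base of a twist -/
def sd (O₀ : Fam U K₀) (d : Pic O₀ →+ ℝ) (L : Sys U V) (c : Div O) (W : Submodule K₀ V) : ℝ :=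
  sdeg O₀ d (twist c L) W

/-- multiplication by a non-zero element, as an automorphism over the base field -/
def mulE (K₀ : Type) [Field K₀] [Algebra K₀ K] (V : Type) [AddCommGroup V] [Module K V]
    [Module K₀ V] [IsScalarTower K₀ K V] (y : K) (hy : y ≠ 0) : V ≃ₗ[K₀] V :=
  (LinearEquiv.smulOfNeZero K V y hy).restrictScalars K₀

lemma mulE_apply (y : K) (hy : y ≠ 0) (x : V) : mulE K₀ V y hy x = y • x := rfl

variable {d : Pic O₀ →+ ℝ} {L : Sys U V}

lemma bun (hO₀ : IsFam O₀) (hf : FinOver O₀ O) (hL : IsBun O L) (c : Div O) :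
    IsBun O₀ (twist c L) := (hL.twist c).res hf hO₀

lemma sd_congr (hL : IsBun O L) {c c' : Div O} (h : SameDiv c c') (W : Submodule K₀ V) :
    sd O₀ d L c W = sd O₀ d L c' W := by
  unfold sd
  rw [hL.twist_congr h]

lemma sd_map_mul (hO₀ : IsFam O₀) (hf : FinOver O₀ O) (hL : IsBun O L) (c₀ : Div O₀) (c : Div O)
    (W : Submodule K₀ V) :
    sd O₀ d L (Div.map hf.le c₀ * c) W = sd O₀ d L c W + finrank K₀ W * d (cl c₀) := by
  unfold sd
  rw [twist_mul, twist_map, sdeg_twist hO₀ (bun hO₀ hf hL c)]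

lemma sd_mul (hO₀ : IsFam O₀) (hO : IsFam O) (hf : FinOver O₀ O) (hL : IsBun O L) {y : K}
    (hy : y ≠ 0) (c : Div O) (W : Submodule K₀ V) :
    sd O₀ d L (ofSet O {y} * c) (W.map (mulE K₀ V y hy).toLinearMap) = sd O₀ d L c W := by
  unfold sd
  rw [twist_mul, (hL.twist c).twist_singleton hO hy]
  exact sdeg_push_equiv hO₀ (bun hO₀ hf hL c) (mulE K₀ V y hy) W

lemma finrank_mul {y : K} (hy : y ≠ 0) (W : Submodule K₀ V) :
    finrank K₀ (W.map (mulE K₀ V y hy).toLinearMap) = finrank K₀ W :=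
  LinearEquiv.finrank_map_eq _ _

lemma exists_map_eq {y : K} (hy : y ≠ 0) (W : Submodule K₀ V) :
    ∃ W' : Submodule K₀ V, W = W'.map (mulE K₀ V y hy).toLinearMap :=
  ⟨W.comap (mulE K₀ V y hy).toLinearMap,
    (Submodule.map_comap_eq_of_surjective (mulE K₀ V y hy).surjective W).symm⟩

lemma sd_sub_mono (hO₀ : IsFam O₀) (hf : FinOver O₀ O) (hd : IsWt d) (hL : IsBun O L)
    {c c' : Div O} (h : Integral (c' * c⁻¹)) {W W' : Submodule K₀ V} (hW : W ≤ W') :
    sd O₀ d L c W - sd O₀ d L c' W ≤ sd O₀ d L c W' - sd O₀ d L c' W' :=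
  sdeg_sub_mono hO₀ hd (bun hO₀ hf hL c) (bun hO₀ hf hL c') (hL.twist_le_twist h) hW

lemma sameDiv_singleton_pow (hO : IsFam O) {y : K} (hy : y ≠ 0) (a : ℕ) :
    SameDiv (ofSet O {y ^ a}) (ofSet O {y} ^ a) := by
  rw [sameDiv_iff]
  intro u
  obtain ⟨h1, h2⟩ := ofSet_singleton hO hy u
  obtain ⟨h3, h4⟩ := ofSet_singleton hO (pow_ne_zero a hy) u
  have hya := pow_ne_zero a hy
  have hn := dv_ne_zero (ofSet O {y}) u
  have hn' := dv_ne_zero (ofSet O {y ^ a}) u
  rw [dv_pow]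
  constructor
  · have := (O u).mul_mem h3 ((O u).pow_mem h2 a)
    convert this using 1
    rw [div_pow]
    field_simp
  · have := (O u).mul_mem h4 ((O u).pow_mem h1 a)
    convert this using 1
    rw [div_pow]
    field_simp

lemma integral_of_map (hO₀ : IsFam O₀) (hf : FinOver O₀ O) {c : Div O₀}
    (h : Integral (Div.map hf.le c)) : Integral c := fun u =>
  hf.mem_of_algebraMap_mem hO₀ u (h u)

lemma coprime_of_pow {D D' : Div O} (hD : Integral D) (hD' : Integral D') {m a : ℕ} (hm : 0 < m)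
    (ha : a ≤ m) (h : Coprime (D ^ m) (D' ^ m)) : Coprime D (D' ^ a) := by
  intro u
  obtain ⟨p, hp, q, hq, h1⟩ := h u
  refine ⟨p * dv D u ^ (m - 1), (O u).mul_mem hp ((O u).pow_mem (hD u) _),
    q * dv D' u ^ (m - a), (O u).mul_mem hq ((O u).pow_mem (hD' u) _), ?_⟩
  rw [dv_pow, dv_pow] at h1
  rw [dv_pow, mul_assoc, mul_assoc, ← pow_succ, ← pow_add, Nat.sub_add_cancel hm,
    Nat.sub_add_cancel ha, h1]

lemma coprime_map (hf : Over O₀ O) {c c' : Div O₀} (h : Coprime c c') :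
    Coprime (Div.map hf c) (Div.map hf c') := by
  intro u
  obtain ⟨p, hp, q, hq, h1⟩ := h u
  refine ⟨algebraMap K₀ K p, hf u p hp, algebraMap K₀ K q, hf u q hq, ?_⟩
  rw [dv_map, dv_map, ← map_mul, ← map_mul, ← map_add, h1, map_one]

/-- locality of the one step loss -/
lemma loss_local (hO₀ : IsFam O₀) (hf : FinOver O₀ O) (hL : IsBun O L) {D D' : Div O}
    {X X' : Div O₀} {m : ℕ} (hm : 0 < m) (hD : Integral D) (hD' : Integral D')
    (hX : SameDiv (D ^ m) (Div.map hf.le X)) (hX' : SameDiv (D' ^ m) (Div.map hf.le X'))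
    (hc : Coprime X X') {a : ℕ} (ha : a ≤ m) (c : Div O) (W : Submodule K₀ V) :
    sd O₀ d L c W - sd O₀ d L (D * c) W =
      sd O₀ d L (D' ^ a * c) W - sd O₀ d L (D * (D' ^ a * c)) W := by
  have hcop : Coprime D (D' ^ a) :=
    coprime_of_pow hD hD' hm ha ((coprime_map hf.le hc).congr hX.symm hX'.symm)
  have hLc := hL.twist c
  have h1 : twist X (twist c L) ≤ twist (D * c) L := by
    rw [← twist_map hf.le, ← hLc.twist_congr hX, twist_mul]
    apply hLc.twist_le_twist
    have : D ^ m * D⁻¹ = D ^ (m - 1) := by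
      conv_lhs => rw [← Nat.sub_add_cancel hm, pow_succ, mul_inv_cancel_right]
    rw [this]
    exact hD.pow _
  have h2 : twist X' (twist c L) ≤ twist (D' ^ a * c) L := by
    rw [← twist_map hf.le, ← hLc.twist_congr hX', twist_mul]
    apply hLc.twist_le_twist
    have : D' ^ m * (D' ^ a)⁻¹ = D' ^ (m - a) := by
      conv_lhs => rw [← Nat.sub_add_cancel ha, pow_add, mul_inv_cancel_right]
    rw [this]
    exact hD'.pow _
  have h3 : twist (D * c) L ≤ twist c L := by
    rw [twist_mul]; exact hLc.twist_le hD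
  have h4 : twist (D' ^ a * c) L ≤ twist c L := by
    rw [twist_mul]; exact hLc.twist_le (hD'.pow a)
  have h5 := sdeg_inf_eq (d := d) hO₀ (bun hO₀ hf hL c) (bun hO₀ hf hL (D * c))
    (bun hO₀ hf hL (D' ^ a * c)) h3 h4 hc h1 h2 W
  have h6 : twist (D * c) L ⊓ twist (D' ^ a * c) L = twist (D * (D' ^ a * c)) L := by
    rw [twist_mul, twist_mul (D' ^ a), hLc.twist_inf_twist hD (hD'.pow a) hcop, ← twist_mul,
      mul_assoc]
  rw [h6] at h5
  unfold sd
  linarith

/-- losses are subadditive -/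
lemma exists_inf (hO₀ : IsFam O₀) (hf : FinOver O₀ O) (hd : IsWt d) (hL : IsBun O L) {I : Type}
    (c : I → Div O) (hc : ∀ l, Integral (c l)) (W : Submodule K₀ V) (T : Finset I) :
    ∃ B : Sys U V, IsBun O₀ B ∧ B ≤ L ∧ (∀ l ∈ T, B ≤ twist (c l) L) ∧
      sd O₀ d L (1 : Div O) W - sdeg O₀ d B W ≤
        ∑ l ∈ T, (sd O₀ d L (1 : Div O) W - sd O₀ d L (c l) W) := by
  classical
  have hL₀ : IsBun O₀ L := hL.res hf hO₀
  have h1 : sd O₀ d L (1 : Div O) W = sdeg O₀ d L W := by unfold sd; rw [twist_one]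
  induction T using Finset.induction_on with
  | empty => exact ⟨L, hL₀, le_rfl, by simp, by simp [h1]⟩
  | insert l T hl ih =>
    obtain ⟨B, hB, hle, hT, hs⟩ := ih
    refine ⟨B ⊓ twist (c l) L, hB.inf hO₀ (bun hO₀ hf hL _), inf_le_left.trans hle, ?_, ?_⟩
    · intro l' hl'
      rcases Finset.mem_insert.1 hl' with rfl | hl'
      · exact inf_le_right
      · exact inf_le_left.trans (hT l' hl')
    · rw [Finset.sum_insert hl]
      have := sdeg_inf_ge hO₀ hd hL₀ hB (bun hO₀ hf hL (c l)) hle (hL.twist_le (hc l)) W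
      unfold sd at hs h1 ⊢
      linarith

lemma mem_twist_iff_repr {u : U} {n : ℕ} {e : Basis (Fin n) K V} (he : L u = latt (O u) e)
    (c : Div O) (x : V) : x ∈ twist c L u ↔ ∀ i, e.repr x i ∈ line c u := by
  rw [mem_twist, he, mem_latt]
  simp only [map_smul, Finsupp.smul_apply, smul_eq_mul, mem_line]

end Variance

end Vale.Agent.P190
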