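import Vale.Agent.P190.XSecB
import Vale.Agent.P190.Normal

/-! Sections of line bundles on the rational surface. -/

open Module

noncomputable section

namespace Vale.Agent.P190

variable {k : Type} [Field k] {A : Subgroup kˣ} [Fintype A] {KX : Type} [Field KX] [Algebra k KX]
  (gX : Geo k KX A 1)

theorem Geo.mem_line_of_mem_HexV {U : Type} {OX : Fam U KX} (hA : 2 ≤ Fintype.card A)
    (hO : IsFam OX) (hk : HasK k OX) {a : Fin 3 → ℤ} (ha : ∀ j, 0 ≤ a j) {b : ℤ} {z : KX}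
    (hz : z ∈ HexV A (gX.s 0) (gX.s 1) a (fun _ => b)) (u : U) :
    z * ∏ j, gX.σ j ^ a j ∈ line (gX.mu OX a b) u :=
  XSec.mem_line gX hA hO hk ha hz u

lemma XSec.v_mu {U : Type} {OX : Fam U KX} (hO : IsFam OX) {w : ZVal KX}
    {B : ValuationSubring KX} (hB : ∀ x, x ∈ B ↔ x = 0 ∨ 0 ≤ w.v x) {u : U}
    (hu : OX u ≤ B.toSubring) {e : ℤ} (h1 : ∀ j a, 0 ≤ XSec.eps gX w j a)
    (h2 : ∀ i, e ≤ ∑ a, XSec.eps gX w i a) {i : Fin 3} {aj : Fin 3 → A}
    (h3 : ∀ j, XSec.eps gX w j (aj j) = 0) (h4 : ∑ a, XSec.eps gX w i a = e)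
    (a : Fin 3 → ℤ) (b : ℤ) :
    w.v (dv (gX.mu OX a b) u) = ∑ j, a j * XSec.base gX w j + b * e := by
  have hy := gX.y_ne_zero one_pos
  have hH : ∀ j, w.v (dv (gX.Hd OX j) u) = XSec.base gX w j := by
    intro j
    obtain ⟨h5, h6⟩ := ofSet_valuation hO (Set.finite_range (gX.y j)) hu (f := gX.y j (aj j))
      ⟨_, rfl⟩ (hy _ _) (by
        rintro _ ⟨a', rfl⟩
        rw [XSec.div_mem_iff hB (hy _ _) (hy _ _), XSec.v_y, XSec.v_y, h3]
        linarith [h1 j a'])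
    rw [XSec.div_mem_iff hB (dv_ne_zero _ _) (hy _ _), XSec.v_y, h3] at h5
    rw [XSec.div_mem_iff hB (hy _ _) (dv_ne_zero _ _), XSec.v_y, h3] at h6
    unfold Geo.Hd
    linarith
  have hD : ∀ j a', w.v (dv (gX.Dd OX (j, a')) u) = XSec.eps gX w j a' := by
    intro j a'
    obtain ⟨h5, h6⟩ := ofSet_singleton hO (hy j a') u
    have h5' := (XSec.div_mem_iff hB (dv_ne_zero _ _) (hy _ _)).1 (hu h5)
    have h6' := (XSec.div_mem_iff hB (hy _ _) (dv_ne_zero _ _)).1 (hu h6)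
    unfold Geo.Dd
    rw [dv_mul, dv_inv, w.mul _ _ (dv_ne_zero _ _) (inv_ne_zero (dv_ne_zero _ _)),
      w.v_inv (dv_ne_zero _ _), hH]
    rw [XSec.v_y] at h5' h6'
    linarith
  have hP : ∀ j, ∏ a', dv (gX.Dd OX (j, a')) u ≠ 0 := fun j =>
    Finset.prod_ne_zero_iff.2 fun _ _ => dv_ne_zero _ _
  have hP' : ∀ j, w.v (∏ a', dv (gX.Dd OX (j, a')) u) = ∑ a', XSec.eps gX w j a' := fun j => by
    rw [w.v_prod _ fun _ _ => dv_ne_zero _ _]
    exact Finset.sum_congr rfl fun a' _ => hD j a'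
  have hJ : w.v (dv (gX.Jd OX) u) = e := by
    obtain ⟨h5, j, h6⟩ := gX.Jd_valuation one_pos hO hu
    have h5' := (XSec.div_mem_iff hB (hP i) (dv_ne_zero _ _)).1 (h5 i)
    have h6' := (XSec.div_mem_iff hB (dv_ne_zero _ _) (hP j)).1 h6
    rw [hP'] at h5' h6'
    linarith [h2 j]
  unfold Geo.mu
  rw [dv_mul, w.mul _ _ (dv_ne_zero _ _) (dv_ne_zero _ _), dv_prod,
    w.v_prod _ fun _ _ => dv_ne_zero _ _, dv_zpow, w.v_zpow (dv_ne_zero _ _), hJ]
  congr 1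
  exact Finset.sum_congr rfl fun j _ => by rw [dv_zpow, w.v_zpow (dv_ne_zero _ _), hH]

variable [IsAlgClosed k] [CharZero k] {F : Type} [Field F] [Algebra k F] [Algebra F KX]
  [IsScalarTower k F KX] [FiniteDimensional F KX] {P : P2 k F} {x : KX}

theorem Geo.mem_HexV_of_mem_line (hA : 2 ≤ Fintype.card A) (hN : NormData P gX.S 1 x)
    {a : Fin 3 → ℤ} {b : ℤ} {z : KX}
    (hz : ∀ u, z * ∏ j, gX.σ j ^ a j ∈ line (gX.mu (P.OK KX) a b) u) :
    z ∈ HexV A (gX.s 0) (gX.s 1) a (fun _ => b) := by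
  rcases eq_or_ne z 0 with rfl | hz0
  · exact Submodule.zero_mem _
  obtain ⟨𝒲, h𝒲, -, h⟩ := exists_vals A gX.coord_s
  rw [h _ _ _ hz0]
  intro w hw
  have hn := h𝒲 w hw
  obtain ⟨B, hB⟩ := w.exists_valuationSubring
  have hO : IsFam (P.OK KX) := (P.isSL_OK KX).isFam
  have hk : ∀ c : k, algebraMap k KX c ∈ B := by
    intro c
    rcases eq_or_ne c 0 with rfl | hc
    · rw [map_zero]; exact B.zero_mem
    · exact (hB _).2 (Or.inr (hn.const c hc).ge)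
  have hk' : ∀ c : k, B.valuation (algebraMap k KX c) ≤ 1 := fun c =>
    (B.valuation_le_one_iff _).2 (hk c)
  have htop : B ≠ ⊤ := by
    rintro rfl
    obtain ⟨y, hy, hy'⟩ := hn.nontriv
    have h1 := ((hB y).1 trivial).resolve_left hy
    have h2 := ((hB y⁻¹).1 trivial).resolve_left (inv_ne_zero hy)
    rw [w.v_inv hy] at h2
    omega
  obtain ⟨h1, h2, i, aj, h3, h4, g, hg, h5⟩ := XSec.nice_data gX hn hB hA hk'
  have hS0 : ∀ g ∈ gX.S, g ≠ 0 := fun g hg h0 => gX.zero_notMem_S one_pos (h0 ▸ hg)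
  obtain ⟨u, hu⟩ := hN.exists_place B hk htop (XSec.gen_mem gX i fun j _ => aj j) (by
      intro g' hg'
      rw [XSec.div_mem_iff hB (hS0 _ hg') (hS0 _ (XSec.gen_mem gX _ _))]
      obtain ⟨i', a', rfl⟩ := hg'
      have e1 := XSec.v_gen gX w i' a'
      have e2 : 0 ≤ ∑ j, ∑ l, XSec.eps gX w j (a' j l) :=
        Finset.sum_nonneg fun j _ => Finset.sum_nonneg fun l _ => h1 _ _
      unfold XSec.gen at e1
      rw [e1, XSec.v_gen]
      simp only [h3, Finset.sum_const_zero]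
      linarith [h2 i'])
    ⟨g, hg, fun c => by
      have h6 := h5 c
      constructor
      · intro h7
        rw [h7, sub_self, map_zero] at h6
        exact zero_ne_one h6
      · rw [← B.valuation_le_one_iff, map_inv₀, h6, inv_one]⟩
  have hσ : ∏ j, gX.σ j ^ a j ≠ 0 :=
    Finset.prod_ne_zero_iff.2 fun j _ => zpow_ne_zero _ (gX.σ_ne_zero j)
  have h6 : (z * ∏ j, gX.σ j ^ a j) / dv (gX.mu (P.OK KX) a b) u ∈ B := by
    rw [div_eq_inv_mul]
    exact hu (hz u)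
  rw [XSec.div_mem_iff hB (mul_ne_zero hz0 hσ) (dv_ne_zero _ _),
    XSec.v_mu gX hO hB hu h1 h2 h3 h4, w.mul _ _ hz0 hσ,
    w.v_prod _ fun j _ => zpow_ne_zero _ (gX.σ_ne_zero j),
    Finset.sum_congr rfl fun j _ => w.v_zpow (gX.σ_ne_zero j) (a j)] at h6
  unfold ZVal.bound
  simp only [← gX.s_eq_s3, ← Finset.mul_sum]
  simp only [XSec.base, mul_add, Finset.sum_add_distrib] at h6
  linarith

end Vale.Agent.P190
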