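import Vale.Agent.P190.GeoDiv

/-! From Laurent polynomials with vanishing conditions to local sections. -/

open Module

noncomputable section

namespace Vale.Agent.P190

namespace XSec

section Val

variable {k K : Type} [Field k] [Field K] [Algebra k K] {Γ : Type} [LinearOrderedCommGroupWithZero Γ]
  (v : Valuation K Γ)

lemma val_aeval_le (hk : ∀ c : k, v (algebraMap k K c) ≤ 1) {s t : K} (hs : v s ≤ 1)
    (ht : v t ≤ 1) (r : MvPolynomial (Fin 2) k) : v (MvPolynomial.aeval ![s, t] r) ≤ 1 := by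
  induction r using MvPolynomial.induction_on with
  | C c => rw [MvPolynomial.aeval_C]; exact hk c
  | add p q hp hq => rw [map_add]; exact v.map_add_le hp hq
  | mul_X p i hp =>
    rw [map_mul, map_mul, MvPolynomial.aeval_X]
    refine mul_le_one' hp ?_
    fin_cases i
    · exact hs
    · exact ht

lemma val_ideal_le (hk : ∀ c : k, v (algebraMap k K c) ≤ 1) {s t : K} (hs : v s ≤ 1)
    (ht : v t ≤ 1) {α β : k} {γ : Γ} (h1 : v (s - algebraMap k K α) ≤ γ)
    (h2 : v (t - algebraMap k K β) ≤ γ) {r : MvPolynomial (Fin 2) k}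
    (hr : r ∈ (Ideal.span {MvPolynomial.X 0 - MvPolynomial.C α,
      MvPolynomial.X 1 - MvPolynomial.C β} : Ideal (MvPolynomial (Fin 2) k))) :
    v (MvPolynomial.aeval ![s, t] r) ≤ γ := by
  obtain ⟨p, q, rfl⟩ := Ideal.mem_span_pair.1 hr
  rw [map_add]
  apply v.map_add_le
  · rw [map_mul, map_mul, map_sub, MvPolynomial.aeval_X, MvPolynomial.aeval_C]
    exact (mul_le_of_le_one_left' (val_aeval_le v hk hs ht p)).trans h1
  · rw [map_mul, map_mul, map_sub, MvPolynomial.aeval_X, MvPolynomial.aeval_C]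
    exact (mul_le_of_le_one_left' (val_aeval_le v hk hs ht q)).trans h2

lemma val_ideal_pow_le (hk : ∀ c : k, v (algebraMap k K c) ≤ 1) {s t : K} (hs : v s ≤ 1)
    (ht : v t ≤ 1) {α β : k} {γ : Γ} (h1 : v (s - algebraMap k K α) ≤ γ)
    (h2 : v (t - algebraMap k K β) ≤ γ) (c : ℕ) {r : MvPolynomial (Fin 2) k}
    (hr : r ∈ (Ideal.span {MvPolynomial.X 0 - MvPolynomial.C α,
      MvPolynomial.X 1 - MvPolynomial.C β} : Ideal (MvPolynomial (Fin 2) k)) ^ c) :
    v (MvPolynomial.aeval ![s, t] r) ≤ γ ^ c := by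
  induction c generalizing r with
  | zero => rw [pow_zero]; exact val_aeval_le v hk hs ht r
  | succ c ih =>
    rw [pow_succ] at hr
    refine Submodule.mul_induction_on hr ?_ ?_
    · intro a ha b hb
      rw [map_mul, map_mul, pow_succ]
      exact mul_le_mul' (ih ha) (val_ideal_le v hk hs ht h1 h2 hb)
    · intro a b ha hb
      rw [map_add]
      exact v.map_add_le ha hb

lemma sub_C_eval_mem (α β : k) (e : MvPolynomial (Fin 2) k) :
    e - MvPolynomial.C (MvPolynomial.eval ![α, β] e) ∈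
      (Ideal.span {MvPolynomial.X 0 - MvPolynomial.C α,
        MvPolynomial.X 1 - MvPolynomial.C β} : Ideal (MvPolynomial (Fin 2) k)) := by
  induction e using MvPolynomial.induction_on with
  | C c => simp
  | add p q hp hq =>
    rw [map_add, map_add, add_sub_add_comm]
    exact Ideal.add_mem _ hp hq
  | mul_X p i hp =>
    have h1 : (MvPolynomial.X i - MvPolynomial.C (![α, β] i) : MvPolynomial (Fin 2) k) ∈
        (Ideal.span {MvPolynomial.X 0 - MvPolynomial.C α,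
          MvPolynomial.X 1 - MvPolynomial.C β} : Ideal (MvPolynomial (Fin 2) k)) := by
      fin_cases i
      · exact Ideal.subset_span (by simp)
      · exact Ideal.subset_span (by simp)
    rw [map_mul, MvPolynomial.eval_X, map_mul]
    have := Ideal.add_mem _ (Ideal.mul_mem_left _ p h1)
      (Ideal.mul_mem_left _ (MvPolynomial.C (![α, β] i)) hp)
    convert this using 1
    ring

lemma val_const (hk : ∀ c : k, v (algebraMap k K c) ≤ 1) {c : k} (hc : c ≠ 0) :
    v (algebraMap k K c) = 1 := by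
  refine le_antisymm (hk c) ?_
  have h1 := hk c⁻¹
  have h2 : v (algebraMap k K c) ≠ 0 := by
    rw [Ne, v.zero_iff, map_eq_zero]; exact hc
  rw [map_inv₀, map_inv₀] at h1
  exact (inv_le_one₀ (zero_lt_iff.2 h2)).1 h1

lemma val_le_of_mem_Van (hk : ∀ c : k, v (algebraMap k K c) ≤ 1) {s t : K} {α β : k} {γ : Γ}
    (hγ : γ < 1) (h1 : v (s - algebraMap k K α) ≤ γ) (h2 : v (t - algebraMap k K β) ≤ γ) {c : ℕ}
    {z : K} (hz : z ∈ Van k s t α β c) : v z ≤ γ ^ c := by
  have hs : v s ≤ 1 := by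
    have := v.map_add_le (h1.trans hγ.le) (hk α)
    rwa [sub_add_cancel] at this
  have ht : v t ≤ 1 := by
    have := v.map_add_le (h2.trans hγ.le) (hk β)
    rwa [sub_add_cancel] at this
  obtain ⟨e, r, he, hr, h⟩ := hz
  have h3 := val_ideal_pow_le v hk hs ht h1 h2 c hr
  have h4 := val_ideal_le v hk hs ht h1 h2 (sub_C_eval_mem α β e)
  rw [map_sub, MvPolynomial.aeval_C] at h4
  have h5 : v (MvPolynomial.aeval ![s, t] e) = 1 := by
    have h6 := val_const v hk he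
    have h7 := v.map_add_eq_of_lt_right (x := MvPolynomial.aeval ![s, t] e -
      algebraMap k K (MvPolynomial.eval ![α, β] e))
      (y := algebraMap k K (MvPolynomial.eval ![α, β] e)) (by rw [h6]; exact h4.trans_lt hγ)
    rw [sub_add_cancel, h6] at h7
    exact h7
  rw [← h, map_mul, h5, mul_one] at h3
  exact h3

end Val

variable {k : Type} [Field k] {A : Subgroup kˣ} [Fintype A] {KX : Type} [Field KX] [Algebra k KX]
  (gX : Geo k KX A 1) {U : Type} {OX : Fam U KX}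

omit [Fintype A] in
lemma y_eq (j : Fin 3) (a : A) :
    gX.y j a = (gX.s j - algebraMap k KX ((a : kˣ) : k)) * gX.σ j := by
  rw [← gX.y_pow_eq, pow_one]

omit [Fintype A] in
lemma s_mul_σ (j : Fin 3) : gX.s j * gX.σ j = 1 + gX.σ j := by
  have h : gX.s j - 1 ≠ 0 := by
    have := gX.s_ne j 1
    rw [map_one] at this
    exact sub_ne_zero.2 this
  unfold Geo.σ
  field_simp
  ring

lemma mem_Hd (hA : 2 ≤ Fintype.card A) (hO : IsFam OX) (hk : HasK k OX) (j : Fin 3) (u : U) :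
    (dv (gX.Hd OX j) u)⁻¹ * gX.σ j ∈ OX u ∧
      (dv (gX.Hd OX j) u)⁻¹ * (gX.s j * gX.σ j) ∈ OX u := by
  have h := (sameDiv_iff_line _ _).1 (gX.Hd_sameDiv_Phi hA hO hk j)
  have hfin : ({1, gX.σ j} : Set KX).Finite := Set.toFinite _
  have h0 : ∃ x ∈ ({1, gX.σ j} : Set KX), x ≠ 0 := ⟨1, by simp, one_ne_zero⟩
  have h1 : (1 : KX) ∈ line (gX.Hd OX j) u := by
    rw [h]; exact mem_line_ofSet hO hfin (by simp) h0 u
  have h2 : gX.σ j ∈ line (gX.Hd OX j) u := by
    rw [h]; exact mem_line_ofSet hO hfin (by simp) h0 u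
  refine ⟨h2, ?_⟩
  rw [s_mul_σ]
  exact (line (gX.Hd OX j) u).add_mem h1 h2

omit [Fintype A] in
lemma exists_exponents {a : Fin 3 → ℤ} (ha : ∀ j, 0 ≤ a j) {e : ℤ × ℤ} (he : InHex a e) :
    ∃ f f' : Fin 3 → ℕ, (∀ j, a j = f j + f' j) ∧
      gX.s 0 ^ e.1 * gX.s 1 ^ e.2 = ∏ j, gX.s j ^ f j := by
  obtain ⟨h1, h2, h3, h4, h5, h6⟩ := he
  have a0 := ha 0
  have a1 := ha 1
  have a2 := ha 2
  obtain ⟨c, hc1, hc2, hc3, hc4, hc5, hc6⟩ : ∃ c : ℤ, 0 ≤ c ∧ 0 ≤ e.1 + c ∧ 0 ≤ e.2 + c ∧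
      c ≤ a 2 ∧ e.1 + c ≤ a 0 ∧ e.2 + c ≤ a 1 :=
    ⟨max 0 (max (-e.1) (-e.2)), by omega⟩
  refine ⟨![(e.1 + c).toNat, (e.2 + c).toNat, c.toNat],
    ![(a 0 - (e.1 + c)).toNat, (a 1 - (e.2 + c)).toNat, (a 2 - c).toNat], ?_, ?_⟩
  · intro j
    fin_cases j <;> simp <;> omega
  · have s0 : gX.s 0 ≠ 0 := by simpa using gX.s_ne 0 0
    have s1 : gX.s 1 ≠ 0 := by simpa using gX.s_ne 1 0
    rw [Fin.prod_univ_three]
    simp only [Matrix.cons_val_zero, Matrix.cons_val_one, Matrix.cons_val]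
    rw [← zpow_natCast, ← zpow_natCast, ← zpow_natCast, Int.toNat_of_nonneg hc1,
      Int.toNat_of_nonneg hc2, Int.toNat_of_nonneg hc3, zpow_add₀ s0, zpow_add₀ s1]
    have h : gX.s 0 ^ c * gX.s 1 ^ c * gX.s 2 ^ c = 1 := by
      rw [← mul_zpow, ← mul_zpow, gX.prod, one_zpow]
    calc _ = gX.s 0 ^ e.1 * gX.s 1 ^ e.2 * (gX.s 0 ^ c * gX.s 1 ^ c * gX.s 2 ^ c) := by
          rw [h, mul_one]
      _ = _ := by ring

lemma mem_of_mem_Hex (hA : 2 ≤ Fintype.card A) (hO : IsFam OX) (hk : HasK k OX)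
    {a : Fin 3 → ℤ} (ha : ∀ j, 0 ≤ a j) {z : KX} (hz : z ∈ Hex k (gX.s 0) (gX.s 1) a) (u : U) :
    z * ∏ j, ((dv (gX.Hd OX j) u)⁻¹ * gX.σ j) ^ a j ∈ OX u := by
  induction hz using Submodule.span_induction with
  | mem z hz =>
    obtain ⟨e, he, rfl⟩ := hz
    obtain ⟨f, f', hf, h⟩ := exists_exponents gX ha he
    rw [h, ← Finset.prod_mul_distrib]
    apply Subring.prod_mem
    intro j _
    obtain ⟨h1, h2⟩ := mem_Hd gX hA hO hk j u
    rw [hf j, ← Nat.cast_add, zpow_natCast, pow_add, ← mul_assoc, ← mul_pow]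
    refine (OX u).mul_mem ((OX u).pow_mem ?_ _) ((OX u).pow_mem h1 _)
    convert h2 using 1
    ring
  | zero => simp
  | add x y _ _ hx hy => rw [add_mul]; exact (OX u).add_mem hx hy
  | smul c x _ hx => rw [Algebra.smul_def, mul_assoc]; exact (OX u).mul_mem (hk u c) hx

omit [Fintype A] in
lemma val_Dd (hO : IsFam OX) {u : U} {B : ValuationSubring KX} (hB : OX u ≤ B.toSubring)
    (j : Fin 3) (a : A) : B.valuation (dv (gX.Dd OX (j, a)) u) =
      B.valuation (gX.s j - algebraMap k KX ((a : kˣ) : k)) *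
        B.valuation ((dv (gX.Hd OX j) u)⁻¹ * gX.σ j) := by
  have hy := gX.y_ne_zero one_pos j a
  obtain ⟨h1, h2⟩ := ofSet_singleton hO hy u
  have h3 := (B.valuation_le_one_iff _).2 (hB h1)
  have h4 := (B.valuation_le_one_iff _).2 (hB h2)
  have n1 : B.valuation (gX.y j a) ≠ 0 := by rw [Ne, Valuation.zero_iff]; exact hy
  have n2 : B.valuation (dv (ofSet OX {gX.y j a}) u) ≠ 0 := by
    rw [Ne, Valuation.zero_iff]; exact dv_ne_zero _ _
  rw [map_div₀, div_le_one₀ (zero_lt_iff.2 n1)] at h3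
  rw [map_div₀, div_le_one₀ (zero_lt_iff.2 n2)] at h4
  unfold Geo.Dd
  rw [dv_mul, dv_inv, map_mul, le_antisymm h3 h4, ← map_mul, ← map_mul, y_eq]
  congr 1
  ring

/-- if the exceptional divisor is a non-unit, then the centre is a grid point -/
lemma exists_label (hA : 2 ≤ Fintype.card A) (hO : IsFam OX) (hk : HasK k OX) {u : U}
    {B : ValuationSubring KX} (hB : OX u ≤ B.toSubring)
    (hJ : B.valuation (dv (gX.Jd OX) u) < 1) (i : Fin 3) :
    ∃ a : A, B.valuation (gX.s i - algebraMap k KX ((a : kˣ) : k)) ≤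
      B.valuation (dv (gX.Jd OX) u) := by
  classical
  set v := B.valuation with hv
  have hk' : ∀ c : k, v (algebraMap k KX c) ≤ 1 := fun c =>
    (B.valuation_le_one_iff _).2 (hB (hk u c))
  have nJ : v (dv (gX.Jd OX) u) ≠ 0 := by rw [Ne, Valuation.zero_iff]; exact dv_ne_zero _ _
  have h1 := (B.valuation_le_one_iff _).2 ((gX.Jd_valuation one_pos hO hB).1 i)
  rw [← hv, map_div₀, div_le_one₀ (zero_lt_iff.2 nJ), map_prod] at h1
  have hD : ∀ a, v (dv (gX.Dd OX (i, a)) u) ≤ 1 := fun a =>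
    (B.valuation_le_one_iff _).2 (hB (gX.integral_Dd one_pos hO (i, a) u))
  obtain ⟨a, ha⟩ : ∃ a, v (dv (gX.Dd OX (i, a)) u) < 1 := by
    by_contra hcon
    push Not at hcon
    rw [Finset.prod_eq_one fun a _ => le_antisymm (hD a) (hcon a)] at h1
    exact absurd (h1.trans_lt hJ) (lt_irrefl _)
  have hoth : ∀ a', a' ≠ a → v (dv (gX.Dd OX (i, a')) u) = 1 := by
    intro a' ha'
    obtain ⟨p, hp, q, hq, h⟩ := gX.coprime_Dd hO hk i ha' u
    by_contra hne
    have hlt := lt_of_le_of_ne (hD a') hne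
    have hp' : v p ≤ 1 := (B.valuation_le_one_iff _).2 (hB hp)
    have hq' : v q ≤ 1 := (B.valuation_le_one_iff _).2 (hB hq)
    have := v.map_add_lt (x := p * dv (gX.Dd OX (i, a')) u) (y := q * dv (gX.Dd OX (i, a)) u)
      (g := 1) (by rw [map_mul]; exact (mul_le_of_le_one_left' hp').trans_lt hlt)
      (by rw [map_mul]; exact (mul_le_of_le_one_left' hq').trans_lt ha)
    rw [h, map_one] at this
    exact lt_irrefl _ this
  rw [Finset.prod_eq_single a (fun a' _ h => hoth a' h) (fun h => absurd (Finset.mem_univ a) h)]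
    at h1
  obtain ⟨a', ha'⟩ : ∃ a', a' ≠ a := Fintype.exists_ne_of_one_lt_card (by omega) a
  have h2 := hoth a' ha'
  rw [val_Dd gX hO hB, ← hv] at h1 h2 ha
  generalize (dv (gX.Hd OX i) u)⁻¹ * gX.σ i = τ at h1 h2 ha
  have h3 : v τ = 1 := by
    have hc : ((a : kˣ) : k) - ((a' : kˣ) : k) ≠ 0 := by
      rw [sub_ne_zero]
      intro h
      exact ha' (Subtype.ext (Units.ext h.symm))
    have h4 := v.map_sub_eq_of_lt_left (x := (gX.s i - algebraMap k KX ((a' : kˣ) : k)) * τ)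
      (y := (gX.s i - algebraMap k KX ((a : kˣ) : k)) * τ)
      (by rw [map_mul, map_mul, h2]; exact ha)
    have h5 : (gX.s i - algebraMap k KX ((a' : kˣ) : k)) * τ -
        (gX.s i - algebraMap k KX ((a : kˣ) : k)) * τ =
        algebraMap k KX (((a : kˣ) : k) - ((a' : kˣ) : k)) * τ := by
      rw [map_sub]; ring
    rw [h5, map_mul, map_mul, h2, val_const v hk' hc, one_mul] at h4
    exact h4
  rw [h3, mul_one] at h1
  exact ⟨a, h1⟩

theorem mem_line (hA : 2 ≤ Fintype.card A)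
    (hO : IsFam OX) (hk : HasK k OX) {a : Fin 3 → ℤ} (ha : ∀ j, 0 ≤ a j) {b : ℤ} {z : KX}
    (hz : z ∈ HexV A (gX.s 0) (gX.s 1) a (fun _ => b)) (u : U) :
    z * ∏ j, gX.σ j ^ a j ∈ line (gX.mu OX a b) u := by
  have h1 := mem_of_mem_Hex gX hA hO hk ha hz.1 u
  have h2 : (dv (gX.mu OX a b) u)⁻¹ * (z * ∏ j, gX.σ j ^ a j) =
      (z * ∏ j, ((dv (gX.Hd OX j) u)⁻¹ * gX.σ j) ^ a j) * dv (gX.Jd OX) u ^ (-b) := by
    unfold Geo.mu
    simp only [dv_mul, dv_prod, dv_zpow, mul_zpow, inv_zpow, Finset.prod_mul_distrib,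
      Finset.prod_inv_distrib, zpow_neg, mul_inv]
    ring
  rw [P190.mem_line, h2]
  have hJ := gX.integral_Jd one_pos hO u
  rcases le_or_gt b 0 with hb | hb
  · refine (OX u).mul_mem h1 ?_
    obtain ⟨n, hn⟩ := Int.eq_ofNat_of_zero_le (show 0 ≤ -b by omega)
    rw [hn, zpow_natCast]
    exact (OX u).pow_mem hJ n
  obtain ⟨n, rfl⟩ := Int.eq_ofNat_of_zero_le hb.le
  rw [hO.mem_iff_valuation]
  intro B hB
  rw [← B.valuation_le_one_iff]
  set v := B.valuation with hv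
  have nJ : v (dv (gX.Jd OX) u) ≠ 0 := by rw [Ne, Valuation.zero_iff]; exact dv_ne_zero _ _
  have hJ' : v (dv (gX.Jd OX) u) ≤ 1 := (B.valuation_le_one_iff _).2 (hB hJ)
  rcases hJ'.lt_or_eq with hlt | heq
  · obtain ⟨a0, h0⟩ := exists_label gX hA hO hk hB hlt 0
    obtain ⟨a1, h1'⟩ := exists_label gX hA hO hk hB hlt 1
    have hk' : ∀ c : k, v (algebraMap k KX c) ≤ 1 := fun c =>
      (B.valuation_le_one_iff _).2 (hB (hk u c))
    have h3 := val_le_of_mem_Van v hk' hlt h0 h1' ((Submodule.mem_iInf _).1 hz.2 (a0, a1))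
    simp only [Int.toNat_natCast] at h3
    have h4 : v (∏ j, ((dv (gX.Hd OX j) u)⁻¹ * gX.σ j) ^ a j) ≤ 1 := by
      rw [B.valuation_le_one_iff]
      apply B.toSubring.prod_mem
      intro j _
      obtain ⟨e, he⟩ := Int.eq_ofNat_of_zero_le (ha j)
      rw [he, zpow_natCast]
      exact B.toSubring.pow_mem (hB (mem_Hd gX hA hO hk j u).1) _
    rw [map_mul, map_mul, zpow_neg, zpow_natCast, map_inv₀, map_pow, ← div_eq_mul_inv,
      div_le_one₀ (zero_lt_iff.2 (pow_ne_zero _ nJ))]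
    exact (mul_le_of_le_one_right' h4).trans h3
  · rw [map_mul, map_zpow₀, heq, one_zpow, mul_one]
    exact (B.valuation_le_one_iff _).2 (hB h1)

end XSec

end Vale.Agent.P190
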