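import Vale.Agent.P190.XSecA
import Vale.Agent.P190.Vals

/-! The values of the explicit divisors at the nice valuations. -/

open Module

noncomputable section

namespace Vale.Agent.P190

namespace XSec

section Val

variable {k K : Type} [Field k] [Field K] [Algebra k K] {Γ : Type} [LinearOrderedCommGroupWithZero Γ]
  (v : Valuation K Γ)

/-- `x` has a non-zero residue in `k` -/
def Res (k : Type) [Field k] [Algebra k K] (v : Valuation K Γ) (x : K) : Prop :=
  ∃ c : k, c ≠ 0 ∧ v (x - algebraMap k K c) < 1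

variable {v}

lemma Res.val (hk : ∀ c : k, v (algebraMap k K c) ≤ 1) {x : K} (h : Res k v x) : v x = 1 := by
  obtain ⟨c, hc, h⟩ := h
  have h1 := val_const v hk hc
  have := v.map_add_eq_of_lt_right (x := x - algebraMap k K c) (y := algebraMap k K c)
    (by rw [h1]; exact h)
  rwa [sub_add_cancel, h1] at this

lemma Res.one : Res k v 1 := ⟨1, one_ne_zero, by simp⟩

lemma Res.mul (hk : ∀ c : k, v (algebraMap k K c) ≤ 1) {x y : K} (hx : Res k v x)
    (hy : Res k v y) : Res k v (x * y) := by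
  have hy1 := hy.val hk
  obtain ⟨c, hc, h⟩ := hx
  obtain ⟨c', hc', h'⟩ := hy
  refine ⟨c * c', mul_ne_zero hc hc', ?_⟩
  have : x * y - algebraMap k K (c * c') =
      (x - algebraMap k K c) * y + algebraMap k K c * (y - algebraMap k K c') := by
    rw [map_mul]; ring
  rw [this]
  apply v.map_add_lt
  · rw [map_mul, hy1, mul_one]; exact h
  · rw [map_mul, val_const v hk hc, one_mul]; exact h'

lemma Res.inv (hk : ∀ c : k, v (algebraMap k K c) ≤ 1) {x : K} (hx : Res k v x) :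
    Res k v x⁻¹ := by
  have hx1 := hx.val hk
  have hx0 : x ≠ 0 := by rintro rfl; simp at hx1
  obtain ⟨c, hc, h⟩ := hx
  refine ⟨c⁻¹, inv_ne_zero hc, ?_⟩
  have hc' : algebraMap k K c ≠ 0 := by simpa using hc
  have : x⁻¹ - algebraMap k K c⁻¹ = -((x - algebraMap k K c) * x⁻¹ * (algebraMap k K c)⁻¹) := by
    rw [map_inv₀]; field_simp; ring
  rw [this, v.map_neg, map_mul, map_mul, map_inv₀, map_inv₀, hx1, val_const v hk hc]
  simpa using h

lemma Res.prod (hk : ∀ c : k, v (algebraMap k K c) ≤ 1) {ι : Type} (T : Finset ι) {f : ι → K}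
    (h : ∀ i ∈ T, Res k v (f i)) : Res k v (∏ i ∈ T, f i) :=
  Finset.prod_induction f (Res k v) (fun _ _ ha hb => ha.mul hk hb) Res.one h

lemma Res.sub_const {x : K} {b a : k} (h : v (x - algebraMap k K b) < 1) (hab : a ≠ b) :
    Res k v (x - algebraMap k K a) := by
  refine ⟨b - a, sub_ne_zero.2 hab.symm, ?_⟩
  rw [map_sub (algebraMap k K), sub_sub_sub_cancel_right]
  exact h

lemma Res.trans_mul (hk : ∀ c : k, v (algebraMap k K c) ≤ 1) {r κ : K} (hκ : Res k v κ)
    (hr : ∀ c : k, v (r - algebraMap k K c) = 1) (c : k) : v (κ * r - algebraMap k K c) = 1 := by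
  obtain ⟨κ₀, h0, h⟩ := hκ
  have h1 : v r = 1 := by simpa using hr 0
  have h0' : algebraMap k K κ₀ ≠ 0 := by simpa using h0
  have : κ * r - algebraMap k K c = (κ - algebraMap k K κ₀) * r +
      algebraMap k K κ₀ * (r - algebraMap k K (c / κ₀)) := by
    rw [map_div₀]; field_simp; ring
  have h2 : v (algebraMap k K κ₀ * (r - algebraMap k K (c / κ₀))) = 1 := by
    rw [map_mul, val_const v hk h0, hr, one_mul]
  rw [this, v.map_add_eq_of_lt_right (by rw [h2, map_mul, h1, mul_one]; exact h), h2]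

end Val

section ZV

variable {K : Type} [Field K] {w : ZVal K} {B : ValuationSubring K}

lemma v_div (w : ZVal K) {x y : K} (hx : x ≠ 0) (hy : y ≠ 0) : w.v (x / y) = w.v x - w.v y := by
  rw [div_eq_mul_inv, w.mul _ _ hx (inv_ne_zero hy), w.v_inv hy]; ring

lemma div_mem_iff (hB : ∀ x, x ∈ B ↔ x = 0 ∨ 0 ≤ w.v x) {x y : K} (hx : x ≠ 0) (hy : y ≠ 0) :
    x / y ∈ B ↔ w.v y ≤ w.v x := by
  rw [hB, v_div w hx hy]
  simp [hx, hy]

lemma val_eq_one (hB : ∀ x, x ∈ B ↔ x = 0 ∨ 0 ≤ w.v x) {x : K} (hx : x ≠ 0) (h : w.v x = 0) :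
    B.valuation x = 1 := by
  have h1 : B.valuation x ≤ 1 := (B.valuation_le_one_iff _).2 ((hB _).2 (Or.inr h.ge))
  have h2 : B.valuation x⁻¹ ≤ 1 :=
    (B.valuation_le_one_iff _).2 ((hB _).2 (Or.inr (by rw [w.v_inv hx, h]; simp)))
  have h3 : B.valuation x ≠ 0 := by rw [Ne, Valuation.zero_iff]; exact hx
  rw [map_inv₀] at h2
  exact le_antisymm h1 ((inv_le_one₀ (zero_lt_iff.2 h3)).1 h2)

lemma val_lt_one (hB : ∀ x, x ∈ B ↔ x = 0 ∨ 0 ≤ w.v x) {x : K} (hx : x ≠ 0) (h : 0 < w.v x) :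
    B.valuation x < 1 := by
  by_contra hcon
  have h3 : B.valuation x ≠ 0 := by rw [Ne, Valuation.zero_iff]; exact hx
  have h2 : B.valuation x⁻¹ ≤ 1 := by
    rw [map_inv₀]; exact (inv_le_one₀ (zero_lt_iff.2 h3)).2 (not_lt.1 hcon)
  rcases (hB _).1 ((B.valuation_le_one_iff _).1 h2) with h4 | h4
  · exact hx (inv_eq_zero.1 h4)
  · rw [w.v_inv hx] at h4; omega

end ZV

variable {k : Type} [Field k] {A : Subgroup kˣ} [Fintype A] {KX : Type} [Field KX] [Algebra k KX]
  (gX : Geo k KX A 1)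

/-- the generators -/
def gen (i : Fin 3) (a : ∀ j, Fin (gexp (Fintype.card A) i j) → A) : KX :=
  gX.U i * ∏ j, ∏ l, gX.y j (a j l)

lemma gen_mem (i : Fin 3) (a : ∀ j, Fin (gexp (Fintype.card A) i j) → A) :
    gen gX i a ∈ gX.S := ⟨i, a, rfl⟩

lemma exists_swap (i : Fin 3) (aj : Fin 3 → A) (j : Fin 3) (a' : A) :
    ∃ g ∈ gX.S, g * gX.y j (aj j) = gen gX i (fun j _ => aj j) * gX.y j a' := by
  classical
  have hpos : 0 < gexp (Fintype.card A) i j := by unfold gexp; split_ifs <;> omega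
  let l₀ : Fin (gexp (Fintype.card A) i j) := ⟨0, hpos⟩
  refine ⟨_, gen_mem gX i (Function.update (fun j _ => aj j) j
    (Function.update (fun _ => aj j) l₀ a')), ?_⟩
  unfold gen
  rw [← Finset.mul_prod_erase _ _ (Finset.mem_univ j),
    ← Finset.mul_prod_erase Finset.univ (fun j' => ∏ _l : Fin (gexp (Fintype.card A) i j'),
      gX.y j' (aj j')) (Finset.mem_univ j), Function.update_self,
    ← Finset.mul_prod_erase _ _ (Finset.mem_univ l₀),
    ← Finset.mul_prod_erase Finset.univ (fun _l : Fin (gexp (Fintype.card A) i j) =>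
      gX.y j (aj j)) (Finset.mem_univ l₀), Function.update_self]
  have h1 : ∏ l ∈ Finset.univ.erase l₀, gX.y j (Function.update (fun _ => aj j) l₀ a' l) =
      ∏ l ∈ Finset.univ.erase l₀, gX.y j (aj j) :=
    Finset.prod_congr rfl fun l hl => by rw [Function.update_of_ne (Finset.ne_of_mem_erase hl)]
  have h2 : ∏ j' ∈ Finset.univ.erase j, ∏ l : Fin (gexp (Fintype.card A) i j'), gX.y j'
      (Function.update (fun j (_ : Fin (gexp (Fintype.card A) i j)) => aj j) j
        (Function.update (fun _ => aj j) l₀ a') j' l) =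
      ∏ j' ∈ Finset.univ.erase j, ∏ _l : Fin (gexp (Fintype.card A) i j'), gX.y j' (aj j') :=
    Finset.prod_congr rfl fun j' hj' => by rw [Function.update_of_ne (Finset.ne_of_mem_erase hj')]
  rw [h1, h2]
  ring

omit [Fintype A] in
lemma sub_ne (j : Fin 3) (c : k) : gX.s j - algebraMap k KX c ≠ 0 := sub_ne_zero.2 (gX.s_ne j c)

/-- the excess of the valuation along the curve `s j = a` -/
def eps (w : ZVal KX) (j : Fin 3) (a : A) : ℤ :=
  w.v (gX.s j - algebraMap k KX ((a : kˣ) : k)) - min 0 (w.v (gX.s j))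

def base (w : ZVal KX) (j : Fin 3) : ℤ := w.v (gX.σ j) + min 0 (w.v (gX.s j))

omit [Fintype A] in
lemma v_y (w : ZVal KX) (j : Fin 3) (a : A) : w.v (gX.y j a) = base gX w j + eps gX w j a := by
  rw [y_eq, w.mul _ _ (sub_ne gX j _) (gX.σ_ne_zero j), base, eps]
  ring

lemma v_gen (w : ZVal KX) (i : Fin 3) (a : ∀ j, Fin (gexp (Fintype.card A) i j) → A) :
    w.v (gen gX i a) = (Fintype.card A + 1) * ∑ j, base gX w j + ∑ a, eps gX w i a +
      ∑ j, ∑ l, eps gX w j (a j l) := by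
  have hy := gX.y_ne_zero one_pos
  unfold gen Geo.U
  rw [w.mul _ _ (Finset.prod_ne_zero_iff.2 fun a _ => hy _ _)
    (Finset.prod_ne_zero_iff.2 fun j _ => Finset.prod_ne_zero_iff.2 fun l _ => hy _ _),
    w.v_prod _ (fun a _ => hy _ _),
    w.v_prod _ (fun j _ => Finset.prod_ne_zero_iff.2 fun l _ => hy _ _),
    Finset.sum_congr rfl fun j _ => w.v_prod _ (fun l _ => hy j (a j l))]
  simp only [v_y, Finset.sum_add_distrib, Finset.sum_const, Finset.card_univ, Fintype.card_fin,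
    nsmul_eq_mul]
  have : (Fintype.card A : ℤ) * base gX w i + ∑ j, (gexp (Fintype.card A) i j : ℤ) * base gX w j =
      (Fintype.card A + 1) * ∑ j, base gX w j := by
    fin_cases i <;> simp [Fin.sum_univ_three, gexp] <;> ring
  linarith

omit [Fintype A] in
lemma line_ne (a b c : k) : (gX.s 1 - algebraMap k KX b) -
    algebraMap k KX c * (gX.s 0 - algebraMap k KX a) ≠ 0 := by
  intro h
  have h1 : MvPolynomial.aeval ![gX.s 0, gX.s 1] ((MvPolynomial.X 1 - MvPolynomial.C b) -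
      MvPolynomial.C c * (MvPolynomial.X 0 - MvPolynomial.C a) : MvPolynomial (Fin 2) k) = 0 := by
    simpa using h
  have h2 := (injective_iff_map_eq_zero _).1 gX.indep _ h1
  have h3 := congrArg (MvPolynomial.eval ![a, b + 1]) h2
  simp at h3

lemma trans_of_coord {w : ZVal KX} {B : ValuationSubring KX}
    (hB : ∀ x, x ∈ B ↔ x = 0 ∨ 0 ≤ w.v x) (hA : 2 ≤ Fintype.card A)
    (hk : ∀ c : k, B.valuation (algebraMap k KX c) ≤ 1) {j : Fin 3}
    (hj : ∀ c : k, w.v (gX.s j - algebraMap k KX c) = 0) (i : Fin 3) (aj : Fin 3 → A) :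
    ∃ g ∈ gX.S, ∀ c : k, B.valuation (g / gen gX i (fun j _ => aj j) - algebraMap k KX c) = 1 := by
  obtain ⟨a', ha'⟩ : ∃ a', a' ≠ aj j := Fintype.exists_ne_of_one_lt_card (by omega) _
  obtain ⟨g, hg, h⟩ := exists_swap gX i aj j a'
  refine ⟨g, hg, fun c => ?_⟩
  have hf : gen gX i (fun j _ => aj j) ≠ 0 := fun h0 =>
    gX.zero_notMem_S one_pos (h0 ▸ gen_mem gX i _)
  have hv : ∀ c : k, B.valuation (gX.s j - algebraMap k KX c) = 1 := fun c =>
    val_eq_one hB (sub_ne gX j c) (hj c)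
  have hσ := gX.σ_ne_zero j
  have hs := sub_ne gX j ((aj j : kˣ) : k)
  have h1 : g / gen gX i (fun j _ => aj j) = (gX.s j - algebraMap k KX ((a' : kˣ) : k)) /
      (gX.s j - algebraMap k KX ((aj j : kˣ) : k)) := by
    rw [y_eq, y_eq] at h
    rw [div_eq_div_iff hf hs]
    apply mul_right_cancel₀ hσ
    linear_combination h
  rw [h1]
  by_cases hc : c = 1
  · have h2 : (gX.s j - algebraMap k KX ((a' : kˣ) : k)) /
        (gX.s j - algebraMap k KX ((aj j : kˣ) : k)) - algebraMap k KX c =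
        algebraMap k KX (((aj j : kˣ) : k) - ((a' : kˣ) : k)) /
          (gX.s j - algebraMap k KX ((aj j : kˣ) : k)) := by
      rw [hc, map_one, map_sub]; field_simp; ring
    rw [h2, map_div₀, hv, div_one]
    apply val_const _ hk
    rw [sub_ne_zero]
    intro h
    exact ha' (Subtype.ext (Units.ext h.symm))
  · have hc' : 1 - c ≠ 0 := sub_ne_zero.2 (Ne.symm hc)
    have hc'' : 1 - algebraMap k KX c ≠ 0 := by
      rw [← map_one (algebraMap k KX), ← map_sub]; exact (map_ne_zero _).2 hc'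
    have h2 : (gX.s j - algebraMap k KX ((a' : kˣ) : k)) /
        (gX.s j - algebraMap k KX ((aj j : kˣ) : k)) - algebraMap k KX c =
        algebraMap k KX (1 - c) * (gX.s j - algebraMap k KX
          ((((a' : kˣ) : k) - c * ((aj j : kˣ) : k)) / (1 - c))) /
          (gX.s j - algebraMap k KX ((aj j : kˣ) : k)) := by
      simp only [map_div₀, map_sub, map_mul, map_one]
      field_simp
      ring
    rw [h2, map_div₀, map_mul, hv, hv, val_const _ hk hc']
    simp

lemma trans_of_point {w : ZVal KX} {B : ValuationSubring KX}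
    (hB : ∀ x, x ∈ B ↔ x = 0 ∨ 0 ≤ w.v x)
    (hk : ∀ c : k, B.valuation (algebraMap k KX c) ≤ 1) {a b : A}
    (ha : w.v (gX.s 0 - algebraMap k KX ((a : kˣ) : k)) = 1)
    (hb : w.v (gX.s 1 - algebraMap k KX ((b : kˣ) : k)) = 1)
    (hl : ∀ c : k, w.v ((gX.s 1 - algebraMap k KX ((b : kˣ) : k)) -
        algebraMap k KX c * (gX.s 0 - algebraMap k KX ((a : kˣ) : k))) = 1)
    (aj : Fin 3 → A) (h0 : aj 0 ≠ a) (h1 : aj 1 ≠ b) :
    ∃ g ∈ gX.S, ∀ c : k, B.valuation (g / gen gX 0 (fun j _ => aj j) - algebraMap k KX c) = 1 := by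
  classical
  refine ⟨_, gen_mem gX 1 (fun j _ => aj j), ?_⟩
  have hne : ∀ {x y : A}, x ≠ y → ((x : kˣ) : k) ≠ ((y : kˣ) : k) := fun h h' =>
    h (Subtype.ext (Units.ext h'))
  have hsa := sub_ne gX 0 ((a : kˣ) : k)
  have hr : ∀ c : k, B.valuation ((gX.s 1 - algebraMap k KX ((b : kˣ) : k)) /
      (gX.s 0 - algebraMap k KX ((a : kˣ) : k)) - algebraMap k KX c) = 1 := by
    intro c
    rw [div_sub' hsa, mul_comm]
    have hn := line_ne gX ((a : kˣ) : k) ((b : kˣ) : k) c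
    exact val_eq_one hB (div_ne_zero hn hsa) (by rw [v_div w hn hsa, hl, ha]; simp)
  have hva := val_lt_one hB hsa (by rw [ha]; simp)
  have hvb := val_lt_one hB (sub_ne gX 1 ((b : kˣ) : k)) (by rw [hb]; simp)
  have hκ : Res k B.valuation
      ((∏ x ∈ Finset.univ.erase b, (gX.s 1 - algebraMap k KX ((x : kˣ) : k))) *
        (∏ x ∈ Finset.univ.erase a, (gX.s 0 - algebraMap k KX ((x : kˣ) : k)))⁻¹ *
        (∏ _x : A, (gX.s 0 - algebraMap k KX ((aj 0 : kˣ) : k))) *
        (∏ _x : A, (gX.s 1 - algebraMap k KX ((aj 1 : kˣ) : k)))⁻¹) := by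
    refine (((Res.prod hk _ ?_).mul hk ((Res.prod hk _ ?_).inv hk)).mul hk
      (Res.prod hk _ ?_)).mul hk ((Res.prod hk _ ?_).inv hk)
    · exact fun x hx => Res.sub_const hvb (hne (Finset.ne_of_mem_erase hx))
    · exact fun x hx => Res.sub_const hva (hne (Finset.ne_of_mem_erase hx))
    · exact fun _ _ => Res.sub_const hva (hne h0)
    · exact fun _ _ => Res.sub_const hvb (hne h1)
  intro c
  rw [← hκ.trans_mul hk hr c]
  congr 2
  unfold gen Geo.U
  simp only [y_eq, Finset.prod_mul_distrib, Finset.prod_const, Finset.card_univ, Fintype.card_fin,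
    Fin.prod_univ_three]
  rw [← Finset.mul_prod_erase _ _ (Finset.mem_univ b), ← Finset.mul_prod_erase Finset.univ
    (fun x : A => gX.s 0 - algebraMap k KX ((x : kˣ) : k)) (Finset.mem_univ a)]
  have n1 : ∏ x ∈ Finset.univ.erase a, (gX.s 0 - algebraMap k KX ((x : kˣ) : k)) ≠ 0 :=
    Finset.prod_ne_zero_iff.2 fun x _ => sub_ne gX 0 _
  have n2 := sub_ne gX 0 ((aj 0 : kˣ) : k)
  have n3 := sub_ne gX 1 ((aj 1 : kˣ) : k)
  have n4 := sub_ne gX 2 ((aj 2 : kˣ) : k)
  have n5 := gX.σ_ne_zero 0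
  have n6 := gX.σ_ne_zero 1
  have n7 := gX.σ_ne_zero 2
  have e1 : gexp (Fintype.card A) 0 0 = 1 := rfl
  have e2 : gexp (Fintype.card A) 0 1 = Fintype.card A + 1 := rfl
  have e3 : gexp (Fintype.card A) 0 2 = Fintype.card A + 1 := rfl
  have e4 : gexp (Fintype.card A) 1 0 = Fintype.card A + 1 := rfl
  have e5 : gexp (Fintype.card A) 1 1 = 1 := rfl
  have e6 : gexp (Fintype.card A) 1 2 = Fintype.card A + 1 := rfl
  rw [e1, e2, e3, e4, e5, e6]
  field_simp
  ring

lemma nice_data {w : ZVal KX} (hw : w.Nice A (gX.s 0) (gX.s 1)) {B : ValuationSubring KX}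
    (hB : ∀ x, x ∈ B ↔ x = 0 ∨ 0 ≤ w.v x) (hA : 2 ≤ Fintype.card A)
    (hk : ∀ c : k, B.valuation (algebraMap k KX c) ≤ 1) :
    (∀ j a, 0 ≤ eps gX w j a) ∧
    (∀ i, ∑ p : A × A, w.e (gX.s 0) (gX.s 1) p ≤ ∑ a, eps gX w i a) ∧
    ∃ (i : Fin 3) (aj : Fin 3 → A), (∀ j, eps gX w j (aj j) = 0) ∧
      ∑ a, eps gX w i a = ∑ p : A × A, w.e (gX.s 0) (gX.s 1) p ∧
      ∃ g ∈ gX.S, ∀ c : k,
        B.valuation (g / gen gX i (fun j _ => aj j) - algebraMap k KX c) = 1 := by
  classical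
  have hne : ∀ a : A, ∃ a', a' ≠ a := Fintype.exists_ne_of_one_lt_card (by omega)
  have hc := hw.cases
  simp only [← gX.s_eq_s3] at hc
  rcases hc with ⟨p, h1, h2, h3⟩ | ⟨⟨j, hj⟩, h1 | ⟨j₀, a₀, h1, h2⟩⟩
  · have he : ∀ j a, eps gX w j a = if a = tp p j then 1 else 0 := fun j a => by
      rw [eps, h1, h2]; simp
    have hE : ∑ p' : A × A, w.e (gX.s 0) (gX.s 1) p' = 1 := by
      rw [Finset.sum_eq_single p]
      · rw [ZVal.e, h2, h2]; simp [tp]
      · intro p' _ hp'
        rw [ZVal.e, h2, h2]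
        have : ¬ (p'.1 = p.1 ∧ p'.2 = p.2) := fun h => hp' (Prod.ext h.1 h.2)
        simp only [tp, Matrix.cons_val_zero, Matrix.cons_val_one]
        split_ifs <;> simp_all
      · simp
    have hS : ∀ i, ∑ a, eps gX w i a = 1 := fun i => by simp [he]
    choose aj haj using fun j => hne (tp p j)
    refine ⟨fun j a => by rw [he]; split_ifs <;> simp, fun i => by rw [hE, hS], 0, aj,
      fun j => by rw [he, if_neg (haj j)], by rw [hE, hS], ?_⟩
    exact trans_of_point gX hB hk (a := p.1) (b := p.2) (by rw [h2]; simp [tp])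
      (by rw [h2]; simp [tp]) h3 aj (haj 0) (haj 1)
  · have he : ∀ j a, eps gX w j a = 0 := fun j a => by rw [eps, h1]; simp
    have hE : ∑ p' : A × A, w.e (gX.s 0) (gX.s 1) p' = 0 :=
      Finset.sum_eq_zero fun p _ => by rw [ZVal.e, h1, h1]; omega
    refine ⟨fun j a => (he j a).ge, fun i => by simp [hE, he], 0, fun _ => 1,
      fun j => he _ _, by simp [hE, he], trans_of_coord gX hB hA hk hj _ _⟩
  · have he : ∀ j a, eps gX w j a = if j = j₀ ∧ a = a₀ then 1 else 0 := fun j a => by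
      rw [eps, h1, h2]; simp
    have hE : ∑ p' : A × A, w.e (gX.s 0) (gX.s 1) p' = 0 :=
      Finset.sum_eq_zero fun p _ => by
        rw [ZVal.e, h2, h2]
        split_ifs with h3 h4
        · exact absurd (h3.1.trans h4.1.symm) (by decide)
        all_goals simp
    have hnn : ∀ j a, 0 ≤ eps gX w j a := fun j a => by rw [he]; split_ifs <;> simp
    obtain ⟨a', ha'⟩ := hne a₀
    obtain ⟨i, hi⟩ := exists_ne j₀
    refine ⟨hnn, fun i => by rw [hE]; exact Finset.sum_nonneg fun a _ => hnn i a, i, fun _ => a',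
      fun j => by rw [he, if_neg fun h => ha' h.2], ?_, trans_of_coord gX hB hA hk hj _ _⟩
    rw [hE]
    exact Finset.sum_eq_zero fun a _ => by rw [he, if_neg fun h => hi h.1]

end XSec

end Vale.Agent.P190
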